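import Crest.Agent.R247.G0
import Crest.Agent.R247.A.Mfd

/-! # Row 247, block A (OWNER task): the calculus of a Riemannian manifold

Build `Geo n M`.  Suggested definitions (`c x = chartAt (E n) x`, `gm x = chartMetric n M x`, `y₀ = chartCentre n M x = c x x`):
* `S f := ContMDiff 𝓘(ℝ, E n) 𝓘(ℝ, ℝ) ∞ f`, `Sm I F := ∀ x, ContDiffOn ℝ ∞ (fun p : ℝ × E n => F p.1 ((c x).symm p.2)) (I ×ˢ (c x).target)`
  (then `Sm_ch`, `Sm_of_ch` are trivial; one may also DEFINE `S f := Sm univ fun _ => f`; `S_ext` uses that transition maps are smooth).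
* choose at each `x` a matrix `B x` with `(B x)ᵀ * B x = (gm x y₀)⁻¹` (square root / `posDef_iff_eq_conjTranspose_mul_self`); with `f̂ = f ∘ (c x).symm`:
  `grad f x = B x *ᵥ (∂ f̂ y₀)`, `hess f x = B x * (∂ᵢ∂ⱼ f̂ - Σ_l christoffel l i j ∂_l f̂) * (B x)ᵀ`, `ric x = B x * ricci (gm x) y₀ * (B x)ᵀ`, `k = max (-K) 0`.
* A1 (pure coordinates, `IsRiemannianOn g U`): `∂ g⁻¹ = -Γ g⁻¹ - …`, `∂ᵢ log √det g = Σ Γᵏₖᵢ`, `laplaceBeltrami g f = Σ gⁱʲ (∂ᵢ∂ⱼ f - Γ ∂ f)`,
  `∂ₖ (gⁱʲ ∂ᵢ f ∂ⱼ h) = …`, the Ricci identity and the Bochner formula at every point of `U`; integration by parts in `ℝⁿ` with density `√det g`.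
* A2: `gm_riem`; `Γ_ch` (both sides equal the inner product of the Riesz duals of `mfderiv f`, `mfderiv g`; or by the transformation rule
  `gm x = (Dτ)ᵀ (gm x') (Dτ)` for the transition map `τ`).
* A3: the measure: `M` is proper (`G0`, needs `mid` first) hence second countable; countably many chart sources cover; disjointify; `m = Σ` push-forwards of
  `√det g · volume`; `m_ch` for EVERY chart by the change of variables formula `lintegral_image_eq_lintegral_abs_det_fderiv_mul`.
* A4: in every chart `Δ f ∘ (c x).symm = laplaceBeltrami (gm x) f̂` on the target (both charts give the same integrals against test functions supported in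
  the overlap, by `Γ_ch`, `m_ch`, integration by parts; continuity); hence `Sm_Δ`, `bochner` (use the chart at `x` on a neighbourhood of `y₀`), `ibp` (finite smooth
  partition of unity on the support of `f`, e.g. from `SmoothPartitionOfUnity` or by hand).
* A5: `dist_ch` and `mid` from `IsRiemannianManifold` (`riemannianEDist`, `pathELength`; see the proofs of
  `eventually_riemannianEDist_le_edist_extChartAt` and `setOfPred_riemannianEDist_lt_subset_nhds`). -/

set_option autoImplicit false
set_option linter.unusedSectionVars false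
set_option linter.unusedVariables false
open MeasureTheory Filter Set Metric Matrix
open scoped ENNReal NNReal Topology ContDiff
open Crest.GeometryTopology.CoordMetric

noncomputable section
namespace Crest.Agent.R247
universe u

open Bundle Crest.GeometryTopology.ChartCurvature Crest.GeometryTopology.PointedLimit
open scoped Manifold

theorem exists_geo (n : ℕ) (K : ℝ) (M : Type u) [MetricSpace M] [CompleteSpace M] [ConnectedSpace M]
    [ChartedSpace (E n) M] [IsManifold 𝓘(ℝ, E n) ∞ M]
    [RiemannianBundle (fun x : M => TangentSpace 𝓘(ℝ, E n) x)]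
    [IsContMDiffRiemannianBundle 𝓘(ℝ, E n) ∞ (E n) (fun x : M => TangentSpace 𝓘(ℝ, E n) x)]
    [IsRiemannianManifold 𝓘(ℝ, E n) M] [MeasurableSpace M] [BorelSpace M]
    (hK : HasRicciLowerBound n M K) :
    ProperSpace M ∧ ∃ g : Geo n M, g.k = max (-K) 0 := by
  have : LocallyCompactSpace M := ChartedSpace.locallyCompactSpace (E n) M
  have hP : ProperSpace M := properSpace_of_mid (A.mid n)
  let a := A.atl n M
  obtain ⟨m, hm⟩ := a.exists_m
  exact ⟨hP,
    { m := m
      k := max (-K) 0
      S := a.S
      Sm := a.Sm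
      grad := a.grad
      hess := a.hess
      ric := a.ric
      ch := a.ch
      gm := a.gm
      fin_cpt := A.Atl.m_fin hm
      open_pos := A.Atl.m_pos hm
      k_nonneg := le_max_right _ _
      S_iff := fun _ => Iff.rfl
      Sm_slice := A.Atl.Sm.slice
      Sm_congr := A.Atl.Sm.congr
      Sm_cont := A.Atl.Sm.cont
      Sm_time := fun h x => h.comp contDiffOn_fst fun _ hp => hp.1
      Sm_add := fun h h' x => (h x).add (h' x)
      Sm_comp := fun h _ hφ hO x => hφ.comp (h x) fun _ hp => hO _ hp.1 _
      Sm_reparam := fun h hτ hm x => (h x).comp ((hτ.comp contDiffOn_fst fun _ hp => hp.1).prodMk contDiffOn_snd)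
        fun _ hp => ⟨hm hp.1, hp.2⟩
      Sm_dt := fun hI h x => A.par_dt hI (a.op x) (h x)
      Sm_deriv := A.Atl.Sm.deriv
      grad_dt := A.Atl.Sm.grad_dt
      hess_dt := A.Atl.Sm.hess_dt
      Sm_Γ := A.Atl.Sm.Γ
      Sm_Δ := A.Atl.Sm.Δ
      grad_add := A.Atl.grad_add
      hess_add := A.Atl.hess_add
      grad_comp := A.Atl.grad_comp
      hess_comp := A.Atl.hess_comp
      grad_congr := A.Atl.grad_congr
      hess_congr := A.Atl.hess_congr
      hess_symm := A.Atl.hess_symm
      grad_Γ := A.Atl.grad_Γ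
      ric_symm := A.Atl.ric_symm
      ric_ge := A.Atl.ric_ge hK
      bochner := A.Atl.bochner
      ibp := A.Atl.ibp hm
      mem_ch := a.mem
      gm_riem := a.riem
      Sm_ch := fun h => h
      Sm_of_ch := fun h => h
      S_ext := A.Atl.S_ext
      Γ_ch := fun hf hg x y hy => (A.Atl.Γ_ch hf hg x hy).trans (by
        simp only [A.cΓ, A.cX, A.dv, dotProduct, mulVec, Finset.mul_sum]
        exact Finset.sum_congr rfl fun _ _ => Finset.sum_congr rfl fun _ _ => mul_left_comm _ _ _ |>.trans
          (mul_assoc _ _ _).symm)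
      m_ch := fun x φ hφ => by rw [hm, a.lint_μ x hφ]; rfl
      dist_ch := A.dist_ch
      mid := A.mid n }, rfl⟩

end Crest.Agent.R247
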