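import Crest.Agent.R247.C.End

/-! # Row 247, block C (OWNER task): the multiscale construction (finite-dimensional algebra only)

Notation `r k = rk r₀ k`, `κ̃ k x = acc (κ · x) k`, `g = G⁻¹`, `|ζ|_G` for covectors, `|a|_g` for vectors.  Elementary consequences of the data (ε small after `C`):
`G (k+1) ≤ (1+κ k) G k`, `G (k+1) ≥ (1-2ε) G k`, `A k ≤ 4ε G k`, `A i ≤ 2^(k-i) A k`, `κ̃ i ≤ 2^(k-i) κ̃ k`, `Σ_k κ̃ k ≤ 2ε`, `G k x' ≍ G k x` (factor 2) for `d ≤ R r k`,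
`d² ≤ 2Ca² g_k(x)(u z - u x)` for all `d ≥ r (k+1)`; a sandwich `± B ≤ N` gives `|B(η,ξ)| ≤ √(N η η) √(N ξ ξ)`.

**Construction.**  For each `k` a finite `r k`-separated `r k`-net `x_b` of `U`; `R₅ = 4Ca²`, `U_b = U ∩ closedBall x_b (R₅ r k)`, `p_b ∈ U_b` with `κ̃ k p_b ≤ 2 κ̃ k x` on `U_b`
(`κ_pos`); `φ_b(y) = (max (1 - g_k(x_b)(y - u x_b)/(2Ca² r k²)) 0)²` (so `φ_b(u x) ≥ 1/4` if `d(x,x_b) ≤ r k`, and `φ_b(u x) ≠ 0 → d(x,x_b) ≤ 2Ca² r k`), explicit gradient covector `∇φ_b(y)`,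
elementary Taylor bounds (`χ(s) = (1-s)₊²` has `|χ(s') - χ(s) - χ'(s)(s'-s)| ≤ (s'-s)²`, `χ'` 2-Lipschitz).  At most `N₀(n,Ca,C)` net points within `2R₅ r k` of a point (packing in `ℝⁿ`).
Recursively `B 0 x = 1`, `F 0 = u`, `R k x = B G Bᵀ - 1`, `P_b = -R k p_b * B k p_b`, `Λ_b = γ P_b * Y k p_b * g_k(p_b)`,
`F (k+1) x = F k x + Σ_b φ_b(u x) Λ_b (u x - u p_b)`, `B (k+1) x = B k x + Σ_b (φ_b(u x) Λ_b + Λ_b (u x - u p_b) ⊗ ∇φ_b(u x))`, `γ = 16 C`.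

**Barriers** (induction on `k`, all `x ∈ U`): `S₊ = η_k - R - ½ B A Bᵀ ≥ 0`, `S₋ = R + β_k - ½ B A Bᵀ ≥ 0`, `η_k = β_k = ½ + C' Σ_{j<k} κ̃ j x ≤ 3/4`.  Fix `x, k, v`, a sign; `a(v)² = S(v,v)`,
`a_A(v)² = B A Bᵀ (v,v)`, `τ(v) = a_A(v) + √κ̃_k |v| + a(v)`.  Then `R v = ±η v + s`, `|s| ≤ Cτ(v)`.
(ST) for `j ≤ k` let `ω_j` be the max over level-`j` indices `b` with `d(x,x_b) ≤ R₅ r j` of `|(B_j(p_b) - B_k(x))ᵀ v|_{G_k} + |(B_j(p_b) - B_k(x))ᵀ R_k v|_{G_k} + |(R_j(p_b) - R_k(x)) v|`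
(this index set is closed under passing to the level-`i<j` indices active at `u p_b` or `u x`).  Expand `B_j(p_b) - B_k(x) = Σ_{i<j}(DΨ_i(u p_b) - DΨ_i(u x)) - Σ_{j≤i<k} DΨ_i(u x)`;
each `DΨ_i = γ Σ P Y T`, `|T| ≤ C`, differences `≤ C 4^{-(j-i)}`; acting on the left use `√Y(Pᵀv) ≤ C 2^{(k-i)/2} τ(v) + √ε ω_i`; acting on the right on `w = G_k B_kᵀ v` use
`|Y g w| ≤ C√ε 2^{(k-i)/2} τ(v)` (`G_var`, `G_succ`) and, for the terms `Y g (u p_b - u x)`, `Y g (u x - u p_{b'})`, the hypothesis `split` with levels `i ≤ j`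
(transfer `g_j(x) → g_i(p_{b'})` through `G_var`, `G_succ`).  Write `R_a - R = B_a G_a (B_a - B)ᵀ + B_a (G_a - G) Bᵀ + (B_a - B) G Bᵀ`, so the `R`-part of `ω_j` is `≤ C ·` (its `B`-part) `+ C (3/2)^{k-j} τ`, and only the `B`-part recurses, with a factor `ε`.  So `ω_j ≤ C (3/2)^{k-j} τ + C√ε (Σ_{i≥j} + Σ_{i<j} 4^{-(j-i)}) 2^{|…|/8} ω_i`; the weighted max `max_j ω_j (3/5)^{k-j}` is `≤ Cτ(v)`.
Step: with `D = B' - B`, `N̂ = Σ φ_b B Y_b Bᵀ` (`B Dp Bᵀ /(4C) ≤ N̂ ≤ C N₀ B A Bᵀ`), `Q'(v,v) = Q(v,v) - Dp(Bᵀv) + 2 (Dᵀv)·G' Bᵀ v + |Dᵀ v|²_{G'} ± κ`, main part of the cross term `∓2γη N̂(v,v)`,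
all other terms `≤ ½ a² + (1/16) a_A² + C' κ̃ |v|²`; the Lyapunov term gains `½(1 - 3/4) a_A²` and costs `Dp(Bᵀ v)`.
**End.**  `Q ∈ [1/4, 2]`; `|F(k+1) - F k| ≤ C√ε r k`; for `r(k+1) ≤ d(x,z) < r k`: `|F k z - F k x - B k x (u z - u x)| ≤ C√ε r k` (Taylor; only indices active at `u x` or `u z` count),
`|B a|² ∈ [1/4, 2] g(a,a)`, `up₁`, `low`.  `F = lim F k`. -/

set_option autoImplicit false
set_option linter.unusedSectionVars false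
set_option linter.unusedVariables false
open MeasureTheory Filter Set Metric Matrix
open scoped ENNReal NNReal Topology ContDiff
open Crest.GeometryTopology.CoordMetric

noncomputable section
namespace Crest.Agent.R247
universe u



theorem thmC (n : ℕ) (Ca : ℝ) (hCa : 1 ≤ Ca) : ∃ R L : ℝ, 1 ≤ R ∧ 1 ≤ L ∧ ∀ C : ℝ, 1 ≤ C →
    ∃ ε : ℝ, 0 < ε ∧ ∀ {M : Type u} [MetricSpace M] (U : Set M) (D : CData n U Ca R C ε),
      ∃ F : M → E n, BiLip L F U := by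
  have hR : 16 ≤ 16 * Ca ^ 2 := by nlinarith
  refine ⟨16 * Ca ^ 2, 4 * Ca, by linarith, by linarith, fun C hC => ?_⟩
  obtain ⟨N₀, hN, hν⟩ := MC.exists_net.{u} n hCa C
  have hN' : (1 : ℝ) ≤ N₀ := by exact_mod_cast hN
  generalize hRe : 16 * Ca ^ 2 = R at *
  set K := 2000 * N₀ * C ^ 4 * R with hK
  have hK0 : 0 < K * C * R ^ 2 := by positivity
  set δ := 1 / 1000 / (K * C * R ^ 2) with hδ
  have hδ0 : 0 < δ := by positivity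
  have h1 : K * C * R ^ 2 * δ = 1 / 1000 := mul_div_cancel₀ _ hK0.ne'
  have hs : MC.Sm R C δ := ⟨hR, hC, hδ0, h1 ▸ mul_le_mul_of_nonneg_right (by
    have h2 : (1 : ℝ) ≤ 2000 * N₀ * C ^ 3 * R ^ 2 :=
      one_le_mul_of_one_le_of_one_le (one_le_mul_of_one_le_of_one_le (by linarith)
        (one_le_pow₀ hC)) (one_le_pow₀ (by linarith))
    calc C ^ 2 * R = C ^ 2 * R * 1 := (mul_one _).symm
      _ ≤ C ^ 2 * R * (2000 * N₀ * C ^ 3 * R ^ 2) := by gcongr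
      _ = K * C * R ^ 2 := by rw [hK]; ring) hδ0.le⟩
  exact ⟨δ ^ 2, by positivity, fun U D =>
    MC.exists_bilip ⟨hCa, hRe.symm, hs, hN, hK, h1.le⟩ D (hν δ hs D)⟩

end Crest.Agent.R247
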