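import Mathlib
import Crest.Prelude.Def_PointedLimit

/-!
# Row 247 (S0381): definitions

`Geo n M`  : first and second order calculus of a smooth Riemannian `n`-manifold with `Ric ≥ -k`
             (gradient and Hessian in an orthonormal frame chosen at each point; no measurability of the frame).
`HS n M`   : the same together with the heat kernel.
`Sp n`     : a bundled proper space with a heat structure.
`CData`    : the finite-dimensional data of the multiscale construction (Theorem C).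
-/

set_option autoImplicit false
set_option linter.unusedSectionVars false
set_option linter.unusedVariables false
open MeasureTheory Filter Set Metric Matrix
open scoped ENNReal NNReal Topology ContDiff
open Crest.GeometryTopology.CoordMetric

noncomputable section
namespace Crest.Agent.R247
universe u

abbrev E (n : ℕ) : Type := EuclideanSpace ℝ (Fin n)
abbrev V (n : ℕ) : Type := Fin n → ℝ
abbrev Mat (n : ℕ) : Type := Matrix (Fin n) (Fin n) ℝ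

/-- The quadratic form of a matrix. -/
def qf {n : ℕ} (A : Mat n) (v : V n) : ℝ := v ⬝ᵥ A *ᵥ v

/-- The bilinear form of a matrix. -/
def bf {n : ℕ} (A : Mat n) (v w : V n) : ℝ := v ⬝ᵥ A *ᵥ w

/-- Time derivative of a space-time function. -/
def dt {M : Type u} (F : ℝ → M → ℝ) (t : ℝ) (x : M) : ℝ := deriv (fun s => F s x) t

/-- Raw data of the calculus. `S f`: `f` is smooth; `Sm I F`: `F` is smooth on `I × M`. -/
structure Raw (n : ℕ) (M : Type u) [MetricSpace M] [MeasurableSpace M] where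
  m : Measure M
  k : ℝ
  S : (M → ℝ) → Prop
  Sm : Set ℝ → (ℝ → M → ℝ) → Prop
  grad : (M → ℝ) → M → V n
  hess : (M → ℝ) → M → Mat n
  ric : M → Mat n
  ch : M → OpenPartialHomeomorph M (E n)
  gm : M → MetricField n

section
variable {n : ℕ} {M : Type u} [MetricSpace M] [MeasurableSpace M]

/-- Carré du champ. -/
def Raw.Γ (c : Raw n M) (f g : M → ℝ) (x : M) : ℝ := c.grad f x ⬝ᵥ c.grad g x

/-- Laplacian. -/
def Raw.Δ (c : Raw n M) (f : M → ℝ) (x : M) : ℝ := (c.hess f x).trace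

/-- `Γ₂ + kΓ`, a positive semidefinite bilinear form dominating the Hessian. -/
def Raw.Γ2 (c : Raw n M) (f g : M → ℝ) (x : M) : ℝ :=
  (c.Δ (c.Γ f g) x - c.Γ f (c.Δ g) x - c.Γ g (c.Δ f) x) / 2 + c.k * c.Γ f g x

/-- The deficit `|Hess f - a|² + (Ric + k)(∇f, ∇f)`. -/
def Raw.D (c : Raw n M) (f : M → ℝ) (a : ℝ) (x : M) : ℝ :=
  c.Γ2 f f x - 2 * a * c.Δ f x + n * a ^ 2

/-- `Hess f (∇g, ∇w)` written through `Γ` (hence smooth). -/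
def Raw.Hs (c : Raw n M) (f g w : M → ℝ) (x : M) : ℝ :=
  (c.Γ g (c.Γ f w) x + c.Γ w (c.Γ f g) x - c.Γ f (c.Γ g w) x) / 2

end

/-- The calculus of a smooth Riemannian manifold with `Ric ≥ -k`. -/
structure Geo (n : ℕ) (M : Type u) [MetricSpace M] [MeasurableSpace M] extends Raw n M where
  fin_cpt : IsFiniteMeasureOnCompacts m
  open_pos : m.IsOpenPosMeasure
  k_nonneg : 0 ≤ k
  S_iff : ∀ f, S f ↔ Sm univ fun _ => f
  Sm_slice : ∀ {I F t}, Sm I F → t ∈ I → S (F t)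
  Sm_congr : ∀ {I F G}, Sm I F → (∀ t ∈ I, G t = F t) → Sm I G
  Sm_cont : ∀ {I F}, Sm I F → ContinuousOn (fun p : ℝ × M => F p.1 p.2) (I ×ˢ univ)
  Sm_time : ∀ {I} {a : ℝ → ℝ}, ContDiffOn ℝ ∞ a I → Sm I fun t _ => a t
  Sm_add : ∀ {I F G}, Sm I F → Sm I G → Sm I fun t x => F t x + G t x
  Sm_comp : ∀ {I F} {φ : ℝ → ℝ} {O : Set ℝ}, Sm I F → IsOpen O → ContDiffOn ℝ ∞ φ O →
    (∀ t ∈ I, ∀ x, F t x ∈ O) → Sm I fun t x => φ (F t x)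
  Sm_reparam : ∀ {I J F} {τ : ℝ → ℝ}, Sm I F → ContDiffOn ℝ ∞ τ J → MapsTo τ J I →
    Sm J fun t => F (τ t)
  Sm_dt : ∀ {I F}, IsOpen I → Sm I F → Sm I (dt F)
  Sm_deriv : ∀ {I F t}, IsOpen I → Sm I F → t ∈ I → ∀ x, HasDerivAt (fun s => F s x) (dt F t x) t
  grad_dt : ∀ {I F t}, IsOpen I → Sm I F → t ∈ I → ∀ x i,
    HasDerivAt (fun s => grad (F s) x i) (grad (dt F t) x i) t
  hess_dt : ∀ {I F t}, IsOpen I → Sm I F → t ∈ I → ∀ x i j,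
    HasDerivAt (fun s => hess (F s) x i j) (hess (dt F t) x i j) t
  Sm_Γ : ∀ {I F G}, IsOpen I → Sm I F → Sm I G → Sm I fun t => toRaw.Γ (F t) (G t)
  Sm_Δ : ∀ {I F}, IsOpen I → Sm I F → Sm I fun t => toRaw.Δ (F t)
  grad_add : ∀ {f g}, S f → S g → ∀ x, grad (fun y => f y + g y) x = grad f x + grad g x
  hess_add : ∀ {f g}, S f → S g → ∀ x, hess (fun y => f y + g y) x = hess f x + hess g x
  grad_comp : ∀ {f} {φ : ℝ → ℝ} {O : Set ℝ}, S f → IsOpen O → ContDiffOn ℝ ∞ φ O → (∀ y, f y ∈ O) →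
    ∀ x, grad (fun y => φ (f y)) x = deriv φ (f x) • grad f x
  hess_comp : ∀ {f} {φ : ℝ → ℝ} {O : Set ℝ}, S f → IsOpen O → ContDiffOn ℝ ∞ φ O → (∀ y, f y ∈ O) →
    ∀ x, hess (fun y => φ (f y)) x =
      deriv φ (f x) • hess f x + deriv (deriv φ) (f x) • vecMulVec (grad f x) (grad f x)
  grad_congr : ∀ {f g x}, f =ᶠ[𝓝 x] g → grad f x = grad g x
  hess_congr : ∀ {f g x}, f =ᶠ[𝓝 x] g → hess f x = hess g x
  hess_symm : ∀ {f}, S f → ∀ x, (hess f x).IsSymm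
  grad_Γ : ∀ {f g}, S f → S g → ∀ x,
    grad (toRaw.Γ f g) x = hess f x *ᵥ grad g x + hess g x *ᵥ grad f x
  ric_symm : ∀ x, (ric x).IsSymm
  ric_ge : ∀ x v, -k * (v ⬝ᵥ v) ≤ qf (ric x) v
  bochner : ∀ {f}, S f → ∀ x, toRaw.Δ (toRaw.Γ f f) x =
    2 * toRaw.Γ f (toRaw.Δ f) x + 2 * (∑ i, ∑ j, hess f x i j ^ 2) + 2 * qf (ric x) (grad f x)
  ibp : ∀ {f g}, S f → S g → HasCompactSupport f →
    ∫ x, toRaw.Γ f g x ∂m = -∫ x, f x * toRaw.Δ g x ∂m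
  mem_ch : ∀ x, x ∈ (ch x).source
  gm_riem : ∀ x, IsRiemannianOn (gm x) (ch x).target
  Sm_ch : ∀ {I F}, Sm I F → ∀ x,
    ContDiffOn ℝ ∞ (fun p : ℝ × E n => F p.1 ((ch x).symm p.2)) (I ×ˢ (ch x).target)
  Sm_of_ch : ∀ {I} {F : ℝ → M → ℝ}, (∀ x,
    ContDiffOn ℝ ∞ (fun p : ℝ × E n => F p.1 ((ch x).symm p.2)) (I ×ˢ (ch x).target)) → Sm I F
  S_ext : ∀ x {φ : E n → ℝ}, ContDiff ℝ ∞ φ → HasCompactSupport φ → tsupport φ ⊆ (ch x).target →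
    S ((ch x).source.indicator fun z => φ (ch x z))
  Γ_ch : ∀ {f g}, S f → S g → ∀ x, ∀ y ∈ (ch x).target, toRaw.Γ f g ((ch x).symm y) =
    ∑ i, ∑ j, (gm x y)⁻¹ i j * pderiv i (fun z => f ((ch x).symm z)) y *
      pderiv j (fun z => g ((ch x).symm z)) y
  m_ch : ∀ x (φ : M → ℝ≥0∞), Measurable φ → ∫⁻ z in (ch x).source, φ z ∂m =
    ∫⁻ y in (ch x).target, φ ((ch x).symm y) * ENNReal.ofReal (Real.sqrt (gm x y).det)
  dist_ch : ∀ x, ∀ y₀ ∈ (ch x).target, ∀ η : ℝ, 0 < η → ∀ᶠ p : E n × E n in 𝓝 (y₀, y₀),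
    quadForm (gm x) y₀ (p.1 - p.2) ≤ (1 + η) * dist ((ch x).symm p.1) ((ch x).symm p.2) ^ 2 ∧
    dist ((ch x).symm p.1) ((ch x).symm p.2) ^ 2 ≤ (1 + η) * quadForm (gm x) y₀ (p.1 - p.2)
  mid : ∀ x y : M, ∀ ε : ℝ, 0 < ε →
    ∃ z, dist x z ≤ dist x y / 2 + ε ∧ dist z y ≤ dist x y / 2 + ε

/-- Integration against a kernel. -/
def kerP {M : Type u} [MeasurableSpace M] (m : Measure M) (H : ℝ → M → M → ℝ) (t : ℝ) (f : M → ℝ)
    (x : M) : ℝ := ∫ y, H t x y * f y ∂m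

/-- The calculus together with the (minimal) heat kernel. -/
structure HS (n : ℕ) (M : Type u) [MetricSpace M] [MeasurableSpace M] extends Geo n M where
  H : ℝ → M → M → ℝ
  H_symm : ∀ {t}, 0 < t → ∀ x y, H t x y = H t y x
  H_nonneg : ∀ {t}, 0 < t → ∀ x y, 0 ≤ H t x y
  H_Sm : ∀ x, Sm (Ioi 0) fun t => H t x
  H_heat : ∀ {t}, 0 < t → ∀ x y, dt (fun s => H s x) t y = toRaw.Δ (H t x) y
  H_L2 : ∀ {t}, 0 < t → ∀ x, MemLp (H t x) 2 m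
  H_int : ∀ {t}, 0 < t → ∀ x, Integrable (H t x) m ∧ ∫ y, H t x y ∂m ≤ 1
  H_add : ∀ {s t}, 0 < s → 0 < t → ∀ x y, H (s + t) x y = ∫ z, H s x z * H t y z ∂m
  P_Sm : ∀ {f}, MemLp f 2 m → Sm (Ioi 0) fun t => kerP m H t f
  P_heat : ∀ {f t}, MemLp f 2 m → 0 < t → ∀ x,
    dt (fun s => kerP m H s f) t x = toRaw.Δ (kerP m H t f) x
  P_L2 : ∀ {f t}, MemLp f 2 m → 0 < t →
    MemLp (kerP m H t f) 2 m ∧ ∫ x, kerP m H t f x ^ 2 ∂m ≤ ∫ x, f x ^ 2 ∂m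
  P_lap_L2 : ∀ {f t}, MemLp f 2 m → 0 < t → MemLp (toRaw.Δ (kerP m H t f)) 2 m
  P_lap : ∀ {f s t}, MemLp f 2 m → 0 < s → 0 < t →
    toRaw.Δ (kerP m H (s + t) f) = kerP m H s (toRaw.Δ (kerP m H t f))
  P_lap_c : ∀ {f t}, S f → HasCompactSupport f → 0 < t →
    toRaw.Δ (kerP m H t f) = kerP m H t (toRaw.Δ f)
  P_grad : ∀ {f t}, MemLp f 2 m → 0 < t →
    Integrable (toRaw.Γ (kerP m H t f) (kerP m H t f)) m ∧
    ∫ x, toRaw.Γ (kerP m H t f) (kerP m H t f) x ∂m ≤ (∫ x, f x ^ 2 ∂m) / (2 * t)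
  P_zero : ∀ {f}, MemLp f 2 m →
    Tendsto (fun t => ∫ x, (kerP m H t f x - f x) ^ 2 ∂m) (𝓝[>] 0) (𝓝 0)
  P_zero_grad : ∀ {f}, S f → HasCompactSupport f →
    Tendsto (fun t => ∫⁻ x, ENNReal.ofReal
      (toRaw.Γ (fun y => kerP m H t f y - f y) (fun y => kerP m H t f y - f y) x) ∂m) (𝓝[>] 0) (𝓝 0)

/-- The heat semigroup. -/
def HS.P {n : ℕ} {M : Type u} [MetricSpace M] [MeasurableSpace M] (h : HS n M) (t : ℝ)
    (f : M → ℝ) (x : M) : ℝ := kerP h.m h.H t f x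

/-- A proper space with a heat structure. -/
structure Sp (n : ℕ) where
  M : Type u
  [ms : MetricSpace M]
  [me : MeasurableSpace M]
  [bo : BorelSpace M]
  [pr : ProperSpace M]
  h : HS n M

attribute [instance] Sp.ms Sp.me Sp.bo Sp.pr

/-- `(M, q)` is, at scale `r`, `(R, η)`-close to `(ℝⁿ, 0)`. -/
def GHc (n : ℕ) {M : Type u} [MetricSpace M] (q : M) (r R η : ℝ) : Prop :=
  ∃ ι : M → E n, ι q = 0 ∧
    (∀ x x', dist q x < R * r → dist q x' < R * r → |dist (ι x) (ι x') - dist x x'| ≤ η * r) ∧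
    ∀ y : E n, ‖y‖ < (R - 1) * r → ∃ x, dist q x < R * r ∧ dist (ι x) y ≤ η * r

/-- `F` is `L`-bi-Lipschitz on `U`. -/
def BiLip {M : Type u} [MetricSpace M] {n : ℕ} (L : ℝ) (F : M → E n) (U : Set M) : Prop :=
  ∀ x ∈ U, ∀ z ∈ U, L⁻¹ * dist x z ≤ dist (F x) (F z) ∧ dist (F x) (F z) ≤ L * dist x z

/-- Scales of the multiscale construction. -/
def rk (r₀ : ℝ) (k : ℕ) : ℝ := r₀ / 4 ^ k

/-- Accumulated errors `κ̃_k = Σ_{j ≤ k} 2^{-(k-j)} κ_j`. -/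
def acc (κ : ℕ → ℝ) (k : ℕ) : ℝ := ∑ j ∈ Finset.range (k + 1), κ j / 2 ^ (k - j)

/-- Data of Theorem C on the set `U` (diameter `< r₀`).  `G k x` is the averaged inverse metric in
the coordinates `u` at scale `rk r₀ k`, `Dp k x ≈ G k x - G (k+1) x`, `A k x` the accumulated drops,
`Y k x` the drop used for the correction, `κ k x` the summable error. -/
structure CData (n : ℕ) {M : Type u} [MetricSpace M] (U : Set M) (Ca R C ε : ℝ) where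
  r₀ : ℝ
  u : M → V n
  G : ℕ → M → Mat n
  Dp : ℕ → M → Mat n
  A : ℕ → M → Mat n
  Y : ℕ → M → Mat n
  κ : ℕ → M → ℝ
  r₀_pos : 0 < r₀
  tb : TotallyBounded U
  diam : ∀ x ∈ U, ∀ z ∈ U, dist x z < r₀
  G_pd : ∀ k, ∀ x ∈ U, (G k x).PosDef
  Dp_psd : ∀ k, ∀ x ∈ U, (Dp k x).PosSemidef
  A_psd : ∀ x ∈ U, (A 0 x).PosSemidef
  Y_psd : ∀ k, ∀ x ∈ U, (Y k x).PosSemidef
  A_succ : ∀ k, ∀ x ∈ U, A (k + 1) x = (1 / 2 : ℝ) • A k x + Dp k x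
  κ_pos : ∀ k, ∃ e : ℝ, 0 < e ∧ ∀ x ∈ U, e ≤ κ k x
  κ_sum : ∀ x ∈ U, ∀ N, ∑ k ∈ Finset.range N, κ k x ≤ ε
  G_zero : ∀ x ∈ U, ∀ v, |qf (G 0 x) v - v ⬝ᵥ v| ≤ ε * (v ⬝ᵥ v)
  G_succ : ∀ k, ∀ x ∈ U, ∀ v, |qf (G k x - G (k + 1) x - Dp k x) v| ≤ κ k x * qf (G k x) v
  A_zero : ∀ x ∈ U, ∀ v, qf (A 0 x) v ≤ ε * qf (G 0 x) v
  Dp_le : ∀ k, ∀ x ∈ U, ∀ v, qf (Dp k x) v ≤ ε * qf (G k x) v
  Dp_Y : ∀ k, ∀ x ∈ U, ∀ x' ∈ U, dist x x' ≤ R * rk r₀ k → ∀ v, qf (Dp k x) v ≤ C * qf (Y k x') v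
  Y_A : ∀ k, ∀ x ∈ U, ∀ x' ∈ U, dist x x' ≤ R * rk r₀ k → ∀ v, qf (Y k x') v ≤ C * qf (A k x) v
  G_var : ∀ k, ∀ x ∈ U, ∀ x' ∈ U, dist x x' ≤ R * rk r₀ k → ∀ v,
    |qf (G k x' - G k x) v| ≤ C * (qf (A k x) v + acc (fun j => κ j x) k * qf (G k x) v)
  split : ∀ i j, i ≤ j → ∀ x ∈ U, ∀ p ∈ U, dist x p ≤ R * rk r₀ j →
    qf (A i x) ((G j x)⁻¹ *ᵥ (u p - u x)) ≤ C * rk r₀ j ^ 2 * 2 ^ (j - i) * (κ j x + κ j p)
  up₁ : ∀ k, ∀ x ∈ U, ∀ z ∈ U, dist x z ≤ 4 * rk r₀ k → qf (G k x)⁻¹ (u z - u x) ≤ Ca ^ 2 * dist x z ^ 2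
  up₂ : ∀ k, ∀ x ∈ U, ∀ z ∈ U, dist x z ≤ R * rk r₀ k → qf (G k x)⁻¹ (u z - u x) ≤ C * dist x z ^ 2
  low : ∀ k, ∀ x ∈ U, ∀ z ∈ U, rk r₀ (k + 1) ≤ dist x z → dist x z ≤ rk r₀ k →
    dist x z ^ 2 ≤ Ca ^ 2 * qf (G k x)⁻¹ (u z - u x)

end Crest.Agent.R247
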