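import Crest.Agent.R247.G5

/-! # Row 247: definitions for the heat theory -/

set_option autoImplicit false
set_option linter.unusedSectionVars false
set_option linter.unusedVariables false
open MeasureTheory Filter Set Metric Matrix
open scoped ENNReal NNReal Topology ContDiff
open Crest.GeometryTopology.CoordMetric

noncomputable section
namespace Crest.Agent.R247
universe u



section
variable {n : ℕ} {M : Type u} [MetricSpace M] [MeasurableSpace M]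

/-- Space-time integrability on `(a,b] × M`. -/
def Geo.STI (g : Geo n M) (a b : ℝ) (Q : ℝ → M → ℝ) : Prop :=
  Integrable (fun p : ℝ × M => Q p.1 p.2) ((volume.restrict (Ioc a b)).prod g.m)

/-- Smooth functions of finite energy. -/
def Geo.H1 (g : Geo n M) (f : M → ℝ) : Prop := g.S f ∧ MemLp f 2 g.m ∧ Integrable (g.Γ f f) g.m

/-- Bounded `L²` functions. -/
def Geo.Bd (g : Geo n M) (f : M → ℝ) : Prop := MemLp f 2 g.m ∧ ∃ B, ∀ y, |f y| ≤ B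

/-- Smooth, finite energy, bounded with bounded gradient. -/
def Geo.Nice (g : Geo n M) (f : M → ℝ) : Prop := g.H1 f ∧ ∃ B, ∀ y, |f y| ≤ B ∧ g.Γ f f y ≤ B

/-- On-diagonal heat kernel. -/
def HS.th (h : HS n M) (t : ℝ) (x : M) : ℝ := h.H t x x

/-- The potential `φ = -log H`. -/
def HS.φ (h : HS n M) (t : ℝ) (x y : M) : ℝ := -Real.log (h.H t x y)

/-- The Li-Yau quantity. -/
def HS.ζ (h : HS n M) (t : ℝ) (x y : M) : ℝ := n / 2 - t * h.Δ (h.φ t x) y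

/-- The deficit density `t² (|Hess φ - 1/2t|² + (Ric + k)(∇φ,∇φ))`. -/
def HS.Dφ (h : HS n M) (t : ℝ) (x y : M) : ℝ := t ^ 2 * h.D (h.φ t x) (1 / (2 * t)) y

/-- Rényi weight `H^p θ^{1-p}`. -/
def HS.W (h : HS n M) (p t : ℝ) (x y : M) : ℝ := h.H t x y ^ p * h.th t x ^ (1 - p)

/-- Admissible times. -/
def HS.ok (h : HS n M) (t : ℝ) : Prop := 0 < t ∧ h.k * t ≤ 1 / 10 ^ 6

/-- Growth at most `B exp (R d(x,y)/√t)`. -/
def Gr (x : M) (t B R : ℝ) (f : M → ℝ) : Prop :=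
  ∀ y, |f y| ≤ B * Real.exp (R * dist x y / Real.sqrt t)

end

/-- The two Rényi exponents. -/
def p1 (n : ℕ) : ℝ := 1 - 1 / (4 * n)
def p2 (n : ℕ) : ℝ := 1 - 1 / (2 * n)

section
variable {n : ℕ} {M : Type u} [MetricSpace M] [MeasurableSpace M]

/-- Weighted deficit at time `t`. -/
def HS.KK (h : HS n M) (x : M) (t : ℝ) : ℝ≥0∞ :=
  ∫⁻ y, ENNReal.ofReal (h.Dφ t x y * h.W (p1 n) t x y) ∂h.m

/-- Rényi-Nash entropy. -/
def HS.Ren (h : HS n M) (x : M) (t : ℝ) : ℝ :=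
  Real.log (∫ y, h.H t x y ^ p2 n ∂h.m) / (1 - p2 n) - n / 2 * Real.log t

/-- Averaged Li-Yau quantity, `-t d/dt Ren`. -/
def HS.zb (h : HS n M) (x : M) (t : ℝ) : ℝ :=
  n / 2 - p2 n * t * (∫ y, h.Γ (h.φ t x) (h.φ t x) y * h.H t x y ^ p2 n ∂h.m) /
    ∫ y, h.H t x y ^ p2 n ∂h.m

/-- Total weighted deficit up to time `T₁`. -/
def HS.Ent (h : HS n M) (x : M) (T₁ : ℝ) : ℝ≥0∞ :=
  ∫⁻ σ in Ioo 0 T₁, h.KK x σ / ENNReal.ofReal σ

/-- The two-sided summable error at scale `s`. -/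
def HS.kap (h : HS n M) (x : M) (T₁ a s : ℝ) : ℝ :=
  (∫⁻ σ in Ioo 0 T₁, ENNReal.ofReal (min (σ / s) (s / σ) ^ a) * (h.KK x σ / ENNReal.ofReal σ)).toReal +
    (s / T₁) ^ a

end

/-- The Euclidean value of `Ren`. -/
def ren0 (n : ℕ) : ℝ := n / 2 * Real.log (4 * Real.pi) - n / 2 * Real.log (p2 n) / (1 - p2 n)

/-- Euclidean heat kernel. -/
def gau (n : ℕ) (t : ℝ) (v : E n) : ℝ :=
  (4 * Real.pi * t) ^ (-(n : ℝ) / 2) * Real.exp (-‖v‖ ^ 2 / (4 * t))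

/-- A vector of functions as a map to `ℝⁿ`. -/
def wv {n : ℕ} {M : Type u} (w : Fin n → M → ℝ) (y : M) : E n := WithLp.toLp 2 fun i => w i y

/-- `n` compactly supported `1`-Lipschitz functions and a top time `T`. -/
structure Crd {n : ℕ} (X : Sp.{u} n) where
  T : ℝ
  b : Fin n → X.M → ℝ
  T_pos : 0 < T
  kT : X.h.k * T ≤ 1 / 10 ^ 12
  lip : ∀ i x y, |b i x - b i y| ≤ dist x y
  cpt : ∀ i, HasCompactSupport (b i)

section
variable {n : ℕ} {X : Sp.{u} n} (c : Crd X)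

/-- `U τ ξ = P_τ (ξ · b)`. -/
def Crd.U (τ : ℝ) (ξ : V n) : X.M → ℝ := X.h.P τ fun z => ∑ i, ξ i * c.b i z

/-- The coordinate function `ξ · u`. -/
def Crd.u (ξ : V n) : X.M → ℝ := c.U c.T ξ

/-- The coordinates. -/
def Crd.ui (i : Fin n) : X.M → ℝ := X.h.P c.T (c.b i)

def Crd.uv (y : X.M) : V n := fun i => c.ui i y

/-- Averaged inverse metric. -/
def Crd.G (s : ℝ) (x : X.M) : Mat n := Matrix.of fun i j => X.h.P s (X.h.Γ (c.ui i) (c.ui j)) x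

/-- Averaged `Γ2`. -/
def Crd.Q (s : ℝ) (x : X.M) : Mat n := Matrix.of fun i j => X.h.P s (X.h.Γ2 (c.ui i) (c.ui j)) x

/-- Time integral of `2 Q`. -/
def Crd.IQ (a b : ℝ) (x : X.M) : Mat n := Matrix.of fun i j => ∫ σ in a..b, 2 * c.Q σ x i j

/-- Covariance matrix of the coordinates. -/
def Crd.J (s : ℝ) (x : X.M) : Mat n := Matrix.of fun i j =>
  X.h.P s (fun y => c.ui i y * c.ui j y) x - X.h.P s (c.ui i) x * X.h.P s (c.ui j) x

/-- Almost splitting at the top scales. -/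
def Crd.Top (q : X.M) (η δ : ℝ) : Prop :=
  ∀ x, dist q x ≤ Real.sqrt c.T → ∀ s ∈ Icc (δ * c.T) (c.T / 4), ∀ v,
    |qf (c.G s x) v - v ⬝ᵥ v| ≤ η * (v ⬝ᵥ v)

/-- The inductive hypothesis at the point `x` for the scales `≥ s₀`. -/
structure Crd.Hyp (x : X.M) (s₀ T₁ e : ℝ) : Prop where
  s₀_pos : 0 < s₀
  T₁_pos : 0 < T₁
  e_pos : 0 < e
  T₁_le : 10 ^ 6 * T₁ ≤ e ^ 2 * c.T
  kT : X.h.k * c.T ≤ e ^ 2
  top : ∀ σ ∈ Icc T₁ (10 ^ 5 * T₁), ∀ v, |qf (c.G σ x) v - v ⬝ᵥ v| ≤ e * (v ⬝ᵥ v)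
  step : ∀ σ ∈ Icc s₀ T₁, ∀ v, (1 - e) * qf (c.G σ x) v ≤ qf (c.G (σ / 2) x) v
  ent : X.h.Ent x T₁ ≤ ENNReal.ofReal (e ^ 2)

/-- Spectral gap `1 + γ` on the functions almost orthogonal to the coordinates. -/
def Crd.GapAt (x : X.M) (s γ : ℝ) : Prop :=
  ∀ ψ : X.M → ℝ, X.h.S ψ → Integrable (fun y => X.h.H s x y * ψ y ^ 2) X.h.m →
    Integrable (fun y => X.h.H s x y * X.h.Γ ψ ψ y) X.h.m → X.h.P s ψ x = 0 →
    (∀ ξ, X.h.P s (fun y => ψ y * c.u ξ y) x ^ 2 ≤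
      γ ^ 2 * s * qf (c.G s x) ξ * X.h.P s (fun y => ψ y ^ 2) x) →
    (1 + γ) * X.h.P s (fun y => ψ y ^ 2) x ≤ 2 * s * X.h.P s (X.h.Γ ψ ψ) x

end

end Crest.Agent.R247
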