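import Crest.Agent.R247.G3

/-! # Row 247, G4: area inequality, small balls, charts -/

set_option autoImplicit false
set_option linter.unusedSectionVars false
set_option linter.unusedVariables false
open MeasureTheory Filter Set Metric Matrix
open scoped ENNReal NNReal Topology ContDiff
open Crest.GeometryTopology.CoordMetric

noncomputable section
namespace Crest.Agent.R247
universe u

variable {n : ℕ} {M : Type u} [MetricSpace M] [MeasurableSpace M] [BorelSpace M] [ProperSpace M]
  (g : Geo n M)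

lemma Geo.g4a_diff {f : M → ℝ} (hf : g.S f) (x : M) {y : E n} (hy : y ∈ (g.ch x).target) :
    DifferentiableAt ℝ (fun z => f ((g.ch x).symm z)) y := by
  have h1 := g.Sm_ch ((g.S_iff f).1 hf) x
  have h2 : ContDiffOn ℝ ∞ (fun z : E n => f ((g.ch x).symm z)) (g.ch x).target := by
    have h3 : ContDiffOn ℝ ∞ (fun z : E n => ((0 : ℝ), z)) (g.ch x).target := by fun_prop
    exact h1.comp h3 (fun z hz => ⟨mem_univ _, hz⟩)
  exact (h2.contDiffAt ((g.ch x).open_target.mem_nhds hy)).differentiableAt (by simp)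

lemma g4a_det {F : E n → E n} {y : E n} (hF : ∀ i, DifferentiableAt ℝ (fun z => F z i) y) :
    HasFDerivAt F (fderiv ℝ F y) y ∧
      (fderiv ℝ F y).det = (Matrix.of fun i j => pderiv j (fun z => F z i) y).det := by
  have hd : DifferentiableAt ℝ F y := differentiableAt_euclidean.2 hF
  refine ⟨hd.hasFDerivAt, ?_⟩
  rw [ContinuousLinearMap.det, ← LinearMap.det_toMatrix (EuclideanSpace.basisFun (Fin n) ℝ).toBasis]
  congr 1
  ext i j
  rw [LinearMap.toMatrix_apply]
  simp only [OrthonormalBasis.coe_toBasis, EuclideanSpace.basisFun_apply,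
    OrthonormalBasis.coe_toBasis_repr_apply, EuclideanSpace.basisFun_repr, ContinuousLinearMap.coe_coe,
    Matrix.of_apply, pderiv]
  have h := ((EuclideanSpace.proj i : E n →L[ℝ] ℝ).hasFDerivAt.comp y hd.hasFDerivAt).fderiv
  have h2 : (fun z => F z i) = (EuclideanSpace.proj i : E n →L[ℝ] ℝ) ∘ F := rfl
  rw [h2, h]
  rfl

lemma g4a_alg {G : Mat n} (hG : G.PosDef) (J Γ : Mat n)
    (h : ∀ i j, Γ i j = ∑ a, ∑ b, G⁻¹ a b * J i a * J j b) :
    |J.det| = Real.sqrt Γ.det * Real.sqrt G.det := by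
  have h1 : Γ = J * G⁻¹ * Jᵀ := by
    ext i j
    rw [h, Matrix.mul_apply, Finset.sum_comm]
    refine Finset.sum_congr rfl fun b _ => ?_
    rw [Matrix.mul_apply, Finset.sum_mul]
    refine Finset.sum_congr rfl fun a _ => ?_
    rw [Matrix.transpose_apply]; ring
  have hp : 0 < G.det := hG.det_pos
  have h2 : Γ.det * G.det = J.det ^ 2 := by
    rw [h1, Matrix.det_mul, Matrix.det_mul, Matrix.det_transpose, Matrix.det_nonsing_inv,
      Ring.inverse_eq_inv']
    field_simp
  rw [← Real.sqrt_mul' _ hp.le, h2, Real.sqrt_sq_eq_abs]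

lemma Geo.g4a_piece (w : Fin n → M → ℝ) (hw : ∀ i, g.S (w i)) (x : M) {B : Set M}
    (hB : MeasurableSet B) (hBx : B ⊆ (g.ch x).source) :
    volume ((fun y => (WithLp.toLp 2 fun i => w i y : E n)) '' B) ≤
      ∫⁻ y in B, ENNReal.ofReal (Real.sqrt (Matrix.of fun i j => g.Γ (w i) (w j) y).det) ∂g.m := by
  set φ : M → ℝ≥0∞ := fun y =>
    ENNReal.ofReal (Real.sqrt (Matrix.of fun i j => g.Γ (w i) (w j) y).det) with hφ
  have hφm : Measurable φ := by
    refine ENNReal.measurable_ofReal.comp (Continuous.measurable ?_)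
    refine Real.continuous_sqrt.comp (Continuous.matrix_det ?_)
    exact continuous_matrix fun i j => g.S_cont (g.S_Γ (hw i) (hw j))
  set s : Set (E n) := g.ch x '' B with hs
  have hsm : MeasurableSet s :=
    hB.image_of_continuousOn_injOn ((g.ch x).continuousOn.mono hBx) ((g.ch x).injOn.mono hBx)
  have hst : s ⊆ (g.ch x).target := by
    rintro _ ⟨z, hz, rfl⟩; exact (g.ch x).map_source (hBx hz)
  set F : E n → E n := fun z => (WithLp.toLp 2 fun i => w i ((g.ch x).symm z) : E n) with hF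
  have himg : (fun y => (WithLp.toLp 2 fun i => w i y : E n)) '' B = F '' s := by
    rw [hs, image_image]
    refine image_congr fun z hz => ?_
    simp only [hF, (g.ch x).left_inv (hBx hz)]
  have hFd : ∀ y ∈ (g.ch x).target, ∀ i, DifferentiableAt ℝ (fun z => F z i) y :=
    fun y hy i => g.g4a_diff (hw i) x hy
  have h1 := addHaar_image_le_lintegral_abs_det_fderiv (volume : Measure (E n)) hsm
    (f := F) (f' := fun y => fderiv ℝ F y)
    (fun y hy => (g4a_det (hFd y (hst hy))).1.hasFDerivWithinAt)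
  rw [himg]
  refine h1.trans (le_of_eq ?_)
  have h2 := g.m_ch x (B.indicator φ) (hφm.indicator hB)
  rw [lintegral_indicator hB, Measure.restrict_restrict hB, inter_eq_left.2 hBx] at h2
  rw [h2, ← inter_eq_left.2 hst, ← Measure.restrict_restrict hsm, ← lintegral_indicator hsm]
  refine setLIntegral_congr_fun (g.ch x).open_target.measurableSet fun y hy => ?_
  by_cases hys : y ∈ s
  · have hyB : (g.ch x).symm y ∈ B := by
      obtain ⟨z, hz, rfl⟩ := hys
      rwa [(g.ch x).left_inv (hBx hz)]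
    simp only [indicator_of_mem hys, indicator_of_mem hyB, hφ]
    rw [← ENNReal.ofReal_mul (Real.sqrt_nonneg _), (g4a_det (hFd y hy)).2]
    congr 1
    refine g4a_alg ((g.gm_riem x).posDef y hy) _ _ fun i j => ?_
    simp only [Matrix.of_apply]
    exact g.Γ_ch (hw i) (hw j) x y hy
  · have hyB : (g.ch x).symm y ∉ B := fun h => hys ⟨_, h, (g.ch x).right_inv hy⟩
    simp only [indicator_of_notMem hys, indicator_of_notMem hyB, zero_mul]

/-- Area inequality.  Recipe: cover the compact `A` by finitely many chart sources, disjointify into measurable pieces `A_i`; in a chart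
`w ∘ symm` is differentiable, `addHaar_image_le_lintegral_abs_det_fderiv`; `Γ_ch` says `(Γ (w i) (w j)) = J g⁻¹ Jᵀ` for the Jacobian matrix `J`, so `|det J| = √det Γ · √det g`; `m_ch`. -/
theorem Geo.area (w : Fin n → M → ℝ) (hw : ∀ i, g.S (w i)) {A : Set M} (hA : IsCompact A) :
    volume ((fun y => (WithLp.toLp 2 fun i => w i y : E n)) '' A) ≤
      ∫⁻ y in A, ENNReal.ofReal (Real.sqrt (Matrix.of fun i j => g.Γ (w i) (w j) y).det) ∂g.m := by
  classical
  obtain ⟨t, -, ht⟩ := hA.elim_nhds_subcover (fun x => (g.ch x).source)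
    (fun x _ => (g.ch x).open_source.mem_nhds (g.mem_ch x))
  have key : ∀ (t : Finset M) (B : Set M), MeasurableSet B → B ⊆ ⋃ x ∈ t, (g.ch x).source →
      volume ((fun y => (WithLp.toLp 2 fun i => w i y : E n)) '' B) ≤
      ∫⁻ y in B, ENNReal.ofReal (Real.sqrt (Matrix.of fun i j => g.Γ (w i) (w j) y).det) ∂g.m := by
    intro t
    induction t using Finset.induction_on with
    | empty =>
      intro B _ hB
      have : B = ∅ := by simpa using hB
      simp [this]
    | insert a t ha ih =>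
      intro B hBm hB
      have hs : MeasurableSet (g.ch a).source := (g.ch a).open_source.measurableSet
      have h1 := g.g4a_piece w hw a (hBm.inter hs) inter_subset_right
      have h2 := ih (B \ (g.ch a).source) (hBm.diff hs) (by
        intro z hz
        have := hB hz.1
        rw [Finset.set_biUnion_insert] at this
        exact this.resolve_left hz.2)
      rw [← lintegral_inter_add_diff _ B hs]
      conv_lhs => rw [← inter_union_diff B (g.ch a).source, image_union]
      exact (measure_union_le _ _).trans (add_le_add h1 h2)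
  exact key t A hA.measurableSet ht

open scoped MatrixOrder in
lemma g4b_gauss {G : Mat n} (hG : G.PosDef) {b : ℝ} (hb : 0 < b) (y₀ : E n) :
    ∫⁻ y : E n, ENNReal.ofReal (Real.exp (-b * ∑ i, ∑ j, G i j * (y - y₀) i * (y - y₀) j)) *
      ENNReal.ofReal (Real.sqrt G.det) = ENNReal.ofReal ((Real.pi / b) ^ ((n : ℝ) / 2)) := by
  obtain ⟨B, hB⟩ := CStarAlgebra.nonneg_iff_eq_star_mul_self.mp hG.posSemidef.nonneg
  have hBt : G = Bᵀ * B := by rw [hB]; rfl
  have hdet : G.det = B.det ^ 2 := by rw [hBt, det_mul, det_transpose, sq]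
  have h0 : B.det ≠ 0 := fun h => hG.det_pos.ne' (by rw [hdet, h]; simp)
  set L : E n →ₗ[ℝ] E n := Matrix.toLpLin 2 2 B with hL
  have hLd : LinearMap.det L = B.det := LinearMap.det_toLpLin 2 B
  have hq : ∀ v : E n, ∑ i, ∑ j, G i j * v i * v j = ‖L v‖ ^ 2 := fun v => by
    rw [EuclideanSpace.real_norm_sq_eq, hBt]
    simp only [hL, Matrix.toLpLin_apply, mulVec, dotProduct, Matrix.mul_apply, transpose_apply, sq, Finset.sum_mul,
      Finset.mul_sum]
    rw [Finset.sum_comm, Finset.sum_congr rfl fun j _ => Finset.sum_comm, Finset.sum_comm]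
    exact Finset.sum_congr rfl fun k _ => Finset.sum_congr rfl fun j _ => Finset.sum_congr rfl fun i _ => by ring
  have hm : Measurable fun v : E n => ENNReal.ofReal (Real.exp (-b * ‖v‖ ^ 2)) := by fun_prop
  have hi := GaussianFourier.integral_rexp_neg_mul_sq_norm (V := E n) hb
  rw [finrank_euclideanSpace_fin] at hi
  simp only [hq]
  rw [lintegral_mul_const' _ _ ENNReal.ofReal_ne_top,
    lintegral_sub_right_eq_self (fun v => ENNReal.ofReal (Real.exp (-b * ‖L v‖ ^ 2))) y₀,
    ← lintegral_map hm L.continuous_of_finiteDimensional.measurable,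
    Measure.map_linearMap_addHaar_eq_smul_addHaar _ (hLd ▸ h0), lintegral_smul_measure,
    ← ofReal_integral_eq_lintegral_ofReal (Integrable.of_integral_ne_zero (by rw [hi]; positivity))
      (Eventually.of_forall fun _ => (Real.exp_pos _).le), hi, smul_eq_mul, hLd, hdet, Real.sqrt_sq_eq_abs,
    mul_right_comm, ← ENNReal.ofReal_mul (abs_nonneg _), ← abs_mul, inv_mul_cancel₀ h0, abs_one, ENNReal.ofReal_one,
    one_mul]

/-- Recipe: chart at `x`; near `y₀`: `√det (gm y) ≤ (1+η') √det (gm y₀)`, `g₀(y - y₀) ≤ (1+η') d²`; small metric balls lie in the preimage of any chart neighbourhood; then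
`∫ exp(-g₀(v)/(4a(1+η'))) √det g₀ dv = (4πa(1+η'))^{n/2}` (linear change of variables `v = g₀^{-1/2} z`, `GaussianFourier.integral_rexp_neg_mul_sq_norm`). -/
theorem Geo.gauss_small (x : M) {η : ℝ} (hη : 0 < η) : ∃ r : ℝ, 0 < r ∧ ∀ a : ℝ, 0 < a →
    ∫⁻ y in ball x r, ENNReal.ofReal (Real.exp (-dist y x ^ 2 / (4 * a))) ∂g.m ≤
      ENNReal.ofReal ((1 + η) * (4 * Real.pi * a) ^ ((n : ℝ) / 2)) := by
  obtain ⟨s, hs, hs0⟩ : ∃ s : ℝ, (1 + s) * (1 + s) ^ ((n : ℝ) / 2) < 1 + η ∧ 0 < s := by
    have hc : ContinuousAt (fun s : ℝ => (1 + s) * (1 + s) ^ ((n : ℝ) / 2)) 0 :=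
      (continuousAt_const.add continuousAt_id).mul
        ((continuousAt_const.add continuousAt_id).rpow_const (Or.inl (by simp)))
    exact (((hc.eventually (gt_mem_nhds (by simpa using hη))).filter_mono nhdsWithin_le_nhds).and
      (self_mem_nhdsWithin (s := Ioi 0))).exists
  set e := g.ch x with he
  have hx : x ∈ e.source := g.mem_ch x
  have hy := e.map_source hx
  have hR := g.gm_riem x
  have hpos : 0 < Real.sqrt (g.gm x (e x)).det := Real.sqrt_pos.2 (hR.posDef _ hy).det_pos
  have hdc : ContinuousAt (fun y => Real.sqrt (g.gm x y).det) (e x) := by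
    refine ContinuousAt.sqrt (ContinuousAt.comp (g := Matrix.det) (Continuous.matrix_det continuous_id).continuousAt ?_)
    exact continuousAt_pi.2 fun i => continuousAt_pi.2 fun j =>
      (hR.contDiffOn i j).continuousOn.continuousAt (hR.isOpen.mem_nhds hy)
  have h1 := hdc.eventually (gt_mem_nhds (lt_mul_of_one_lt_left hpos (lt_add_of_pos_right 1 hs0)))
  have h2 := (ContinuousAt.prodMk (f := id) continuousAt_id continuousAt_const).eventually
    (g.dist_ch x _ hy s hs0)
  obtain ⟨r, hr, hb⟩ := Metric.eventually_nhds_iff_ball.1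
    (((e.continuousAt hx).eventually (h1.and h2)).and (e.open_source.eventually_mem hx))
  refine ⟨r, hr, fun a ha => ?_⟩
  have hb0 : 0 < (4 * a * (1 + s))⁻¹ := by positivity
  have hφ : Measurable fun y => ENNReal.ofReal (Real.exp (-dist y x ^ 2 / (4 * a))) := by fun_prop
  rw [← inter_eq_left.2 (show ball x r ⊆ e.source from fun z hz => (hb z hz).2),
    ← Measure.restrict_restrict measurableSet_ball, ← lintegral_indicator measurableSet_ball,
    g.m_ch x _ (hφ.indicator measurableSet_ball)]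
  refine le_trans (setLIntegral_mono' e.open_target.measurableSet (g := fun y => ENNReal.ofReal (1 + s) *
    (ENNReal.ofReal (Real.exp (-(4 * a * (1 + s))⁻¹ * ∑ i, ∑ j, g.gm x (e x) i j * (y - e x) i * (y - e x) j)) *
      ENNReal.ofReal (Real.sqrt (g.gm x (e x)).det))) fun y hy' => ?_) ?_
  · by_cases hz : e.symm y ∈ ball x r
    · obtain ⟨⟨h3, h4, -⟩, -⟩ := hb _ hz
      rw [e.right_inv hy'] at h3 h4
      simp only [id] at h4
      rw [← he, e.left_inv hx] at h4
      rw [← he, indicator_of_mem hz, mul_left_comm, ← ENNReal.ofReal_mul (p := 1 + s) (by positivity)]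
      refine mul_le_mul' (ENNReal.ofReal_le_ofReal (Real.exp_le_exp.2 ?_)) (ENNReal.ofReal_le_ofReal h3.le)
      rw [neg_div, neg_mul, neg_le_neg_iff, inv_mul_le_iff₀ (by positivity)]
      refine le_trans h4 (le_of_eq ?_)
      field_simp
    · rw [← he, indicator_of_notMem hz, zero_mul]
      exact zero_le
  · refine (setLIntegral_le_lintegral _ _).trans ?_
    rw [lintegral_const_mul' _ _ ENNReal.ofReal_ne_top, g4b_gauss (hR.posDef _ hy) hb0,
      ← ENNReal.ofReal_mul (by positivity)]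
    refine ENNReal.ofReal_le_ofReal ?_
    rw [div_inv_eq_mul, show Real.pi * (4 * a * (1 + s)) = (1 + s) * (4 * Real.pi * a) by ring,
      Real.mul_rpow (by positivity) (by positivity), ← mul_assoc]
    exact mul_le_mul_of_nonneg_right hs.le (by positivity)

lemma g4c_qf (G : MetricField n) (y v : E n) : quadForm G y v = qf (G y) v.ofLp := by
  simp only [quadForm, qf, dotProduct, mulVec, Finset.mul_sum]
  exact Finset.sum_congr rfl fun i _ => Finset.sum_congr rfl fun j _ => by ring

lemma g4c_up (G : Mat n) : ∃ K : ℝ, 0 ≤ K ∧ ∀ v : E n, qf G v.ofLp ≤ K * ‖v‖ ^ 2 := by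
  refine ⟨∑ i, ∑ j, |G i j|, by positivity, fun v => ?_⟩
  simp only [qf, dotProduct, mulVec, Finset.mul_sum, Finset.sum_mul]
  refine Finset.sum_le_sum fun i _ => Finset.sum_le_sum fun j _ => ?_
  have hi : |v.ofLp i| ≤ ‖v‖ := by simpa using PiLp.norm_apply_le v i
  have hj : |v.ofLp j| ≤ ‖v‖ := by simpa using PiLp.norm_apply_le v j
  calc v.ofLp i * (G i j * v.ofLp j) ≤ |v.ofLp i * (G i j * v.ofLp j)| := le_abs_self _
    _ = |G i j| * (|v.ofLp i| * |v.ofLp j|) := by rw [abs_mul, abs_mul]; ring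
    _ ≤ |G i j| * (‖v‖ * ‖v‖) :=
      mul_le_mul_of_nonneg_left (mul_le_mul hi hj (abs_nonneg _) (norm_nonneg _)) (abs_nonneg _)
    _ = |G i j| * ‖v‖ ^ 2 := by ring

include g in
theorem Geo.chart_bilip (x : M) : ∃ r L : ℝ, 0 < r ∧ 0 < L ∧ ∃ c : E n → M, c 0 = x ∧
    ∀ y ∈ ball (0 : E n) r, ∀ y' ∈ ball (0 : E n) r,
      dist y y' ≤ L * dist (c y) (c y') ∧ dist (c y) (c y') ≤ L * dist y y' := by
  have hy := (g.ch x).map_source (g.mem_ch x)
  have hx := (g.ch x).left_inv (g.mem_ch x)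
  have hG := (g.gm_riem x).posDef _ hy
  obtain ⟨K, hK⟩ := g2a_norm hG
  obtain ⟨K', hK'0, hK'⟩ := g4c_up (g.gm x (g.ch x x))
  have h := g.dist_ch x _ hy 1 one_pos
  rw [nhds_prod_eq] at h
  obtain ⟨s, hs, t, ht, hst⟩ := Filter.mem_prod_iff.1 h
  obtain ⟨r, hr, hrs⟩ := Metric.mem_nhds_iff.1 (inter_mem hs ht)
  refine ⟨r, 2 * |K| + 2 * Real.sqrt K' + 1, hr, by positivity,
    fun y => (g.ch x).symm (g.ch x x + y), by simp [hx], fun y hy1 y' hy2 => ?_⟩
  have m1 : g.ch x x + y ∈ ball (g.ch x x) r := by simpa using hy1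
  have m2 : g.ch x x + y' ∈ ball (g.ch x x) r := by simpa using hy2
  have h1 := hst (mk_mem_prod (hrs m1).1 (hrs m2).2)
  simp only [mem_ofPred_eq, g4c_qf, add_sub_add_left_eq_sub] at h1
  obtain ⟨h1, h2⟩ := h1
  set d := dist ((g.ch x).symm (g.ch x x + y)) ((g.ch x).symm (g.ch x x + y')) with hd
  have hd0 : 0 ≤ d := dist_nonneg
  rw [dist_eq_norm]
  have hn := norm_nonneg (y - y')
  have hs0 := Real.sqrt_nonneg K'
  have hk0 := abs_nonneg K
  constructor
  · have a1 : Real.sqrt (qf (g.gm x (g.ch x x)) (y - y').ofLp) ≤ 2 * d :=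
      Real.sqrt_le_iff.2 ⟨by positivity, by nlinarith [sq_nonneg d]⟩
    have a2 := (hK (y - y')).trans (mul_le_mul (le_abs_self K) a1 (Real.sqrt_nonneg _) hk0)
    nlinarith [mul_nonneg hs0 hd0]
  · have a1 : d ≤ 2 * Real.sqrt K' * ‖y - y'‖ := by
      refine abs_le_of_sq_le_sq' ?_ (by positivity) |>.2
      rw [mul_pow, mul_pow, Real.sq_sqrt hK'0]
      nlinarith [hK' (y - y'), mul_nonneg hK'0 (sq_nonneg ‖y - y'‖)]
    nlinarith [mul_nonneg hk0 hn]

lemma g4c_sqrt {A : Mat n} (h : A.PosSemidef) : ∃ B : Mat n, Bᵀ * B = A := by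
  open scoped MatrixOrder in
  obtain ⟨B, hB⟩ := CStarAlgebra.nonneg_iff_eq_star_mul_self.1 h.nonneg
  exact ⟨B, by rw [hB]; rfl⟩

lemma g4c_inv {G B : Mat n} (hG : G.PosDef) (hB : Bᵀ * B = G) : B * G⁻¹ * Bᵀ = 1 := by
  have h1 : G⁻¹ * G = 1 := nonsing_inv_mul _ (isUnit_iff_isUnit_det _ |>.1 hG.isUnit)
  have h2 : (G⁻¹ * Bᵀ) * B = 1 := by rw [Matrix.mul_assoc, hB, h1]
  rw [Matrix.mul_assoc]
  exact mul_eq_one_comm.1 h2

/-- Normal coordinates to first order: `w i = (Bᵀ (ch x · - y₀)) i` times a bump, `B Bᵀ = gm x y₀`. -/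
theorem Geo.normal_coord (x : M) : ∃ w : Fin n → M → ℝ, (∀ i, g.S (w i)) ∧
    (∀ i, HasCompactSupport (w i)) ∧ (∀ i, w i x = 0) ∧
    (∀ i j, g.Γ (w i) (w j) x = if i = j then 1 else 0) ∧
    ∀ η : ℝ, 0 < η → ∀ᶠ y in 𝓝 x, dist y x ^ 2 ≤ (1 + η) * ∑ i, w i y ^ 2 := by
  have hy := (g.ch x).map_source (g.mem_ch x)
  have hx := (g.ch x).left_inv (g.mem_ch x)
  have hG := (g.gm_riem x).posDef _ hy
  obtain ⟨B, hB⟩ := g4c_sqrt hG.posSemidef
  obtain ⟨r, hr, hrs⟩ := Metric.nhds_basis_closedBall.mem_iff.1 ((g.ch x).open_target.mem_nhds hy)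
  let b : ContDiffBump (g.ch x x) := ⟨r / 2, r, by positivity, by linarith⟩
  let ℓ : Fin n → E n →L[ℝ] ℝ := fun i => ∑ j, B i j • EuclideanSpace.proj j
  have hℓ : ∀ i (v : E n), ℓ i v = (B *ᵥ v.ofLp) i := fun i v => by
    simp [ℓ, mulVec, dotProduct]
  let φ : Fin n → E n → ℝ := fun i z => b z * ℓ i (z - g.ch x x)
  have hφs : ∀ i, tsupport (φ i) ⊆ closedBall (g.ch x x) r := fun i =>
    (tsupport_mul_subset_left (f := b) (g := fun z => ℓ i (z - g.ch x x))).trans b.tsupport_eq.le
  have hφc : ∀ i, ContDiff ℝ ∞ (φ i) := fun i =>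
    b.contDiff.mul ((ℓ i).contDiff.comp (contDiff_id.sub contDiff_const))
  have hφe : ∀ i, φ i =ᶠ[𝓝 (g.ch x x)] fun z => ℓ i (z - g.ch x x) := fun i => by
    filter_upwards [b.eventuallyEq_one] with z hz
    simp [φ, hz]
  have hS : ∀ i, g.S ((g.ch x).source.indicator fun z => φ i (g.ch x z)) := fun i =>
    g.S_ext x (hφc i) (b.hasCompactSupport.mul_right) ((hφs i).trans hrs)
  have hd : ∀ i a, pderiv a (fun z => ((g.ch x).source.indicator fun z => φ i (g.ch x z))
      ((g.ch x).symm z)) (g.ch x x) = B i a := fun i a => by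
    have e : (fun z => ((g.ch x).source.indicator fun z => φ i (g.ch x z)) ((g.ch x).symm z))
        =ᶠ[𝓝 (g.ch x x)] fun z => ℓ i (z - g.ch x x) := by
      filter_upwards [hφe i, (g.ch x).open_target.mem_nhds hy] with z h1 h2
      rw [indicator_of_mem ((g.ch x).map_target h2), (g.ch x).right_inv h2, h1]
    have h1 : HasFDerivAt (fun z => ℓ i (z - g.ch x x)) (ℓ i) (g.ch x x) := by
      simp only [map_sub]
      exact (ℓ i).hasFDerivAt.sub_const _
    rw [pderiv, e.fderiv_eq, h1.fderiv, hℓ]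
    simp
  refine ⟨fun i => (g.ch x).source.indicator fun z => φ i (g.ch x z), hS, fun i => ?_, fun i => ?_,
    fun i j => ?_, fun η hη => ?_⟩
  · refine HasCompactSupport.intro ((isCompact_closedBall (g.ch x x) r).image_of_continuousOn
      ((g.ch x).continuousOn_symm.mono hrs)) fun z hz => ?_
    by_cases h : z ∈ (g.ch x).source
    · beta_reduce
      rw [indicator_of_mem h]
      by_contra h0
      exact hz ⟨_, hφs i (subset_tsupport _ h0), (g.ch x).left_inv h⟩
    · exact indicator_of_notMem h _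
  · simp [indicator_of_mem (g.mem_ch x), φ]
  · have := g.Γ_ch (hS i) (hS j) x _ hy
    rw [hx] at this
    rw [this, ← Matrix.one_apply, ← g4c_inv hG hB]
    simp only [hd, Matrix.mul_apply, transpose_apply, Finset.sum_mul]
    rw [Finset.sum_comm]
    exact Finset.sum_congr rfl fun a _ => Finset.sum_congr rfl fun c _ => by ring
  · have h3 := (Continuous.prodMk_left (g.ch x x)).continuousAt.eventually (g.dist_ch x _ hy η hη)
    have h4 := (eventually_all.2 hφe).and h3
    filter_upwards [((g.ch x).continuousAt (g.mem_ch x)).eventually h4,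
      (g.ch x).open_source.mem_nhds (g.mem_ch x)] with z h1 h2
    obtain ⟨h1, -, h5⟩ := h1
    simp only [hx, (g.ch x).left_inv h2, g4c_qf] at h5
    refine h5.trans_eq ?_
    congr 1
    simp only [indicator_of_mem h2, h1, hℓ]
    rw [← hB, qf, ← mulVec_mulVec, dotProduct_mulVec, vecMul_transpose, dotProduct]
    exact Finset.sum_congr rfl fun i _ => by ring

end Crest.Agent.R247
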