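import Crest.Agent.R247.H5
import Crest.Agent.R247.G4
import Crest.Agent.R247.C.Semi

/-! # Row 247: definitions for the entropy, splitting and multiscale blocks
Matrix tools (`MC.sn`, `MC.psd_qf`, `MC.abs_bf_le`, `MC.sandwich`, `MC.abs_dot_le`, `MC.sn_inv_le_of_dual`, `MC.sn_inv_mono`, `MC.psd_vec`, …) are in `R247/C/Semi.lean`. -/

set_option autoImplicit false
set_option linter.unusedSectionVars false
set_option linter.unusedVariables false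
open MeasureTheory Filter Set Metric Matrix
open scoped ENNReal NNReal Topology ContDiff
open Crest.GeometryTopology.CoordMetric

noncomputable section
namespace Crest.Agent.R247
universe u



section
variable {n : ℕ} {M : Type u} [MetricSpace M] [MeasurableSpace M]

/-- Gram matrix of the gradients. -/
def Raw.Gm (c : Raw n M) (w : Fin n → M → ℝ) (y : M) : Mat n :=
  Matrix.of fun i j => c.Γ (w i) (w j) y

/-- Almost splitting map at `(x, b)`. -/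
structure HS.Spl (h : HS n M) (w : Fin n → M → ℝ) (x : M) (b B η : ℝ) : Prop where
  ok : h.ok b
  η_pos : 0 < η
  η_le : η ≤ 1
  B_ge : 1 ≤ B
  S : ∀ i, h.S (w i)
  bd : ∀ i j y, |h.Γ (w i) (w j) y| ≤ B
  lap : ∀ i y, Real.sqrt b * |h.Δ (w i) y| ≤ η
  near : ∀ s ∈ Icc (η * b) b, ∀ i j, h.P s (fun y => |h.Gm w y i j - (1 : Mat n) i j|) x ≤ η
  det : ∀ y, (h.Gm w y).det ≤ 1 + η
  hess : ∀ i, Integrable (fun y => h.H b x y * h.Γ2 (w i) (w i) y) h.m ∧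
    b * h.P b (h.Γ2 (w i) (w i)) x ≤ B

/-- The weighted Laplacian `L f = Γ(f,φ) - Δ f`, symmetric for `H t x`. -/
def HS.L (h : HS n M) (t : ℝ) (x : M) (f : M → ℝ) (y : M) : ℝ := h.Γ f (h.φ t x) y - h.Δ f y

/-- Covariance for `H t x`. -/
def HS.Cov (h : HS n M) (t : ℝ) (x : M) (f f' : M → ℝ) : ℝ :=
  h.P t (fun y => f y * f' y) x - h.P t f x * h.P t f' x

/-- The forward flow of `ψ H t x`. -/
def HS.ρ (h : HS n M) (x : M) (t : ℝ) (ψ : M → ℝ) (s : ℝ) : M → ℝ :=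
  h.P (s - t) fun z => ψ z * h.H t x z

def HS.ψs (h : HS n M) (x : M) (t : ℝ) (ψ : M → ℝ) (s : ℝ) (y : M) : ℝ := h.ρ x t ψ s y / h.H s x y

def HS.Jρ (h : HS n M) (x : M) (t : ℝ) (ψ : M → ℝ) (s : ℝ) : ℝ :=
  h.P s (fun y => h.ψs x t ψ s y ^ 2) x

/-- Ni's pointwise entropy. -/
def HS.vW (h : HS n M) (t : ℝ) (x y : M) : ℝ :=
  t * (2 * h.Δ (h.φ t x) y - h.Γ (h.φ t x) (h.φ t x) y) + h.φ t x y - n / 2 * Real.log t

/-- The approximately linear function of a pair of points. -/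
def HS.wp (h : HS n M) (t : ℝ) (x z y : M) : ℝ := 2 * t * (h.φ t z y - h.φ t x y)

/-- The summable error with exponent `γ / 16`. -/
def HS.κ (h : HS n M) (x : M) (T₁ γ s : ℝ) : ℝ := h.kap x T₁ (γ / 16) s

/-- Continuous functions of exponential growth. -/
def CG (x : M) (t : ℝ) (f : M → ℝ) : Prop := Continuous f ∧ ∃ B R, Gr x t B R f

/-- `ι` is an `(R, η)`-approximation at scale `r` (so `GHc n q r R η` is `∃ ι, GHm q r R η ι`). -/
def GHm (q : M) (r R η : ℝ) (ι : M → E n) : Prop :=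
  ι q = 0 ∧
    (∀ x x', dist q x < R * r → dist q x' < R * r → |dist (ι x) (ι x') - dist x x'| ≤ η * r) ∧
    ∀ y : E n, ‖y‖ < (R - 1) * r → ∃ x, dist q x < R * r ∧ dist (ι x) y ≤ η * r

end

/-- A truncated Busemann function in the direction `ξ`. -/
structure Bus {n : ℕ} (X : Sp.{u} n) (q : X.M) (T A ε : ℝ) (ι : X.M → E n) (ξ : E n)
    (b : X.M → ℝ) : Prop where
  lip : ∀ x y, |b x - b y| ≤ dist x y
  cpt : HasCompactSupport b
  abs_le : ∀ y, |b y| ≤ dist q y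
  near : ∀ y, dist q y ≤ A * Real.sqrt T → |b y - inner ℝ ξ (ι y)| ≤ ε * Real.sqrt T
  low : ∀ t ∈ Ioc 0 (2 * T), ∀ y, dist q y ≤ 3 * Real.sqrt T →
    inner ℝ ξ (ι y) - ε * Real.sqrt T ≤ X.h.P t b y

section
variable {n : ℕ} {X : Sp.{u} n} (c : Crd X)

/-- `Hyp` together with the spectral gap. -/
structure Crd.HG (x : X.M) (s₀ T₁ e γ : ℝ) : Prop extends c.Hyp x s₀ T₁ e where
  gap : ∀ s ∈ Icc s₀ T₁, c.GapAt x s γ

/-- `β s = 2 s ∫ ρ_s L_s v_s`, `v_s = U (T + t - s) ξ`. -/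
def Crd.β (x : X.M) (t : ℝ) (ψ : X.M → ℝ) (ξ : V n) (s : ℝ) : ℝ :=
  2 * s * ∫ y, X.h.ρ x t ψ s y * X.h.L s x (c.U (c.T + t - s) ξ) y ∂X.h.m

/-- `ψ` is orthogonal to the constants and to the coordinates in `L²(H t x)`. -/
def Crd.Orth (x : X.M) (t : ℝ) (ψ : X.M → ℝ) : Prop :=
  X.h.P t ψ x = 0 ∧ ∀ η, X.h.P t (fun y => ψ y * c.u η y) x = 0

/-- The linear part `ξ` of `wp t x z`, up to errors `K κ`. -/
structure Crd.Pair (x z : X.M) (t K κ : ℝ) (ξ : V n) : Prop where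
  grad : X.h.P t (X.h.Γ (fun y => X.h.wp t x z y - c.u ξ y) (fun y => X.h.wp t x z y - c.u ξ y)) x ≤
    K * t * κ
  val : ∃ c₀, X.h.P t (fun y => (X.h.wp t x z y - c₀ - c.u ξ y) ^ 2) x ≤ K * t ^ 2 * κ
  size : qf (c.G t x) ξ ≤ K * t
  eig : ∀ η, (2 * t * bf (c.G t x) ξ η - bf (c.J t x) ξ η) ^ 2 ≤ K * t ^ 3 * κ * qf (c.G t x) η

/-- Common hypotheses on a pair of points at a good time. -/
structure Crd.PH (x z : X.M) (s₀ T₁ e γ R t κ : ℝ) : Prop where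
  hx : c.HG x s₀ T₁ e γ
  hz : c.HG z s₀ T₁ e γ
  t_le : t ≤ T₁
  dist_le : dist x z ≤ R * Real.sqrt t
  κx : X.h.κ x T₁ γ t ≤ κ
  κz : X.h.κ z T₁ γ t ≤ κ
  Kx : X.h.KK x t ≤ ENNReal.ofReal κ
  Kz : X.h.KK z t ≤ ENNReal.ofReal κ
  κ_le : κ ≤ 100

/-- The Poincaré defect. -/
def Crd.dl (x : X.M) (ξ : V n) (s : ℝ) : ℝ := 2 * qf (c.G s x) ξ - qf (c.J s x) ξ / s

end

end Crest.Agent.R247
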