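import Crest.Agent.R247.Defs3

/-! # Row 247, E1: the Rényi entropy controls the weighted deficit -/

set_option autoImplicit false
set_option linter.unusedSectionVars false
set_option linter.unusedVariables false
open MeasureTheory Filter Set Metric Matrix
open scoped ENNReal NNReal Topology ContDiff
open Crest.GeometryTopology.CoordMetric

noncomputable section
namespace Crest.Agent.R247
universe u

variable {n : ℕ}

/-- `(∂ₜ - Δ) H^p = p (1-p) H^p Γφ`. -/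
theorem heat_Hp (X : Sp.{u} n) (p : ℝ) {t : ℝ} (ht : 0 < t) (x y : X.M) :
    dt (fun s z => X.h.H s x z ^ p) t y - X.h.Δ (fun z => X.h.H t x z ^ p) y =
      p * (1 - p) * (X.h.Γ (X.h.φ t x) (X.h.φ t x) y * X.h.H t x y ^ p) := by
  have hp := X.h.H_pos ht x y
  rw [X.h.dt_comp (φ := fun r => r ^ p) isOpen_Ioi (X.h.H_Sm x) ht y
      (Real.differentiableAt_rpow_const_of_ne p hp.ne'),
    X.h.Δ_comp (φ := fun r => r ^ p) (X.h.H_S ht x) isOpen_Ioi
      (contDiffOn_id.rpow_const_of_ne fun s hs => ne_of_gt hs) (X.h.H_pos ht x), X.h.H_heat ht,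
    Real.deriv_rpow_const', deriv_const_mul_field', Real.deriv_rpow_const', X.h.Γ_H ht, X.h.Γ_comm,
    X.h.Γ_H ht]
  simp only [Real.rpow_sub_one hp.ne']
  field_simp
  ring

theorem e1a_W_cont (X : Sp.{u} n) (p : ℝ) {t : ℝ} (ht : 0 < t) (x : X.M) : Continuous (X.h.W p t x) :=
  ((X.h.H_cont ht x).rpow_const fun y => Or.inl (X.h.H_pos ht x y).ne').mul continuous_const

theorem e1a_W_nonneg (X : Sp.{u} n) (p : ℝ) {t : ℝ} (ht : 0 < t) (x y : X.M) : 0 ≤ X.h.W p t x y :=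
  mul_nonneg (Real.rpow_nonneg (X.h.H_nonneg ht x y) _) (Real.rpow_nonneg (X.h.th_pos ht x).le _)

theorem e1a_int {α : Type*} [TopologicalSpace α] [MeasurableSpace α] [OpensMeasurableSpace α] {μ : Measure α}
    {f D : α → ℝ} (hf : Continuous f) (h0 : ∀ y, 0 ≤ f y) (h : ∀ y, f y ≤ D y) (hD : Integrable D μ) :
    Integrable f μ ∧ ∫ y, f y ∂μ ≤ ∫ y, D y ∂μ := by
  have i : Integrable f μ := hD.mono' hf.measurable.aestronglyMeasurable
    (Eventually.of_forall fun y => by rw [Real.norm_of_nonneg (h0 y)]; exact h y)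
  exact ⟨i, integral_mono i hD h⟩

/-- Basic integrals against the weights (`W_bounds`, `int_H`, `P_gr`/`moment_exp`; `(1 + d²/t)^j ≤ C exp(2 j d/√t)`). -/
theorem W_int (n : ℕ) (hn : 1 ≤ n) (R : ℝ) : ∃ C : ℝ, 0 < C ∧ ∀ (X : Sp.{u} n) {t : ℝ}, X.h.ok t → ∀ x,
    Integrable (fun y => X.h.W (p2 n) t x y * Real.exp (R * dist x y / Real.sqrt t)) X.h.m ∧
    ∫ y, X.h.W (p2 n) t x y * Real.exp (R * dist x y / Real.sqrt t) ∂X.h.m ≤ C ∧
    Integrable (X.h.W (p2 n) t x) X.h.m ∧ 1 ≤ C * ∫ y, X.h.W (p2 n) t x y ∂X.h.m ∧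
    ∫ y, X.h.W (p2 n) t x y ∂X.h.m ≤ C := by
  obtain ⟨C₁, p1, h1⟩ := W_bounds.{u} n hn R
  obtain ⟨C₀, p0, h0⟩ := W_bounds.{u} n hn 0
  refine ⟨C₁ + C₀ + C₀ ^ 2, by positivity, fun X t ht x => ?_⟩
  have t0 := ht.1
  have t1 : 0 < 1000 * t := by positivity
  obtain ⟨a1, a2, a3⟩ := h0 X ht x
  simp only [zero_mul, zero_div, Real.exp_zero, mul_one] at a1 a2 a3
  have iH := (X.h.H_int t1 x).1
  have b1 := e1a_int ((e1a_W_cont X _ t0 x).mul (by fun_prop))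
    (fun y => mul_nonneg (e1a_W_nonneg X _ t0 x y) (Real.exp_pos _).le) (h1 X ht x).2.2 (iH.const_mul _)
  have b2 := e1a_int (e1a_W_cont X _ t0 x) (e1a_W_nonneg X _ t0 x) a3 (iH.const_mul _)
  rw [integral_const_mul, X.h.int_H t1, mul_one] at b1 b2
  have b3 := (e1a_int (X.h.H_cont t0 x) (X.h.H_nonneg t0 x) (D := fun y => C₀ ^ 2 * X.h.W (p2 n) t x y)
    (fun y => by nlinarith [a1 y, mul_le_mul_of_nonneg_left (a2 y) p0.le]) (b2.1.const_mul _)).2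
  rw [integral_const_mul, X.h.int_H t0] at b3
  have b4 : 0 ≤ ∫ y, X.h.W (p2 n) t x y ∂X.h.m := integral_nonneg (e1a_W_nonneg X _ t0 x)
  exact ⟨b1.1, b1.2.trans (by nlinarith), b2.1, by nlinarith [mul_nonneg (add_pos p1 p0).le b4],
    b2.2.trans (by nlinarith)⟩

theorem e1a_dom (hn : 1 ≤ n) (X : Sp.{u} n) {a b : ℝ} (ha : 0 < a) (hab : a ≤ b) (hb : X.h.ok b) (x : X.M) :
    ∃ D : X.M → ℝ, Integrable D X.h.m ∧ ∀ s ∈ Icc a b, ∀ y, X.h.H s x y ^ p2 n ≤ D y ∧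
      X.h.Γ (X.h.φ s x) (X.h.φ s x) y * X.h.H s x y ^ p2 n ≤ D y := by
  obtain ⟨C, C0, hC⟩ := W_bounds.{u} n hn 1
  obtain ⟨C', C1, hC'⟩ := grad_φ.{u} n
  have b0 := hb.1
  have kb := hb.2
  have k0 := X.h.k_nonneg
  have θb := X.h.th_pos b0 x
  set K := 2 * C * (2 * b / a) ^ (2 * n) / X.h.th b x ^ (1 - p2 n) with hK
  refine ⟨fun y => (1 + C' / a) * (K * X.h.H (2000 * b) x y),
    ((X.h.H_int (by positivity) x).1.const_mul _).const_mul _, fun s hs y => ?_⟩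
  have s0 : 0 < s := ha.trans_le hs.1
  have ks : X.h.k * s ≤ X.h.k * b := mul_le_mul_of_nonneg_left hs.2 k0
  have a1 := (hC X ⟨s0, ks.trans kb⟩ x).2.2 y
  have a2 := X.h.harnack (s := 1000 * s) (t := 2000 * b) (by positivity) (by linarith [hs.2])
    (by linarith) x x y
  rw [dist_self, zero_pow two_ne_zero, zero_div, Real.exp_zero, mul_one] at a2
  have a3 : (2000 * b / (1000 * s)) ^ (2 * n) ≤ (2 * b / a) ^ (2 * n) := by
    refine pow_le_pow_left₀ (by positivity) ?_ _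
    rw [div_le_div_iff₀ (by positivity) ha]
    nlinarith [hs.1]
  have a4 : 1 + dist x y ^ 2 / s ≤ 2 * Real.exp (1 * dist x y / √s) := by
    have h1 := Real.quadratic_le_exp_of_nonneg (x := 1 * dist x y / √s) (by positivity)
    have h2 : 0 ≤ 1 * dist x y / √s := by positivity
    rw [div_pow, Real.sq_sqrt s0.le, one_mul] at h1
    rw [one_mul] at h2 ⊢
    linarith
  have Hp : 0 ≤ X.h.H s x y ^ p2 n := Real.rpow_nonneg (X.h.H_nonneg s0 x y) _
  have H2 := X.h.H_nonneg (t := 2000 * b) (by positivity) x y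
  have a5 : X.h.th b x ^ (1 - p2 n) ≤ X.h.th s x ^ (1 - p2 n) :=
    Real.rpow_le_rpow θb.le (X.h.th_anti s0 hs.2 x) (by simp [p2])
  have θp : 0 < X.h.th b x ^ (1 - p2 n) := Real.rpow_pos_of_pos θb _
  have a6 : (1 + dist x y ^ 2 / s) * X.h.H s x y ^ p2 n ≤ K * X.h.H (2000 * b) x y := by
    rw [hK, div_mul_eq_mul_div, le_div_iff₀ θp]
    calc _ ≤ 2 * Real.exp (1 * dist x y / √s) * X.h.H s x y ^ p2 n * X.h.th s x ^ (1 - p2 n) := by gcongr
      _ = 2 * (X.h.W (p2 n) s x y * Real.exp (1 * dist x y / √s)) := by rw [HS.W]; ring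
      _ ≤ 2 * (C * ((2 * b / a) ^ (2 * n) * X.h.H (2000 * b) x y)) := by
          refine mul_le_mul_of_nonneg_left (a1.trans (mul_le_mul_of_nonneg_left (a2.trans ?_) C0.le)) two_pos.le
          gcongr
      _ = _ := by ring
  have a7 : X.h.Γ (X.h.φ s x) (X.h.φ s x) y ≤ C' / a * (1 + dist x y ^ 2 / s) := by
    have h1 := hC' X s0 (by linarith) x y
    rw [div_mul_eq_mul_div, le_div_iff₀ ha]
    nlinarith [mul_le_mul_of_nonneg_left hs.1 (X.h.Γ_nonneg (X.h.φ s x) y)]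
  have a8 : 0 ≤ dist x y ^ 2 / s * X.h.H s x y ^ p2 n := by positivity
  have a9 : 0 ≤ C' / a := by positivity
  have b1 := mul_le_mul_of_nonneg_left a6 a9
  have b2 := mul_le_mul_of_nonneg_right a7 Hp
  have b3 := mul_nonneg a9 (add_nonneg Hp a8)
  constructor <;> nlinarith

/-- Recipe: `Z s = ∫ H^p`, `Z b - Z a = p(1-p) ∫ₐᵇ ∫ Γφ H^p` (`duh2` with `e = H^p`, `F = 1`); `s ↦ ∫ Γφ H^p` is continuous (dominated convergence: on a short time interval
`Γφ H^p ≤ C θ^p exp(-d²/(400 s₀))`-type bound from `grad_φ`, `gauss_up`, `th_anti`, integrable by `gauss_dom`); so `Z` is `C¹` and positive, differentiate `log Z`. -/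
theorem Ren_sub (hn : 1 ≤ n) (X : Sp.{u} n) {a b : ℝ} (ha : 0 < a) (hab : a ≤ b) (hb : X.h.ok b)
    (x : X.M) : ContinuousOn (X.h.zb x) (Icc a b) ∧
      X.h.Ren x a - X.h.Ren x b = ∫ s in a..b, X.h.zb x s / s := by
  obtain ⟨D, iD, hD⟩ := e1a_dom hn X ha hab hb x
  obtain ⟨C, -, hW⟩ := W_int.{u} n hn 0
  set p := p2 n with hp
  have n1 : (1 : ℝ) ≤ n := by exact_mod_cast hn
  have p1 : 0 < 1 - p := by simp only [hp, p2, sub_sub_cancel]; positivity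
  have p0 : 0 ≤ p := by
    rw [hp, p2, sub_nonneg, div_le_one (by positivity)]
    linarith
  have sub : Icc a b ⊆ Ioi 0 := fun s hs => ha.trans_le hs.1
  have se : X.h.Sm (Ioi 0) fun s y => X.h.H s x y ^ p :=
    X.h.Sm_rpow (X.h.H_Sm x) (fun s hs y => X.h.H_pos hs x y) p
  have sq : X.h.Sm (Ioi 0) fun s y => X.h.Γ (X.h.φ s x) (X.h.φ s x) y * X.h.H s x y ^ p :=
    X.h.Sm_mul (X.h.Sm_Γ isOpen_Ioi (X.h.φ_Sm x) (X.h.φ_Sm x)) se
  have e0 : ∀ s ∈ Icc a b, ∀ y, 0 ≤ X.h.H s x y ^ p := fun s hs y =>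
    Real.rpow_nonneg (X.h.H_nonneg (sub hs) x y) _
  have q0 : ∀ s ∈ Icc a b, ∀ y, 0 ≤ X.h.Γ (X.h.φ s x) (X.h.φ s x) y * X.h.H s x y ^ p := fun s hs y =>
    mul_nonneg (X.h.Γ_nonneg _ y) (e0 s hs y)
  have cont : ∀ {F : ℝ → X.M → ℝ}, X.h.Sm (Ioi 0) F → (∀ s ∈ Icc a b, ∀ y, 0 ≤ F s y) →
      (∀ s ∈ Icc a b, ∀ y, F s y ≤ D y) → ContinuousOn (fun s => ∫ y, F s y ∂X.h.m) (Icc a b) :=
    fun hF h0 h1 => continuousOn_of_dominated
      (fun s hs => (X.h.S_cont (X.h.Sm_slice hF (sub hs))).aestronglyMeasurable)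
      (fun s hs => Eventually.of_forall fun y => by rw [Real.norm_of_nonneg (h0 s hs y)]; exact h1 s hs y) iD
      (Eventually.of_forall fun y s hs =>
        (X.h.Sm_deriv isOpen_Ioi hF (sub hs) y).continuousAt.continuousWithinAt)
  set Z : ℝ → ℝ := fun s => ∫ y, X.h.H s x y ^ p ∂X.h.m with hZ
  set Y : ℝ → ℝ := fun s => ∫ y, X.h.Γ (X.h.φ s x) (X.h.φ s x) y * X.h.H s x y ^ p ∂X.h.m with hY
  have cZ : ContinuousOn Z (Icc a b) := cont se e0 fun s hs y => (hD s hs y).1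
  have cY : ContinuousOn Y (Icc a b) := cont sq q0 fun s hs y => (hD s hs y).2
  have ie := fun s hs => e1a_int (X.h.S_cont (X.h.Sm_slice se (sub hs))) (e0 s hs) (fun y => (hD s hs y).1) iD
  have Z0 : ∀ s ∈ Icc a b, Z s ≠ 0 := fun s hs h => by
    have := (hW X ⟨sub hs, (mul_le_mul_of_nonneg_left hs.2 X.h.k_nonneg).trans hb.2⟩ x).2.2.2.1
    simp only [HS.W, integral_mul_const] at this
    rw [show ∫ y, X.h.H s x y ^ p ∂X.h.m = 0 from h] at this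
    norm_num at this
  have eZ : ∀ s ∈ Icc a b, Z s = Z a + ∫ r in a..s, p * (1 - p) * Y r := fun s hs => by
    have s1 : Icc a s ⊆ Icc a b := Icc_subset_Icc_right hs.2
    have := (X.h.duh2 (F := fun _ _ => 1) (G := fun _ _ => 0)
      (Q := fun s y => p * (1 - p) * (X.h.Γ (X.h.φ s x) (X.h.φ s x) y * X.h.H s x y ^ p)) isOpen_Ioi se
      (X.h.Sm_const _ 1) hs.1 (s1.trans sub) (by simpa using (ie a (left_mem_Icc.2 hab)).1)
      (by simpa using (ie s hs).1) (by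
        simp only [X.h.Γ_const_left, Real.sqrt_zero, abs_one, add_zero, mul_one]
        exact X.h.STI_of_bound (B := ∫ y, D y ∂X.h.m) (s1.trans sub) (X.h.Sm_cont se).abs fun r hr =>
          ⟨(ie r (s1 hr)).1.abs, by simpa only [abs_abs, abs_of_nonneg (e0 r (s1 hr) _)] using (ie r (s1 hr)).2⟩)
      continuousOn_const (integrable_zero _ _ _)
      (fun r hr y => by rw [heat_Hp X p hr, X.h.Δ_const]; simp [dt])
      (fun r hr y => mul_nonneg (mul_nonneg p0 p1.le) (q0 r (s1 hr) y))).2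
    simp only [mul_one, integral_zero, intervalIntegral.integral_zero, add_zero, integral_const_mul] at this
    simp only [hZ, hY]
    linarith
  have cz : ContinuousOn (X.h.zb x) (Icc a b) :=
    continuousOn_const.sub (((continuousOn_const.mul continuousOn_id).mul cY).div cZ Z0)
  refine ⟨cz, ?_⟩
  have cs : ContinuousOn (fun s => X.h.zb x s / s) (Icc a b) := cz.div continuousOn_id fun s hs => (sub hs).ne'
  have := intervalIntegral.integral_eq_sub_of_hasDerivAt_of_le (f := fun s => -X.h.Ren x s) hab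
    (((cZ.log Z0).div_const _).sub (continuousOn_const.mul
      (continuousOn_id.log fun s hs => (sub hs).ne'))).neg (fun s hs => ?_)
    (cs.intervalIntegrable_of_Icc hab)
  · rw [this]
    ring
  have hs' := Ioo_subset_Icc_self hs
  have nb : Icc a b ∈ 𝓝 s := Icc_mem_nhds hs.1 hs.2
  have cY' : ContinuousOn (fun r => p * (1 - p) * Y r) (Icc a b) := continuousOn_const.mul cY
  have d1 : HasDerivAt Z (p * (1 - p) * Y s) s :=
    ((intervalIntegral.integral_hasDerivAt_right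
      ((cY'.mono (Icc_subset_Icc_right hs.2.le)).intervalIntegrable_of_Icc hs.1.le)
      ((cY'.mono Ioo_subset_Icc_self).stronglyMeasurableAtFilter isOpen_Ioo s hs)
      (cY'.continuousAt nb)).const_add (Z a)).congr_of_eventuallyEq (eventually_of_mem nb eZ)
  have s0 : s ≠ 0 := (sub hs').ne'
  refine (((d1.log (Z0 s hs')).div_const (1 - p)).sub
    ((Real.hasDerivAt_log s0).const_mul ((n : ℝ) / 2))).neg.congr_deriv (Eq.symm ?_)
  have := Z0 s hs'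
  show (n / 2 - p * s * Y s / Z s) / s = _
  field_simp
  ring

lemma e1b_fatou {M : Type u} [MeasurableSpace M] {m : Measure M} {N : M → ℝ} {F : ℕ → M → ℝ} {B : ℝ}
    (hF : ∀ j, Integrable (F j) m) (h0 : ∀ j y, 0 ≤ F j y) (hB : ∀ j, ∫ y, F j y ∂m ≤ B)
    (hl : ∀ y, Tendsto (fun j => F j y) atTop (𝓝 (N y))) : Integrable N m := by
  refine memLp_one_iff_integrable.1 ⟨aestronglyMeasurable_of_tendsto_ae atTop (fun j => (hF j).1) (ae_of_all _ hl),
    (Lp.eLpNorm_le_of_ae_tendsto (u := atTop) (C := ENNReal.ofReal B) (Eventually.of_forall fun j => ?_)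
      (fun j => (hF j).1) (ae_of_all _ hl)).trans_lt ENNReal.ofReal_lt_top⟩
  rw [eLpNorm_one_eq_lintegral_enorm, ← ofReal_integral_norm_eq_lintegral_enorm (hF j)]
  refine ENNReal.ofReal_le_ofReal (le_trans (le_of_eq ?_) (hB j))
  exact integral_congr_ae (ae_of_all _ fun y => Real.norm_of_nonneg (h0 j y))

lemma e1b_exp {t : ℝ} (ht : 0 < t) {d : ℝ} (hd : 0 ≤ d) : 1 + d ^ 2 / t ≤ Real.exp (2 * d / Real.sqrt t) := by
  have hs := Real.sqrt_pos.2 ht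
  have h1 := Real.add_one_le_exp (d / Real.sqrt t)
  have h2 : d ^ 2 / t = (d / Real.sqrt t) ^ 2 := by rw [div_pow, Real.sq_sqrt ht.le]
  have h3 : 0 ≤ d / Real.sqrt t := by positivity
  rw [mul_div_assoc, two_mul, Real.exp_add, h2]
  nlinarith

lemma e1b_W (X : Sp.{u} n) (p : ℝ) {t : ℝ} (ht : 0 < t) (x : X.M) :
    X.h.S (X.h.W p t x) ∧ (∀ y, 0 < X.h.W p t x y) ∧
      ∀ y, X.h.Γ (X.h.φ t x) (X.h.W p t x) y = -(p * (X.h.Γ (X.h.φ t x) (X.h.φ t x) y * X.h.W p t x y)) := by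
  have e : X.h.W p t x = fun y => (fun s => Real.exp (-p * s) * X.h.th t x ^ (1 - p)) (X.h.φ t x y) := by
    funext y
    simp only [HS.W, HS.φ]
    rw [Real.rpow_def_of_pos (X.h.H_pos ht x y)]
    congr 2
    ring
  have hc : ContDiffOn ℝ ∞ (fun s : ℝ => Real.exp (-p * s) * X.h.th t x ^ (1 - p)) univ := by fun_prop
  refine ⟨e ▸ X.h.S_comp (X.h.φ_S ht x) isOpen_univ hc fun _ => mem_univ _,
    fun y => mul_pos (Real.rpow_pos_of_pos (X.h.H_pos ht x y) _) (Real.rpow_pos_of_pos (X.h.H_pos ht x x) _), fun y => ?_⟩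
  have hd : HasDerivAt (fun s : ℝ => Real.exp (-p * s) * X.h.th t x ^ (1 - p))
      (Real.exp (-p * X.h.φ t x y) * (-p * 1) * X.h.th t x ^ (1 - p)) (X.h.φ t x y) :=
    ((hasDerivAt_id _).const_mul (-p)).exp.mul_const _
  rw [X.h.Γ_comm, e, X.h.Γ_comp_left (X.h.φ_S ht x) isOpen_univ hc (fun _ => mem_univ _), hd.deriv]
  ring

lemma e1b_int (X : Sp.{u} n) (x : X.M) {φ w u : X.M → ℝ} {p c : ℝ} (hp : 0 ≤ p) (hφ : X.h.S φ) (hw : X.h.S w)
    (h0 : ∀ y, 0 < w y) (hΓ : ∀ y, X.h.Γ φ w y = -(p * (X.h.Γ φ φ y * w y))) (hu : Continuous u)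
    (hui : Integrable (fun y => u y * w y) X.h.m) (hu1 : ∀ y, 1 ≤ u y) (hc : 0 ≤ c) (hg : ∀ y, X.h.Γ φ φ y ≤ c * u y)
    (hz : ∀ y, X.h.Δ φ y ≤ c * u y) :
    Integrable (fun y => X.h.Γ φ φ y * w y) X.h.m ∧ Integrable (fun y => w y * X.h.Δ φ y) X.h.m ∧
      ∫ y, w y * X.h.Δ φ y ∂X.h.m = p * ∫ y, X.h.Γ φ φ y * w y ∂X.h.m := by
  have cw := X.h.S_cont hw
  have cΓ := X.h.S_cont (X.h.S_Γ hφ hφ)
  have cΔ := X.h.S_cont (X.h.S_Δ hφ)
  have i1 : Integrable (fun y => X.h.Γ φ φ y * w y) X.h.m :=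
    (hui.const_mul c).mono' (cΓ.mul cw).aestronglyMeasurable (ae_of_all _ fun y => by
      rw [Real.norm_of_nonneg (mul_nonneg (X.h.Γ_nonneg _ _) (h0 y).le), ← mul_assoc]
      exact mul_le_mul_of_nonneg_right (hg y) (h0 y).le)
  have hs : ∀ y, w y * Real.sqrt (X.h.Γ φ φ y) ≤ (c + 1) * (u y * w y) := fun y => by
    have h1 : Real.sqrt (X.h.Γ φ φ y) ≤ (c + 1) * u y := by
      nlinarith [Real.sq_sqrt (X.h.Γ_nonneg φ y), sq_nonneg (Real.sqrt (X.h.Γ φ φ y) - 1), hg y, hu1 y,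
        Real.sqrt_nonneg (X.h.Γ φ φ y), mul_nonneg hc (zero_le_one.trans (hu1 y))]
    nlinarith [mul_le_mul_of_nonneg_left h1 (h0 y).le]
  have i2 : Integrable (fun y => w y * Real.sqrt (X.h.Γ φ φ y)) X.h.m :=
    (hui.const_mul (c + 1)).mono' (cw.mul cΓ.sqrt).aestronglyMeasurable (ae_of_all _ fun y => by
      rw [Real.norm_of_nonneg (mul_nonneg (h0 y).le (Real.sqrt_nonneg _))]
      exact hs y)
  obtain ⟨C, χ, hχ, hχ1⟩ := X.h.cut2 x
  have hN : ∀ y, 0 ≤ (c * u y - X.h.Δ φ y) * w y := fun y => mul_nonneg (sub_nonneg.2 (hz y)) (h0 y).le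
  have ic : ∀ j {f : X.M → ℝ}, Continuous f → Integrable (fun y => χ j y * f y) X.h.m := fun j f hf =>
    X.h.int_cs ((X.h.S_cont (hχ j).1).mul hf) (hχ j).2.1.mul_right
  have i3 : Integrable (fun y => (c * u y - X.h.Δ φ y) * w y) X.h.m := by
    refine e1b_fatou (F := fun j y => χ j y * ((c * u y - X.h.Δ φ y) * w y))
      (B := c * ∫ y, u y * w y ∂X.h.m + |C| * ∫ y, w y * Real.sqrt (X.h.Γ φ φ y) ∂X.h.m)
      (fun j => ic j (by fun_prop)) (fun j y => mul_nonneg ((hχ j).2.2 y).1.1 (hN y)) (fun j => ?_)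
      fun y => tendsto_const_nhds.congr' ((hχ1 y).mono fun j hj => by simp only [hj, one_mul])
    have e1 := X.h.ibp_cut (hχ j).1 (hχ j).2.1 hφ hw
    have e2 : ∫ y, χ j y * ((c * u y - X.h.Δ φ y) * w y) ∂X.h.m =
        c * ∫ y, χ j y * (u y * w y) ∂X.h.m - ∫ y, χ j y * w y * X.h.Δ φ y ∂X.h.m := by
      simp only [mul_assoc (χ j _)]
      rw [← integral_const_mul, ← integral_sub ((ic j (f := fun y => u y * w y) (hu.mul cw)).const_mul c)
        (ic j (f := fun y => w y * X.h.Δ φ y) (cw.mul cΔ))]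
      exact integral_congr_ae (ae_of_all _ fun y => by ring)
    have e3 : ∫ y, χ j y * (u y * w y) ∂X.h.m ≤ ∫ y, u y * w y ∂X.h.m :=
      integral_mono (ic j (hu.mul cw)) hui fun y =>
        mul_le_of_le_one_left (mul_nonneg (zero_le_one.trans (hu1 y)) (h0 y).le) ((hχ j).2.2 y).1.2
    have e4 : ∫ y, χ j y * X.h.Γ φ w y ∂X.h.m ≤ 0 := integral_nonpos fun y => by
      rw [hΓ]
      exact mul_nonpos_of_nonneg_of_nonpos ((hχ j).2.2 y).1.1
        (neg_nonpos.2 (mul_nonneg hp (mul_nonneg (X.h.Γ_nonneg _ _) (h0 y).le)))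
    have e5 : ∫ y, w y * X.h.Γ φ (χ j) y ∂X.h.m ≤ |C| * ∫ y, w y * Real.sqrt (X.h.Γ φ φ y) ∂X.h.m := by
      rw [← integral_const_mul]
      refine (Real.le_norm_self _).trans (norm_integral_le_of_norm_le (i2.const_mul _) (ae_of_all _ fun y => ?_))
      have a1 : Real.sqrt (X.h.Γ (χ j) (χ j) y) ≤ |C| := ((hχ j).2.2 y).2.1.trans
        ((div_le_div_of_nonneg_right (le_abs_self C) (by positivity)).trans
          (div_le_self (abs_nonneg C) (by linarith [(Nat.cast_nonneg j : (0 : ℝ) ≤ j)])))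
      have a2 := (X.h.abs_Γ_le φ (χ j) y).trans (mul_le_mul_of_nonneg_left a1 (Real.sqrt_nonneg _))
      rw [Real.norm_eq_abs, abs_mul, abs_of_pos (h0 y)]
      nlinarith [mul_le_mul_of_nonneg_left a2 (h0 y).le]
    rw [e2, e1]
    nlinarith [mul_le_mul_of_nonneg_left e3 hc]
  have i4 : Integrable (fun y => w y * X.h.Δ φ y) X.h.m :=
    ((hui.const_mul c).sub i3).congr (ae_of_all _ fun y => by simp only [Pi.sub_apply]; ring)
  refine ⟨i1, i4, ?_⟩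
  rw [X.h.ibp_L1 hφ hw i4 ((i1.const_mul p).neg.congr (ae_of_all _ fun y => (hΓ y).symm))
    (i2.congr (ae_of_all _ fun y => by simp only [abs_of_pos (h0 y)])), ← integral_const_mul, ← integral_neg]
  exact integral_congr_ae (ae_of_all _ fun y => by simp only [hΓ, neg_neg])

/-- Recipe: with `χ j` from `cut2`, `∫ χ ζ H^p = (n/2)∫ χ H^p - t p ∫ χ Γφ H^p + t ∫ H^p Γ(φ,χ) → zb · Z` (`ibp_cut`, `Γ(φ,H^p) = -p H^p Γφ`).  By `ζ_ge`, `ζ + C k t (1 + d²/t) ≥ 0`; Fatou.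
Multiply by `θ^{1-p}`, `W_int`. -/
theorem ζ_W (n : ℕ) (hn : 1 ≤ n) : ∃ C : ℝ, 0 < C ∧ ∀ (X : Sp.{u} n) {t : ℝ}, X.h.ok t → ∀ x,
    Integrable (fun y => |X.h.ζ t x y| * X.h.W (p2 n) t x y) X.h.m ∧
    ∫ y, |X.h.ζ t x y| * X.h.W (p2 n) t x y ∂X.h.m ≤ C * (X.h.zb x t + C * (X.h.k * t)) ∧
    0 ≤ X.h.zb x t + C * (X.h.k * t) ∧ X.h.zb x t ≤ n / 2 := by
  obtain ⟨C₀, hC₀, hW⟩ := W_int.{u} n hn 2
  obtain ⟨C₁, hC₁, hζ⟩ := ζ_ge.{u} n
  obtain ⟨C₂, hC₂, hg⟩ := grad_φ.{u} n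
  refine ⟨C₀ + 2 * C₁ * C₀ ^ 2, by positivity, fun X t hok x => ?_⟩
  have ht := hok.1
  have hk : X.h.k * t ≤ 1 / 200 := hok.2.trans (by norm_num)
  have hk0 : 0 ≤ X.h.k * t := mul_nonneg X.h.k_nonneg ht.le
  have hn' : (1 : ℝ) ≤ n := by exact_mod_cast hn
  have hp : 0 ≤ p2 n := sub_nonneg.2 ((div_le_one (by positivity)).2 (by linarith))
  obtain ⟨w1, w2, w3, w4, w5⟩ := hW X hok x
  obtain ⟨s1, s2, s3⟩ := e1b_W X (p2 n) ht x
  set w := X.h.W (p2 n) t x with hw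
  set u : X.M → ℝ := fun y => 1 + dist x y ^ 2 / t with hu
  have u1 : ∀ y, 1 ≤ u y := fun y => le_add_of_nonneg_right (by positivity)
  have uc : Continuous u := by fun_prop
  have u2 : ∀ y, u y * w y ≤ w y * Real.exp (2 * dist x y / Real.sqrt t) := fun y => by
    rw [mul_comm]
    exact mul_le_mul_of_nonneg_left (e1b_exp ht dist_nonneg) (s2 y).le
  have ui : Integrable (fun y => u y * w y) X.h.m :=
    w1.mono' (uc.mul (X.h.S_cont s1)).aestronglyMeasurable (ae_of_all _ fun y => by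
      rw [Real.norm_of_nonneg (mul_nonneg (zero_le_one.trans (u1 y)) (s2 y).le)]
      exact u2 y)
  have u3 : ∫ y, u y * w y ∂X.h.m ≤ C₀ := (integral_mono ui w1 u2).trans w2
  have hc : 0 ≤ C₁ * (X.h.k * t) := by positivity
  obtain ⟨i1, i2, i3⟩ := e1b_int X x (c := (C₂ + n + C₁ * (X.h.k * t)) / t) hp (X.h.φ_S ht x) s1 s2 s3 uc ui u1
    (by positivity) (fun y => by
      rw [div_mul_eq_mul_div, le_div_iff₀ ht]
      nlinarith [hg X ht hk x y, mul_nonneg (add_nonneg (zero_le_one.trans hn') hc) (zero_le_one.trans (u1 y))])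
    (fun y => by
      have := hζ X ht hk x y
      rw [HS.ζ] at this
      rw [div_mul_eq_mul_div, le_div_iff₀ ht]
      nlinarith [mul_nonneg hC₂.le (zero_le_one.trans (u1 y)), mul_le_mul_of_nonneg_left (u1 y) (zero_le_one.trans hn')])
  have e0 : ∀ y, X.h.ζ t x y * w y = n / 2 * w y - t * (w y * X.h.Δ (X.h.φ t x) y) := fun y => by rw [HS.ζ]; ring
  have i4 : Integrable (fun y => X.h.ζ t x y * w y) X.h.m :=
    ((w3.const_mul (n / 2)).sub (i2.const_mul t)).congr (ae_of_all _ fun y => (e0 y).symm)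
  have hZ : 0 < ∫ y, w y ∂X.h.m := by
    by_contra hc
    nlinarith [mul_nonneg hC₀.le (neg_nonneg.2 (not_lt.1 hc))]
  have hθ := Real.rpow_pos_of_pos (X.h.H_pos ht x x) (1 - p2 n)
  have ez : X.h.zb x t = n / 2 - p2 n * t * (∫ y, X.h.Γ (X.h.φ t x) (X.h.φ t x) y * w y ∂X.h.m) / ∫ y, w y ∂X.h.m := by
    simp only [HS.zb, hw, HS.W, HS.th, ← mul_assoc, integral_mul_const]
    rw [mul_div_mul_right _ _ hθ.ne']
  have e1 : ∫ y, X.h.ζ t x y * w y ∂X.h.m = X.h.zb x t * ∫ y, w y ∂X.h.m := by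
    simp only [e0]
    rw [integral_sub (w3.const_mul _) (i2.const_mul t), integral_const_mul, integral_const_mul, i3, ez]
    field_simp
  have i5 : Integrable (fun y => |X.h.ζ t x y| * w y) X.h.m :=
    i4.abs.congr (ae_of_all _ fun y => by simp only [abs_mul, abs_of_pos (s2 y)])
  have e2 : ∫ y, |X.h.ζ t x y| * w y ∂X.h.m ≤
      X.h.zb x t * ∫ y, w y ∂X.h.m + 2 * (C₁ * (X.h.k * t)) * ∫ y, u y * w y ∂X.h.m := by
    rw [← e1, ← integral_const_mul, ← integral_add i4 (ui.const_mul _)]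
    refine integral_mono i5 (i4.add (ui.const_mul _)) fun y => ?_
    have a1 : |X.h.ζ t x y| ≤ X.h.ζ t x y + 2 * (C₁ * (X.h.k * t)) * u y := by
      have := hζ X ht hk x y
      have := mul_nonneg hc (zero_le_one.trans (u1 y))
      exact abs_le.2 ⟨by linarith, by linarith⟩
    nlinarith [mul_le_mul_of_nonneg_right a1 (s2 y).le]
  have e3 : 0 ≤ ∫ y, |X.h.ζ t x y| * w y ∂X.h.m := integral_nonneg fun y => mul_nonneg (abs_nonneg _) (s2 y).le
  have e4 : ∫ y, |X.h.ζ t x y| * w y ∂X.h.m ≤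
      (X.h.zb x t + (C₀ + 2 * C₁ * C₀ ^ 2) * (X.h.k * t)) * ∫ y, w y ∂X.h.m := by
    have a1 := mul_le_mul_of_nonneg_left u3 hc
    have a2 := mul_le_mul_of_nonneg_left w4 (mul_nonneg hc hC₀.le)
    have a3 := mul_nonneg (mul_nonneg hC₀.le hk0) hZ.le
    nlinarith
  have e5 : 0 ≤ X.h.zb x t + (C₀ + 2 * C₁ * C₀ ^ 2) * (X.h.k * t) := nonneg_of_mul_nonneg_left (e3.trans e4) hZ
  refine ⟨i5, e4.trans ?_, e5, ?_⟩
  · rw [mul_comm]
    exact mul_le_mul_of_nonneg_right (w5.trans (le_add_of_nonneg_right (by positivity))) e5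
  · rw [ez]
    exact sub_le_self _ (div_nonneg (mul_nonneg (mul_nonneg hp ht.le)
      (integral_nonneg fun y => mul_nonneg (X.h.Γ_nonneg _ _) (s2 y).le)) hZ.le)

theorem KK_meas (X : Sp.{u} n) (x : X.M) : AEMeasurable (X.h.KK x) (volume.restrict (Ioi 0)) := by
  have := X.h.fin_cpt
  have c1 := X.h.Sm_cont (X.h.Sm_D (a := fun t => 1 / (2 * t)) isOpen_Ioi (X.h.φ_Sm x)
    (contDiffOn_const.div (contDiffOn_const.mul contDiffOn_id) fun t ht => by
      have : (0 : ℝ) < t := ht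
      positivity))
  have c2 := X.h.Sm_cont (X.h.H_Sm x)
  have c3 : ContinuousOn (fun p : ℝ × X.M => X.h.th p.1 x) (Ioi 0 ×ˢ univ) :=
    c2.comp (f := fun p : ℝ × X.M => (p.1, x)) (by fun_prop) fun p hp => ⟨hp.1, mem_univ _⟩
  have c4 : ContinuousOn (fun p : ℝ × X.M => X.h.Dφ p.1 x p.2 * X.h.W (p1 n) p.1 x p.2) (Ioi 0 ×ˢ univ) :=
    ((continuousOn_fst.pow 2).mul c1).mul ((c2.rpow_const fun p hp => Or.inl (X.h.H_pos hp.1 x _).ne').mul
      (c3.rpow_const fun p hp => Or.inl (X.h.th_pos hp.1 x).ne'))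
  have m := (c4.aemeasurable (μ := volume.prod X.h.m) (measurableSet_Ioi.prod MeasurableSet.univ)).ennreal_ofReal
  rw [← Measure.prod_restrict, Measure.restrict_univ] at m
  exact m.lintegral_prod_right'

lemma e1c_slice (n : ℕ) (hn : 1 ≤ n) : ∃ C : ℝ, 0 < C ∧ ∀ (X : Sp.{u} n) {t : ℝ}, X.h.ok t → ∀ x,
    0 ≤ X.h.zb x t + C * (X.h.k * t) ∧ X.h.zb x t ≤ n / 2 ∧
    ∀ (f : X.M → ℝ) (α β : ℝ), 0 ≤ α → 0 ≤ β → Continuous f →
      (∀ y, |f y| ≤ (α + β * |X.h.ζ t x y|) * ((1 + dist x y ^ 2 / t) * X.h.H t x y ^ p1 n)) →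
      Integrable f X.h.m ∧ ∫ y, |f y| ∂X.h.m ≤
        X.h.th t x ^ (p1 n - 1) * C * (α + β * (X.h.zb x t + C * (X.h.k * t))) := by
  obtain ⟨C₂, hC₂, h₂⟩ := W_bounds.{u} n hn 1
  obtain ⟨C₃, hC₃, h₃⟩ := W_int.{u} n hn 1
  obtain ⟨C₄, hC₄, h₄⟩ := ζ_W.{u} n hn
  refine ⟨2 * C₂ * (C₃ + C₄) + C₄, by positivity, fun X t ht x => ?_⟩
  obtain ⟨i₄, b₄, z₀, z₁⟩ := h₄ X ht x
  obtain ⟨-, -, i₃, -, b₃⟩ := h₃ X ht x
  have hkt : 0 ≤ X.h.k * t := mul_nonneg X.h.k_nonneg ht.1.le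
  have hZ : X.h.zb x t + C₄ * (X.h.k * t) ≤
      X.h.zb x t + (2 * C₂ * (C₃ + C₄) + C₄) * (X.h.k * t) := by
    have : 0 ≤ 2 * C₂ * (C₃ + C₄) * (X.h.k * t) := by positivity
    linarith
  refine ⟨z₀.trans hZ, z₁, fun f α β hα hβ hf hle => ?_⟩
  have hθ := X.h.th_pos ht.1 x
  have hθ' : 0 < X.h.th t x ^ (p1 n - 1) := Real.rpow_pos_of_pos hθ _
  have key : ∀ y, |f y| ≤ X.h.th t x ^ (p1 n - 1) * (2 * C₂) *
      (α * X.h.W (p2 n) t x y + β * (|X.h.ζ t x y| * X.h.W (p2 n) t x y)) := by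
    intro y
    have hH := X.h.H_pos ht.1 x y
    have e : X.h.H t x y ^ p1 n = X.h.th t x ^ (p1 n - 1) * X.h.W (p1 n) t x y := by
      rw [HS.W, mul_left_comm, ← Real.rpow_add hθ]
      simp
    have hW : 0 ≤ X.h.W (p1 n) t x y := by rw [HS.W]; positivity
    have h1 : 1 + dist x y ^ 2 / t ≤ 2 * Real.exp (1 * dist x y / Real.sqrt t) := by
      have := Real.quadratic_le_exp_of_nonneg (x := 1 * dist x y / Real.sqrt t) (by positivity)
      rw [div_pow, one_mul, Real.sq_sqrt ht.1.le] at this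
      rw [one_mul]
      have h0 : 0 ≤ dist x y / Real.sqrt t := by positivity
      linarith
    have h2 := (h₂ X ht x).2.1 y
    have h3 : (1 + dist x y ^ 2 / t) * X.h.H t x y ^ p1 n ≤
        X.h.th t x ^ (p1 n - 1) * (2 * C₂) * X.h.W (p2 n) t x y := by
      rw [e, mul_left_comm, mul_assoc]
      refine mul_le_mul_of_nonneg_left ?_ hθ'.le
      nlinarith [mul_le_mul_of_nonneg_right h1 hW]
    refine (hle y).trans ((mul_le_mul_of_nonneg_left h3 (by positivity)).trans_eq ?_)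
    ring
  have hi := ((i₃.const_mul α).add (i₄.const_mul β)).const_mul (X.h.th t x ^ (p1 n - 1) * (2 * C₂))
  have hfi : Integrable f X.h.m := hi.mono' hf.aestronglyMeasurable (Eventually.of_forall key)
  refine ⟨hfi, (integral_mono hfi.abs hi key).trans ?_⟩
  simp only [Pi.add_apply]
  rw [integral_const_mul, integral_add (i₃.const_mul α) (i₄.const_mul β), integral_const_mul,
    integral_const_mul, mul_assoc, mul_assoc (X.h.th t x ^ (p1 n - 1))]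
  refine mul_le_mul_of_nonneg_left ?_ hθ'.le
  have a1 := mul_le_mul_of_nonneg_left b₃ hα
  have a2 := mul_le_mul_of_nonneg_left (b₄.trans (mul_le_mul_of_nonneg_left hZ hC₄.le)) hβ
  have a3 := mul_nonneg hβ (z₀.trans hZ)
  generalize X.h.zb x t + (2 * C₂ * (C₃ + C₄) + C₄) * (X.h.k * t) = Z at a2 a3 ⊢
  nlinarith [mul_le_mul_of_nonneg_left (add_le_add a1 a2) (by positivity : 0 ≤ 2 * C₂),
    mul_nonneg hα hC₄.le, mul_nonneg a3 hC₄.le, mul_nonneg (mul_nonneg hα hC₄.le) hC₂.le,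
    mul_nonneg (mul_nonneg a3 hC₃.le) hC₂.le]

/-- the backward test function `H ^ (q - 1)` -/
lemma e1c_F (X : Sp.{u} n) (c : ℝ) (x : X.M) :
    X.h.Sm (Ioi 0) (fun s y => Real.exp (c * X.h.φ s x y)) ∧ ∀ {t : ℝ}, 0 < t → ∀ y,
      Real.exp (c * X.h.φ t x y) * X.h.H t x y = X.h.H t x y ^ (1 - c) ∧
      dt (fun s y => Real.exp (c * X.h.φ s x y)) t y + X.h.Δ (fun y => Real.exp (c * X.h.φ t x y)) y =
        c * Real.exp (c * X.h.φ t x y) *
          (2 * X.h.Δ (X.h.φ t x) y - (1 - c) * X.h.Γ (X.h.φ t x) (X.h.φ t x) y) ∧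
      X.h.Γ (fun y => Real.exp (c * X.h.φ t x y)) (fun y => Real.exp (c * X.h.φ t x y)) y =
        (c * Real.exp (c * X.h.φ t x y)) ^ 2 * X.h.Γ (X.h.φ t x) (X.h.φ t x) y := by
  have hs : ContDiff ℝ ∞ fun r : ℝ => Real.exp (c * r) := by fun_prop
  have hd : deriv (fun r : ℝ => Real.exp (c * r)) = fun r => c * Real.exp (c * r) := by
    funext r
    rw [(((hasDerivAt_id' r).const_mul c).exp).deriv]
    ring
  have hd2 : deriv (fun r : ℝ => c * Real.exp (c * r)) = fun r => c * (c * Real.exp (c * r)) := by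
    funext r
    rw [((((hasDerivAt_id' r).const_mul c).exp).const_mul c).deriv]
    ring
  refine ⟨X.h.Sm_comp' (φ := fun r => Real.exp (c * r)) (X.h.φ_Sm x) hs, fun {t} ht y => ⟨?_, ?_, ?_⟩⟩
  · have hH := X.h.H_pos ht x y
    rw [Real.rpow_sub hH, Real.rpow_one, Real.rpow_def_of_pos hH, HS.φ, div_eq_mul_inv, mul_comm,
      ← Real.exp_neg]
    congr 2
    ring
  · rw [X.h.dt_comp (φ := fun r => Real.exp (c * r)) isOpen_Ioi (X.h.φ_Sm x) ht y
      (hs.differentiable (by simp) _), X.h.Δ_comp (φ := fun r => Real.exp (c * r)) (X.h.φ_S ht x)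
      isOpen_univ hs.contDiffOn (fun _ => mem_univ _), hd, hd2, X.h.dt_φ ht]
    ring
  · rw [X.h.Γ_comp_left (φ := fun r => Real.exp (c * r)) (X.h.φ_S ht x) isOpen_univ hs.contDiffOn
      (fun _ => mem_univ _), X.h.Γ_comm, X.h.Γ_comp_left (φ := fun r => Real.exp (c * r))
      (X.h.φ_S ht x) isOpen_univ hs.contDiffOn (fun _ => mem_univ _), hd]
    ring

lemma e1c_ζsq (X : Sp.{u} n) {t : ℝ} (ht : 0 < t) (x y : X.M) :
    X.h.ζ t x y ^ 2 ≤ n * X.h.Dφ t x y ∧ 0 ≤ X.h.Dφ t x y := by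
  have h1 := X.h.Δ_sub_sq_le (X.h.φ_S ht x) (1 / (2 * t)) y
  have h2 := X.h.D_nonneg (X.h.φ_S ht x) (1 / (2 * t)) y
  refine ⟨?_, mul_nonneg (sq_nonneg _) h2⟩
  have e : X.h.ζ t x y ^ 2 = t ^ 2 * (X.h.Δ (X.h.φ t x) y - n * (1 / (2 * t))) ^ 2 := by
    rw [HS.ζ]
    field_simp
    ring
  rw [e, HS.Dφ, mul_left_comm]
  exact mul_le_mul_of_nonneg_left h1 (sq_nonneg _)

/-- Recipe: `q = p1 n`.  `duh2` on `[a,b]` with `e s y = s ζ H` (`heat_ζH`), `F = H^{q-1}`: `(∂+Δ)F = (1-q) F (2Δφ - qΓφ)`, `Δφ = (n/2 - ζ)/s`, total source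
`H^q (2Dφ - 2(1-q)ζ²) + H^q (-2ks²Γφ + (1-q) ζ (n - q s Γφ))`; the first part `Q ≥ (3/2) Dφ H^q` since `ζ² ≤ n Dφ` (`Δ_sub_sq_le`); the rest is controlled by `ζ_W`, `W_bounds` (2nd part), `grad_φ`;
at `s = a` use `ζ_ge`; all `θ s`, `s ∈ [a,4a]`, are comparable (`th_le`, `th_anti`). -/
theorem KK_ab (n : ℕ) (hn : 1 ≤ n) : ∃ C : ℝ, 0 < C ∧ ∀ (X : Sp.{u} n) {a b : ℝ}, 0 < a → a ≤ b →
    b ≤ 4 * a → X.h.ok (4 * a) → ∀ x,
      ∫⁻ s in Ioc a b, X.h.KK x s / ENNReal.ofReal s ≤ ENNReal.ofReal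
        (C * ((X.h.zb x b + C * (X.h.k * b)) + X.h.k * a +
          ∫ s in a..b, (X.h.zb x s + C * (X.h.k * s)) / s)) := by
  obtain ⟨C₀, hC₀, h₀⟩ := e1c_slice.{u} n hn
  obtain ⟨C₁, hC₁, h₁⟩ := grad_φ.{u} n
  obtain ⟨C₅, hC₅, h₅⟩ := ζ_ge.{u} n
  obtain ⟨C₆, hC₆, h₆⟩ := th_le.{u} n 4
  have hn' : (1 : ℝ) ≤ n := by exact_mod_cast hn
  obtain ⟨c, hc⟩ : ∃ c : ℝ, c = 1 / (4 * n) := ⟨_, rfl⟩
  have hc0 : 0 < c := by rw [hc]; positivity
  have hcn : c * n = 1 / 4 := by rw [hc]; field_simp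
  have hc1 : c ≤ 1 := by nlinarith
  have hq : 1 - c = p1 n := by rw [hc, p1]
  obtain ⟨L, hL⟩ : ∃ L : ℝ, L = 3 * C₁ + n := ⟨_, rfl⟩
  have hL0 : 0 < L := by rw [hL]; positivity
  obtain ⟨K, hK⟩ : ∃ K : ℝ, K = C₆ ^ c * C₀ := ⟨_, rfl⟩
  have hK0 : 0 < K := by rw [hK]; positivity
  obtain ⟨C, hC⟩ : ∃ C : ℝ, C = K * (4 + C₅ + 4 * L) + C₀ + 1 := ⟨_, rfl⟩
  have hCK : 0 < K * (4 + C₅ + 4 * L) := by positivity
  refine ⟨C, by rw [hC]; positivity, fun X a b ha hab hb hok x => ?_⟩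
  have hk := X.h.k_nonneg
  have hs0 : ∀ s ∈ Icc a b, 0 < s := fun s hs => ha.trans_le hs.1
  have hks : ∀ s ∈ Icc a b, X.h.k * s ≤ 1 / 10 ^ 6 := fun s hs =>
    (mul_le_mul_of_nonneg_left (hs.2.trans hb) hk).trans hok.2
  have hoks : ∀ s ∈ Icc a b, X.h.ok s := fun s hs => ⟨hs0 s hs, hks s hs⟩
  have hθa := X.h.th_pos ha x
  obtain ⟨Θ, hΘ⟩ : ∃ Θ : ℝ, Θ = (X.h.th a x / C₆) ^ (p1 n - 1) := ⟨_, rfl⟩
  have hΘ0 : 0 < Θ := by rw [hΘ]; positivity
  have hZ0 : ∀ s ∈ Icc a b, 0 ≤ X.h.zb x s + C₀ * (X.h.k * s) := fun s hs => (h₀ X (hoks s hs) x).1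
  have hZ1 : ∀ s ∈ Icc a b, X.h.zb x s + C₀ * (X.h.k * s) ≤ n / 2 + C₀ := fun s hs => by
    have := (h₀ X (hoks s hs) x).2.1
    have h2 : X.h.k * s ≤ 1 := (hks s hs).trans (by norm_num)
    nlinarith
  have sl : ∀ s ∈ Icc a b, ∀ (f : X.M → ℝ) (α β : ℝ), 0 ≤ α → 0 ≤ β → Continuous f →
      (∀ y, |f y| ≤ (α + β * |X.h.ζ s x y|) * ((1 + dist x y ^ 2 / s) * X.h.H s x y ^ p1 n)) →
      Integrable f X.h.m ∧ ∫ y, |f y| ∂X.h.m ≤
        Θ * C₀ * (α + β * (X.h.zb x s + C₀ * (X.h.k * s))) := by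
    intro s hs f α β hα hβ hf hle
    obtain ⟨i, h⟩ := (h₀ X (hoks s hs) x).2.2 f α β hα hβ hf hle
    refine ⟨i, h.trans (mul_le_mul_of_nonneg_right (mul_le_mul_of_nonneg_right ?_ hC₀.le)
      (add_nonneg hα (mul_nonneg hβ (hZ0 s hs))))⟩
    rw [hΘ]
    refine Real.rpow_le_rpow_of_nonpos (by positivity) ?_ (by linarith)
    rw [div_le_iff₀' hC₆]
    exact h₆ X ha hs.1 (hs.2.trans hb) ((hks s hs).trans (by norm_num)) x
  obtain ⟨hF, hF'⟩ := e1c_F X c x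
  rw [hq] at hF'
  have hid : X.h.Sm (Ioi 0) fun s _ => s := X.h.Sm_time (a := fun s => s) contDiffOn_id
  have hζ : X.h.Sm (Ioi 0) fun s y => X.h.ζ s x y :=
    X.h.Sm_sub (X.h.Sm_const _ _) (X.h.Sm_mul hid (X.h.Sm_Δ isOpen_Ioi (X.h.φ_Sm x)))
  have he : X.h.Sm (Ioi 0) fun s y => s * X.h.ζ s x y * X.h.H s x y :=
    X.h.Sm_mul (X.h.Sm_mul hid hζ) (X.h.H_Sm x)
  have hΓ := X.h.Sm_Γ isOpen_Ioi (X.h.φ_Sm x) (X.h.φ_Sm x)
  have hHq : X.h.Sm (Ioi 0) fun s y => X.h.H s x y ^ p1 n :=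
    X.h.Sm_rpow (X.h.H_Sm x) (fun s hs y => X.h.H_pos hs x y) _
  have hG : X.h.Sm (Ioi 0) fun s y => X.h.H s x y ^ p1 n *
      (-2 * X.h.k * s * (s * X.h.Γ (X.h.φ s x) (X.h.φ s x) y) +
        c * X.h.ζ s x y * (n - p1 n * (s * X.h.Γ (X.h.φ s x) (X.h.φ s x) y))) :=
    X.h.Sm_mul hHq (X.h.Sm_add (X.h.Sm_mul (X.h.Sm_mul (X.h.Sm_const _ _) hid) (X.h.Sm_mul hid hΓ))
      (X.h.Sm_mul (X.h.Sm_mul (X.h.Sm_const _ _) hζ) (X.h.Sm_sub (X.h.Sm_const _ _)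
        (X.h.Sm_mul (X.h.Sm_const _ _) (X.h.Sm_mul hid hΓ)))))
  have hsub : Icc a b ⊆ Ioi 0 := hs0
  have hw : ∀ s ∈ Icc a b, ∀ y, 1 ≤ 1 + dist x y ^ 2 / s := fun s hs y =>
    le_add_of_nonneg_right (div_nonneg (sq_nonneg _) (hs0 s hs).le)
  have hu : ∀ s ∈ Icc a b, ∀ y, 0 ≤ s * X.h.Γ (X.h.φ s x) (X.h.φ s x) y ∧
      s * X.h.Γ (X.h.φ s x) (X.h.φ s x) y ≤ C₁ * (1 + dist x y ^ 2 / s) := fun s hs y =>
    ⟨mul_nonneg (hs0 s hs).le (X.h.Γ_nonneg _ _),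
      h₁ X (hs0 s hs) ((hks s hs).trans (by norm_num)) x y⟩
  have hHq0 : ∀ s ∈ Icc a b, ∀ y, 0 < X.h.H s x y ^ p1 n := fun s hs y =>
    Real.rpow_pos_of_pos (X.h.H_pos (hs0 s hs) x y) _
  have hE : ∀ s ∈ Icc a b, Integrable (fun y => s * X.h.ζ s x y * X.h.H s x y *
      Real.exp (c * X.h.φ s x y)) X.h.m ∧ ∫ y, |s * X.h.ζ s x y * X.h.H s x y *
      Real.exp (c * X.h.φ s x y)| ∂X.h.m ≤ Θ * C₀ * (0 + s * (X.h.zb x s + C₀ * (X.h.k * s))) := by
    intro s hs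
    refine sl s hs _ 0 s le_rfl (hs0 s hs).le
      (X.h.S_cont (X.h.Sm_slice (X.h.Sm_mul he hF) (hsub hs))) fun y => ?_
    rw [mul_assoc, mul_comm (X.h.H s x y), (hF' (hs0 s hs) y).1, abs_mul, abs_mul,
      abs_of_pos (hs0 s hs), abs_of_pos (hHq0 s hs y), zero_add]
    exact mul_le_mul_of_nonneg_left (le_mul_of_one_le_left (hHq0 s hs y).le (hw s hs y))
      (mul_nonneg (hs0 s hs).le (abs_nonneg _))
  have hGs : ∀ s ∈ Icc a b, Integrable (fun y => X.h.H s x y ^ p1 n *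
      (-2 * X.h.k * s * (s * X.h.Γ (X.h.φ s x) (X.h.φ s x) y) +
        c * X.h.ζ s x y * (n - p1 n * (s * X.h.Γ (X.h.φ s x) (X.h.φ s x) y)))) X.h.m ∧
      ∫ y, |X.h.H s x y ^ p1 n * (-2 * X.h.k * s * (s * X.h.Γ (X.h.φ s x) (X.h.φ s x) y) +
        c * X.h.ζ s x y * (n - p1 n * (s * X.h.Γ (X.h.φ s x) (X.h.φ s x) y)))| ∂X.h.m ≤
      Θ * C₀ * (2 * C₁ * (X.h.k * s) + (n + C₁) * (X.h.zb x s + C₀ * (X.h.k * s))) := by
    intro s hs
    have hks0 : 0 ≤ X.h.k * s := mul_nonneg hk (hs0 s hs).le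
    refine sl s hs _ _ _ (by positivity) (by positivity)
      (X.h.S_cont (X.h.Sm_slice hG (hsub hs))) fun y => ?_
    obtain ⟨u0, u1⟩ := hu s hs y
    have w1 := hw s hs y
    rw [abs_mul, abs_of_pos (hHq0 s hs y), mul_comm, ← mul_assoc _ (1 + dist x y ^ 2 / s)]
    refine mul_le_mul_of_nonneg_right ((abs_add_le _ _).trans ?_) (hHq0 s hs y).le
    generalize s * X.h.Γ (X.h.φ s x) (X.h.φ s x) y = U at u0 u1
    generalize 1 + dist x y ^ 2 / s = w at u1 w1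
    have e1 : |-2 * X.h.k * s * U| = 2 * (X.h.k * s) * U := by
      rw [abs_of_nonpos (by nlinarith [mul_nonneg hks0 u0])]
      ring
    have e2 : |c * X.h.ζ s x y * (n - p1 n * U)| ≤ 1 * |X.h.ζ s x y| * ((n + C₁) * w) := by
      rw [abs_mul, abs_mul, abs_of_pos hc0]
      refine mul_le_mul (mul_le_mul_of_nonneg_right hc1 (abs_nonneg _)) (abs_le.2 ⟨?_, ?_⟩)
        (abs_nonneg _) (by positivity)
      · rw [← hq]; nlinarith [mul_nonneg hc0.le u0]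
      · rw [← hq]; nlinarith [mul_nonneg (sub_nonneg.2 hc1) u0]
    rw [e1]
    nlinarith [mul_le_mul_of_nonneg_left u1 hks0]
  obtain ⟨hQ, hD⟩ := X.h.duh2 (Q := fun s y => X.h.H s x y ^ p1 n *
      (2 * X.h.Dφ s x y - 2 * c * X.h.ζ s x y ^ 2)) isOpen_Ioi he hF hab hsub
    (hE a ⟨le_rfl, hab⟩).1 (hE b ⟨hab, le_rfl⟩).1
    (X.h.STI_of_bound (B := Θ * C₀ * (0 + (2 * b + C₁) * (n / 2 + C₀))) hsub
      ((X.h.Sm_cont he).abs.mul ((X.h.Sm_cont hF).abs.add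
        (X.h.Sm_cont (X.h.Sm_Γ isOpen_Ioi hF hF)).sqrt)) fun s hs => by
      have hb0 : 0 < b := ha.trans_le hab
      have h1 := sl s hs (fun y => |s * X.h.ζ s x y * X.h.H s x y| * (|Real.exp (c * X.h.φ s x y)| +
        Real.sqrt (X.h.Γ (fun y => Real.exp (c * X.h.φ s x y)) (fun y => Real.exp (c * X.h.φ s x y)) y)))
        0 (2 * b + C₁) le_rfl (by positivity)
        ((X.h.S_cont (X.h.Sm_slice he (hsub hs))).abs.mul
          ((X.h.S_cont (X.h.Sm_slice hF (hsub hs))).abs.add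
          (X.h.S_cont (X.h.Sm_slice (X.h.Sm_Γ isOpen_Ioi hF hF) (hsub hs))).sqrt)) fun y => by
        obtain ⟨u0, u1⟩ := hu s hs y
        have w1 := hw s hs y
        have hp := Real.exp_pos (c * X.h.φ s x y)
        have hg := X.h.Γ_nonneg (X.h.φ s x) y
        have hH := X.h.H_pos (hs0 s hs) x y
        have hs' := hs0 s hs
        rw [abs_of_nonneg (by positivity), (hF' hs' y).2.2, Real.sqrt_mul (sq_nonneg _),
          Real.sqrt_sq (by positivity), abs_of_pos hp, abs_mul, abs_mul, abs_of_pos hs',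
          abs_of_pos hH, ← (hF' hs' y).1]
        have r1 : c * Real.sqrt (X.h.Γ (X.h.φ s x) (X.h.φ s x) y) ≤
            1 + X.h.Γ (X.h.φ s x) (X.h.φ s x) y := by
          nlinarith [Real.sq_sqrt hg, Real.sqrt_nonneg (X.h.Γ (X.h.φ s x) (X.h.φ s x) y)]
        have r2 : s * (1 + c * Real.sqrt (X.h.Γ (X.h.φ s x) (X.h.φ s x) y)) ≤
            (2 * b + C₁) * (1 + dist x y ^ 2 / s) := by
          nlinarith [mul_le_mul_of_nonneg_left r1 hs'.le, hs.2]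
        have r3 := mul_le_mul_of_nonneg_left r2
          (by positivity : 0 ≤ |X.h.ζ s x y| * (Real.exp (c * X.h.φ s x y) * X.h.H s x y))
        linarith
      exact ⟨h1.1, h1.2.trans (by have := hZ1 s hs; gcongr)⟩)
    (X.h.Sm_cont hG)
    (X.h.STI_of_bound (B := Θ * C₀ * (2 * C₁ * 1 + (n + C₁) * (n / 2 + C₀))) hsub (X.h.Sm_cont hG)
      fun s hs => ⟨(hGs s hs).1, (hGs s hs).2.trans (by
        have := hZ1 s hs
        have h2 : X.h.k * s ≤ 1 := (hks s hs).trans (by norm_num)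
        gcongr)⟩)
    (fun s hs y => by
      rw [X.h.heat_ζH hs, (hF' hs y).2.1, ← (hF' hs y).1]
      have : s * X.h.Δ (X.h.φ s x) y = n / 2 - X.h.ζ s x y := by rw [HS.ζ]; ring
      linear_combination (2 * c * X.h.ζ s x y * X.h.H s x y * Real.exp (c * X.h.φ s x y)) * this)
    (fun s hs y => by
      obtain ⟨z1, z2⟩ := e1c_ζsq X (hs0 s hs) x y
      refine mul_nonneg (hHq0 s hs y).le ?_
      nlinarith [mul_le_mul_of_nonneg_left z1 hc0.le])
  obtain ⟨hQi, hQa⟩ := hQ.slice hab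
  -- the left hand side
  have hθc : 0 < X.h.th a x ^ c / a := by positivity
  have hL1 : ∫⁻ s in Ioc a b, X.h.KK x s / ENNReal.ofReal s ≤ ENNReal.ofReal (X.h.th a x ^ c / a *
      ∫ s in a..b, ∫ y, X.h.H s x y ^ p1 n * (2 * X.h.Dφ s x y - 2 * c * X.h.ζ s x y ^ 2) ∂X.h.m) := by
    have hQ0 : ∀ s ∈ Icc a b, ∀ y, X.h.Dφ s x y ≤ 2 * X.h.Dφ s x y - 2 * c * X.h.ζ s x y ^ 2 := by
      intro s hs y
      obtain ⟨z1, z2⟩ := e1c_ζsq X (hs0 s hs) x y
      nlinarith [mul_le_mul_of_nonneg_left z1 hc0.le]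
    have hQ1 : ∀ s ∈ Icc a b, ∀ y,
        0 ≤ X.h.H s x y ^ p1 n * (2 * X.h.Dφ s x y - 2 * c * X.h.ζ s x y ^ 2) := fun s hs y =>
      mul_nonneg (hHq0 s hs y).le ((e1c_ζsq X (hs0 s hs) x y).2.trans (hQ0 s hs y))
    rw [intervalIntegral.integral_of_le hab, ← integral_const_mul,
      ofReal_integral_eq_lintegral_ofReal (hQi.1.const_mul _)
        ((ae_restrict_mem measurableSet_Ioc).mono fun s hs => mul_nonneg hθc.le
          (integral_nonneg (hQ1 s (Ioc_subset_Icc_self hs))))]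
    refine lintegral_mono_ae ?_
    filter_upwards [ae_restrict_mem measurableSet_Ioc, ae_restrict_of_ae hQa] with s hs hi
    have hs' := Ioc_subset_Icc_self hs
    have hsp := hs0 s hs'
    rw [← integral_const_mul, ofReal_integral_eq_lintegral_ofReal ((hi hs).const_mul _)
      (Eventually.of_forall fun y => mul_nonneg hθc.le (hQ1 s hs' y)), HS.KK,
      ENNReal.div_le_iff (by simpa using hsp) ENNReal.ofReal_ne_top,
      ← lintegral_mul_const' _ _ ENNReal.ofReal_ne_top]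
    refine lintegral_mono fun y => ?_
    rw [← ENNReal.ofReal_mul (mul_nonneg hθc.le (hQ1 s hs' y))]
    refine ENNReal.ofReal_le_ofReal ?_
    have t1 : X.h.th s x ^ (1 - p1 n) ≤ X.h.th a x ^ c / a * s := by
      rw [← hq, sub_sub_cancel, div_mul_eq_mul_div, le_div_iff₀ ha]
      exact mul_le_mul (Real.rpow_le_rpow (X.h.th_pos hsp x).le (X.h.th_anti ha hs'.1 x) hc0.le)
        hs'.1 ha.le (by positivity)
    have t2 := mul_le_mul (mul_le_mul_of_nonneg_left (hQ0 s hs' y) (hHq0 s hs' y).le) t1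
      (Real.rpow_nonneg (X.h.th_pos hsp x).le _) (hQ1 s hs' y)
    rw [HS.W]
    linarith
  refine hL1.trans (ENNReal.ofReal_le_ofReal ?_)
  -- the right hand side
  have hZC : ∀ s ∈ Icc a b, X.h.zb x s + C₀ * (X.h.k * s) + X.h.k * s ≤
      X.h.zb x s + C * (X.h.k * s) := fun s hs => by
    have hks0 : 0 ≤ X.h.k * s := mul_nonneg hk (hs0 s hs).le
    rw [hC]
    nlinarith [mul_nonneg hCK.le hks0]
  have hcont : ContinuousOn (fun s => (X.h.zb x s + C * (X.h.k * s)) / s) (Icc a b) :=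
    ((Ren_sub hn X ha hab (hoks b ⟨hab, le_rfl⟩) x).1.add (by fun_prop)).div continuousOn_id
      fun s hs => (hs0 s hs).ne'
  have hI0 : 0 ≤ ∫ s in a..b, (X.h.zb x s + C * (X.h.k * s)) / s :=
    intervalIntegral.integral_nonneg hab fun s hs => div_nonneg (by
      have := hZC s hs
      have := hZ0 s hs
      have hks0 : 0 ≤ X.h.k * s := mul_nonneg hk (hs0 s hs).le
      linarith) (hs0 s hs).le
  have b1 := (le_abs_self _).trans ((abs_integral_le_integral_abs).trans (hE b ⟨hab, le_rfl⟩).2)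
  have hka : 0 ≤ X.h.k * a := mul_nonneg hk ha.le
  have b2 : -∫ y, a * X.h.ζ a x y * X.h.H a x y * Real.exp (c * X.h.φ a x y) ∂X.h.m ≤
      Θ * C₀ * (a * (C₅ * (X.h.k * a))) := by
    have hA : a ∈ Icc a b := ⟨le_rfl, hab⟩
    obtain ⟨i, h⟩ := sl a hA (fun y => a * (C₅ * (X.h.k * a)) *
      ((1 + dist x y ^ 2 / a) * X.h.H a x y ^ p1 n)) (a * (C₅ * (X.h.k * a))) 0 (by positivity) le_rfl
      (continuous_const.mul ((by fun_prop : Continuous fun y => 1 + dist x y ^ 2 / a).mul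
        (X.h.S_cont (X.h.Sm_slice hHq (hsub hA))))) fun y => by
        have := hHq0 a hA y
        rw [abs_of_nonneg (by positivity), zero_mul, add_zero]
    rw [zero_mul, add_zero] at h
    rw [← integral_neg]
    refine (integral_mono (hE a hA).1.neg i.abs fun y => ?_).trans h
    refine le_trans ?_ (le_abs_self _)
    have := mul_le_mul_of_nonneg_left (h₅ X ha ((hks a hA).trans (by norm_num)) x y)
      (mul_pos ha (hHq0 a hA y)).le
    simp only [Pi.neg_apply]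
    rw [mul_assoc, mul_comm (X.h.H a x y), (hF' ha y).1]
    linarith
  have b3 := intervalIntegral.norm_integral_le_of_norm_le hab (μ := volume)
    (f := fun s => ∫ y, X.h.H s x y ^ p1 n *
      (-2 * X.h.k * s * (s * X.h.Γ (X.h.φ s x) (X.h.φ s x) y) +
        c * X.h.ζ s x y * (n - p1 n * (s * X.h.Γ (X.h.φ s x) (X.h.φ s x) y))) ∂X.h.m)
    (g := fun s => Θ * C₀ * (4 * a * L) * ((X.h.zb x s + C * (X.h.k * s)) / s))
    (Eventually.of_forall fun s hs => by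
      have hs' := Ioc_subset_Icc_self hs
      have hsp := hs0 s hs'
      have hks0 : 0 ≤ X.h.k * s := mul_nonneg hk hsp.le
      refine ((abs_integral_le_integral_abs).trans (hGs s hs').2).trans ?_
      rw [mul_assoc (Θ * C₀)]
      refine mul_le_mul_of_nonneg_left ?_ (by positivity)
      have z0 := hZ0 s hs'
      have zc := hZC s hs'
      have z2 : 2 * C₁ * (X.h.k * s) + (n + C₁) * (X.h.zb x s + C₀ * (X.h.k * s)) ≤
          L * (X.h.zb x s + C * (X.h.k * s)) := by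
        refine le_trans ?_ (mul_le_mul_of_nonneg_left zc hL0.le)
        rw [hL]
        nlinarith [mul_nonneg hC₁.le z0, mul_nonneg hC₁.le hks0, mul_nonneg (by linarith : (0 : ℝ) ≤ n) hks0]
      refine z2.trans ?_
      rw [mul_div_assoc', le_div_iff₀ hsp]
      nlinarith [mul_nonneg (mul_nonneg hL0.le (by linarith : 0 ≤ X.h.zb x s + C * (X.h.k * s)))
        (by linarith [hs'.2] : 0 ≤ 4 * a - s)])
    ((hcont.intervalIntegrable_of_Icc hab).const_mul _)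
  rw [intervalIntegral.integral_const_mul, Real.norm_eq_abs, abs_le] at b3
  have hKΘ : X.h.th a x ^ c / a * (Θ * C₀ * a) = K := by
    rw [hΘ, hK, ← hq, show 1 - c - 1 = -c by ring, Real.rpow_neg (by positivity),
      Real.div_rpow hθa.le hC₆.le]
    have : 0 < X.h.th a x ^ c := by positivity
    field_simp
  have zb0 := hZ0 b ⟨hab, le_rfl⟩
  have zbc := hZC b ⟨hab, le_rfl⟩
  have hkb : 0 ≤ X.h.k * b := mul_nonneg hk (ha.le.trans hab)
  generalize (∫ s in a..b, (X.h.zb x s + C * (X.h.k * s)) / s) = J at hI0 b3 ⊢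
  generalize X.h.zb x b + C * (X.h.k * b) = Z at zbc ⊢
  have b4 : b * (X.h.zb x b + C₀ * (X.h.k * b)) ≤ 4 * a * Z :=
    mul_le_mul hb (by linarith) zb0 (by linarith)
  have hZ : 0 ≤ Z := by linarith
  calc _ ≤ X.h.th a x ^ c / a * (Θ * C₀ * a * (4 * Z + C₅ * (X.h.k * a) + 4 * L * J)) := by
        refine mul_le_mul_of_nonneg_left ?_ hθc.le
        have := mul_le_mul_of_nonneg_left b4 (by positivity : 0 ≤ Θ * C₀)
        linarith [b3.1]
    _ = K * (4 * Z + C₅ * (X.h.k * a) + 4 * L * J) := by rw [← mul_assoc, hKΘ]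
    _ ≤ _ := by
        have c1 : K * 4 ≤ C := by rw [hC]; nlinarith [mul_pos hK0 hC₅, mul_pos hK0 hL0]
        have c2 : K * C₅ ≤ C := by rw [hC]; nlinarith [mul_pos hK0 hL0]
        have c3 : K * (4 * L) ≤ C := by rw [hC]; nlinarith [mul_pos hK0 hC₅]
        nlinarith [mul_le_mul_of_nonneg_right c1 hZ, mul_le_mul_of_nonneg_right c2 hka,
          mul_le_mul_of_nonneg_right c3 hI0]

/-- Choose `b ∈ [2a,4a]` minimising the continuous function `zb b + C k b`. -/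
theorem KK_dyadic (n : ℕ) (hn : 1 ≤ n) : ∃ C : ℝ, 0 < C ∧ ∀ (X : Sp.{u} n) {a : ℝ}, 0 < a →
    X.h.ok (4 * a) → ∀ x, (∀ s ∈ Icc a (4 * a), 0 ≤ X.h.zb x s + C * (X.h.k * s)) ∧
      ∫⁻ s in Ioc a (2 * a), X.h.KK x s / ENNReal.ofReal s ≤ ENNReal.ofReal
        (C * (X.h.k * a + ∫ s in a..4 * a, (X.h.zb x s + C * (X.h.k * s)) / s)) := by
  obtain ⟨C₁, hC₁, h₁⟩ := ζ_W.{u} n hn
  obtain ⟨C₂, hC₂, h₂⟩ := KK_ab.{u} n hn
  refine ⟨3 * (C₁ + C₂), by positivity, fun X a ha hok x => ?_⟩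
  have hk := X.h.k_nonneg
  have hks : ∀ s ∈ Icc a (4 * a), 0 ≤ X.h.k * s := fun s hs => mul_nonneg hk (ha.le.trans hs.1)
  have h0 : ∀ s ∈ Icc a (4 * a), 0 ≤ X.h.zb x s + (C₁ + C₂) * (X.h.k * s) := fun s hs => by
    have := (h₁ X (t := s) ⟨ha.trans_le hs.1, (mul_le_mul_of_nonneg_left hs.2 hk).trans hok.2⟩ x).2.2.1
    nlinarith [mul_nonneg hC₂.le (hks s hs)]
  refine ⟨fun s hs => by nlinarith [h0 s hs, mul_nonneg (add_pos hC₁ hC₂).le (hks s hs)], ?_⟩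
  have hz := (Ren_sub hn X ha (by linarith) hok x).1
  have hf : ∀ C : ℝ, ContinuousOn (fun s => X.h.zb x s + C * (X.h.k * s)) (Icc a (4 * a)) := fun C =>
    hz.add (by fun_prop)
  have hi : ∀ (C : ℝ) {b b' : ℝ}, a ≤ b → b ≤ b' → b' ≤ 4 * a →
      IntervalIntegrable (fun s => (X.h.zb x s + C * (X.h.k * s)) / s) volume b b' := fun C b b' hb hbb hb' =>
    (((hf C).div continuousOn_id fun s hs => (ha.trans_le hs.1).ne').mono
      (by rw [uIcc_of_le hbb]; exact Icc_subset_Icc hb hb')).intervalIntegrable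
  have hnn : ∀ {b b' : ℝ}, a ≤ b → b ≤ b' → b' ≤ 4 * a →
      0 ≤ ∫ s in b..b', (X.h.zb x s + (C₁ + C₂) * (X.h.k * s)) / s := fun {b b'} hb hbb hb' =>
    intervalIntegral.integral_nonneg hbb fun s hs =>
      div_nonneg (h0 s ⟨hb.trans hs.1, hs.2.trans hb'⟩) (ha.le.trans (hb.trans hs.1))
  have hmono : ∀ {C C' b : ℝ}, C ≤ C' → a ≤ b → b ≤ 4 * a → ∫ s in a..b, (X.h.zb x s + C * (X.h.k * s)) / s ≤
      ∫ s in a..b, (X.h.zb x s + C' * (X.h.k * s)) / s := fun {C C' b} hC hb hb' =>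
    intervalIntegral.integral_mono_on hb (hi C le_rfl hb hb') (hi C' le_rfl hb hb') fun s hs =>
      div_le_div_of_nonneg_right (by nlinarith [mul_le_mul_of_nonneg_right hC (hks s ⟨hs.1, hs.2.trans hb'⟩)])
        (ha.le.trans hs.1)
  obtain ⟨b, hb, hmin⟩ := (isCompact_Icc (a := 2 * a) (b := 4 * a)).exists_isMinOn ⟨2 * a, le_rfl, by linarith⟩
    ((hf (C₁ + C₂)).mono (Icc_subset_Icc (by linarith) le_rfl))
  have hab : a ≤ b := by linarith [hb.1]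
  have hb0 := h0 b ⟨hab, hb.2⟩
  refine ((lintegral_mono_set (Ioc_subset_Ioc_right hb.1)).trans (h₂ X ha hab hb.2 hok x)).trans
    (ENNReal.ofReal_le_ofReal ?_)
  have e1 := intervalIntegral.integral_add_adjacent_intervals (hi (C₁ + C₂) le_rfl hab hb.2) (hi _ hab hb.2 le_rfl)
  have e2 := intervalIntegral.integral_add_adjacent_intervals (hi (C₁ + C₂) le_rfl (by linarith : a ≤ 2 * a) (by linarith))
    (hi _ (by linarith) (by linarith : 2 * a ≤ 4 * a) le_rfl)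
  have e3 : ∫ s in (2 * a)..(4 * a), (X.h.zb x b + (C₁ + C₂) * (X.h.k * b)) / (4 * a) ≤
      ∫ s in (2 * a)..(4 * a), (X.h.zb x s + (C₁ + C₂) * (X.h.k * s)) / s :=
    intervalIntegral.integral_mono_on (by linarith) intervalIntegrable_const
      (hi _ (by linarith) (by linarith) le_rfl) fun s hs =>
      div_le_div₀ (h0 s ⟨by linarith [hs.1], hs.2⟩) (hmin hs) (by linarith [hs.1]) hs.2
  rw [intervalIntegral.integral_const, smul_eq_mul] at e3
  have e4 : (4 * a - 2 * a) * ((X.h.zb x b + (C₁ + C₂) * (X.h.k * b)) / (4 * a)) =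
      (X.h.zb x b + (C₁ + C₂) * (X.h.k * b)) / 2 := by field_simp; ring
  have e5 := hnn (b := a) (b' := 2 * a) le_rfl (by linarith) (by linarith)
  have e6 := hnn hab hb.2 le_rfl
  have e7 := hmono (by linarith : C₂ ≤ C₁ + C₂) hab hb.2
  have e8 := hmono (by linarith : C₁ + C₂ ≤ 3 * (C₁ + C₂)) (by linarith : a ≤ 4 * a) le_rfl
  have e9 := hnn (b := a) (b' := 4 * a) le_rfl (by linarith) le_rfl
  have ka := mul_nonneg hk ha.le
  have kb := mul_nonneg hC₁.le (hks b ⟨hab, hb.2⟩)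
  calc _ ≤ C₂ * (3 * (X.h.k * a + ∫ s in a..4 * a, (X.h.zb x s + 3 * (C₁ + C₂) * (X.h.k * s)) / s)) :=
        mul_le_mul_of_nonneg_left (by linarith) hC₂.le
    _ ≤ (C₁ + C₂) * (3 * (X.h.k * a + ∫ s in a..4 * a, (X.h.zb x s + 3 * (C₁ + C₂) * (X.h.k * s)) / s)) :=
        mul_le_mul_of_nonneg_right (by linarith) (by linarith)
    _ = _ := by ring

end Crest.Agent.R247
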