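import Crest.Agent.R247.Defs3

/-! # Row 247, E2: Euclidean Gaussians composed with almost splitting maps -/

set_option autoImplicit false
set_option linter.unusedSectionVars false
set_option linter.unusedVariables false
open MeasureTheory Filter Set Metric Matrix
open scoped ENNReal NNReal Topology ContDiff
open Crest.GeometryTopology.CoordMetric

noncomputable section
namespace Crest.Agent.R247
universe u

variable {n : ℕ}

theorem gau_pos {t : ℝ} (ht : 0 < t) (v : E n) : 0 < gau n t v := by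
  unfold gau
  have : 0 < 4 * Real.pi * t := by positivity
  exact mul_pos (Real.rpow_pos_of_pos this _) (Real.exp_pos _)

theorem gau_le {t : ℝ} (ht : 0 < t) (v : E n) : gau n t v ≤ (4 * Real.pi * t) ^ (-(n : ℝ) / 2) := by
  unfold gau
  have h : 0 < 4 * Real.pi * t := by positivity
  have h1 : Real.exp (-‖v‖ ^ 2 / (4 * t)) ≤ 1 := by
    apply Real.exp_le_one_iff.2
    apply div_nonpos_of_nonpos_of_nonneg
    · have := sq_nonneg ‖v‖; linarith
    · positivity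
  exact mul_le_of_le_one_right (Real.rpow_pos_of_pos h _).le h1

theorem gau_cont (t : ℝ) : Continuous (gau n t) := by
  unfold gau
  fun_prop

theorem e2a_int_gauss {b : ℝ} (hb : 0 < b) :
    Integrable (fun z : E n => Real.exp (-b * ‖z‖ ^ 2)) := by
  have h := GaussianFourier.integrable_cexp_neg_mul_sq_norm_add (V := E n) (b := (b : ℂ))
    (by simpa using hb) 0 0
  have h2 := h.norm
  refine h2.congr (Filter.Eventually.of_forall fun z => ?_)
  simp only [zero_mul, add_zero, Complex.norm_exp]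
  congr 1
  have : (-(b : ℂ) * (‖z‖ : ℂ) ^ 2) = ((-b * ‖z‖ ^ 2 : ℝ) : ℂ) := by push_cast; ring
  rw [this, Complex.ofReal_re]

theorem e2a_square {t c : ℝ} (ht : 0 < t) (hc : 4 * t * c < 1) (v z : E n) :
    -‖v - z‖ ^ 2 / (4 * t) + c * ‖z‖ ^ 2 =
      c / (1 - 4 * t * c) * ‖v‖ ^ 2 +
        -((1 - 4 * t * c) / (4 * t)) * ‖z - (1 / (1 - 4 * t * c)) • v‖ ^ 2 := by
  have h1 : (1 - 4 * t * c) ≠ 0 := by linarith
  have h2 : t ≠ 0 := ht.ne'
  rw [norm_sub_sq_real, norm_sub_sq_real, norm_smul, real_inner_smul_right, real_inner_comm, mul_pow,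
    Real.norm_eq_abs, sq_abs]
  field_simp
  ring

/-- `∫ gau t v · exp (c ‖v‖²) dv = (1 - 4 t c)^{-n/2}`; shifted version (complete the square). -/
theorem gau_int {t c : ℝ} (ht : 0 < t) (hc : 4 * t * c < 1) (v : E n) :
    Integrable (fun z => gau n t (v - z) * Real.exp (c * ‖z‖ ^ 2)) ∧
    ∫ z, gau n t (v - z) * Real.exp (c * ‖z‖ ^ 2) =
      (1 - 4 * t * c) ^ (-(n : ℝ) / 2) * Real.exp (c / (1 - 4 * t * c) * ‖v‖ ^ 2) := by
  have h1 : 0 < 1 - 4 * t * c := by linarith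
  have hb : 0 < (1 - 4 * t * c) / (4 * t) := by positivity
  have key : (fun z => gau n t (v - z) * Real.exp (c * ‖z‖ ^ 2)) = fun z =>
      ((4 * Real.pi * t) ^ (-(n : ℝ) / 2) * Real.exp (c / (1 - 4 * t * c) * ‖v‖ ^ 2)) *
        Real.exp (-((1 - 4 * t * c) / (4 * t)) * ‖z - (1 / (1 - 4 * t * c)) • v‖ ^ 2) := by
    funext z
    unfold gau
    rw [mul_assoc, mul_assoc _ (Real.exp (c / (1 - 4 * t * c) * ‖v‖ ^ 2)), ← Real.exp_add,
      ← Real.exp_add, e2a_square ht hc]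
  rw [key]
  refine ⟨((e2a_int_gauss (n := n) hb).comp_sub_right ((1 / (1 - 4 * t * c)) • v)).const_mul _, ?_⟩
  rw [integral_const_mul,
    integral_sub_right_eq_self (fun z : E n => Real.exp (-((1 - 4 * t * c) / (4 * t)) * ‖z‖ ^ 2)),
    GaussianFourier.integral_rexp_neg_mul_sq_norm hb]
  have h3 : (Module.finrank ℝ (E n) : ℝ) = n := by simp
  rw [h3]
  have h4 : 0 < 4 * Real.pi * t := by positivity
  have h5 : Real.pi / ((1 - 4 * t * c) / (4 * t)) = (4 * Real.pi * t) / (1 - 4 * t * c) := by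
    field_simp
  rw [h5, Real.div_rpow h4.le h1.le, neg_div, Real.rpow_neg h4.le, Real.rpow_neg h1.le]
  have h6 : (4 * Real.pi * t) ^ ((n : ℝ) / 2) ≠ 0 := (Real.rpow_pos_of_pos h4 _).ne'
  field_simp

theorem gau_int_one {t : ℝ} (ht : 0 < t) (v : E n) :
    Integrable (fun z => gau n t (v - z)) ∧ ∫ z, gau n t (v - z) = 1 := by
  have h := gau_int (c := 0) ht (by simp) v
  simpa using h

theorem gau_abs_int (n : ℕ) : ∃ C : ℝ, 0 < C ∧ ∀ {t : ℝ}, 0 < t → ∀ v : E n,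
    Integrable (fun z => ‖v - z‖ * gau n t (v - z)) ∧
      ∫ z, ‖v - z‖ * gau n t (v - z) ≤ C * Real.sqrt t := by
  refine ⟨2 * (1 / 2 : ℝ) ^ (-(n : ℝ) / 2), by positivity, fun {t} ht v => ?_⟩
  have hc : 4 * t * (1 / (8 * t)) = 1 / 2 := by field_simp; norm_num
  obtain ⟨hi, he⟩ := gau_int (n := n) (c := 1 / (8 * t)) ht (by rw [hc]; norm_num) 0
  rw [hc] at he
  have hs : 0 < Real.sqrt t := Real.sqrt_pos.2 ht
  have hneg : ∀ z : E n, gau n t (0 - z) = gau n t z := fun z => by simp [gau]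
  simp only [hneg] at hi he
  have hle : ∀ z : E n, ‖z‖ * gau n t z ≤
      2 * Real.sqrt t * (gau n t z * Real.exp (1 / (8 * t) * ‖z‖ ^ 2)) := by
    intro z
    have hg := gau_pos ht z
    have h1 : ‖z‖ ≤ 2 * Real.sqrt t * Real.exp (1 / (8 * t) * ‖z‖ ^ 2) := by
      have h2 := Real.add_one_le_exp (1 / (8 * t) * ‖z‖ ^ 2)
      have h3 : ‖z‖ ≤ 2 * Real.sqrt t * (1 / (8 * t) * ‖z‖ ^ 2 + 1) := by
        have h4 : t = Real.sqrt t ^ 2 := (Real.sq_sqrt ht.le).symm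
        set s := Real.sqrt t with hsdef
        rw [h4]
        have h5 : 2 * s * (1 / (8 * s ^ 2) * ‖z‖ ^ 2 + 1) = (‖z‖ ^ 2 + 8 * s ^ 2) / (4 * s) := by
          field_simp; ring
        rw [h5, le_div_iff₀ (by positivity)]
        nlinarith [sq_nonneg (‖z‖ - 2 * s), sq_nonneg s]
      exact h3.trans (mul_le_mul_of_nonneg_left h2 (by positivity))
    nlinarith [mul_le_mul_of_nonneg_right h1 hg.le]
  have hint : Integrable (fun z : E n => ‖z‖ * gau n t z) := by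
    refine (hi.const_mul (2 * Real.sqrt t)).mono' ?_ (Filter.Eventually.of_forall fun z => ?_)
    · exact (continuous_norm.mul (gau_cont t)).aestronglyMeasurable
    · rw [Real.norm_eq_abs, abs_of_nonneg (mul_nonneg (norm_nonneg _) (gau_pos ht z).le)]
      exact hle z
  refine ⟨hint.comp_sub_left v, ?_⟩
  rw [integral_sub_left_eq_self (fun z : E n => ‖z‖ * gau n t z)]
  calc ∫ z : E n, ‖z‖ * gau n t z
      ≤ ∫ z : E n, 2 * Real.sqrt t * (gau n t z * Real.exp (1 / (8 * t) * ‖z‖ ^ 2)) :=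
        integral_mono hint (hi.const_mul _) hle
    _ = 2 * (1 / 2 : ℝ) ^ (-(n : ℝ) / 2) * Real.sqrt t := by
        rw [integral_const_mul, he]
        norm_num
        ring

section
variable {M : Type u} [MetricSpace M] [MeasurableSpace M] [BorelSpace M] [ProperSpace M] (g : Geo n M)

theorem Geo.wv_cont {w : Fin n → M → ℝ} (hw : ∀ i, g.S (w i)) : Continuous (wv w) := by
  exact (PiLp.continuous_toLp 2 _).comp (continuous_pi fun i => g.S_cont (hw i))

omit g in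
lemma e2b_norm (w : Fin n → M → ℝ) (z : E n) (y : M) :
    ‖wv w y - z‖ ^ 2 = ∑ i, (w i y - z i) * (w i y - z i) := by
  rw [EuclideanSpace.real_norm_sq_eq]
  exact Finset.sum_congr rfl fun i _ => sq _

lemma Geo.e2b_S {w : Fin n → M → ℝ} (hw : ∀ i, g.S (w i)) (z : E n) (i : Fin n) :
    g.S fun y => w i y - z i := g.S_sub (hw i) (g.S_const _)

lemma Geo.e2b_q {w : Fin n → M → ℝ} (hw : ∀ i, g.S (w i)) (z : E n) :
    g.S (fun y => ‖wv w y - z‖ ^ 2) ∧
    (∀ f y, g.Γ (fun y => ‖wv w y - z‖ ^ 2) f y = 2 * ∑ i, (w i y - z i) * g.Γ (w i) f y) ∧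
    ∀ y, g.Δ (fun y => ‖wv w y - z‖ ^ 2) y =
      2 * ∑ i, (w i y - z i) * g.Δ (w i) y + 2 * ∑ i, g.Γ (w i) (w i) y := by
  have h1 := g.e2b_S hw z
  have h2 : ∀ i, g.S fun y => (w i y - z i) * (w i y - z i) := fun i => g.S_mul (h1 i) (h1 i)
  have h3 : ∀ i f y, g.Γ (fun y => w i y - z i) f y = g.Γ (w i) f y := fun i f y => by
    rw [g.Γ_sub_left (hw i) (g.S_const _), g.Γ_const_left, sub_zero]
  simp only [e2b_norm]
  refine ⟨g.S_sum _ fun i _ => h2 i, fun f y => ?_, fun y => ?_⟩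
  · rw [g.Γ_sum_left _ fun i _ => h2 i, Finset.mul_sum]
    refine Finset.sum_congr rfl fun i _ => ?_
    rw [g.Γ_mul_left (h1 i) (h1 i), h3]
    ring
  · rw [g.Δ_sum _ fun i _ => h2 i, Finset.mul_sum, Finset.mul_sum, ← Finset.sum_add_distrib]
    refine Finset.sum_congr rfl fun i _ => ?_
    rw [g.Δ_mul (h1 i) (h1 i), h3, g.Γ_comm, h3, g.Δ_sub (hw i) (g.S_const _), g.Δ_const]
    ring

omit g in
lemma e2b_d (c a : ℝ) : deriv (fun s : ℝ => c * Real.exp (-s / a)) =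
    fun s => -c / a * Real.exp (-s / a) := by
  funext s
  have := (((hasDerivAt_id s).neg.div_const a).exp.const_mul c).deriv
  simp only [Pi.neg_apply, id] at this
  rw [this]
  ring

omit g in
lemma e2b_c (c a : ℝ) : ContDiffOn ℝ ∞ (fun s : ℝ => c * Real.exp (-s / a)) univ := by
  fun_prop

/-- `‖wv w y - z‖² = Σ (w i y - z i)²`. -/
theorem Geo.Sm_gau {w : Fin n → M → ℝ} (hw : ∀ i, g.S (w i)) (z : E n) :
    g.Sm (Ioi 0) fun σ y => gau n σ (wv w y - z) := by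
  have h1 : g.Sm (Ioi 0) fun t _ => 4 * t := g.Sm_time (by fun_prop)
  have h2 : g.Sm (Ioi 0) fun t _ => 4 * Real.pi * t := g.Sm_time (by fun_prop)
  exact g.Sm_mul (g.Sm_rpow h2 (fun t (ht : 0 < t) _ => by positivity) _)
    (g.Sm_comp' (g.Sm_div (g.Sm_neg (Geo.S.Sm (g.e2b_q hw z).1 _)) h1 fun t (ht : 0 < t) _ => by positivity)
      Real.contDiff_exp)

theorem Geo.Γ_gau {w : Fin n → M → ℝ} (hw : ∀ i, g.S (w i)) (z : E n) {σ : ℝ} (hσ : 0 < σ)
    (f : M → ℝ) (y : M) : g.Γ (fun y => gau n σ (wv w y - z)) f y =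
      -(gau n σ (wv w y - z) * ∑ i, (w i y - z i) / (2 * σ) * g.Γ (w i) f y) := by
  obtain ⟨h1, h2, -⟩ := g.e2b_q hw z
  have := g.Γ_comp_left h1 isOpen_univ (e2b_c ((4 * Real.pi * σ) ^ (-(n : ℝ) / 2)) (4 * σ))
    (fun _ => trivial) f y
  rw [e2b_d, h2] at this
  refine this.trans ?_
  simp only [gau, div_mul_eq_mul_div, ← Finset.sum_div]
  field_simp
  ring

omit g in
theorem dt_gau {w : Fin n → M → ℝ} (z : E n) {σ : ℝ} (hσ : 0 < σ) (y : M) :
    HasDerivAt (fun σ => gau n σ (wv w y - z))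
      (gau n σ (wv w y - z) * (‖wv w y - z‖ ^ 2 / (4 * σ ^ 2) - n / (2 * σ))) σ := by
  have h0 : 4 * Real.pi * σ ≠ 0 := by positivity
  have h1 := ((hasDerivAt_id σ).const_mul (4 * Real.pi)).rpow_const (p := -(n : ℝ) / 2) (Or.inl h0)
  have h2 := ((hasDerivAt_const σ (-‖wv w y - z‖ ^ 2)).div ((hasDerivAt_id σ).const_mul 4)
    (by positivity : 4 * σ ≠ 0)).exp
  refine (h1.mul h2).congr_deriv ?_
  simp only [gau, id, Real.rpow_sub_one h0, Pi.div_apply]
  field_simp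
  ring

theorem Geo.Δ_gau {w : Fin n → M → ℝ} (hw : ∀ i, g.S (w i)) (z : E n) {σ : ℝ} (hσ : 0 < σ) (y : M) :
    g.Δ (fun y => gau n σ (wv w y - z)) y = gau n σ (wv w y - z) *
      ((∑ i, ∑ j, (w i y - z i) * (w j y - z j) * g.Γ (w i) (w j) y) / (4 * σ ^ 2) -
        (∑ i, g.Γ (w i) (w i) y) / (2 * σ) - (∑ i, (w i y - z i) * g.Δ (w i) y) / (2 * σ)) := by
  obtain ⟨h1, h2, h3⟩ := g.e2b_q hw z
  have := g.Δ_comp h1 isOpen_univ (e2b_c ((4 * Real.pi * σ) ^ (-(n : ℝ) / 2)) (4 * σ))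
    (fun _ => trivial) y
  have h4 : ∑ i, (w i y - z i) * g.Γ (w i) (fun y => ‖wv w y - z‖ ^ 2) y =
      2 * ∑ i, ∑ j, (w i y - z i) * (w j y - z j) * g.Γ (w i) (w j) y := by
    rw [Finset.mul_sum]
    refine Finset.sum_congr rfl fun i _ => ?_
    rw [g.Γ_comm, h2, mul_left_comm, Finset.mul_sum]
    exact congrArg _ (Finset.sum_congr rfl fun j _ => by rw [g.Γ_comm, mul_assoc])
  rw [e2b_d, e2b_d, h2, h3, h4] at this
  refine this.trans ?_
  simp only [gau]
  field_simp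
  ring

/-- Lipschitz bound (`abs_sub_le_of_Γ` for each coordinate). -/
theorem Geo.wv_lip {w : Fin n → M → ℝ} (hw : ∀ i, g.S (w i)) {B : ℝ} (hB : 0 ≤ B)
    (hb : ∀ i j y, |g.Γ (w i) (w j) y| ≤ B) (x y : M) :
    ‖wv w y - wv w x‖ ≤ Real.sqrt (n * B) * dist x y := by
  refine abs_le_of_sq_le_sq' ?_ (by positivity) |>.2
  rw [EuclideanSpace.real_norm_sq_eq, mul_pow, Real.sq_sqrt (by positivity)]
  calc _ ≤ ∑ i : Fin n, B * dist x y ^ 2 := Finset.sum_le_sum fun i _ => ?_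
    _ = _ := by simp [mul_assoc]
  have h := g.abs_sub_le_of_Γ (hw i) (x := y) (y := x) (Real.sqrt_nonneg B) fun z _ => by
    rw [Real.sq_sqrt hB]; exact (le_abs_self _).trans (hb i i z)
  have h2 := pow_le_pow_left₀ (abs_nonneg _) h 2
  rwa [sq_abs, mul_pow, Real.sq_sqrt hB] at h2

theorem Geo.Gm_psd (w : Fin n → M → ℝ) (y : M) : (g.Gm w y).PosSemidef := by
  exact Matrix.posSemidef_self_mul_conjTranspose (Matrix.of fun i k => g.grad (w i) y k)

lemma Geo.e2b_det {A : M → Mat n} (h : ∀ i j, g.S fun y => A y i j) : g.S fun y => (A y).det := by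
  simp only [Matrix.det_apply']
  exact g.S_sum _ fun σ _ => g.S_cmul _ (g.S_prod _ fun i _ => h _ _)

theorem Geo.S_det {w : Fin n → M → ℝ} (hw : ∀ i, g.S (w i)) :
    g.S (fun y => (g.Gm w y).det) ∧ ∀ i j, g.S fun y => (g.Gm w y).adjugate i j := by
  refine ⟨g.e2b_det fun i j => g.S_Γ (hw i) (hw j), fun i j => ?_⟩
  simp only [Matrix.adjugate_apply]
  refine g.e2b_det fun k l => ?_
  simp only [Matrix.updateRow_apply]
  split_ifs
  · exact g.S_const _
  · exact g.S_Γ (hw k) (hw l)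

/-- Weighted area inequality: layer cake (`lintegral_eq_lintegral_meas_le`) and `area` for the compact sets `A ∩ {f ∘ w ≥ t}`. -/
theorem Geo.area_w (w : Fin n → M → ℝ) (hw : ∀ i, g.S (w i)) {A : Set M} (hA : IsCompact A)
    {f : E n → ℝ} (hf : Continuous f) (h0 : ∀ z, 0 ≤ f z) :
    ∫ z in wv w '' A, f z ≤ ∫ y in A, f (wv w y) * Real.sqrt (g.Gm w y).det ∂g.m := by
  have := g.fin_cpt
  have hc := g.wv_cont hw
  have hd : Continuous fun y => Real.sqrt (g.Gm w y).det := (g.S_cont (g.S_det hw).1).sqrt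
  have hfw : Continuous fun y => f (wv w y) := hf.comp hc
  have hp : ∀ y, 0 ≤ f (wv w y) * Real.sqrt (g.Gm w y).det := fun y =>
    mul_nonneg (h0 _) (Real.sqrt_nonneg _)
  rw [← ENNReal.ofReal_le_ofReal_iff (integral_nonneg hp),
    ofReal_integral_eq_lintegral_ofReal (hf.continuousOn.integrableOn_compact (hA.image hc))
      (Eventually.of_forall h0),
    ofReal_integral_eq_lintegral_ofReal ((hfw.fun_mul hd).continuousOn.integrableOn_compact hA)
      (Eventually.of_forall hp),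
    lintegral_eq_lintegral_meas_le _ (Eventually.of_forall h0) hf.aemeasurable]
  have hm : Measurable fun y => ENNReal.ofReal (Real.sqrt (g.Gm w y).det) :=
    hd.measurable.ennreal_ofReal
  calc _ ≤ ∫⁻ t in Ioi 0, (g.m.restrict A).withDensity
        (fun y => ENNReal.ofReal (Real.sqrt (g.Gm w y).det)) {y | t ≤ f (wv w y)} :=
        lintegral_mono fun t => ?_
    _ = _ := by
      rw [← lintegral_eq_lintegral_meas_le _ (Eventually.of_forall fun y => h0 _) hfw.aemeasurable,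
        lintegral_withDensity_eq_lintegral_mul _ hm hfw.measurable.ennreal_ofReal]
      refine lintegral_congr fun y => ?_
      rw [ENNReal.ofReal_mul (h0 _), mul_comm]
      rfl
  have h1 : IsClosed {y | t ≤ f (wv w y)} := isClosed_le continuous_const hfw
  rw [Measure.restrict_apply (isClosed_le continuous_const hf).measurableSet,
    withDensity_apply _ h1.measurableSet, Measure.restrict_restrict h1.measurableSet]
  refine le_trans (measure_mono ?_) (g.area w hw (hA.inter_left h1))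
  rintro _ ⟨h2, y, hy, rfl⟩
  exact ⟨y, ⟨h2, hy⟩, rfl⟩

end

theorem e2a_prod_sub {ι : Type} [DecidableEq ι] (s : Finset ι) (a b : ι → ℝ) {K : ℝ} (hK : 1 ≤ K)
    (ha : ∀ i, |a i| ≤ K) (hb : ∀ i, |b i| ≤ K) :
    |∏ i ∈ s, a i - ∏ i ∈ s, b i| ≤ K ^ s.card * ∑ i ∈ s, |a i - b i| := by
  induction s using Finset.induction_on with
  | empty => simp
  | insert j s hj ih =>
    rw [Finset.prod_insert hj, Finset.prod_insert hj, Finset.sum_insert hj,
      Finset.card_insert_of_notMem hj]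
    have hK0 : 0 ≤ K := by linarith
    have hp : |∏ i ∈ s, b i| ≤ K ^ s.card := by
      rw [Finset.abs_prod]
      calc ∏ i ∈ s, |b i| ≤ ∏ i ∈ s, K :=
            Finset.prod_le_prod (fun i _ => abs_nonneg _) (fun i _ => hb i)
        _ = K ^ s.card := by simp
    have hs : 0 ≤ ∑ i ∈ s, |a i - b i| := Finset.sum_nonneg fun i _ => abs_nonneg _
    have hKp : 0 ≤ K ^ s.card := by positivity
    calc |a j * ∏ i ∈ s, a i - b j * ∏ i ∈ s, b i|
        = |a j * (∏ i ∈ s, a i - ∏ i ∈ s, b i) + (a j - b j) * ∏ i ∈ s, b i| := by ring_nf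
      _ ≤ |a j| * |∏ i ∈ s, a i - ∏ i ∈ s, b i| + |a j - b j| * |∏ i ∈ s, b i| := by
          rw [← abs_mul, ← abs_mul]; exact abs_add_le _ _
      _ ≤ K * (K ^ s.card * ∑ i ∈ s, |a i - b i|) + |a j - b j| * (K * K ^ s.card) := by
          have h1 : K ^ s.card ≤ K * K ^ s.card := le_mul_of_one_le_left hKp hK
          gcongr
          · exact ha j
          · exact hp.trans h1
      _ = K ^ (s.card + 1) * (|a j - b j| + ∑ i ∈ s, |a i - b i|) := by ring

/-- The determinant is Lipschitz on bounded sets (Leibniz formula, telescoping products). -/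
theorem det_sub_one (n : ℕ) (B : ℝ) : ∃ C : ℝ, 0 < C ∧ ∀ A : Mat n, (∀ i j, |A i j| ≤ B) →
    |A.det - 1| ≤ C * ∑ i, ∑ j, |A i j - (1 : Mat n) i j| ∧ |A.det| ≤ C := by
  have hK : (1 : ℝ) ≤ max B 1 := le_max_right _ _
  refine ⟨(n.factorial : ℝ) * (max B 1) ^ n, by positivity, fun A hA => ⟨?_, ?_⟩⟩
  · have h1 : ∀ i j, |(1 : Mat n) i j| ≤ max B 1 := by
      intro i j
      refine le_trans ?_ hK
      rw [Matrix.one_apply]
      split_ifs <;> simp
    have h2 : A.det - 1 = ∑ σ : Equiv.Perm (Fin n), (Equiv.Perm.sign σ : ℝ) *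
        (∏ i, A (σ i) i - ∏ i, (1 : Mat n) (σ i) i) := by
      conv_lhs => rw [← Matrix.det_one (n := Fin n) (R := ℝ)]
      rw [Matrix.det_apply', Matrix.det_apply', ← Finset.sum_sub_distrib]
      refine Finset.sum_congr rfl fun σ _ => ?_
      ring
    rw [h2]
    refine (Finset.abs_sum_le_sum_abs _ _).trans ?_
    have h3 : ∀ σ : Equiv.Perm (Fin n), |(Equiv.Perm.sign σ : ℝ) *
        (∏ i, A (σ i) i - ∏ i, (1 : Mat n) (σ i) i)| ≤
        (max B 1) ^ n * ∑ i, ∑ j, |A i j - (1 : Mat n) i j| := by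
      intro σ
      have hs : |((Equiv.Perm.sign σ : ℤ) : ℝ)| = 1 := by
        rcases Int.units_eq_one_or (Equiv.Perm.sign σ) with h | h <;> simp [h]
      rw [abs_mul, hs, one_mul]
      have h4 := e2a_prod_sub Finset.univ (fun i => A (σ i) i) (fun i => (1 : Mat n) (σ i) i) hK
        (fun i => (hA _ _).trans (le_max_left _ _)) (fun i => h1 _ _)
      rw [Finset.card_univ, Fintype.card_fin] at h4
      refine h4.trans (mul_le_mul_of_nonneg_left ?_ (by positivity))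
      rw [Finset.sum_comm]
      refine Finset.sum_le_sum fun i _ => ?_
      exact Finset.single_le_sum (f := fun j => |A j i - (1 : Mat n) j i|)
        (fun j _ => abs_nonneg _) (Finset.mem_univ (σ i))
    refine (Finset.sum_le_sum fun σ _ => h3 σ).trans ?_
    rw [Finset.sum_const, Finset.card_univ, Fintype.card_perm, Fintype.card_fin, nsmul_eq_mul,
      mul_assoc]
  · have h := Matrix.det_le (A := A) (abv := AbsoluteValue.abs) (x := max B 1)
      (fun i j => (hA i j).trans (le_max_left _ _))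
    simpa using h

/-- Hadamard (or AM-GM for the eigenvalues: `det ≤ (tr/n)ⁿ`). -/
theorem det_le_of_diag {A : Mat n} (hA : A.PosSemidef) {m : ℝ} (hm : 0 ≤ m) (h : ∀ i, A i i ≤ m) :
    A.det ≤ m ^ n := by
  have hd := hA.isHermitian.det_eq_prod_eigenvalues
  have ht := hA.isHermitian.trace_eq_sum_eigenvalues
  simp only [RCLike.ofReal_real_eq_id, id] at hd ht
  have h0 : ∀ i, 0 ≤ hA.isHermitian.eigenvalues i := fun i => hA.eigenvalues_nonneg i
  set l := hA.isHermitian.eigenvalues with hl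
  have hs : ∑ i, l i ≤ n * m := by
    rw [← ht, Matrix.trace]
    calc ∑ i, Matrix.diag A i ≤ ∑ i : Fin n, m := Finset.sum_le_sum fun i _ => h i
      _ = n * m := by simp
  rw [hd]
  rcases hm.eq_or_lt with rfl | hm'
  · rcases Nat.eq_zero_or_pos n with rfl | hn
    · simp
    · have h1 : l ⟨0, hn⟩ = 0 := by
        have := Finset.single_le_sum (f := l) (fun j _ => h0 j) (Finset.mem_univ ⟨0, hn⟩)
        have h2 := h0 ⟨0, hn⟩
        simp only [mul_zero] at hs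
        linarith
      rw [Finset.prod_eq_zero (Finset.mem_univ _) h1]
      positivity
  · have h1 : ∀ i, l i ≤ m * Real.exp (l i / m - 1) := by
      intro i
      have := Real.add_one_le_exp (l i / m - 1)
      calc l i = m * (l i / m - 1 + 1) := by field_simp; ring
        _ ≤ m * Real.exp (l i / m - 1) := mul_le_mul_of_nonneg_left this hm
    calc ∏ i, l i ≤ ∏ i, m * Real.exp (l i / m - 1) :=
          Finset.prod_le_prod (fun i _ => h0 i) fun i _ => h1 i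
      _ = m ^ n * Real.exp (∑ i, (l i / m - 1)) := by
          rw [Finset.prod_mul_distrib, Real.exp_sum]; simp
      _ ≤ m ^ n * 1 := by
          refine mul_le_mul_of_nonneg_left (Real.exp_le_one_iff.2 ?_) (by positivity)
          rw [Finset.sum_sub_distrib, ← Finset.sum_div]
          simp only [Finset.sum_const, Finset.card_univ, Fintype.card_fin, nsmul_eq_mul, mul_one]
          rw [sub_nonpos, div_le_iff₀ hm']
          exact hs
      _ = m ^ n := mul_one _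

lemma e2c_pt {σ τ : ℝ} (hτ : 0 < τ) (hστ : τ ≤ σ) (v : E n) :
    gau n σ v ≤ τ ^ (-(n : ℝ) / 2) ∧ gau n σ v * ‖v‖ ^ 2 ≤ 4 * σ * τ ^ (-(n : ℝ) / 2) ∧
      gau n σ v * ‖v‖ ≤ 2 * Real.sqrt σ * τ ^ (-(n : ℝ) / 2) := by
  have hσ : 0 < σ := hτ.trans_le hστ
  have h1 : (4 * Real.pi * σ) ^ (-(n : ℝ) / 2) ≤ τ ^ (-(n : ℝ) / 2) := by
    apply Real.rpow_le_rpow_of_nonpos hτ
    · nlinarith [Real.pi_gt_three]
    · have : (0 : ℝ) ≤ n := Nat.cast_nonneg n
      linarith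
  have h0 : 0 ≤ (4 * Real.pi * σ) ^ (-(n : ℝ) / 2) := by positivity
  set c := (4 * Real.pi * σ) ^ (-(n : ℝ) / 2) with hc
  set r := ‖v‖ ^ 2 / (4 * σ) with hr
  have hr0 : 0 ≤ r := by positivity
  have hg : gau n σ v = c * Real.exp (-r) := by
    rw [gau, hr, ← hc, neg_div]
  have he : 0 < Real.exp (-r) := Real.exp_pos _
  have he1 : Real.exp (-r) * (1 + r) ≤ 1 := by
    have := Real.add_one_le_exp r
    have h2 : Real.exp (-r) * Real.exp r = 1 := by rw [← Real.exp_add]; simp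
    nlinarith
  have hv : ‖v‖ ^ 2 = 4 * σ * r := by rw [hr]; field_simp
  have hs : 0 < Real.sqrt σ := Real.sqrt_pos.2 hσ
  have hss : Real.sqrt σ ^ 2 = σ := Real.sq_sqrt hσ.le
  have hv1 : ‖v‖ ≤ 2 * Real.sqrt σ * (1 + r) := by
    refine (abs_le_of_sq_le_sq' ?_ (by positivity)).2
    rw [hv, mul_pow, mul_pow, hss]
    nlinarith [mul_nonneg hσ.le hr0, mul_nonneg hσ.le (sq_nonneg r)]
  refine ⟨?_, ?_, ?_⟩
  · rw [hg]
    have : Real.exp (-r) ≤ 1 := by nlinarith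
    nlinarith
  · rw [hg, hv]
    have : Real.exp (-r) * r ≤ 1 := by nlinarith
    have h3 : c * (Real.exp (-r) * r) ≤ τ ^ (-(n : ℝ) / 2) := by nlinarith
    nlinarith
  · rw [hg]
    have h3 : Real.exp (-r) * ‖v‖ ≤ 2 * Real.sqrt σ := by
      calc Real.exp (-r) * ‖v‖ ≤ Real.exp (-r) * (2 * Real.sqrt σ * (1 + r)) := by gcongr
        _ = 2 * Real.sqrt σ * (Real.exp (-r) * (1 + r)) := by ring
        _ ≤ 2 * Real.sqrt σ * 1 := by gcongr
        _ = _ := by ring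
    calc c * Real.exp (-r) * ‖v‖ = c * (Real.exp (-r) * ‖v‖) := by ring
      _ ≤ τ ^ (-(n : ℝ) / 2) * (2 * Real.sqrt σ) := by gcongr
      _ = _ := by ring

lemma e2c_coord {M : Type u} (w : Fin n → M → ℝ) (z : E n) (y : M) :
    ‖wv w y - z‖ ^ 2 = ∑ i, (w i y - z i) ^ 2 ∧ ∀ i, |w i y - z i| ≤ ‖wv w y - z‖ := by
  refine ⟨?_, fun i => ?_⟩
  · rw [EuclideanSpace.real_norm_sq_eq]
    simp [wv]
  · have := PiLp.norm_apply_le (wv w y - z) i
    simpa [wv] using this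

/-- The algebraic bound behind `(∂ₛ + Δ) F`. -/
lemma e2c_alg (A : Mat n) (u d : Fin n → ℝ) {G N σ τ c l : ℝ} (hτ : 0 < τ) (hστ : τ ≤ σ)
    (hG : 0 ≤ G) (hl : 0 ≤ l) (hN0 : 0 ≤ N) (hN : N ^ 2 = ∑ i, u i ^ 2) (hu : ∀ i, |u i| ≤ N)
    (hd : ∀ i, |d i| ≤ l)
    (h1 : G ≤ c) (h2 : G * N ^ 2 ≤ 4 * σ * c) (h3 : G * N ≤ 2 * Real.sqrt σ * c) :
    |-(G * (N ^ 2 / (4 * σ ^ 2) - n / (2 * σ))) +
      G * ((∑ i, ∑ j, u i * u j * A i j) / (4 * σ ^ 2) - (∑ i, A i i) / (2 * σ) -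
        (∑ i, u i * d i) / (2 * σ))| ≤
      3 / 2 * (c / τ) * (∑ i, ∑ j, |A i j - (1 : Mat n) i j|) + n * (c / Real.sqrt τ) * l := by
  have hσ : 0 < σ := hτ.trans_le hστ
  have hc : 0 ≤ c := hG.trans h1
  set D := ∑ i, ∑ j, |A i j - (1 : Mat n) i j| with hD
  have hD0 : 0 ≤ D := by positivity
  have e1 : ∑ i, ∑ j, u i * u j * (A i j - (1 : Mat n) i j) =
      (∑ i, ∑ j, u i * u j * A i j) - N ^ 2 := by
    rw [hN, ← Finset.sum_sub_distrib]
    refine Finset.sum_congr rfl fun i _ => ?_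
    simp only [mul_sub, Finset.sum_sub_distrib, Matrix.one_apply, mul_ite, mul_one, mul_zero,
      Finset.sum_ite_eq, Finset.mem_univ, if_true]
    ring
  have e2 : ∑ i, (A i i - (1 : Mat n) i i) = (∑ i, A i i) - n := by
    simp [Finset.sum_sub_distrib]
  have b1 : |∑ i, ∑ j, u i * u j * (A i j - (1 : Mat n) i j)| ≤ N ^ 2 * D := by
    rw [hD, Finset.mul_sum]
    refine (Finset.abs_sum_le_sum_abs _ _).trans (Finset.sum_le_sum fun i _ => ?_)
    rw [Finset.mul_sum]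
    refine (Finset.abs_sum_le_sum_abs _ _).trans (Finset.sum_le_sum fun j _ => ?_)
    rw [abs_mul, abs_mul, sq]
    gcongr
    · exact hu i
    · exact hu j
  have b2 : |∑ i, (A i i - (1 : Mat n) i i)| ≤ D := by
    refine (Finset.abs_sum_le_sum_abs _ _).trans (Finset.sum_le_sum fun i _ => ?_)
    exact Finset.single_le_sum (f := fun j => |A i j - (1 : Mat n) i j|)
      (fun j _ => abs_nonneg _) (Finset.mem_univ i)
  have b3 : |∑ i, u i * d i| ≤ n * (N * l) := by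
    refine (Finset.abs_sum_le_sum_abs _ _).trans ?_
    calc ∑ i, |u i * d i| ≤ ∑ i : Fin n, N * l := by
          refine Finset.sum_le_sum fun i _ => ?_
          rw [abs_mul]
          gcongr
          · exact hu i
          · exact hd i
      _ = _ := by simp
  set a1 := ∑ i, ∑ j, u i * u j * (A i j - (1 : Mat n) i j)
  set a2 := ∑ i, (A i i - (1 : Mat n) i i)
  set a3 := ∑ i, u i * d i
  have e3 : -(G * (N ^ 2 / (4 * σ ^ 2) - n / (2 * σ))) +
      G * ((∑ i, ∑ j, u i * u j * A i j) / (4 * σ ^ 2) - (∑ i, A i i) / (2 * σ) - a3 / (2 * σ)) =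
      G * a1 / (4 * σ ^ 2) - G * a2 / (2 * σ) - G * a3 / (2 * σ) := by
    rw [e1, e2]; ring
  rw [e3]
  have hs : 0 < Real.sqrt σ := Real.sqrt_pos.2 hσ
  have hst : 0 < Real.sqrt τ := Real.sqrt_pos.2 hτ
  have hss : Real.sqrt σ * Real.sqrt σ = σ := Real.mul_self_sqrt hσ.le
  have hsts : Real.sqrt τ ≤ Real.sqrt σ := Real.sqrt_le_sqrt hστ
  have c1 : |G * a1 / (4 * σ ^ 2)| ≤ c / τ * D := by
    rw [abs_div, abs_mul, abs_of_nonneg hG, abs_of_pos (by positivity : (0 : ℝ) < 4 * σ ^ 2)]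
    calc G * |a1| / (4 * σ ^ 2) ≤ G * (N ^ 2 * D) / (4 * σ ^ 2) := by gcongr
      _ = G * N ^ 2 * D / (4 * σ ^ 2) := by ring
      _ ≤ 4 * σ * c * D / (4 * σ ^ 2) := by gcongr
      _ = c / σ * D := by field_simp
      _ ≤ c / τ * D := by gcongr
  have c2 : |G * a2 / (2 * σ)| ≤ 1 / 2 * (c / τ) * D := by
    rw [abs_div, abs_mul, abs_of_nonneg hG, abs_of_pos (by positivity : (0 : ℝ) < 2 * σ)]
    calc G * |a2| / (2 * σ) ≤ c * D / (2 * τ) := by gcongr
      _ = _ := by ring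
  have c3 : |G * a3 / (2 * σ)| ≤ n * (c / Real.sqrt τ) * l := by
    rw [abs_div, abs_mul, abs_of_nonneg hG, abs_of_pos (by positivity : (0 : ℝ) < 2 * σ)]
    calc G * |a3| / (2 * σ) ≤ G * (n * (N * l)) / (2 * σ) := by gcongr
      _ = n * (G * N) * l / (2 * σ) := by ring
      _ ≤ n * (2 * Real.sqrt σ * c) * l / (2 * σ) := by gcongr
      _ = n * (c / Real.sqrt σ) * l := by
          nth_rewrite 2 [← hss]
          field_simp
      _ ≤ n * (c / Real.sqrt τ) * l := by gcongr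
  calc _ ≤ |G * a1 / (4 * σ ^ 2)| + |G * a2 / (2 * σ)| + |G * a3 / (2 * σ)| := by
        refine (abs_sub _ _).trans ?_
        gcongr
        exact abs_sub _ _
    _ ≤ _ := by linarith

section
variable {M : Type u} [MetricSpace M] [MeasurableSpace M] [BorelSpace M] [ProperSpace M]

lemma Geo.e2c_L (g : Geo n M) {w : Fin n → M → ℝ} (hw : ∀ i, g.S (w i)) (z : E n) {σ τ l : ℝ}
    (hτ : 0 < τ) (hστ : τ ≤ σ) (hl : 0 ≤ l) (hd : ∀ i y, |g.Δ (w i) y| ≤ l) (y : M) :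
    |-(gau n σ (wv w y - z) * (‖wv w y - z‖ ^ 2 / (4 * σ ^ 2) - n / (2 * σ))) +
      g.Δ (fun y => gau n σ (wv w y - z)) y| ≤
      3 / 2 * τ ^ (-(n : ℝ) / 2 - 1) * (∑ i, ∑ j, |g.Gm w y i j - (1 : Mat n) i j|) +
        n * τ ^ (-((n : ℝ) + 1) / 2) * l := by
  have hσ : 0 < σ := hτ.trans_le hστ
  obtain ⟨h1, h2, h3⟩ := e2c_pt hτ hστ (wv w y - z)
  obtain ⟨h4, h5⟩ := e2c_coord w z y
  have := e2c_alg (g.Gm w y) (fun i => w i y - z i) (fun i => g.Δ (w i) y) hτ hστ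
    (gau_pos hσ (wv w y - z)).le hl (norm_nonneg _) h4 h5 (fun i => hd i y) h1 h2 h3
  rw [g.Δ_gau hw z hσ y, Real.rpow_sub_one hτ.ne']
  have e : τ ^ (-((n : ℝ) + 1) / 2) = τ ^ (-(n : ℝ) / 2) / Real.sqrt τ := by
    rw [Real.sqrt_eq_rpow, ← Real.rpow_sub hτ]
    congr 1
    ring
  rw [e]
  exact this

lemma Geo.e2c_Γ1 (g : Geo n M) {w : Fin n → M → ℝ} (hw : ∀ i, g.S (w i)) (z : E n) {σ τ K : ℝ}
    (hτ : 0 < τ) (hστ : τ ≤ σ) (hK : 0 ≤ K) (f : M → ℝ) (y : M) (hf : ∀ i, |g.Γ (w i) f y| ≤ K) :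
    |g.Γ (fun y => gau n σ (wv w y - z)) f y| ≤ n * (τ ^ (-(n : ℝ) / 2) / Real.sqrt τ) * K := by
  have hσ : 0 < σ := hτ.trans_le hστ
  obtain ⟨h1, h2, h3⟩ := e2c_pt hτ hστ (wv w y - z)
  obtain ⟨h4, h5⟩ := e2c_coord w z y
  have hG := (gau_pos hσ (wv w y - z)).le
  rw [g.Γ_gau hw z hσ f y, abs_neg, abs_mul, abs_of_nonneg hG]
  have b : |∑ i, (w i y - z i) / (2 * σ) * g.Γ (w i) f y| ≤ n * (‖wv w y - z‖ / (2 * σ) * K) := by
    refine (Finset.abs_sum_le_sum_abs _ _).trans ?_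
    calc ∑ i, |(w i y - z i) / (2 * σ) * g.Γ (w i) f y| ≤
          ∑ i : Fin n, ‖wv w y - z‖ / (2 * σ) * K := by
          refine Finset.sum_le_sum fun i _ => ?_
          rw [abs_mul, abs_div, abs_of_pos (by positivity : (0 : ℝ) < 2 * σ)]
          gcongr
          · exact h5 i
          · exact hf i
      _ = _ := by simp
  have hs : 0 < Real.sqrt σ := Real.sqrt_pos.2 hσ
  have hst : 0 < Real.sqrt τ := Real.sqrt_pos.2 hτ
  have hss : Real.sqrt σ * Real.sqrt σ = σ := Real.mul_self_sqrt hσ.le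
  have hsts : Real.sqrt τ ≤ Real.sqrt σ := Real.sqrt_le_sqrt hστ
  have hc : 0 ≤ τ ^ (-(n : ℝ) / 2) := by positivity
  set c := τ ^ (-(n : ℝ) / 2)
  calc _ ≤ gau n σ (wv w y - z) * (n * (‖wv w y - z‖ / (2 * σ) * K)) := by gcongr
    _ = n * (gau n σ (wv w y - z) * ‖wv w y - z‖) * K / (2 * σ) := by ring
    _ ≤ n * (2 * Real.sqrt σ * c) * K / (2 * σ) := by gcongr
    _ = n * (c / Real.sqrt σ) * K := by
        nth_rewrite 2 [← hss]
        field_simp
    _ ≤ _ := by gcongr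

lemma Geo.e2c_Γ (g : Geo n M) {w : Fin n → M → ℝ} (hw : ∀ i, g.S (w i)) (z : E n) {τ B : ℝ}
    (hτ : 0 < τ) (hB : 0 ≤ B) (hb : ∀ i j y, |g.Γ (w i) (w j) y| ≤ B) : ∃ K : ℝ, ∀ σ, τ ≤ σ → ∀ y,
    |gau n σ (wv w y - z)| + Real.sqrt (g.Γ (fun y => gau n σ (wv w y - z))
      (fun y => gau n σ (wv w y - z)) y) ≤ K := by
  set c := n * (τ ^ (-(n : ℝ) / 2) / Real.sqrt τ) with hc
  refine ⟨τ ^ (-(n : ℝ) / 2) + Real.sqrt (c * (c * B)), fun σ hστ y => ?_⟩
  have hσ : 0 < σ := hτ.trans_le hστ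
  rw [abs_of_pos (gau_pos hσ _)]
  refine add_le_add (e2c_pt hτ hστ _).1 (Real.sqrt_le_sqrt ((le_abs_self _).trans ?_))
  refine g.e2c_Γ1 hw z hτ hστ (by positivity) _ y fun i => ?_
  rw [g.Γ_comm]
  exact g.e2c_Γ1 hw z hτ hστ hB _ y fun j => hb j i y

/-- Duhamel's formula for bounded data. -/
lemma HS.e2c_duh (h : HS n M) {T a b K K' : ℝ} {F : ℝ → M → ℝ} (hF : h.Sm (Ioo 0 T) F) (ha : 0 < a)
    (hab : a ≤ b) (hb : b < T) (x : M)
    (hK : ∀ s ∈ Icc a b, ∀ y, |F s y| + Real.sqrt (h.Γ (F s) (F s) y) ≤ K)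
    (hL : ∀ s ∈ Icc a b, ∀ y, |dt F s y + h.Δ (F s) y| ≤ K') :
    IntervalIntegrable (fun s => h.P s (fun y => dt F s y + h.Δ (F s) y) x) volume a b ∧
      h.P b (F b) x - h.P a (F a) x =
        ∫ s in a..b, h.P s (fun y => dt F s y + h.Δ (F s) y) x := by
  have hI : IsOpen (Ioo (0 : ℝ) T) := isOpen_Ioo
  have hs : Icc a b ⊆ Ioo 0 T := fun s hs => ⟨ha.trans_le hs.1, hs.2.trans_lt hb⟩
  have he : h.Sm (Ioo 0 T) fun s => h.H s x := h.Sm_mono (h.H_Sm x) Ioo_subset_Ioi_self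
  have hcH := h.Sm_cont he
  have hcF := h.Sm_cont hF
  have hcΓ := h.Sm_cont (h.Sm_Γ hI hF hF)
  have hSL : h.Sm (Ioo 0 T) fun s y => dt F s y + h.Δ (F s) y :=
    h.Sm_add (h.Sm_dt hI hF) (h.Sm_Δ hI hF)
  have hcL := h.Sm_cont hSL
  have hFi : ∀ s ∈ Icc a b, Integrable (fun y => h.H s x y * F s y) h.m := fun s hs' =>
    h.int_bdd (hs hs').1 x (h.S_cont (h.Sm_slice hF (hs hs'))).aestronglyMeasurable (B := K)
      fun y => (le_add_of_nonneg_right (Real.sqrt_nonneg _)).trans (hK s hs' y)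
  have hHK : ∀ C : ℝ, h.STI a b fun s y => h.H s x y * C := fun C => by
    refine h.STI_of_bound (B := |C|) hs (hcH.mul continuousOn_const) fun s hs' => ?_
    have h0 := (hs hs').1
    refine ⟨(h.H_int h0 x).1.mul_const C, ?_⟩
    have : ∀ y, |h.H s x y * C| = h.H s x y * |C| := fun y => by
      rw [abs_mul, abs_of_nonneg (h.H_nonneg h0 x y)]
    simp only [this]
    rw [integral_mul_const, h.int_H h0 x, one_mul]
  have h₁ : h.STI a b fun s y => |h.H s x y| * (|F s y| + Real.sqrt (h.Γ (F s) (F s) y)) := by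
    refine h.STI_of_le hs (hcH.abs.mul (hcF.abs.add hcΓ.sqrt)) (hHK K) fun s hs' y => ?_
    have h0 := h.H_nonneg (hs hs').1 x y
    rw [abs_of_nonneg (by positivity), abs_of_nonneg h0]
    exact mul_le_mul_of_nonneg_left (hK s hs' y) h0
  have hGi : h.STI a b fun s y => h.H s x y * (dt F s y + h.Δ (F s) y) := by
    refine h.STI_of_le hs (hcH.mul hcL) (hHK K') fun s hs' y => ?_
    have h0 := h.H_nonneg (hs hs').1 x y
    rw [abs_mul, abs_of_nonneg h0]
    exact mul_le_mul_of_nonneg_left (hL s hs' y) h0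
  have key := h.duh2 (Q := fun _ _ => 0) hI he hF hab hs (hFi a ⟨le_rfl, hab⟩) (hFi b ⟨hab, le_rfl⟩)
    h₁ (hcH.mul hcL) hGi (fun s hs' y => by rw [h.H_heat hs'.1 x y]; ring) (fun _ _ _ => le_rfl)
  refine ⟨(hGi.slice hab).1, ?_⟩
  have k2 := key.2
  simp only [integral_zero, intervalIntegral.integral_zero, zero_add] at k2
  exact k2

end

/-- Gaussian comparison.  Recipe: `duh2` on `[a,b]` with `e = H · x`, `F s y = gau (b+τ-s) (w y - z)` (`Sm_reparam`), `Q = 0`; by `dt_gau`, `Δ_gau`,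
`|(∂ₛ+Δ)F| ≤ C σ^{-n/2-1} Σ |A - 1| + C σ^{-(n+1)/2} l`, `σ = b+τ-s ≥ τ`; `a → 0` by `P_tendsto`. -/
theorem gau_cmp (n : ℕ) : ∃ C : ℝ, 0 < C ∧ ∀ (X : Sp.{u} n) (w : Fin n → X.M → ℝ) {b τ B l η δ : ℝ},
    0 < b → 0 < τ → 0 ≤ B → 0 ≤ l → 0 ≤ η → 0 ≤ δ → (∀ i, X.h.S (w i)) →
    (∀ i j y, |X.h.Γ (w i) (w j) y| ≤ B) → (∀ i y, |X.h.Δ (w i) y| ≤ l) → ∀ x,
    (∀ s ∈ Ioc 0 b, δ * b ≤ s → ∀ i j, X.h.P s (fun y => |X.h.Gm w y i j - (1 : Mat n) i j|) x ≤ η) →
    ∀ z, |X.h.P b (fun y => gau n τ (wv w y - z)) x - gau n (b + τ) (wv w x - z)| ≤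
      C * (τ ^ (-(n : ℝ) / 2 - 1) * b * (η + δ * (B + 1)) + τ ^ (-((n : ℝ) + 1) / 2) * b * l) := by
  refine ⟨3 / 2 * n ^ 2 + n + 1, by positivity, ?_⟩
  intro X w b τ B l η δ hb hτ hB hl hη hδ hw hΓ hΔ x hnear z
  set h := X.h with hh
  set T := b + τ with hT
  set F : ℝ → X.M → ℝ := fun s y => gau n (T - s) (wv w y - z) with hF
  obtain ⟨hF1, hF2⟩ := h.Sm_rev (h.Sm_gau hw z) T
  have hFS : h.Sm (Ioo 0 T) F := h.Sm_mono hF1 Ioo_subset_Iio_self
  set c1 := τ ^ (-(n : ℝ) / 2 - 1) with hc1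
  set c2 := τ ^ (-((n : ℝ) + 1) / 2) with hc2
  have hc10 : 0 ≤ c1 := by positivity
  have hc20 : 0 ≤ c2 := by positivity
  have hL : ∀ s, s ≤ b → ∀ y, |dt F s y + h.Δ (F s) y| ≤
      3 / 2 * c1 * (∑ i, ∑ j, |h.Gm w y i j - (1 : Mat n) i j|) + n * c2 * l := by
    intro s hs y
    have h1 : τ ≤ T - s := by rw [hT]; linarith
    have h2 : dt F s y = -(gau n (T - s) (wv w y - z) *
        (‖wv w y - z‖ ^ 2 / (4 * (T - s) ^ 2) - n / (2 * (T - s)))) := by
      rw [← Geo.dt_eq (F := fun σ y => gau n σ (wv w y - z)) (dt_gau z (hτ.trans_le h1) y)]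
      exact hF2 s (by rw [hT]; linarith) y
    rw [h2]
    exact h.e2c_L hw z hτ h1 hl hΔ y
  have hA : ∀ y i j, |h.Gm w y i j - (1 : Mat n) i j| ≤ B + 1 := by
    intro y i j
    refine (abs_sub _ _).trans (add_le_add (hΓ i j y) ?_)
    rw [Matrix.one_apply]
    split_ifs <;> simp
  have hAc : ∀ i j, Continuous fun y => |h.Gm w y i j - (1 : Mat n) i j| := fun i j =>
    ((h.S_cont (h.S_Γ (hw i) (hw j))).sub continuous_const).abs
  have hAi : ∀ s, 0 < s → ∀ i j,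
      Integrable (fun y => h.H s x y * |h.Gm w y i j - (1 : Mat n) i j|) h.m := fun s hs i j =>
    h.int_bdd hs x (hAc i j).aestronglyMeasurable (B := B + 1) fun y => by
      rw [abs_abs]; exact hA y i j
  have hP : ∀ s ∈ Ioc 0 b, ∀ e : ℝ,
      (∀ i j, h.P s (fun y => |h.Gm w y i j - (1 : Mat n) i j|) x ≤ e) →
      |h.P s (fun y => dt F s y + h.Δ (F s) y) x| ≤ 3 / 2 * c1 * (n ^ 2 * e) + n * c2 * l := by
    intro s hs e he
    have i1 : ∀ i, Integrable
        (fun y => h.H s x y * ∑ j, |h.Gm w y i j - (1 : Mat n) i j|) h.m := fun i =>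
      (integrable_finsetSum Finset.univ fun j _ => hAi s hs.1 i j).congr
        (Eventually.of_forall fun y => (Finset.mul_sum _ _ _).symm)
    have i2 : Integrable
        (fun y => h.H s x y * ∑ i, ∑ j, |h.Gm w y i j - (1 : Mat n) i j|) h.m :=
      (integrable_finsetSum Finset.univ fun i _ => i1 i).congr
        (Eventually.of_forall fun y => (Finset.mul_sum _ _ _).symm)
    have i3 : Integrable (fun y => h.H s x y *
        (3 / 2 * c1 * ∑ i, ∑ j, |h.Gm w y i j - (1 : Mat n) i j|)) h.m :=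
      (i2.const_mul (3 / 2 * c1)).congr (Eventually.of_forall fun y => by simp only; ring)
    have i4 : Integrable (fun y => h.H s x y * (n * c2 * l)) h.m := (h.H_int hs.1 x).1.mul_const _
    refine (h.abs_P_le_P hs.1 (f' := fun y => 3 / 2 * c1 *
      (∑ i, ∑ j, |h.Gm w y i j - (1 : Mat n) i j|) + n * c2 * l)
      ((i3.add i4).congr (Eventually.of_forall fun y => by simp only [Pi.add_apply]; ring))
      (hL s hs.2)).trans ?_
    rw [h.P_add i3 i4, h.P_const hs.1, h.P_cmul, h.P_sum _ fun i _ => i1 i]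
    gcongr
    calc ∑ i, h.P s (fun y => ∑ j, |h.Gm w y i j - (1 : Mat n) i j|) x ≤ ∑ i : Fin n, n * e := by
          refine Finset.sum_le_sum fun i _ => ?_
          rw [h.P_sum _ fun j _ => hAi s hs.1 i j]
          calc _ ≤ ∑ j : Fin n, e := Finset.sum_le_sum fun j _ => he i j
            _ = _ := by simp
      _ = _ := by simp; ring
  obtain ⟨K, hK⟩ := h.e2c_Γ hw z hτ hB hΓ
  have hab : ∀ a ∈ Ioc 0 b, |h.P b (F b) x - h.P a (F a) x| ≤
      (3 / 2 * n ^ 2 + n + 1) * (c1 * b * (η + δ * (B + 1)) + c2 * b * l) := by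
    intro a ha
    obtain ⟨k1, k2⟩ := h.e2c_duh hFS ha.1 ha.2 (by rw [hT]; linarith) x
      (K' := 3 / 2 * c1 * (∑ i : Fin n, ∑ j : Fin n, (B + 1)) + n * c2 * l)
      (fun s hs y => hK (T - s) (by rw [hT]; linarith [hs.2]) y) (fun s hs y => by
        refine (hL s hs.2 y).trans ?_
        gcongr with i _ j _
        exact hA y i j)
    set m := max a (min (δ * b) b) with hm
    have hm1 : a ≤ m := le_max_left _ _
    have hm2 : m ≤ b := max_le ha.2 (min_le_right _ _)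
    have hm3 : m - a ≤ δ * b := by
      have : m ≤ a + δ * b := max_le (by nlinarith) ((min_le_left _ _).trans (by linarith [ha.1]))
      linarith
    have hsub1 : uIcc a m ⊆ uIcc a b := by
      rw [uIcc_of_le hm1, uIcc_of_le ha.2]; exact Icc_subset_Icc le_rfl hm2
    have hsub2 : uIcc m b ⊆ uIcc a b := by
      rw [uIcc_of_le hm2, uIcc_of_le ha.2]; exact Icc_subset_Icc hm1 le_rfl
    rw [k2, ← intervalIntegral.integral_add_adjacent_intervals (k1.mono_set hsub1)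
      (k1.mono_set hsub2)]
    have j1 := intervalIntegral.norm_integral_le_of_norm_le_const
      (f := fun s => h.P s (fun y => dt F s y + h.Δ (F s) y) x) (a := a) (b := m)
      (C := 3 / 2 * c1 * (n ^ 2 * (B + 1)) + n * c2 * l) (fun s hs => by
        rw [uIoc_of_le hm1] at hs
        have hs0 : 0 < s := ha.1.trans hs.1
        exact hP s ⟨hs0, hs.2.trans hm2⟩ _ fun i j => (le_abs_self _).trans
          (h.abs_P_le hs0 x fun y => by rw [abs_abs]; exact hA y i j))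
    have j2 := intervalIntegral.norm_integral_le_of_norm_le_const
      (f := fun s => h.P s (fun y => dt F s y + h.Δ (F s) y) x) (a := m) (b := b)
      (C := 3 / 2 * c1 * (n ^ 2 * η) + n * c2 * l) (fun s hs => by
        rw [uIoc_of_le hm2] at hs
        have hs0 : 0 < s := ha.1.trans (hm1.trans_lt hs.1)
        refine hP s ⟨hs0, hs.2⟩ _ (hnear s ⟨hs0, hs.2⟩ ?_)
        have h1 : min (δ * b) b < s := (le_max_right _ _).trans_lt hs.1
        rcases min_lt_iff.1 h1 with h2 | h2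
        · exact h2.le
        · exact absurd hs.2 (not_le.2 h2))
    rw [Real.norm_eq_abs, abs_of_nonneg (sub_nonneg.2 hm1)] at j1
    rw [Real.norm_eq_abs, abs_of_nonneg (sub_nonneg.2 hm2)] at j2
    refine (abs_add_le _ _).trans ((add_le_add j1 j2).trans ?_)
    have hn : (0 : ℝ) ≤ n := Nat.cast_nonneg n
    have q1 : 3 / 2 * c1 * (n ^ 2 * (B + 1)) * (m - a) ≤ 3 / 2 * c1 * (n ^ 2 * (B + 1)) * (δ * b) := by
      gcongr
    have q2 : 3 / 2 * c1 * (n ^ 2 * η) * (b - m) ≤ 3 / 2 * c1 * (n ^ 2 * η) * b := by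
      gcongr; linarith [ha.1]
    have q3 : n * c2 * l * (b - a) ≤ n * c2 * l * b := by gcongr; linarith [ha.1]
    have q4 : 0 ≤ c1 * b * (η + δ * (B + 1)) := by positivity
    have q5 : 0 ≤ c2 * b * l := by positivity
    nlinarith [mul_nonneg hn q4, mul_nonneg (sq_nonneg (n : ℝ)) q5]
  have hlim : Tendsto (fun a => h.P a (F a) x) (𝓝[>] 0) (𝓝 (gau n T (wv w x - z))) := by
    refine h.P_tendsto hb (B := K) (fun s hs => (gau_cont _).comp ((h.wv_cont hw).sub continuous_const))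
      (fun s hs y => (le_add_of_nonneg_right (Real.sqrt_nonneg _)).trans
        (hK (T - s) (by rw [hT]; linarith [hs.2]) y)) ?_
    have h1 : ContinuousAt (fun p : ℝ × X.M => F p.1 p.2) (0, x) :=
      (h.Sm_cont hF1).continuousAt ((isOpen_Iio.prod isOpen_univ).mem_nhds
        ⟨by show (0 : ℝ) < T; rw [hT]; linarith, mem_univ _⟩)
    have h2 := h1.tendsto
    rw [nhds_prod_eq] at h2
    simp only [hF, sub_zero] at h2 ⊢
    exact h2.mono_left (Filter.prod_mono nhdsWithin_le_nhds le_rfl)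
  have hFb : F b = fun y => gau n τ (wv w y - z) := by
    funext y; simp only [hF, hT, add_sub_cancel_left]
  rw [← hFb]
  refine le_of_tendsto ((tendsto_const_nhds.sub hlim).abs) ?_
  filter_upwards [Ioc_mem_nhdsGT hb] with a ha using hab a ha

/-- Scale invariant form. -/
theorem spl_gau (n : ℕ) (B τ₀ : ℝ) (hτ : 0 < τ₀) : ∃ C : ℝ, 0 < C ∧ ∀ (X : Sp.{u} n)
    (w : Fin n → X.M → ℝ) (x : X.M) {b η : ℝ}, X.h.Spl w x b B η → ∀ z,
    |X.h.P b (fun y => gau n (τ₀ * b) (wv w y - z)) x - gau n (b + τ₀ * b) (wv w x - z)| ≤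
      C * η * b ^ (-(n : ℝ) / 2) ∧
    |X.h.P b (fun y => gau n (τ₀ * b) (wv w y - z) * (X.h.Gm w y).det) x -
      gau n (b + τ₀ * b) (wv w x - z)| ≤ C * η * b ^ (-(n : ℝ) / 2) ∧
    X.h.P b (fun y => |(X.h.Gm w y).det - 1|) x ≤ C * η := by
  obtain ⟨C₁, hC₁, H₁⟩ := gau_cmp.{u} n
  obtain ⟨C₂, hC₂, H₂⟩ := det_sub_one n B
  set K₁ := C₁ * (τ₀ ^ (-(n : ℝ) / 2 - 1) * (|B| + 2) + τ₀ ^ (-((n : ℝ) + 1) / 2)) with hK₁
  set K₃ := C₂ * n ^ 2 with hK₃
  set K₂ := τ₀ ^ (-(n : ℝ) / 2) * K₃ with hK₂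
  have hK₁0 : 0 < K₁ := by positivity
  have hK₃0 : 0 ≤ K₃ := by positivity
  have hK₂0 : 0 ≤ K₂ := by positivity
  refine ⟨K₁ + K₂ + K₃, by positivity, ?_⟩
  intro X w x b η hS z
  set h := X.h with hh
  have hb : 0 < b := hS.ok.1
  have hη := hS.η_pos
  have hB : 0 ≤ B := zero_le_one.trans hS.B_ge
  have hsb : 0 < Real.sqrt b := Real.sqrt_pos.2 hb
  have hτb : 0 < τ₀ * b := by positivity
  have hc : 0 < b ^ (-(n : ℝ) / 2) := by positivity
  have p1 : |h.P b (fun y => gau n (τ₀ * b) (wv w y - z)) x - gau n (b + τ₀ * b) (wv w x - z)| ≤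
      K₁ * η * b ^ (-(n : ℝ) / 2) := by
    have := H₁ X w (l := η / Real.sqrt b) hb hτb hB (by positivity) hη.le hη.le hS.S hS.bd
      (fun i y => by rw [le_div_iff₀ hsb, mul_comm]; exact hS.lap i y) x
      (fun s hs hs' => hS.near s ⟨hs', hs.2⟩) z
    refine this.trans (le_of_eq ?_)
    have e1 : b ^ (-(n : ℝ) / 2 - 1) = b ^ (-(n : ℝ) / 2) / b := Real.rpow_sub_one hb.ne' _
    have e2 : b ^ (-((n : ℝ) + 1) / 2) = b ^ (-(n : ℝ) / 2) / Real.sqrt b := by
      rw [Real.sqrt_eq_rpow, ← Real.rpow_sub hb]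
      congr 1
      ring
    have e3 : Real.sqrt b * Real.sqrt b = b := Real.mul_self_sqrt hb.le
    rw [Real.mul_rpow hτ.le hb.le, Real.mul_rpow hτ.le hb.le, e1, e2, hK₁, abs_of_nonneg hB]
    set c := b ^ (-(n : ℝ) / 2)
    set r := Real.sqrt b
    rw [← e3]
    field_simp
    ring
  have hA : ∀ y i j, |h.Gm w y i j - (1 : Mat n) i j| ≤ B + 1 := by
    intro y i j
    refine (abs_sub _ _).trans (add_le_add (hS.bd i j y) ?_)
    rw [Matrix.one_apply]
    split_ifs <;> simp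
  have hAc : ∀ i j, Continuous fun y => |h.Gm w y i j - (1 : Mat n) i j| := fun i j =>
    ((h.S_cont (h.S_Γ (hS.S i) (hS.S j))).sub continuous_const).abs
  have hAi : ∀ i j,
      Integrable (fun y => h.H b x y * |h.Gm w y i j - (1 : Mat n) i j|) h.m := fun i j =>
    h.int_bdd hb x (hAc i j).aestronglyMeasurable (B := B + 1) fun y => by
      rw [abs_abs]; exact hA y i j
  have i1 : ∀ i, Integrable
      (fun y => h.H b x y * ∑ j, |h.Gm w y i j - (1 : Mat n) i j|) h.m := fun i =>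
    (integrable_finsetSum Finset.univ fun j _ => hAi i j).congr
      (Eventually.of_forall fun y => (Finset.mul_sum _ _ _).symm)
  have i2 : Integrable
      (fun y => h.H b x y * ∑ i, ∑ j, |h.Gm w y i j - (1 : Mat n) i j|) h.m :=
    (integrable_finsetSum Finset.univ fun i _ => i1 i).congr
      (Eventually.of_forall fun y => (Finset.mul_sum _ _ _).symm)
  have i3 : Integrable (fun y => h.H b x y *
      (C₂ * ∑ i, ∑ j, |h.Gm w y i j - (1 : Mat n) i j|)) h.m :=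
    (i2.const_mul C₂).congr (Eventually.of_forall fun y => by simp only; ring)
  have hdc : Continuous fun y => (h.Gm w y).det := h.S_cont (h.S_det hS.S).1
  have hd : ∀ y, |(h.Gm w y).det - 1| ≤ C₂ * ∑ i, ∑ j, |h.Gm w y i j - (1 : Mat n) i j| ∧
      |(h.Gm w y).det| ≤ C₂ := fun y => H₂ _ fun i j => hS.bd i j y
  have hd1 : ∀ y, |(h.Gm w y).det - 1| ≤ C₂ + 1 := fun y =>
    (abs_sub _ _).trans (by rw [abs_one]; linarith [(hd y).2])
  have p3 : h.P b (fun y => |(h.Gm w y).det - 1|) x ≤ K₃ * η := by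
    refine (le_abs_self _).trans ((h.abs_P_le_P hb i3 fun y => by
      rw [abs_abs]; exact (hd y).1).trans ?_)
    rw [h.P_cmul, h.P_sum _ fun i _ => i1 i, hK₃, mul_assoc]
    gcongr
    calc ∑ i, h.P b (fun y => ∑ j, |h.Gm w y i j - (1 : Mat n) i j|) x ≤ ∑ i : Fin n, n * η := by
          refine Finset.sum_le_sum fun i _ => ?_
          rw [h.P_sum _ fun j _ => hAi i j]
          calc _ ≤ ∑ j : Fin n, η := Finset.sum_le_sum fun j _ =>
                hS.near b ⟨by nlinarith [hS.η_le], le_rfl⟩ i j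
            _ = _ := by simp
      _ = _ := by simp; ring
  have hgc : Continuous fun y => gau n (τ₀ * b) (wv w y - z) :=
    (gau_cont _).comp ((h.wv_cont hS.S).sub continuous_const)
  have hg : ∀ y, |gau n (τ₀ * b) (wv w y - z)| ≤ (τ₀ * b) ^ (-(n : ℝ) / 2) := fun y => by
    rw [abs_of_pos (gau_pos hτb _)]; exact (e2c_pt hτb le_rfl _).1
  have hg0 : 0 ≤ (τ₀ * b) ^ (-(n : ℝ) / 2) := by positivity
  have j1 := h.int_bdd hb x hgc.aestronglyMeasurable hg
  have j2 := h.int_bdd hb x (hgc.mul (hdc.sub (continuous_const (y := (1 : ℝ))))).aestronglyMeasurable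
    (B := (τ₀ * b) ^ (-(n : ℝ) / 2) * (C₂ + 1)) fun y => by
      simp only [Pi.mul_apply, Pi.sub_apply]
      rw [abs_mul]
      exact mul_le_mul (hg y) (hd1 y) (abs_nonneg _) hg0
  have j3 := h.int_bdd hb x (hdc.sub (continuous_const (y := (1 : ℝ)))).abs.aestronglyMeasurable
    (B := C₂ + 1) fun y => by rw [abs_abs]; exact hd1 y
  have p2 : |h.P b (fun y => gau n (τ₀ * b) (wv w y - z) * ((h.Gm w y).det - 1)) x| ≤
      K₂ * η * b ^ (-(n : ℝ) / 2) := by
    refine (h.abs_P_le_P hb (f' := fun y => (τ₀ * b) ^ (-(n : ℝ) / 2) * |(h.Gm w y).det - 1|)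
      ((j3.const_mul ((τ₀ * b) ^ (-(n : ℝ) / 2))).congr
        (Eventually.of_forall fun y => by simp only [Pi.sub_apply]; ring)) fun y => ?_).trans ?_
    · rw [abs_mul]
      exact mul_le_mul_of_nonneg_right (hg y) (abs_nonneg _)
    · rw [h.P_cmul]
      calc _ ≤ (τ₀ * b) ^ (-(n : ℝ) / 2) * (K₃ * η) := by gcongr
        _ = _ := by rw [Real.mul_rpow hτ.le hb.le, hK₂]; ring
  have q0 : 0 < η * b ^ (-(n : ℝ) / 2) := by positivity
  refine ⟨p1.trans (by nlinarith), ?_, p3.trans (by nlinarith)⟩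
  have e : h.P b (fun y => gau n (τ₀ * b) (wv w y - z) * (h.Gm w y).det) x =
      h.P b (fun y => gau n (τ₀ * b) (wv w y - z)) x +
        h.P b (fun y => gau n (τ₀ * b) (wv w y - z) * ((h.Gm w y).det - 1)) x := by
    rw [← h.P_add (f' := fun y => gau n (τ₀ * b) (wv w y - z) * ((h.Gm w y).det - 1)) j1 j2]
    congr 1
    funext y
    ring
  rw [e, add_sub_right_comm]
  refine (abs_add_le _ _).trans ((add_le_add p1 p2).trans ?_)
  nlinarith

end Crest.Agent.R247
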