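import Crest.Agent.R247.E2

/-! # Row 247, E3: the push-forward of `det A · H` has a density of bounded variation -/

set_option autoImplicit false
set_option linter.unusedSectionVars false
set_option linter.unusedVariables false
open MeasureTheory Filter Set Metric Matrix
open scoped ENNReal NNReal Topology ContDiff
open Crest.GeometryTopology.CoordMetric

noncomputable section
namespace Crest.Agent.R247
universe u

variable {n : ℕ}

/-- The vector field `R i = Σ_j (Γ(adj j i · H, w j) + adj j i · H · Δ w j)`. -/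
def HS.Rv {M : Type u} [MetricSpace M] [MeasurableSpace M] (h : HS n M) (w : Fin n → M → ℝ) (x : M)
    (b : ℝ) (i : Fin n) (y : M) : ℝ :=
  ∑ j, (h.Γ (fun y => (h.Gm w y).adjugate j i * h.H b x y) (w j) y +
    (h.Gm w y).adjugate j i * h.H b x y * h.Δ (w j) y)

section e3a
variable {M : Type u} [MetricSpace M] [MeasurableSpace M] [BorelSpace M] [ProperSpace M]

/-- Smooth, bounded by `C`, gradient bounded by `C Φ`. -/
def e3a_Pd (g : Geo n M) (Φ : M → ℝ) (C : ℝ) (f : M → ℝ) : Prop :=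
  g.S f ∧ ∀ y, |f y| ≤ C ∧ Real.sqrt (g.Γ f f y) ≤ C * Φ y

lemma e3a_const (g : Geo n M) {Φ : M → ℝ} (hΦ : ∀ y, 0 ≤ Φ y) {c C : ℝ} (hc : |c| ≤ C) :
    e3a_Pd g Φ C fun _ => c := by
  refine ⟨g.S_const c, fun y => ⟨hc, ?_⟩⟩
  rw [g.Γ_const_left, Real.sqrt_zero]
  exact mul_nonneg ((abs_nonneg c).trans hc) (hΦ y)

lemma e3a_add {g : Geo n M} {Φ f f' : M → ℝ} {C C' : ℝ} (hf : e3a_Pd g Φ C f)
    (hf' : e3a_Pd g Φ C' f') : e3a_Pd g Φ (C + C') fun y => f y + f' y := by
  refine ⟨g.S_add hf.1 hf'.1, fun y => ⟨(abs_add_le _ _).trans (add_le_add (hf.2 y).1 (hf'.2 y).1), ?_⟩⟩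
  refine (g.sqrt_Γ_add_le hf.1 hf'.1 y).trans ?_
  rw [add_mul]
  exact add_le_add (hf.2 y).2 (hf'.2 y).2

lemma e3a_mul {g : Geo n M} {Φ f f' : M → ℝ} {C C' : ℝ} (hf : e3a_Pd g Φ C f)
    (hf' : e3a_Pd g Φ C' f') : e3a_Pd g Φ (2 * C * C') fun y => f y * f' y := by
  refine ⟨g.S_mul hf.1 hf'.1, fun y => ?_⟩
  obtain ⟨h1, h2⟩ := hf.2 y
  obtain ⟨h3, h4⟩ := hf'.2 y
  have hC : 0 ≤ C := (abs_nonneg _).trans h1
  have hC' : 0 ≤ C' := (abs_nonneg _).trans h3
  constructor
  · rw [abs_mul]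
    have := mul_le_mul h1 h3 (abs_nonneg _) hC
    nlinarith [mul_nonneg hC hC']
  · rw [g.g3a_norm] at h2 h4 ⊢
    rw [g.grad_mul hf.1 hf'.1, WithLp.toLp_add, WithLp.toLp_smul, WithLp.toLp_smul]
    refine (norm_add_le _ _).trans ?_
    rw [norm_smul, norm_smul, Real.norm_eq_abs, Real.norm_eq_abs]
    have h5 := mul_le_mul h1 h4 (norm_nonneg _) hC
    have h6 := mul_le_mul h3 h2 (norm_nonneg _) hC'
    nlinarith

lemma e3a_prod {g : Geo n M} {Φ : M → ℝ} (hΦ : ∀ y, 0 ≤ Φ y) {ι : Type*} (s : Finset ι)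
    {f : ι → M → ℝ} {C : ℝ} (hf : ∀ i ∈ s, e3a_Pd g Φ C (f i)) :
    e3a_Pd g Φ ((2 * C) ^ s.card) fun y => ∏ i ∈ s, f i y := by
  classical
  induction s using Finset.induction_on with
  | empty => simpa using e3a_const g hΦ (c := 1) (C := 1) (by simp)
  | insert a s ha ih =>
    have h := e3a_mul (hf a (Finset.mem_insert_self _ _))
      (ih fun i hi => hf i (Finset.mem_insert_of_mem hi))
    simp only [Finset.prod_insert ha, Finset.card_insert_of_notMem ha]
    rwa [pow_succ']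

lemma e3a_sum {g : Geo n M} {Φ : M → ℝ} (hΦ : ∀ y, 0 ≤ Φ y) {ι : Type*} (s : Finset ι)
    {f : ι → M → ℝ} {C : ℝ} (hf : ∀ i ∈ s, e3a_Pd g Φ C (f i)) :
    e3a_Pd g Φ (s.card * C) fun y => ∑ i ∈ s, f i y := by
  classical
  induction s using Finset.induction_on with
  | empty => simpa using e3a_const g hΦ (c := 0) (C := 0) (by simp)
  | insert a s ha ih =>
    have h := e3a_add (hf a (Finset.mem_insert_self _ _))
      (ih fun i hi => hf i (Finset.mem_insert_of_mem hi))
    simp only [Finset.sum_insert ha, Finset.card_insert_of_notMem ha]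
    have e : ((s.card + 1 : ℕ) : ℝ) * C = C + s.card * C := by push_cast; ring
    rwa [e]

lemma e3a_adj (g : Geo n M) {w : Fin n → M → ℝ} (hw : ∀ i, g.S (w i)) {B : ℝ} (hB : 1 ≤ B)
    (hb : ∀ i j y, |g.Γ (w i) (w j) y| ≤ B) (i j : Fin n) :
    e3a_Pd g (fun y => ∑ l, Real.sqrt (g.Γ2 (w l) (w l) y))
      (Fintype.card (Equiv.Perm (Fin n)) * (2 * 1 * (2 * (2 * B)) ^ n))
      fun y => (g.Gm w y).adjugate i j := by
  classical
  set Φ : M → ℝ := fun y => ∑ l, Real.sqrt (g.Γ2 (w l) (w l) y) with hΦdef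
  have hΦ : ∀ y, 0 ≤ Φ y := fun y => Finset.sum_nonneg fun l _ => Real.sqrt_nonneg _
  have hl : ∀ l y, Real.sqrt (g.Γ2 (w l) (w l) y) ≤ Φ y := fun l y =>
    Finset.single_le_sum (f := fun l => Real.sqrt (g.Γ2 (w l) (w l) y))
      (fun l _ => Real.sqrt_nonneg _) (Finset.mem_univ l)
  have hs : ∀ l y, Real.sqrt (g.Γ (w l) (w l) y) ≤ B := fun l y =>
    Real.sqrt_le_iff.2 ⟨by linarith, by nlinarith [(abs_le.1 (hb l l y)).2]⟩
  have hent : ∀ a c, e3a_Pd g Φ (2 * B) fun y => g.Γ (w a) (w c) y := by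
    intro a c
    refine ⟨g.S_Γ (hw a) (hw c), fun y => ⟨(hb a c y).trans (by linarith), ?_⟩⟩
    refine (g.sqrt_Γ_Γ_le (hw a) (hw c) y).trans ?_
    have h1 := mul_le_mul (hl a y) (hs c y) (Real.sqrt_nonneg _) (hΦ y)
    have h2 := mul_le_mul (hl c y) (hs a y) (Real.sqrt_nonneg _) (hΦ y)
    nlinarith
  have hent2 : ∀ a c, e3a_Pd g Φ (2 * B) fun y => (g.Gm w y).updateRow j (Pi.single i 1) a c := by
    intro a c
    by_cases h : a = j
    · subst h
      simp only [Matrix.updateRow_self]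
      refine e3a_const g hΦ ?_
      by_cases h2 : c = i
      · subst h2; simp; linarith
      · simp [h2]; linarith
    · simp only [Matrix.updateRow_ne h]
      exact hent a c
  have h := e3a_sum hΦ (Finset.univ : Finset (Equiv.Perm (Fin n)))
    (f := fun σ y => (((Equiv.Perm.sign σ : ℤˣ) : ℤ) : ℝ) *
      ∏ a, (g.Gm w y).updateRow j (Pi.single i 1) (σ a) a) (C := 2 * 1 * (2 * (2 * B)) ^ n) (by
      intro σ _
      have h1 := e3a_prod hΦ (Finset.univ : Finset (Fin n))
        (f := fun a y => (g.Gm w y).updateRow j (Pi.single i 1) (σ a) a) (fun a _ => hent2 (σ a) a)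
      rw [Finset.card_univ, Fintype.card_fin] at h1
      refine e3a_mul (e3a_const g hΦ ?_) h1
      rcases Int.units_eq_one_or (Equiv.Perm.sign σ) with h | h <;> simp [h])
  rw [Finset.card_univ] at h
  simpa only [Matrix.adjugate_apply, Matrix.det_apply'] using h

lemma e3a_sqrt {a s : ℝ} (ha : 0 ≤ a) (hs : 0 < s) : s * Real.sqrt a ≤ s ^ 2 * a + 1 := by
  have h := Real.sq_sqrt ha
  nlinarith [sq_nonneg (s * Real.sqrt a - 1), Real.sqrt_nonneg a]

end e3a

lemma e3a_theta (n : ℕ) (B : ℝ) : ∃ C : ℝ, 0 < C ∧ ∀ (X : Sp.{u} n) (w : Fin n → X.M → ℝ) (x : X.M)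
    {b η : ℝ}, X.h.Spl w x b B η → ∃ Θ : X.M → ℝ, Integrable (fun y => X.h.H b x y * Θ y) X.h.m ∧
      ∫ y, X.h.H b x y * Θ y ∂X.h.m ≤ C ∧ ∀ y,
        Real.sqrt b * (Real.sqrt (X.h.Γ (X.h.φ b x) (X.h.φ b x) y) +
          ∑ l, Real.sqrt (X.h.Γ2 (w l) (w l) y)) + 1 ≤ Θ y := by
  obtain ⟨C, hC, hgrad⟩ := grad_φ.{u} n
  refine ⟨C * (1 + 3 * (2 * n)) + n * |B| + (n + 2), by positivity, ?_⟩
  intro X w x b η hS
  have hb : 0 < b := hS.ok.1
  have hk : X.h.k * b ≤ 1 / 200 := hS.ok.2.trans (by norm_num)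
  have hH := X.h.H_int hb x
  have hm := X.h.moment2 hb x x
  refine ⟨fun y => C * (1 + dist x y ^ 2 / b) + ∑ l, b * X.h.Γ2 (w l) (w l) y + (n + 2), ?_, ?_, ?_⟩
  · have h1 : Integrable (fun y => (C * X.h.H b x y + C / b * (X.h.H b x y * dist x y ^ 2)) +
        ∑ l, b * (X.h.H b x y * X.h.Γ2 (w l) (w l) y) + (n + 2) * X.h.H b x y) X.h.m :=
      (((hH.1.const_mul _).add (hm.1.const_mul _)).add
        (integrable_finset_sum _ fun l _ => (hS.hess l).1.const_mul _)).add (hH.1.const_mul _)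
    refine h1.congr (Eventually.of_forall fun y => ?_)
    simp only [mul_add, Finset.mul_sum]
    congr 1
    · congr 1
      · ring
      · exact Finset.sum_congr rfl fun l _ => by ring
    · ring
  · have e : (fun y => X.h.H b x y * (C * (1 + dist x y ^ 2 / b) +
        ∑ l, b * X.h.Γ2 (w l) (w l) y + (n + 2))) = fun y =>
        (C * X.h.H b x y + C / b * (X.h.H b x y * dist x y ^ 2)) +
        ∑ l, b * (X.h.H b x y * X.h.Γ2 (w l) (w l) y) + (n + 2) * X.h.H b x y := by
      funext y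
      simp only [mul_add, Finset.mul_sum]
      congr 1
      · congr 1
        · ring
        · exact Finset.sum_congr rfl fun l _ => by ring
      · ring
    have i1 := hH.1.const_mul C
    have i2 := hm.1.const_mul (C / b)
    have i3 : ∀ l ∈ (Finset.univ : Finset (Fin n)),
        Integrable (fun y => b * (X.h.H b x y * X.h.Γ2 (w l) (w l) y)) X.h.m :=
      fun l _ => (hS.hess l).1.const_mul _
    have i4 := hH.1.const_mul ((n : ℝ) + 2)
    have i5 : Integrable (fun y => C * X.h.H b x y + C / b * (X.h.H b x y * dist x y ^ 2)) X.h.m :=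
      i1.add i2
    have i6 : Integrable (fun y => C * X.h.H b x y + C / b * (X.h.H b x y * dist x y ^ 2) +
        ∑ l, b * (X.h.H b x y * X.h.Γ2 (w l) (w l) y)) X.h.m := i5.add (integrable_finset_sum _ i3)
    rw [e, integral_add i6 i4, integral_add i5 (integrable_finset_sum _ i3), integral_add i1 i2,
      integral_finset_sum _ i3]
    simp only [integral_const_mul]
    have h2 : ∫ y, X.h.H b x y * dist x y ^ 2 ∂X.h.m ≤ 3 * (2 * n * b) := by
      have h3 := hm.2
      simp only [HS.P, kerP, dist_self] at h3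
      refine h3.trans ?_
      have h4 : Real.exp (2 * X.h.k * b) ≤ 3 := by
        refine (Real.exp_le_exp.2 (show 2 * X.h.k * b ≤ 1 by nlinarith)).trans ?_
        exact Real.exp_one_lt_three.le
      have : (0 : ℝ) ^ 2 + 2 * n * b = 2 * n * b := by ring
      rw [this]
      exact mul_le_mul_of_nonneg_right h4 (by positivity)
    have h5 : ∑ l, b * ∫ y, X.h.H b x y * X.h.Γ2 (w l) (w l) y ∂X.h.m ≤ n * |B| := by
      refine (Finset.sum_le_card_nsmul _ _ |B| fun l _ => ?_).trans (by simp)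
      exact (hS.hess l).2.trans (le_abs_self B)
    have h6 : C / b * ∫ y, X.h.H b x y * dist x y ^ 2 ∂X.h.m ≤ C * (3 * (2 * n)) := by
      refine (mul_le_mul_of_nonneg_left h2 (by positivity)).trans (le_of_eq ?_)
      field_simp
    have h7 := mul_le_mul_of_nonneg_left hH.2 hC.le
    have h8 := mul_le_mul_of_nonneg_left hH.2 (show (0 : ℝ) ≤ n + 2 by positivity)
    linarith
  · intro y
    have hs : 0 < Real.sqrt b := Real.sqrt_pos.2 hb
    have h1 := e3a_sqrt (X.h.Γ_nonneg (X.h.φ b x) y) hs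
    rw [Real.sq_sqrt hb.le] at h1
    have h2 := hgrad X hb hk x y
    have h3 : Real.sqrt b * ∑ l, Real.sqrt (X.h.Γ2 (w l) (w l) y) ≤
        ∑ l, b * X.h.Γ2 (w l) (w l) y + n := by
      rw [Finset.mul_sum]
      have : (n : ℝ) = ∑ l : Fin n, (1 : ℝ) := by simp
      rw [this, ← Finset.sum_add_distrib]
      refine Finset.sum_le_sum fun l _ => ?_
      have h4 := e3a_sqrt (X.h.Γ2_nonneg (hS.S l) y) hs
      rwa [Real.sq_sqrt hb.le] at h4
    simp only [mul_add] at h2 ⊢
    linarith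

lemma e3a_core (n : ℕ) (B : ℝ) : ∃ C : ℝ, 0 < C ∧ ∀ (X : Sp.{u} n) (w : Fin n → X.M → ℝ) (x : X.M)
    {b η : ℝ}, X.h.Spl w x b B η → (∀ i j y, |(X.h.Gm w y).adjugate i j| ≤ C) ∧
      ∃ Θ : X.M → ℝ, Integrable Θ X.h.m ∧ ∫ y, Θ y ∂X.h.m ≤ C / Real.sqrt b ∧ ∀ i j l y,
        |X.h.Γ (fun y => (X.h.Gm w y).adjugate i j * X.h.H b x y) (w l) y| +
          |(X.h.Gm w y).adjugate i j * X.h.H b x y * X.h.Δ (w l) y| ≤ Θ y := by
  obtain ⟨C, hC, hΘ⟩ := e3a_theta.{u} n B
  set K : ℝ := Fintype.card (Equiv.Perm (Fin n)) * (2 * 1 * (2 * (2 * B)) ^ n) with hK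
  refine ⟨|K| + |K| * |B| * C + 1, by positivity, ?_⟩
  intro X w x b η hS
  have hb : 0 < b := hS.ok.1
  have hs : 0 < Real.sqrt b := Real.sqrt_pos.2 hb
  have hB := hS.B_ge
  have hadj := e3a_adj X.h.toGeo hS.S hB hS.bd
  rw [← hK] at hadj
  have hKC : 0 ≤ |K| * |B| * C := by positivity
  refine ⟨fun i j y => ((hadj i j).2 y).1.trans (by linarith [le_abs_self K]), ?_⟩
  obtain ⟨Θ, hi, hle, hpt⟩ := hΘ X w x hS
  refine ⟨fun y => |K| * |B| / Real.sqrt b * (X.h.H b x y * Θ y), hi.const_mul _, ?_, ?_⟩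
  · rw [integral_const_mul, div_mul_eq_mul_div]
    refine div_le_div_of_nonneg_right ?_ hs.le
    have := mul_le_mul_of_nonneg_left hle (show 0 ≤ |K| * |B| by positivity)
    linarith [abs_nonneg K]
  · intro i j l y
    obtain ⟨h1, h2⟩ := (hadj i j).2 y
    have hK0 : 0 ≤ K := (abs_nonneg _).trans h1
    have hH : 0 ≤ X.h.H b x y := X.h.H_nonneg hb x y
    have hw : Real.sqrt (X.h.Γ (w l) (w l) y) ≤ B :=
      Real.sqrt_le_iff.2 ⟨by linarith, by nlinarith [(abs_le.1 (hS.bd l l y)).2]⟩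
    set a := (X.h.Gm w y).adjugate i j with ha
    set Φ := ∑ l, Real.sqrt (X.h.Γ2 (w l) (w l) y) with hΦ
    set p := Real.sqrt (X.h.Γ (X.h.φ b x) (X.h.φ b x) y) with hp
    have hp0 : 0 ≤ p := Real.sqrt_nonneg _
    have hΦ0 : 0 ≤ Φ := Finset.sum_nonneg fun l _ => Real.sqrt_nonneg _
    have h3 : |X.h.Γ (X.h.φ b x) (w l) y| ≤ p * B :=
      (X.h.abs_Γ_le _ _ y).trans (mul_le_mul_of_nonneg_left hw hp0)
    have h4 : |X.h.Γ (fun y => (X.h.Gm w y).adjugate i j) (w l) y| ≤ K * Φ * B :=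
      (X.h.abs_Γ_le _ _ y).trans (mul_le_mul h2 hw (Real.sqrt_nonneg _) (by positivity))
    have h5 : |X.h.Δ (w l) y| ≤ B / Real.sqrt b := by
      rw [le_div_iff₀ hs]
      have := hS.lap l y
      have := hS.η_le
      linarith
    have h6 : |X.h.Γ (fun y => (X.h.Gm w y).adjugate i j * X.h.H b x y) (w l) y| ≤
        K * (X.h.H b x y * (p * B)) + X.h.H b x y * (K * Φ * B) := by
      rw [X.h.Γ_mul_left (hadj i j).1 (X.h.H_S hb x), X.h.Γ_H hb]
      refine (abs_add_le _ _).trans (add_le_add ?_ ?_)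
      · rw [abs_mul, abs_neg, abs_mul, abs_of_nonneg hH]
        exact mul_le_mul h1 (mul_le_mul_of_nonneg_left h3 hH) (by positivity) hK0
      · rw [abs_mul, abs_of_nonneg hH]
        exact mul_le_mul_of_nonneg_left h4 hH
    have h7 : |a * X.h.H b x y * X.h.Δ (w l) y| ≤ K * X.h.H b x y * (B / Real.sqrt b) := by
      rw [abs_mul, abs_mul, abs_of_nonneg hH]
      exact mul_le_mul (mul_le_mul_of_nonneg_right h1 hH) h5 (abs_nonneg _) (by positivity)
    refine (add_le_add h6 h7).trans ?_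
    rw [abs_of_nonneg hK0, abs_of_nonneg (by linarith : (0 : ℝ) ≤ B)]
    have h8 := mul_le_mul_of_nonneg_left (hpt y)
      (show 0 ≤ K * B / Real.sqrt b * X.h.H b x y by have : 0 ≤ B := by linarith
                                                     positivity)
    refine le_trans (le_of_eq ?_) (h8.trans (le_of_eq (by ring)))
    rw [← hp, ← hΦ]
    field_simp

/-- Recipe: the entries of the adjugate are polynomials in the `A i j`, so `|adj| ≤ C`, `√Γ(adj) ≤ C Σ √Γ2(w i)` (`sqrt_Γ_Γ_le`; product rule for `S_prod`, or induction on a predicate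
"bounded by `C`, gradient bounded by `C Σ √Γ2`" closed under sums and products); `∫ √Γ(H) = ∫ H √Γφ ≤ C/√b` (`grad_φ`, `moment2`), `P_sq_le`. -/
theorem Rv_int (n : ℕ) (B : ℝ) : ∃ C : ℝ, 0 < C ∧ ∀ (X : Sp.{u} n) (w : Fin n → X.M → ℝ) (x : X.M)
    {b η : ℝ}, X.h.Spl w x b B η → (∀ i j y, |(X.h.Gm w y).adjugate i j| ≤ C) ∧ ∀ i,
      Continuous (X.h.Rv w x b i) ∧ Integrable (X.h.Rv w x b i) X.h.m ∧
      ∫ y, |X.h.Rv w x b i y| ∂X.h.m ≤ C / Real.sqrt b := by
  obtain ⟨C, hC, hcore⟩ := e3a_core.{u} n B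
  refine ⟨(n + 1) * C, by positivity, ?_⟩
  intro X w x b η hS
  have hb : 0 < b := hS.ok.1
  have hs : 0 < Real.sqrt b := Real.sqrt_pos.2 hb
  obtain ⟨h1, Θ, hi, hle, hpt⟩ := hcore X w x hS
  refine ⟨fun i j y => (h1 i j y).trans (by nlinarith [(Nat.cast_nonneg n : (0 : ℝ) ≤ n)]), fun i => ?_⟩
  have hadj := (X.h.S_det hS.S).2
  have hc : Continuous (X.h.Rv w x b i) := by
    refine continuous_finset_sum _ fun j _ => ?_
    have h2 := X.h.S_mul (hadj j i) (X.h.H_S hb x)
    exact (X.h.S_cont (X.h.S_Γ h2 (hS.S j))).add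
      ((X.h.S_cont h2).mul (X.h.S_cont (X.h.S_Δ (hS.S j))))
  have hbd : ∀ y, |X.h.Rv w x b i y| ≤ n * Θ y := by
    intro y
    refine (Finset.abs_sum_le_sum_abs _ _).trans ?_
    refine (Finset.sum_le_card_nsmul _ _ (Θ y) fun j _ => ?_).trans (by simp)
    exact (abs_add_le _ _).trans (hpt j i j y)
  have hint : Integrable (X.h.Rv w x b i) X.h.m :=
    (hi.const_mul n).mono' hc.aestronglyMeasurable (Eventually.of_forall hbd)
  refine ⟨hc, hint, (integral_mono hint.abs (hi.const_mul n) hbd).trans ?_⟩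
  rw [integral_const_mul]
  refine (mul_le_mul_of_nonneg_left hle (Nat.cast_nonneg n)).trans ?_
  rw [← mul_div_assoc]
  exact div_le_div_of_nonneg_right (by nlinarith) hs.le

lemma e3a_gau_bd {σ : ℝ} (hσ : 0 < σ) : ∃ K : ℝ, 0 ≤ K ∧ ∀ v : E n, (1 + ‖v‖ ^ 2) * gau n σ v ≤ K := by
  refine ⟨(4 * Real.pi * σ) ^ (-(n : ℝ) / 2) * (1 + 4 * σ), by positivity, fun v => ?_⟩
  unfold gau
  rw [mul_left_comm]
  refine mul_le_mul_of_nonneg_left ?_ (by positivity)
  set t := ‖v‖ ^ 2 / (4 * σ) with ht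
  have ht0 : 0 ≤ t := by positivity
  have h1 : Real.exp (-t) * (t + 1) ≤ 1 := by
    have := mul_le_mul_of_nonneg_left (Real.add_one_le_exp t) (Real.exp_pos (-t)).le
    rwa [← Real.exp_add, neg_add_cancel, Real.exp_zero] at this
  have h2 : ‖v‖ ^ 2 = 4 * σ * t := by rw [ht]; field_simp
  rw [neg_div, ← ht, h2]
  have h3 := (Real.exp_pos (-t)).le
  nlinarith [mul_nonneg h3 ht0, mul_nonneg (mul_nonneg h3 ht0) hσ.le, mul_nonneg h3 hσ.le]

lemma e3a_alg (A : Mat n) (hA : ∀ i j, A i j = A j i) (v : Fin n → ℝ) (σ G : ℝ) :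
    ∑ i, ∑ j, A.adjugate j i * (v i / (2 * σ) * -(G * ∑ l, v l / (2 * σ) * A l j) +
      G * (1 / (2 * σ) * A i j)) =
      -(G * ((∑ i, v i ^ 2) / (4 * σ ^ 2) - n / (2 * σ)) * A.det) := by
  have h1 : ∀ l i, ∑ j, A l j * A.adjugate j i = if l = i then A.det else 0 := by
    intro l i
    have := congrFun (congrFun (Matrix.mul_adjugate A) l) i
    rw [Matrix.mul_apply] at this
    rw [this]
    by_cases h : l = i <;> simp [h]
  have h2 : ∀ i, ∑ j, A.adjugate j i * (v i / (2 * σ) * -(G * ∑ l, v l / (2 * σ) * A l j) +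
      G * (1 / (2 * σ) * A i j)) = -(G * (v i ^ 2 / (4 * σ ^ 2) - 1 / (2 * σ)) * A.det) := by
    intro i
    have e : ∀ j, A.adjugate j i * (v i / (2 * σ) * -(G * ∑ l, v l / (2 * σ) * A l j) +
        G * (1 / (2 * σ) * A i j)) =
        -(G * (v i / (2 * σ))) * ∑ l, v l / (2 * σ) * (A l j * A.adjugate j i) +
          G * (1 / (2 * σ)) * (A i j * A.adjugate j i) := by
      intro j
      have : ∑ l, v l / (2 * σ) * (A l j * A.adjugate j i) =
          (∑ l, v l / (2 * σ) * A l j) * A.adjugate j i := by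
        rw [Finset.sum_mul]; exact Finset.sum_congr rfl fun l _ => by ring
      rw [this]; ring
    simp only [e]
    rw [Finset.sum_add_distrib, ← Finset.mul_sum, ← Finset.mul_sum, Finset.sum_comm]
    simp only [← Finset.mul_sum, h1]
    simp only [mul_ite, mul_zero, Finset.sum_ite_eq', Finset.mem_univ, if_true]
    ring
  simp only [h2]
  rw [Finset.sum_neg_distrib, ← Finset.sum_mul, ← Finset.mul_sum, Finset.sum_sub_distrib,
    ← Finset.sum_div]
  simp only [Finset.sum_const, Finset.card_univ, Fintype.card_fin, nsmul_eq_mul]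
  ring

/-- Recipe: `f i = -(w i - z i)/(2σ) · gau`; `Σ_{i,j} adj j i · Γ(f i, w j) = det · gau · (‖w - z‖²/4σ² - n/2σ)` (`Γ_gau`, `mul_adjugate`, symmetry of `Gm`);
`ibp_L1` with `f = w j`, weight `f i · adj j i · H`. -/
theorem adj_div (X : Sp.{u} n) (w : Fin n → X.M → ℝ) (x : X.M) {b B η : ℝ} (hS : X.h.Spl w x b B η)
    {σ : ℝ} (hσ : 0 < σ) (z : E n) :
    X.h.P b (fun y => gau n σ (wv w y - z) * (‖wv w y - z‖ ^ 2 / (4 * σ ^ 2) - n / (2 * σ)) *
      (X.h.Gm w y).det) x =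
      ∫ y, ∑ i, (w i y - z i) / (2 * σ) * gau n σ (wv w y - z) * X.h.Rv w x b i y ∂X.h.m := by
  obtain ⟨C, hC, hcore⟩ := e3a_core.{u} n B
  obtain ⟨hadjb, Θ, hi, -, hpt⟩ := hcore X w x hS
  obtain ⟨K, hK0, hK⟩ := e3a_gau_bd (n := n) hσ
  have hb : 0 < b := hS.ok.1
  have hB := hS.B_ge
  have hadj := (X.h.S_det hS.S).2
  have hH : ∀ y, 0 ≤ X.h.H b x y := X.h.H_nonneg hb x
  have hHi := (X.h.H_int hb x).1
  set G : X.M → ℝ := fun y => gau n σ (wv w y - z) with hG
  have hGS : X.h.S G := X.h.Sm_slice (X.h.Sm_gau hS.S z) (mem_Ioi.2 hσ)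
  have hG0 : ∀ y, 0 ≤ G y := fun y => (gau_pos hσ _).le
  have hvS : ∀ i, X.h.S fun y => (w i y - z i) / (2 * σ) := by
    intro i
    have := X.h.S_cmul (1 / (2 * σ)) (X.h.S_sub (hS.S i) (X.h.S_const (z i)))
    rwa [(funext fun y => by ring : (fun y => (w i y - z i) / (2 * σ)) =
      fun y => 1 / (2 * σ) * (w i y - z i))]
  have hvΓ : ∀ i j y, X.h.Γ (fun y => (w i y - z i) / (2 * σ)) (w j) y =
      1 / (2 * σ) * X.h.Γ (w i) (w j) y := by
    intro i j y
    rw [(funext fun y => by ring : (fun y => (w i y - z i) / (2 * σ)) =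
      fun y => 1 / (2 * σ) * (w i y - z i)),
      X.h.Γ_cmul_left _ (X.h.S_sub (hS.S i) (X.h.S_const (z i))),
      X.h.Γ_sub_left (hS.S i) (X.h.S_const (z i)), X.h.Γ_const_left, sub_zero]
  set f : Fin n → X.M → ℝ := fun i y => (w i y - z i) / (2 * σ) * G y with hf
  have hfS : ∀ i, X.h.S (f i) := fun i => X.h.S_mul (hvS i) hGS
  have hfΓ : ∀ i j y, X.h.Γ (f i) (w j) y =
      (w i y - z i) / (2 * σ) * -(G y * ∑ l, (w l y - z l) / (2 * σ) * X.h.Γ (w l) (w j) y) +
        G y * (1 / (2 * σ) * X.h.Γ (w i) (w j) y) := by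
    intro i j y
    rw [hf, X.h.Γ_mul_left (hvS i) hGS, hvΓ, X.h.Γ_gau hS.S z hσ]
  have hv : ∀ i y, |w i y - z i| ≤ ‖wv w y - z‖ := fun i y =>
    PiLp.norm_apply_le (wv w y - z) i
  have hGK : ∀ y, G y ≤ K := fun y => by
    have := hK (wv w y - z)
    nlinarith [mul_nonneg (sq_nonneg ‖wv w y - z‖) (hG0 y)]
  have hvG : ∀ i y, |w i y - z i| * G y ≤ K := fun i y => by
    refine le_trans (mul_le_mul_of_nonneg_right ((hv i y).trans ?_) (hG0 y)) (hK (wv w y - z))
    nlinarith [sq_nonneg (‖wv w y - z‖ - 1)]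
  have hvvG : ∀ i l y, |w i y - z i| * |w l y - z l| * G y ≤ K := fun i l y => by
    refine le_trans (mul_le_mul_of_nonneg_right ?_ (hG0 y)) (hK (wv w y - z))
    have := mul_le_mul (hv i y) (hv l y) (abs_nonneg _) (norm_nonneg _)
    nlinarith
  have hfb : ∀ i y, |f i y| ≤ K / (2 * σ) := fun i y => by
    rw [hf]
    simp only [abs_mul, abs_div, abs_of_nonneg (hG0 y), abs_of_pos (show 0 < 2 * σ by positivity),
      abs_of_pos hσ, abs_two]
    rw [div_mul_eq_mul_div]
    exact div_le_div_of_nonneg_right (hvG i y) (by positivity)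
  have hfΓb : ∀ i j y, |X.h.Γ (f i) (w j) y| ≤ n * (K * B / (2 * σ) ^ 2) + K * (1 / (2 * σ) * B) := by
    intro i j y
    rw [hfΓ]
    refine (abs_add_le _ _).trans (add_le_add ?_ ?_)
    · rw [mul_neg, abs_neg, Finset.mul_sum, Finset.mul_sum]
      refine (Finset.abs_sum_le_sum_abs _ _).trans ?_
      refine (Finset.sum_le_card_nsmul _ _ (K * B / (2 * σ) ^ 2) fun l _ => ?_).trans (by simp)
      have e : (w i y - z i) / (2 * σ) * (G y * ((w l y - z l) / (2 * σ) * X.h.Γ (w l) (w j) y)) =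
          (w i y - z i) * (w l y - z l) * G y * X.h.Γ (w l) (w j) y / (2 * σ) ^ 2 := by
        field_simp
      rw [e, abs_div, abs_of_pos (show 0 < (2 * σ) ^ 2 by positivity)]
      refine div_le_div_of_nonneg_right ?_ (by positivity)
      rw [abs_mul, abs_mul, abs_mul, abs_of_nonneg (hG0 y)]
      exact mul_le_mul (hvvG i l y) (hS.bd l j y) (abs_nonneg _) hK0
    · rw [abs_mul, abs_mul, abs_of_nonneg (hG0 y), abs_of_pos (show 0 < 1 / (2 * σ) by positivity)]
      exact mul_le_mul (hGK y) (mul_le_mul_of_nonneg_left (hS.bd i j y) (by positivity))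
        (by positivity) hK0
  set a : Fin n → Fin n → X.M → ℝ := fun j i y => (X.h.Gm w y).adjugate j i * X.h.H b x y with ha
  have haS : ∀ j i, X.h.S (a j i) := fun j i => X.h.S_mul (hadj j i) (X.h.H_S hb x)
  have hab : ∀ j i y, |a j i y| ≤ C * X.h.H b x y := fun j i y => by
    rw [ha]
    simp only [abs_mul, abs_of_nonneg (hH y)]
    exact mul_le_mul_of_nonneg_right (hadjb j i y) (hH y)
  have I1 : ∀ i j, Integrable (fun y => f i y * X.h.Γ (a j i) (w j) y) X.h.m := by
    intro i j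
    refine (hi.const_mul (K / (2 * σ))).mono'
      ((X.h.S_cont (hfS i)).mul (X.h.S_cont (X.h.S_Γ (haS j i) (hS.S j)))).aestronglyMeasurable
      (Eventually.of_forall fun y => ?_)
    rw [Real.norm_eq_abs, abs_mul]
    exact mul_le_mul (hfb i y) (le_trans (le_add_of_nonneg_right (abs_nonneg _)) (hpt j i j y))
      (abs_nonneg _) (by positivity)
  have I2 : ∀ i j, Integrable (fun y => f i y * a j i y * X.h.Δ (w j) y) X.h.m := by
    intro i j
    refine (hi.const_mul (K / (2 * σ))).mono'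
      (((X.h.S_cont (hfS i)).mul (X.h.S_cont (haS j i))).mul
        (X.h.S_cont (X.h.S_Δ (hS.S j)))).aestronglyMeasurable
      (Eventually.of_forall fun y => ?_)
    rw [Real.norm_eq_abs, mul_assoc, abs_mul]
    exact mul_le_mul (hfb i y) (le_trans (le_add_of_nonneg_left (abs_nonneg _)) (hpt j i j y))
      (abs_nonneg _) (by positivity)
  have I3 : ∀ i j, Integrable (fun y => a j i y * X.h.Γ (f i) (w j) y) X.h.m := by
    intro i j
    refine ((hHi.const_mul C).mul_const (n * (K * B / (2 * σ) ^ 2) + K * (1 / (2 * σ) * B))).mono'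
      ((X.h.S_cont (haS j i)).mul (X.h.S_cont (X.h.S_Γ (hfS i) (hS.S j)))).aestronglyMeasurable
      (Eventually.of_forall fun y => ?_)
    rw [Real.norm_eq_abs, abs_mul]
    exact mul_le_mul (hab j i y) (hfΓb i j y) (abs_nonneg _) (mul_nonneg hC.le (hH y))
  have key : ∀ i j, ∫ y, (f i y * X.h.Γ (a j i) (w j) y + f i y * a j i y * X.h.Δ (w j) y) ∂X.h.m =
      -∫ y, a j i y * X.h.Γ (f i) (w j) y ∂X.h.m := by
    intro i j
    have e : X.h.Γ (w j) (fun y => f i y * a j i y) =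
        fun y => f i y * X.h.Γ (a j i) (w j) y + a j i y * X.h.Γ (f i) (w j) y := by
      funext y
      rw [X.h.Γ_comm, X.h.Γ_mul_left (hfS i) (haS j i)]
    have h := X.h.ibp_L1 (hS.S j) (X.h.S_mul (hfS i) (haS j i)) (I2 i j)
      (by rw [e]; exact (I1 i j).add (I3 i j)) (by
        refine (((hHi.const_mul C).const_mul (K / (2 * σ))).mul_const B).mono'
          (((X.h.S_cont (hfS i)).mul (X.h.S_cont (haS j i))).abs.mul
            (X.h.S_cont (X.h.S_Γ (hS.S j) (hS.S j))).sqrt).aestronglyMeasurable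
          (Eventually.of_forall fun y => ?_)
        rw [Real.norm_eq_abs, abs_mul, abs_abs, abs_mul, abs_of_nonneg (Real.sqrt_nonneg _)]
        refine mul_le_mul (mul_le_mul (hfb i y) (hab j i y) (abs_nonneg _) (by positivity)) ?_
          (Real.sqrt_nonneg _) (mul_nonneg (by positivity) (mul_nonneg hC.le (hH y)))
        exact Real.sqrt_le_iff.2 ⟨by linarith, by nlinarith [(abs_le.1 (hS.bd j j y)).2]⟩)
    rw [e, integral_add (I1 i j) (I3 i j)] at h
    rw [integral_add (I1 i j) (I2 i j), h]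
    ring
  have eR : (fun y => ∑ i, (w i y - z i) / (2 * σ) * gau n σ (wv w y - z) * X.h.Rv w x b i y) =
      fun y => ∑ i, ∑ j, (f i y * X.h.Γ (a j i) (w j) y + f i y * a j i y * X.h.Δ (w j) y) := by
    funext y
    refine Finset.sum_congr rfl fun i _ => ?_
    rw [HS.Rv, Finset.mul_sum]
    refine Finset.sum_congr rfl fun j _ => ?_
    simp only [hf, ha, hG]
    ring
  have I12 : ∀ i j, Integrable
      (fun y => f i y * X.h.Γ (a j i) (w j) y + f i y * a j i y * X.h.Δ (w j) y) X.h.m :=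
    fun i j => (I1 i j).add (I2 i j)
  rw [eR, integral_finset_sum _ fun i _ => integrable_finset_sum _ fun j _ => I12 i j]
  simp only [integral_finset_sum _ fun j _ => I12 _ j, key]
  simp only [Finset.sum_neg_distrib]
  simp only [← integral_finset_sum _ fun j _ => I3 _ j]
  rw [← integral_finset_sum _ fun i _ => integrable_finset_sum _ fun j _ => I3 i j, ← integral_neg]
  simp only [HS.P, kerP]
  refine integral_congr_ae (Eventually.of_forall fun y => ?_)
  have h := e3a_alg (X.h.Gm w y) (fun i j => X.h.Γ_comm _ _ y) (fun i => w i y - z i) σ (G y)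
  have hn : ‖wv w y - z‖ ^ 2 = ∑ i, (w i y - z i) ^ 2 := by
    rw [EuclideanSpace.real_norm_sq_eq]; rfl
  have e2 : ∑ i, ∑ j, a j i y * X.h.Γ (f i) (w j) y = X.h.H b x y * ∑ i, ∑ j,
      (X.h.Gm w y).adjugate j i * ((w i y - z i) / (2 * σ) *
        -(G y * ∑ l, (w l y - z l) / (2 * σ) * X.h.Gm w y l j) +
      G y * (1 / (2 * σ) * X.h.Gm w y i j)) := by
    rw [Finset.mul_sum]
    refine Finset.sum_congr rfl fun i _ => ?_
    rw [Finset.mul_sum]
    refine Finset.sum_congr rfl fun j _ => ?_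
    rw [hfΓ]
    simp only [ha, Raw.Gm, Matrix.of_apply]
    ring
  beta_reduce at h ⊢
  rw [e2, h, hn]
  simp only [hG]
  ring

lemma e3b_meas : Measurable fun p : ℝ × E n => gau n p.1 p.2 := by
  unfold gau
  fun_prop

lemma e3b_bd {σ s : ℝ} (hσ : 0 < σ) (hs : σ ≤ s) (v : E n) :
    |gau n s v * (‖v‖ ^ 2 / (4 * s ^ 2) - n / (2 * s))| ≤
      (4 * Real.pi * σ) ^ (-(n : ℝ) / 2) * ((1 + n) / σ) := by
  have hs0 : 0 < s := hσ.trans_le hs
  have hp := Real.pi_pos
  have h1 : (4 * Real.pi * s) ^ (-(n : ℝ) / 2) ≤ (4 * Real.pi * σ) ^ (-(n : ℝ) / 2) :=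
    Real.rpow_le_rpow_of_nonpos (by positivity) (by gcongr)
      (div_nonpos_of_nonpos_of_nonneg (neg_nonpos.2 (Nat.cast_nonneg n)) zero_le_two)
  set u := ‖v‖ ^ 2 / (4 * s) with hu
  have hu0 : 0 ≤ u := by positivity
  have he : Real.exp (-‖v‖ ^ 2 / (4 * s)) = Real.exp (-u) := by rw [hu, neg_div]
  have h2 : Real.exp (-u) * u ≤ 1 := by
    rw [Real.exp_neg, inv_mul_le_iff₀ (Real.exp_pos u), mul_one]
    linarith [Real.add_one_le_exp u]
  have h3 : Real.exp (-u) ≤ 1 := Real.exp_le_one_iff.2 (by linarith)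
  have h4 : |Real.exp (-u) * (‖v‖ ^ 2 / (4 * s ^ 2) - n / (2 * s))| ≤ (1 + n) / σ := by
    have e : Real.exp (-u) * (‖v‖ ^ 2 / (4 * s ^ 2) - n / (2 * s)) =
        (Real.exp (-u) * u - Real.exp (-u) * n / 2) / s := by
      rw [hu]; field_simp
    rw [e, abs_div, abs_of_pos hs0]
    have hn : (0 : ℝ) ≤ n := Nat.cast_nonneg n
    have h5 := (Real.exp_pos (-u)).le
    refine div_le_div₀ (by positivity) (abs_le.2 ⟨?_, ?_⟩) hσ hs
    · nlinarith [mul_nonneg h5 hu0, mul_le_mul_of_nonneg_right h3 hn]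
    · nlinarith [mul_nonneg h5 hn]
  rw [gau, he, mul_assoc, abs_mul, abs_of_nonneg (Real.rpow_nonneg (by positivity) _)]
  exact mul_le_mul h1 h4 (abs_nonneg _) (Real.rpow_nonneg (by positivity) _)

lemma e3b_D (X : Sp.{u} n) (w : Fin n → X.M → ℝ) (x : X.M) {b B η : ℝ} (hS : X.h.Spl w x b B η) :
    Continuous (fun y => X.h.H b x y * (X.h.Gm w y).det) ∧
      Integrable (fun y => X.h.H b x y * (X.h.Gm w y).det) X.h.m ∧
      ∀ y, 0 ≤ X.h.H b x y * (X.h.Gm w y).det := by
  have hc := X.h.toGeo.S_cont (X.h.toGeo.S_det hS.S).1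
  have h0 : ∀ y, 0 ≤ (X.h.Gm w y).det := fun y => (X.h.toGeo.Gm_psd w y).det_nonneg
  refine ⟨(X.h.H_cont hS.ok.1 x).mul hc, X.h.int_bdd hS.ok.1 x hc.aestronglyMeasurable (B := 1 + η)
    fun y => ?_, fun y => mul_nonneg (X.h.H_nonneg hS.ok.1 x y) (h0 y)⟩
  rw [abs_of_nonneg (h0 y)]
  exact hS.det y

lemma e3b_P (X : Sp.{u} n) (w : Fin n → X.M → ℝ) (x : X.M) (b : ℝ) (G : X.M → ℝ) :
    X.h.P b (fun y => G y * (X.h.Gm w y).det) x =
      ∫ y, X.h.H b x y * (X.h.Gm w y).det * G y ∂X.h.m :=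
  integral_congr_ae (Eventually.of_forall fun y => by ring)

lemma e3b_ftc (X : Sp.{u} n) (w : Fin n → X.M → ℝ) (x : X.M) {b B η : ℝ} (hS : X.h.Spl w x b B η)
    {σ τ : ℝ} (hσ : 0 < σ) (hστ : σ ≤ τ) (z : E n) :
    X.h.P b (fun y => gau n τ (wv w y - z) * (X.h.Gm w y).det) x -
        X.h.P b (fun y => gau n σ (wv w y - z) * (X.h.Gm w y).det) x =
      ∫ s in Ioc σ τ, ∫ y, ∑ i, (w i y - z i) / (2 * s) * gau n s (wv w y - z) * X.h.Rv w x b i y
        ∂X.h.m := by
  have := X.h.fin_cpt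
  obtain ⟨hc, hi, h0⟩ := e3b_D X w x hS
  have hW := X.h.toGeo.wv_cont hS.S
  have hg : ∀ t, 0 < t → Integrable (fun y => X.h.H b x y * (X.h.Gm w y).det * gau n t (wv w y - z))
      X.h.m := fun t ht =>
    hi.mul_bdd ((gau_cont t).comp (hW.sub continuous_const)).aestronglyMeasurable
      (Eventually.of_forall fun y => by
        rw [Real.norm_of_nonneg (gau_pos ht _).le]; exact gau_le ht _)
  have hint : Integrable (Function.uncurry fun s y => X.h.H b x y * (X.h.Gm w y).det *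
      (gau n s (wv w y - z) * (‖wv w y - z‖ ^ 2 / (4 * s ^ 2) - n / (2 * s))))
      ((volume.restrict (uIoc σ τ)).prod X.h.m) := by
    rw [uIoc_of_le hστ]
    refine ((integrable_const ((4 * Real.pi * σ) ^ (-(n : ℝ) / 2) * ((1 + n) / σ))).mul_prod hi).mono'
      ?_ ?_
    · have h1 : Measurable fun p : ℝ × X.M => wv w p.2 - z :=
        (hW.measurable.comp measurable_snd).sub_const z
      refine ((hc.measurable.comp measurable_snd).mul
        ((e3b_meas.comp (measurable_fst.prodMk h1)).mul ?_)).aestronglyMeasurable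
      fun_prop
    · rw [Measure.restrict_prod_eq_prod_univ]
      refine (ae_restrict_mem (measurableSet_Ioc.prod MeasurableSet.univ)).mono fun p hp => ?_
      simp only [Function.uncurry]
      rw [norm_mul, Real.norm_of_nonneg (h0 _), mul_comm]
      exact mul_le_mul_of_nonneg_right (e3b_bd hσ hp.1.1.le _) (h0 _)
  rw [e3b_P, e3b_P, ← integral_sub (hg τ (hσ.trans_le hστ)) (hg σ hσ),
    ← intervalIntegral.integral_of_le hστ]
  rw [← intervalIntegral.integral_congr (f := fun s => ∫ y, X.h.H b x y * (X.h.Gm w y).det *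
      (gau n s (wv w y - z) * (‖wv w y - z‖ ^ 2 / (4 * s ^ 2) - n / (2 * s))) ∂X.h.m) fun s hs => by
    rw [uIcc_of_le hστ] at hs
    rw [← adj_div X w x hS (hσ.trans_le hs.1) z, e3b_P], intervalIntegral_integral_swap hint]
  refine integral_congr_ae (Eventually.of_forall fun y => ?_)
  have h2 : ∫ s in σ..τ, gau n s (wv w y - z) * (‖wv w y - z‖ ^ 2 / (4 * s ^ 2) - n / (2 * s)) =
      gau n τ (wv w y - z) - gau n σ (wv w y - z) := by
    have hd : ∀ s ∈ uIcc σ τ, HasDerivAt (fun s => gau n s (wv w y - z))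
        (gau n s (wv w y - z) * (‖wv w y - z‖ ^ 2 / (4 * s ^ 2) - n / (2 * s))) s := fun s hs => by
      rw [uIcc_of_le hστ] at hs
      exact dt_gau z (hσ.trans_le hs.1) y
    refine intervalIntegral.integral_eq_sub_of_hasDerivAt hd (ContinuousOn.intervalIntegrable ?_)
    refine ContinuousOn.mul (fun s hs => (hd s hs).continuousAt.continuousWithinAt) ?_
    rw [uIcc_of_le hστ]
    refine (continuousOn_const.div (by fun_prop) fun s hs => ?_).sub
      (continuousOn_const.div (by fun_prop) fun s hs => ?_)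
    · have := hσ.trans_le hs.1; positivity
    · have := hσ.trans_le hs.1; positivity
  simp only [intervalIntegral.integral_const_mul, h2]
  ring

/-- Recipe: `m σ z = P b (gau σ (w - z) det) x`; `m τ z - m σ z = ∫_σ^τ ∂m` (FTC under the integral, `dt_gau`), `adj_div`, Tonelli in `z` with `gau_abs_int`. -/
theorem push_bv (n : ℕ) (B : ℝ) : ∃ C : ℝ, 0 < C ∧ ∀ (X : Sp.{u} n) (w : Fin n → X.M → ℝ) (x : X.M)
    {b η : ℝ}, X.h.Spl w x b B η → ∀ {σ τ : ℝ}, 0 < σ → σ ≤ τ →
      ∫⁻ z, ENNReal.ofReal |X.h.P b (fun y => gau n τ (wv w y - z) * (X.h.Gm w y).det) x -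
        X.h.P b (fun y => gau n σ (wv w y - z) * (X.h.Gm w y).det) x| ≤
        ENNReal.ofReal (C * Real.sqrt (τ / b)) := by
  obtain ⟨C₁, hC₁, h₁⟩ := Rv_int.{u} n B
  obtain ⟨C₂, hC₂, h₂⟩ := gau_abs_int n
  refine ⟨C₂ * ((n + 1) * C₁), by positivity, fun X w x b η hS σ τ hσ hστ => ?_⟩
  have := X.h.fin_cpt
  have hb := hS.ok.1
  have hW := X.h.toGeo.wv_cont hS.S
  obtain ⟨-, hR⟩ := h₁ X w x hS
  set ρ : X.M → ℝ := fun y => ∑ i, |X.h.Rv w x b i y| with hρ
  have hρc : Continuous ρ := continuous_finsetSum _ fun i _ => (hR i).1.abs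
  have hρ0 : ∀ y, 0 ≤ ρ y := fun y => Finset.sum_nonneg fun i _ => abs_nonneg _
  have hρi : ∫⁻ y, ENNReal.ofReal (ρ y) ∂X.h.m ≤ ENNReal.ofReal ((n + 1) * C₁ / Real.sqrt b) := by
    rw [← ofReal_integral_eq_lintegral_ofReal (integrable_finsetSum _ fun i _ => (hR i).2.1.abs)
      (Eventually.of_forall hρ0), integral_finsetSum _ fun i _ => (hR i).2.1.abs]
    refine ENNReal.ofReal_le_ofReal ((Finset.sum_le_sum fun i _ => (hR i).2.2).trans ?_)
    rw [Finset.sum_const, Finset.card_univ, Fintype.card_fin, nsmul_eq_mul, mul_div_assoc]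
    gcongr
    linarith
  let G : E n → ℝ → X.M → ℝ≥0∞ := fun z s y =>
    ENNReal.ofReal (ρ y / (2 * s)) * ENNReal.ofReal (‖wv w y - z‖ * gau n s (wv w y - z))
  have hG : Measurable fun p : (E n × ℝ) × X.M => G p.1.1 p.1.2 p.2 := by
    have h1 : Measurable fun p : (E n × ℝ) × X.M => wv w p.2 - p.1.1 :=
      (hW.measurable.comp measurable_snd).sub measurable_fst.fst
    exact ((hρc.measurable.comp measurable_snd).div (measurable_fst.snd.const_mul 2)).ennreal_ofReal.mul
      (h1.norm.mul (e3b_meas.comp (measurable_fst.snd.prodMk h1))).ennreal_ofReal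
  have step1 : ∀ z, ENNReal.ofReal |X.h.P b (fun y => gau n τ (wv w y - z) * (X.h.Gm w y).det) x -
      X.h.P b (fun y => gau n σ (wv w y - z) * (X.h.Gm w y).det) x| ≤
      ∫⁻ s in Ioc σ τ, ∫⁻ y, G z s y ∂X.h.m := by
    intro z
    rw [e3b_ftc X w x hS hσ hστ z, ← Real.norm_eq_abs, ofReal_norm]
    refine (enorm_integral_le_lintegral_enorm _).trans (setLIntegral_mono' measurableSet_Ioc
      fun s hs => (enorm_integral_le_lintegral_enorm _).trans (lintegral_mono fun y => ?_))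
    have hs0 : 0 < s := hσ.trans hs.1
    have hg := (gau_pos hs0 (wv w y - z)).le
    simp only [G]
    rw [← ofReal_norm, ← ENNReal.ofReal_mul (by have := hρ0 y; positivity)]
    refine ENNReal.ofReal_le_ofReal ((norm_sum_le _ _).trans ?_)
    rw [hρ, Finset.sum_div, Finset.sum_mul]
    refine Finset.sum_le_sum fun i _ => ?_
    have h3 : |w i y - z i| ≤ ‖wv w y - z‖ := PiLp.norm_apply_le (wv w y - z) i
    rw [norm_mul, norm_mul, norm_div, Real.norm_of_nonneg hg, Real.norm_of_nonneg (by positivity : 0 ≤ 2 * s),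
      Real.norm_eq_abs, Real.norm_eq_abs]
    calc |w i y - z i| / (2 * s) * gau n s (wv w y - z) * |X.h.Rv w x b i y|
        ≤ ‖wv w y - z‖ / (2 * s) * gau n s (wv w y - z) * |X.h.Rv w x b i y| := by gcongr
      _ = _ := by ring
  refine (lintegral_mono step1).trans ?_
  rw [lintegral_lintegral_swap (hG.lintegral_prod_right' (ν := X.h.m)).aemeasurable]
  have step2 : ∀ s ∈ Ioc σ τ, ∫⁻ z, ∫⁻ y, G z s y ∂X.h.m ≤
      ENNReal.ofReal (C₂ * ((n + 1) * C₁) / Real.sqrt b * (1 / (2 * Real.sqrt s))) := by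
    intro s hs
    have hs0 : 0 < s := hσ.trans hs.1
    have hG' : Measurable (Function.uncurry fun z y => G z s y) := by
      have h1 : Measurable fun p : E n × X.M => wv w p.2 - p.1 :=
        (hW.measurable.comp measurable_snd).sub measurable_fst
      exact ((hρc.measurable.comp measurable_snd).div_const (2 * s)).ennreal_ofReal.mul
        (h1.norm.mul ((gau_cont s).measurable.comp h1)).ennreal_ofReal
    rw [lintegral_lintegral_swap hG'.aemeasurable]
    calc ∫⁻ y, ∫⁻ z, G z s y ∂volume ∂X.h.m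
        ≤ ∫⁻ y, ENNReal.ofReal (C₂ * Real.sqrt s / (2 * s)) * ENNReal.ofReal (ρ y) ∂X.h.m := by
          refine lintegral_mono fun y => ?_
          simp only [G]
          rw [lintegral_const_mul' _ _ ENNReal.ofReal_ne_top,
            ← ofReal_integral_eq_lintegral_ofReal (h₂ hs0 _).1 (Eventually.of_forall fun z =>
              mul_nonneg (norm_nonneg _) (gau_pos hs0 _).le),
            ← ENNReal.ofReal_mul (by have := hρ0 y; positivity), ← ENNReal.ofReal_mul (by positivity)]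
          refine ENNReal.ofReal_le_ofReal ((mul_le_mul_of_nonneg_left (h₂ hs0 _).2
            (by have := hρ0 y; positivity)).trans (le_of_eq (by ring)))
      _ ≤ ENNReal.ofReal (C₂ * Real.sqrt s / (2 * s)) * ENNReal.ofReal ((n + 1) * C₁ / Real.sqrt b) := by
          rw [lintegral_const_mul' _ _ ENNReal.ofReal_ne_top]
          gcongr
      _ = _ := by
          rw [← ENNReal.ofReal_mul (by positivity)]
          congr 1
          have h4 := Real.sqrt_pos.2 hs0
          have h5 := Real.sqrt_pos.2 hb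
          field_simp
          rw [Real.sq_sqrt hs0.le]
  refine (setLIntegral_mono' measurableSet_Ioc step2).trans ?_
  have hcont : ContinuousOn (fun s : ℝ => 1 / (2 * Real.sqrt s)) (Icc σ τ) :=
    continuousOn_const.div (by fun_prop) fun s hs => by
      have := Real.sqrt_pos.2 (hσ.trans_le hs.1); positivity
  rw [← ofReal_integral_eq_lintegral_ofReal
    (((hcont.integrableOn_compact isCompact_Icc).mono_set Ioc_subset_Icc_self).const_mul _)
    (Eventually.of_forall fun s => by positivity), integral_const_mul,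
    ← intervalIntegral.integral_of_le hστ,
    intervalIntegral.integral_eq_sub_of_hasDerivAt (f := fun s => Real.sqrt s)
      (fun s hs => by
        rw [uIcc_of_le hστ] at hs
        exact Real.hasDerivAt_sqrt (hσ.trans_le hs.1).ne')
      (ContinuousOn.intervalIntegrable (by rwa [uIcc_of_le hστ]))]
  refine ENNReal.ofReal_le_ofReal ?_
  rw [Real.sqrt_div (hσ.le.trans hστ), div_mul_eq_mul_div, mul_div_assoc]
  gcongr
  linarith [Real.sqrt_nonneg σ]

lemma e3b_int (X : Sp.{u} n) (w : Fin n → X.M → ℝ) (x : X.M) {b B η : ℝ} (hS : X.h.Spl w x b B η)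
    {σ : ℝ} (hσ : 0 < σ) : Integrable (Function.uncurry fun (z : E n) y =>
      X.h.H b x y * (X.h.Gm w y).det * gau n σ (wv w y - z)) (volume.prod X.h.m) := by
  have := X.h.fin_cpt
  obtain ⟨hc, hi, h0⟩ := e3b_D X w x hS
  have hW := X.h.toGeo.wv_cont hS.S
  have hm : Continuous (Function.uncurry fun (z : E n) y =>
      X.h.H b x y * (X.h.Gm w y).det * gau n σ (wv w y - z)) :=
    (hc.comp continuous_snd).mul ((gau_cont σ).comp ((hW.comp continuous_snd).sub continuous_fst))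
  refine (integrable_prod_iff' hm.aestronglyMeasurable).2
    ⟨Eventually.of_forall fun y => (gau_int_one hσ (wv w y)).1.const_mul
      (X.h.H b x y * (X.h.Gm w y).det), hi.congr (Eventually.of_forall fun y => ?_)⟩
  simp only [Function.uncurry, Function.comp_apply, Pi.mul_apply, Pi.sub_apply, norm_mul,
    Real.norm_of_nonneg (gau_pos hσ _).le, integral_const_mul, (gau_int_one hσ _).2, mul_one]
  rw [← norm_mul, Real.norm_of_nonneg (h0 y)]

lemma e3b_mass {C₂ : ℝ} (h₂ : ∀ {t : ℝ}, 0 < t → ∀ v : E n,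
      Integrable (fun z => ‖v - z‖ * gau n t (v - z)) ∧
        ∫ z, ‖v - z‖ * gau n t (v - z) ≤ C₂ * Real.sqrt t) {σ r : ℝ} (hσ : 0 < σ) (hr : 0 < r)
    {S : Set (E n)} (hS : MeasurableSet S) {v : E n} (hv : ball v r ⊆ S) :
    1 - C₂ * Real.sqrt σ / r ≤ ∫ z in S, gau n σ (v - z) := by
  have h1 := integral_add_compl hS (gau_int_one hσ v).1
  rw [(gau_int_one hσ v).2] at h1
  have h3 : ∫ z in Sᶜ, gau n σ (v - z) ≤ ∫ z in Sᶜ, ‖v - z‖ * gau n σ (v - z) / r := by
    refine setIntegral_mono_on (gau_int_one hσ v).1.integrableOn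
      ((h₂ hσ v).1.div_const r).integrableOn hS.compl fun z hz => ?_
    have h4 : r ≤ ‖v - z‖ := by
      by_contra h
      exact hz (hv (by rw [mem_ball, dist_comm, dist_eq_norm]; exact not_le.1 h))
    rw [le_div_iff₀ hr, mul_comm]
    exact mul_le_mul_of_nonneg_right h4 (gau_pos hσ _).le
  have h5 : ∫ z in Sᶜ, ‖v - z‖ * gau n σ (v - z) / r ≤ ∫ z, ‖v - z‖ * gau n σ (v - z) / r :=
    setIntegral_le_integral ((h₂ hσ v).1.div_const r) (Eventually.of_forall fun z =>
      div_nonneg (mul_nonneg (norm_nonneg _) (gau_pos hσ _).le) hr.le)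
  simp only [integral_div] at h3 h5
  have h6 := div_le_div_of_nonneg_right (h₂ hσ v).2 hr.le
  linarith

/-- Recipe: `S = thickening r (w '' K)`; `∫_S m σ = ∫ det H (∫_S gau σ (w y - z) dz) ≥ (1 - ε) ∫_K det H` for small `σ` (Chebyshev with `gau_abs_int`), `det ≥ 0`; so
`∫_K det H ≤ ∫_S m τ + C √(τ/b)`; `r → 0` (`m τ` is bounded and continuous, `⋂ thickenings = w '' K` compact). -/
theorem push_le (n : ℕ) (B : ℝ) : ∃ C : ℝ, 0 < C ∧ ∀ (X : Sp.{u} n) (w : Fin n → X.M → ℝ) (x : X.M)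
    {b η : ℝ}, X.h.Spl w x b B η → ∀ {τ : ℝ}, 0 < τ → ∀ {K : Set X.M}, IsCompact K →
      ∫ y in K, X.h.H b x y * (X.h.Gm w y).det ∂X.h.m ≤
        (∫ z in wv w '' K, X.h.P b (fun y => gau n τ (wv w y - z) * (X.h.Gm w y).det) x) +
          C * Real.sqrt (τ / b) := by
  obtain ⟨C, hC, h₁⟩ := push_bv.{u} n B
  obtain ⟨C₂, hC₂, h₂⟩ := gau_abs_int n
  refine ⟨C, hC, fun X w x b η hS τ hτ K hK => ?_⟩
  have := X.h.fin_cpt
  obtain ⟨hc, hi, h0⟩ := e3b_D X w x hS
  have hW := X.h.toGeo.wv_cont hS.S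
  have hm : ∀ {σ : ℝ}, 0 < σ →
      Integrable fun z => X.h.P b (fun y => gau n σ (wv w y - z) * (X.h.Gm w y).det) x := fun hσ => by
    simp only [e3b_P]
    exact (e3b_int X w x hS hσ).integral_prod_left
  have key : ∀ r : ℝ, 0 < r → ∫ y in K, X.h.H b x y * (X.h.Gm w y).det ∂X.h.m ≤
      (∫ z in cthickening r (wv w '' K),
        X.h.P b (fun y => gau n τ (wv w y - z) * (X.h.Gm w y).det) x) + C * Real.sqrt (τ / b) := by
    intro r hr
    have hSm : MeasurableSet (cthickening r (wv w '' K)) := isClosed_cthickening.measurableSet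
    have hσ : ∀ σ ∈ Ioc 0 τ, (1 - C₂ * Real.sqrt σ / r) *
        ∫ y in K, X.h.H b x y * (X.h.Gm w y).det ∂X.h.m ≤
        (∫ z in cthickening r (wv w '' K),
          X.h.P b (fun y => gau n τ (wv w y - z) * (X.h.Gm w y).det) x) + C * Real.sqrt (τ / b) := by
      intro σ hσ
      have hI : Integrable (Function.uncurry fun (z : E n) y =>
          X.h.H b x y * (X.h.Gm w y).det * gau n σ (wv w y - z))
          ((volume.restrict (cthickening r (wv w '' K))).prod X.h.m) := by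
        rw [Measure.restrict_prod_eq_prod_univ]
        exact (e3b_int X w x hS hσ.1).integrableOn
      have hI2 := hI.integral_prod_right
      simp only [Function.uncurry, integral_const_mul] at hI2
      have e1 : ∫ z in cthickening r (wv w '' K),
          X.h.P b (fun y => gau n σ (wv w y - z) * (X.h.Gm w y).det) x =
          ∫ y, X.h.H b x y * (X.h.Gm w y).det *
            (∫ z in cthickening r (wv w '' K), gau n σ (wv w y - z)) ∂X.h.m := by
        simp only [e3b_P]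
        rw [integral_integral_swap hI]
        simp only [integral_const_mul]
      have e2 : (1 - C₂ * Real.sqrt σ / r) * ∫ y in K, X.h.H b x y * (X.h.Gm w y).det ∂X.h.m ≤
          ∫ y, X.h.H b x y * (X.h.Gm w y).det *
            (∫ z in cthickening r (wv w '' K), gau n σ (wv w y - z)) ∂X.h.m := by
        rw [← integral_const_mul]
        refine (setIntegral_mono_on (hi.const_mul _).integrableOn hI2.integrableOn hK.measurableSet
          fun y hy => ?_).trans (setIntegral_le_integral hI2 (Eventually.of_forall fun y =>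
            mul_nonneg (h0 y) (integral_nonneg fun z => (gau_pos hσ.1 _).le)))
        rw [mul_comm]
        exact mul_le_mul_of_nonneg_left (e3b_mass h₂ hσ.1 hr hSm
          (ball_subset_closedBall.trans (closedBall_subset_cthickening (mem_image_of_mem _ hy) r)))
          (h0 y)
      have hd := ((hm hτ).sub (hm hσ.1)).abs
      have e3 : ∫ z, |X.h.P b (fun y => gau n τ (wv w y - z) * (X.h.Gm w y).det) x -
          X.h.P b (fun y => gau n σ (wv w y - z) * (X.h.Gm w y).det) x| ≤ C * Real.sqrt (τ / b) := by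
        rw [← ENNReal.ofReal_le_ofReal_iff (by positivity)]
        exact (ofReal_integral_eq_lintegral_ofReal hd (Eventually.of_forall fun z => abs_nonneg _)).trans_le
          (h₁ X w x hS hσ.1 hσ.2)
      have e4 := setIntegral_le_integral (s := cthickening r (wv w '' K)) hd
        (Eventually.of_forall fun z => abs_nonneg _)
      have e5 := abs_integral_le_integral_abs (μ := volume.restrict (cthickening r (wv w '' K)))
        (f := fun z => X.h.P b (fun y => gau n τ (wv w y - z) * (X.h.Gm w y).det) x -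
          X.h.P b (fun y => gau n σ (wv w y - z) * (X.h.Gm w y).det) x)
      rw [integral_sub (hm hτ).integrableOn (hm hσ.1).integrableOn, e1] at e5
      simp only [Pi.sub_apply] at e4
      linarith [neg_abs_le ((∫ z in cthickening r (wv w '' K),
        X.h.P b (fun y => gau n τ (wv w y - z) * (X.h.Gm w y).det) x) -
        ∫ y, X.h.H b x y * (X.h.Gm w y).det *
            (∫ z in cthickening r (wv w '' K), gau n σ (wv w y - z)) ∂X.h.m)]
    have hlim : Tendsto (fun σ => (1 - C₂ * Real.sqrt σ / r) *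
        ∫ y in K, X.h.H b x y * (X.h.Gm w y).det ∂X.h.m) (𝓝[>] 0)
        (𝓝 (∫ y in K, X.h.H b x y * (X.h.Gm w y).det ∂X.h.m)) := by
      refine Tendsto.mono_left (Continuous.tendsto' (by fun_prop) _ _ (by simp)) nhdsWithin_le_nhds
    exact le_of_tendsto hlim (mem_of_superset (Ioc_mem_nhdsGT hτ) hσ)
  have hL : IsCompact (wv w '' K) := hK.image hW
  have hlim := tendsto_setIntegral_of_antitone (μ := volume)
    (s := fun k : ℕ => cthickening (1 / ((k : ℝ) + 1)) (wv w '' K))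
    (fun k => isClosed_cthickening.measurableSet)
    (fun k l hkl => cthickening_mono (Nat.one_div_le_one_div hkl) _) ⟨0, (hm hτ).integrableOn⟩
  have hint : ⋂ k : ℕ, cthickening (1 / ((k : ℝ) + 1)) (wv w '' K) = wv w '' K := by
    refine Subset.antisymm (fun z hz => ?_) (subset_iInter fun k => self_subset_cthickening _)
    rw [← hL.isClosed.closure_eq, closure_eq_iInter_cthickening]
    simp only [mem_iInter] at hz ⊢
    intro δ hδ
    obtain ⟨k, hk⟩ := exists_nat_one_div_lt hδ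
    exact cthickening_mono hk.le _ (hz k)
  rw [hint] at hlim
  exact ge_of_tendsto' (hlim.add_const _) fun k => key _ Nat.one_div_pos_of_nat

end Crest.Agent.R247
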