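import Crest.Agent.R247.Defs3

/-! # Row 247, E4: a global supersolution built from normal coordinates (auxiliary file for `mom_small`) -/

set_option autoImplicit false
set_option linter.unusedSectionVars false
set_option linter.unusedVariables false
open MeasureTheory Filter Set Metric Matrix
open scoped ENNReal NNReal Topology ContDiff
open Crest.GeometryTopology.CoordMetric

noncomputable section
namespace Crest.Agent.R247
universe u

variable {n : ℕ} {M : Type u} [MetricSpace M] [MeasurableSpace M] [BorelSpace M] [ProperSpace M]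

/-- a concave truncation of the identity -/
lemma e4c_theta {ε : ℝ} (hε : 0 < ε) : ∃ θ : ℝ → ℝ, ContDiff ℝ ∞ θ ∧ (∀ t, 0 ≤ t → t ≤ ε → θ t = t) ∧
    (∀ t, 0 ≤ t → t * deriv θ t ≤ θ t ∧ θ t ≤ t) ∧
    (∀ t, 0 ≤ deriv θ t ∧ deriv θ t ≤ 1 ∧ deriv (deriv θ) t ≤ 0) ∧
    ∀ t, 2 * ε < t → deriv θ t = 0 ∧ deriv (deriv θ) t = 0 := by
  set ψ : ℝ → ℝ := fun s => Real.smoothTransition (2 - s / ε) with hψ
  have hs : ContDiff ℝ ∞ ψ := Real.smoothTransition.contDiff.comp (contDiff_const.sub (contDiff_id.div_const ε))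
  have hc := hs.continuous
  have ha : Antitone ψ := fun s t hst => Real.smoothTransition.monotone (by gcongr)
  have hd : ∀ t, HasDerivAt (fun t => ∫ s in (0 : ℝ)..t, ψ s) (ψ t) t := fun t =>
    (hc.integral_hasStrictDerivAt 0 t).hasDerivAt
  have he : deriv (fun t => ∫ s in (0 : ℝ)..t, ψ s) = ψ := funext fun t => (hd t).deriv
  have h0 : ∀ t, 2 * ε ≤ t → ψ t = 0 := fun t ht =>
    Real.smoothTransition.zero_of_nonpos (by rw [sub_nonpos, le_div_iff₀ hε]; exact ht)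
  refine ⟨fun t => ∫ s in (0 : ℝ)..t, ψ s, ?_, fun t h1 h2 => ?_, fun t ht => ⟨?_, ?_⟩, fun t => ?_, fun t ht => ?_⟩
  · rw [contDiff_infty_iff_deriv, he]
    exact ⟨fun t => (hd t).differentiableAt, hs⟩
  · have : ∫ s in (0 : ℝ)..t, ψ s = ∫ s in (0 : ℝ)..t, (1 : ℝ) := by
      refine intervalIntegral.integral_congr fun s hs => Real.smoothTransition.one_of_one_le ?_
      rw [uIcc_of_le h1] at hs
      have : s / ε ≤ 1 := (div_le_one hε).2 (hs.2.trans h2)
      linarith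
    simpa using this
  · rw [he]
    have := intervalIntegral.integral_mono_on (μ := volume) ht (f := fun _ => ψ t) (g := ψ) intervalIntegrable_const
      (hc.intervalIntegrable _ _) fun s hs => ha hs.2
    simpa using this
  · have := intervalIntegral.integral_mono_on (μ := volume) ht (f := ψ) (g := fun _ => (1 : ℝ))
      (hc.intervalIntegrable _ _) intervalIntegrable_const fun s _ => Real.smoothTransition.le_one _
    simpa using this
  · rw [he]
    exact ⟨Real.smoothTransition.nonneg _, Real.smoothTransition.le_one _, ha.deriv_nonpos⟩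
  · rw [he]
    refine ⟨h0 t ht.le, ?_⟩
    have : ψ =ᶠ[𝓝 t] fun _ => 0 := (lt_mem_nhds ht).mono fun s hs => h0 s hs.le
    rw [this.deriv_eq, deriv_const]

lemma Geo.e4c_rho (g : Geo n M) (hn : 1 ≤ n) (x : M) {κ : ℝ} (hκ : 1 < κ) : ∃ (ρ : M → ℝ) (B : ℝ), g.S ρ ∧ ρ x = 0 ∧
    (∀ y, 0 ≤ ρ y ∧ ρ y ≤ B) ∧
    ∀ᶠ y in 𝓝 x, g.Γ ρ ρ y ≤ 4 * κ * ρ y ∧ g.Δ ρ y ≤ 2 * n * κ ∧ dist y x ^ 2 ≤ κ * ρ y := by
  obtain ⟨w, hw, hc, h0, h1, h2⟩ := g.normal_coord x
  choose B hB using fun i => (g.S_cont (hw i)).bounded_above_of_compact_support (hc i)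
  have hn' : (0 : ℝ) < n := by exact_mod_cast hn
  have hS : ∀ i ∈ Finset.univ, g.S fun y => w i y * w i y := fun i _ => g.S_mul (hw i) (hw i)
  have hρ := g.S_sum Finset.univ hS
  have hΓ : ∀ f y, g.Γ (fun y => ∑ i, w i y * w i y) f y = ∑ i, 2 * w i y * g.Γ (w i) f y := by
    intro f y
    rw [g.Γ_sum_left _ hS]
    exact Finset.sum_congr rfl fun i _ => by rw [g.Γ_mul_left (hw i) (hw i)]; ring
  refine ⟨fun y => ∑ i, w i y * w i y, ∑ i, B i * B i, hρ, by simp [h0], fun y =>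
    ⟨Finset.sum_nonneg fun i _ => mul_self_nonneg _, Finset.sum_le_sum fun i _ => ?_⟩, ?_⟩
  · rw [← abs_mul_abs_self]
    exact mul_self_le_mul_self (abs_nonneg _) (hB i y)
  have e1 : ∀ᶠ y in 𝓝 x, ∀ i j, |g.Γ (w i) (w j) y - g.Γ (w i) (w j) x| < (κ - 1) / n :=
    eventually_all.2 fun i => eventually_all.2 fun j =>
      (Metric.tendsto_nhds.1 ((g.S_cont (g.S_Γ (hw i) (hw j))).tendsto x)) _ (div_pos (sub_pos.2 hκ) hn')
  have e2 : ∀ᶠ y in 𝓝 x, g.Δ (fun y => ∑ i, w i y * w i y) y < 2 * n * κ := by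
    refine ((g.S_cont (g.S_Δ hρ)).tendsto x).eventually (gt_mem_nhds ?_)
    rw [g.Δ_sum _ hS]
    simp only [g.Δ_mul (hw _) (hw _), h0, h1, if_true]
    simp only [zero_mul, zero_add, mul_one, Finset.sum_const, Finset.card_univ, Fintype.card_fin, nsmul_eq_mul]
    nlinarith
  filter_upwards [e1, e2, h2 (κ - 1) (sub_pos.2 hκ)] with y k1 k2 k3
  refine ⟨?_, k2.le, by simpa only [add_sub_cancel, sq] using k3⟩
  rw [hΓ]
  simp only [g.Γ_comm (w _) fun y => ∑ i, w i y * w i y, hΓ, Finset.mul_sum]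
  have k4 : ∀ i j, 2 * w i y * (2 * w j y * g.Γ (w j) (w i) y) ≤
      (if j = i then 4 * (w i y * w j y) else 0) + 2 * ((κ - 1) / n) * (w i y * w i y + w j y * w j y) := by
    intro i j
    have a := abs_lt.1 (k1 j i)
    rw [h1] at a
    have b : ∀ d : ℝ, -((κ - 1) / n) < d → d < (κ - 1) / n →
        4 * (w i y * w j y) * d ≤ 2 * ((κ - 1) / n) * (w i y * w i y + w j y * w j y) := by
      intro d d1 d2
      nlinarith [mul_nonneg (sub_nonneg.2 d2.le) (sq_nonneg (w i y + w j y)),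
        mul_nonneg (sub_nonneg.2 d1.le) (sq_nonneg (w i y - w j y))]
    have c := b _ a.1 a.2
    split_ifs at c ⊢ <;> linarith
  refine (Finset.sum_le_sum fun i _ => Finset.sum_le_sum fun j _ => k4 i j).trans (le_of_eq ?_)
  simp only [Finset.sum_add_distrib, Finset.sum_ite_eq', Finset.mem_univ, if_true, mul_add, Finset.sum_const,
    Finset.card_univ, Fintype.card_fin, nsmul_eq_mul, ← Finset.mul_sum]
  field_simp
  ring

lemma Geo.e4c_r (g : Geo n M) (hn : 1 ≤ n) (x : M) {κ : ℝ} (hκ : 1 < κ) : ∃ (r : M → ℝ) (B : ℝ), g.S r ∧ r x = 0 ∧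
    (∀ y, 0 ≤ r y ∧ r y ≤ B ∧ g.Γ r r y ≤ 4 * κ * r y ∧ g.Δ r y ≤ 2 * n * κ) ∧
    ∀ᶠ y in 𝓝 x, dist y x ^ 2 ≤ κ * r y := by
  obtain ⟨ρ, B, hρ, h0, hB, he⟩ := g.e4c_rho hn x hκ
  obtain ⟨r₀, hr₀, hb⟩ := Metric.eventually_nhds_iff.1 he
  obtain ⟨χ, hχ, -, χ1, χ2, χ3⟩ := g.bump x hr₀
  have hκ0 : 0 < κ := by linarith
  set T := r₀ ^ 2 / (4 * κ) with hT
  have hT0 : 0 < T := by positivity
  obtain ⟨θ, θ1, θ2, θ3, θ4, θ5⟩ := e4c_theta (ε := T / 4) (by positivity)
  set ρ' : M → ℝ := fun y => ρ y + T * (1 - χ y) with hρ'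
  have hS : g.S ρ' := g.S_add hρ (g.S_cmul T (g.S_sub (g.S_const 1) hχ))
  have hle : ∀ y, ρ y ≤ ρ' y := fun y => le_add_of_nonneg_right (mul_nonneg hT0.le (sub_nonneg.2 (χ1 y).2))
  have hp : ∀ y, 0 ≤ ρ' y := fun y => (hB y).1.trans (hle y)
  have hin : ∀ y, dist y x < r₀ / 2 → ρ' y = ρ y := fun y hy => by simp [hρ', χ2 y hy.le]
  have hθ0 : ∀ y, 0 ≤ θ (ρ' y) := fun y => (mul_nonneg (hp y) (θ4 _).1).trans (θ3 _ (hp y)).1
  have hΓ : ∀ y, g.Γ (fun y => θ (ρ' y)) (fun y => θ (ρ' y)) y = deriv θ (ρ' y) * (deriv θ (ρ' y) * g.Γ ρ' ρ' y) := by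
    intro y
    rw [g.Γ_comp_left hS isOpen_univ θ1.contDiffOn (fun _ => mem_univ _), g.Γ_comm,
      g.Γ_comp_left hS isOpen_univ θ1.contDiffOn (fun _ => mem_univ _)]
  have hΔ := g.Δ_comp hS isOpen_univ θ1.contDiffOn (fun _ => mem_univ _)
  have hnκ : 0 ≤ 2 * (n : ℝ) * κ := by positivity
  refine ⟨fun y => θ (ρ' y), B + T, g.S_comp hS isOpen_univ θ1.contDiffOn (fun _ => mem_univ _), ?_,
    fun y => ⟨hθ0 y, (θ3 _ (hp y)).2.trans ?_, ?_⟩, ?_⟩
  · change θ (ρ' x) = 0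
    rw [hin x (by simpa using hr₀), h0, θ2 0 le_rfl (by positivity)]
  · exact add_le_add (hB y).2 (mul_le_of_le_one_right hT0.le (by linarith [(χ1 y).1]))
  · rw [hΓ, hΔ]
    rcases lt_or_ge (dist y x) (r₀ / 2) with hy | hy
    · have e : ρ' =ᶠ[𝓝 y] ρ :=
        (((continuous_id.dist continuous_const).tendsto y).eventually (gt_mem_nhds hy)).mono fun z hz => hin z hz
      have e1 : g.Γ ρ' ρ' y = g.Γ ρ ρ y := by simp only [Raw.Γ, g.grad_congr e]
      have e2 : g.Δ ρ' y = g.Δ ρ y := by simp only [Raw.Δ, g.hess_congr e]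
      obtain ⟨k1, k2, -⟩ := hb (hy.trans (half_lt_self hr₀))
      obtain ⟨a1, a2, a3⟩ := θ4 (ρ' y)
      have a4 := (θ3 _ (hp y)).1
      have a5 := g.Γ_nonneg ρ y
      rw [e1, e2]
      rw [← hin y hy] at k1
      constructor
      · calc _ ≤ 1 * (deriv θ (ρ' y) * (4 * κ * ρ' y)) := by gcongr
          _ = 4 * κ * (ρ' y * deriv θ (ρ' y)) := by ring
          _ ≤ _ := by gcongr
      · nlinarith [mul_le_mul_of_nonneg_left k2 a1, mul_nonneg (neg_nonneg.2 a3) a5,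
          mul_le_of_le_one_left hnκ a2]
    · have k : 2 * (T / 4) < ρ' y := by
        refine lt_of_lt_of_le (by linarith : 2 * (T / 4) < T) ?_
        rcases lt_or_ge (dist y x) r₀ with hy' | hy'
        · refine le_trans ?_ (hle y)
          rw [hT, div_le_iff₀ (by positivity)]
          nlinarith [(hb hy').2.2]
        · have : χ y = 0 := image_eq_zero_of_notMem_tsupport fun h => not_lt.2 hy' (χ3 h)
          simp only [hρ', this, sub_zero, mul_one]
          linarith [(hB y).1]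
      rw [(θ5 _ k).1, (θ5 _ k).2]
      simp only [zero_mul, add_zero]
      exact ⟨mul_nonneg (by positivity) (hθ0 y), hnκ⟩
  · have e1 : ∀ᶠ y in 𝓝 x, ρ y < T / 4 :=
      ((g.S_cont hρ).tendsto x).eventually (gt_mem_nhds (by rw [h0]; positivity))
    filter_upwards [he, e1, ball_mem_nhds x (half_pos hr₀)] with y k1 k2 k3
    rw [hin y k3, θ2 _ (hB y).1 k2.le]
    exact k1.2.2

/-- monotonicity for bounded subsolutions -/
lemma HS.e4c_mono (h : HS n M) {F : ℝ → M → ℝ} {a b B : ℝ} (hF : h.Sm (Ioi 0) F) (ha : 0 < a)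
    (hab : a ≤ b) (hL : ∀ s ∈ Icc a b, ∀ y, 0 ≤ dt F s y + h.Δ (F s) y)
    (hB : ∀ s ∈ Icc a b, ∀ y, |F s y| ≤ B ∧ h.Γ (F s) (F s) y ≤ B) (x : M) :
    h.P a (F a) x ≤ h.P b (F b) x := by
  have hs : Icc a b ⊆ Ioi 0 := fun s hs => ha.trans_le hs.1
  have he := h.H_Sm x
  have c1 := h.Sm_cont hF
  have c2 := h.Sm_cont he
  have c3 := h.Sm_cont (h.Sm_Γ isOpen_Ioi hF hF)
  have hi : ∀ s ∈ Icc a b, Integrable (fun y => h.H s x y * F s y) h.m := fun s hs' =>
    h.int_bdd (hs hs') x (h.S_cont (h.Sm_slice hF (hs hs'))).aestronglyMeasurable fun y => (hB s hs' y).1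
  have hB0 : 0 ≤ B + Real.sqrt B :=
    add_nonneg ((abs_nonneg _).trans (hB a ⟨le_rfl, hab⟩ x).1) (Real.sqrt_nonneg _)
  have key := (h.duh2 (G := fun _ _ => 0) isOpen_Ioi he hF hab hs (hi a ⟨le_rfl, hab⟩) (hi b ⟨hab, le_rfl⟩)
    (h.STI_of_le (Q' := fun s y => h.H s x y * (B + Real.sqrt B)) hs (c2.abs.mul (c1.abs.add c3.sqrt))
      (h.STI_of_bound (B := B + Real.sqrt B) hs (c2.mul continuousOn_const) fun s hs' => ?_)
      fun s hs' y => ?_) continuousOn_const (integrable_zero _ _ _)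
    (fun s _ y => (add_zero _).symm) fun s hs' y => ?_).2
  · rw [← sub_nonneg]
    refine le_of_le_of_eq ?_ key.symm
    simp only [integral_zero, intervalIntegral.integral_zero, add_zero]
    refine intervalIntegral.integral_nonneg hab fun s hs' => integral_nonneg fun y => ?_
    have := h.H_heat (hs hs') x y
    simp only [this, sub_self, mul_zero, zero_add]
    exact mul_nonneg (h.H_nonneg (hs hs') x y) (hL s hs' y)
  · refine ⟨(h.H_int (hs hs') x).1.mul_const _, ?_⟩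
    have e : ∀ y, |h.H s x y * (B + Real.sqrt B)| = h.H s x y * (B + Real.sqrt B) := fun y =>
      abs_of_nonneg (mul_nonneg (h.H_nonneg (hs hs') x y) hB0)
    simp only [e]
    rw [integral_mul_const]
    exact mul_le_of_le_one_left hB0 (h.H_int (hs hs') x).2
  · rw [abs_of_nonneg (by positivity), abs_of_nonneg (h.H_nonneg (hs hs') x y)]
    exact mul_le_mul_of_nonneg_left (add_le_add (hB s hs' y).1 (Real.sqrt_le_sqrt (hB s hs' y).2))
      (h.H_nonneg (hs hs') x y)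
  · have := h.H_heat (hs hs') x y
    simp only [this, sub_self, mul_zero, zero_add]
    exact mul_nonneg (h.H_nonneg (hs hs') x y) (hL s hs' y)

lemma e4c_d (m l : ℝ) : ContDiff ℝ ∞ (fun t => -Real.exp (m * t - l)) ∧
    (∀ t, deriv (fun t => -Real.exp (m * t - l)) t = -(m * Real.exp (m * t - l))) ∧
    ∀ t, deriv (deriv fun t => -Real.exp (m * t - l)) t = -(m * (m * Real.exp (m * t - l))) := by
  have h : ∀ t, HasDerivAt (fun t => Real.exp (m * t - l)) (m * Real.exp (m * t - l)) t := fun t => by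
    simpa only [id, mul_one, mul_comm (Real.exp _)] using (((hasDerivAt_id t).const_mul m).sub_const l).exp
  have h1 : ∀ t, deriv (fun t => -Real.exp (m * t - l)) t = -(m * Real.exp (m * t - l)) := fun t =>
    (h t).fun_neg.deriv
  refine ⟨by fun_prop, h1, fun t => ?_⟩
  rw [funext h1]
  exact ((h t).const_mul m).fun_neg.deriv

/-- the Gaussian moment of `r` -/
lemma HS.e4c_mom (h : HS n M) {r : M → ℝ} {x : M} {B κ q a : ℝ} (hr : h.S r) (h0 : r x = 0) (hκ : 0 < κ)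
    (hB : ∀ y, 0 ≤ r y ∧ r y ≤ B ∧ h.Γ r r y ≤ 4 * κ * r y ∧ h.Δ r y ≤ 2 * n * κ) (hq : 0 < q) (hq1 : κ * q < 1)
    (ha : 0 < a) : h.P a (fun y => Real.exp (q * r y / (4 * a))) x ≤ (1 - κ * q) ^ (-(n : ℝ) / 2) := by
  have hq2 : 0 < 1 - κ * q := sub_pos.2 hq1
  set σ₀ := a / q * (1 - κ * q) with hσ₀
  have hσ : 0 < σ₀ := by positivity
  have hσa : σ₀ + κ * a = a / q := by rw [hσ₀]; field_simp; ring
  set μ : ℝ → ℝ := fun s => (4 * (σ₀ + κ * s))⁻¹ with hμ
  set l : ℝ → ℝ := fun s => n / 2 * Real.log (σ₀ + κ * s) with hl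
  have hp : ∀ s, 0 ≤ s → 0 < σ₀ + κ * s := fun s hs => by positivity
  have hμ0 : ∀ s, 0 ≤ s → 0 < μ s ∧ μ s ≤ μ 0 ∧ l 0 ≤ l s := fun s hs => by
    have := hp s hs
    have h2 : σ₀ + κ * 0 ≤ σ₀ + κ * s := by gcongr
    have h3 := hp 0 le_rfl
    refine ⟨by positivity, ?_, ?_⟩
    · simp only [hμ]; gcongr
    · simp only [hl]; gcongr
  have dμ : ∀ s, 0 ≤ s → HasDerivAt μ (-(4 * κ * μ s ^ 2)) s := fun s hs => by
    have := (((((hasDerivAt_id s).const_mul κ).const_add σ₀).const_mul 4).fun_inv (by simpa using (hp s hs).ne'))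
    refine this.congr_deriv ?_
    simp only [hμ, id]
    field_simp
  have dl : ∀ s, 0 ≤ s → HasDerivAt l (2 * n * κ * μ s) s := fun s hs => by
    have := ((((hasDerivAt_id s).const_mul κ).const_add σ₀).log (by simpa using (hp s hs).ne')).const_mul ((n : ℝ) / 2)
    refine this.congr_deriv ?_
    simp only [hμ, id]
    field_simp
    ring
  set F : ℝ → M → ℝ := fun s y => -Real.exp (μ s * r y - l s) with hF
  have sμ : ContDiffOn ℝ ∞ μ (Ioi 0) :=
    ContDiffOn.inv (by fun_prop) fun s hs => (mul_pos four_pos (hp s (le_of_lt hs))).ne'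
  have sl : ContDiffOn ℝ ∞ l (Ioi 0) :=
    contDiffOn_const.mul (ContDiffOn.log (by fun_prop) fun s hs => (hp s (le_of_lt hs)).ne')
  have hS : h.Sm (Ioi 0) F := h.Sm_neg (h.Sm_comp' (h.Sm_sub (h.Sm_mul (h.Sm_time sμ) (Geo.S.Sm hr _))
    (h.Sm_time sl)) Real.contDiff_exp)
  have hB0 : 0 ≤ B := (hB x).1.trans (hB x).2.1
  set E₀ := Real.exp (μ 0 * B - l 0) with hE₀
  have hE : ∀ s, 0 ≤ s → ∀ y, Real.exp (μ s * r y - l s) ≤ E₀ := fun s hs y =>
    Real.exp_le_exp.2 (sub_le_sub (mul_le_mul (hμ0 s hs).2.1 (hB y).2.1 (hB y).1 (hμ0 0 le_rfl).1.le) (hμ0 s hs).2.2)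
  have habs : ∀ s, 0 ≤ s → ∀ y, |F s y| ≤ E₀ := fun s hs y => by
    rw [hF, abs_neg, abs_of_pos (Real.exp_pos _)]
    exact hE s hs y
  have hmono : ∀ s, 0 < s → s ≤ a → h.P s (F s) x ≤ h.P a (F a) x := by
    intro s₀ hs₀ hsa
    refine h.e4c_mono (B := max E₀ ((μ 0 * E₀) ^ 2 * (4 * κ * B))) hS hs₀ hsa (fun s hs y => ?_)
      (fun s hs y => ⟨(habs s (hs₀.le.trans hs.1) y).trans (le_max_left _ _), le_trans ?_ (le_max_right _ _)⟩) x
    · have hs0 := hs₀.le.trans hs.1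
      obtain ⟨d1, d2, d3⟩ := e4c_d (μ s) (l s)
      have e1 : dt F s y = _ := ((((dμ s hs0).mul_const (r y)).sub (dl s hs0)).exp.fun_neg).deriv
      have e2 := h.Δ_comp hr isOpen_univ d1.contDiffOn (fun _ => mem_univ _) y
      rw [e1, show h.Δ (F s) y = _ from e2, d2, d3]
      obtain ⟨-, -, b1, b2⟩ := hB y
      have m0 := (hμ0 s hs0).1
      have k : 0 < μ s * Real.exp (μ s * r y - l s) := by positivity
      have k1 := mul_le_mul_of_nonneg_left b1 (mul_pos m0 k).le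
      have k2 := mul_le_mul_of_nonneg_left b2 k.le
      simp only [Pi.sub_apply]
      nlinarith
    · have hs0 := hs₀.le.trans hs.1
      obtain ⟨d1, d2, -⟩ := e4c_d (μ s) (l s)
      have e : h.Γ (F s) (F s) y = (μ s * Real.exp (μ s * r y - l s)) ^ 2 * h.Γ r r y := by
        have e1 := h.Γ_comp_left hr isOpen_univ d1.contDiffOn (fun _ => mem_univ _) (F s) y
        have e2 := h.Γ_comp_left hr isOpen_univ d1.contDiffOn (fun _ => mem_univ _) r y
        rw [show h.Γ (F s) (F s) y = _ from e1, h.Γ_comm r, show h.Γ (F s) r y = _ from e2, d2]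
        ring
      rw [e]
      have m0 := (hμ0 s hs0).1
      have := h.Γ_nonneg r y
      gcongr
      · exact (hμ0 s hs0).2.1
      · exact hE s hs0 y
      · exact (hB y).2.2.1.trans (by gcongr; exact (hB y).2.1)
  have hc : ContinuousAt (fun p : ℝ × M => F p.1 p.2) (0, x) :=
    ((((dμ 0 le_rfl).continuousAt.comp_of_eq continuousAt_fst rfl).mul
      ((h.S_cont hr).continuousAt.comp continuousAt_snd)).sub
        ((dl 0 le_rfl).continuousAt.comp_of_eq continuousAt_fst rfl)).rexp.neg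
  have hlim := h.P_tendsto (F := F) (x := x) (B := E₀) one_pos
    (fun s hs => h.S_cont (h.Sm_slice hS hs.1)) (fun s hs => habs s hs.1.le)
    (hc.tendsto.mono_left (by rw [nhds_prod_eq]; exact prod_mono nhdsWithin_le_nhds le_rfl))
  have hle : F 0 x ≤ h.P a (F a) x :=
    le_of_tendsto hlim (by filter_upwards [Ioc_mem_nhdsGT ha] with s hs using hmono s hs.1 hs.2)
  have e : F a = fun y => -Real.exp (-l a) * Real.exp (q * r y / (4 * a)) := by
    funext y
    simp only [hF, hμ, hσa]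
    rw [neg_mul, ← Real.exp_add]
    congr 2
    field_simp
    ring
  rw [e, h.P_cmul] at hle
  simp only [hF, h0, mul_zero, zero_sub, neg_mul, neg_le_neg_iff] at hle
  have e2 : Real.exp (-l 0) = Real.exp (-l a) * (1 - κ * q) ^ (-(n : ℝ) / 2) := by
    rw [Real.rpow_def_of_pos hq2, ← Real.exp_add]
    congr 1
    simp only [hl, hσa, mul_zero, add_zero]
    rw [hσ₀, Real.log_mul (by positivity) hq2.ne']
    ring
  rw [e2] at hle
  exact le_of_mul_le_mul_left hle (Real.exp_pos _)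

theorem e4c_main (hn : 2 ≤ n) (X : Sp.{u} n) (x : X.M) {η : ℝ} (hη : 0 < η) :
    ∀ᶠ a in 𝓝[>] (0 : ℝ), X.h.P a (fun y => Real.exp ((1 - p2 n) * dist x y ^ 2 / (4 * a))) x ≤
      p2 n ^ (-(n : ℝ) / 2) + η := by
  have hn' : (2 : ℝ) ≤ n := by exact_mod_cast hn
  set c := 1 - p2 n with hc
  have hc0 : 0 < c := by rw [hc, p2, sub_sub_cancel]; positivity
  have hc1 : c ≤ 1 / 4 := by
    rw [hc, p2, sub_sub_cancel]
    exact one_div_le_one_div_of_le four_pos (by linarith)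
  have hp : p2 n = 1 - 1 * (c * 1) := by rw [hc]; ring
  have t1 : ContinuousAt (fun κ : ℝ => κ * (c * κ)) 1 := by fun_prop
  have t2 : ContinuousAt (fun κ : ℝ => (1 - κ * (c * κ)) ^ (-(n : ℝ) / 2)) 1 :=
    ContinuousAt.rpow_const (by fun_prop) (Or.inl (by linarith))
  obtain ⟨κ, ⟨k1, k2⟩, hκ⟩ := ((((t1.tendsto.eventually (gt_mem_nhds (show 1 * (c * 1) < 1 by linarith))).and
    (t2.tendsto.eventually (gt_mem_nhds (show _ < p2 n ^ (-(n : ℝ) / 2) + η / 2 by rw [← hp]; linarith)))).filter_mono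
      (nhdsWithin_le_nhds (s := Ioi 1))).and self_mem_nhdsWithin).exists
  have hκ1 : 1 < κ := hκ
  have hκ0 : 0 < κ := by linarith
  obtain ⟨r, B, hr, h0, hB, he⟩ := X.h.e4c_r (by omega) x hκ1
  obtain ⟨r₁, hr₁, hb⟩ := Metric.eventually_nhds_iff.1 he
  obtain ⟨C, hC, hG⟩ := moment_gauss.{u} n
  have t3 : Tendsto (fun a : ℝ => Real.exp (-(r₁ ^ 2 / 16) * a⁻¹) * C) (𝓝[>] 0) (𝓝 0) := by
    simpa only [zero_mul, Function.comp_def] using (Real.tendsto_exp_atBot.comp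
      (tendsto_inv_nhdsGT_zero.const_mul_atTop_of_neg (r := -(r₁ ^ 2 / 16)) (neg_lt_zero.2 (by positivity)))).mul_const C
  have t4 : ∀ᶠ a in 𝓝 (0 : ℝ), X.h.k * a < 1 / 10 :=
    ((continuous_const.mul continuous_id).tendsto 0).eventually (gt_mem_nhds (by simp))
  filter_upwards [t3.eventually (gt_mem_nhds (half_pos hη)), t4.filter_mono nhdsWithin_le_nhds,
    self_mem_nhdsWithin] with a a1 a2 a3
  have ha : 0 < a := a3
  obtain ⟨i1, i2⟩ := hG X ha a2.le x
  have i3 : Integrable (fun y => X.h.H a x y * Real.exp (c * κ * r y / (4 * a))) X.h.m := by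
    have := X.h.S_cont hr
    refine X.h.int_bdd ha x (by fun_prop) (B := Real.exp (c * κ * B / (4 * a))) fun y => ?_
    rw [abs_of_pos (Real.exp_pos _)]
    gcongr
    exact (hB y).2.1
  have i4 : Integrable (fun y => X.h.H a x y *
      (Real.exp (-(r₁ ^ 2 / 16) * a⁻¹) * Real.exp (dist x y ^ 2 / (8 * a)))) X.h.m := by
    simpa only [mul_left_comm] using i1.const_mul (Real.exp (-(r₁ ^ 2 / 16) * a⁻¹))
  have key := X.h.abs_P_le_P ha (x := x) (f := fun y => Real.exp (c * dist x y ^ 2 / (4 * a)))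
    (f' := fun y => Real.exp (c * κ * r y / (4 * a)) +
      Real.exp (-(r₁ ^ 2 / 16) * a⁻¹) * Real.exp (dist x y ^ 2 / (8 * a)))
    (by simp only [mul_add]; exact i3.add i4) fun y => by
      rw [abs_of_pos (Real.exp_pos _)]
      rcases lt_or_ge (dist y x) r₁ with hy | hy
      · refine le_add_of_le_of_nonneg ?_ (by positivity)
        rw [dist_comm, mul_assoc]
        gcongr
        exact hb hy
      · refine le_add_of_nonneg_of_le (by positivity) ?_
        rw [← Real.exp_add, dist_comm, Real.exp_le_exp]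
        have b1 : r₁ ^ 2 ≤ dist y x ^ 2 := by gcongr
        have b2 : c * dist y x ^ 2 ≤ 1 / 4 * dist y x ^ 2 := by gcongr
        rw [div_le_iff₀ (by positivity)]
        have b3 : (-(r₁ ^ 2 / 16) * a⁻¹ + dist y x ^ 2 / (8 * a)) * (4 * a) = -(r₁ ^ 2 / 4) + dist y x ^ 2 / 2 := by
          field_simp
          ring
        rw [b3]
        linarith
  rw [X.h.P_add i3 i4, X.h.P_cmul] at key
  have b4 := X.h.e4c_mom hr h0 hκ0 hB (mul_pos hc0 hκ0) k1 ha
  have b5 := mul_le_mul_of_nonneg_left i2 (Real.exp_pos (-(r₁ ^ 2 / 16) * a⁻¹)).le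
  linarith [le_abs_self (X.h.P a (fun y => Real.exp (c * dist x y ^ 2 / (4 * a))) x)]

end Crest.Agent.R247
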