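import Crest.Agent.R247.E3
import Crest.Agent.R247.E1
import Crest.Agent.R247.E4AuxC

/-! # Row 247, E4: the entropy of an almost split point is almost Euclidean; small times; the entropy bound -/

set_option autoImplicit false
set_option linter.unusedSectionVars false
set_option linter.unusedVariables false
open MeasureTheory Filter Set Metric Matrix
open scoped ENNReal NNReal Topology ContDiff
open Crest.GeometryTopology.CoordMetric

noncomputable section
namespace Crest.Agent.R247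
universe u

variable {n : ℕ}

lemma e4a_gau {b τ₀ A : ℝ} (hb : 0 < b) (hτ : 0 < τ₀) {v : E n} (hv : ‖v‖ ^ 2 ≤ A * b) :
    gau n (b + τ₀ * b) v ≤ Real.exp (τ₀ * A / 4) * gau n b (-v) := by
  have h1 : 0 < τ₀ * b := mul_pos hτ hb
  rw [gau, gau, norm_neg, mul_left_comm, ← Real.exp_add]
  refine mul_le_mul (Real.rpow_le_rpow_of_nonpos (by positivity) (by gcongr; linarith) ?_) (Real.exp_le_exp.2 ?_)
    (Real.exp_pos _).le (by positivity)
  · rw [neg_div]; exact neg_nonpos.2 (by positivity)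
  · have h2 : -‖v‖ ^ 2 / (4 * (b + τ₀ * b)) = -‖v‖ ^ 2 / (4 * b) + τ₀ / 4 * (‖v‖ ^ 2 / (b + τ₀ * b)) := by
      field_simp; ring
    have h3 : ‖v‖ ^ 2 / (b + τ₀ * b) ≤ A := by
      rw [div_le_iff₀ (by positivity)]
      have : 0 ≤ A := nonneg_of_mul_nonneg_left ((sq_nonneg _).trans hv) hb
      nlinarith
    rw [h2]
    nlinarith

/-- The set where `H` exceeds the Gaussian is small.  Recipe: `K` is compact, `w '' K ⊆ closedBall (w x) (√(nB) ρ √b)` (`wv_lip`), of volume `≤ C b^{n/2}`.  With `τ = τ₀ b`: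
`∫_K H - Cη ≤ ∫_K H det ≤ ∫_{w''K} m τ + C√τ₀` (`push_le`), `m τ z ≤ gau (b+τ) (w x - z) + Cη b^{-n/2}` (`spl_gau`), `gau (b+τ) v ≤ exp(τ₀ n B ρ²/4) gau b v` on that ball,
`∫_{w''K} gau b (w x - z) ≤ √(1+η) ∫_K gau b (w y - w x) ≤ √(1+η)/(1+α) ∫_K H` (`area_w`).  Choose `τ₀`, then `η`. -/
theorem bad_small (n : ℕ) (B α ρ ε : ℝ) (hα : 0 < α) (hε : 0 < ε) : ∃ η₀ : ℝ, 0 < η₀ ∧
    ∀ (X : Sp.{u} n) (w : Fin n → X.M → ℝ) (x : X.M) {b η : ℝ}, η ≤ η₀ → X.h.Spl w x b B η →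
      ∫ y in {y | dist x y ≤ ρ * Real.sqrt b ∧ (1 + α) * gau n b (wv w y - wv w x) ≤ X.h.H b x y},
        X.h.H b x y ∂X.h.m ≤ ε := by
  obtain ⟨C₂, hC₂, h₂⟩ := push_le.{u} n B
  set A := n * B * ρ ^ 2 with hA
  obtain ⟨τ₀, hτ, hτ0⟩ : ∃ τ₀ : ℝ, (1 + α) * (C₂ * Real.sqrt τ₀) + (Real.exp (τ₀ * A / 4) - 1) < α * ε / 2 ∧ 0 < τ₀ := by
    have hc : ContinuousAt (fun s : ℝ => (1 + α) * (C₂ * Real.sqrt s) + (Real.exp (s * A / 4) - 1)) 0 := by fun_prop
    exact (((hc.eventually (gt_mem_nhds (by simpa using half_pos (mul_pos hα hε)))).filter_mono nhdsWithin_le_nhds).and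
      (self_mem_nhdsWithin (s := Ioi 0))).exists
  obtain ⟨C₁, hC₁, h₁⟩ := spl_gau.{u} n B τ₀ hτ0
  set Ex := Real.exp (τ₀ * A / 4) with hEx
  have hE0 : 0 < Ex := Real.exp_pos _
  set Vo := Real.sqrt A ^ n * (volume (ball (0 : E n) 1)).toReal with hVo
  have hV0 : 0 ≤ Vo := by positivity
  refine ⟨α * ε / 2 / ((1 + α) * (C₁ * (1 + Vo)) + Ex), by positivity, fun X w x b η hη hS => ?_⟩
  have hb := hS.ok.1
  have hη0 := hS.η_pos
  have hB : 0 ≤ B := zero_le_one.trans hS.B_ge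
  have hA0 : 0 ≤ A := by positivity
  have hE1 : 1 ≤ Ex := Real.one_le_exp (by positivity)
  have := X.h.fin_cpt
  have hw := X.h.toGeo.wv_cont hS.S
  have hH := X.h.H_cont hb x
  have hHi := (X.h.H_int hb x).1
  have hH0 := X.h.H_nonneg hb x
  have hf : Continuous fun z : E n => gau n b (z - wv w x) := (gau_cont b).comp (by fun_prop)
  have hdc : Continuous fun y => (X.h.Gm w y).det := X.h.toGeo.S_cont (X.h.toGeo.S_det hS.S).1
  have hd0 : ∀ y, 0 ≤ (X.h.Gm w y).det := fun y => (X.h.toGeo.Gm_psd w y).det_nonneg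
  set K := {y | dist x y ≤ ρ * Real.sqrt b ∧ (1 + α) * gau n b (wv w y - wv w x) ≤ X.h.H b x y} with hK
  have hKc : IsCompact K := (isCompact_closedBall x (ρ * Real.sqrt b)).of_isClosed_subset
    ((isClosed_le (continuous_const.dist continuous_id) continuous_const).inter
      (isClosed_le (continuous_const.mul (hf.comp hw)) hH)) fun y hy => by rw [mem_closedBall, dist_comm]; exact hy.1
  have hKw := hKc.image hw
  set I := ∫ y in K, X.h.H b x y ∂X.h.m with hI
  have hI0 : 0 ≤ I := integral_nonneg hH0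
  have hI1 : I ≤ 1 := (setIntegral_le_integral hHi (Eventually.of_forall hH0)).trans (X.h.H_int hb x).2
  obtain ⟨-, -, e3⟩ := h₁ X w x hS 0
  have a1 : I - C₁ * η ≤ ∫ y in K, X.h.H b x y * (X.h.Gm w y).det ∂X.h.m := by
    have hi : Integrable (fun y => X.h.H b x y * |(X.h.Gm w y).det - 1|) X.h.m :=
      hHi.mul_bdd (c := 1) (hdc.sub continuous_const).abs.aestronglyMeasurable (Eventually.of_forall fun y => by
        rw [Real.norm_eq_abs, abs_abs, abs_le]
        constructor <;> linarith [hd0 y, hS.det y, hS.η_le])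
    have h3 := setIntegral_le_integral (s := K) hi (Eventually.of_forall fun y => mul_nonneg (hH0 y) (abs_nonneg _))
    have h4 : I ≤ ∫ y in K, (X.h.H b x y * (X.h.Gm w y).det + X.h.H b x y * |(X.h.Gm w y).det - 1|) ∂X.h.m :=
      integral_mono hHi.integrableOn (((hH.mul hdc).continuousOn.integrableOn_compact hKc).add hi.integrableOn)
        fun y => by nlinarith [hH0 y, neg_abs_le ((X.h.Gm w y).det - 1)]
    rw [integral_add (f := fun y => X.h.H b x y * (X.h.Gm w y).det) ((hH.mul hdc).continuousOn.integrableOn_compact hKc)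
      hi.integrableOn] at h4
    have h5 : ∫ y, X.h.H b x y * |(X.h.Gm w y).det - 1| ∂X.h.m ≤ C₁ * η := e3
    linarith
  have a2 := h₂ X w x hS (mul_pos hτ0 hb) hKc
  rw [mul_div_cancel_right₀ _ hb.ne'] at a2
  have hR : ∀ z ∈ wv w '' K, ‖wv w x - z‖ ^ 2 ≤ A * b := by
    rintro _ ⟨y, hy, rfl⟩
    have h3 := X.h.toGeo.wv_lip hS.S hB hS.bd x y
    rw [norm_sub_rev]
    calc _ ≤ (Real.sqrt (n * B) * (ρ * Real.sqrt b)) ^ 2 :=
          pow_le_pow_left₀ (norm_nonneg _) (h3.trans (mul_le_mul_of_nonneg_left hy.1 (Real.sqrt_nonneg _))) 2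
      _ = A * b := by rw [mul_pow, mul_pow, Real.sq_sqrt (by positivity), Real.sq_sqrt hb.le, hA]; ring
  have hvol : (volume (wv w '' K)).toReal * b ^ (-(n : ℝ) / 2) ≤ Vo := by
    have h3 : wv w '' K ⊆ closedBall (wv w x) (Real.sqrt (A * b)) := fun z hz => by
      rw [mem_closedBall, dist_comm, dist_eq_norm]
      exact Real.le_sqrt_of_sq_le (hR z hz)
    have h4 := ENNReal.toReal_mono (isCompact_closedBall _ _).measure_lt_top.ne (measure_mono (μ := volume) h3)
    rw [Measure.addHaar_closedBall _ _ (Real.sqrt_nonneg _), ENNReal.toReal_mul, ENNReal.toReal_ofReal (by positivity),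
      finrank_euclideanSpace_fin, Real.sqrt_mul hA0, mul_pow] at h4
    have h5 : Real.sqrt b ^ n * b ^ (-(n : ℝ) / 2) = 1 := by
      rw [Real.sqrt_eq_rpow, ← Real.rpow_mul_natCast hb.le, ← Real.rpow_add hb]
      convert Real.rpow_zero b using 2
      ring
    refine (mul_le_mul_of_nonneg_right h4 (by positivity)).trans (le_of_eq ?_)
    rw [hVo]
    linear_combination (Real.sqrt A ^ n * (volume (ball (0 : E n) 1)).toReal) * h5
  have hfi : IntegrableOn (fun z : E n => gau n b (z - wv w x)) (wv w '' K) := hf.continuousOn.integrableOn_compact hKw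
  have a3 : ∫ z in wv w '' K, X.h.P b (fun y => gau n (τ₀ * b) (wv w y - z) * (X.h.Gm w y).det) x ≤
      Ex * (∫ z in wv w '' K, gau n b (z - wv w x)) + C₁ * η * Vo := by
    have hci : IntegrableOn (fun _ : E n => C₁ * η * b ^ (-(n : ℝ) / 2)) (wv w '' K) :=
      continuous_const.continuousOn.integrableOn_compact hKw
    refine (integral_mono_of_nonneg (Eventually.of_forall fun z => X.h.P_nonneg hb x fun y =>
      mul_nonneg (gau_pos (mul_pos hτ0 hb) _).le (hd0 y)) ((hfi.const_mul Ex).add hci) ?_).trans ?_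
    · filter_upwards [ae_restrict_mem hKw.measurableSet] with z hz
      have h3 := (abs_le.1 (h₁ X w x hS z).2.1).2
      have h4 := e4a_gau hb hτ0 (hR z hz)
      rw [neg_sub] at h4
      simp only [Pi.add_apply]
      linarith
    · simp only [Pi.add_apply]
      rw [integral_add (hfi.const_mul Ex) hci, integral_const_mul, setIntegral_const, smul_eq_mul, measureReal_def]
      have := mul_le_mul_of_nonneg_left hvol (mul_pos hC₁ hη0).le
      linarith
  have a4 : (1 + α) * ∫ z in wv w '' K, gau n b (z - wv w x) ≤ (1 + η) * I := by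
    refine (mul_le_mul_of_nonneg_left (X.h.toGeo.area_w w hS.S hKc hf fun z => (gau_pos hb _).le)
      (by positivity)).trans ?_
    rw [hI, ← integral_const_mul, ← integral_const_mul]
    refine setIntegral_mono_on ((((hf.comp hw).mul hdc.sqrt).continuousOn.integrableOn_compact hKc).const_mul _)
      (hHi.integrableOn.const_mul _) hKc.measurableSet fun y hy => ?_
    have h3 : Real.sqrt (X.h.Gm w y).det ≤ 1 + η :=
      Real.sqrt_le_iff.2 ⟨by positivity, by nlinarith [hS.det y]⟩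
    rw [← mul_assoc, mul_comm (1 + η)]
    exact mul_le_mul hy.2 h3 (Real.sqrt_nonneg _) (hH0 y)
  rw [le_div_iff₀ (by positivity)] at hη
  have a5 : (1 + α) * I ≤ (1 + α) * (C₁ * η * (1 + Vo) + C₂ * Real.sqrt τ₀) + Ex * ((1 + η) * I) := by
    have h3 := mul_le_mul_of_nonneg_left a4 hE0.le
    have h4 : I ≤ C₁ * η * (1 + Vo) + C₂ * Real.sqrt τ₀ + Ex * ∫ z in wv w '' K, gau n b (z - wv w x) := by linarith
    have h5 := mul_le_mul_of_nonneg_left h4 (show 0 ≤ 1 + α by positivity)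
    linarith
  have a6 : (Ex * (1 + η) - 1) * I ≤ Ex * (1 + η) - 1 := mul_le_of_le_one_right (by nlinarith) hI1
  refine le_of_mul_le_mul_left ?_ hα
  linarith

theorem e4b_p2 {n : ℕ} (hn : 1 ≤ n) : 1 / 2 ≤ p2 n ∧ p2 n < 1 := by
  have h1 : (1 : ℝ) ≤ n := by exact_mod_cast hn
  have h2 : 1 / (2 * (n : ℝ)) ≤ 1 / 2 := one_div_le_one_div_of_le (by norm_num) (by linarith)
  have h3 : 0 < 1 / (2 * (n : ℝ)) := by positivity
  unfold p2
  constructor <;> linarith

/-- The truncated Gaussian representation of `exp ((1-p) ‖v‖² / 4b)`. -/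
theorem e4b_eucl (n : ℕ) {p : ℝ} (hp : 1 / 2 ≤ p) (hp1 : p < 1) {ε : ℝ} (hε : 0 < ε) :
    ∃ ρ : ℝ, 0 < ρ ∧ ∀ b : ℝ, 0 < b → ∃ c A : ℝ, 0 < A ∧
      (∀ v : E n, A * ∫ z in closedBall (0 : E n) (ρ * Real.sqrt b),
        gau n b (v - z) * Real.exp (c * ‖z‖ ^ 2) ≤
          min (Real.exp (ρ ^ 2 / 12)) (Real.exp ((1 - p) * ‖v‖ ^ 2 / (4 * b)))) ∧
      p ^ (-(n : ℝ) / 2) - ε ≤ A * ∫ z in closedBall (0 : E n) (ρ * Real.sqrt b),
        gau n (2 * b) (0 - z) * Real.exp (c * ‖z‖ ^ 2) ∧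
      A * ∫ z in closedBall (0 : E n) (ρ * Real.sqrt b),
        gau n (2 * b) (0 - z) * Real.exp (c * ‖z‖ ^ 2) ≤ p ^ (-(n : ℝ) / 2) := by
  set K : ℝ := (1 / 5 : ℝ) ^ (-(n : ℝ) / 2) with hK
  have hK0 : 0 < K := by positivity
  refine ⟨Real.sqrt (60 * K / ε), by positivity, fun b hb => ?_⟩
  set ρ := Real.sqrt (60 * K / ε) with hρ
  have hρ2 : ρ ^ 2 = 60 * K / ε := Real.sq_sqrt (by positivity)
  have hρ0 : 0 ≤ ρ := Real.sqrt_nonneg _
  have h2p : 0 < 2 - p := by linarith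
  have hp0 : 0 < p := by linarith
  set c : ℝ := (1 - p) / (4 * b * (2 - p)) with hc
  have hc0 : 0 ≤ c := by
    have : 0 ≤ 1 - p := by linarith
    positivity
  have hc12 : c ≤ 1 / (12 * b) := by
    rw [hc, div_le_div_iff₀ (by positivity) (by positivity)]
    nlinarith
  have e1 : 1 - 4 * b * c = (2 - p)⁻¹ := by
    rw [hc]; field_simp; ring
  have e2 : 1 - 4 * (2 * b) * c = p / (2 - p) := by
    rw [hc]; field_simp; ring
  have l1 : 4 * b * c < 1 := by
    have : 0 < (2 - p)⁻¹ := by positivity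
    linarith
  have l2 : 4 * (2 * b) * c < 1 := by
    have : 0 < p / (2 - p) := by positivity
    linarith
  set A : ℝ := (2 - p) ^ (-(n : ℝ) / 2) with hA
  have hA0 : 0 < A := by positivity
  have hA1 : A ≤ 1 := Real.rpow_le_one_of_one_le_of_nonpos (by linarith)
    (by have : (0 : ℝ) ≤ n := Nat.cast_nonneg n; linarith)
  have hsq : (ρ * Real.sqrt b) ^ 2 = ρ ^ 2 * b := by rw [mul_pow, Real.sq_sqrt hb.le]
  have hnn : ∀ {t : ℝ}, 0 < t → ∀ (v : E n) (c' : ℝ),
      0 ≤ᵐ[volume] fun z : E n => gau n t (v - z) * Real.exp (c' * ‖z‖ ^ 2) := fun ht v c' =>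
    Eventually.of_forall fun z => mul_nonneg (gau_pos ht _).le (Real.exp_pos _).le
  have hb2 : 0 < 2 * b := by positivity
  obtain ⟨i2, v2⟩ := gau_int (n := n) hb2 l2 0
  have hfull : A * ∫ z : E n, gau n (2 * b) (0 - z) * Real.exp (c * ‖z‖ ^ 2) = p ^ (-(n : ℝ) / 2) := by
    rw [v2, e2, norm_zero, Real.div_rpow hp0.le h2p.le, ← hA]
    simp only [ne_eq, OfNat.ofNat_ne_zero, not_false_eq_true, zero_pow, mul_zero, Real.exp_zero,
      mul_one]
    field_simp
  refine ⟨c, A, hA0, fun v => le_min ?_ ?_, ?_, ?_⟩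
  · obtain ⟨i1, v1⟩ := gau_int_one (n := n) hb v
    have h1 : ∫ z in closedBall (0 : E n) (ρ * Real.sqrt b), gau n b (v - z) * Real.exp (c * ‖z‖ ^ 2) ≤
        ∫ z in closedBall (0 : E n) (ρ * Real.sqrt b), gau n b (v - z) * Real.exp (ρ ^ 2 / 12) := by
      refine setIntegral_mono_on (gau_int hb l1 v).1.integrableOn (i1.mul_const _).integrableOn
        measurableSet_closedBall fun z hz => ?_
      refine mul_le_mul_of_nonneg_left (Real.exp_le_exp.2 ?_) (gau_pos hb _).le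
      have h2 : ‖z‖ ^ 2 ≤ ρ ^ 2 * b := by
        rw [← hsq]
        exact pow_le_pow_left₀ (norm_nonneg _) (mem_closedBall_zero_iff.1 hz) 2
      calc c * ‖z‖ ^ 2 ≤ 1 / (12 * b) * (ρ ^ 2 * b) := by gcongr
        _ = ρ ^ 2 / 12 := by field_simp
    have h2 : ∫ z in closedBall (0 : E n) (ρ * Real.sqrt b), gau n b (v - z) * Real.exp (ρ ^ 2 / 12) ≤
        Real.exp (ρ ^ 2 / 12) := by
      refine (setIntegral_le_integral (i1.mul_const _) (Eventually.of_forall fun z =>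
        mul_nonneg (gau_pos hb _).le (Real.exp_pos _).le)).trans_eq ?_
      rw [integral_mul_const, v1, one_mul]
    calc _ ≤ A * Real.exp (ρ ^ 2 / 12) := mul_le_mul_of_nonneg_left (h1.trans h2) hA0.le
      _ ≤ _ := mul_le_of_le_one_left (Real.exp_pos _).le hA1
  · obtain ⟨i1, v1⟩ := gau_int (n := n) hb l1 v
    refine (mul_le_mul_of_nonneg_left (setIntegral_le_integral i1 (hnn hb v c)) hA0.le).trans_eq ?_
    rw [v1, e1, Real.inv_rpow h2p.le, ← hA, ← mul_assoc, mul_inv_cancel₀ hA0.ne', one_mul]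
    congr 1
    rw [hc]
    field_simp
  · have l3 : 4 * (2 * b) * (1 / (10 * b)) < 1 := by
      have : 4 * (2 * b) * (1 / (10 * b)) = 4 / 5 := by field_simp; norm_num
      rw [this]; norm_num
    obtain ⟨i3, v3⟩ := gau_int (n := n) hb2 l3 0
    have e3 : 1 - 4 * (2 * b) * (1 / (10 * b)) = 1 / 5 := by field_simp; norm_num
    have h1 : ∫ z in (closedBall (0 : E n) (ρ * Real.sqrt b))ᶜ,
        gau n (2 * b) (0 - z) * Real.exp (c * ‖z‖ ^ 2) ≤
        ∫ z in (closedBall (0 : E n) (ρ * Real.sqrt b))ᶜ,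
          gau n (2 * b) (0 - z) * Real.exp (1 / (10 * b) * ‖z‖ ^ 2) * Real.exp (-(ρ ^ 2 / 60)) := by
      refine setIntegral_mono_on i2.integrableOn (i3.mul_const _).integrableOn
        measurableSet_closedBall.compl fun z hz => ?_
      rw [mul_assoc (gau _ _ _), ← Real.exp_add]
      refine mul_le_mul_of_nonneg_left (Real.exp_le_exp.2 ?_) (gau_pos hb2 _).le
      have h2 : ρ ^ 2 * b ≤ ‖z‖ ^ 2 := by
        rw [← hsq]
        exact pow_le_pow_left₀ (by positivity)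
          (not_le.1 fun h => hz (mem_closedBall_zero_iff.2 h)).le 2
      have h3 : ρ ^ 2 / 60 ≤ 1 / (60 * b) * ‖z‖ ^ 2 := by
        calc ρ ^ 2 / 60 = 1 / (60 * b) * (ρ ^ 2 * b) := by field_simp
          _ ≤ _ := by gcongr
      have h4 : c * ‖z‖ ^ 2 ≤ 1 / (12 * b) * ‖z‖ ^ 2 := by gcongr
      have h5 : 1 / (12 * b) * ‖z‖ ^ 2 = 1 / (10 * b) * ‖z‖ ^ 2 - 1 / (60 * b) * ‖z‖ ^ 2 := by
        field_simp; ring
      linarith
    have h2 : ∫ z in (closedBall (0 : E n) (ρ * Real.sqrt b))ᶜ,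
        gau n (2 * b) (0 - z) * Real.exp (1 / (10 * b) * ‖z‖ ^ 2) * Real.exp (-(ρ ^ 2 / 60)) ≤ ε := by
      refine (setIntegral_le_integral (i3.mul_const _) (Eventually.of_forall fun z => mul_nonneg
        (mul_nonneg (gau_pos hb2 _).le (Real.exp_pos _).le) (Real.exp_pos _).le)).trans ?_
      rw [integral_mul_const, v3, e3, ← hK, norm_zero]
      simp only [ne_eq, OfNat.ofNat_ne_zero, not_false_eq_true, zero_pow, mul_zero, Real.exp_zero,
        mul_one]
      have h3 : K / ε ≤ Real.exp (ρ ^ 2 / 60) := by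
        have := Real.add_one_le_exp (ρ ^ 2 / 60)
        have h4 : ρ ^ 2 / 60 = K / ε := by rw [hρ2]; ring
        linarith
      rw [Real.exp_neg, ← div_eq_mul_inv, div_le_iff₀ (Real.exp_pos _)]
      rwa [div_le_iff₀' hε] at h3
    have h3 := integral_add_compl (μ := volume)
      (measurableSet_closedBall (x := (0 : E n)) (ε := ρ * Real.sqrt b)) i2
    have h4 : A * ∫ z in (closedBall (0 : E n) (ρ * Real.sqrt b))ᶜ,
        gau n (2 * b) (0 - z) * Real.exp (c * ‖z‖ ^ 2) ≤ ε :=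
      (mul_le_mul_of_nonneg_left (h1.trans h2) hA0.le).trans (mul_le_of_le_one_left hε.le hA1)
    rw [← hfull, ← h3, mul_add]
    linarith
  · rw [← hfull]
    exact mul_le_mul_of_nonneg_left (setIntegral_le_integral i2 (hnn hb2 0 c)) hA0.le

theorem e4b_low (n : ℕ) {ρ b : ℝ} (hb : 0 < b) {z : E n}
    (hz : z ∈ closedBall (0 : E n) (ρ * Real.sqrt b)) :
    b ^ (-(n : ℝ) / 2) ≤ ((8 * Real.pi) ^ (-(n : ℝ) / 2))⁻¹ * Real.exp (ρ ^ 2 / 8) *
      gau n (2 * b) (0 - z) := by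
  have h2 : ‖z‖ ^ 2 ≤ ρ ^ 2 * b := by
    rw [← Real.sq_sqrt hb.le, ← mul_pow]
    exact pow_le_pow_left₀ (norm_nonneg _) (mem_closedBall_zero_iff.1 hz) 2
  have h8 : 0 < 8 * Real.pi := by positivity
  have h3 : 0 < (8 * Real.pi) ^ (-(n : ℝ) / 2) := by positivity
  have h4 : 1 ≤ Real.exp (ρ ^ 2 / 8) * Real.exp (-‖z‖ ^ 2 / (4 * (2 * b))) := by
    rw [← Real.exp_add]
    refine Real.one_le_exp ?_
    have : ‖z‖ ^ 2 / (4 * (2 * b)) ≤ ρ ^ 2 / 8 := by
      rw [div_le_iff₀ (by positivity)]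
      linarith
    rw [neg_div]
    linarith
  unfold gau
  rw [zero_sub, norm_neg, show 4 * Real.pi * (2 * b) = 8 * Real.pi * b by ring,
    Real.mul_rpow h8.le hb.le]
  calc b ^ (-(n : ℝ) / 2) = b ^ (-(n : ℝ) / 2) * 1 := (mul_one _).symm
    _ ≤ b ^ (-(n : ℝ) / 2) * (Real.exp (ρ ^ 2 / 8) * Real.exp (-‖z‖ ^ 2 / (4 * (2 * b)))) :=
      mul_le_mul_of_nonneg_left h4 (by positivity)
    _ = _ := by field_simp

/-- Recipe: `c = (1-p)/(4b)`, `τ = b`, `c' = c/(1 + 4τc)`; by `gau_int`, `exp(c‖v‖²) = (1-4τc')^{n/2} ∫ gau τ (v - z) exp(c'‖z‖²) dz ≥ f v :=` the same integral over `‖z‖ ≤ ρ√b`, and `f ≤ Mx`.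
`P b (f (w - w x)) x = (1-4τc')^{n/2} ∫_{‖z‖ ≤ ρ√b} P b (gau τ (w - (w x + z))) x · exp(c'‖z‖²)` (Fubini), `spl_gau` with `τ₀ = 1`, and
`(1-4τc')^{n/2} ∫ gau (2b) z exp(c'‖z‖²) = p^{-n/2}`; rescale `z = √b z'` to choose `ρ` independently of `b`. -/
theorem test_lower (n : ℕ) (hn : 1 ≤ n) (ε : ℝ) (hε : 0 < ε) : ∃ Mx : ℝ, 0 < Mx ∧ ∀ B : ℝ, ∃ η₀ : ℝ,
    0 < η₀ ∧ ∀ (X : Sp.{u} n) (w : Fin n → X.M → ℝ) (x : X.M) {b η : ℝ}, η ≤ η₀ → X.h.Spl w x b B η →
      p2 n ^ (-(n : ℝ) / 2) - ε ≤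
        X.h.P b (fun y => min Mx (Real.exp ((1 - p2 n) * ‖wv w y - wv w x‖ ^ 2 / (4 * b)))) x := by
  obtain ⟨hp, hp1⟩ := e4b_p2 hn
  obtain ⟨ρ, hρ, H⟩ := e4b_eucl n hp hp1 (half_pos hε)
  refine ⟨Real.exp (ρ ^ 2 / 12), Real.exp_pos _, fun B => ?_⟩
  obtain ⟨C, hC, hs⟩ := spl_gau.{u} n B 1 one_pos
  set K : ℝ := ((8 * Real.pi) ^ (-(n : ℝ) / 2))⁻¹ * Real.exp (ρ ^ 2 / 8) with hK
  have hK0 : 0 < K := by have := Real.pi_pos; positivity
  set Q : ℝ := p2 n ^ (-(n : ℝ) / 2) with hQ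
  have hQ0 : 0 < Q := Real.rpow_pos_of_pos (by linarith) _
  refine ⟨ε / 2 / (C * K * Q), by positivity, fun X w x b η hη hS => ?_⟩
  have hb := hS.ok.1
  obtain ⟨c, A, hA, h1, h2, h3⟩ := H b hb
  have := X.h.fin_cpt
  have hw := X.h.toGeo.wv_cont hS.S
  set D := closedBall (0 : E n) (ρ * Real.sqrt b) with hD
  have hHi := (X.h.H_int hb x).1
  have hce : Continuous fun z : E n => Real.exp (c * ‖z‖ ^ 2) := by fun_prop
  have hF : Integrable (Function.uncurry fun (y : X.M) (z : E n) => X.h.H b x y *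
      (gau n b (wv w y - (wv w x + z)) * Real.exp (c * ‖z‖ ^ 2)))
      (X.h.m.prod (volume.restrict D)) := by
    have i1 : IntegrableOn (fun z : E n => (4 * Real.pi * b) ^ (-(n : ℝ) / 2) *
        Real.exp (c * ‖z‖ ^ 2)) D :=
      (continuous_const.mul hce).continuousOn.integrableOn_compact (isCompact_closedBall _ _)
    refine (hHi.mul_prod i1).mono' ?_ (Eventually.of_forall fun q => ?_)
    · refine Continuous.aestronglyMeasurable ?_
      exact ((X.h.H_cont hb x).comp continuous_fst).mul (((gau_cont b).comp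
        ((hw.comp continuous_fst).sub (continuous_const.add continuous_snd))).mul
        (hce.comp continuous_snd))
    · have g0 := X.h.H_nonneg hb x q.1
      have g1 := (gau_pos hb (wv w q.1 - (wv w x + q.2))).le
      have g2 := gau_le hb (wv w q.1 - (wv w x + q.2))
      simp only [Function.uncurry]
      rw [Real.norm_of_nonneg (by positivity)]
      gcongr
  have hm : Integrable (fun y => X.h.H b x y * min (Real.exp (ρ ^ 2 / 12))
      (Real.exp ((1 - p2 n) * ‖wv w y - wv w x‖ ^ 2 / (4 * b)))) X.h.m := by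
    refine X.h.int_bdd hb x (Continuous.aestronglyMeasurable (by fun_prop))
      (B := Real.exp (ρ ^ 2 / 12)) fun y => ?_
    rw [abs_of_nonneg (le_min (Real.exp_pos _).le (Real.exp_pos _).le)]
    exact min_le_left _ _
  have s1 : A * ∫ y, (∫ z in D, X.h.H b x y *
      (gau n b (wv w y - (wv w x + z)) * Real.exp (c * ‖z‖ ^ 2))) ∂X.h.m ≤
      X.h.P b (fun y => min (Real.exp (ρ ^ 2 / 12))
        (Real.exp ((1 - p2 n) * ‖wv w y - wv w x‖ ^ 2 / (4 * b)))) x := by
    rw [← integral_const_mul]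
    refine integral_mono (hF.integral_prod_left.const_mul A) hm fun y => ?_
    have h4 := h1 (wv w y - wv w x)
    simp only [sub_sub] at h4
    show A * ∫ z in D, X.h.H b x y * _ ≤ X.h.H b x y * _
    rw [integral_const_mul, mul_left_comm]
    exact mul_le_mul_of_nonneg_left h4 (X.h.H_nonneg hb x y)
  have hcg : Continuous fun z : E n => gau n (2 * b) (0 - z) * Real.exp (c * ‖z‖ ^ 2) :=
    ((gau_cont _).comp (continuous_const.sub continuous_id)).mul hce
  have s2 : (1 - C * K * η) * ∫ z in D, gau n (2 * b) (0 - z) * Real.exp (c * ‖z‖ ^ 2) ≤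
      ∫ z in D, ∫ y, X.h.H b x y *
        (gau n b (wv w y - (wv w x + z)) * Real.exp (c * ‖z‖ ^ 2)) ∂X.h.m := by
    rw [← integral_const_mul]
    refine setIntegral_mono_on ((continuous_const.mul hcg).continuousOn.integrableOn_compact
      (isCompact_closedBall _ _)) hF.integral_prod_right measurableSet_closedBall fun z hz => ?_
    have h4 := (abs_le.1 (hs X w x hS (wv w x + z)).1).1
    rw [one_mul, ← two_mul, sub_add_cancel_left, ← zero_sub z] at h4
    have h5 := e4b_low n hb hz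
    rw [← hK] at h5
    have h6 : C * η * b ^ (-(n : ℝ) / 2) ≤ C * η * (K * gau n (2 * b) (0 - z)) :=
      mul_le_mul_of_nonneg_left h5 (mul_pos hC hS.η_pos).le
    have h7 : ∫ y, X.h.H b x y * (gau n b (wv w y - (wv w x + z)) * Real.exp (c * ‖z‖ ^ 2)) ∂X.h.m =
        X.h.P b (fun y => gau n b (wv w y - (wv w x + z))) x * Real.exp (c * ‖z‖ ^ 2) := by
      simp only [← mul_assoc]
      exact integral_mul_const _ _
    rw [h7, ← mul_assoc]
    refine mul_le_mul_of_nonneg_right ?_ (Real.exp_pos _).le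
    linarith
  rw [← integral_integral_swap hF] at s2
  have s3 := mul_le_mul_of_nonneg_left s2 hA.le
  have s4 : C * K * η * Q ≤ ε / 2 := by
    rw [le_div_iff₀ (by positivity)] at hη
    linarith
  have s5 := mul_le_mul_of_nonneg_left h3 (mul_pos (mul_pos hC hK0) hS.η_pos).le
  nlinarith

/-- Recipe: on `closedBall x (ρ√b)` minus the bad set, `H^p = H · H^{p-1} ≥ (1+α)^{p-1} (4πb)^{n(1-p)/2} H exp((1-p)‖w - w x‖²/4b)`; `test_lower`, `bad_small`, `P_tail`, `W_int` (integrability). -/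
theorem ren_lower (n : ℕ) (hn : 1 ≤ n) (B ε : ℝ) (hε : 0 < ε) : ∃ η₀ : ℝ, 0 < η₀ ∧
    ∀ (X : Sp.{u} n) (w : Fin n → X.M → ℝ) (x : X.M) {b η : ℝ}, η ≤ η₀ → X.h.Spl w x b B η →
      ren0 n - ε ≤ X.h.Ren x b := by
  obtain ⟨hp, hp1⟩ := e4b_p2 hn
  have hp0 : 0 < p2 n := by linarith
  have hq : 0 < 1 - p2 n := by linarith
  set Q : ℝ := p2 n ^ (-(n : ℝ) / 2) with hQ
  have hQ0 : 0 < Q := Real.rpow_pos_of_pos hp0 _
  set s : ℝ := Real.exp (-(ε / 2 * (1 - p2 n))) with hs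
  have hs0 : 0 < s := Real.exp_pos _
  have hs1 : s < 1 := Real.exp_lt_one_iff.2 (by have := mul_pos (half_pos hε) hq; linarith)
  have hε₁ : 0 < Q * (1 - s) / 3 := by have := sub_pos.2 hs1; positivity
  obtain ⟨Mx, hMx, ht⟩ := test_lower.{u} n hn _ hε₁
  obtain ⟨η₂, hη₂, ht⟩ := ht B
  have hε₂ : 0 < Q * (1 - s) / 3 / Mx := div_pos hε₁ hMx
  obtain ⟨ρ, hρ, hT⟩ := P_tail.{u} n 0 _ hε₂
  have hα : 0 < Real.exp (ε / 2) - 1 := sub_pos.2 (Real.one_lt_exp_iff.2 (half_pos hε))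
  obtain ⟨η₁, hη₁, hbad⟩ := bad_small.{u} n B _ ρ _ hα hε₂
  obtain ⟨CW, -, hW⟩ := W_int.{u} n hn 0
  refine ⟨min η₁ η₂, lt_min hη₁ hη₂, fun X w x b η hη hS => ?_⟩
  have hb := hS.ok.1
  have h1 := ht X w x (hη.trans (min_le_right _ _)) hS
  have h2 := hbad X w x (hη.trans (min_le_left _ _)) hS
  have h3 := hT X hb le_rfl (hS.ok.2.trans (by norm_num)) x
  rw [add_sub_cancel] at h2
  have hw := X.h.toGeo.wv_cont hS.S
  have hHc := X.h.H_cont hb x
  have hHi := (X.h.H_int hb x).1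
  set Z₁ := {y | dist x y ≤ ρ * Real.sqrt b ∧
    Real.exp (ε / 2) * gau n b (wv w y - wv w x) ≤ X.h.H b x y} with hZ₁
  set Z₂ := {y | ρ * Real.sqrt b ≤ dist x y} with hZ₂
  have m₁ : MeasurableSet Z₁ := by
    have c1 : Continuous fun y => dist x y := by fun_prop
    have c2 : Continuous fun y => Real.exp (ε / 2) * gau n b (wv w y - wv w x) :=
      continuous_const.mul ((gau_cont b).comp (hw.sub continuous_const))
    exact ((isClosed_le c1 continuous_const).inter (isClosed_le c2 hHc)).measurableSet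
  have m₂ : MeasurableSet Z₂ := (isClosed_le continuous_const (by fun_prop)).measurableSet
  have e₂ : (fun y => X.h.H b x y * Z₂.indicator (fun y => Real.exp (0 * dist x y / Real.sqrt b)) y) =
      Z₂.indicator (X.h.H b x) := by
    funext y
    by_cases hy : y ∈ Z₂ <;> simp [hy]
  have h4 : ∫ y, Z₂.indicator (X.h.H b x) y ∂X.h.m ≤ Q * (1 - s) / 3 / Mx := by
    rw [← e₂]
    exact h3
  rw [← integral_indicator m₁] at h2
  set f : X.M → ℝ := fun y =>
    min Mx (Real.exp ((1 - p2 n) * ‖wv w y - wv w x‖ ^ 2 / (4 * b))) with hf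
  have hf0 : ∀ y, 0 ≤ f y := fun y => le_min hMx.le (Real.exp_pos _).le
  have hm : Integrable (fun y => X.h.H b x y * f y) X.h.m := by
    refine X.h.int_bdd hb x (Continuous.aestronglyMeasurable (by fun_prop)) (B := Mx) fun y => ?_
    rw [abs_of_nonneg (hf0 y)]
    exact min_le_left _ _
  have hHp : Integrable (fun y => X.h.H b x y ^ p2 n) X.h.m := by
    have h5 : 0 < X.h.th b x ^ (1 - p2 n) := Real.rpow_pos_of_pos (X.h.th_pos hb x) _
    refine (((hW X hS.ok x).2.2.1).mul_const (X.h.th b x ^ (1 - p2 n))⁻¹).congr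
      (Eventually.of_forall fun y => ?_)
    simp only [HS.W]
    rw [mul_assoc, mul_inv_cancel₀ h5.ne', mul_one]
  have h4π : 0 < 4 * Real.pi * b := by have := Real.pi_pos; positivity
  set K : ℝ := s * Real.exp (n / 2 * (1 - p2 n) * Real.log (4 * Real.pi * b)) with hK
  have hK0 : 0 < K := mul_pos hs0 (Real.exp_pos _)
  have pw : ∀ y, K * (X.h.H b x y * f y - Mx * Z₁.indicator (X.h.H b x) y -
      Mx * Z₂.indicator (X.h.H b x) y) ≤ X.h.H b x y ^ p2 n := by
    intro y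
    have g0 := X.h.H_pos hb x y
    have g1 : X.h.H b x y * f y ≤ Mx * X.h.H b x y := by
      rw [mul_comm]
      exact mul_le_mul_of_nonneg_right (min_le_left _ _) g0.le
    have g2 : ∀ Z : Set X.M, 0 ≤ Mx * Z.indicator (X.h.H b x) y := fun Z =>
      mul_nonneg hMx.le (indicator_nonneg (fun y _ => X.h.H_nonneg hb x y) y)
    have g3 : 0 ≤ X.h.H b x y ^ p2 n := Real.rpow_nonneg g0.le _
    by_cases hy₁ : y ∈ Z₁
    · refine le_trans (mul_nonpos_of_nonneg_of_nonpos hK0.le ?_) g3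
      rw [indicator_of_mem hy₁]
      linarith [g2 Z₂]
    by_cases hy₂ : y ∈ Z₂
    · refine le_trans (mul_nonpos_of_nonneg_of_nonpos hK0.le ?_) g3
      rw [indicator_of_mem hy₂]
      linarith [g2 Z₁]
    rw [indicator_of_notMem hy₁, indicator_of_notMem hy₂, mul_zero, sub_zero, sub_zero]
    have g4 : X.h.H b x y < Real.exp (ε / 2) * gau n b (wv w y - wv w x) :=
      not_le.1 fun h => hy₁ ⟨(not_le.1 hy₂).le, h⟩
    have g5 : Real.log (X.h.H b x y) ≤ ε / 2 + (-(n : ℝ) / 2 * Real.log (4 * Real.pi * b) +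
        -‖wv w y - wv w x‖ ^ 2 / (4 * b)) := by
      refine (Real.log_le_log g0 g4.le).trans_eq ?_
      unfold gau
      rw [Real.rpow_def_of_pos h4π, ← Real.exp_add, ← Real.exp_add, Real.log_exp]
      ring
    have g6 : X.h.H b x y ^ p2 n =
        X.h.H b x y * Real.exp (-((1 - p2 n) * Real.log (X.h.H b x y))) := by
      rw [Real.rpow_def_of_pos g0]
      nth_rewrite 2 [← Real.exp_log g0]
      rw [← Real.exp_add]
      congr 1
      ring
    rw [g6, mul_left_comm]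
    refine mul_le_mul_of_nonneg_left ?_ g0.le
    refine (mul_le_mul_of_nonneg_left (min_le_right _ _) hK0.le).trans ?_
    rw [hK, hs, ← Real.exp_add, ← Real.exp_add]
    refine Real.exp_le_exp.2 ?_
    have g7 := mul_le_mul_of_nonneg_left g5 hq.le
    have g8 : (1 - p2 n) * ‖wv w y - wv w x‖ ^ 2 / (4 * b) =
      -((1 - p2 n) * (-‖wv w y - wv w x‖ ^ 2 / (4 * b))) := by ring
    rw [g8]
    nlinarith
  have i₁ : Integrable (fun y => Mx * Z₁.indicator (X.h.H b x) y) X.h.m :=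
    (hHi.indicator m₁).const_mul Mx
  have i₂ : Integrable (fun y => Mx * Z₂.indicator (X.h.H b x) y) X.h.m :=
    (hHi.indicator m₂).const_mul Mx
  have i₃ : Integrable (fun y => X.h.H b x y * f y - Mx * Z₁.indicator (X.h.H b x) y) X.h.m :=
    hm.sub i₁
  have h5 := integral_mono ((i₃.sub i₂).const_mul K) hHp pw
  simp only [Pi.sub_apply] at h5
  rw [integral_const_mul, integral_sub i₃ i₂, integral_sub hm i₁, integral_const_mul,
    integral_const_mul] at h5
  have h6 : K * (Q * s) ≤ ∫ y, X.h.H b x y ^ p2 n ∂X.h.m := by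
    refine le_trans (mul_le_mul_of_nonneg_left ?_ hK0.le) h5
    rw [le_div_iff₀' hMx] at h2 h4
    have h7 : Q - Q * (1 - s) / 3 ≤ ∫ y, X.h.H b x y * f y ∂X.h.m := h1
    linarith
  have h7 := Real.log_le_log (by positivity) h6
  rw [Real.log_mul hK0.ne' (by positivity), Real.log_mul hQ0.ne' hs0.ne', hK,
    Real.log_mul hs0.ne' (Real.exp_pos _).ne', hs, Real.log_exp, Real.log_exp, hQ,
    Real.log_rpow hp0, Real.log_mul (by have := Real.pi_pos; positivity) hb.ne'] at h7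
  unfold ren0 HS.Ren
  rw [le_sub_iff_add_le, le_div_iff₀ hq]
  refine le_trans (le_of_eq ?_) h7
  field_simp
  ring

/-- Recipe: `normal_coord`, multiplied by a bump so that `‖w y‖ ≤ (1+η') d(x,y)` everywhere (near `x`: `abs_sub_le_of_Γ` for `ξ · w`, `ξ` a unit vector, continuity of `Gm`).
`F s y = σ^{-n/2} exp(‖w y‖²/(4σ))`, `σ = σ₀ + s`, `σ₀ + a = a/((1-p)(1+η'))`, solves `(∂ₛ+Δ)F = F · O(|Gm - 1| (1/σ + ‖w‖²/σ²) + ‖w‖ |Δ w|/σ)`; `duh2`, `moment_gauss` (room: `(1-p)/(4p) ≤ 1/12 < 1/8`),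
`|Gm - 1| ≤ η'` near `x`; outside a small ball use `moment_gauss` again (`(1-p)/4 ≤ 1/16`). -/
theorem mom_small (hn : 2 ≤ n) (X : Sp.{u} n) (x : X.M) {η : ℝ} (hη : 0 < η) :
    ∀ᶠ a in 𝓝[>] (0 : ℝ), X.h.P a (fun y => Real.exp ((1 - p2 n) * dist x y ^ 2 / (4 * a))) x ≤
      p2 n ^ (-(n : ℝ) / 2) + η := by
  exact e4c_main hn X x hη

theorem e4d_young {q H u s : ℝ} (q0 : 0 ≤ q) (q1 : q ≤ 1) (hH : 0 ≤ H) (hs : 0 < s) :
    H ^ (1 - q) ≤ s ^ q * ((1 - q) * (H * Real.exp (q * u)) + q * (Real.exp (-((1 - q) * u)) / s)) := by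
  have h := Real.geom_mean_le_arith_mean2_weighted (sub_nonneg.2 q1) q0 (p₁ := H * Real.exp (q * u))
    (p₂ := Real.exp (-((1 - q) * u)) / s) (by positivity) (by positivity) (by ring)
  refine le_trans (le_of_eq ?_) (mul_le_mul_of_nonneg_left h (by positivity))
  rw [Real.mul_rpow hH (Real.exp_pos _).le, Real.div_rpow (Real.exp_pos _).le hs.le, ← Real.exp_mul, ← Real.exp_mul,
    show -((1 - q) * u) * q = -(q * u * (1 - q)) by ring, Real.exp_neg]
  field_simp

/-- Recipe: Hölder on `B = ball x r` (`gauss_small` with time `a/p`): `∫_B H^p ≤ (∫ H e^{(1-p)d²/4a})^p (∫_B e^{-p d²/4a})^{1-p}`, `mom_small`; outside `B`, `H^p = W θ^{p-1}`, `θ a ≥ θ a₀` (`th_anti`),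
`W_bounds` and `moment_gauss` give an exponentially small contribution. -/
theorem ren_small (hn : 2 ≤ n) (X : Sp.{u} n) (x : X.M) {η : ℝ} (hη : 0 < η) :
    ∀ᶠ a in 𝓝[>] (0 : ℝ), X.h.Ren x a ≤ ren0 n + η := by
  have hn' : (2 : ℝ) ≤ n := by exact_mod_cast hn
  obtain ⟨q, hq, q0, qn⟩ : ∃ q : ℝ, p2 n = 1 - q ∧ 0 < q ∧ n / 2 * q = 1 / 4 :=
    ⟨1 / (2 * n), rfl, by positivity, by field_simp; ring⟩
  have q1 : q ≤ 1 / 4 := by nlinarith
  have p0 : 0 < 1 - q := by linarith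
  obtain ⟨C, hC, hW⟩ := W_int.{u} n (by omega) 1
  obtain ⟨C', -, hM⟩ := moment_gauss.{u} n
  obtain ⟨e, he, e0⟩ : ∃ e, 2 * e = q * η ∧ 0 < e := ⟨q * η / 2, by ring, by positivity⟩
  obtain ⟨r, hr, hG⟩ := X.h.toGeo.gauss_small x e0
  have t1 := X.h.th_pos one_pos x
  obtain ⟨K, hK⟩ : ∃ K, K = X.h.th 1 x ^ (-q) := ⟨_, rfl⟩
  have K0 : 0 < K := hK ▸ Real.rpow_pos_of_pos t1 _
  have e1 : ∀ᶠ a in 𝓝 (0 : ℝ), X.h.k * a < 1 / 10 ^ 6 :=
    ContinuousAt.eventually_lt (by fun_prop) continuousAt_const (by simp)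
  have e2 : ∀ᶠ a in 𝓝 (0 : ℝ), K / r * C * a ^ (1 / 4 : ℝ) < e := ContinuousAt.eventually_lt
    (continuousAt_const.mul (Real.continuous_rpow_const (by norm_num)).continuousAt) continuousAt_const (by simpa)
  filter_upwards [mom_small hn X x e0, nhdsWithin_le_nhds e1, nhdsWithin_le_nhds e2,
    nhdsWithin_le_nhds (ge_mem_nhds one_pos), self_mem_nhdsWithin] with a h1 h2 h3 h4 (ha : 0 < a)
  obtain ⟨w1, w2, w3, w4, -⟩ := hW X ⟨ha, h2.le⟩ x
  have hH := X.h.H_nonneg ha x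
  have ta := X.h.th_pos ha x
  have sa := Real.sqrt_pos.2 ha
  have m1 : Integrable (fun y => X.h.H a x y * Real.exp (q * (dist x y ^ 2 / (4 * a)))) X.h.m := by
    refine (hM X ha (by linarith) x).1.mono' ((X.h.H_cont ha x).mul (by fun_prop)).aestronglyMeasurable
      (.of_forall fun y => ?_)
    rw [Real.norm_of_nonneg (mul_nonneg (hH y) (Real.exp_pos _).le)]
    refine mul_le_mul_of_nonneg_left (Real.exp_le_exp.2 ?_) (hH y)
    rw [show dist x y ^ 2 / (8 * a) = 1 / 2 * (dist x y ^ 2 / (4 * a)) by ring]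
    exact mul_le_mul_of_nonneg_right (by linarith) (by positivity)
  have g1 := hG (a / (1 - q)) (by positivity)
  have g0 : ∀ y, -dist y x ^ 2 / (4 * (a / (1 - q))) = -((1 - q) * (dist x y ^ 2 / (4 * a))) := fun y => by
    rw [dist_comm]; field_simp
  simp only [g0] at g1
  have m2 : IntegrableOn (fun y => Real.exp (-((1 - q) * (dist x y ^ 2 / (4 * a))))) (ball x r) X.h.m :=
    ⟨Continuous.aestronglyMeasurable (by fun_prop), (hasFiniteIntegral_iff_ofReal
      (.of_forall fun y => (Real.exp_pos _).le)).2 (g1.trans_lt ENNReal.ofReal_lt_top)⟩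
  rw [← ofReal_integral_eq_lintegral_ofReal m2 (.of_forall fun y => (Real.exp_pos _).le),
    ENNReal.ofReal_le_ofReal_iff (by positivity), ← integral_indicator measurableSet_ball, ← mul_div_assoc,
    Real.div_rpow (by positivity) p0.le, div_eq_mul_inv, ← Real.rpow_neg p0.le, ← neg_div] at g1
  replace m2 := m2.integrable_indicator measurableSet_ball
  obtain ⟨s, hs⟩ : ∃ s, s = (4 * Real.pi * a) ^ ((n : ℝ) / 2) := ⟨_, rfl⟩
  have s0 : 0 < s := by rw [hs]; positivity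
  have s1 : a ^ (1 / 4 : ℝ) ≤ s ^ q := by
    rw [hs, ← Real.rpow_mul (by positivity), qn]
    exact Real.rpow_le_rpow ha.le (by nlinarith [Real.pi_gt_three]) (by norm_num)
  have s2 : √a = a ^ (1 / 4 : ℝ) * a ^ (1 / 4 : ℝ) := by
    rw [← Real.rpow_add ha, Real.sqrt_eq_rpow]; norm_num
  simp only [HS.P, kerP, HS.W, hq, sub_sub_cancel, mul_div_assoc q] at h1 w1 w2 w3 w4
  have A1 : 1 ≤ (1 - q) ^ (-(n : ℝ) / 2) :=
    Real.one_le_rpow_of_pos_of_le_one_of_nonpos p0 (by linarith) (by linarith)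
  have z0 : 0 < ∫ y, X.h.H a x y ^ (1 - q) ∂X.h.m :=
    (integral_nonneg fun y => Real.rpow_nonneg (hH y) _).lt_of_ne' fun h0 => by
      rw [integral_mul_const, h0] at w4; norm_num at w4
  have z1 := integral_mono_of_nonneg (f := fun y => X.h.H a x y ^ (1 - q))
    (.of_forall fun y => Real.rpow_nonneg (hH y) _)
    (((((m1.const_mul (1 - q)).add ((m2.div_const s).const_mul q))).const_mul (s ^ q)).add
      (w1.const_mul (K / r * √a))) (.of_forall fun y => by
      have b1 := hH y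
      simp only [Pi.add_apply]
      by_cases hy : y ∈ ball x r
      · rw [indicator_of_mem hy]
        exact (e4d_young q0.le (by linarith) b1 s0).trans (le_add_of_nonneg_right (by positivity))
      rw [indicator_of_notMem hy]
      refine le_add_of_nonneg_of_le (by positivity) ?_
      have b2 : 1 ≤ K * X.h.th a x ^ q := by
        rw [hK, Real.rpow_neg t1.le, ← div_eq_inv_mul, one_le_div (by positivity)]
        exact Real.rpow_le_rpow t1.le (X.h.th_anti ha h4 x) q0.le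
      have b3 : 1 ≤ √a / r * Real.exp (1 * dist x y / √a) := by
        rw [div_mul_eq_mul_div, one_le_div hr, ← div_le_iff₀' sa, one_mul]
        exact (div_le_div_of_nonneg_right (not_lt.1 (mt mem_ball'.2 hy)) sa.le).trans
          ((le_add_of_nonneg_right zero_le_one).trans (Real.add_one_le_exp _))
      refine (le_mul_of_one_le_right (by positivity) (one_le_mul_of_one_le_of_one_le b2 b3)).trans_eq (by ring))
  simp only [Pi.add_apply] at z1
  rw [integral_add (by exact ((m1.const_mul (1 - q)).add ((m2.div_const s).const_mul q)).const_mul (s ^ q))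
    (w1.const_mul (K / r * √a)), integral_const_mul, integral_const_mul, integral_add (m1.const_mul (1 - q))
    ((m2.div_const s).const_mul q), integral_const_mul, integral_const_mul, integral_div] at z1
  rw [← hs, ← mul_assoc, mul_right_comm, ← div_le_iff₀ s0] at g1
  have z2 : ∫ y, X.h.H a x y ^ (1 - q) ∂X.h.m ≤ s ^ q * ((1 - q) ^ (-(n : ℝ) / 2) * (1 + 2 * e)) := by
    refine z1.trans ((add_le_add (mul_le_mul_of_nonneg_left (add_le_add (mul_le_mul_of_nonneg_left h1 p0.le)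
      (mul_le_mul_of_nonneg_left g1 q0.le)) (by positivity)) (mul_le_mul_of_nonneg_left w2 (by positivity))).trans ?_)
    have b1 : K / r * √a * C ≤ s ^ q * e := by
      rw [s2, show K / r * (a ^ (1 / 4 : ℝ) * a ^ (1 / 4 : ℝ)) * C = a ^ (1 / 4 : ℝ) * (K / r * C * a ^ (1 / 4 : ℝ)) by ring]
      exact mul_le_mul s1 h3.le (by positivity) (by positivity)
    refine (add_le_add_right b1 _).trans ?_
    rw [← mul_add]
    refine mul_le_mul_of_nonneg_left ?_ (by positivity)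
    nlinarith [mul_nonneg (mul_nonneg e0.le (by linarith : 0 ≤ 2 - q)) (sub_nonneg.2 A1)]
  have z3 := Real.log_le_log z0 z2
  rw [Real.log_mul (by positivity) (by positivity), Real.log_mul (by positivity) (by positivity), Real.log_rpow s0,
    Real.log_rpow p0, hs, Real.log_rpow (by positivity), Real.log_mul (by positivity) ha.ne'] at z3
  have z4 := Real.log_le_sub_one_of_pos (show 0 < 1 + 2 * e by positivity)
  rw [HS.Ren, ren0, hq, sub_sub_cancel, sub_le_iff_le_add, div_le_iff₀ q0]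
  refine le_trans (b := q * (n / 2 * (Real.log (4 * Real.pi) + Real.log a)) - n / 2 * Real.log (1 - q) + q * η)
    (by linarith) (le_of_eq ?_)
  field_simp
  ring

/-- Recipe: sum `KK_dyadic` over `a_j = b/2^{j+2}`; `∫ₐᵇ zb/s = Ren a - Ren b ≤ ε + η` for small `a` (`Ren_sub`, `ren_small`), and the integrand `zb + Cks ≥ 0`. -/
theorem ent_le (n : ℕ) (hn : 2 ≤ n) : ∃ C : ℝ, 0 < C ∧ ∀ (X : Sp.{u} n) {b T₁ ε : ℝ}, X.h.ok b →
    0 ≤ ε → 2 * T₁ ≤ b → ∀ x, ren0 n - ε ≤ X.h.Ren x b →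
      X.h.Ent x T₁ ≤ ENNReal.ofReal (C * (ε + X.h.k * b)) := by
  obtain ⟨C, hC, H⟩ := KK_dyadic.{u} n (by omega)
  refine ⟨C * (2 + 5 * C), by positivity, fun X b T₁ ε hb hε hT x hR => ?_⟩
  have k0 := X.h.k_nonneg
  have b0 := hb.1
  have ok : ∀ s, 0 < s → s ≤ b → X.h.ok s := fun s h1 h2 => ⟨h1, (mul_le_mul_of_nonneg_left h2 k0).trans hb.2⟩
  have h1 : ∀ a a', 0 < a → a ≤ a' → a' ≤ b → ∫ s in a..a', (X.h.zb x s + C * (X.h.k * s)) / s =
      X.h.Ren x a - X.h.Ren x a' + (a' - a) * (C * X.h.k) := fun a a' ha h h' => by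
    obtain ⟨c1, c2⟩ := Ren_sub (by omega) X ha h (ok _ (ha.trans_le h) h') x
    rw [c2, ← smul_eq_mul (a' - a), ← intervalIntegral.integral_const, ← intervalIntegral.integral_add
      (ContinuousOn.intervalIntegrable_of_Icc h (by exact c1.div continuousOn_id fun s hs => (ha.trans_le hs.1).ne'))
      intervalIntegrable_const]
    refine intervalIntegral.integral_congr fun s hs => ?_
    have := (ha.trans_le (uIcc_of_le h ▸ hs).1).ne'
    field_simp
  have h2 : ∀ a a', 0 < a → a ≤ a' → a' ≤ b → 0 ≤ X.h.Ren x a - X.h.Ren x a' + (a' - a) * (C * X.h.k) :=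
    fun a a' ha h h' => h1 a a' ha h h' ▸ intervalIntegral.integral_nonneg h fun s hs => by
      have s0 := ha.trans_le hs.1
      exact div_nonneg ((H X (a := s / 4) (by positivity) (ok _ (by positivity) (by linarith [hs.2])) x).1 s
        ⟨by linarith, by linarith⟩) s0.le
  have ck : 0 ≤ C * X.h.k := by positivity
  have h3 : ∀ a, 0 < a → a ≤ b → X.h.Ren x a ≤ ren0 n + b * (C * X.h.k) := fun a ha h => by
    refine le_of_forall_pos_le_add fun η hη => ?_
    obtain ⟨a', c1, c2⟩ := ((ren_small hn X x hη).and (Ioc_mem_nhdsGT ha)).exists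
    nlinarith [h2 a' a c2.1 c2.2 h, mul_nonneg c2.1.le ck, mul_nonneg (sub_nonneg.2 h) ck]
  let t : ℕ → ℝ := fun j => b * (1 / 2) ^ j
  have t0 : ∀ j, 0 < t j := fun j => by positivity
  have t1 : ∀ j, t j ≤ b := fun j => mul_le_of_le_one_right b0.le (pow_le_one₀ (by norm_num) (by norm_num))
  have t2 : ∀ j, t (j + 1) = t j / 2 := fun j => by simp only [t, pow_succ]; ring
  have t3 : ∀ j, 4 * t (j + 2) = t j := fun j => by rw [t2, t2]; ring
  have h4 : Ioo 0 T₁ ⊆ ⋃ j, Ioc (t (j + 2)) (2 * t (j + 2)) := fun σ hσ => by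
    obtain ⟨j, c1, c2⟩ := exists_nat_pow_near_of_lt_one (x := 2 * σ / b) (y := 1 / 2) (by have := hσ.1; positivity)
      ((div_le_one b0).2 (by linarith [hσ.2])) (by norm_num) (by norm_num)
    rw [lt_div_iff₀' b0] at c1
    rw [div_le_iff₀' b0] at c2
    refine mem_iUnion.2 ⟨j, ?_, ?_⟩
    · rw [t2]; linarith
    · rw [t2, t2]; linarith
  have h5 : ∀ N, ∑ j ∈ Finset.range N, (X.h.k * t (j + 2) + (X.h.Ren x (t (j + 2)) - X.h.Ren x (t j) +
      (t j - t (j + 2)) * (C * X.h.k))) = (1 + 3 * C) * X.h.k * (t 1 - t (N + 1)) + X.h.Ren x (t (N + 1)) +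
      X.h.Ren x (t N) - X.h.Ren x (t 1) - X.h.Ren x (t 0) := fun N => by
    induction N with
    | zero => simp
    | succ N ih => rw [Finset.sum_range_succ, ih, ← t3 N, t3 N, add_assoc N 1 1]; linear_combination (-C * X.h.k) * t3 N + (1 + 3 * C) * X.h.k * (2 * t2 (N + 1))
  have t4 : ∀ j, t (j + 2) ≤ t j := fun j => by linarith [t3 j, t0 (j + 2)]
  refine (lintegral_mono_set h4).trans ((lintegral_iUnion_le _ _).trans (ENNReal.tsum_le_of_sum_range_le fun N => ?_))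
  refine (Finset.sum_le_sum fun j _ => (H X (t0 _) (t3 j ▸ ok _ (t0 j) (t1 j)) x).2).trans ?_
  simp only [t3, h1 _ _ (t0 _) (t4 _) (t1 _)]
  rw [← ENNReal.ofReal_sum_of_nonneg fun j _ => mul_nonneg hC.le (add_nonneg (mul_nonneg k0 (t0 _).le)
    (h2 _ _ (t0 _) (t4 _) (t1 _))), ← Finset.mul_sum, h5, mul_assoc C]
  refine ENNReal.ofReal_le_ofReal (mul_le_mul_of_nonneg_left ?_ hC.le)
  have c0 : t 0 = b := by simp [t]
  have c1 := h2 _ _ (t0 1) (t1 1) le_rfl
  have c2 := mul_nonneg (mul_nonneg (by positivity : 0 ≤ 1 + 3 * C) k0) (t0 (N + 1)).le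
  rw [t2 0, c0] at *
  nlinarith [h3 _ (t0 N) (t1 N), h3 _ (t0 (N + 1)) (t1 _), mul_nonneg hC.le hε, mul_nonneg b0.le ck, mul_nonneg b0.le k0]

end Crest.Agent.R247
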