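import Crest.Agent.R247.Defs

/-! # Row 247, G0: Hopf-Rinow for spaces with approximate midpoints -/

set_option autoImplicit false
set_option linter.unusedSectionVars false
set_option linter.unusedVariables false
open MeasureTheory Filter Set Metric Matrix
open scoped ENNReal NNReal Topology ContDiff
open Crest.GeometryTopology.CoordMetric

noncomputable section
namespace Crest.Agent.R247
universe u

variable {M : Type u} [MetricSpace M]

lemma g0a_dy (mid : ∀ x y : M, ∀ ε : ℝ, 0 < ε →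
      ∃ z, dist x z ≤ dist x y / 2 + ε ∧ dist z y ≤ dist x y / 2 + ε) (x y : M) (k : ℕ) :
    ∀ η : ℝ, 0 < η → ∃ z, dist x z ≤ (1 - (1 / 2) ^ k) * dist x y + η ∧ dist z y ≤ (1 / 2) ^ k * dist x y + η := by
  induction k with
  | zero => exact fun η hη => ⟨x, by simp [hη.le], by simp [hη.le]⟩
  | succ k ih =>
    intro η hη
    obtain ⟨z, h1, h2⟩ := ih (η / 3) (by positivity)
    obtain ⟨z', h3, h4⟩ := mid z y (η / 3) (by positivity)
    refine ⟨z', (dist_triangle x z z').trans ?_, ?_⟩ <;> rw [pow_succ] <;> linarith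

lemma g0a_near (mid : ∀ x y : M, ∀ ε : ℝ, 0 < ε →
      ∃ z, dist x z ≤ dist x y / 2 + ε ∧ dist z y ≤ dist x y / 2 + ε) {r ε : ℝ} (hr : 0 < r) (hε : 0 < ε) :
    ∃ δ > 0, ∀ x y : M, dist x y ≤ r + δ → ∃ z, dist x z ≤ r - δ ∧ dist z y ≤ ε := by
  obtain ⟨k, hk⟩ := exists_pow_lt_of_lt_one (show 0 < ε / (4 * r) by positivity) (show (1 / 2 : ℝ) < 1 by norm_num)
  set t : ℝ := (1 / 2) ^ k with ht
  have t0 : 0 < t := by positivity
  have t1 : t ≤ 1 := pow_le_one₀ (by norm_num) (by norm_num)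
  rw [lt_div_iff₀ (by positivity)] at hk
  have htr : 0 < t * r := by positivity
  refine ⟨t * r / 4, by positivity, fun x y hxy => ?_⟩
  obtain ⟨z, h1, h2⟩ := g0a_dy mid x y k (t * r / 4) (by positivity)
  rw [← ht] at h1 h2
  have h3 := mul_le_mul_of_nonneg_left hxy t0.le
  have h4 := mul_le_mul_of_nonneg_left hxy (sub_nonneg.2 t1)
  have h5 : t * (t * r) ≤ t * r := mul_le_of_le_one_left htr.le t1
  have h6 : 0 ≤ t * (t * r) := by positivity
  exact ⟨z, by nlinarith, by nlinarith⟩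

/-- Recipe: fix `x`; let `ρ = sup {r | closedBall x r compact}` (`> 0` by local compactness). If `ρ < ∞`: `closedBall x ρ` is
closed and totally bounded (approximate midpoints, iterated, give for `d(x,y) ≤ ρ` a point `z` with `d(x,z) ≤ ρ - ε/4`,
`d(z,y) ≤ ε`: by induction on `j`, for all dyadic `t = i/2^j` there is `z` with `d(x,z) ≤ t d + ε'`, `d(z,y) ≤ (1-t) d + ε'`), hence compact;
cover it by finitely many open balls `ball y_i (r_i/2)` with `closedBall y_i r_i` compact; then `closedBall x (ρ + min r_i / 4)` is a closed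
subset of the union of the `closedBall y_i r_i`.  Contradiction. -/
theorem properSpace_of_mid [CompleteSpace M] [LocallyCompactSpace M]
    (mid : ∀ x y : M, ∀ ε : ℝ, 0 < ε →
      ∃ z, dist x z ≤ dist x y / 2 + ε ∧ dist z y ≤ dist x y / 2 + ε) : ProperSpace M := by
  refine ⟨fun x r => ?_⟩
  set S : Set ℝ := {r | 0 < r ∧ IsCompact (closedBall x r)} with hS
  have hne : S.Nonempty := exists_isCompact_closedBall x
  have hlt : ∀ r' r'' : ℝ, r'' ∈ S → r' ≤ r'' → IsCompact (closedBall x r') := fun r' r'' h1 h2 =>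
    h1.2.of_isClosed_subset isClosed_closedBall (closedBall_subset_closedBall h2)
  by_cases hb : BddAbove S
  swap
  · obtain ⟨r', h1, h2⟩ := not_bddAbove_iff.1 hb r
    exact hlt r r' h1 h2.le
  exfalso
  obtain ⟨r₀, hr₀⟩ := hne
  have hρ : 0 < sSup S := hr₀.1.trans_le (le_csSup hb hr₀)
  have hc : IsCompact (closedBall x (sSup S)) := by
    refine TotallyBounded.isCompact_of_isClosed (Metric.totallyBounded_iff.2 fun ε hε => ?_) isClosed_closedBall
    obtain ⟨δ, hδ, h1⟩ := g0a_near mid hρ (show 0 < ε / 2 by positivity)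
    obtain ⟨r', h2, h3⟩ := exists_lt_of_lt_csSup ⟨r₀, hr₀⟩ (show sSup S - δ < sSup S by linarith)
    obtain ⟨t, ht, h4⟩ := Metric.totallyBounded_iff.1 (hlt _ _ h2 h3.le).totallyBounded (ε / 2) (by positivity)
    refine ⟨t, ht, fun y hy => ?_⟩
    obtain ⟨z, h5, h6⟩ := h1 x y (by rw [mem_closedBall'] at hy; linarith)
    obtain ⟨w, hw, h7⟩ := mem_iUnion₂.1 (h4 (mem_closedBall'.2 h5))
    refine mem_biUnion hw ?_
    rw [mem_ball] at h7 ⊢
    linarith [dist_triangle_left y w z]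
  obtain ⟨ε, hε, h1⟩ := hc.exists_isCompact_cthickening
  obtain ⟨δ, hδ, h2⟩ := g0a_near mid hρ hε
  have h3 : sSup S + δ ∈ S := by
    refine ⟨by linarith, h1.of_isClosed_subset isClosed_closedBall fun y hy => ?_⟩
    obtain ⟨z, h4, h5⟩ := h2 x y (mem_closedBall'.1 hy)
    exact mem_cthickening_of_dist_le y z ε _ (mem_closedBall'.2 (by linarith)) (by rwa [dist_comm])
  linarith [le_csSup hb h3]

lemma g0b_mid [ProperSpace M]
    (mid : ∀ x y : M, ∀ ε : ℝ, 0 < ε →
      ∃ z, dist x z ≤ dist x y / 2 + ε ∧ dist z y ≤ dist x y / 2 + ε) (x y : M) :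
    ∃ z, dist x z ≤ dist x y / 2 ∧ dist z y ≤ dist x y / 2 := by
  obtain ⟨z, -, hz⟩ := (isCompact_closedBall x (dist x y / 2 + 1)).exists_isMinOn
    ⟨x, mem_closedBall_self (by positivity)⟩
    (f := fun z => max (dist x z) (dist z y)) (by fun_prop)
  refine ⟨z, max_le_iff.1 (le_of_forall_pos_le_add fun ε hε => ?_)⟩
  obtain ⟨w, h1, h2⟩ := mid x y (min ε 1) (by positivity)
  have h3 : max (dist x z) (dist z y) ≤ max (dist x w) (dist w y) :=
    hz (mem_closedBall'.2 (h1.trans (by gcongr; exact min_le_right _ _)))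
  exact h3.trans ((max_le h1 h2).trans (by gcongr; exact min_le_left _ _))

lemma g0b_chain (mid : ∀ x y : M, ∃ z, dist x z ≤ dist x y / 2 ∧ dist z y ≤ dist x y / 2) (x y : M)
    (j : ℕ) : ∃ z : ℕ → M, z 0 = x ∧ z (2 ^ j) = y ∧
      ∀ i < 2 ^ j, dist (z i) (z (i + 1)) ≤ dist x y / 2 ^ j := by
  choose m hm using mid
  induction j with
  | zero =>
    refine ⟨fun i => if i = 0 then x else y, by simp, by simp, fun i hi => ?_⟩
    obtain rfl : i = 0 := by omega
    simp
  | succ j ih =>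
    obtain ⟨z, h0, h1, h2⟩ := ih
    refine ⟨fun i => if i % 2 = 0 then z (i / 2) else m (z (i / 2)) (z (i / 2 + 1)), by simpa using h0,
      ?_, fun i hi => ?_⟩
    · have e1 : 2 ^ (j + 1) % 2 = 0 := by rw [pow_succ]; omega
      have e2 : 2 ^ (j + 1) / 2 = 2 ^ j := by rw [pow_succ]; omega
      simp only [e1, e2, if_true, h1]
    · have h3 := h2 (i / 2) (by rw [pow_succ] at hi; omega)
      have e : dist x y / 2 ^ (j + 1) = dist x y / 2 ^ j / 2 := by rw [pow_succ, div_div]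
      rcases Nat.mod_two_eq_zero_or_one i with h | h
      · have e1 : ¬ (i + 1) % 2 = 0 := by omega
        have e2 : (i + 1) / 2 = i / 2 := by omega
        simp only [h, e1, e2, if_true, if_false]
        linarith [(hm (z (i / 2)) (z (i / 2 + 1))).1]
      · have e0 : ¬ i % 2 = 0 := by omega
        have e1 : (i + 1) % 2 = 0 := by omega
        have e2 : (i + 1) / 2 = i / 2 + 1 := by omega
        simp only [e0, e1, e2, if_true, if_false]
        linarith [(hm (z (i / 2)) (z (i / 2 + 1))).2]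

lemma g0b_le {z : ℕ → M} {N : ℕ} {c : ℝ} (h : ∀ i < N, dist (z i) (z (i + 1)) ≤ c) {i k : ℕ}
    (hik : i ≤ k) (hk : k ≤ N) : dist (z i) (z k) ≤ ((k : ℝ) - i) * c := by
  induction k, hik using Nat.le_induction with
  | base => simp
  | succ k hik ih =>
    have := ih (by omega)
    have h1 := h k (by omega)
    have h2 := dist_triangle (z i) (z k) (z (k + 1))
    push_cast
    linarith

/-- Recipe: exact midpoints by compactness; define `γ` on dyadic rationals by recursion and extend by uniform continuity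
(or: for each `j` a chain `z 0, …, z (2^j)` with consecutive distances `d/2^j`, the step curves `γ_j t = z ⌊2^j t⌋`, and a pointwise
ultrafilter limit in the compact `closedBall x d`). -/
theorem exists_geod [ProperSpace M]
    (mid : ∀ x y : M, ∀ ε : ℝ, 0 < ε →
      ∃ z, dist x z ≤ dist x y / 2 + ε ∧ dist z y ≤ dist x y / 2 + ε) (x y : M) :
    ∃ γ : ℝ → M, γ 0 = x ∧ γ 1 = y ∧
      ∀ s ∈ Icc (0 : ℝ) 1, ∀ t ∈ Icc (0 : ℝ) 1, dist (γ s) (γ t) = |s - t| * dist x y := by
  choose z h0 h1 h2 using g0b_chain (g0b_mid mid) x y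
  have hd : 0 ≤ dist x y := dist_nonneg
  have hf : ∀ j, ∀ t ∈ Icc (0 : ℝ) 1, ⌊2 ^ j * t⌋₊ ≤ 2 ^ j := fun j t ht =>
    Nat.floor_le_of_le (by push_cast; exact mul_le_of_le_one_right (by positivity) ht.2)
  have hst : ∀ j, ∀ s ∈ Icc (0 : ℝ) 1, ∀ t ∈ Icc (0 : ℝ) 1, s ≤ t →
      dist (z j ⌊2 ^ j * s⌋₊) (z j ⌊2 ^ j * t⌋₊) ≤ (t - s + (1 / 2) ^ j) * dist x y := by
    intro j s hs t ht h
    have p : (0 : ℝ) < 2 ^ j := by positivity
    refine (g0b_le (h2 j) (Nat.floor_mono (by gcongr)) (hf j t ht)).trans ?_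
    have a1 := Nat.floor_le (mul_nonneg p.le ht.1)
    have a2 := Nat.lt_floor_add_one (2 ^ j * s)
    have e : (t - s + (1 / 2) ^ j) * dist x y = (2 ^ j * t - 2 ^ j * s + 1) * (dist x y / 2 ^ j) := by
      rw [one_div, inv_pow]; field_simp
    rw [e]
    gcongr
    linarith
  have : Nonempty M := ⟨x⟩
  have hl : ∀ t ∈ Icc (0 : ℝ) 1, ∃ p, Tendsto (fun j => z j ⌊2 ^ j * t⌋₊) (hyperfilter ℕ) (𝓝 p) := by
    intro t ht
    obtain ⟨p, -, hp⟩ := (isCompact_closedBall x (2 * dist x y)).ultrafilter_le_nhds'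
      ((hyperfilter ℕ).map fun j => z j ⌊2 ^ j * t⌋₊) (by
        refine Filter.mem_map.2 (univ_mem' fun j => mem_closedBall'.2 ?_)
        have := hst j 0 ⟨le_rfl, zero_le_one⟩ t ht ht.1
        rw [mul_zero, Nat.floor_zero, h0] at this
        refine this.trans ?_
        have : (1 / 2 : ℝ) ^ j ≤ 1 := pow_le_one₀ (by norm_num) (by norm_num)
        gcongr
        linarith [ht.2])
    exact ⟨p, hp⟩
  choose! γ hγ using hl
  have i0 : (0 : ℝ) ∈ Icc (0 : ℝ) 1 := ⟨le_rfl, zero_le_one⟩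
  have i1 : (1 : ℝ) ∈ Icc (0 : ℝ) 1 := ⟨zero_le_one, le_rfl⟩
  have g0 : γ 0 = x := tendsto_nhds_unique (hγ 0 i0) (by simp [h0])
  have g1 : γ 1 = y := by
    refine tendsto_nhds_unique (hγ 1 i1) ?_
    have : ∀ j : ℕ, ⌊(2 : ℝ) ^ j * 1⌋₊ = 2 ^ j := fun j => by
      rw [mul_one]; exact_mod_cast Nat.floor_natCast (R := ℝ) (2 ^ j)
    simp only [this, h1, tendsto_const_nhds]
  have hle : ∀ s ∈ Icc (0 : ℝ) 1, ∀ t ∈ Icc (0 : ℝ) 1, s ≤ t →
      dist (γ s) (γ t) ≤ (t - s) * dist x y := by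
    intro s hs t ht h
    have l1 : Tendsto (fun j : ℕ => (t - s + (1 / 2) ^ j) * dist x y) (hyperfilter ℕ)
        (𝓝 ((t - s + 0) * dist x y)) :=
      ((tendsto_const_nhds.add (tendsto_pow_atTop_nhds_zero_of_lt_one (by norm_num)
        (by norm_num))).mul_const _).mono_left (Nat.cofinite_eq_atTop ▸ hyperfilter_le_cofinite)
    rw [add_zero] at l1
    exact le_of_tendsto_of_tendsto' ((hγ s hs).dist (hγ t ht)) l1 fun j => hst j s hs t ht h
  have heq : ∀ s ∈ Icc (0 : ℝ) 1, ∀ t ∈ Icc (0 : ℝ) 1, s ≤ t →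
      dist (γ s) (γ t) = (t - s) * dist x y := by
    intro s hs t ht h
    refine le_antisymm (hle s hs t ht h) ?_
    have a1 := hle 0 i0 s hs hs.1
    have a2 := hle t ht 1 i1 ht.2
    rw [g0] at a1
    rw [g1] at a2
    linarith [dist_triangle4 x (γ s) (γ t) y]
  refine ⟨γ, g0, g1, fun s hs t ht => ?_⟩
  rcases le_total s t with h | h
  · rw [heq s hs t ht h, abs_sub_comm, abs_of_nonneg (sub_nonneg.2 h)]
  · rw [dist_comm, heq t ht s hs h, abs_of_nonneg (sub_nonneg.2 h)]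

end Crest.Agent.R247
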