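import Crest.Agent.R247.G0

/-! # Row 247, G1: algebra of smooth functions, `Γ`, `Δ`, `Γ2`, `D`, `Hs`

Everything follows from the fields of `Geo`.  Products: `f g = ((f+g)² - f² - g²)/2` with `Sm_comp`, `grad_comp`, `hess_comp` for `φ = (·)²`, `φ = (c * ·)`, `φ = const` (`O = univ`). -/

set_option autoImplicit false
set_option linter.unusedSectionVars false
set_option linter.unusedVariables false
open MeasureTheory Filter Set Metric Matrix
open scoped ENNReal NNReal Topology ContDiff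
open Crest.GeometryTopology.CoordMetric

noncomputable section
namespace Crest.Agent.R247
universe u

variable {n : ℕ} {M : Type u} [MetricSpace M] [MeasurableSpace M] [BorelSpace M] [ProperSpace M]
  (g : Geo n M)

section a
theorem Geo.Sm_mono {I J : Set ℝ} {F : ℝ → M → ℝ} (hF : g.Sm I F) (hJ : J ⊆ I) : g.Sm J F := by
  exact g.Sm_reparam (τ := id) hF contDiffOn_id hJ
theorem Geo.S.Sm {g : Geo n M} {f : M → ℝ} (hf : g.S f) (I : Set ℝ) : g.Sm I fun _ => f := by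
  exact g.Sm_mono ((g.S_iff f).1 hf) (subset_univ I)
theorem Geo.Sm_const (I : Set ℝ) (c : ℝ) : g.Sm I fun _ _ => c := by
  exact g.Sm_time (a := fun _ => c) contDiffOn_const
lemma Geo.g1a_comp {I : Set ℝ} {F : ℝ → M → ℝ} (φ : ℝ → ℝ) (hF : g.Sm I F) (hφ : ContDiff ℝ ∞ φ) :
    g.Sm I fun t x => φ (F t x) :=
  g.Sm_comp hF isOpen_univ hφ.contDiffOn fun _ _ _ => mem_univ _
lemma Geo.g1a_cmul {I : Set ℝ} {F : ℝ → M → ℝ} (c : ℝ) (hF : g.Sm I F) :
    g.Sm I fun t x => c * F t x :=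
  g.g1a_comp (fun s => c * s) hF (by fun_prop)
theorem Geo.Sm_mul {I : Set ℝ} {F G : ℝ → M → ℝ} (hF : g.Sm I F) (hG : g.Sm I G) :
    g.Sm I fun t x => F t x * G t x := by
  have h : ContDiff ℝ ∞ fun s : ℝ => s ^ 2 := by fun_prop
  refine g.Sm_congr (g.Sm_add (g.g1a_cmul (1 / 2) (g.g1a_comp _ (g.Sm_add hF hG) h))
    (g.g1a_cmul (-1 / 2) (g.Sm_add (g.g1a_comp _ hF h) (g.g1a_comp _ hG h)))) fun t _ => ?_
  funext x
  ring
theorem Geo.Sm_sub {I : Set ℝ} {F G : ℝ → M → ℝ} (hF : g.Sm I F) (hG : g.Sm I G) :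
    g.Sm I fun t x => F t x - G t x := by
  refine g.Sm_congr (g.Sm_add hF (g.g1a_cmul (-1) hG)) fun t _ => ?_
  funext x
  ring
theorem Geo.Sm_neg {I : Set ℝ} {F : ℝ → M → ℝ} (hF : g.Sm I F) : g.Sm I fun t x => -F t x := by
  exact g.g1a_comp (fun s => -s) hF contDiff_neg
theorem Geo.Sm_sum {ι : Type*} (s : Finset ι) {I : Set ℝ} {F : ι → ℝ → M → ℝ}
    (hF : ∀ i ∈ s, g.Sm I (F i)) : g.Sm I fun t x => ∑ i ∈ s, F i t x := by
  classical
  induction s using Finset.induction_on with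
  | empty => simpa using g.Sm_const I 0
  | insert a s ha ih =>
    simp only [Finset.sum_insert ha]
    exact g.Sm_add (hF a (Finset.mem_insert_self _ _)) (ih fun i hi => hF i (Finset.mem_insert_of_mem hi))
theorem Geo.Sm_comp' {I : Set ℝ} {F : ℝ → M → ℝ} {φ : ℝ → ℝ} (hF : g.Sm I F) (hφ : ContDiff ℝ ∞ φ) :
    g.Sm I fun t x => φ (F t x) := by
  exact g.g1a_comp φ hF hφ
theorem Geo.Sm_log {I : Set ℝ} {F : ℝ → M → ℝ} (hF : g.Sm I F) (h0 : ∀ t ∈ I, ∀ x, 0 < F t x) :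
    g.Sm I fun t x => Real.log (F t x) := by
  exact g.Sm_comp hF isOpen_Ioi (Real.contDiffOn_log.mono fun s hs => ne_of_gt hs) h0
theorem Geo.Sm_div {I : Set ℝ} {F G : ℝ → M → ℝ} (hF : g.Sm I F) (hG : g.Sm I G)
    (h0 : ∀ t ∈ I, ∀ x, 0 < G t x) : g.Sm I fun t x => F t x / G t x := by
  simp only [div_eq_mul_inv]
  exact g.Sm_mul hF (g.Sm_comp (φ := fun s => s⁻¹) hG isOpen_Ioi
    ((contDiffOn_inv ℝ).mono fun s hs => ne_of_gt hs) h0)
theorem Geo.Sm_rpow {I : Set ℝ} {F : ℝ → M → ℝ} (hF : g.Sm I F) (h0 : ∀ t ∈ I, ∀ x, 0 < F t x)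
    (p : ℝ) : g.Sm I fun t x => F t x ^ p := by
  exact g.Sm_comp (φ := fun s => s ^ p) hF isOpen_Ioi
    (contDiffOn_id.rpow_const_of_ne fun s hs => ne_of_gt hs) h0
theorem Geo.Sm_Γ2 {I : Set ℝ} {F G : ℝ → M → ℝ} (hI : IsOpen I) (hF : g.Sm I F) (hG : g.Sm I G) :
    g.Sm I fun t => g.Γ2 (F t) (G t) := by
  refine g.Sm_congr (g.Sm_add (g.g1a_cmul (1 / 2) (g.Sm_sub (g.Sm_sub (g.Sm_Δ hI (g.Sm_Γ hI hF hG))
    (g.Sm_Γ hI hF (g.Sm_Δ hI hG))) (g.Sm_Γ hI hG (g.Sm_Δ hI hF))))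
    (g.g1a_cmul g.k (g.Sm_Γ hI hF hG))) fun t _ => ?_
  funext x
  simp only [Raw.Γ2]
  ring
theorem Geo.Sm_Hs {I : Set ℝ} {F G W : ℝ → M → ℝ} (hI : IsOpen I) (hF : g.Sm I F) (hG : g.Sm I G)
    (hW : g.Sm I W) : g.Sm I fun t => g.Hs (F t) (G t) (W t) := by
  refine g.Sm_congr (g.g1a_cmul (1 / 2) (g.Sm_sub (g.Sm_add (g.Sm_Γ hI hG (g.Sm_Γ hI hF hW))
    (g.Sm_Γ hI hW (g.Sm_Γ hI hF hG))) (g.Sm_Γ hI hF (g.Sm_Γ hI hG hW)))) fun t _ => ?_
  funext x
  simp only [Raw.Hs]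
  ring
theorem Geo.Sm_D {I : Set ℝ} {F : ℝ → M → ℝ} {a : ℝ → ℝ} (hI : IsOpen I) (hF : g.Sm I F)
    (ha : ContDiffOn ℝ ∞ a I) : g.Sm I fun t => g.D (F t) (a t) := by
  exact g.Sm_add (g.Sm_sub (g.Sm_Γ2 hI hF hF) (g.Sm_mul (g.g1a_cmul 2 (g.Sm_time ha)) (g.Sm_Δ hI hF)))
    (g.g1a_cmul n (g.Sm_time (ha.pow 2)))
theorem Geo.S_cont {f : M → ℝ} (hf : g.S f) : Continuous f := by
  have h := g.Sm_cont ((g.S_iff f).1 hf)
  rw [univ_prod_univ, continuousOn_univ] at h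
  exact h.comp (Continuous.prodMk_right (0 : ℝ))
theorem Geo.S_const (c : ℝ) : g.S fun _ => c := by
  exact (g.S_iff _).2 (g.Sm_const univ c)
theorem Geo.S_add {f f' : M → ℝ} (hf : g.S f) (hf' : g.S f') : g.S fun x => f x + f' x := by
  exact (g.S_iff _).2 (g.Sm_add ((g.S_iff _).1 hf) ((g.S_iff _).1 hf'))
theorem Geo.S_sub {f f' : M → ℝ} (hf : g.S f) (hf' : g.S f') : g.S fun x => f x - f' x := by
  exact (g.S_iff _).2 (g.Sm_sub ((g.S_iff _).1 hf) ((g.S_iff _).1 hf'))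
theorem Geo.S_mul {f f' : M → ℝ} (hf : g.S f) (hf' : g.S f') : g.S fun x => f x * f' x := by
  exact (g.S_iff _).2 (g.Sm_mul ((g.S_iff _).1 hf) ((g.S_iff _).1 hf'))
theorem Geo.S_cmul {f : M → ℝ} (c : ℝ) (hf : g.S f) : g.S fun x => c * f x := by
  exact (g.S_iff _).2 (g.g1a_cmul c ((g.S_iff _).1 hf))
theorem Geo.S_neg {f : M → ℝ} (hf : g.S f) : g.S fun x => -f x := by
  exact (g.S_iff _).2 (g.Sm_neg ((g.S_iff _).1 hf))
theorem Geo.S_sum {ι : Type*} (s : Finset ι) {f : ι → M → ℝ} (hf : ∀ i ∈ s, g.S (f i)) :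
    g.S fun x => ∑ i ∈ s, f i x := by
  exact (g.S_iff _).2 (g.Sm_sum s (F := fun i _ => f i) fun i hi => (g.S_iff _).1 (hf i hi))
theorem Geo.S_prod {ι : Type*} (s : Finset ι) {f : ι → M → ℝ} (hf : ∀ i ∈ s, g.S (f i)) :
    g.S fun x => ∏ i ∈ s, f i x := by
  classical
  induction s using Finset.induction_on with
  | empty => simpa using g.S_const 1
  | insert a s ha ih =>
    simp only [Finset.prod_insert ha]
    exact g.S_mul (hf a (Finset.mem_insert_self _ _)) (ih fun i hi => hf i (Finset.mem_insert_of_mem hi))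
theorem Geo.S_comp {f : M → ℝ} {φ : ℝ → ℝ} {O : Set ℝ} (hf : g.S f) (hO : IsOpen O)
    (hφ : ContDiffOn ℝ ∞ φ O) (hm : ∀ y, f y ∈ O) : g.S fun x => φ (f x) := by
  exact (g.S_iff _).2 (g.Sm_comp ((g.S_iff _).1 hf) hO hφ fun _ _ => hm)
theorem Geo.S_Γ {f f' : M → ℝ} (hf : g.S f) (hf' : g.S f') : g.S (g.Γ f f') := by
  exact (g.S_iff _).2 (g.Sm_Γ isOpen_univ ((g.S_iff _).1 hf) ((g.S_iff _).1 hf'))
theorem Geo.S_Δ {f : M → ℝ} (hf : g.S f) : g.S (g.Δ f) := by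
  exact (g.S_iff _).2 (g.Sm_Δ isOpen_univ ((g.S_iff _).1 hf))
theorem Geo.S_Γ2 {f f' : M → ℝ} (hf : g.S f) (hf' : g.S f') : g.S (g.Γ2 f f') := by
  exact (g.S_iff _).2 (g.Sm_Γ2 isOpen_univ ((g.S_iff _).1 hf) ((g.S_iff _).1 hf'))
theorem Geo.S_D {f : M → ℝ} (hf : g.S f) (a : ℝ) : g.S (g.D f a) := by
  exact (g.S_iff _).2 (g.Sm_D (a := fun _ => a) isOpen_univ ((g.S_iff _).1 hf) contDiffOn_const)
theorem Geo.S_Hs {f f' w : M → ℝ} (hf : g.S f) (hf' : g.S f') (hw : g.S w) : g.S (g.Hs f f' w) := by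
  exact (g.S_iff _).2 (g.Sm_Hs isOpen_univ ((g.S_iff _).1 hf) ((g.S_iff _).1 hf') ((g.S_iff _).1 hw))
end a

section b
theorem Geo.grad_const (c : ℝ) (x : M) : g.grad (fun _ => c) x = 0 := by
  simpa using g.grad_comp (φ := fun _ => c) (g.S_const 0) isOpen_univ contDiffOn_const
    (fun _ => mem_univ _) x
theorem Geo.hess_const (c : ℝ) (x : M) : g.hess (fun _ => c) x = 0 := by
  simpa using g.hess_comp (φ := fun _ => c) (g.S_const 0) isOpen_univ contDiffOn_const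
    (fun _ => mem_univ _) x
lemma g1b_d1 (c : ℝ) : deriv (fun s : ℝ => c * s) = fun _ => c := by
  funext s; simp
lemma g1b_d2 : deriv (fun s : ℝ => s ^ 2) = fun s => 2 * s := by
  funext s; simp
theorem Geo.grad_cmul {f : M → ℝ} (c : ℝ) (hf : g.S f) (x : M) :
    g.grad (fun y => c * f y) x = c • g.grad f x := by
  have := g.grad_comp (φ := fun s => c * s) hf isOpen_univ (by fun_prop) (fun _ => mem_univ _) x
  rwa [g1b_d1] at this
theorem Geo.hess_cmul {f : M → ℝ} (c : ℝ) (hf : g.S f) (x : M) :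
    g.hess (fun y => c * f y) x = c • g.hess f x := by
  have := g.hess_comp (φ := fun s => c * s) hf isOpen_univ (by fun_prop) (fun _ => mem_univ _) x
  rw [g1b_d1] at this
  simpa using this
theorem Geo.grad_sub {f f' : M → ℝ} (hf : g.S f) (hf' : g.S f') (x : M) :
    g.grad (fun y => f y - f' y) x = g.grad f x - g.grad f' x := by
  have := g.grad_add hf (g.S_cmul (-1) hf') x
  rw [g.grad_cmul (-1) hf'] at this
  simpa [sub_eq_add_neg] using this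
theorem Geo.hess_sub {f f' : M → ℝ} (hf : g.S f) (hf' : g.S f') (x : M) :
    g.hess (fun y => f y - f' y) x = g.hess f x - g.hess f' x := by
  have := g.hess_add hf (g.S_cmul (-1) hf') x
  rw [g.hess_cmul (-1) hf'] at this
  simpa [sub_eq_add_neg] using this
lemma Geo.g1b_sq {f : M → ℝ} (hf : g.S f) (x : M) : g.S (fun y => f y ^ 2) ∧
    g.grad (fun y => f y ^ 2) x = (2 * f x) • g.grad f x ∧
    g.hess (fun y => f y ^ 2) x = (2 * f x) • g.hess f x +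
      (2 : ℝ) • vecMulVec (g.grad f x) (g.grad f x) := by
  have h : ContDiffOn ℝ ∞ (fun s : ℝ => s ^ 2) univ := by fun_prop
  have h1 := g.grad_comp hf isOpen_univ h (fun _ => mem_univ _) x
  have h2 := g.hess_comp hf isOpen_univ h (fun _ => mem_univ _) x
  rw [g1b_d2] at h1 h2
  rw [g1b_d1] at h2
  exact ⟨g.S_comp hf isOpen_univ h fun _ => mem_univ _, h1, h2⟩
lemma g1b_pol (f f' : M → ℝ) : (fun y => f y * f' y) =
    fun y => 1 / 4 * ((f y + f' y) ^ 2 - (f y - f' y) ^ 2) := by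
  funext y; ring
theorem Geo.grad_mul {f f' : M → ℝ} (hf : g.S f) (hf' : g.S f') (x : M) :
    g.grad (fun y => f y * f' y) x = f x • g.grad f' x + f' x • g.grad f x := by
  obtain ⟨a1, a2, -⟩ := g.g1b_sq (g.S_add hf hf') x
  obtain ⟨b1, b2, -⟩ := g.g1b_sq (g.S_sub hf hf') x
  rw [g1b_pol, g.grad_cmul _ (g.S_sub a1 b1), g.grad_sub a1 b1, a2, b2, g.grad_add hf hf',
    g.grad_sub hf hf']
  module
theorem Geo.hess_mul {f f' : M → ℝ} (hf : g.S f) (hf' : g.S f') (x : M) :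
    g.hess (fun y => f y * f' y) x = f x • g.hess f' x + f' x • g.hess f x +
      vecMulVec (g.grad f x) (g.grad f' x) + vecMulVec (g.grad f' x) (g.grad f x) := by
  obtain ⟨a1, -, a2⟩ := g.g1b_sq (g.S_add hf hf') x
  obtain ⟨b1, -, b2⟩ := g.g1b_sq (g.S_sub hf hf') x
  rw [g1b_pol, g.hess_cmul _ (g.S_sub a1 b1), g.hess_sub a1 b1, a2, b2, g.grad_add hf hf',
    g.grad_sub hf hf', g.hess_add hf hf', g.hess_sub hf hf']
  ext i j
  simp [vecMulVec_apply]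
  ring
theorem Geo.grad_sum {ι : Type*} (s : Finset ι) {f : ι → M → ℝ} (hf : ∀ i ∈ s, g.S (f i)) (x : M) :
    g.grad (fun y => ∑ i ∈ s, f i y) x = ∑ i ∈ s, g.grad (f i) x := by
  classical
  induction s using Finset.induction_on with
  | empty => simpa using g.grad_const 0 x
  | insert a s ha ih =>
    have h : ∀ i ∈ s, g.S (f i) := fun i hi => hf i (Finset.mem_insert_of_mem hi)
    simp only [Finset.sum_insert ha]
    rw [g.grad_add (hf a (Finset.mem_insert_self _ _)) (g.S_sum s h), ih h]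
theorem Geo.hess_sum {ι : Type*} (s : Finset ι) {f : ι → M → ℝ} (hf : ∀ i ∈ s, g.S (f i)) (x : M) :
    g.hess (fun y => ∑ i ∈ s, f i y) x = ∑ i ∈ s, g.hess (f i) x := by
  classical
  induction s using Finset.induction_on with
  | empty => simpa using g.hess_const 0 x
  | insert a s ha ih =>
    have h : ∀ i ∈ s, g.S (f i) := fun i hi => hf i (Finset.mem_insert_of_mem hi)
    simp only [Finset.sum_insert ha]
    rw [g.hess_add (hf a (Finset.mem_insert_self _ _)) (g.S_sum s h), ih h]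
theorem Geo.Γ_comm (f f' : M → ℝ) (x : M) : g.Γ f f' x = g.Γ f' f x := by
  exact dotProduct_comm _ _
theorem Geo.Γ_nonneg (f : M → ℝ) (x : M) : 0 ≤ g.Γ f f x := by
  unfold Raw.Γ dotProduct
  exact Finset.sum_nonneg fun i _ => mul_self_nonneg _
theorem Geo.abs_Γ_le (f f' : M → ℝ) (x : M) :
    |g.Γ f f' x| ≤ Real.sqrt (g.Γ f f x) * Real.sqrt (g.Γ f' f' x) := by
  rw [← Real.sqrt_mul (g.Γ_nonneg f x)]
  refine Real.abs_le_sqrt ?_
  simpa only [Raw.Γ, dotProduct, sq] using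
    Finset.sum_mul_sq_le_sq_mul_sq Finset.univ (g.grad f x) (g.grad f' x)
theorem Geo.sqrt_Γ_add_le {f f' : M → ℝ} (hf : g.S f) (hf' : g.S f') (x : M) :
    Real.sqrt (g.Γ (fun y => f y + f' y) (fun y => f y + f' y) x) ≤
      Real.sqrt (g.Γ f f x) + Real.sqrt (g.Γ f' f' x) := by
  have h := (le_abs_self _).trans (g.abs_Γ_le f f' x)
  have e : g.Γ (fun y => f y + f' y) (fun y => f y + f' y) x =
      g.Γ f f x + g.Γ f' f' x + 2 * g.Γ f f' x := by
    simp only [Raw.Γ, g.grad_add hf hf', add_dotProduct, dotProduct_add,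
      dotProduct_comm (g.grad f' x) (g.grad f x)]
    ring
  refine Real.sqrt_le_iff.2 ⟨by positivity, ?_⟩
  rw [e, add_sq, Real.sq_sqrt (g.Γ_nonneg f x), Real.sq_sqrt (g.Γ_nonneg f' x)]
  linarith
theorem Geo.Γ_sub_le {f f' : M → ℝ} (hf : g.S f) (hf' : g.S f') (x : M) :
    g.Γ (fun y => f y - f' y) (fun y => f y - f' y) x ≤ 2 * g.Γ f f x + 2 * g.Γ f' f' x := by
  simp only [Raw.Γ, g.grad_sub hf hf', dotProduct, Finset.mul_sum, ← Finset.sum_add_distrib,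
    Pi.sub_apply]
  exact Finset.sum_le_sum fun i _ => by nlinarith [sq_nonneg (g.grad f x i + g.grad f' x i)]
theorem Geo.Γ_add_left {f f' : M → ℝ} (hf : g.S f) (hf' : g.S f') (w : M → ℝ) (x : M) :
    g.Γ (fun y => f y + f' y) w x = g.Γ f w x + g.Γ f' w x := by
  simp only [Raw.Γ, g.grad_add hf hf', add_dotProduct]
theorem Geo.Γ_sub_left {f f' : M → ℝ} (hf : g.S f) (hf' : g.S f') (w : M → ℝ) (x : M) :
    g.Γ (fun y => f y - f' y) w x = g.Γ f w x - g.Γ f' w x := by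
  simp only [Raw.Γ, g.grad_sub hf hf', sub_dotProduct]
theorem Geo.Γ_cmul_left {f : M → ℝ} (c : ℝ) (hf : g.S f) (w : M → ℝ) (x : M) :
    g.Γ (fun y => c * f y) w x = c * g.Γ f w x := by
  simp only [Raw.Γ, g.grad_cmul c hf, smul_dotProduct, smul_eq_mul]
theorem Geo.Γ_const_left (c : ℝ) (w : M → ℝ) (x : M) : g.Γ (fun _ => c) w x = 0 := by
  simp only [Raw.Γ, g.grad_const, zero_dotProduct]
theorem Geo.Γ_mul_left {f f' : M → ℝ} (hf : g.S f) (hf' : g.S f') (w : M → ℝ) (x : M) :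
    g.Γ (fun y => f y * f' y) w x = f x * g.Γ f' w x + f' x * g.Γ f w x := by
  simp only [Raw.Γ, g.grad_mul hf hf', add_dotProduct, smul_dotProduct, smul_eq_mul]
theorem Geo.Γ_sum_left {ι : Type*} (s : Finset ι) {f : ι → M → ℝ} (hf : ∀ i ∈ s, g.S (f i))
    (w : M → ℝ) (x : M) : g.Γ (fun y => ∑ i ∈ s, f i y) w x = ∑ i ∈ s, g.Γ (f i) w x := by
  simp only [Raw.Γ, g.grad_sum s hf, sum_dotProduct]
theorem Geo.Γ_comp_left {f : M → ℝ} {φ : ℝ → ℝ} {O : Set ℝ} (hf : g.S f) (hO : IsOpen O)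
    (hφ : ContDiffOn ℝ ∞ φ O) (hm : ∀ y, f y ∈ O) (w : M → ℝ) (x : M) :
    g.Γ (fun y => φ (f y)) w x = deriv φ (f x) * g.Γ f w x := by
  simp only [Raw.Γ, g.grad_comp hf hO hφ hm, smul_dotProduct, smul_eq_mul]
theorem Geo.Δ_const (c : ℝ) (x : M) : g.Δ (fun _ => c) x = 0 := by
  simp only [Raw.Δ, g.hess_const, trace_zero]
theorem Geo.Δ_add {f f' : M → ℝ} (hf : g.S f) (hf' : g.S f') (x : M) :
    g.Δ (fun y => f y + f' y) x = g.Δ f x + g.Δ f' x := by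
  simp only [Raw.Δ, g.hess_add hf hf', trace_add]
theorem Geo.Δ_sub {f f' : M → ℝ} (hf : g.S f) (hf' : g.S f') (x : M) :
    g.Δ (fun y => f y - f' y) x = g.Δ f x - g.Δ f' x := by
  simp only [Raw.Δ, g.hess_sub hf hf', trace_sub]
theorem Geo.Δ_cmul {f : M → ℝ} (c : ℝ) (hf : g.S f) (x : M) :
    g.Δ (fun y => c * f y) x = c * g.Δ f x := by
  simp only [Raw.Δ, g.hess_cmul c hf, trace_smul, smul_eq_mul]
theorem Geo.Δ_mul {f f' : M → ℝ} (hf : g.S f) (hf' : g.S f') (x : M) :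
    g.Δ (fun y => f y * f' y) x = f x * g.Δ f' x + f' x * g.Δ f x + 2 * g.Γ f f' x := by
  simp only [Raw.Δ, Raw.Γ, g.hess_mul hf hf', trace_add, trace_smul, smul_eq_mul, trace_vecMulVec,
    dotProduct_comm (g.grad f' x) (g.grad f x)]
  ring
theorem Geo.Δ_sum {ι : Type*} (s : Finset ι) {f : ι → M → ℝ} (hf : ∀ i ∈ s, g.S (f i)) (x : M) :
    g.Δ (fun y => ∑ i ∈ s, f i y) x = ∑ i ∈ s, g.Δ (f i) x := by
  simp only [Raw.Δ, g.hess_sum s hf, trace_sum]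
theorem Geo.Δ_comp {f : M → ℝ} {φ : ℝ → ℝ} {O : Set ℝ} (hf : g.S f) (hO : IsOpen O)
    (hφ : ContDiffOn ℝ ∞ φ O) (hm : ∀ y, f y ∈ O) (x : M) :
    g.Δ (fun y => φ (f y)) x = deriv φ (f x) * g.Δ f x + deriv (deriv φ) (f x) * g.Γ f f x := by
  simp only [Raw.Δ, Raw.Γ, g.hess_comp hf hO hφ hm, trace_add, trace_smul, smul_eq_mul,
    trace_vecMulVec]
/-- Off the support the gradient and the Laplacian vanish (`grad_congr`, `hess_congr`). -/
theorem Geo.grad_eq_zero {f : M → ℝ} {x : M} (hx : x ∉ tsupport f) :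
    g.grad f x = 0 ∧ g.hess f x = 0 := by
  have h : f =ᶠ[𝓝 x] fun _ => 0 := notMem_tsupport_iff_eventuallyEq.1 hx
  exact ⟨(g.grad_congr h).trans (g.grad_const 0 x), (g.hess_congr h).trans (g.hess_const 0 x)⟩
theorem Geo.cs_Γ {f : M → ℝ} (hf : HasCompactSupport f) (w : M → ℝ) :
    HasCompactSupport (g.Γ f w) := by
  refine HasCompactSupport.intro hf fun x hx => ?_
  simp only [Raw.Γ, (g.grad_eq_zero hx).1, zero_dotProduct]
theorem Geo.cs_Δ {f : M → ℝ} (hf : HasCompactSupport f) : HasCompactSupport (g.Δ f) := by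
  refine HasCompactSupport.intro hf fun x hx => ?_
  simp only [Raw.Δ, (g.grad_eq_zero hx).2, trace_zero]
end b

section c
lemma g1c_symm {A : Mat n} (hA : A.IsSymm) (u v : V n) : v ⬝ᵥ A *ᵥ u = u ⬝ᵥ A *ᵥ v := by
  rw [dotProduct_mulVec, ← mulVec_transpose, hA.eq, dotProduct_comm]
lemma g1c_tr (H X : Mat n) (a : ℝ) : ∑ i, ∑ j, (H - a • (1 : Mat n)) i j * X i j =
    (∑ i, ∑ j, H i j * X i j) - a * X.trace := by
  simp [sub_mul, Finset.sum_sub_distrib, one_apply, trace, Finset.mul_sum]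
lemma g1c_cs {A : Mat n} (hA : A.PosSemidef) (X Y : Mat n) (u v : V n) :
    |(∑ i, ∑ j, X i j * Y i j) + bf A u v| ≤ Real.sqrt ((∑ i, ∑ j, X i j * X i j) + bf A u u) *
      Real.sqrt ((∑ i, ∑ j, Y i j * Y i j) + bf A v v) := by
  have hs : A.IsSymm := by simpa [IsSymm, IsHermitian] using hA.isHermitian
  have h0 : ∀ (X : Mat n) (u : V n), 0 ≤ (∑ i, ∑ j, X i j * X i j) + bf A u u := fun X u =>
    add_nonneg (Finset.sum_nonneg fun i _ => Finset.sum_nonneg fun j _ => mul_self_nonneg _)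
      (by simpa [bf] using hA.dotProduct_mulVec_nonneg u)
  have h1 := discrim_le_zero (a := (∑ i, ∑ j, Y i j * Y i j) + bf A v v)
    (b := 2 * ((∑ i, ∑ j, X i j * Y i j) + bf A u v))
    (c := (∑ i, ∑ j, X i j * X i j) + bf A u u) fun t => by
      have e : ∑ i, ∑ j, (X + t • Y) i j * (X + t • Y) i j = (∑ i, ∑ j, Y i j * Y i j) * (t * t) +
          2 * (∑ i, ∑ j, X i j * Y i j) * t + ∑ i, ∑ j, X i j * X i j := by
        simp only [Finset.mul_sum, Finset.sum_mul, ← Finset.sum_add_distrib, Matrix.add_apply, Matrix.smul_apply,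
          smul_eq_mul]
        exact Finset.sum_congr rfl fun i _ => Finset.sum_congr rfl fun j _ => by ring
      have := h0 (X + t • Y) (u + t • v)
      rw [e] at this
      simp only [bf, mulVec_add, mulVec_smul, add_dotProduct, dotProduct_add, smul_dotProduct,
        dotProduct_smul, smul_eq_mul, g1c_symm hs u v] at this ⊢
      linarith
  rw [← Real.sqrt_mul (h0 X u)]
  refine Real.abs_le_sqrt ?_
  rw [discrim] at h1
  nlinarith
/-- Polarised Bochner formula (apply `bochner` to `f + f'`, `f`, `f'`). -/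
theorem Geo.Γ2_eq {f f' : M → ℝ} (hf : g.S f) (hf' : g.S f') (x : M) :
    g.Γ2 f f' x = (∑ i, ∑ j, g.hess f x i j * g.hess f' x i j) +
      bf (g.ric x + g.k • (1 : Mat n)) (g.grad f x) (g.grad f' x) := by
  have e1 : g.Γ (fun y => f y + f' y) (fun y => f y + f' y) =
      fun y => (g.Γ f f y + g.Γ f' f' y) + 2 * g.Γ f f' y := by
    funext y
    simp only [Raw.Γ, g.grad_add hf hf', add_dotProduct, dotProduct_add,
      dotProduct_comm (g.grad f' y) (g.grad f y)]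
    ring
  have e2 : g.Δ (fun y => f y + f' y) = fun y => g.Δ f y + g.Δ f' y := funext (g.Δ_add hf hf')
  have e3 : ∑ i, ∑ j, (g.hess f x + g.hess f' x) i j ^ 2 = (∑ i, ∑ j, g.hess f x i j ^ 2) +
      (∑ i, ∑ j, g.hess f' x i j ^ 2) + 2 * ∑ i, ∑ j, g.hess f x i j * g.hess f' x i j := by
    simp only [Finset.mul_sum, ← Finset.sum_add_distrib, Matrix.add_apply]
    exact Finset.sum_congr rfl fun i _ => Finset.sum_congr rfl fun j _ => by ring
  have h := g.bochner (g.S_add hf hf') x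
  have h1 := g.bochner hf x
  have h2 := g.bochner hf' x
  rw [e1, e2, g.Δ_add (g.S_add (g.S_Γ hf hf) (g.S_Γ hf' hf')) (g.S_cmul 2 (g.S_Γ hf hf')),
    g.Δ_add (g.S_Γ hf hf) (g.S_Γ hf' hf'), g.Δ_cmul 2 (g.S_Γ hf hf'), g.hess_add hf hf', e3,
    g.Γ_add_left hf hf', g.Γ_comm f, g.Γ_comm f', g.Γ_add_left (g.S_Δ hf) (g.S_Δ hf'),
    g.Γ_add_left (g.S_Δ hf) (g.S_Δ hf'), g.grad_add hf hf', h1, h2] at h
  rw [Raw.Γ2, g.Γ_comm f (g.Δ f'), g.Γ_comm f' (g.Δ f)]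
  rw [g.Γ_comm f (g.Δ f), g.Γ_comm f' (g.Δ f')] at h
  simp only [qf, bf, mulVec_add, add_dotProduct, dotProduct_add, add_mulVec, smul_mulVec, one_mulVec,
    dotProduct_smul, smul_eq_mul, g1c_symm (g.ric_symm x) (g.grad f x) (g.grad f' x)] at h ⊢
  rw [Raw.Γ.eq_1 g.toRaw f f' x]
  linarith
theorem Geo.D_eq {f : M → ℝ} (hf : g.S f) (a : ℝ) (x : M) :
    g.D f a x = (∑ i, ∑ j, (g.hess f x - a • (1 : Mat n)) i j ^ 2) +
      qf (g.ric x + g.k • (1 : Mat n)) (g.grad f x) := by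
  simp only [sq]
  rw [g1c_tr, trace_sub, trace_smul, trace_one, Fintype.card_fin, smul_eq_mul]
  simp only [mul_comm (g.hess f x _ _) ((g.hess f x - a • (1 : Mat n)) _ _)]
  rw [g1c_tr, Raw.D, g.Γ2_eq hf hf, Raw.Δ, qf, bf]
  ring
theorem Geo.Hs_eq {f f' w : M → ℝ} (hf : g.S f) (hf' : g.S f') (hw : g.S w) (x : M) :
    g.Hs f f' w x = bf (g.hess f x) (g.grad f' x) (g.grad w x) := by
  simp only [Raw.Hs, Raw.Γ.eq_1 g.toRaw _ (g.Γ _ _), g.grad_Γ hf hw, g.grad_Γ hf hf', g.grad_Γ hf' hw,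
    dotProduct_add, bf, g1c_symm (g.hess_symm hf x) (g.grad f' x) (g.grad w x),
    g1c_symm (g.hess_symm hf' x) (g.grad f x) (g.grad w x),
    g1c_symm (g.hess_symm hw x) (g.grad f x) (g.grad f' x)]
  ring
theorem Geo.ricK_psd (x : M) : (g.ric x + g.k • (1 : Mat n)).PosSemidef := by
  refine PosSemidef.of_dotProduct_mulVec_nonneg ?_ fun v => ?_
  · have := (g.ric_symm x).add (isSymm_one.smul g.k)
    simpa [IsSymm, IsHermitian] using this
  · have := g.ric_ge x v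
    simp only [qf, star_trivial, add_mulVec, smul_mulVec, one_mulVec, dotProduct_add, dotProduct_smul,
      smul_eq_mul] at this ⊢
    linarith
theorem Geo.D_zero (f : M → ℝ) (x : M) : g.D f 0 x = g.Γ2 f f x := by
  simp [Raw.D]
theorem Geo.D_nonneg {f : M → ℝ} (hf : g.S f) (a : ℝ) (x : M) : 0 ≤ g.D f a x := by
  rw [g.D_eq hf]
  exact add_nonneg (Finset.sum_nonneg fun i _ => Finset.sum_nonneg fun j _ => sq_nonneg _)
    (by simpa [qf] using (g.ricK_psd x).dotProduct_mulVec_nonneg (g.grad f x))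
theorem Geo.Γ2_nonneg {f : M → ℝ} (hf : g.S f) (x : M) : 0 ≤ g.Γ2 f f x := by
  rw [← g.D_zero]
  exact g.D_nonneg hf 0 x
theorem Geo.Γ2_comm (f f' : M → ℝ) (x : M) : g.Γ2 f f' x = g.Γ2 f' f x := by
  have e : g.Γ f f' = g.Γ f' f := funext (g.Γ_comm f f')
  simp only [Raw.Γ2, e]
  ring
lemma Geo.g1c_sum {ι : Type*} (s : Finset ι) {f : ι → M → ℝ} (hf : ∀ i ∈ s, g.S (f i))
    (a : ι → ℝ) {w : M → ℝ} (hw : g.S w) (x : M) :
    g.Γ2 (fun y => ∑ i ∈ s, a i * f i y) w x = ∑ i ∈ s, a i * g.Γ2 (f i) w x := by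
  have h : ∀ i ∈ s, g.S fun y => a i * f i y := fun i hi => g.S_cmul _ (hf i hi)
  rw [g.Γ2_eq (g.S_sum s h) hw, g.hess_sum s h, g.grad_sum s h,
    Finset.sum_congr rfl fun i hi => g.hess_cmul (a i) (hf i hi) x,
    Finset.sum_congr rfl fun i hi => g.grad_cmul (a i) (hf i hi) x,
    Finset.sum_congr rfl fun i hi => congrArg (a i * ·) (g.Γ2_eq (hf i hi) hw x)]
  simp only [bf, sum_dotProduct, smul_dotProduct, smul_eq_mul, mul_add, Finset.sum_add_distrib,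
    Matrix.sum_apply, Matrix.smul_apply, Finset.sum_mul, Finset.mul_sum, mul_assoc]
  congr 1
  rw [Finset.sum_comm (s := s)]
  exact Finset.sum_congr rfl fun i _ => Finset.sum_comm
theorem Geo.Γ2_sum {ι : Type*} (s : Finset ι) {f : ι → M → ℝ} (hf : ∀ i ∈ s, g.S (f i))
    (a b : ι → ℝ) (x : M) :
    g.Γ2 (fun y => ∑ i ∈ s, a i * f i y) (fun y => ∑ i ∈ s, b i * f i y) x =
      ∑ i ∈ s, ∑ j ∈ s, a i * b j * g.Γ2 (f i) (f j) x := by
  rw [g.g1c_sum s hf a (g.S_sum s fun i hi => g.S_cmul _ (hf i hi))]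
  refine Finset.sum_congr rfl fun i hi => ?_
  rw [g.Γ2_comm, g.g1c_sum s hf b (hf i hi), Finset.mul_sum]
  exact Finset.sum_congr rfl fun j _ => by rw [g.Γ2_comm, mul_assoc]
/-- Cauchy-Schwarz for the deficit form. -/
theorem Geo.abs_Γ2_sub_le {f f' : M → ℝ} (hf : g.S f) (hf' : g.S f') (a : ℝ) (x : M) :
    |g.Γ2 f f' x - a * g.Δ f' x| ≤ Real.sqrt (g.D f a x) * Real.sqrt (g.Γ2 f' f' x) := by
  have h := g1c_cs (g.ricK_psd x) (g.hess f x - a • (1 : Mat n)) (g.hess f' x) (g.grad f x)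
    (g.grad f' x)
  rw [g.D_eq hf, g.Γ2_eq hf hf', g.Γ2_eq hf' hf', Raw.Δ]
  rw [g1c_tr (g.hess f x) (g.hess f' x)] at h
  simp only [sq]
  convert h using 2
  · ring
  · rfl
lemma g1d_add {A : Mat n} (hA : A.PosSemidef) (X Y : Mat n) (u v : V n) {t : ℝ} (ht : t * t = 1) :
    (∑ i, ∑ j, (X + t • Y) i j * (X + t • Y) i j) + bf A (u + t • v) (u + t • v) ≤
      2 * ((∑ i, ∑ j, X i j * X i j) + bf A u u) + 2 * ((∑ i, ∑ j, Y i j * Y i j) + bf A v v) := by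
  have h1 : ∑ i, ∑ j, (X + t • Y) i j * (X + t • Y) i j ≤
      2 * (∑ i, ∑ j, X i j * X i j) + 2 * ∑ i, ∑ j, Y i j * Y i j := by
    simp only [Finset.mul_sum, ← Finset.sum_add_distrib, Matrix.add_apply, Matrix.smul_apply,
      smul_eq_mul]
    refine Finset.sum_le_sum fun i _ => Finset.sum_le_sum fun j _ => ?_
    have : t * Y i j * (t * Y i j) = Y i j * Y i j := by linear_combination (Y i j * Y i j) * ht
    nlinarith [sq_nonneg (X i j - t * Y i j)]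
  have h2 := hA.dotProduct_mulVec_nonneg (u - t • v)
  simp only [bf, star_trivial, mulVec_add, mulVec_sub, mulVec_smul, add_dotProduct, dotProduct_add,
    sub_dotProduct, dotProduct_sub, smul_dotProduct, dotProduct_smul, smul_eq_mul, mul_add, mul_sub,
    ← mul_assoc, ht, one_mul] at h2 ⊢
  linarith
lemma g1d_bf (X : Mat n) (u v : V n) : |bf X u v| ≤
    Real.sqrt (∑ i, ∑ j, X i j ^ 2) * Real.sqrt (u ⬝ᵥ u) * Real.sqrt (v ⬝ᵥ v) := by
  have h := g1c_cs (PosSemidef.zero (n := Fin n) (R := ℝ)) X (vecMulVec u v) 0 0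
  have e1 : ∑ i, ∑ j, X i j * vecMulVec u v i j = bf X u v := by
    simp only [bf, dotProduct, mulVec, vecMulVec_apply, Finset.mul_sum]
    exact Finset.sum_congr rfl fun i _ => Finset.sum_congr rfl fun j _ => by ring
  have e2 : ∑ i, ∑ j, vecMulVec u v i j * vecMulVec u v i j = u ⬝ᵥ u * v ⬝ᵥ v := by
    simp only [dotProduct, vecMulVec_apply, Finset.sum_mul_sum]
    exact Finset.sum_congr rfl fun i _ => Finset.sum_congr rfl fun j _ => by ring
  have h0 : 0 ≤ u ⬝ᵥ u := by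
    unfold dotProduct
    exact Finset.sum_nonneg fun i _ => mul_self_nonneg _
  rw [e1, e2] at h
  simpa only [bf, zero_dotProduct, add_zero, sq, Real.sqrt_mul h0, mul_assoc] using h
theorem Geo.Γ2_add_le {f f' : M → ℝ} (hf : g.S f) (hf' : g.S f') (x : M) :
    g.Γ2 (fun y => f y + f' y) (fun y => f y + f' y) x ≤ 2 * g.Γ2 f f x + 2 * g.Γ2 f' f' x := by
  have h := g1d_add (g.ricK_psd x) (g.hess f x) (g.hess f' x) (g.grad f x) (g.grad f' x) (one_mul 1)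
  rw [one_smul, one_smul] at h
  rwa [g.Γ2_eq (g.S_add hf hf') (g.S_add hf hf'), g.Γ2_eq hf hf, g.Γ2_eq hf' hf', g.hess_add hf hf',
    g.grad_add hf hf']
theorem Geo.Γ2_sub_le {f f' : M → ℝ} (hf : g.S f) (hf' : g.S f') (a : ℝ) (x : M) :
    g.Γ2 (fun y => f y - f' y) (fun y => f y - f' y) x ≤ 2 * g.D f a x + 2 * g.D f' a x := by
  have h := g1d_add (g.ricK_psd x) (g.hess f x - a • (1 : Mat n)) (g.hess f' x - a • (1 : Mat n))
    (g.grad f x) (g.grad f' x) (t := -1) (by norm_num)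
  rw [neg_one_smul, neg_one_smul, ← sub_eq_add_neg, ← sub_eq_add_neg, sub_sub_sub_cancel_right] at h
  rw [g.Γ2_eq (g.S_sub hf hf') (g.S_sub hf hf'), g.D_eq hf, g.D_eq hf', g.hess_sub hf hf',
    g.grad_sub hf hf']
  simpa only [sq, qf, bf] using h
theorem Geo.D_cmul {f : M → ℝ} (hf : g.S f) (c a : ℝ) (x : M) :
    g.D (fun y => c * f y) (c * a) x = c ^ 2 * g.D f a x := by
  rw [g.D_eq (g.S_cmul c hf), g.D_eq hf, g.hess_cmul c hf, g.grad_cmul c hf, mul_smul, ← smul_sub]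
  simp only [Matrix.smul_apply, smul_eq_mul, mul_pow, ← Finset.mul_sum, qf, mulVec_smul,
    smul_dotProduct, dotProduct_smul]
  ring
lemma Geo.g1d_D {f : M → ℝ} (hf : g.S f) (a : ℝ) (x : M) :
    ∑ i, ∑ j, (g.hess f x - a • (1 : Mat n)) i j ^ 2 ≤ g.D f a x := by
  rw [g.D_eq hf]
  exact le_add_of_nonneg_right
    (by simpa [qf] using (g.ricK_psd x).dotProduct_mulVec_nonneg (g.grad f x))
theorem Geo.Δ_sub_sq_le {f : M → ℝ} (hf : g.S f) (a : ℝ) (x : M) :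
    (g.Δ f x - n * a) ^ 2 ≤ n * g.D f a x := by
  have e : g.Δ f x - n * a = ∑ i, (g.hess f x - a • (1 : Mat n)) i i := by
    simp [Raw.Δ, trace, Finset.sum_sub_distrib]
  rw [e]
  refine sq_sum_le_card_mul_sum_sq.trans ?_
  rw [Finset.card_univ, Fintype.card_fin]
  refine mul_le_mul_of_nonneg_left (le_trans ?_ (g.g1d_D hf a x)) (Nat.cast_nonneg n)
  exact Finset.sum_le_sum fun i _ => Finset.single_le_sum
    (f := fun j => (g.hess f x - a • (1 : Mat n)) i j ^ 2) (fun j _ => sq_nonneg _) (Finset.mem_univ i)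
theorem Geo.abs_Hs_sub_le {f f' w : M → ℝ} (hf : g.S f) (hf' : g.S f') (hw : g.S w) (a : ℝ) (x : M) :
    |g.Hs f f' w x - a * g.Γ f' w x| ≤
      Real.sqrt (g.D f a x) * Real.sqrt (g.Γ f' f' x) * Real.sqrt (g.Γ w w x) := by
  have h := g1d_bf (g.hess f x - a • (1 : Mat n)) (g.grad f' x) (g.grad w x)
  have e : g.Hs f f' w x - a * g.Γ f' w x =
      bf (g.hess f x - a • (1 : Mat n)) (g.grad f' x) (g.grad w x) := by
    rw [g.Hs_eq hf hf' hw]
    simp only [bf, Raw.Γ, sub_mulVec, smul_mulVec, one_mulVec, dotProduct_sub, dotProduct_smul,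
      smul_eq_mul]
  rw [e]
  refine h.trans ?_
  unfold Raw.Γ
  gcongr
  exact g.g1d_D hf a x
theorem Geo.Γ_Γ_left {f f' w : M → ℝ} (hf : g.S f) (hf' : g.S f') (hw : g.S w) (x : M) :
    g.Γ (g.Γ f f') w x = g.Hs f f' w x + g.Hs f' f w x := by
  rw [g.Hs_eq hf hf' hw, g.Hs_eq hf' hf hw, Raw.Γ.eq_1 g.toRaw (g.Γ f f'), g.grad_Γ hf hf',
    add_dotProduct, dotProduct_comm _ (g.grad w x), dotProduct_comm _ (g.grad w x),
    g1c_symm (g.hess_symm hf x), g1c_symm (g.hess_symm hf' x), bf, bf]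
/-- `|∇(Γ(f,f') - a f')| ≤ √D(f,a) |∇f'| + √Γ2(f') |∇f|`. -/
theorem Geo.sqrt_Γ_Γ_sub_le {f f' : M → ℝ} (hf : g.S f) (hf' : g.S f') (a : ℝ) (x : M) :
    Real.sqrt (g.Γ (fun y => g.Γ f f' y - a * f' y) (fun y => g.Γ f f' y - a * f' y) x) ≤
      Real.sqrt (g.D f a x) * Real.sqrt (g.Γ f' f' x) +
        Real.sqrt (g.Γ2 f' f' x) * Real.sqrt (g.Γ f f x) := by
  have hw := g.S_sub (g.S_Γ hf hf') (g.S_cmul a hf')
  have h0 := g.Γ_sub_left (g.S_Γ hf hf') (g.S_cmul a hf') (fun y => g.Γ f f' y - a * f' y) x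
  rw [g.Γ_cmul_left a hf', g.Γ_Γ_left hf hf' hw] at h0
  have h1 := (le_abs_self _).trans (g.abs_Hs_sub_le hf hf' hw a x)
  have h2 := (le_abs_self _).trans (g.abs_Hs_sub_le hf' hf hw 0 x)
  rw [g.D_zero, zero_mul, sub_zero] at h2
  have h3 := Real.mul_self_sqrt (g.Γ_nonneg (fun y => g.Γ f f' y - a * f' y) x)
  have h4 : 0 ≤ Real.sqrt (g.D f a x) * Real.sqrt (g.Γ f' f' x) +
    Real.sqrt (g.Γ2 f' f' x) * Real.sqrt (g.Γ f f x) := by positivity
  by_contra h5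
  push Not at h5
  nlinarith
theorem Geo.sqrt_Γ_Γ_le {f f' : M → ℝ} (hf : g.S f) (hf' : g.S f') (x : M) :
    Real.sqrt (g.Γ (g.Γ f f') (g.Γ f f') x) ≤
      Real.sqrt (g.Γ2 f f x) * Real.sqrt (g.Γ f' f' x) +
        Real.sqrt (g.Γ2 f' f' x) * Real.sqrt (g.Γ f f x) := by
  simpa only [zero_mul, sub_zero, g.D_zero] using g.sqrt_Γ_Γ_sub_le hf hf' 0 x
/-- With `π = v²/2`: `Hess π = ∇v ⊗ ∇v + v Hess v`, `∇π = v ∇v`. -/
theorem Geo.abs_Γ2_half_sq {f v : M → ℝ} (hf : g.S f) (hv : g.S v) (a : ℝ) (x : M) :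
    |g.Γ2 f (fun y => v y ^ 2 / 2) x - a * g.Δ (fun y => v y ^ 2 / 2) x -
        (g.Hs f v v x - a * g.Γ v v x)| ≤
      |v x| * Real.sqrt (g.D f a x) * Real.sqrt (g.Γ2 v v x) := by
  obtain ⟨a1, a2, a3⟩ := g.g1b_sq hv x
  have e : (fun y => v y ^ 2 / 2) = fun y => 1 / 2 * v y ^ 2 := by funext y; ring
  have e1 : g.Γ2 f (fun y => v y ^ 2 / 2) x = v x * g.Γ2 f v x + g.Hs f v v x := by
    rw [e, g.Γ2_eq hf (g.S_cmul _ a1), g.hess_cmul _ a1, g.grad_cmul _ a1, a2, a3, g.Γ2_eq hf hv,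
      g.Hs_eq hf hv hv, smul_smul, show 1 / 2 * (2 * v x) = v x by ring, bf, mulVec_smul,
      dotProduct_smul, smul_eq_mul, mul_add, add_right_comm, bf]
    congr 1
    simp only [dotProduct, mulVec, vecMulVec_apply, Finset.mul_sum, Matrix.smul_apply,
      Matrix.add_apply, smul_eq_mul, ← Finset.sum_add_distrib]
    exact Finset.sum_congr rfl fun i _ => Finset.sum_congr rfl fun j _ => by ring
  have e2 : g.Δ (fun y => v y ^ 2 / 2) x = v x * g.Δ v x + g.Γ v v x := by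
    rw [e, g.Δ_cmul _ a1, Raw.Δ, a3, trace_add, trace_smul, trace_smul, trace_vecMulVec, Raw.Δ, Raw.Γ,
      smul_eq_mul, smul_eq_mul]
    ring
  rw [e1, e2, mul_assoc, show v x * g.Γ2 f v x + g.Hs f v v x - a * (v x * g.Δ v x + g.Γ v v x) -
    (g.Hs f v v x - a * g.Γ v v x) = v x * (g.Γ2 f v x - a * g.Δ v x) by ring, abs_mul]
  exact mul_le_mul_of_nonneg_left (g.abs_Γ2_sub_le hf hv a x) (abs_nonneg _)
/-- `n + 1` gradients are linearly dependent, so their Gram matrix is not close to the identity. -/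
theorem Geo.gram_far (f : Option (Fin n) → M → ℝ) (x : M) :
    ∃ a b, 1 / ((n : ℝ) + 1) ≤ |g.Γ (f a) (f b) x - if a = b then 1 else 0| := by
  by_contra h
  push Not at h
  have h1 : ¬ LinearIndependent ℝ fun a => g.grad (f a) x := fun h1 => by
    simpa using h1.fintype_card_le_finrank
  obtain ⟨c, hc, a₀, ha₀⟩ := Fintype.not_linearIndependent_iff.1 h1
  obtain ⟨a, -, ha⟩ := Finset.exists_max_image Finset.univ (fun a => |c a|) Finset.univ_nonempty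
  have h2 : 0 < |c a| := (abs_pos.2 ha₀).trans_le (ha a₀ (Finset.mem_univ _))
  have h3 : -c a = ∑ b, (g.Γ (f a) (f b) x - if a = b then 1 else 0) * c b := by
    have := congrArg (g.grad (f a) x ⬝ᵥ ·) hc
    simp only [dotProduct_sum, dotProduct_smul, smul_eq_mul, dotProduct_zero] at this
    simp [mul_sub, Finset.sum_sub_distrib, Raw.Γ, mul_comm _ (c _), -Fintype.sum_option, this]
  have h4 : |c a| < ∑ b : Option (Fin n), 1 / ((n : ℝ) + 1) * |c a| := by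
    rw [← abs_neg, h3]
    refine (Finset.abs_sum_le_sum_abs _ _).trans_lt (Finset.sum_lt_sum_of_nonempty
      Finset.univ_nonempty fun b _ => ?_)
    rw [abs_mul, ← h3, abs_neg]
    exact mul_lt_mul_of_lt_of_le_of_nonneg_of_pos (h a b) (ha b (Finset.mem_univ _)) (abs_nonneg _) h2
  rw [Finset.sum_const, Finset.card_univ, Fintype.card_option, Fintype.card_fin, nsmul_eq_mul,
    ← mul_assoc, Nat.cast_succ, mul_one_div_cancel (by positivity), one_mul] at h4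
  exact lt_irrefl _ h4
end c

section d
theorem Geo.dt_eq {F : ℝ → M → ℝ} {t a : ℝ} {x : M} (h : HasDerivAt (fun s => F s x) a t) :
    dt F t x = a := h.deriv
theorem Geo.dt_Γ {I : Set ℝ} {F G : ℝ → M → ℝ} {t : ℝ} (hI : IsOpen I) (hF : g.Sm I F)
    (hG : g.Sm I G) (ht : t ∈ I) (x : M) :
    dt (fun s => g.Γ (F s) (G s)) t x = g.Γ (dt F t) (G t) x + g.Γ (F t) (dt G t) x := by
  have h := HasDerivAt.fun_sum (u := Finset.univ) fun i _ =>
    (g.grad_dt hI hF ht x i).fun_mul (g.grad_dt hI hG ht x i)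
  rw [Finset.sum_add_distrib] at h
  exact h.deriv
theorem Geo.dt_Δ {I : Set ℝ} {F : ℝ → M → ℝ} {t : ℝ} (hI : IsOpen I) (hF : g.Sm I F) (ht : t ∈ I)
    (x : M) : dt (fun s => g.Δ (F s)) t x = g.Δ (dt F t) x := by
  exact (HasDerivAt.fun_sum (u := Finset.univ) fun i _ => g.hess_dt hI hF ht x i i).deriv
theorem Geo.dt_add {I : Set ℝ} {F G : ℝ → M → ℝ} {t : ℝ} (hI : IsOpen I) (hF : g.Sm I F)
    (hG : g.Sm I G) (ht : t ∈ I) (x : M) :
    dt (fun s y => F s y + G s y) t x = dt F t x + dt G t x := by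
  exact ((g.Sm_deriv hI hF ht x).fun_add (g.Sm_deriv hI hG ht x)).deriv
theorem Geo.dt_sub {I : Set ℝ} {F G : ℝ → M → ℝ} {t : ℝ} (hI : IsOpen I) (hF : g.Sm I F)
    (hG : g.Sm I G) (ht : t ∈ I) (x : M) :
    dt (fun s y => F s y - G s y) t x = dt F t x - dt G t x := by
  exact ((g.Sm_deriv hI hF ht x).fun_sub (g.Sm_deriv hI hG ht x)).deriv
theorem Geo.dt_mul {I : Set ℝ} {F G : ℝ → M → ℝ} {t : ℝ} (hI : IsOpen I) (hF : g.Sm I F)
    (hG : g.Sm I G) (ht : t ∈ I) (x : M) :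
    dt (fun s y => F s y * G s y) t x = dt F t x * G t x + F t x * dt G t x := by
  exact ((g.Sm_deriv hI hF ht x).fun_mul (g.Sm_deriv hI hG ht x)).deriv
theorem Geo.dt_comp {I : Set ℝ} {F : ℝ → M → ℝ} {φ : ℝ → ℝ} {t : ℝ} (hI : IsOpen I) (hF : g.Sm I F)
    (ht : t ∈ I) (x : M) (hφ : DifferentiableAt ℝ φ (F t x)) :
    dt (fun s y => φ (F s y)) t x = deriv φ (F t x) * dt F t x := by
  exact (hφ.hasDerivAt.comp t (g.Sm_deriv hI hF ht x)).deriv
/-- Time reversal. -/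
theorem Geo.Sm_rev {F : ℝ → M → ℝ} (hF : g.Sm (Ioi 0) F) (T : ℝ) :
    g.Sm (Iio T) (fun s => F (T - s)) ∧
      ∀ s < T, ∀ x, dt (fun s => F (T - s)) s x = -dt F (T - s) x := by
  refine ⟨g.Sm_reparam (τ := fun s => T - s) hF (by fun_prop)
    fun s hs => mem_Ioi.2 (sub_pos.2 (mem_Iio.1 hs)), fun s hs x => ?_⟩
  exact ((g.Sm_deriv isOpen_Ioi hF (sub_pos.2 hs) x).comp_const_sub T s).deriv
/-- Time shift. -/
theorem Geo.Sm_shift {F : ℝ → M → ℝ} (hF : g.Sm (Ioi 0) F) (T : ℝ) :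
    g.Sm (Ioi T) (fun s => F (s - T)) ∧
      ∀ s, T < s → ∀ x, dt (fun s => F (s - T)) s x = dt F (s - T) x := by
  refine ⟨g.Sm_reparam (τ := fun s => s - T) hF (by fun_prop)
    fun s hs => mem_Ioi.2 (sub_pos.2 (mem_Ioi.1 hs)), fun s hs x => ?_⟩
  exact ((g.Sm_deriv isOpen_Ioi hF (sub_pos.2 hs) x).comp_sub_const s T).deriv
/-- `(∂ₛ + Δ) Γ(F,G) = 2 Γ2(F,G) - 2kΓ(F,G) + Γ((∂ₛ+Δ)F, G) + Γ(F, (∂ₛ+Δ)G)`. -/
theorem Geo.bw_Γ {I : Set ℝ} {F G : ℝ → M → ℝ} {t : ℝ} (hI : IsOpen I) (hF : g.Sm I F)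
    (hG : g.Sm I G) (ht : t ∈ I) (x : M) :
    dt (fun s => g.Γ (F s) (G s)) t x + g.Δ (g.Γ (F t) (G t)) x =
      2 * g.Γ2 (F t) (G t) x - 2 * g.k * g.Γ (F t) (G t) x +
        g.Γ (fun y => dt F t y + g.Δ (F t) y) (G t) x +
        g.Γ (F t) (fun y => dt G t y + g.Δ (G t) y) x := by
  have hF' := g.Sm_slice hF ht
  have hG' := g.Sm_slice hG ht
  rw [g.dt_Γ hI hF hG ht, g.Γ_add_left (g.Sm_slice (g.Sm_dt hI hF) ht) (g.S_Δ hF'),
    g.Γ_comm (F t) fun y => dt G t y + g.Δ (G t) y,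
    g.Γ_add_left (g.Sm_slice (g.Sm_dt hI hG) ht) (g.S_Δ hG'), Raw.Γ2, g.Γ_comm (F t) (dt G t),
    g.Γ_comm (F t) (g.Δ (G t)), g.Γ_comm (G t) (g.Δ (F t))]
  ring
end d

end Crest.Agent.R247
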