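import Crest.Agent.R247.G1

/-! # Row 247, G2: gradient bounds and Lipschitz bounds -/

set_option autoImplicit false
set_option linter.unusedSectionVars false
set_option linter.unusedVariables false
open MeasureTheory Filter Set Metric Matrix
open scoped ENNReal NNReal Topology ContDiff
open Crest.GeometryTopology.CoordMetric

noncomputable section
namespace Crest.Agent.R247
universe u

variable {n : ℕ} {M : Type u} [MetricSpace M] [MeasurableSpace M] [BorelSpace M] [ProperSpace M]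
  (g : Geo n M)

include g in
theorem Geo.geod (x y : M) : ∃ γ : ℝ → M, γ 0 = x ∧ γ 1 = y ∧
    ∀ s ∈ Icc (0 : ℝ) 1, ∀ t ∈ Icc (0 : ℝ) 1, dist (γ s) (γ t) = |s - t| * dist x y :=
  exists_geod g.mid x y

lemma g2a_inv {G : Mat n} (hG : G.PosDef) (p v : V n) : bf G (G⁻¹ *ᵥ p) v = p ⬝ᵥ v := by
  have hs : G.IsSymm := by simpa [IsSymm, IsHermitian] using hG.isHermitian
  rw [bf, g1c_symm hs, mulVec_mulVec, mul_nonsing_inv _ (isUnit_iff_isUnit_det _ |>.1 hG.isUnit),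
    one_mulVec, dotProduct_comm]

lemma g2a_cs {G : Mat n} (hG : G.PosDef) (p v : V n) :
    |p ⬝ᵥ v| ≤ Real.sqrt (p ⬝ᵥ G⁻¹ *ᵥ p) * Real.sqrt (qf G v) := by
  have h := g1c_cs hG.posSemidef 0 0 (G⁻¹ *ᵥ p) v
  rw [g2a_inv hG, g2a_inv hG] at h
  simpa [qf, bf] using h

lemma g2a_norm {G : Mat n} (hG : G.PosDef) :
    ∃ K : ℝ, ∀ v : E n, ‖v‖ ≤ K * Real.sqrt (qf G v.ofLp) := by
  refine ⟨∑ i, Real.sqrt (Pi.single i 1 ⬝ᵥ G⁻¹ *ᵥ Pi.single i 1), fun v => ?_⟩
  have h : v = ∑ i, EuclideanSpace.single i (v i) := by ext j; simp [Pi.single_apply]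
  rw [Finset.sum_mul]
  nth_rewrite 1 [h]
  refine (norm_sum_le _ _).trans (Finset.sum_le_sum fun i _ => ?_)
  simpa using g2a_cs hG (Pi.single i 1) v.ofLp

lemma Geo.g2a_setup {f : M → ℝ} (hf : g.S f) (x : M) : ∃ (G : Mat n) (p : V n) (D : E n →L[ℝ] ℝ),
    G.PosDef ∧ HasFDerivAt (fun z => f ((g.ch x).symm z)) D (g.ch x x) ∧
    (∀ v : E n, D v = p ⬝ᵥ v.ofLp) ∧ g.Γ f f x = p ⬝ᵥ G⁻¹ *ᵥ p ∧
    ∀ η : ℝ, 0 < η → ∀ᶠ y in 𝓝 (g.ch x x),
      qf G (y - g.ch x x).ofLp ≤ (1 + η) * dist ((g.ch x).symm y) x ^ 2 ∧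
      dist ((g.ch x).symm y) x ^ 2 ≤ (1 + η) * qf G (y - g.ch x x).ofLp := by
  have hy := (g.ch x).map_source (g.mem_ch x)
  have hx := (g.ch x).left_inv (g.mem_ch x)
  have h1 : ContDiffOn ℝ ∞ (fun z => f ((g.ch x).symm z)) (g.ch x).target :=
    (g.Sm_ch ((g.S_iff f).1 hf) x).comp (f := fun z : E n => ((0 : ℝ), z)) (by fun_prop)
      fun z hz => ⟨mem_univ _, hz⟩
  have h2 := ((h1.contDiffAt ((g.ch x).open_target.mem_nhds hy)).differentiableAt (by simp)).hasFDerivAt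
  refine ⟨g.gm x (g.ch x x), fun i => pderiv i (fun z => f ((g.ch x).symm z)) (g.ch x x), _,
    (g.gm_riem x).posDef _ hy, h2, fun v => ?_, ?_, fun η hη => ?_⟩
  · have h : v = ∑ i, v i • EuclideanSpace.single i (1 : ℝ) := by ext j; simp [Pi.single_apply]
    nth_rewrite 1 [h]
    simp only [map_sum, map_smul, dotProduct, pderiv, smul_eq_mul, mul_comm]
  · have := g.Γ_ch hf hf x _ hy
    rw [hx] at this
    rw [this]
    simp only [dotProduct, mulVec, Finset.mul_sum]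
    exact Finset.sum_congr rfl fun i _ => Finset.sum_congr rfl fun j _ => by ring
  · have h3 := (Continuous.prodMk_left (g.ch x x)).continuousAt.eventually (g.dist_ch x _ hy η hη)
    have e : ∀ v : E n, quadForm (g.gm x) (g.ch x x) v = qf (g.gm x (g.ch x x)) v.ofLp := fun v => by
      simp only [quadForm, qf, dotProduct, mulVec, Finset.mul_sum]
      exact Finset.sum_congr rfl fun i _ => Finset.sum_congr rfl fun j _ => by ring
    simpa only [hx, e] using h3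
/-- Recipe: chart at `x`, `y₀ = ch x x`, `f̂ = f ∘ symm` is differentiable at `y₀` (`S_iff`, `Sm_ch`), `Γ f f x = ∂f̂ · g⁻¹ ∂f̂` (`Γ_ch`); test along `y₀ + t g⁻¹ ∂f̂`
with `dist_ch`. -/
theorem Geo.Γ_le_of_lip {f : M → ℝ} (hf : g.S f) {x : M} {L : ℝ} (hL : 0 ≤ L)
    (h : ∀ᶠ y in 𝓝 x, |f y - f x| ≤ L * dist y x) : g.Γ f f x ≤ L ^ 2 := by
  obtain ⟨G, p, D, hG, hD, hp, hΓ, hd⟩ := g.g2a_setup hf x
  have hx := (g.ch x).left_inv (g.mem_ch x)
  have h0 := g.Γ_nonneg f x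
  set w : E n := WithLp.toLp 2 (G⁻¹ *ᵥ p) with hw
  have hc : HasDerivAt (fun t : ℝ => g.ch x x + t • w) w 0 := by
    simpa using ((hasDerivAt_id (0 : ℝ)).smul_const w).const_add (g.ch x x)
  have h1 : HasDerivAt (fun t : ℝ => f ((g.ch x).symm (g.ch x x + t • w))) (g.Γ f f x) 0 := by
    have := HasFDerivAt.comp_hasDerivAt_of_eq (0 : ℝ) hD hc (by simp)
    rwa [hp, ← hΓ] at this
  have ht : Tendsto (fun t : ℝ => g.ch x x + t • w) (𝓝 0) (𝓝 (g.ch x x)) := by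
    simpa using hc.continuousAt.tendsto
  have hs : Tendsto (g.ch x).symm (𝓝 (g.ch x x)) (𝓝 x) := (g.ch x).tendsto_symm (g.mem_ch x)
  have key : ∀ η : ℝ, 0 < η → g.Γ f f x ≤ L ^ 2 * (1 + η) := fun η hη => by
    have h2 := h1.le_of_lip' (C := L * Real.sqrt ((1 + η) * g.Γ f f x)) (by positivity) (by
      filter_upwards [ht.eventually (hd η hη), (hs.comp ht).eventually h] with t a1 a2
      rw [zero_smul, add_zero, hx, sub_zero, mul_assoc]
      refine a2.trans (mul_le_mul_of_nonneg_left (abs_le_of_sq_le_sq' ?_ (by positivity)).2 hL)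
      refine a1.2.trans_eq ?_
      have : qf G (G⁻¹ *ᵥ p) = g.Γ f f x := (g2a_inv hG p _).trans hΓ.symm
      rw [mul_pow, Real.sq_sqrt (by positivity), Real.norm_eq_abs, sq_abs, ← this]
      simp only [add_sub_cancel_left, hw, WithLp.ofLp_smul, qf, mulVec_smul, smul_dotProduct,
        dotProduct_smul, smul_eq_mul]
      ring)
    rw [Real.norm_of_nonneg h0] at h2
    have h3 := pow_le_pow_left₀ h0 h2 2
    rw [mul_pow, Real.sq_sqrt (by positivity)] at h3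
    rcases h0.eq_or_lt with h4 | h4
    · rw [← h4]; positivity
    · nlinarith
  have h5 : Tendsto (fun η : ℝ => L ^ 2 * (1 + η)) (𝓝[>] 0) (𝓝 (L ^ 2 * (1 + 0))) :=
    Tendsto.mono_left (Continuous.tendsto (by fun_prop) _) nhdsWithin_le_nhds
  rw [add_zero, mul_one] at h5
  exact ge_of_tendsto h5 (eventually_mem_nhdsWithin.mono fun η hη => key η hη)

/-- Recipe: `|∂f̂ · v| ≤ √(Γ f f x) √(g(v,v))`, `f̂(y) - f̂(y₀) = ∂f̂·(y - y₀) + o(|y - y₀|)`, `dist_ch`. -/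
theorem Geo.lip_of_Γ_lt {f : M → ℝ} (hf : g.S f) {x : M} {L : ℝ} (hL : 0 ≤ L)
    (h : g.Γ f f x < L ^ 2) : ∀ᶠ y in 𝓝 x, |f y - f x| ≤ L * dist y x := by
  obtain ⟨G, p, D, hG, hD, hp, hΓ, hd⟩ := g.g2a_setup hf x
  obtain ⟨K, hK⟩ := g2a_norm hG
  have hx := (g.ch x).left_inv (g.mem_ch x)
  have h1 : Real.sqrt (g.Γ f f x) < L := (Real.sqrt_lt (g.Γ_nonneg f x) hL).2 h
  have h2 : ∀ᶠ t : ℝ in 𝓝 0, (Real.sqrt (g.Γ f f x) + t * K) * Real.sqrt (1 + t) < L :=
    ContinuousAt.eventually_lt (by fun_prop) continuousAt_const (by simpa using h1)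
  obtain ⟨t, h3, ht⟩ := ((h2.filter_mono nhdsWithin_le_nhds).and
    (self_mem_nhdsWithin (s := Ioi 0))).exists
  have ht : 0 < t := ht
  have h4 : ∀ᶠ y in 𝓝 (g.ch x x), |f ((g.ch x).symm y) - f x| ≤ L * dist ((g.ch x).symm y) x := by
    filter_upwards [hd t ht, hD.isLittleO.def ht] with y a1 a2
    rw [hx, Real.norm_eq_abs] at a2
    have a3 := g2a_cs hG p (y - g.ch x x).ofLp
    rw [← hp, ← hΓ] at a3
    have a4 := mul_le_mul_of_nonneg_left (hK (y - g.ch x x)) ht.le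
    have a5 : Real.sqrt (qf G (y - g.ch x x).ofLp) ≤ Real.sqrt (1 + t) * dist ((g.ch x).symm y) x := by
      refine Real.sqrt_le_iff.2 ⟨by positivity, ?_⟩
      rw [mul_pow, Real.sq_sqrt (by positivity)]
      exact a1.1
    have a6 := abs_add_le (f ((g.ch x).symm y) - f x - D (y - g.ch x x)) (D (y - g.ch x x))
    rw [sub_add_cancel] at a6
    have a7 : |f ((g.ch x).symm y) - f x| ≤
        (Real.sqrt (g.Γ f f x) + t * K) * Real.sqrt (qf G (y - g.ch x x).ofLp) := by linarith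
    rcases le_total 0 (Real.sqrt (g.Γ f f x) + t * K) with a8 | a8
    · refine a7.trans ((mul_le_mul_of_nonneg_left a5 a8).trans ?_)
      rw [← mul_assoc]
      exact mul_le_mul_of_nonneg_right h3.le dist_nonneg
    · exact a7.trans ((mul_nonpos_of_nonpos_of_nonneg a8 (Real.sqrt_nonneg _)).trans (by positivity))
  filter_upwards [((g.ch x).continuousAt (g.mem_ch x)).eventually h4,
    (g.ch x).eventually_left_inverse (g.mem_ch x)] with y a1 a2
  rwa [a2] at a1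

theorem Geo.g2b_time {I : Set ℝ} {F : ℝ → M → ℝ} (hI : IsOpen I) (hF : g.Sm I F) {r ε : ℝ} (hr : r ∈ I)
    (hε : 0 < ε) (z : M) : ∀ᶠ p : ℝ × M in 𝓝 (r, z), r < p.1 →
      F p.1 p.2 - F r p.2 ≤ (dt F r z + ε) * (p.1 - r) := by
  have h1 : I ×ˢ (univ : Set M) ∈ 𝓝 (r, z) := (hI.prod isOpen_univ).mem_nhds ⟨hr, trivial⟩
  have h2 := ((g.Sm_cont (g.Sm_dt hI hF)).continuousAt h1).eventually_lt_const (lt_add_of_pos_right _ hε)
  obtain ⟨δ, hδ, h3⟩ := Metric.eventually_nhds_iff.1 (h2.and h1)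
  refine Metric.eventually_nhds_iff.2 ⟨δ, hδ, fun p hp h4 => ?_⟩
  have h5 : ∀ s ∈ Icc r p.1, dt F s p.2 < dt F r z + ε ∧ s ∈ I := fun s hs => by
    refine (h3 (y := (s, p.2)) (lt_of_le_of_lt ?_ hp)).imp_right And.left
    rw [Prod.dist_eq, Prod.dist_eq]
    refine max_le_max_right _ ?_
    rw [Real.dist_eq, Real.dist_eq, abs_of_nonneg (sub_nonneg.2 hs.1), abs_of_nonneg (sub_nonneg.2 h4.le)]
    exact sub_le_sub_right hs.2 _
  obtain ⟨s, hs, h6⟩ := exists_hasDerivAt_eq_slope (fun s => F s p.2) (fun s => dt F s p.2) h4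
    (fun s hs => (g.Sm_deriv hI hF (h5 s hs).2 _).continuousAt.continuousWithinAt)
    fun s hs => g.Sm_deriv hI hF (h5 s (Ioo_subset_Icc_self hs)).2 _
  rw [← div_le_iff₀ (sub_pos.2 h4), ← h6]
  exact (h5 s (Ioo_subset_Icc_self hs)).1.le

/-- Differentiation along a geodesic.  Recipe: `φ r = F r (γ r)`, `γ` the geodesic from `y` to `x` reparametrised on `[a,b]` (speed `≤ ℓ`); it stays in
`closedBall y (dist y x)`; the upper right Dini derivative of `φ` is `≤ dt F + ℓ √Γ` (`F r' z - F r z = ∫ dt F` with `dt F` jointly continuous, and `lip_of_Γ_lt` at fixed time `r`);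
conclude with `image_le_of_liminf_slope_right_le_deriv_boundary` or similar. -/
theorem Geo.path {I : Set ℝ} {F : ℝ → M → ℝ} (hI : IsOpen I) (hF : g.Sm I F) {a b l : ℝ}
    (hab : a < b) (hs : Icc a b ⊆ I) {c : ℝ → ℝ} (hc : ContinuousOn c (Icc a b)) {x y : M}
    (hl : dist y x ≤ l * (b - a))
    (h : ∀ r ∈ Icc a b, ∀ z, dist y z ≤ dist y x →
      dt F r z + l * Real.sqrt (g.Γ (F r) (F r) z) ≤ c r) :
    F b x - F a y ≤ ∫ r in a..b, c r := by
  obtain ⟨γ, h0, h1, hγ⟩ := g.geod y x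
  have hba := sub_pos.2 hab
  have hl0 : 0 ≤ l := nonneg_of_mul_nonneg_left (dist_nonneg.trans hl) hba
  set σ : ℝ → M := fun r => γ ((r - a) / (b - a)) with hσ
  have hm : ∀ r ∈ Icc a b, (r - a) / (b - a) ∈ Icc (0 : ℝ) 1 := fun r hr =>
    ⟨div_nonneg (sub_nonneg.2 hr.1) hba.le, (div_le_one hba).2 (sub_le_sub_right hr.2 _)⟩
  have h2 : ∀ r ∈ Icc a b, ∀ s ∈ Icc a b, dist (σ r) (σ s) ≤ l * dist r s := fun r hr s hs => by
    rw [hσ, hγ _ (hm r hr) _ (hm s hs), ← sub_div, sub_sub_sub_cancel_right, abs_div, abs_of_pos hba, Real.dist_eq,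
      div_mul_eq_mul_div, div_le_iff₀ hba]
    nlinarith [abs_nonneg (r - s)]
  have h3 : ∀ r ∈ Icc a b, dist y (σ r) ≤ dist y x := fun r hr => by
    have h4 := hγ 0 ⟨le_rfl, zero_le_one⟩ _ (hm r hr)
    rw [h0, zero_sub, abs_neg, abs_of_nonneg (hm r hr).1] at h4
    exact h4.trans_le (mul_le_of_le_one_left dist_nonneg (hm r hr).2)
  have h4 : ContinuousOn σ (Icc a b) :=
    (LipschitzOnWith.of_dist_le_mul (K := ⟨l, hl0⟩) h2).continuousOn
  have h5 : Continuous (IccExtend hab.le ((Icc a b).domRestrict c)) := hc.restrict.Icc_extend'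
  have h6 := image_le_of_liminf_slope_right_le_deriv_boundary (f := fun r => F r (σ r))
    ((g.Sm_cont hF).comp (continuousOn_id.prodMk h4) fun r hr => ⟨hs hr, trivial⟩)
    (B := fun r => F a y + ∫ t in a..r, IccExtend hab.le ((Icc a b).domRestrict c) t)
    (B' := IccExtend hab.le ((Icc a b).domRestrict c)) (by simp [hσ, h0])
    (fun r _ => ((h5.integral_hasStrictDerivAt a r).hasDerivAt.const_add _).continuousAt.continuousWithinAt)
    (fun r _ => ((h5.integral_hasStrictDerivAt a r).hasDerivAt.const_add _).hasDerivWithinAt)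
    (fun r hr ρ hρ => ?_) (right_mem_Icc.2 hab.le)
  · rw [intervalIntegral.integral_congr (g := c) fun t ht => IccExtend_of_mem _ _ (uIcc_of_le hab.le ▸ ht)] at h6
    simp only [hσ, div_self hba.ne', h1] at h6
    linarith
  have hr' := Ico_subset_Icc_self hr
  rw [IccExtend_of_mem _ _ hr'] at hρ
  replace hρ : c r < ρ := hρ
  obtain ⟨ε, hε, h7⟩ : ∃ ε : ℝ, 0 < ε ∧ c r + ε * (1 + l) < ρ :=
    ⟨(ρ - c r) / (2 * (1 + l)), by have := sub_pos.2 hρ; positivity, by field_simp; linarith⟩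
  have h8 : Tendsto σ (𝓝[>] r) (𝓝 (σ r)) := (h4 r hr').mono_of_mem_nhdsWithin (Icc_mem_nhdsGT_of_mem hr)
  have h9 := g.lip_of_Γ_lt (g.Sm_slice hF (hs hr')) (x := σ r) (L := √(g.Γ (F r) (F r) (σ r)) + ε) (by positivity)
    ((Real.sqrt_lt' (by positivity)).1 (lt_add_of_pos_right _ hε))
  refine Eventually.frequently ?_
  filter_upwards [h8.eventually h9, ((tendsto_id'.2 nhdsWithin_le_nhds).prodMk_nhds h8).eventually
    (g.g2b_time hI hF (hs hr') hε (σ r)), Icc_mem_nhdsGT_of_mem hr, self_mem_nhdsWithin] with s e1 e2 e3 e4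
  have e5 := sub_pos.2 (show r < s from e4)
  have e6 := h2 s e3 r hr'
  rw [Real.dist_eq, abs_of_pos e5] at e6
  have e7 := (le_abs_self _).trans (e1.trans (mul_le_mul_of_nonneg_left e6 (by positivity)))
  have e8 := mul_le_mul_of_nonneg_right (h r hr' _ (h3 r hr')) e5.le
  have e9 := e2 e4
  have e10 := mul_lt_mul_of_pos_right h7 e5
  rw [slope_def_field, div_lt_iff₀ e5]
  simp only [id] at e9
  linarith

theorem Geo.abs_sub_le_of_Γ {f : M → ℝ} (hf : g.S f) {x y : M} {L : ℝ} (hL : 0 ≤ L)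
    (h : ∀ z, dist y z ≤ dist y x → g.Γ f f z ≤ L ^ 2) : |f x - f y| ≤ L * dist y x := by
  have key : ∀ {f : M → ℝ}, g.S f → (∀ z, dist y z ≤ dist y x → g.Γ f f z ≤ L ^ 2) →
      f x - f y ≤ L * dist y x := fun {f} hf h => by
    simpa using g.path isOpen_univ (Geo.S.Sm hf univ) zero_lt_one (subset_univ _) (c := fun _ => L * dist y x)
      continuousOn_const (l := dist y x) (x := x) (y := y) (by simp) fun r _ z hz => by
        have := Real.sqrt_le_iff.2 ⟨hL, h z hz⟩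
        simp only [dt, deriv_const', zero_add, mul_comm L]
        gcongr
  have h1 := key (g.S_cmul (-1) hf) fun z hz => by
    rw [g.Γ_cmul_left _ hf, g.Γ_comm, g.Γ_cmul_left _ hf]
    linarith [h z hz]
  exact abs_le.2 ⟨by linarith, key hf h⟩

theorem Geo.Γ_le_of_lipschitz {f : M → ℝ} (hf : g.S f) {L : ℝ} (hL : 0 ≤ L)
    (h : ∀ x y, |f x - f y| ≤ L * dist x y) (x : M) : g.Γ f f x ≤ L ^ 2 := by
  exact g.Γ_le_of_lip hf hL (Eventually.of_forall fun y => h y x)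

end Crest.Agent.R247
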