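import Crest.Agent.R247.G2

/-! # Row 247, G3: smooth approximation of Lipschitz functions, bumps, first cut-offs -/

set_option autoImplicit false
set_option linter.unusedSectionVars false
set_option linter.unusedVariables false
open MeasureTheory Filter Set Metric Matrix
open scoped ENNReal NNReal Topology ContDiff
open Crest.GeometryTopology.CoordMetric

noncomputable section
namespace Crest.Agent.R247
universe u

variable {n : ℕ} {M : Type u} [MetricSpace M] [MeasurableSpace M] [BorelSpace M] [ProperSpace M]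
  (g : Geo n M)

open scoped Convolution in
lemma g3a_moll {h : E n → ℝ} (hc : Continuous h) (hs : HasCompactSupport h) {r ε : ℝ} (hr : 0 < r)
    (hε : 0 < ε) : ∃ H : E n → ℝ, ContDiff ℝ ∞ H ∧ (∀ p, |H p - h p| ≤ ε) ∧
      ∀ p q c, (∀ t, ‖t‖ < r → |h (p - t) - h (q - t)| ≤ c) → |H p - H q| ≤ c := by
  obtain ⟨s, hs0, h1⟩ := Metric.uniformContinuous_iff.1 (hs.uniformContinuous_of_continuous hc) ε hε
  have h0 : 0 < min r s := lt_min hr hs0
  let ρ : ContDiffBump (0 : E n) := ⟨min r s / 2, min r s, by positivity, by linarith⟩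
  refine ⟨ρ.normed volume ⋆[ContinuousLinearMap.lsmul ℝ ℝ, volume] h,
    ρ.hasCompactSupport_normed.contDiff_convolution_left _ ρ.contDiff_normed hc.locallyIntegrable,
    fun p => ?_, fun p q c h2 => ?_⟩
  · rw [← Real.dist_eq]
    exact ρ.dist_normed_convolution_le hc.aestronglyMeasurable fun w hw =>
      (h1 (lt_of_lt_of_le hw (min_le_right _ _))).le
  · have hi : ∀ p, Integrable fun t => ρ.normed volume t * h (p - t) := fun p =>
      (ρ.continuous_normed.mul (by fun_prop)).integrable_of_hasCompactSupport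
        ρ.hasCompactSupport_normed.mul_right
    simp only [convolution_def, ContinuousLinearMap.lsmul_apply, smul_eq_mul]
    rw [← integral_sub (hi p) (hi q), ← Real.norm_eq_abs]
    refine (norm_integral_le_of_norm_le (ρ.integrable_normed.mul_const c)
      (Eventually.of_forall fun t => ?_)).trans_eq ?_
    · rw [← mul_sub, norm_mul, Real.norm_of_nonneg (ρ.nonneg_normed t)]
      by_cases ht : ρ.normed volume t = 0
      · simp [ht]
      · have : t ∈ ball (0 : E n) (min r s) := ρ.support_normed_eq (μ := volume) ▸ ht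
        exact mul_le_mul_of_nonneg_left (h2 t ((mem_ball_zero_iff.1 this).trans_le (min_le_left _ _)))
          (ρ.nonneg_normed t)
    · rw [integral_mul_const, ρ.integral_normed, one_mul]

lemma Geo.g3a_loc {f : M → ℝ} (hf : ∀ x y, |f x - f y| ≤ dist x y) (x : M) {η : ℝ} (hη : 0 < η) :
    ∃ (ψ : M → ℝ) (U : Set M), g.S ψ ∧ HasCompactSupport ψ ∧ (∀ y, 0 ≤ ψ y ∧ ψ y ≤ 1) ∧
      (∀ᶠ y in 𝓝 x, ψ y = 1) ∧ tsupport ψ ⊆ U ∧ U ⊆ ball x 1 ∧ ∀ ε : ℝ, 0 < ε →
      ∃ F, g.S F ∧ ∀ z ∈ U, |F z - f z| ≤ ε ∧ g.Γ F F z ≤ (1 + η) ^ 2 := by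
  have hy := (g.ch x).map_source (g.mem_ch x)
  have hfc : Continuous f :=
    (LipschitzWith.of_dist_le_mul (K := 1) fun a b => by simpa [Real.dist_eq] using hf a b).continuous
  obtain ⟨R₁, hR₁, h1⟩ := Metric.eventually_nhds_iff_ball.1 (g.dist_ch x _ hy η hη)
  obtain ⟨R₂, hR₂, h2⟩ := Metric.eventually_nhds_iff_ball.1
    (((g.ch x).tendsto_symm (g.mem_ch x)).eventually (ball_mem_nhds x one_pos) |>.and
      ((g.ch x).open_target.eventually_mem hy))
  obtain ⟨r, hr, hr₁, hr₂⟩ : ∃ r : ℝ, 0 < r ∧ 4 * r ≤ R₁ ∧ 4 * r ≤ R₂ :=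
    ⟨min R₁ R₂ / 4, by positivity, by linarith [min_le_left R₁ R₂], by linarith [min_le_right R₁ R₂]⟩
  let β : ContDiffBump (g.ch x x) := ⟨2 * r, 3 * r, by positivity, by linarith⟩
  let β' : ContDiffBump (g.ch x x) := ⟨r / 4, r / 2, by positivity, by linarith⟩
  have hb : closedBall (g.ch x x) (3 * r) ⊆ (g.ch x).target := fun y h =>
    (h2 y (closedBall_subset_ball (by linarith) h)).2
  have hb' : closedBall (g.ch x x) (r / 2) ⊆ (g.ch x).target :=
    (closedBall_subset_closedBall (by linarith)).trans hb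
  have hK : IsCompact ((g.ch x).symm '' closedBall (g.ch x x) (r / 2)) :=
    (isCompact_closedBall _ _).image_of_continuousOn ((g.ch x).continuousOn_symm.mono hb')
  have hsup : tsupport ((g.ch x).source.indicator fun z => β' (g.ch x z)) ⊆
      (g.ch x).symm '' closedBall (g.ch x x) (r / 2) := by
    refine closure_minimal (fun z hz => ?_) hK.isClosed
    rw [support_indicator] at hz
    exact ⟨g.ch x z, ball_subset_closedBall (β'.support_eq ▸ hz.2 : g.ch x z ∈ ball _ β'.rOut),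
      (g.ch x).left_inv hz.1⟩
  have hU : IsOpen ((g.ch x).source ∩ g.ch x ⁻¹' ball (g.ch x x) r) :=
    (g.ch x).isOpen_inter_preimage isOpen_ball
  refine ⟨_, (g.ch x).source ∩ g.ch x ⁻¹' ball (g.ch x x) r,
    g.S_ext x β'.contDiff β'.hasCompactSupport (β'.tsupport_eq ▸ hb'),
    hK.of_isClosed_subset (isClosed_tsupport _) hsup, fun y => ?_, ?_, hsup.trans ?_, fun z hz => ?_,
    fun ε hε => ?_⟩
  · by_cases h : y ∈ (g.ch x).source
    · rw [indicator_of_mem h]; exact ⟨β'.nonneg, β'.le_one⟩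
    · rw [indicator_of_notMem h]; exact ⟨le_rfl, zero_le_one⟩
  · filter_upwards [(g.ch x).open_source.mem_nhds (g.mem_ch x),
      ((g.ch x).continuousAt (g.mem_ch x)).eventually β'.eventuallyEq_one] with y a1 a2
    rw [indicator_of_mem a1]; exact a2
  · rintro _ ⟨y, h, rfl⟩
    refine ⟨(g.ch x).map_target (hb' h), ?_⟩
    rw [mem_preimage, (g.ch x).right_inv (hb' h)]
    exact closedBall_subset_ball (by linarith) h
  · have := (h2 _ (ball_subset_ball (by linarith) hz.2)).1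
    rwa [(g.ch x).left_inv hz.1] at this
  have hc : Continuous fun y => β y * f ((g.ch x).symm y) :=
    (β.continuous.continuousOn.mul (hfc.comp_continuousOn (g.ch x).continuousOn_symm)).continuous_of_tsupport_subset
      (g.ch x).open_target ((tsupport_mul_subset_left).trans (β.tsupport_eq ▸ hb))
  obtain ⟨H, h3, h4, h5⟩ := g3a_moll hc β.hasCompactSupport.mul_right hr hε
  have hβ : ∀ y ∈ ball (g.ch x x) (2 * r), β y = 1 := fun y h =>
    β.one_of_mem_closedBall (ball_subset_closedBall h)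
  have hF := g.S_ext x (β.contDiff.mul h3) β.hasCompactSupport.mul_right
    ((tsupport_mul_subset_left).trans (β.tsupport_eq ▸ hb))
  have e : ∀ z ∈ (g.ch x).source ∩ g.ch x ⁻¹' ball (g.ch x x) r,
      (g.ch x).source.indicator (fun z => β (g.ch x z) * H (g.ch x z)) z = H (g.ch x z) := fun z hz => by
    rw [indicator_of_mem hz.1, hβ _ (ball_subset_ball (by linarith) hz.2), one_mul]
  refine ⟨_, hF, fun z hz => ⟨?_, g.Γ_le_of_lip hF (by positivity) ?_⟩⟩
  · have := h4 (g.ch x z)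
    rwa [hβ _ (ball_subset_ball (by linarith) hz.2), one_mul, (g.ch x).left_inv hz.1, ← e z hz] at this
  · filter_upwards [hU.mem_nhds hz] with w hw
    rw [e z hz, e w hw]
    refine h5 _ _ _ fun t ht => ?_
    have hm : ∀ p ∈ ball (g.ch x x) r, p - t ∈ ball (g.ch x x) (2 * r) := fun p hp => by
      rw [mem_ball_iff_norm] at hp ⊢
      rw [sub_right_comm]
      linarith [norm_sub_le (p - g.ch x x) t]
    rw [hβ _ (hm _ hw.2), hβ _ (hm _ hz.2), one_mul, one_mul]
    refine (hf _ _).trans (abs_le_of_sq_le_sq' ?_ (by positivity)).2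
    have a1 := (h1 (g.ch x w - t, g.ch x z - t) (ball_prod_same (g.ch x x) (g.ch x x) R₁ ▸
      ⟨ball_subset_ball (by linarith) (hm _ hw.2), ball_subset_ball (by linarith) (hm _ hz.2)⟩)).2
    have a2 := (h1 (g.ch x w, g.ch x z) (ball_prod_same (g.ch x x) (g.ch x x) R₁ ▸
      ⟨ball_subset_ball (by linarith) hw.2, ball_subset_ball (by linarith) hz.2⟩)).1
    simp only [sub_sub_sub_cancel_right, (g.ch x).left_inv hw.1, (g.ch x).left_inv hz.1] at a1 a2
    refine a1.trans ((mul_le_mul_of_nonneg_left a2 (by positivity)).trans_eq ?_)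
    ring

lemma Geo.g3a_norm (f : M → ℝ) (x : M) :
    Real.sqrt (g.Γ f f x) = ‖(WithLp.toLp 2 (g.grad f x) : E n)‖ := by
  simp only [EuclideanSpace.norm_eq, Raw.Γ, dotProduct, Real.norm_eq_abs, sq, abs_mul_abs_self]

lemma Geo.g3a_glue {f ψ : M → ℝ} {U W S : Set M} {L : ℝ} (h1 : g.S ψ) (h2 : HasCompactSupport ψ)
    (h3 : ∀ y, 0 ≤ ψ y ∧ ψ y ≤ 1) (h4 : tsupport ψ ⊆ U) (h5 : U ⊆ S)
    (h6 : ∀ ε : ℝ, 0 < ε → ∃ F, g.S F ∧ ∀ z ∈ U, |F z - f z| ≤ ε ∧ Real.sqrt (g.Γ F F z) ≤ L)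
    (h7 : ∀ ε : ℝ, 0 < ε → ∃ F, g.S F ∧ (∀ z ∉ S, F z = 0) ∧
      ∀ z ∈ W, |F z - f z| ≤ ε ∧ Real.sqrt (g.Γ F F z) ≤ L + ε) (ε : ℝ) (hε : 0 < ε) :
    ∃ F, g.S F ∧ (∀ z ∉ S, F z = 0) ∧ ∀ z ∈ {z | ∀ᶠ y in 𝓝 z, ψ y = 1} ∪ W,
      |F z - f z| ≤ ε ∧ Real.sqrt (g.Γ F F z) ≤ L + ε := by
  obtain ⟨C, hC⟩ := (g.S_cont (g.S_Γ h1 h1)).bounded_above_of_compact_support (g.cs_Γ h2 ψ)
  have hp : 0 < 1 + 2 * Real.sqrt C := by positivity
  obtain ⟨ε', hε', he⟩ : ∃ ε' : ℝ, 0 < ε' ∧ ε' * (1 + 2 * Real.sqrt C) = ε :=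
    ⟨ε / (1 + 2 * Real.sqrt C), by positivity, div_mul_cancel₀ _ hp.ne'⟩
  have he' : ε' ≤ ε := by nlinarith [Real.sqrt_nonneg C]
  obtain ⟨F, hF, a1⟩ := h6 ε' hε'
  obtain ⟨F', hF', a2, a3⟩ := h7 ε' hε'
  have hs := g.S_mul h1 (g.S_sub hF hF')
  have hg : ∀ z, g.grad (fun y => F' y + ψ y * (F y - F' y)) z =
      ψ z • g.grad F z + (1 - ψ z) • g.grad F' z + (F z - F' z) • g.grad ψ z := fun z => by
    rw [g.grad_add hF' hs, g.grad_mul h1 (g.S_sub hF hF'), g.grad_sub hF hF']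
    module
  refine ⟨fun y => F' y + ψ y * (F y - F' y), g.S_add hF' hs, fun z hz => ?_, fun z hz => ?_⟩
  · simp only [a2 z hz, image_eq_zero_of_notMem_tsupport fun h => hz (h5 (h4 h)), zero_mul, add_zero]
  rw [g.g3a_norm, hg]
  simp only [g.g3a_norm] at a1 a3
  rcases hz with hz | hz
  · have b1 : ψ z = 1 := hz.self_of_nhds
    have b2 : g.grad ψ z = 0 := (g.grad_congr hz).trans (g.grad_const 1 z)
    have b3 := a1 z (h4 (subset_tsupport _ (by simp [b1])))
    simp only [b1, b2, one_mul, add_sub_cancel, one_smul, sub_self, zero_smul, smul_zero, add_zero]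
    exact ⟨b3.1.trans he', b3.2.trans (by linarith)⟩
  have b0 := a3 z hz
  by_cases hU : z ∈ tsupport ψ
  · have b3 := a1 z (h4 hU)
    have b4 := h3 z
    have b5 : ‖(WithLp.toLp 2 (g.grad ψ z) : E n)‖ ≤ Real.sqrt C := by
      rw [← g.g3a_norm]
      exact Real.sqrt_le_sqrt ((le_abs_self _).trans (hC z))
    have b6 : |F z - F' z| ≤ 2 * ε' := by
      have := abs_sub_le (F z) (f z) (F' z)
      rw [abs_sub_comm (f z)] at this
      linarith [b3.1, b0.1]
    constructor
    · have c1 := abs_le.1 b3.1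
      have c2 := abs_le.1 b0.1
      refine le_trans (abs_le.2 ⟨?_, ?_⟩) he' <;> nlinarith
    · simp only [WithLp.toLp_add, WithLp.toLp_smul]
      refine norm_add₃_le.trans ?_
      rw [norm_smul, norm_smul, norm_smul, Real.norm_of_nonneg b4.1,
        Real.norm_of_nonneg (sub_nonneg.2 b4.2), Real.norm_eq_abs]
      have c1 := mul_le_mul_of_nonneg_left b3.2 b4.1
      have c2 := mul_le_mul_of_nonneg_left b0.2 (sub_nonneg.2 b4.2)
      have c3 := mul_le_mul b6 b5 (norm_nonneg _) (by positivity)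
      nlinarith
  · simp only [image_eq_zero_of_notMem_tsupport hU, (g.grad_eq_zero hU).1, zero_mul, add_zero,
      zero_smul, sub_zero, one_smul, smul_zero, zero_add]
    exact ⟨b0.1.trans he', b0.2.trans (by linarith)⟩
/-- Greene-Wu.  Recipe: every `x` has a chart ball `B_x` on which `dist_ch` holds with small `η` (relative to the constant metric `gm x y₀`); finitely many cover `tsupport f`;
smooth `ρ_i ≥ 0` supported in the balls (via `S_ext`) with `Σ ρ_i = 1` near `tsupport f` (take `ψ_i` bumps, `ρ_i = ψ_i ∏_{j<i} (1 - ψ_j)`); `f_i` = mollification in the chart of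
(`f ∘ symm` times a cut-off equal to `1` near `tsupport ρ_i`): `(1+η)`-Lipschitz for the constant metric, hence `Γ f_i f_i ≤ (1+η')²` on `tsupport ρ_i` (`Γ_le_of_lip`), `|f_i - f| ≤ δ'` there;
`f' = Σ ρ_i f_i`, `∇f' = Σ ρ_i ∇f_i + Σ f_i ∇ρ_i`; where `Σ ρ_i = 1` near the point the last sum is `Σ (f_i - f) ∇ρ_i`, elsewhere `f = 0` near the point and `|f_i| ≤ δ'`. -/
theorem Geo.approx {f : M → ℝ} (hf : ∀ x y, |f x - f y| ≤ dist x y) (hc : HasCompactSupport f)
    {δ : ℝ} (hδ : 0 < δ) : ∃ f', g.S f' ∧ HasCompactSupport f' ∧ (∀ x, |f' x - f x| ≤ δ) ∧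
      (∀ x, g.Γ f' f' x ≤ (1 + δ) ^ 2) ∧ tsupport f' ⊆ cthickening 1 (tsupport f) := by
  classical
  choose ψ U h1 h2 h3 h4 h5 h6 h7 using fun x => g.g3a_loc hf x (half_pos hδ)
  obtain ⟨t, ht, hK⟩ := hc.elim_nhds_subcover (fun x => {z | ∀ᶠ y in 𝓝 z, ψ x y = 1})
    fun x _ => (h4 x).eventually_nhds
  have key : ∀ s : Finset M, (∀ x ∈ s, x ∈ tsupport f) → ∀ ε : ℝ, 0 < ε → ∃ F, g.S F ∧
      (∀ z ∉ cthickening 1 (tsupport f), F z = 0) ∧
      ∀ z ∈ (⋃ x ∈ s, {z | ∀ᶠ y in 𝓝 z, ψ x y = 1}) ∪ (tsupport f)ᶜ,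
        |F z - f z| ≤ ε ∧ Real.sqrt (g.Γ F F z) ≤ 1 + δ / 2 + ε := by
    intro s
    induction s using Finset.induction_on with
    | empty =>
      refine fun _ ε hε => ⟨fun _ => 0, g.S_const 0, fun _ _ => rfl, fun z hz => ?_⟩
      have hz' : z ∉ tsupport f := by simpa using hz
      rw [image_eq_zero_of_notMem_tsupport hz', g.Γ_const_left, Real.sqrt_zero, sub_zero, abs_zero]
      exact ⟨hε.le, by positivity⟩
    | insert a s ha ih =>
      intro hs
      rw [Finset.set_biUnion_insert, union_assoc]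
      refine g.g3a_glue (h1 a) (h2 a) (h3 a) (h5 a) ((h6 a).trans (ball_subset_closedBall.trans
        (closedBall_subset_cthickening (hs a (Finset.mem_insert_self _ _)) 1))) (fun ε hε => ?_)
        (ih fun x hx => hs x (Finset.mem_insert_of_mem hx))
      obtain ⟨F, a1, a2⟩ := h7 a ε hε
      exact ⟨F, a1, fun z hz => ⟨(a2 z hz).1, Real.sqrt_le_iff.2 ⟨by positivity, (a2 z hz).2⟩⟩⟩
  obtain ⟨F, a1, a2, a3⟩ := key t ht _ (half_pos hδ)
  have a4 : tsupport F ⊆ cthickening 1 (tsupport f) :=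
    closure_minimal (fun z hz => by_contra fun h => hz (a2 z h)) isClosed_cthickening
  have a5 := fun z => a3 z ((em (z ∈ tsupport f)).imp (fun h => hK h) id)
  refine ⟨F, a1, (IsCompact.cthickening hc).of_isClosed_subset (isClosed_tsupport _) a4,
    fun z => (a5 z).1.trans (by linarith), fun z => ?_, a4⟩
  refine (Real.sqrt_le_left (by positivity)).1 ((a5 z).2.trans_eq ?_)
  ring

lemma g3b_deriv : ∃ B : ℝ, ∀ s, |deriv Real.smoothTransition s| ≤ B := by
  have hc : Continuous (deriv Real.smoothTransition) :=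
    (Real.smoothTransition.contDiff (n := 1)).continuous_deriv le_rfl
  obtain ⟨B, hB⟩ := isCompact_Icc.exists_bound_of_continuousOn
    (hc.continuousOn (s := Icc (0 : ℝ) 1))
  have hB0 : 0 ≤ B := (norm_nonneg _).trans (hB 0 ⟨le_rfl, zero_le_one⟩)
  refine ⟨B, fun s => ?_⟩
  rcases lt_or_ge s 0 with h | h
  · have : Real.smoothTransition =ᶠ[𝓝 s] fun _ => 0 := by
      filter_upwards [Iio_mem_nhds h] with t ht
      exact Real.smoothTransition.zero_of_nonpos (le_of_lt ht)
    rw [this.deriv_eq]; simpa using hB0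
  rcases lt_or_ge 1 s with h' | h'
  · have : Real.smoothTransition =ᶠ[𝓝 s] fun _ => 1 := by
      filter_upwards [Ioi_mem_nhds h'] with t ht
      exact Real.smoothTransition.one_of_one_le (le_of_lt ht)
    rw [this.deriv_eq]; simpa using hB0
  · exact hB s ⟨h, h'⟩

lemma Geo.g3b_cut : ∃ C : ℝ, ∀ (x : M) (r : ℝ), 0 < r → ∃ χ, g.S χ ∧ HasCompactSupport χ ∧
    (∀ y, 0 ≤ χ y ∧ χ y ≤ 1) ∧ (∀ y, dist y x ≤ r / 2 → χ y = 1) ∧ tsupport χ ⊆ ball x r ∧
    ∀ y, g.Γ χ χ y ≤ C / r ^ 2 := by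
  obtain ⟨B, hB⟩ := g3b_deriv
  refine ⟨256 * B ^ 2, fun x r hr => ?_⟩
  have hlip : ∀ y z : M, |max (r - dist y x) 0 - max (r - dist z x) 0| ≤ dist y z := fun y z => by
    refine (abs_max_sub_max_le_abs _ _ _).trans ?_
    have := abs_dist_sub_le z y x
    rw [dist_comm z y] at this
    rwa [show r - dist y x - (r - dist z x) = dist z x - dist y x by ring]
  have hcs : HasCompactSupport fun y : M => max (r - dist y x) 0 :=
    HasCompactSupport.intro (isCompact_closedBall x r) fun y hy =>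
      max_eq_right (by rw [mem_closedBall, not_le] at hy; linarith)
  have hδ : 0 < min 1 (r / 16) := lt_min one_pos (by positivity)
  obtain ⟨f, hf, -, h1, h2, -⟩ := g.approx hlip hcs hδ
  have hd1 : min 1 (r / 16) ≤ 1 := min_le_left _ _
  have hd2 : min 1 (r / 16) ≤ r / 16 := min_le_right _ _
  have hφ : ContDiff ℝ ∞ fun s : ℝ => Real.smoothTransition (8 / r * s - 2) :=
    Real.smoothTransition.contDiff.comp (by fun_prop)
  have hsup : tsupport (fun y => Real.smoothTransition (8 / r * f y - 2)) ⊆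
      closedBall x (13 * r / 16) := by
    refine closure_minimal (fun y hy => ?_) isClosed_closedBall
    by_contra hn
    rw [mem_closedBall, not_le] at hn
    refine hy (Real.smoothTransition.zero_of_nonpos ?_)
    have h3 : f y ≤ r / 4 := by
      have := (abs_le.1 (h1 y)).2
      have h4 : max (r - dist y x) 0 ≤ 3 * r / 16 := max_le (by linarith) (by positivity)
      linarith
    have : 8 / r * f y ≤ 8 / r * (r / 4) := mul_le_mul_of_nonneg_left h3 (by positivity)
    have h5 : 8 / r * (r / 4) = 2 := by field_simp; norm_num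
    linarith
  refine ⟨fun y => Real.smoothTransition (8 / r * f y - 2),
    g.S_comp (φ := fun s : ℝ => Real.smoothTransition (8 / r * s - 2)) hf isOpen_univ hφ.contDiffOn
      fun _ => mem_univ _,
    (isCompact_closedBall x _).of_isClosed_subset (isClosed_tsupport _) hsup,
    fun y => ⟨Real.smoothTransition.nonneg _, Real.smoothTransition.le_one _⟩, fun y hy => ?_,
    hsup.trans (closedBall_subset_ball (by linarith)), fun y => ?_⟩
  · refine Real.smoothTransition.one_of_one_le ?_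
    have h3 : 3 * r / 8 ≤ f y := by
      have := (abs_le.1 (h1 y)).1
      have h4 := le_max_left (r - dist y x) 0
      linarith
    have : 8 / r * (3 * r / 8) ≤ 8 / r * f y := mul_le_mul_of_nonneg_left h3 (by positivity)
    have h5 : 8 / r * (3 * r / 8) = 3 := by field_simp
    linarith
  · have hd : deriv (fun s : ℝ => Real.smoothTransition (8 / r * s - 2)) (f y) =
        deriv Real.smoothTransition (8 / r * f y - 2) * (8 / r) := by
      have h3 : HasDerivAt (fun s : ℝ => 8 / r * s - 2) (8 / r) (f y) := by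
        simpa using ((hasDerivAt_id (f y)).const_mul (8 / r)).sub_const 2
      exact (((Real.smoothTransition.contDiff (n := 1)).differentiable one_ne_zero
        _).hasDerivAt.comp (f y) h3).deriv
    rw [g.Γ_comp_left hf isOpen_univ hφ.contDiffOn (fun _ => mem_univ _), g.Γ_comm,
      g.Γ_comp_left hf isOpen_univ hφ.contDiffOn (fun _ => mem_univ _), hd]
    have h3 : g.Γ f f y ≤ 4 := (h2 y).trans (by nlinarith)
    have h4 := g.Γ_nonneg f y
    have h5 : deriv Real.smoothTransition (8 / r * f y - 2) ^ 2 ≤ B ^ 2 :=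
      sq_le_sq' (abs_le.1 (hB _)).1 (abs_le.1 (hB _)).2
    generalize deriv Real.smoothTransition (8 / r * f y - 2) = d at h5 ⊢
    calc d * (8 / r) * (d * (8 / r) * g.Γ f f y) = 64 / r ^ 2 * (d ^ 2 * g.Γ f f y) := by ring
      _ ≤ 64 / r ^ 2 * (B ^ 2 * 4) := by gcongr
      _ = 256 * B ^ 2 / r ^ 2 := by ring

/-- Recipe: `θ ∘ f'` with `f'` from `approx` for `f = (r - d(·,x))₊`, `δ = min 1 (r/8)`, `θ = smoothTransition ((· - r/4)/(r/8))`-like. -/
theorem Geo.bump (x : M) {r : ℝ} (hr : 0 < r) : ∃ χ, g.S χ ∧ HasCompactSupport χ ∧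
    (∀ y, 0 ≤ χ y ∧ χ y ≤ 1) ∧ (∀ y, dist y x ≤ r / 2 → χ y = 1) ∧ tsupport χ ⊆ ball x r := by
  obtain ⟨C, hC⟩ := g.g3b_cut
  obtain ⟨χ, h1, h2, h3, h4, h5, -⟩ := hC x r hr
  exact ⟨χ, h1, h2, h3, h4, h5⟩

/-- First cut-offs (only the gradient is controlled): as `bump` with `r = 2R`, keeping track of `Γ`. -/
theorem Geo.cut1 (o : M) : ∃ C : ℝ, ∀ R : ℝ, 1 ≤ R → ∃ χ, g.S χ ∧ HasCompactSupport χ ∧
    (∀ y, 0 ≤ χ y ∧ χ y ≤ 1) ∧ (∀ y, dist y o ≤ R → χ y = 1) ∧ ∀ y, g.Γ χ χ y ≤ C / R ^ 2 := by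
  obtain ⟨C, hC⟩ := g.g3b_cut
  refine ⟨C / 4, fun R hR => ?_⟩
  obtain ⟨χ, h1, h2, h3, h4, -, h6⟩ := hC o (2 * R) (by linarith)
  refine ⟨χ, h1, h2, h3, fun y hy => h4 y (by linarith), fun y => (h6 y).trans (le_of_eq ?_)⟩
  ring

/-- Two continuous functions are compared by testing against non-negative smooth bumps. -/
theorem Geo.le_of_test {f f' : M → ℝ} (hf : Continuous f) (hf' : Continuous f')
    (h : ∀ χ, g.S χ → HasCompactSupport χ → (∀ y, 0 ≤ χ y) →
      ∫ y, f y * χ y ∂g.m ≤ ∫ y, f' y * χ y ∂g.m) (x : M) : f x ≤ f' x := by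
  have := g.fin_cpt
  have := g.open_pos
  by_contra hn
  rw [not_le] at hn
  obtain ⟨r, hr, hb⟩ := Metric.isOpen_iff.1 (isOpen_lt hf' hf) x hn
  obtain ⟨χ, h1, h2, h3, h4, h5⟩ := g.bump x hr
  have hc := g.S_cont h1
  have hpos : 0 < ∫ y, (f y - f' y) * χ y ∂g.m := by
    refine Continuous.integral_pos_of_hasCompactSupport_nonneg_nonzero (x := x)
      ((hf.sub hf').mul hc) h2.mul_left (fun y => ?_) ?_
    · by_cases hy : y ∈ tsupport χ
      · exact mul_nonneg (sub_nonneg.2 (le_of_lt (hb (h5 hy)))) (h3 y).1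
      · simp [image_eq_zero_of_notMem_tsupport hy]
    · rw [h4 x (by rw [dist_self]; positivity), mul_one]
      exact (sub_pos.2 hn).ne'
  have hi : Integrable (fun y => f y * χ y) g.m :=
    (hf.mul hc).integrable_of_hasCompactSupport h2.mul_left
  have hi' : Integrable (fun y => f' y * χ y) g.m :=
    (hf'.mul hc).integrable_of_hasCompactSupport h2.mul_left
  simp only [sub_mul] at hpos
  rw [integral_sub hi hi'] at hpos
  linarith [h χ h1 h2 fun y => (h3 y).1]

end Crest.Agent.R247
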