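import Crest.Agent.R247.G3

/-! # Row 247, G5: integration by parts against compactly supported weights -/

set_option autoImplicit false
set_option linter.unusedSectionVars false
set_option linter.unusedVariables false
open MeasureTheory Filter Set Metric Matrix
open scoped ENNReal NNReal Topology ContDiff
open Crest.GeometryTopology.CoordMetric

noncomputable section
namespace Crest.Agent.R247
universe u

variable {n : ℕ} {M : Type u} [MetricSpace M] [MeasurableSpace M] [BorelSpace M] [ProperSpace M]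
  (g : Geo n M)

theorem Geo.int_cs {f : M → ℝ} (hf : Continuous f) (hc : HasCompactSupport f) : Integrable f g.m := by
  have := g.fin_cpt
  exact hf.integrable_of_hasCompactSupport hc

theorem Geo.int_Δ {f : M → ℝ} (hf : g.S f) (hc : HasCompactSupport f) : ∫ y, g.Δ f y ∂g.m = 0 := by
  rcases isEmpty_or_nonempty M with h | ⟨⟨x⟩⟩
  · exact integral_of_isEmpty
  obtain ⟨r, r0, hr⟩ := hc.isCompact.isBounded.subset_ball_lt 0 x
  obtain ⟨χ, h1, h2, -, h3, -⟩ := g.bump x (r := 2 * r) (by linarith)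
  have h4 : ∀ y ∈ tsupport f, χ =ᶠ[𝓝 y] fun _ => 1 := fun y hy => by
    filter_upwards [isOpen_ball.mem_nhds (hr hy)] with z hz using h3 z (by linarith [mem_ball.1 hz])
  have e1 : g.Γ χ f = fun _ => 0 := funext fun y => by
    by_cases hy : y ∈ tsupport f
    · simp [Raw.Γ, g.grad_congr (h4 y hy), g.grad_const]
    · simp [Raw.Γ, (g.grad_eq_zero hy).1]
  have e2 : (fun y => χ y * g.Δ f y) = g.Δ f := funext fun y => by
    by_cases hy : y ∈ tsupport f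
    · rw [(h4 y hy).self_of_nhds, one_mul]
    · simp [Raw.Δ, (g.grad_eq_zero hy).2]
  have := g.ibp h1 hf h2
  rw [e1, e2] at this
  simpa using this

/-- integrable with integral zero -/
def Geo.g5Z (D : M → ℝ) : Prop := Integrable D g.m ∧ ∫ y, D y ∂g.m = 0

lemma Geo.g5Z.add {g : Geo n M} {D D' : M → ℝ} (h : g.g5Z D) (h' : g.g5Z D') : g.g5Z fun y => D y + D' y :=
  ⟨h.1.add h'.1, by rw [integral_add h.1 h'.1, h.2, h'.2, add_zero]⟩

lemma Geo.g5Z.sub {g : Geo n M} {D D' : M → ℝ} (h : g.g5Z D) (h' : g.g5Z D') : g.g5Z fun y => D y - D' y :=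
  ⟨h.1.sub h'.1, by rw [integral_sub h.1 h'.1, h.2, h'.2, sub_zero]⟩

lemma Geo.g5Z.half {g : Geo n M} {D : M → ℝ} (h : g.g5Z D) : g.g5Z fun y => D y / 2 :=
  ⟨h.1.div_const 2, by rw [integral_div, h.2, zero_div]⟩

lemma Geo.g5Z.eq {g : Geo n M} {D A B : M → ℝ} (h : g.g5Z D) (hB : Integrable B g.m) (e : ∀ y, A y = B y + D y) :
    ∫ y, A y ∂g.m = ∫ y, B y ∂g.m := by
  simp only [e]
  rw [integral_add hB h.1, h.2, add_zero]

lemma Geo.g5a_int {u v : M → ℝ} (hu : g.S u) (hc : HasCompactSupport u) (hv : g.S v) :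
    Integrable (fun y => u y * v y) g.m := g.int_cs (g.S_cont (g.S_mul hu hv)) hc.mul_right

lemma Geo.g5a_int' {u v : M → ℝ} (hu : g.S u) (hv : g.S v) (hc : HasCompactSupport v) :
    Integrable (fun y => u y * v y) g.m := g.int_cs (g.S_cont (g.S_mul hu hv)) hc.mul_left

lemma Geo.g5a_comm (u v : M → ℝ) : g.Γ u v = g.Γ v u := funext (g.Γ_comm u v)

lemma Geo.g5a_cs (u : M → ℝ) {v : M → ℝ} (hc : HasCompactSupport v) : HasCompactSupport (g.Γ u v) :=
  g.g5a_comm u v ▸ g.cs_Γ hc u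

lemma Geo.g5a_D {u v : M → ℝ} (hu : g.S u) (hc : HasCompactSupport u) (hv : g.S v) :
    g.g5Z fun y => g.Γ u v y + u y * g.Δ v y := by
  have i1 := g.int_cs (g.S_cont (g.S_Γ hu hv)) (g.cs_Γ hc v)
  have i2 := g.g5a_int hu hc (g.S_Δ hv)
  exact ⟨i1.add i2, by rw [integral_add i1 i2, g.ibp hu hv hc, neg_add_cancel]⟩

lemma Geo.g5a_D' {u v : M → ℝ} (hu : g.S u) (hv : g.S v) (hc : HasCompactSupport v) :
    g.g5Z fun y => g.Γ u v y + u y * g.Δ v y := by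
  have h1 : g.g5Z (g.Δ fun y => u y * v y) :=
    ⟨g.int_cs (g.S_cont (g.S_Δ (g.S_mul hu hv))) (g.cs_Δ hc.mul_left), g.int_Δ (g.S_mul hu hv) hc.mul_left⟩
  convert h1.sub (g.g5a_D hv hc hu) using 2 with y
  rw [g.Δ_mul hu hv, g.Γ_comm v u]
  ring

/-- `∫ χ Δf · w = -∫ χ Γ(f,w) - ∫ w Γ(f,χ)`. -/
theorem Geo.ibp_cut {χ f w : M → ℝ} (hχ : g.S χ) (hc : HasCompactSupport χ) (hf : g.S f) (hw : g.S w) :
    ∫ y, χ y * w y * g.Δ f y ∂g.m =
      -∫ y, χ y * g.Γ f w y ∂g.m - ∫ y, w y * g.Γ f χ y ∂g.m := by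
  have i1 : Integrable (fun y => -(χ y * g.Γ f w y)) g.m := (g.g5a_int hχ hc (g.S_Γ hf hw)).neg
  have i2 := g.g5a_int' hw (g.S_Γ hf hχ) (g.g5a_cs f hc)
  rw [← integral_neg, ← integral_sub i1 i2]
  refine (g.g5a_D (g.S_mul hχ hw) hc.mul_right hf).eq (i1.sub i2) fun y => ?_
  simp only [g.Γ_mul_left hχ hw, g.Γ_comm w f, g.Γ_comm χ f]
  ring

/-- Green's identity, derivatives on the cut-off and on `F`. -/
theorem Geo.green {χ e F : M → ℝ} (hχ : g.S χ) (hc : HasCompactSupport χ) (he : g.S e) (hF : g.S F) :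
    ∫ y, χ y * F y * g.Δ e y ∂g.m =
      ∫ y, χ y * e y * g.Δ F y ∂g.m + ∫ y, e y * (F y * g.Δ χ y + 2 * g.Γ F χ y) ∂g.m := by
  have i1 := g.g5a_int (g.S_mul hχ he) hc.mul_right (g.S_Δ hF)
  have i2 := g.g5a_int' he (g.S_add (g.S_mul hF (g.S_Δ hχ)) (g.S_cmul 2 (g.S_Γ hF hχ)))
    ((g.cs_Δ hc).mul_left.add (g.g5a_cs F hc).mul_left)
  rw [← integral_add i1 i2]
  refine (((g.g5a_D (g.S_mul hχ hF) hc.mul_right he).sub (g.g5a_D (g.S_mul hχ he) hc.mul_right hF)).sub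
    (g.g5a_D' (g.S_mul he hF) hχ hc)).eq (i1.add i2) fun y => ?_
  simp only [g.Γ_mul_left hχ hF, g.Γ_mul_left hχ he, g.Γ_mul_left he hF, g.Γ_comm F e, g.Γ_comm χ e,
    g.Γ_comm χ F]
  ring

/-- Green's identity, first derivatives only. -/
theorem Geo.green1 {χ e F : M → ℝ} (hχ : g.S χ) (hc : HasCompactSupport χ) (he : g.S e) (hF : g.S F) :
    ∫ y, χ y * F y * g.Δ e y ∂g.m =
      ∫ y, χ y * e y * g.Δ F y ∂g.m + ∫ y, (e y * g.Γ F χ y - F y * g.Γ e χ y) ∂g.m := by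
  have i1 := g.g5a_int (g.S_mul hχ he) hc.mul_right (g.S_Δ hF)
  have i2 : Integrable (fun y => e y * g.Γ F χ y - F y * g.Γ e χ y) g.m :=
    (g.g5a_int' he (g.S_Γ hF hχ) (g.g5a_cs F hc)).sub (g.g5a_int' hF (g.S_Γ he hχ) (g.g5a_cs e hc))
  rw [← integral_add i1 i2]
  refine ((g.g5a_D (g.S_mul hχ hF) hc.mul_right he).sub (g.g5a_D (g.S_mul hχ he) hc.mul_right hF)).eq
    (i1.add i2) fun y => ?_
  simp only [g.Γ_mul_left hχ hF, g.Γ_mul_left hχ he, g.Γ_comm F e, g.Γ_comm χ e, g.Γ_comm χ F]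
  ring

/-- Weak form of `div (Hess φ ∇v) = Γ₂(v,φ) + Γ(v,Δφ)`: expand `Hs` and integrate each term by parts. -/
theorem Geo.weak_hs {w v φ : M → ℝ} (hw : g.S w) (hc : HasCompactSupport w) (hv : g.S v) (hφ : g.S φ) :
    ∫ y, w y * (g.Γ2 v φ y - g.k * g.Γ v φ y + g.Γ v (g.Δ φ) y) ∂g.m = -∫ y, g.Hs φ v w y ∂g.m := by
  have cs : HasCompactSupport (g.Hs φ v w) := by
    refine HasCompactSupport.intro hc fun y hy => ?_
    rw [g.Hs_eq hφ hv hw, (g.grad_eq_zero hy).1]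
    simp [bf]
  rw [← integral_neg]
  refine (((g.g5a_D hw hc (g.S_Γ hv hφ)).add ((g.g5a_D (g.S_mul hw (g.S_Δ hφ)) hc.mul_right hv).sub
    (g.g5a_D (g.S_Γ hv hw) (g.g5a_cs v hc) hφ))).sub ((g.g5a_D (g.S_mul hw (g.S_Δ hv)) hc.mul_right hφ).sub
    (g.g5a_D (g.S_Γ hφ hw) (g.g5a_cs φ hc) hv))).half.eq
    (g.int_cs (g.S_cont (g.S_Hs hφ hv hw)) cs).neg fun y => ?_
  simp only [Raw.Γ2, Raw.Hs, g.Γ_mul_left hw (g.S_Δ hφ), g.Γ_mul_left hw (g.S_Δ hv), g.g5a_comm φ v,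
    g.Γ_comm (g.Δ φ) v, g.Γ_comm (g.Δ v) φ, g.Γ_comm w v, g.Γ_comm w φ, g.Γ_comm (g.Γ v w) φ,
    g.Γ_comm (g.Γ φ w) v]
  ring

/-- Weak Bochner formula without third derivatives. -/
theorem Geo.weak_bochner {w f : M → ℝ} (hw : g.S w) (hc : HasCompactSupport w) (hf : g.S f) :
    ∫ y, w y * g.Γ2 f f y ∂g.m = ∫ y, (g.Γ f f y * g.Δ w y / 2 + w y * g.Δ f y ^ 2 +
      g.Δ f y * g.Γ f w y + g.k * w y * g.Γ f f y) ∂g.m := by
  have hG := g.S_Γ hf hf
  have hD := g.S_Δ hf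
  refine (((g.g5a_D hw hc hG).sub (g.g5a_D' hG hw hc)).half.sub
    (g.g5a_D (g.S_mul hw hD) hc.mul_right hf)).eq
    (((((g.g5a_int' hG (g.S_Δ hw) (g.cs_Δ hc)).div_const 2).add
      (g.int_cs ((g.S_cont hw).mul ((g.S_cont hD).pow 2)) hc.mul_right)).add
      (g.g5a_int' hD (g.S_Γ hf hw) (g.g5a_cs f hc))).add
      (g.g5a_int (g.S_cmul g.k hw) hc.mul_left hG)) fun y => ?_
  simp only [Raw.Γ2, g.Γ_mul_left hw hD, g.Γ_comm (g.Δ f) f, g.Γ_comm w f, g.Γ_comm (g.Γ f f) w]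
  ring

/-- Differentiation under the integral: FTC in `s` for each `y`, Fubini on `[a,b] × tsupport χ` (joint continuity). -/
theorem Geo.ftc {I : Set ℝ} {F : ℝ → M → ℝ} (hI : IsOpen I) (hF : g.Sm I F) {a b : ℝ} (hab : a ≤ b)
    (hs : Icc a b ⊆ I) {χ : M → ℝ} (hχ : Continuous χ) (hc : HasCompactSupport χ) :
    ∫ y, χ y * F b y ∂g.m - ∫ y, χ y * F a y ∂g.m = ∫ s in a..b, ∫ y, χ y * dt F s y ∂g.m := by
  have := g.fin_cpt
  have hD := g.Sm_cont (g.Sm_dt hI hF)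
  have hint : Integrable (Function.uncurry fun s y => χ y * dt F s y)
      ((volume.restrict (uIoc a b)).prod g.m) := by
    rw [uIoc_of_le hab, Measure.restrict_prod_eq_prod_univ]
    have h1 : IntegrableOn (Function.uncurry fun s y => χ y * dt F s y) (Icc a b ×ˢ tsupport χ)
        (volume.prod g.m) :=
      ContinuousOn.integrableOn_compact (isCompact_Icc.prod hc)
        ((hχ.comp continuous_snd).continuousOn.mul (hD.mono (prod_mono hs (subset_univ _))))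
    refine (h1.mono_set (prod_mono Ioc_subset_Icc_self Subset.rfl)).of_forall_sdiff_eq_zero
      (measurableSet_Ioc.prod MeasurableSet.univ) fun p hp => ?_
    have : p.2 ∉ tsupport χ := fun h => hp.2 ⟨hp.1.1, h⟩
    simp [Function.uncurry, image_eq_zero_of_notMem_tsupport this]
  have hi : ∀ t ∈ I, Integrable (fun y => χ y * F t y) g.m := fun t ht =>
    g.int_cs (hχ.mul (g.S_cont (g.Sm_slice hF ht))) hc.mul_right
  rw [intervalIntegral_integral_swap hint, ← integral_sub (hi b (hs ⟨hab, le_rfl⟩))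
    (hi a (hs ⟨le_rfl, hab⟩))]
  refine integral_congr_ae (Eventually.of_forall fun y => ?_)
  have h2 : ∫ s in a..b, dt F s y = F b y - F a y := by
    refine intervalIntegral.integral_eq_sub_of_hasDerivAt (f := fun s => F s y)
      (fun s hs' => g.Sm_deriv hI hF (hs (by rwa [uIcc_of_le hab] at hs')) y) ?_
    refine ContinuousOn.intervalIntegrable ?_
    rw [uIcc_of_le hab]
    exact hD.comp (Continuous.prodMk_left y).continuousOn fun s hs' => ⟨hs hs', mem_univ _⟩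
  simp only [intervalIntegral.integral_const_mul, h2, mul_sub]

theorem Geo.cont_int {I : Set ℝ} {F : ℝ → M → ℝ}
    (hF : ContinuousOn (fun p : ℝ × M => F p.1 p.2) (I ×ˢ univ)) {χ : M → ℝ} (hχ : Continuous χ)
    (hc : HasCompactSupport χ) : ContinuousOn (fun s => ∫ y, χ y * F s y ∂g.m) I := by
  have := g.fin_cpt
  refine continuousOn_integral_of_compact_support (f := fun s y => χ y * F s y) hc
    ((hχ.comp continuous_snd).continuousOn.mul hF) fun s y _ hy => ?_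
  simp [image_eq_zero_of_notMem_tsupport hy]

lemma Geo.g5b_cut {I : Set ℝ} {e F : ℝ → M → ℝ} (hI : IsOpen I) (he : g.Sm I e) (hF : g.Sm I F)
    {a b : ℝ} (hab : a ≤ b) (hs : Icc a b ⊆ I) {χ : M → ℝ} (hχ : g.S χ) (hc : HasCompactSupport χ)
    {R : ℝ → ℝ} (hR : ∀ s ∈ I, ∫ y, χ y * F s y * g.Δ (e s) y ∂g.m =
      ∫ y, χ y * e s y * g.Δ (F s) y ∂g.m + R s) :
    ∫ y, χ y * (e b y * F b y) ∂g.m - ∫ y, χ y * (e a y * F a y) ∂g.m =
      ∫ s in a..b, ((∫ y, χ y * (F s y * (dt e s y - g.Δ (e s) y) +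
          e s y * (dt F s y + g.Δ (F s) y)) ∂g.m) + R s) := by
  rw [g.ftc (F := fun s y => e s y * F s y) hI (g.Sm_mul he hF) hab hs (g.S_cont hχ) hc]
  refine intervalIntegral.integral_congr fun s hs' => ?_
  have hsI : s ∈ I := hs (by rwa [uIcc_of_le hab] at hs')
  have h1 := g.Sm_slice he hsI
  have h2 := g.Sm_slice hF hsI
  have h3 := g.Sm_slice (g.Sm_dt hI he) hsI
  have h4 := g.Sm_slice (g.Sm_dt hI hF) hsI
  have i1 : Integrable (fun y => χ y * (F s y * (dt e s y - g.Δ (e s) y) +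
      e s y * (dt F s y + g.Δ (F s) y))) g.m :=
    g.int_cs (g.S_cont (g.S_mul hχ (g.S_add (g.S_mul h2 (g.S_sub h3 (g.S_Δ h1)))
      (g.S_mul h1 (g.S_add h4 (g.S_Δ h2)))))) hc.mul_right
  have i2 : Integrable (fun y => χ y * F s y * g.Δ (e s) y) g.m :=
    g.int_cs (g.S_cont (g.S_mul (g.S_mul hχ h2) (g.S_Δ h1))) hc.mul_right.mul_right
  have i3 : Integrable (fun y => χ y * e s y * g.Δ (F s) y) g.m :=
    g.int_cs (g.S_cont (g.S_mul (g.S_mul hχ h1) (g.S_Δ h2))) hc.mul_right.mul_right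
  have e1 : R s = ∫ y, (χ y * F s y * g.Δ (e s) y - χ y * e s y * g.Δ (F s) y) ∂g.m := by
    rw [integral_sub i2 i3, hR s hsI]; ring
  rw [e1]
  refine Eq.trans ?_ (integral_add i1 (i2.sub i3))
  refine integral_congr_ae (Eventually.of_forall fun y => ?_)
  have e2 : dt (fun s y => e s y * F s y) s y = dt e s y * F s y + e s y * dt F s y :=
    ((g.Sm_deriv hI he hsI y).fun_mul (g.Sm_deriv hI hF hsI y)).deriv
  simp only [e2, Pi.sub_apply]
  ring

/-- The basic space-time identity: `e` is tested forward, `F` backward. -/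
theorem Geo.cut {I : Set ℝ} {e F : ℝ → M → ℝ} (hI : IsOpen I) (he : g.Sm I e) (hF : g.Sm I F)
    {a b : ℝ} (hab : a ≤ b) (hs : Icc a b ⊆ I) {χ : M → ℝ} (hχ : g.S χ) (hc : HasCompactSupport χ) :
    ∫ y, χ y * (e b y * F b y) ∂g.m - ∫ y, χ y * (e a y * F a y) ∂g.m =
      ∫ s in a..b, ((∫ y, χ y * (F s y * (dt e s y - g.Δ (e s) y) +
          e s y * (dt F s y + g.Δ (F s) y)) ∂g.m) +
        ∫ y, e s y * (F s y * g.Δ χ y + 2 * g.Γ (F s) χ y) ∂g.m) := by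
  exact g.g5b_cut hI he hF hab hs hχ hc fun s hs =>
    g.green hχ hc (g.Sm_slice he hs) (g.Sm_slice hF hs)

theorem Geo.cut' {I : Set ℝ} {e F : ℝ → M → ℝ} (hI : IsOpen I) (he : g.Sm I e) (hF : g.Sm I F)
    {a b : ℝ} (hab : a ≤ b) (hs : Icc a b ⊆ I) {χ : M → ℝ} (hχ : g.S χ) (hc : HasCompactSupport χ) :
    ∫ y, χ y * (e b y * F b y) ∂g.m - ∫ y, χ y * (e a y * F a y) ∂g.m =
      ∫ s in a..b, ((∫ y, χ y * (F s y * (dt e s y - g.Δ (e s) y) +
          e s y * (dt F s y + g.Δ (F s) y)) ∂g.m) -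
        ∫ y, F s y * (e s y * g.Δ χ y + 2 * g.Γ (e s) χ y) ∂g.m) := by
  refine (g.g5b_cut hI he hF hab hs hχ hc
    (R := fun s => -∫ y, F s y * (e s y * g.Δ χ y + 2 * g.Γ (e s) χ y) ∂g.m) fun s hs => ?_).trans
    (intervalIntegral.integral_congr fun s _ => (sub_eq_add_neg _ _).symm)
  rw [g.green hχ hc (g.Sm_slice hF hs) (g.Sm_slice he hs)]
  ring

theorem Geo.cut1' {I : Set ℝ} {e F : ℝ → M → ℝ} (hI : IsOpen I) (he : g.Sm I e) (hF : g.Sm I F)
    {a b : ℝ} (hab : a ≤ b) (hs : Icc a b ⊆ I) {χ : M → ℝ} (hχ : g.S χ) (hc : HasCompactSupport χ) :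
    ∫ y, χ y * (e b y * F b y) ∂g.m - ∫ y, χ y * (e a y * F a y) ∂g.m =
      ∫ s in a..b, ((∫ y, χ y * (F s y * (dt e s y - g.Δ (e s) y) +
          e s y * (dt F s y + g.Δ (F s) y)) ∂g.m) +
        ∫ y, (e s y * g.Γ (F s) χ y - F s y * g.Γ (e s) χ y) ∂g.m) := by
  exact g.g5b_cut hI he hF hab hs hχ hc fun s hs =>
    g.green1 hχ hc (g.Sm_slice he hs) (g.Sm_slice hF hs)

end Crest.Agent.R247
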