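import Crest.Agent.R247.Defs2

/-! # Row 247, H1: elementary properties of the kernel and limits of cut-off identities -/

set_option autoImplicit false
set_option linter.unusedSectionVars false
set_option linter.unusedVariables false
open MeasureTheory Filter Set Metric Matrix
open scoped ENNReal NNReal Topology ContDiff
open Crest.GeometryTopology.CoordMetric

noncomputable section
namespace Crest.Agent.R247
universe u

variable {n : ℕ} {M : Type u} [MetricSpace M] [MeasurableSpace M] [BorelSpace M] [ProperSpace M]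
  (h : HS n M)

section a
theorem HS.H_S {t : ℝ} (ht : 0 < t) (x : M) : h.S (h.H t x) := by
  exact h.Sm_slice (h.H_Sm x) ht
theorem HS.H_cont {t : ℝ} (ht : 0 < t) (x : M) : Continuous (h.H t x) := by
  exact (h.Sm_cont (h.H_Sm x)).comp_continuous (Continuous.prodMk_right t) fun y => ⟨ht, trivial⟩
/-- separately continuous ⇒ jointly measurable (`measurable_uncurry_of_continuous_of_measurable`). -/
theorem HS.H_meas {t : ℝ} (ht : 0 < t) : Measurable fun p : M × M => h.H t p.1 p.2 := by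
  exact measurable_uncurry_of_continuous_of_measurable (u := h.H t)
    (fun y => (h.H_cont ht y).congr fun x => h.H_symm ht y x) fun x => (h.H_cont ht x).measurable
theorem HS.int_L2 {t : ℝ} (ht : 0 < t) (x : M) {f : M → ℝ} (hf : MemLp f 2 h.m) :
    Integrable (fun y => h.H t x y * f y) h.m := by
  exact (h.H_L2 ht x).integrable_mul hf
theorem HS.int_bdd {t : ℝ} (ht : 0 < t) (x : M) {f : M → ℝ} (hf : AEStronglyMeasurable f h.m) {B : ℝ}
    (hB : ∀ y, |f y| ≤ B) : Integrable (fun y => h.H t x y * f y) h.m := by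
  exact (h.H_int ht x).1.mul_bdd hf (Eventually.of_forall hB)
theorem HS.P_add {t : ℝ} {x : M} {f f' : M → ℝ} (hf : Integrable (fun y => h.H t x y * f y) h.m)
    (hf' : Integrable (fun y => h.H t x y * f' y) h.m) :
    h.P t (fun y => f y + f' y) x = h.P t f x + h.P t f' x := by
  simp only [HS.P, kerP, mul_add, integral_add hf hf']
theorem HS.P_sub {t : ℝ} {x : M} {f f' : M → ℝ} (hf : Integrable (fun y => h.H t x y * f y) h.m)
    (hf' : Integrable (fun y => h.H t x y * f' y) h.m) :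
    h.P t (fun y => f y - f' y) x = h.P t f x - h.P t f' x := by
  simp only [HS.P, kerP, mul_sub, integral_sub hf hf']
theorem HS.P_cmul (t c : ℝ) (x : M) (f : M → ℝ) : h.P t (fun y => c * f y) x = c * h.P t f x := by
  simp only [HS.P, kerP, mul_left_comm _ c, integral_const_mul]
theorem HS.P_sum {ι : Type*} (s : Finset ι) {t : ℝ} {x : M} {f : ι → M → ℝ}
    (hf : ∀ i ∈ s, Integrable (fun y => h.H t x y * f i y) h.m) :
    h.P t (fun y => ∑ i ∈ s, f i y) x = ∑ i ∈ s, h.P t (f i) x := by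
  simp only [HS.P, kerP, Finset.mul_sum, integral_finsetSum s hf]
theorem HS.P_mono {t : ℝ} (ht : 0 < t) {x : M} {f f' : M → ℝ}
    (hf : Integrable (fun y => h.H t x y * f y) h.m) (hf' : Integrable (fun y => h.H t x y * f' y) h.m)
    (hle : ∀ y, f y ≤ f' y) : h.P t f x ≤ h.P t f' x := by
  exact integral_mono hf hf' fun y => mul_le_mul_of_nonneg_left (hle y) (h.H_nonneg ht x y)
theorem HS.P_nonneg {t : ℝ} (ht : 0 < t) (x : M) {f : M → ℝ} (h0 : ∀ y, 0 ≤ f y) : 0 ≤ h.P t f x := by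
  exact integral_nonneg fun y => mul_nonneg (h.H_nonneg ht x y) (h0 y)
theorem HS.abs_P_le {t : ℝ} (ht : 0 < t) (x : M) {f : M → ℝ} {B : ℝ} (hB : ∀ y, |f y| ≤ B) :
    |h.P t f x| ≤ B := by
  have h0 : 0 ≤ B := (abs_nonneg _).trans (hB x)
  refine (norm_integral_le_of_norm_le (f := fun y => h.H t x y * f y) ((h.H_int ht x).1.mul_const B) (Eventually.of_forall fun y => ?_)).trans ?_
  · rw [norm_mul, Real.norm_of_nonneg (h.H_nonneg ht x y)]
    exact mul_le_mul_of_nonneg_left (hB y) (h.H_nonneg ht x y)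
  · rw [integral_mul_const]
    exact mul_le_of_le_one_left h0 (h.H_int ht x).2
theorem HS.abs_P_le_P {t : ℝ} (ht : 0 < t) {x : M} {f f' : M → ℝ}
    (hf' : Integrable (fun y => h.H t x y * f' y) h.m) (hle : ∀ y, |f y| ≤ f' y) :
    |h.P t f x| ≤ h.P t f' x := by
  refine norm_integral_le_of_norm_le (f := fun y => h.H t x y * f y) hf' (Eventually.of_forall fun y => ?_)
  rw [norm_mul, Real.norm_of_nonneg (h.H_nonneg ht x y)]
  exact mul_le_mul_of_nonneg_left (hle y) (h.H_nonneg ht x y)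
/-- Cauchy-Schwarz. -/
theorem HS.P_cs {t : ℝ} (ht : 0 < t) {x : M} {f f' : M → ℝ} (hm : AEStronglyMeasurable f h.m)
    (hm' : AEStronglyMeasurable f' h.m) (hf : Integrable (fun y => h.H t x y * f y ^ 2) h.m)
    (hf' : Integrable (fun y => h.H t x y * f' y ^ 2) h.m) :
    Integrable (fun y => h.H t x y * (f y * f' y)) h.m ∧ |h.P t (fun y => f y * f' y) x| ≤
      Real.sqrt (h.P t (fun y => f y ^ 2) x) * Real.sqrt (h.P t (fun y => f' y ^ 2) x) := by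
  have hi : Integrable (fun y => h.H t x y * (f y * f' y)) h.m := by
    refine (hf.add hf').mono' ((h.H_cont ht x).aestronglyMeasurable.mul (hm.mul hm')) (Eventually.of_forall fun y => ?_)
    rw [norm_mul, Real.norm_of_nonneg (h.H_nonneg ht x y), Pi.add_apply, ← mul_add]
    refine mul_le_mul_of_nonneg_left (abs_le.2 ⟨?_, ?_⟩) (h.H_nonneg ht x y)
    · nlinarith [sq_nonneg (f y + f' y), sq_nonneg (f y), sq_nonneg (f' y)]
    · nlinarith [sq_nonneg (f y - f' y), sq_nonneg (f y), sq_nonneg (f' y)]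
  refine ⟨hi, ?_⟩
  have key := discrim_le_zero (a := h.P t (fun y => f y ^ 2) x) (b := 2 * h.P t (fun y => f y * f' y) x)
    (c := h.P t (fun y => f' y ^ 2) x) fun l => by
      have e1 := h.P_nonneg ht x (f := fun y => (l * f y + f' y) ^ 2) fun y => sq_nonneg _
      have e2 : h.P t (fun y => (l * f y + f' y) ^ 2) x = ∫ y, (l * l * (h.H t x y * f y ^ 2) +
          2 * l * (h.H t x y * (f y * f' y)) + h.H t x y * f' y ^ 2) ∂h.m :=
        integral_congr_ae (Eventually.of_forall fun y => by ring)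
      rw [e2, integral_add (by exact (hf.const_mul _).add (hi.const_mul _)) hf', integral_add (hf.const_mul _) (hi.const_mul _),
        integral_const_mul, integral_const_mul] at e1
      refine e1.trans_eq ?_
      simp only [HS.P, kerP]
      ring
  rw [← Real.sqrt_mul (h.P_nonneg ht x fun y => sq_nonneg _)]
  refine Real.abs_le_sqrt ?_
  rw [discrim] at key
  linarith
theorem HS.P_sq_le {t : ℝ} (ht : 0 < t) {x : M} {f : M → ℝ} (hm : AEStronglyMeasurable f h.m)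
    (hf : Integrable (fun y => h.H t x y * f y ^ 2) h.m) :
    Integrable (fun y => h.H t x y * f y) h.m ∧ h.P t f x ^ 2 ≤ h.P t (fun y => f y ^ 2) x := by
  obtain ⟨h1, h2⟩ := h.P_cs ht (f' := fun _ => 1) hm aestronglyMeasurable_const hf (by simpa using (h.H_int ht x).1)
  simp only [mul_one] at h1 h2
  refine ⟨h1, ?_⟩
  have e1 : Real.sqrt (h.P t (fun _ => (1 : ℝ) ^ 2) x) ≤ 1 :=
    Real.sqrt_le_one.2 ((le_abs_self _).trans (h.abs_P_le ht x fun y => by simp))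
  have e2 := h2.trans (mul_le_of_le_one_right (Real.sqrt_nonneg _) e1)
  exact (Real.sq_le (h.P_nonneg ht x fun y => sq_nonneg _)).2 (abs_le.1 e2)
/-- Semigroup property (Tonelli + Fubini with `H_add`, `H_symm`). -/
theorem HS.P_P {s t : ℝ} (hs : 0 < s) (ht : 0 < t) {x : M} {f : M → ℝ} (hm : AEStronglyMeasurable f h.m)
    (hf : Integrable (fun y => h.H (s + t) x y * f y) h.m) :
    Integrable (fun y => h.H s x y * h.P t f y) h.m ∧ h.P s (h.P t f) x = h.P (s + t) f x := by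
  have := h.fin_cpt
  have hK : Integrable (fun p : M × M => h.H s x p.1 * (h.H t p.1 p.2 * f p.2)) (h.m.prod h.m) := by
    have hm2 : AEStronglyMeasurable (fun p : M × M => h.H s x p.1 * (h.H t p.1 p.2 * f p.2))
        (h.m.prod h.m) :=
      ((h.H_cont hs x).measurable.comp measurable_fst).aestronglyMeasurable.mul
        ((h.H_meas ht).aestronglyMeasurable.mul hm.comp_snd)
    rw [integrable_prod_iff' hm2]
    refine ⟨Eventually.of_forall fun z => ?_, hf.norm.congr (Eventually.of_forall fun z => ?_)⟩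
    · refine (((h.H_L2 hs x).integrable_mul (h.H_L2 ht z)).mul_const (f z)).congr
        (Eventually.of_forall fun y => ?_)
      simp only [Pi.mul_apply, Function.comp_apply]
      rw [h.H_symm ht z y, mul_assoc]
    · simp only [Pi.mul_apply, Function.comp_apply]
      rw [norm_mul, Real.norm_of_nonneg (h.H_nonneg (add_pos hs ht) x z), h.H_add hs ht,
        ← integral_mul_const]
      refine integral_congr_ae (Eventually.of_forall fun y => ?_)
      simp only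
      rw [norm_mul, norm_mul, Real.norm_of_nonneg (h.H_nonneg hs x y),
        Real.norm_of_nonneg (h.H_nonneg ht y z), h.H_symm ht z y, mul_assoc]
  have e1 : ∀ y, h.H s x y * h.P t f y = ∫ z, h.H s x y * (h.H t y z * f z) ∂h.m := fun y =>
    (integral_const_mul _ _).symm
  refine ⟨hK.integral_prod_left.congr (Eventually.of_forall fun y => (e1 y).symm), ?_⟩
  change ∫ y, h.H s x y * h.P t f y ∂h.m = ∫ z, h.H (s + t) x z * f z ∂h.m
  simp_rw [e1]
  rw [integral_integral_swap (f := fun y z => h.H s x y * (h.H t y z * f z)) hK]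
  refine integral_congr_ae (Eventually.of_forall fun z => ?_)
  simp only
  rw [h.H_add hs ht, ← integral_mul_const]
  refine integral_congr_ae (Eventually.of_forall fun y => ?_)
  simp only
  rw [h.H_symm ht z y, mul_assoc]
theorem HS.P_H {s t : ℝ} (hs : 0 < s) (ht : 0 < t) (x y : M) : h.P s (h.H t x) y = h.H (s + t) x y := by
  rw [h.H_symm (add_pos hs ht) x y, h.H_add hs ht]
  rfl
/-- Symmetry, under joint integrability. -/
theorem HS.P_symm {t : ℝ} (ht : 0 < t) {f f' : M → ℝ} (hm : AEStronglyMeasurable f h.m)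
    (hm' : AEStronglyMeasurable f' h.m) (hi : ∀ y, Integrable (fun z => h.H t y z * f' z) h.m)
    (hf : Integrable (fun y => f y * h.P t (fun z => |f' z|) y) h.m) :
    Integrable (fun y => f y * h.P t f' y) h.m ∧ Integrable (fun z => f' z * h.P t f z) h.m ∧
      ∫ y, f y * h.P t f' y ∂h.m = ∫ z, f' z * h.P t f z ∂h.m := by
  have := h.fin_cpt
  have hK : Integrable (fun p : M × M => f p.1 * (h.H t p.1 p.2 * f' p.2)) (h.m.prod h.m) := by
    have hm2 : AEStronglyMeasurable (fun p : M × M => f p.1 * (h.H t p.1 p.2 * f' p.2))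
        (h.m.prod h.m) := hm.comp_fst.mul ((h.H_meas ht).aestronglyMeasurable.mul hm'.comp_snd)
    rw [integrable_prod_iff hm2]
    refine ⟨Eventually.of_forall fun y => (hi y).const_mul (f y),
      hf.norm.congr (Eventually.of_forall fun y => ?_)⟩
    simp only [Pi.mul_apply]
    rw [norm_mul, Real.norm_of_nonneg (h.P_nonneg ht y fun z => abs_nonneg _), HS.P, kerP,
      ← integral_const_mul]
    refine integral_congr_ae (Eventually.of_forall fun z => ?_)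
    simp only
    rw [norm_mul, norm_mul, Real.norm_of_nonneg (h.H_nonneg ht y z), Real.norm_eq_abs (f' z)]
  have e1 : ∀ y, f y * h.P t f' y = ∫ z, f y * (h.H t y z * f' z) ∂h.m := fun y =>
    (integral_const_mul _ _).symm
  have e2 : ∀ z, f' z * h.P t f z = ∫ y, f y * (h.H t y z * f' z) ∂h.m := fun z => by
    rw [HS.P, kerP, ← integral_const_mul]
    refine integral_congr_ae (Eventually.of_forall fun y => ?_)
    simp only
    rw [h.H_symm ht z y]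
    ring
  refine ⟨hK.integral_prod_left.congr (Eventually.of_forall fun y => (e1 y).symm),
    hK.integral_prod_right.congr (Eventually.of_forall fun z => (e2 z).symm), ?_⟩
  simp_rw [e1, e2]
  exact integral_integral_swap (f := fun y z => f y * (h.H t y z * f' z)) hK
theorem HS.P_symm_L2 {t : ℝ} (ht : 0 < t) {f f' : M → ℝ} (hf : MemLp f 2 h.m) (hf' : MemLp f' 2 h.m) :
    ∫ y, f y * h.P t f' y ∂h.m = ∫ y, f' y * h.P t f y ∂h.m := by
  exact (h.P_symm ht hf.1 hf'.1 (fun y => h.int_L2 ht y hf')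
    (hf.integrable_mul (h.P_L2 (f := fun z => |f' z|) hf'.abs ht).1)).2.2
theorem HS.P_S {t : ℝ} (ht : 0 < t) {f : M → ℝ} (hf : MemLp f 2 h.m) : h.S (h.P t f) := by
  exact h.Sm_slice (h.P_Sm hf) ht
theorem HS.P_H1 {t : ℝ} (ht : 0 < t) {f : M → ℝ} (hf : MemLp f 2 h.m) :
    h.H1 (h.P t f) ∧ h.H1 (h.Δ (h.P t f)) := by
  have key : ∀ {s : ℝ} {w : M → ℝ}, 0 < s → MemLp w 2 h.m → h.H1 (h.P s w) := fun hs hw =>
    ⟨h.P_S hs hw, (h.P_L2 hw hs).1, (h.P_grad hw hs).1⟩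
  refine ⟨key ht hf, ?_⟩
  have e := h.P_lap hf (half_pos ht) (half_pos ht)
  rw [add_halves] at e
  have := key (half_pos ht) (h.P_lap_L2 hf (half_pos ht))
  change h.H1 (kerP _ _ _ _) at this
  rw [← e] at this
  exact this
theorem HS.th_eq {t : ℝ} (ht : 0 < t) (x : M) : h.th t x = ∫ y, h.H (t / 2) x y ^ 2 ∂h.m := by
  have e := h.H_add (half_pos ht) (half_pos ht) x x
  rw [add_halves] at e
  simp_rw [sq]
  exact e
theorem HS.th_anti {s t : ℝ} (hs : 0 < s) (hst : s ≤ t) (x : M) : h.th t x ≤ h.th s x := by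
  rcases hst.eq_or_lt with rfl | hlt
  · exact le_rfl
  have h1 : 0 < (t - s) / 2 := by linarith
  rw [h.th_eq hs, h.th_eq (hs.trans hlt)]
  refine le_of_eq_of_le ?_ (h.P_L2 (h.H_L2 (half_pos hs) x) h1).2
  refine integral_congr_ae (Eventually.of_forall fun y => ?_)
  have e := h.P_H h1 (half_pos hs) x y
  rw [show (t - s) / 2 + s / 2 = t / 2 by ring] at e
  simp only
  rw [← e]
  rfl
/-- Uniform bounds away from `t = 0` (`P_lap`, `P_L2`, `P_grad`). -/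
theorem HS.unif_L2 {f : M → ℝ} (hf : MemLp f 2 h.m) {a : ℝ} (ha : 0 < a) : ∃ B, ∀ t, a ≤ t →
    ∫ y, h.P t f y ^ 2 ∂h.m ≤ B ∧ ∫ y, h.Γ (h.P t f) (h.P t f) y ∂h.m ≤ B ∧
      ∫ y, h.Δ (h.P t f) y ^ 2 ∂h.m ≤ B := by
  have a2 := half_pos ha
  have p1 : 0 ≤ ∫ y, f y ^ 2 ∂h.m := integral_nonneg fun y => sq_nonneg _
  have p2 : 0 ≤ (∫ y, f y ^ 2 ∂h.m) / (2 * a) := by positivity
  have p3 : 0 ≤ ∫ y, h.Δ (h.P (a / 2) f) y ^ 2 ∂h.m := integral_nonneg fun y => sq_nonneg _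
  refine ⟨∫ y, f y ^ 2 ∂h.m + (∫ y, f y ^ 2 ∂h.m) / (2 * a) + ∫ y, h.Δ (h.P (a / 2) f) y ^ 2 ∂h.m,
    fun t hat => ?_⟩
  have ht : 0 < t := ha.trans_le hat
  have h1 : 0 < t - a / 2 := by linarith
  have q1 : ∫ y, h.P t f y ^ 2 ∂h.m ≤ _ := (h.P_L2 hf ht).2
  have q2 : ∫ y, h.Γ (h.P t f) (h.P t f) y ∂h.m ≤ (∫ y, f y ^ 2 ∂h.m) / (2 * a) :=
    (h.P_grad hf ht).2.trans (div_le_div_of_nonneg_left p1 (by positivity) (by linarith))
  have e := h.P_lap hf h1 a2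
  rw [sub_add_cancel] at e
  have q3 := (h.P_L2 (h.P_lap_L2 hf a2) h1).2
  rw [← e] at q3
  have q3' : ∫ y, h.Δ (h.P t f) y ^ 2 ∂h.m ≤ ∫ y, h.Δ (h.P (a / 2) f) y ^ 2 ∂h.m := q3
  exact ⟨by linarith, by linarith, by linarith⟩
theorem HS.unif_H {a : ℝ} (ha : 0 < a) (x : M) : ∃ B, ∀ t, a ≤ t → h.H1 (h.H t x) ∧
    ∫ y, h.H t x y ^ 2 ∂h.m ≤ B ∧ ∫ y, h.Γ (h.H t x) (h.H t x) y ∂h.m ≤ B := by
  have a2 := half_pos ha
  obtain ⟨B, hB⟩ := h.unif_L2 (h.H_L2 a2 x) a2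
  refine ⟨B, fun t hat => ?_⟩
  have h1 : 0 < t - a / 2 := by linarith
  have e : h.H t x = h.P (t - a / 2) (h.H (a / 2) x) := funext fun y => by
    rw [h.P_H h1 a2, sub_add_cancel]
  rw [e]
  obtain ⟨q1, q2, -⟩ := hB (t - a / 2) (by linarith)
  exact ⟨(h.P_H1 h1 (h.H_L2 a2 x)).1, q1, q2⟩
end a

section b
variable (g : Geo n M)

theorem Geo.H1_of_cs {f : M → ℝ} (hf : g.S f) (hc : HasCompactSupport f) : g.Nice f := by
  have hfc := g.fin_cpt
  have c1 := g.S_cont hf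
  have c2 := g.S_cont (g.S_Γ hf hf)
  obtain ⟨A, hA⟩ := c1.bounded_above_of_compact_support hc
  obtain ⟨B, hB⟩ := c2.bounded_above_of_compact_support (g.cs_Γ hc f)
  exact ⟨⟨hf, c1.memLp_of_hasCompactSupport hc, g.int_cs c2 (g.cs_Γ hc f)⟩, max A B, fun y =>
    ⟨(hA y).trans (le_max_left _ _), ((le_abs_self _).trans (hB y)).trans (le_max_right _ _)⟩⟩
theorem Geo.Nice.bd {g : Geo n M} {f : M → ℝ} (hf : g.Nice f) : g.Bd f := by
  obtain ⟨h, B, hB⟩ := hf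
  exact ⟨h.2.1, B, fun y => (hB y).1⟩
theorem Geo.Nice.Γ_bd {g : Geo n M} {f f' : M → ℝ} (hf : g.Nice f) (hf' : g.Nice f') :
    g.Bd (g.Γ f f') := by
  obtain ⟨h, B, hB⟩ := hf
  obtain ⟨h', B', hB'⟩ := hf'
  have hm := (g.S_cont (g.S_Γ h.1 h'.1)).aestronglyMeasurable (μ := g.m)
  refine ⟨(memLp_two_iff_integrable_sq hm).2 ((h.2.2.mul_const B').mono' (hm.pow 2)
    (Eventually.of_forall fun y => ?_)), √B * √B', fun y => (g.abs_Γ_le f f' y).trans ?_⟩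
  · have h1 := pow_le_pow_left₀ (abs_nonneg _) (g.abs_Γ_le f f' y) 2
    rw [mul_pow, Real.sq_sqrt (g.Γ_nonneg f y), Real.sq_sqrt (g.Γ_nonneg f' y)] at h1
    rw [Real.norm_eq_abs, abs_pow]
    exact h1.trans (mul_le_mul_of_nonneg_left (hB' y).2 (g.Γ_nonneg f y))
  · gcongr
    exacts [(hB y).2, (hB' y).2]

theorem Geo.h1b_meas {I : Set ℝ} {a b : ℝ} (hs : Icc a b ⊆ I) {Q : ℝ → M → ℝ}
    (hQ : ContinuousOn (fun p : ℝ × M => Q p.1 p.2) (I ×ˢ univ)) :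
    AEStronglyMeasurable (fun p : ℝ × M => Q p.1 p.2) ((volume.restrict (Ioc a b)).prod g.m) := by
  have hfc := g.fin_cpt
  rw [Measure.restrict_prod_eq_prod_univ]
  exact (hQ.mono (prod_mono (Ioc_subset_Icc_self.trans hs) subset_rfl)).aestronglyMeasurable
    (measurableSet_Ioc.prod MeasurableSet.univ)

theorem h1b_cs {α : Type*} [MeasurableSpace α] {μ : Measure α} {f f' : α → ℝ} (hf : MemLp f 2 μ)
    (hf' : MemLp f' 2 μ) : |∫ x, f x * f' x ∂μ| ≤ √(∫ x, f x ^ 2 ∂μ) * √(∫ x, f' x ^ 2 ∂μ) := by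
  have := integral_mul_norm_le_Lp_mul_Lq (μ := μ) (f := f) (g := f') Real.HolderConjugate.two_two
    (by simpa using hf) (by simpa using hf')
  simp only [Real.norm_eq_abs, Real.rpow_two, sq_abs, ← Real.sqrt_eq_rpow] at this
  refine le_trans ?_ this
  simpa only [abs_mul] using abs_integral_le_integral_abs (f := fun x => f x * f' x) (μ := μ)

/-- A jointly continuous function whose slices have uniformly bounded `L¹` norms is space-time integrable (Tonelli). -/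
theorem Geo.STI_of_bound {I : Set ℝ} {a b B : ℝ} (hs : Icc a b ⊆ I) {Q : ℝ → M → ℝ}
    (hQ : ContinuousOn (fun p : ℝ × M => Q p.1 p.2) (I ×ˢ univ))
    (hB : ∀ s ∈ Icc a b, Integrable (Q s) g.m ∧ ∫ y, |Q s y| ∂g.m ≤ B) : g.STI a b Q := by
  have hfc := g.fin_cpt
  have hm := g.h1b_meas hs hQ
  have ae : ∀ᵐ s ∂volume.restrict (Ioc a b), s ∈ Icc a b :=
    (ae_restrict_mem measurableSet_Ioc).mono fun s hs => Ioc_subset_Icc_self hs
  refine (integrable_prod_iff hm).2 ⟨ae.mono fun s hs => (hB s hs).1, ?_⟩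
  refine (integrable_const B).mono' hm.norm.integral_prod_right' (ae.mono fun s hs => ?_)
  rw [Real.norm_of_nonneg (integral_nonneg fun y => norm_nonneg _)]
  exact (hB s hs).2
theorem Geo.STI_of_le {I : Set ℝ} {a b : ℝ} (hs : Icc a b ⊆ I) {Q Q' : ℝ → M → ℝ}
    (hQ : ContinuousOn (fun p : ℝ × M => Q p.1 p.2) (I ×ˢ univ)) (hQ' : g.STI a b Q')
    (hle : ∀ s ∈ Icc a b, ∀ y, |Q s y| ≤ Q' s y) : g.STI a b Q := by
  have hfc := g.fin_cpt
  refine Integrable.mono' hQ' (g.h1b_meas hs hQ) ?_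
  rw [Measure.restrict_prod_eq_prod_univ]
  exact (ae_restrict_mem (measurableSet_Ioc.prod MeasurableSet.univ)).mono fun p hp =>
    hle _ (Ioc_subset_Icc_self hp.1) _
/-- Cauchy-Schwarz in space-time. -/
theorem Geo.STI_mul {I : Set ℝ} {a b : ℝ} (hab : a ≤ b) (hs : Icc a b ⊆ I) {Q Q' : ℝ → M → ℝ}
    (hQ : ContinuousOn (fun p : ℝ × M => Q p.1 p.2) (I ×ˢ univ))
    (hQ' : ContinuousOn (fun p : ℝ × M => Q' p.1 p.2) (I ×ˢ univ))
    (h₁ : g.STI a b fun s y => Q s y ^ 2) (h₂ : g.STI a b fun s y => Q' s y ^ 2) :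
    g.STI a b (fun s y => Q s y * Q' s y) ∧ |∫ s in a..b, ∫ y, Q s y * Q' s y ∂g.m| ≤
      Real.sqrt (∫ s in a..b, ∫ y, Q s y ^ 2 ∂g.m) * Real.sqrt (∫ s in a..b, ∫ y, Q' s y ^ 2 ∂g.m) := by
  have hfc := g.fin_cpt
  have m1 := (memLp_two_iff_integrable_sq (g.h1b_meas hs hQ)).2 h₁
  have m2 := (memLp_two_iff_integrable_sq (g.h1b_meas hs hQ')).2 h₂
  have i : g.STI a b fun s y => Q s y * Q' s y := m1.integrable_mul m2
  refine ⟨i, ?_⟩
  have := h1b_cs m1 m2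
  rw [integral_prod _ i, integral_prod _ h₁, integral_prod _ h₂] at this
  simpa only [intervalIntegral.integral_of_le hab] using this
theorem Geo.STI.slice {g : Geo n M} {a b : ℝ} (hab : a ≤ b) {Q : ℝ → M → ℝ} (hQ : g.STI a b Q) :
    IntervalIntegrable (fun s => ∫ y, Q s y ∂g.m) volume a b ∧
      ∀ᵐ s, s ∈ Ioc a b → Integrable (Q s) g.m := by
  have hfc := g.fin_cpt
  exact ⟨(intervalIntegrable_iff_integrableOn_Ioc_of_le hab).2 (Integrable.integral_prod_left hQ),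
    (ae_restrict_iff' measurableSet_Ioc).1 (Integrable.prod_right_ae hQ)⟩

lemma h1b2_dom {α : Type*} [MeasurableSpace α] {μ : Measure α} {c : ℕ → α → ℝ}
    (hc : ∀ j, AEStronglyMeasurable (c j) μ) (h01 : ∀ j x, 0 ≤ c j x ∧ c j x ≤ 1)
    (h1 : ∀ x, ∀ᶠ j in atTop, c j x = 1) {f : α → ℝ} (hf : Integrable f μ) :
    (∀ j, Integrable (fun x => c j x * f x) μ) ∧
      Tendsto (fun j => ∫ x, c j x * f x ∂μ) atTop (𝓝 (∫ x, f x ∂μ)) := by
  have hb : ∀ j x, ‖c j x * f x‖ ≤ ‖f x‖ := fun j x => by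
    rw [norm_mul, Real.norm_of_nonneg (h01 j x).1]
    exact mul_le_of_le_one_left (norm_nonneg _) (h01 j x).2
  refine ⟨fun j => hf.norm.mono' ((hc j).mul hf.1) (ae_of_all _ (hb j)),
    tendsto_integral_of_dominated_convergence _ (fun j => (hc j).mul hf.1) hf.norm (fun j => ae_of_all _ (hb j))
      (ae_of_all _ fun x => tendsto_const_nhds.congr' ?_)⟩
  filter_upwards [h1 x] with j hj using by rw [hj, one_mul]

lemma h1b2_fatou {α : Type*} [MeasurableSpace α] {μ : Measure α} {c : ℕ → α → ℝ}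
    (h01 : ∀ j x, 0 ≤ c j x ∧ c j x ≤ 1) (h1 : ∀ x, ∀ᶠ j in atTop, c j x = 1) {Q : α → ℝ}
    (hQ : AEStronglyMeasurable Q μ) (hQ0 : 0 ≤ᵐ[μ] Q) (hi : ∀ j, Integrable (fun x => c j x * Q x) μ) {L : ℝ}
    (hL : Tendsto (fun j => ∫ x, c j x * Q x ∂μ) atTop (𝓝 L)) : Integrable Q μ := by
  refine ⟨hQ, (hasFiniteIntegral_iff_ofReal hQ0).2 ?_⟩
  have e1 : ∀ x, ENNReal.ofReal (Q x) = liminf (fun j => ENNReal.ofReal (c j x * Q x)) atTop := fun x =>
    (Tendsto.liminf_eq (tendsto_const_nhds.congr' (by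
      filter_upwards [h1 x] with j hj using by rw [hj, one_mul]))).symm
  have e2 : ∀ j, ∫⁻ x, ENNReal.ofReal (c j x * Q x) ∂μ = ENNReal.ofReal (∫ x, c j x * Q x ∂μ) := fun j =>
    (ofReal_integral_eq_lintegral_ofReal (hi j) (hQ0.mono fun x hx => mul_nonneg (h01 j x).1 hx)).symm
  simp only [e1]
  refine (lintegral_liminf_le' fun j => (hi j).1.aemeasurable.ennreal_ofReal).trans_lt ?_
  simp only [e2]
  rw [(ENNReal.tendsto_ofReal hL).liminf_eq]
  exact ENNReal.ofReal_lt_top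

lemma Geo.h1b2_aesm {I : Set ℝ} {a b : ℝ} (hs : Icc a b ⊆ I) {Q : ℝ → M → ℝ}
    (hQ : ContinuousOn (fun p : ℝ × M => Q p.1 p.2) (I ×ˢ univ)) :
    AEStronglyMeasurable (fun p : ℝ × M => Q p.1 p.2) ((volume.restrict (Ioc a b)).prod g.m) := by
  have := g.fin_cpt
  rw [Measure.restrict_prod_eq_prod_univ]
  exact (hQ.mono (prod_mono (Ioc_subset_Icc_self.trans hs) subset_rfl)).aestronglyMeasurable
    (measurableSet_Ioc.prod MeasurableSet.univ)

lemma Geo.h1b2_ae (a b : ℝ) : ∀ᵐ p ∂((volume.restrict (Ioc a b)).prod g.m), p.1 ∈ Icc a b := by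
  have := g.fin_cpt
  rw [Measure.restrict_prod_eq_prod_univ]
  exact ae_restrict_of_forall_mem (measurableSet_Ioc.prod MeasurableSet.univ) fun p hp => Ioc_subset_Icc_self hp.1

lemma Geo.h1b2_int {a b : ℝ} (hab : a ≤ b) {Q : ℝ → M → ℝ} (hQ : g.STI a b Q) :
    ∫ s in a..b, ∫ y, Q s y ∂g.m = ∫ p, Q p.1 p.2 ∂((volume.restrict (Ioc a b)).prod g.m) := by
  have := g.fin_cpt
  rw [intervalIntegral.integral_of_le hab, integral_integral hQ]

lemma Geo.h1b2_cs {I : Set ℝ} {a b : ℝ} (hs : Icc a b ⊆ I) {Q : ℝ → M → ℝ}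
    (hQ : ContinuousOn (fun p : ℝ × M => Q p.1 p.2) (I ×ˢ univ)) {χ : M → ℝ} (hχ : Continuous χ)
    (hc : HasCompactSupport χ) : g.STI a b fun s y => χ y * Q s y := by
  have := g.fin_cpt
  obtain ⟨C, hC⟩ := (isCompact_Icc.prod hc.isCompact).exists_bound_of_continuousOn
    (hQ.mono (prod_mono hs (subset_univ _)))
  have h1 : Integrable (fun p : ℝ × M => C * ‖χ p.2‖) ((volume.restrict (Ioc a b)).prod g.m) :=
    (integrable_const C).mul_prod (g.int_cs hχ hc).norm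
  refine h1.mono' ((hχ.comp continuous_snd).aestronglyMeasurable.mul (g.h1b2_aesm hs hQ)) ?_
  filter_upwards [g.h1b2_ae a b] with p hp
  by_cases h0 : χ p.2 = 0
  · simp [h0]
  · rw [norm_mul, mul_comm]
    exact mul_le_mul_of_nonneg_right (hC p ⟨hp, subset_tsupport _ h0⟩) (norm_nonneg _)

/-- Abstract passage to the limit in a cut-off identity: Fatou gives the integrability of `Q₁`, then dominated convergence. -/
theorem Geo.cut_limit {I : Set ℝ} {a b : ℝ} (hab : a ≤ b) (hs : Icc a b ⊆ I) {χ : ℕ → M → ℝ}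
    (hχ : ∀ j, Continuous (χ j) ∧ HasCompactSupport (χ j) ∧ ∀ y, 0 ≤ χ j y ∧ χ j y ≤ 1)
    (hχ1 : ∀ y, ∀ᶠ j in atTop, χ j y = 1) {Ψa Ψb : M → ℝ} (ha : Integrable Ψa g.m)
    (hb : Integrable Ψb g.m) {Q G : ℝ → M → ℝ}
    (hQ : ContinuousOn (fun p : ℝ × M => Q p.1 p.2) (I ×ˢ univ))
    (hG : ContinuousOn (fun p : ℝ × M => G p.1 p.2) (I ×ˢ univ))
    (hQ0 : ∀ s ∈ Icc a b, ∀ y, 0 ≤ Q s y) (hGi : g.STI a b G) {β : ℕ → ℝ}
    (hβ : Tendsto β atTop (𝓝 0))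
    (hid : ∀ j, ∫ y, χ j y * Ψb y ∂g.m - ∫ y, χ j y * Ψa y ∂g.m =
      (∫ s in a..b, ∫ y, χ j y * (Q s y + G s y) ∂g.m) + β j) :
    g.STI a b Q ∧ ∫ y, Ψb y ∂g.m - ∫ y, Ψa y ∂g.m =
      (∫ s in a..b, ∫ y, Q s y ∂g.m) + ∫ s in a..b, ∫ y, G s y ∂g.m := by
  have hm : ∀ j, AEStronglyMeasurable (χ j) g.m := fun j => (hχ j).1.aestronglyMeasurable
  have hm' : ∀ j, AEStronglyMeasurable (fun p : ℝ × M => χ j p.2) ((volume.restrict (Ioc a b)).prod g.m) :=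
    fun j => ((hχ j).1.comp continuous_snd).aestronglyMeasurable
  have h01 : ∀ j (p : ℝ × M), 0 ≤ χ j p.2 ∧ χ j p.2 ≤ 1 := fun j p => (hχ j).2.2 p.2
  have h1 : ∀ p : ℝ × M, ∀ᶠ j in atTop, χ j p.2 = 1 := fun p => hχ1 p.2
  have iQ : ∀ j, g.STI a b fun s y => χ j y * Q s y := fun j => g.h1b2_cs hs hQ (hχ j).1 (hχ j).2.1
  obtain ⟨iG, tG⟩ := h1b2_dom hm' h01 h1 hGi
  have ta := (h1b2_dom hm (fun j => (hχ j).2.2) hχ1 ha).2
  have tb := (h1b2_dom hm (fun j => (hχ j).2.2) hχ1 hb).2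
  have e : ∀ j, ∫ p, χ j p.2 * Q p.1 p.2 ∂((volume.restrict (Ioc a b)).prod g.m) =
      ∫ y, χ j y * Ψb y ∂g.m - ∫ y, χ j y * Ψa y ∂g.m - β j -
        ∫ p, χ j p.2 * G p.1 p.2 ∂((volume.restrict (Ioc a b)).prod g.m) := fun j => by
    have i : g.STI a b fun s y => χ j y * Q s y + χ j y * G s y := (iQ j).add (iG j)
    rw [hid j]
    simp only [mul_add]
    rw [g.h1b2_int hab i, integral_add (iQ j) (iG j)]
    ring
  have tQ := ((tb.sub ta).sub hβ).sub tG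
  simp only [← e] at tQ
  have i : g.STI a b Q := h1b2_fatou h01 h1 (g.h1b2_aesm hs hQ)
    ((g.h1b2_ae a b).mono fun p hp => hQ0 _ hp _) iQ tQ
  refine ⟨i, ?_⟩
  rw [g.h1b2_int hab i, g.h1b2_int hab hGi, ← tendsto_nhds_unique tQ (h1b2_dom hm' h01 h1 i).2]
  ring

/-- Duhamel with first-order cut-offs: `cut1'`, `cut1` (radius `j+1`), `cut_limit`. -/
theorem Geo.duh1 {I : Set ℝ} {e F Q G : ℝ → M → ℝ} (hI : IsOpen I) (he : g.Sm I e) (hF : g.Sm I F)
    {a b : ℝ} (hab : a ≤ b) (hs : Icc a b ⊆ I) (ha : Integrable (fun y => e a y * F a y) g.m)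
    (hb : Integrable (fun y => e b y * F b y) g.m)
    (h₁ : g.STI a b fun s y => |e s y| * Real.sqrt (g.Γ (F s) (F s) y))
    (h₂ : g.STI a b fun s y => |F s y| * Real.sqrt (g.Γ (e s) (e s) y))
    (hG : ContinuousOn (fun p : ℝ × M => G p.1 p.2) (I ×ˢ univ)) (hGi : g.STI a b G)
    (hQ : ∀ s ∈ I, ∀ y, F s y * (dt e s y - g.Δ (e s) y) + e s y * (dt F s y + g.Δ (F s) y) =
      Q s y + G s y) (hQ0 : ∀ s ∈ Icc a b, ∀ y, 0 ≤ Q s y) :
    g.STI a b Q ∧ ∫ y, e b y * F b y ∂g.m - ∫ y, e a y * F a y ∂g.m =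
      (∫ s in a..b, ∫ y, Q s y ∂g.m) + ∫ s in a..b, ∫ y, G s y ∂g.m := by
  have := g.fin_cpt
  rcases isEmpty_or_nonempty M with hM | ⟨⟨o⟩⟩
  · exact ⟨Integrable.of_isEmpty, by simp [integral_of_isEmpty]⟩
  obtain ⟨C, hC⟩ := g.cut1 o
  choose χ hS hc h01 h1 hΓ using fun j : ℕ => hC (j + 1) (by simp)
  have hE := g.Sm_cont (g.Sm_add (g.Sm_mul hF (g.Sm_sub (g.Sm_dt hI he) (g.Sm_Δ hI he)))
    (g.Sm_mul he (g.Sm_add (g.Sm_dt hI hF) (g.Sm_Δ hI hF))))
  have hQG : ContinuousOn (fun p : ℝ × M => Q p.1 p.2 + G p.1 p.2) (I ×ˢ univ) :=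
    hE.congr fun p hp => (hQ p.1 hp.1 p.2).symm
  have hQc : ContinuousOn (fun p : ℝ × M => Q p.1 p.2) (I ×ˢ univ) := (hQG.sub hG).congr fun p hp => by simp
  have hR : ∀ j, ContinuousOn (fun p : ℝ × M => e p.1 p.2 * g.Γ (F p.1) (χ j) p.2 - F p.1 p.2 * g.Γ (e p.1) (χ j) p.2)
      (I ×ˢ univ) := fun j => g.Sm_cont (g.Sm_sub (g.Sm_mul he (g.Sm_Γ hI hF (Geo.S.Sm (hS j) I)))
        (g.Sm_mul hF (g.Sm_Γ hI he (Geo.S.Sm (hS j) I))))
  have hb' : ∀ (j : ℕ) (p : ℝ × M), ‖e p.1 p.2 * g.Γ (F p.1) (χ j) p.2 - F p.1 p.2 * g.Γ (e p.1) (χ j) p.2‖ ≤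
      (|e p.1 p.2| * Real.sqrt (g.Γ (F p.1) (F p.1) p.2) + |F p.1 p.2| * Real.sqrt (g.Γ (e p.1) (e p.1) p.2)) *
        (Real.sqrt C / (j + 1)) := fun j p => by
    have h2 : Real.sqrt (g.Γ (χ j) (χ j) p.2) ≤ Real.sqrt C / (j + 1) := by
      refine (Real.sqrt_le_sqrt (hΓ j p.2)).trans_eq ?_
      rw [Real.sqrt_div' _ (by positivity), Real.sqrt_sq (by positivity)]
    have h3 : ∀ f : M → ℝ, |g.Γ f (χ j) p.2| ≤ Real.sqrt (g.Γ f f p.2) * (Real.sqrt C / (j + 1)) := fun f =>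
      (g.abs_Γ_le f (χ j) p.2).trans (mul_le_mul_of_nonneg_left h2 (Real.sqrt_nonneg _))
    refine (abs_sub _ _).trans ?_
    rw [abs_mul, abs_mul, add_mul, mul_assoc, mul_assoc]
    exact add_le_add (mul_le_mul_of_nonneg_left (h3 _) (abs_nonneg _)) (mul_le_mul_of_nonneg_left (h3 _) (abs_nonneg _))
  have iR : ∀ j, g.STI a b fun s y => e s y * g.Γ (F s) (χ j) y - F s y * g.Γ (e s) (χ j) y := fun j =>
    ((h₁.add h₂).mul_const _).mono' (g.h1b2_aesm hs (Q := fun s y => e s y * g.Γ (F s) (χ j) y - F s y * g.Γ (e s) (χ j) y)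
      (hR j)) (ae_of_all _ (hb' j))
  refine g.cut_limit hab hs (χ := χ) (fun j => ⟨g.S_cont (hS j), hc j, h01 j⟩) (fun y => ?_) ha hb hQc hG hQ0 hGi
    (β := fun j => ∫ s in a..b, ∫ y, (e s y * g.Γ (F s) (χ j) y - F s y * g.Γ (e s) (χ j) y) ∂g.m) ?_ fun j => ?_
  · filter_upwards [eventually_ge_atTop ⌈dist y o⌉₊] with j hj
    exact h1 j y ((Nat.ceil_le.1 hj).trans (by simp))
  · refine squeeze_zero_norm (a := fun j : ℕ => (∫ p, (|e p.1 p.2| * Real.sqrt (g.Γ (F p.1) (F p.1) p.2) +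
      |F p.1 p.2| * Real.sqrt (g.Γ (e p.1) (e p.1) p.2)) ∂((volume.restrict (Ioc a b)).prod g.m)) *
        (Real.sqrt C / (j + 1))) (fun j => ?_) ?_
    · rw [g.h1b2_int hab (iR j), ← integral_mul_const]
      exact norm_integral_le_of_norm_le ((h₁.add h₂).mul_const _) (ae_of_all _ (hb' j))
    · simpa using (tendsto_const_nhds.div_atTop
        (tendsto_natCast_atTop_atTop.atTop_add (tendsto_const_nhds (x := (1 : ℝ))))).const_mul _
  · have i := g.h1b2_cs hs (Q := fun s y => Q s y + G s y) hQG (g.S_cont (hS j)) (hc j)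
    rw [g.cut1' hI he hF hab hs (hS j) (hc j), ← intervalIntegral.integral_add (i.slice hab).1 ((iR j).slice hab).1]
    refine intervalIntegral.integral_congr fun s hs' => ?_
    rw [uIcc_of_le hab] at hs'
    simp only [hQ s (hs hs')]

lemma Geo.h1b3_cut : ∃ (χ : ℕ → M → ℝ) (δ : ℕ → ℝ), Tendsto δ atTop (𝓝 0) ∧
    (∀ j, 0 ≤ δ j ∧ g.S (χ j) ∧ HasCompactSupport (χ j) ∧ (∀ y, 0 ≤ χ j y ∧ χ j y ≤ 1) ∧
      ∀ y, Real.sqrt (g.Γ (χ j) (χ j) y) ≤ δ j) ∧ ∀ y, ∀ᶠ j in atTop, χ j y = 1 := by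
  rcases isEmpty_or_nonempty M with hM | ⟨⟨o⟩⟩
  · exact ⟨fun _ _ => 0, fun _ => 0, tendsto_const_nhds, fun _ => ⟨le_rfl, g.S_const 0,
      HasCompactSupport.zero, fun y => hM.elim y, fun y => hM.elim y⟩, fun y => hM.elim y⟩
  obtain ⟨C, hC⟩ := g.cut1 o
  have h1 : ∀ j : ℕ, (1 : ℝ) ≤ j + 1 := fun j => by linarith [(Nat.cast_nonneg j : (0 : ℝ) ≤ j)]
  choose χ a1 a2 a3 a4 a5 using fun j : ℕ => hC (j + 1) (h1 j)
  have ht : Tendsto (fun j : ℕ => (j : ℝ) + 1) atTop atTop :=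
    tendsto_atTop_add_const_right _ 1 tendsto_natCast_atTop_atTop
  refine ⟨χ, fun j => Real.sqrt (C / ((j : ℝ) + 1) ^ 2), ?_, fun j => ⟨Real.sqrt_nonneg _, a1 j, a2 j,
    a3 j, fun y => Real.sqrt_le_sqrt (a5 j y)⟩, fun y => ?_⟩
  · have := (((tendsto_pow_atTop two_ne_zero).comp ht).const_div_atTop C).sqrt
    rw [Real.sqrt_zero] at this
    exact this
  · filter_upwards [ht.eventually_ge_atTop (dist y o)] with j hj using a4 j y hj

lemma h1b3_dom {μ : Measure M} {χ : ℕ → M → ℝ} (hc : ∀ j, Continuous (χ j))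
    (h01 : ∀ j y, 0 ≤ χ j y ∧ χ j y ≤ 1) (h1 : ∀ y, ∀ᶠ j in atTop, χ j y = 1) {φ : M → ℝ}
    (hφ : Integrable φ μ) : Tendsto (fun j => ∫ y, χ j y * φ y ∂μ) atTop (𝓝 (∫ y, φ y ∂μ)) := by
  refine tendsto_integral_of_dominated_convergence (fun y => ‖φ y‖)
    (fun j => (hc j).aestronglyMeasurable.mul hφ.1) hφ.norm
    (fun j => Eventually.of_forall fun y => ?_) (Eventually.of_forall fun y => ?_)
  · rw [norm_mul, Real.norm_of_nonneg (h01 j y).1]
    exact mul_le_of_le_one_left (norm_nonneg _) (h01 j y).2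
  · refine tendsto_const_nhds.congr' ?_
    filter_upwards [h1 y] with j hj
    rw [hj, one_mul]

/-- Integration by parts without compact support (`ibp_cut`, `cut1`). -/
theorem Geo.ibp_L1 {f w : M → ℝ} (hf : g.S f) (hw : g.S w)
    (h₁ : Integrable (fun y => w y * g.Δ f y) g.m) (h₂ : Integrable (g.Γ f w) g.m)
    (h₃ : Integrable (fun y => |w y| * Real.sqrt (g.Γ f f y)) g.m) :
    ∫ y, w y * g.Δ f y ∂g.m = -∫ y, g.Γ f w y ∂g.m := by
  obtain ⟨χ, δ, hδ, hχ, h1⟩ := g.h1b3_cut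
  have hc : ∀ j, Continuous (χ j) := fun j => g.S_cont (hχ j).2.1
  have h01 : ∀ j y, 0 ≤ χ j y ∧ χ j y ≤ 1 := fun j => (hχ j).2.2.2.1
  have t1 := h1b3_dom hc h01 h1 h₁
  have t2 := h1b3_dom hc h01 h1 h₂
  have t3 : Tendsto (fun j => ∫ y, w y * g.Γ f (χ j) y ∂g.m) atTop (𝓝 0) := by
    have t4 := hδ.mul_const (∫ y, |w y| * Real.sqrt (g.Γ f f y) ∂g.m)
    rw [zero_mul] at t4
    refine squeeze_zero_norm (fun j => ?_) t4
    rw [← integral_const_mul]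
    refine norm_integral_le_of_norm_le (h₃.const_mul _) (Eventually.of_forall fun y => ?_)
    rw [norm_mul, Real.norm_eq_abs, Real.norm_eq_abs]
    have b1 := g.abs_Γ_le f (χ j) y
    have b2 := mul_le_mul_of_nonneg_left ((hχ j).2.2.2.2 y) (Real.sqrt_nonneg (g.Γ f f y))
    have b3 := mul_le_mul_of_nonneg_left (b1.trans b2) (abs_nonneg (w y))
    linarith
  have t5 := t2.neg.sub t3
  rw [sub_zero] at t5
  refine tendsto_nhds_unique t1 (t5.congr fun j => ?_)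
  rw [← g.ibp_cut (hχ j).2.1 (hχ j).2.2.1 hf hw]
  simp only [mul_assoc]

lemma h1b3_real {x δ k s t D P R : ℝ} (h0 : 0 ≤ x) (h1 : x ≤ 1) (hδ : 0 ≤ δ) (hk : 0 ≤ k) (hs : 0 ≤ s)
    (hP : |P| ≤ δ * (2 * (t * s))) (hR : |R| ≤ δ * s) :
    0 ≤ x * x * t ^ 2 - 2 * k * (x * x) * s ^ 2 + 2 * x * P - 2 * (x * x) * D ^ 2 - 4 * x * D * R +
      2 * (1 + δ) * D ^ 2 + 2 * (k + 2 * δ ^ 2 + δ) * s ^ 2 := by
  have hx : 0 ≤ 1 - x * x := by nlinarith
  have a1 : -(x * (δ * (2 * (t * s)))) ≤ x * P := by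
    have := mul_le_mul_of_nonneg_left (neg_le_of_abs_le hP) h0
    linarith
  have a2 : x * D * R ≤ |D| * (δ * s) := by
    refine (le_abs_self _).trans ?_
    rw [abs_mul, abs_mul, abs_of_nonneg h0]
    exact mul_le_mul (mul_le_of_le_one_left (abs_nonneg _) h1) hR (abs_nonneg _) (abs_nonneg _)
  have a3 : 0 ≤ δ * (|D| - s) ^ 2 := by positivity
  have a4 : 0 ≤ k * s ^ 2 * (1 - x * x) := by positivity
  have a5 : 0 ≤ D ^ 2 * (1 - x * x) := by positivity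
  have a6 : δ * |D| ^ 2 = δ * D ^ 2 := by rw [sq_abs]
  nlinarith [sq_nonneg (x * t - 2 * δ * s)]

lemma h1b3_int {μ : Measure M} {a b c d e u v : M → ℝ} (ha : Integrable a μ) (hb : Integrable b μ)
    (hc : Integrable c μ) (hd : Integrable d μ) (he : Integrable e μ) (hu : Integrable u μ)
    (hv : Integrable v μ) (p q : ℝ) {F : M → ℝ} (hF : Integrable F μ)
    (h : ∀ y, F y ≤ a y + b y - 2 * (c y + d y + e y) + (p * u y + q * v y)) :
    ∫ y, F y ∂μ ≤ ∫ y, a y ∂μ + ∫ y, b y ∂μ - 2 * (∫ y, c y ∂μ + ∫ y, d y ∂μ + ∫ y, e y ∂μ) +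
      (p * ∫ y, u y ∂μ + q * ∫ y, v y ∂μ) := by
  refine (integral_mono hF (by fun_prop) h).trans_eq ?_
  rw [integral_add, integral_sub, integral_add, integral_const_mul, integral_add, integral_add,
    integral_add, integral_const_mul, integral_const_mul]
  all_goals fun_prop

lemma Geo.h1b3_est {f χ : M → ℝ} (hf : g.S f) (h₁ : Integrable (g.Γ f f) g.m)
    (h₂ : MemLp (g.Δ f) 2 g.m) {δ : ℝ} (hδ : 0 ≤ δ) (hχ : g.S χ) (hc : HasCompactSupport χ)
    (h01 : ∀ y, 0 ≤ χ y ∧ χ y ≤ 1) (hΓ : ∀ y, Real.sqrt (g.Γ χ χ y) ≤ δ) :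
    Integrable (fun y => χ y * χ y * g.Γ2 f f y) g.m ∧ ∫ y, χ y * χ y * g.Γ2 f f y ∂g.m ≤
      2 * (1 + δ) * ∫ y, g.Δ f y ^ 2 ∂g.m + 2 * (g.k + 2 * δ ^ 2 + δ) * ∫ y, g.Γ f f y ∂g.m := by
  have hw : g.S fun y => χ y * χ y := g.S_mul hχ hχ
  have hcw : HasCompactSupport fun y => χ y * χ y := hc.mul_right
  have hi : ∀ {u : M → ℝ}, g.S u → Integrable (fun y => χ y * χ y * u y) g.m := fun hu =>
    g.int_cs (g.S_cont (g.S_mul hw hu)) hcw.mul_right
  have hG := g.S_Γ hf hf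
  have hD := g.S_Δ hf
  have i2 : Integrable (g.Γ (fun y => χ y * χ y) (g.Γ f f)) g.m :=
    g.int_cs (g.S_cont (g.S_Γ hw hG)) (g.cs_Γ hcw _)
  have i4 : Integrable (fun y => χ y * χ y * g.Δ f y * g.Δ f y) g.m :=
    g.int_cs (g.S_cont (g.S_mul (g.S_mul hw hD) hD)) (HasCompactSupport.mul_right hcw.mul_right)
  have i5 : Integrable (fun y => g.Δ f y * g.Γ f (fun y => χ y * χ y) y) g.m := by
    refine g.int_cs (g.S_cont (g.S_mul hD (g.S_Γ hf hw))) (HasCompactSupport.mul_left ?_)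
    have e : g.Γ f (fun y => χ y * χ y) = g.Γ (fun y => χ y * χ y) f := funext fun y => g.Γ_comm _ _ y
    rw [e]
    exact g.cs_Γ hcw _
  have e1 := g.ibp hw hG hcw
  have e2 := g.ibp_cut hw hcw hf hD
  refine ⟨hi (g.S_Γ2 hf hf), ?_⟩
  have key := h1b3_int (hi (g.S_Δ hG)) i2 (hi (g.S_Γ hf hD)) i4 i5 h₂.integrable_sq h₁ (2 * (1 + δ))
    (2 * (g.k + 2 * δ ^ 2 + δ)) (hi (g.S_Γ2 hf hf)) fun y => by
      have b1 : |g.Γ χ (g.Γ f f) y| ≤ δ * (2 * (Real.sqrt (g.Γ2 f f y) * Real.sqrt (g.Γ f f y))) := by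
        refine (g.abs_Γ_le _ _ y).trans (mul_le_mul (hΓ y) ?_ (Real.sqrt_nonneg _) hδ)
        linarith [g.sqrt_Γ_Γ_le hf hf y]
      have b2 : |g.Γ χ f y| ≤ δ * Real.sqrt (g.Γ f f y) :=
        (g.abs_Γ_le _ _ y).trans (mul_le_mul_of_nonneg_right (hΓ y) (Real.sqrt_nonneg _))
      have b3 := h1b3_real (D := g.Δ f y) (h01 y).1 (h01 y).2 hδ g.k_nonneg (Real.sqrt_nonneg _) b1 b2
      rw [Real.sq_sqrt (g.Γ2_nonneg hf y), Real.sq_sqrt (g.Γ_nonneg f y)] at b3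
      have b4 : g.Γ2 f f y = (g.Δ (g.Γ f f) y - g.Γ f (g.Δ f) y - g.Γ f (g.Δ f) y) / 2 +
        g.k * g.Γ f f y := rfl
      have b5 : χ y * χ y * g.Δ (g.Γ f f) y =
          χ y * χ y * (2 * g.Γ2 f f y + 2 * g.Γ f (g.Δ f) y - 2 * g.k * g.Γ f f y) := by
        rw [b4]; ring
      rw [g.Γ_comm f (fun y => χ y * χ y), g.Γ_mul_left hχ hχ, g.Γ_mul_left hχ hχ, b5]
      linarith
  linarith

/-- Recipe: `weak_hs`/`ibp` give `∫ w Γ2 = -½∫Γ(w, Γ f f) + ∫ w (Δf)² + ∫ Δf Γ(f,w) + k ∫ w Γ f f`; take `w = χ²`, `|Γ(χ², Γ f f)| ≤ 4 χ √Γχ √Γ2 √Γ f f`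
(`sqrt_Γ_Γ_le`), absorb, Fatou. -/
theorem Geo.Γ2_int {f : M → ℝ} (hf : g.S f) (h₁ : Integrable (g.Γ f f) g.m)
    (h₂ : MemLp (g.Δ f) 2 g.m) : Integrable (g.Γ2 f f) g.m ∧
      ∫ y, g.Γ2 f f y ∂g.m ≤ 2 * ∫ y, g.Δ f y ^ 2 ∂g.m + 2 * g.k * ∫ y, g.Γ f f y ∂g.m := by
  obtain ⟨χ, δ, hδ, hχ, h1⟩ := g.h1b3_cut
  have hc : ∀ j, Continuous fun y => χ j y * χ j y := fun j =>
    (g.S_cont (hχ j).2.1).mul (g.S_cont (hχ j).2.1)
  have h01 : ∀ j y, 0 ≤ χ j y * χ j y ∧ χ j y * χ j y ≤ 1 := fun j y =>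
    ⟨mul_self_nonneg _, mul_le_one₀ ((hχ j).2.2.2.1 y).2 ((hχ j).2.2.2.1 y).1 ((hχ j).2.2.2.1 y).2⟩
  have h1' : ∀ y, ∀ᶠ j in atTop, χ j y * χ j y = 1 := fun y =>
    (h1 y).mono fun j hj => by rw [hj, one_mul]
  have est := fun j => g.h1b3_est hf h₁ h₂ (hχ j).1 (hχ j).2.1 (hχ j).2.2.1 (hχ j).2.2.2.1 (hχ j).2.2.2.2
  have t1 : Tendsto (fun j => 2 * (1 + δ j) * ∫ y, g.Δ f y ^ 2 ∂g.m +
      2 * (g.k + 2 * δ j ^ 2 + δ j) * ∫ y, g.Γ f f y ∂g.m) atTop
      (𝓝 (2 * ∫ y, g.Δ f y ^ 2 ∂g.m + 2 * g.k * ∫ y, g.Γ f f y ∂g.m)) := by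
    have hcont : Continuous fun d : ℝ => 2 * (1 + d) * ∫ y, g.Δ f y ^ 2 ∂g.m +
      2 * (g.k + 2 * d ^ 2 + d) * ∫ y, g.Γ f f y ∂g.m := by fun_prop
    have := (hcont.tendsto 0).comp hδ
    simpa [Function.comp_def] using this
  have hint : Integrable (g.Γ2 f f) g.m := by
    refine ⟨(g.S_cont (g.S_Γ2 hf hf)).aestronglyMeasurable, ?_⟩
    rw [hasFiniteIntegral_iff_enorm, ← eLpNorm_one_eq_lintegral_enorm]
    refine lt_of_le_of_lt (Lp.eLpNorm_le_of_ae_tendsto (u := atTop)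
      (f := fun j y => χ j y * χ j y * g.Γ2 f f y)
      (C := ENNReal.ofReal (2 * ∫ y, g.Δ f y ^ 2 ∂g.m + 2 * g.k * ∫ y, g.Γ f f y ∂g.m + 1)) ?_
      (fun j => (est j).1.1) (Eventually.of_forall fun y => ?_)) ENNReal.ofReal_lt_top
    · filter_upwards [t1.eventually (gt_mem_nhds (lt_add_one _))] with j hj
      rw [eLpNorm_one_eq_lintegral_enorm, ← ofReal_integral_norm_eq_lintegral_enorm (est j).1]
      refine ENNReal.ofReal_le_ofReal (le_trans (le_of_eq ?_) ((est j).2.trans hj.le))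
      exact integral_congr_ae (Eventually.of_forall fun y =>
        Real.norm_of_nonneg (mul_nonneg (h01 j y).1 (g.Γ2_nonneg hf y)))
    · refine tendsto_const_nhds.congr' ?_
      filter_upwards [h1' y] with j hj
      rw [hj, one_mul]
  exact ⟨hint, le_of_tendsto_of_tendsto' (h1b3_dom hc h01 h1' hint) t1 fun j => (est j).2⟩
end b

end Crest.Agent.R247
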