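import Crest.Agent.R247.H1

/-! # Row 247, H2: auxiliary lemmas for the covariance formula -/

set_option autoImplicit false
set_option linter.unusedSectionVars false
set_option linter.unusedVariables false
open MeasureTheory Filter Set Metric Matrix
open scoped ENNReal NNReal Topology ContDiff
open Crest.GeometryTopology.CoordMetric

noncomputable section
namespace Crest.Agent.R247
universe u

variable {n : ℕ} {M : Type u} [MetricSpace M] [MeasurableSpace M] [BorelSpace M] [ProperSpace M]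
  (h : HS n M)

theorem Geo.h2d_mul (g : Geo n M) {u v : M → ℝ} (hu : g.S u) (hv : g.S v) {B : ℝ} (y : M)
    (h1 : |u y| ≤ B) (h2 : |v y| ≤ B) :
    g.Γ (fun z => u z * v z) (fun z => u z * v z) y ≤ 2 * B ^ 2 * (g.Γ u u y + g.Γ v v y) := by
  simp only [Raw.Γ, g.grad_mul hu hv, dotProduct, Finset.mul_sum, ← Finset.sum_add_distrib,
    Pi.add_apply, Pi.smul_apply, smul_eq_mul]
  refine Finset.sum_le_sum fun i _ => ?_
  have a1 : u y ^ 2 ≤ B ^ 2 := sq_le_sq' (abs_le.1 h1).1 (abs_le.1 h1).2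
  have a2 : v y ^ 2 ≤ B ^ 2 := sq_le_sq' (abs_le.1 h2).1 (abs_le.1 h2).2
  nlinarith [sq_nonneg (u y * g.grad v y i - v y * g.grad u y i),
    mul_le_mul_of_nonneg_right a1 (sq_nonneg (g.grad v y i)),
    mul_le_mul_of_nonneg_right a2 (sq_nonneg (g.grad u y i))]

theorem h2d_amgm (a : ℝ) {b : ℝ} (hb : 0 ≤ b) : |(|a| * Real.sqrt b)| ≤ a ^ 2 + b := by
  rw [abs_of_nonneg (by positivity)]
  nlinarith [sq_nonneg (|a| - Real.sqrt b), sq_abs a, Real.sq_sqrt hb,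
    mul_nonneg (abs_nonneg a) (Real.sqrt_nonneg b)]

theorem Geo.STI.h2d_add {g : Geo n M} {a b : ℝ} {Q Q' : ℝ → M → ℝ} (h₁ : g.STI a b Q)
    (h₂ : g.STI a b Q') : g.STI a b fun s y => Q s y + Q' s y := Integrable.add h₁ h₂

theorem Geo.STI.h2d_cmul {g : Geo n M} {a b : ℝ} {Q : ℝ → M → ℝ} (h₁ : g.STI a b Q) (c : ℝ) :
    g.STI a b fun s y => c * Q s y := Integrable.const_mul h₁ c

theorem HS.h2d_rev {f : M → ℝ} (hf : MemLp f 2 h.m) (t : ℝ) :
    h.Sm (Iio t) (fun s => h.P (t - s) f) ∧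
      ∀ s < t, ∀ y, dt (fun s => h.P (t - s) f) s y = -h.Δ (h.P (t - s) f) y := by
  obtain ⟨h1, h2⟩ := h.Sm_rev (h.P_Sm hf) t
  exact ⟨h1, fun s hs y => (h2 s hs y).trans (congrArg Neg.neg (h.P_heat hf (sub_pos.2 hs) y))⟩

theorem HS.h2d_STI {f : M → ℝ} (hf : MemLp f 2 h.m) {a b t : ℝ} (hb : b < t) :
    h.STI a b (fun s y => h.P (t - s) f y ^ 2) ∧
      h.STI a b fun s => h.Γ (h.P (t - s) f) (h.P (t - s) f) := by
  obtain ⟨B, hB⟩ := h.unif_L2 hf (sub_pos.2 hb)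
  have hs : Icc a b ⊆ Iio t := fun s hs => hs.2.trans_lt hb
  have h1 := (h.h2d_rev hf t).1
  refine ⟨h.STI_of_bound (B := B) hs ((h.Sm_cont h1).pow 2) fun s hs' => ?_,
    h.STI_of_bound (B := B) hs (h.Sm_cont (h.Sm_Γ isOpen_Iio h1 h1)) fun s hs' => ?_⟩
  · have h2 := (h.P_H1 (sub_pos.2 (hs hs')) hf).1
    refine ⟨h2.2.1.integrable_sq, ?_⟩
    simp only [abs_sq]
    exact (hB _ (by linarith [hs'.2])).1
  · have h2 := (h.P_H1 (sub_pos.2 (hs hs')) hf).1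
    refine ⟨h2.2.2, ?_⟩
    simp only [fun y => abs_of_nonneg (h.Γ_nonneg (h.P (t - s) f) y)]
    exact (hB _ (by linarith [hs'.2])).2.1

theorem HS.h2d_STI_H {a b : ℝ} (ha : 0 < a) (x : M) :
    h.STI a b (fun s y => h.H s x y ^ 2) ∧ h.STI a b fun s => h.Γ (h.H s x) (h.H s x) := by
  obtain ⟨B, hB⟩ := h.unif_H ha x
  have hs : Icc a b ⊆ Ioi 0 := fun s hs => ha.trans_le hs.1
  have h1 := h.H_Sm x
  refine ⟨h.STI_of_bound (B := B) hs ((h.Sm_cont h1).pow 2) fun s hs' => ?_,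
    h.STI_of_bound (B := B) hs (h.Sm_cont (h.Sm_Γ isOpen_Ioi h1 h1)) fun s hs' => ?_⟩
  · refine ⟨(hB s hs'.1).1.2.1.integrable_sq, ?_⟩
    simp only [abs_sq]
    exact (hB s hs'.1).2.1
  · refine ⟨(hB s hs'.1).1.2.2, ?_⟩
    simp only [fun y => abs_of_nonneg (h.Γ_nonneg (h.H s x) y)]
    exact (hB s hs'.1).2.2

theorem Geo.Bd.h2d_two {g : Geo n M} {f f' : M → ℝ} (hf : g.Bd f) (hf' : g.Bd f') :
    ∃ B, 0 ≤ B ∧ (∀ y, |f y| ≤ B) ∧ ∀ y, |f' y| ≤ B := by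
  obtain ⟨B, hB⟩ := hf.2
  obtain ⟨B', hB'⟩ := hf'.2
  exact ⟨max 0 (max B B'), le_max_left _ _, fun y => (hB y).trans ((le_max_left _ _).trans
    (le_max_right _ _)), fun y => (hB' y).trans ((le_max_right _ _).trans (le_max_right _ _))⟩

theorem HS.h2d_duh {f f' : M → ℝ} (hf : h.Bd f) (hf' : h.Bd f') {a b t : ℝ} (ha : 0 < a)
    (hab : a ≤ b) (hb : b < t) (x : M) {Q G : ℝ → M → ℝ}
    (hG : ContinuousOn (fun p : ℝ × M => G p.1 p.2) (Ioo 0 t ×ˢ univ)) (hGi : h.STI a b G)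
    (hQ : ∀ s ∈ Ioo 0 t, ∀ y, 2 * (h.H s x y * h.Γ (h.P (t - s) f) (h.P (t - s) f') y) =
      Q s y + G s y) (hQ0 : ∀ s ∈ Icc a b, ∀ y, 0 ≤ Q s y) :
    h.STI a b Q ∧ h.P b (fun y => h.P (t - b) f y * h.P (t - b) f' y) x -
      h.P a (fun y => h.P (t - a) f y * h.P (t - a) f' y) x =
      (∫ s in a..b, ∫ y, Q s y ∂h.m) + ∫ s in a..b, ∫ y, G s y ∂h.m := by
  obtain ⟨B, hB0, hB, hB'⟩ := hf.h2d_two hf'
  have hs : Icc a b ⊆ Ioo 0 t := fun s hs => ⟨ha.trans_le hs.1, hs.2.trans_lt hb⟩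
  obtain ⟨u1, u2⟩ := h.h2d_rev hf.1 t
  obtain ⟨v1, v2⟩ := h.h2d_rev hf'.1 t
  have u1' := h.Sm_mono u1 (J := Ioo 0 t) Ioo_subset_Iio_self
  have v1' := h.Sm_mono v1 (J := Ioo 0 t) Ioo_subset_Iio_self
  have e1 := h.Sm_mono (h.H_Sm x) (J := Ioo 0 t) Ioo_subset_Ioi_self
  have F1 := h.Sm_mul u1' v1'
  have ub : ∀ s ∈ Ioo 0 t, ∀ y, |h.P (t - s) f y| ≤ B := fun s hs y => h.abs_P_le (sub_pos.2 hs.2) y hB
  have vb : ∀ s ∈ Ioo 0 t, ∀ y, |h.P (t - s) f' y| ≤ B := fun s hs y =>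
    h.abs_P_le (sub_pos.2 hs.2) y hB'
  have hi : ∀ s ∈ Ioo 0 t, Integrable (fun y => h.H s x y *
      (h.P (t - s) f y * h.P (t - s) f' y)) h.m := fun s hs =>
    h.int_bdd hs.1 x (h.S_cont (h.Sm_slice F1 hs)).aestronglyMeasurable (B := B * B) fun y => by
      rw [abs_mul]
      exact mul_le_mul (ub s hs y) (vb s hs y) (abs_nonneg _) hB0
  obtain ⟨s1, s2⟩ := h.h2d_STI_H (b := b) ha x
  obtain ⟨s3, s4⟩ := h.h2d_STI (a := a) hf.1 hb
  obtain ⟨-, s5⟩ := h.h2d_STI (a := a) hf'.1 hb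
  refine h.duh1 isOpen_Ioo e1 F1 hab hs (hi a (hs (left_mem_Icc.2 hab)))
    (hi b (hs (right_mem_Icc.2 hab))) ?_ ?_ hG hGi (fun s hs y => ?_) hQ0
  · refine h.STI_of_le hs ((h.Sm_cont e1).abs.mul (h.Sm_cont (h.Sm_Γ isOpen_Ioo F1 F1)).sqrt)
      (s1.h2d_add ((s4.h2d_add s5).h2d_cmul (2 * B ^ 2))) fun s hs' y => ?_
    exact (h2d_amgm _ (h.Γ_nonneg _ y)).trans (add_le_add_right (h.toGeo.h2d_mul
      (h.Sm_slice u1' (hs hs')) (h.Sm_slice v1' (hs hs')) y (ub s (hs hs') y) (vb s (hs hs') y)) _)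
  · refine h.STI_of_le hs ((h.Sm_cont F1).abs.mul (h.Sm_cont (h.Sm_Γ isOpen_Ioo e1 e1)).sqrt)
      ((s3.h2d_cmul (B ^ 2)).h2d_add s2) fun s hs' y => ?_
    refine (h2d_amgm _ (h.Γ_nonneg _ y)).trans (add_le_add_left ?_ _)
    have := vb s (hs hs') y
    rw [mul_pow, mul_comm]
    exact mul_le_mul_of_nonneg_right (sq_le_sq' (abs_le.1 this).1 (abs_le.1 this).2) (sq_nonneg _)
  · rw [← hQ s hs y, h.H_heat hs.1, h.dt_mul isOpen_Ioo u1' v1' hs, u2 s hs.2, v2 s hs.2,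
      h.Δ_mul (h.Sm_slice u1' hs) (h.Sm_slice v1' hs)]
    ring

theorem HS.h2d_cov_ab {f f' : M → ℝ} (hf : h.Bd f) (hf' : h.Bd f') {a b t : ℝ} (ha : 0 < a)
    (hab : a ≤ b) (hb : b < t) (x : M) :
    IntervalIntegrable (fun s => h.P s (h.Γ (h.P (t - s) f) (h.P (t - s) f')) x) volume a b ∧
    h.P b (fun y => h.P (t - b) f y * h.P (t - b) f' y) x -
      h.P a (fun y => h.P (t - a) f y * h.P (t - a) f' y) x =
      2 * ∫ s in a..b, h.P s (h.Γ (h.P (t - s) f) (h.P (t - s) f')) x := by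
  have hs : Icc a b ⊆ Ioo 0 t := fun s hs => ⟨ha.trans_le hs.1, hs.2.trans_lt hb⟩
  have dg : ∀ {w : M → ℝ}, h.Bd w → h.STI a b fun s y =>
      2 * (h.H s x y * h.Γ (h.P (t - s) w) (h.P (t - s) w) y) := fun {w} hw =>
    (h.h2d_duh hw hw ha hab hb x (G := fun _ _ => 0) continuousOn_const (integrable_zero _ _ _)
      (fun s _ y => (add_zero _).symm) fun s hs' y =>
        mul_nonneg zero_le_two (mul_nonneg (h.H_nonneg (hs hs').1 x y) (h.Γ_nonneg _ y))).1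
  have hc : ContinuousOn (fun p : ℝ × M =>
      h.H p.1 x p.2 * h.Γ (h.P (t - p.1) f) (h.P (t - p.1) f') p.2) (Ioo 0 t ×ˢ univ) :=
    h.Sm_cont (h.Sm_mul (h.Sm_mono (h.H_Sm x) Ioo_subset_Ioi_self) (h.Sm_mono (h.Sm_Γ isOpen_Iio
      (h.h2d_rev hf.1 t).1 (h.h2d_rev hf'.1 t).1) Ioo_subset_Iio_self))
  have hi : h.STI a b fun s y => h.H s x y * h.Γ (h.P (t - s) f) (h.P (t - s) f') y := by
    refine h.STI_of_le hs hc (Q' := fun s y => 2 * (h.H s x y * h.Γ (h.P (t - s) f) (h.P (t - s) f) y) +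
      2 * (h.H s x y * h.Γ (h.P (t - s) f') (h.P (t - s) f') y)) (Integrable.add (dg hf) (dg hf'))
      fun s hs' y => ?_
    have h0 := h.H_nonneg (hs hs').1 x y
    have h1 := h.abs_Γ_le (h.P (t - s) f) (h.P (t - s) f') y
    have h2 := h.Γ_nonneg (h.P (t - s) f) y
    have h3 := h.Γ_nonneg (h.P (t - s) f') y
    rw [abs_mul, abs_of_nonneg h0, ← mul_add, ← mul_add, mul_left_comm]
    refine mul_le_mul_of_nonneg_left (h1.trans ?_) h0
    nlinarith [sq_nonneg (Real.sqrt (h.Γ (h.P (t - s) f) (h.P (t - s) f) y) -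
      Real.sqrt (h.Γ (h.P (t - s) f') (h.P (t - s) f') y)), Real.sq_sqrt h2, Real.sq_sqrt h3]
  refine ⟨(hi.slice hab).1, ?_⟩
  have := (h.h2d_duh hf hf' ha hab hb x (Q := fun _ _ => 0)
    (G := fun s y => 2 * (h.H s x y * h.Γ (h.P (t - s) f) (h.P (t - s) f') y))
    (continuousOn_const.mul hc) (Integrable.const_mul hi 2) (fun s _ y => (zero_add _).symm)
    fun _ _ _ => le_rfl).2
  rw [this]
  simp only [integral_zero, intervalIntegral.integral_zero, zero_add, integral_const_mul,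
    intervalIntegral.integral_const_mul]
  rfl

/-- `P b (d b) x → 0` when `d b → 0` in `L²` -/
theorem HS.h2d_small {t : ℝ} (ht : 0 < t) (x : M) {d : ℝ → M → ℝ}
    (hd : ∀ b ∈ Ioo 0 t, MemLp (d b) 2 h.m)
    (h0 : Tendsto (fun b => ∫ y, d b y ^ 2 ∂h.m) (𝓝[<] t) (𝓝 0)) :
    Tendsto (fun b => h.P b (d b) x) (𝓝[<] t) (𝓝 0) := by
  obtain ⟨B, hB⟩ := h.unif_H (half_pos ht) x
  have hB0 : 0 ≤ B := (integral_nonneg fun y => sq_nonneg _).trans (hB _ le_rfl).2.1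
  refine NormedAddGroup.tendsto_nhds_zero.2 fun ε hε => ?_
  set η := ε / (2 * (B + 1)) with hη
  have hη0 : 0 < η := by positivity
  filter_upwards [Ioo_mem_nhdsLT (half_lt_self ht),
    h0.eventually (gt_mem_nhds (show 0 < η * (ε / 2) by positivity))] with b hb h1
  have hb0 : 0 < b := (half_pos ht).trans hb.1
  obtain ⟨a1, a2, -⟩ := hB b hb.1.le
  have i1 := a1.2.1.integrable_sq
  have i2 := (hd b ⟨hb0, hb.2⟩).integrable_sq
  have h2 : ‖h.P b (d b) x‖ ≤ ∫ y, (η * h.H b x y ^ 2 + η⁻¹ * d b y ^ 2) ∂h.m := by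
    refine norm_integral_le_of_norm_le ((i1.const_mul _).add (i2.const_mul _))
      (Eventually.of_forall fun y => ?_)
    rw [Real.norm_eq_abs, abs_mul, ← sq_abs (h.H b x y), ← sq_abs (d b y)]
    have e : η * |h.H b x y| ^ 2 + η⁻¹ * |d b y| ^ 2 =
        η⁻¹ * (η * |h.H b x y| - |d b y|) ^ 2 + 2 * (|h.H b x y| * |d b y|) := by
      field_simp
      ring
    rw [e]
    have : 0 ≤ η⁻¹ * (η * |h.H b x y| - |d b y|) ^ 2 := by positivity
    have : 0 ≤ |h.H b x y| * |d b y| := by positivity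
    linarith
  rw [integral_add (i1.const_mul _) (i2.const_mul _), integral_const_mul, integral_const_mul] at h2
  have h3 : η⁻¹ * ∫ y, d b y ^ 2 ∂h.m < ε / 2 := by rwa [inv_mul_lt_iff₀ hη0]
  have h4 : η * (B + 1) = ε / 2 := by rw [hη]; field_simp
  nlinarith [mul_le_mul_of_nonneg_left a2 hη0.le]

theorem HS.h2d_lim {f f' : M → ℝ} (hf : h.Bd f) (hf' : h.Bd f') {t : ℝ} (ht : 0 < t) (x : M) :
    Tendsto (fun b => h.P b (fun y => h.P (t - b) f y * h.P (t - b) f' y) x) (𝓝[<] t)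
      (𝓝 (h.P t (fun y => f y * f' y) x)) := by
  obtain ⟨B, hB0, hB, hB'⟩ := hf.h2d_two hf'
  have bd : ∀ {p q : M → ℝ}, MemLp p 2 h.m → AEStronglyMeasurable q h.m → (∀ y, |q y| ≤ B) →
      MemLp (fun y => p y * q y) 2 h.m := fun {p q} hp hq hb =>
    hp.of_le_mul (c := B) (hp.1.mul hq) (Eventually.of_forall fun y => by
      rw [norm_mul, mul_comm]
      exact mul_le_mul_of_nonneg_right (hb y) (norm_nonneg _))
  have hw : MemLp (fun y => f y * f' y) 2 h.m := bd hf.1 hf'.1.1 hB'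
  have hτ : Tendsto (fun b => t - b) (𝓝[<] t) (𝓝[>] 0) :=
    tendsto_nhdsWithin_iff.2 ⟨by
      simpa using ((continuous_sub_left t).tendsto t).mono_left nhdsWithin_le_nhds,
      eventually_nhdsWithin_of_forall fun b hb => mem_Ioi.2 (sub_pos.2 (mem_Iio.1 hb))⟩
  have m1 : ∀ b ∈ Ioo 0 t, MemLp (fun y => h.P (t - b) f y * h.P (t - b) f' y) 2 h.m := fun b hb =>
    bd (h.P_L2 hf.1 (sub_pos.2 hb.2)).1 (h.P_L2 hf'.1 (sub_pos.2 hb.2)).1.1
      fun y => h.abs_P_le (sub_pos.2 hb.2) y hB'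
  have key := h.h2d_small ht x (d := fun b y => h.P (t - b) f y * h.P (t - b) f' y -
    h.P (t - b) (fun y => f y * f' y) y)
    (fun b hb => (m1 b hb).sub (h.P_L2 hw (sub_pos.2 hb.2)).1) (by
      have h1 := ((((h.P_zero hf.1).comp hτ).const_mul (3 * B ^ 2)).add
        (((h.P_zero hf'.1).comp hτ).const_mul (3 * B ^ 2))).add (((h.P_zero hw).comp hτ).const_mul 3)
      simp only [mul_zero, add_zero] at h1
      refine squeeze_zero' (Eventually.of_forall fun b => integral_nonneg fun y => sq_nonneg _) ?_ h1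
      filter_upwards [Ioo_mem_nhdsLT ht] with b hb
      have hb' := sub_pos.2 hb.2
      have i1 := ((h.P_L2 hf.1 hb').1.sub hf.1).integrable_sq.const_mul (3 * B ^ 2)
      have i2 := ((h.P_L2 hf'.1 hb').1.sub hf'.1).integrable_sq.const_mul (3 * B ^ 2)
      have i3 := ((h.P_L2 hw hb').1.sub hw).integrable_sq.const_mul 3
      simp only [Function.comp, ← integral_const_mul]
      refine le_of_le_of_eq (integral_mono ((m1 b hb).sub (h.P_L2 hw hb').1).integrable_sq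
        ((i1.add i2).add i3) fun y => ?_) ((integral_add (i1.add i2) i3).trans
          (congrArg (· + _) (integral_add i1 i2)))
      have a1 := hB y
      have a2 := h.abs_P_le hb' y hB'
      simp only [Pi.sub_apply, Pi.add_apply, HS.P] at a2 ⊢
      generalize kerP h.m h.H (t - b) f y = u at *
      generalize kerP h.m h.H (t - b) f' y = v at *
      generalize kerP h.m h.H (t - b) (fun y => f y * f' y) y = w at *
      have b1 : f y ^ 2 ≤ B ^ 2 := sq_le_sq' (abs_le.1 a1).1 (abs_le.1 a1).2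
      have b2 : v ^ 2 ≤ B ^ 2 := sq_le_sq' (abs_le.1 a2).1 (abs_le.1 a2).2
      have e : u * v - w = v * (u - f y) + f y * (v - f' y) - (w - f y * f' y) := by ring
      rw [e]
      have c1 := mul_le_mul_of_nonneg_right b2 (sq_nonneg (u - f y))
      have c2 := mul_le_mul_of_nonneg_right b1 (sq_nonneg (v - f' y))
      rw [← mul_pow] at c1 c2
      generalize v * (u - f y) = p at *
      generalize f y * (v - f' y) = q at *
      generalize w - f y * f' y = r at *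
      nlinarith [sq_nonneg (p - q), sq_nonneg (p + r), sq_nonneg (q + r)])
  have := key.add_const (h.P t (fun y => f y * f' y) x)
  rw [zero_add] at this
  refine this.congr' ?_
  filter_upwards [Ioo_mem_nhdsLT ht] with b hb
  have hb' := sub_pos.2 hb.2
  rw [h.P_sub (h.int_L2 hb.1 x (m1 b hb)) (h.int_L2 hb.1 x (h.P_H1 hb' hw).1.2.1),
    (h.P_P hb.1 hb' hw.1 (h.int_L2 (add_pos hb.1 hb') x hw)).2, add_sub_cancel, sub_add_cancel]

/-- passage to the end points -/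
theorem h2d_ends {φ Φ : ℝ → ℝ} {t C L₀ L₁ : ℝ} (ht : 0 < t) (hC : ∀ s ∈ Ioo 0 t, |φ s| ≤ C)
    (h : ∀ a b, 0 < a → a ≤ b → b < t →
      IntervalIntegrable φ volume a b ∧ Φ b - Φ a = 2 * ∫ s in a..b, φ s)
    (h₁ : Tendsto Φ (𝓝[<] t) (𝓝 L₁)) (h₀ : Tendsto Φ (𝓝[>] 0) (𝓝 L₀)) :
    IntervalIntegrable φ volume 0 t ∧ L₁ - L₀ = 2 * ∫ s in (0 : ℝ)..t, φ s := by
  set a : ℕ → ℝ := fun j => t / 2 * (1 / ((j : ℝ) + 1)) with ha
  have a0 : ∀ j, 0 < a j := fun j => by positivity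
  have a1 : ∀ j, a j ≤ t / 2 := fun j => mul_le_of_le_one_right (half_pos ht).le (by
    rw [div_le_one (by positivity)]; linarith [(Nat.cast_nonneg j : (0 : ℝ) ≤ j)])
  have a2 : Tendsto a atTop (𝓝 0) := by
    simpa only [mul_zero] using tendsto_one_div_add_atTop_nhds_zero_nat.const_mul (t / 2)
  have a3 : Tendsto (fun j => t - a j) atTop (𝓝 t) := by simpa using a2.const_sub t
  have a4 : ∀ j, a j ≤ t - a j := fun j => by linarith [a1 j]
  have k := fun j => h (a j) (t - a j) (a0 j) (a4 j) (sub_lt_self t (a0 j))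
  have hC0 : 0 ≤ C := (abs_nonneg _).trans (hC (t / 2) ⟨half_pos ht, half_lt_self ht⟩)
  have hi : IntegrableOn φ (Ioc 0 t) := by
    refine integrableOn_Ioc_of_intervalIntegral_norm_bounded (I := C * t) (fun j => (k j).1.1) a2 a3
      (Eventually.of_forall fun j => ?_)
    refine (Real.le_norm_self _).trans ((norm_setIntegral_le_of_norm_le_const (C := C)
      measure_Ioc_lt_top fun s hs => ?_).trans ?_)
    · rw [norm_norm]
      exact hC s ⟨(a0 j).trans hs.1, hs.2.trans_lt (sub_lt_self t (a0 j))⟩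
    · rw [Real.volume_real_Ioc_of_le (a4 j)]
      exact mul_le_mul_of_nonneg_left (by linarith [a0 j]) hC0
  refine ⟨(intervalIntegrable_iff_integrableOn_Ioc_of_le ht.le).2 hi, ?_⟩
  have l1 := ((aecover_Ioc_of_Ioc (μ := volume) a2 a3).integral_tendsto_of_countably_generated
    hi).const_mul 2
  have l2 := (h₁.comp (tendsto_nhdsWithin_iff.2 ⟨a3, Eventually.of_forall fun j =>
    sub_lt_self t (a0 j)⟩)).sub (h₀.comp (tendsto_nhdsWithin_iff.2 ⟨a2, Eventually.of_forall a0⟩))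
  rw [intervalIntegral.integral_of_le ht.le]
  refine tendsto_nhds_unique l2 (l1.congr fun j => ?_)
  rw [Measure.restrict_restrict measurableSet_Ioc, inter_eq_left.2 (Ioc_subset_Ioc (a0 j).le
    (sub_le_self t (a0 j).le)), ← intervalIntegral.integral_of_le (a4 j), ← (k j).2]
  rfl

end Crest.Agent.R247
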