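import Crest.Agent.R247.H1
import Crest.Agent.R247.H2AuxD

/-! # Row 247, H2: gradient estimate, conservativeness, covariance formula, Poincaré inequalities -/

set_option autoImplicit false
set_option linter.unusedSectionVars false
set_option linter.unusedVariables false
open MeasureTheory Filter Set Metric Matrix
open scoped ENNReal NNReal Topology ContDiff
open Crest.GeometryTopology.CoordMetric

noncomputable section
namespace Crest.Agent.R247
universe u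

variable {n : ℕ} {M : Type u} [MetricSpace M] [MeasurableSpace M] [BorelSpace M] [ProperSpace M]
  (h : HS n M)

lemma h2a_sm (δ : ℝ) : ContDiffOn ℝ ∞ (fun r : ℝ => Real.sqrt (r + δ ^ 2) - δ) (Ioi (-δ ^ 2)) :=
  (ContDiffOn.sqrt (by fun_prop) fun r hr => by
    have : -δ ^ 2 < r := hr
    linarith [this] |> fun h : 0 < r + δ ^ 2 => h.ne').sub contDiffOn_const

lemma h2a_d1 {δ r : ℝ} (hr : -δ ^ 2 < r) :
    HasDerivAt (fun r : ℝ => Real.sqrt (r + δ ^ 2) - δ) (1 / (2 * Real.sqrt (r + δ ^ 2))) r := by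
  have h0 : 0 < r + δ ^ 2 := by linarith
  exact (((hasDerivAt_id r).add_const (δ ^ 2)).sqrt h0.ne').sub_const δ

lemma h2a_d2 {δ r : ℝ} (hr : -δ ^ 2 < r) :
    deriv (deriv fun r : ℝ => Real.sqrt (r + δ ^ 2) - δ) r = -1 / (4 * Real.sqrt (r + δ ^ 2) ^ 3) := by
  have h0 : 0 < r + δ ^ 2 := by linarith
  have h1 : 0 < Real.sqrt (r + δ ^ 2) := Real.sqrt_pos.2 h0
  have e : (deriv fun r : ℝ => Real.sqrt (r + δ ^ 2) - δ) =ᶠ[𝓝 r] fun r => 1 / (2 * Real.sqrt (r + δ ^ 2)) := by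
    filter_upwards [Ioi_mem_nhds hr] with s hs using (h2a_d1 hs).deriv
  rw [e.deriv_eq]
  have := (hasDerivAt_const r (1 : ℝ)).div
    ((((hasDerivAt_id r).add_const (δ ^ 2)).sqrt h0.ne').const_mul 2) (by simpa using h1.ne')
  refine this.deriv.trans ?_
  simp only [id]
  field_simp
  ring

lemma Geo.h2a_pt (g : Geo n M) {v : M → ℝ} (hv : g.S v) {δ : ℝ} (hδ : 0 < δ) (y : M) :
    g.S (fun z => Real.sqrt (g.Γ v v z + δ ^ 2) - δ) ∧
    g.Γ (fun z => Real.sqrt (g.Γ v v z + δ ^ 2) - δ) (fun z => Real.sqrt (g.Γ v v z + δ ^ 2) - δ) y ≤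
      g.Γ2 v v y ∧
    1 / (2 * Real.sqrt (g.Γ v v y + δ ^ 2)) * (2 * g.Γ v (g.Δ v) y) -
      g.Δ (fun z => Real.sqrt (g.Γ v v z + δ ^ 2) - δ) y - g.k * (Real.sqrt (g.Γ v v y + δ ^ 2) - δ) ≤
        g.k * δ := by
  have hA := g.S_Γ hv hv
  have hm : ∀ z, g.Γ v v z ∈ Ioi (-δ ^ 2) := fun z => by
    have := g.Γ_nonneg v z
    have : 0 < δ ^ 2 := by positivity
    show -δ ^ 2 < _
    linarith
  have a0 := g.Γ_nonneg v y
  have b0 := g.Γ2_nonneg hv y
  have k0 := g.k_nonneg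
  have c0 : g.Γ (g.Γ v v) (g.Γ v v) y ≤ 4 * g.Γ2 v v y * g.Γ v v y := by
    have := (Real.sqrt_le_iff.1 (g.sqrt_Γ_Γ_le hv hv y)).2
    have e1 := Real.sq_sqrt a0
    have e2 := Real.sq_sqrt b0
    calc _ ≤ _ := this
      _ = 4 * Real.sqrt (g.Γ2 v v y) ^ 2 * Real.sqrt (g.Γ v v y) ^ 2 := by ring
      _ = _ := by rw [e1, e2]
  have r0 : 0 < Real.sqrt (g.Γ v v y + δ ^ 2) := Real.sqrt_pos.2 (by positivity)
  have r1 : Real.sqrt (g.Γ v v y + δ ^ 2) ^ 2 = g.Γ v v y + δ ^ 2 := Real.sq_sqrt (by positivity)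
  refine ⟨g.S_comp hA isOpen_Ioi (h2a_sm δ) hm, ?_, ?_⟩
  · rw [g.Γ_comp_left hA isOpen_Ioi (h2a_sm δ) hm, g.Γ_comm (g.Γ v v), g.Γ_comp_left hA isOpen_Ioi (h2a_sm δ) hm,
      (h2a_d1 (hm y)).deriv]
    set ρ := Real.sqrt (g.Γ v v y + δ ^ 2)
    rw [show 1 / (2 * ρ) * (1 / (2 * ρ) * g.Γ (g.Γ v v) (g.Γ v v) y) =
      g.Γ (g.Γ v v) (g.Γ v v) y / (4 * ρ ^ 2) by field_simp; ring, div_le_iff₀ (by positivity), r1]
    nlinarith [mul_nonneg b0 (sq_nonneg δ)]
  · rw [g.Δ_comp hA isOpen_Ioi (h2a_sm δ) hm, (h2a_d1 (hm y)).deriv, h2a_d2 (hm y)]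
    have e : g.Δ (g.Γ v v) y = 2 * g.Γ2 v v y + 2 * g.Γ v (g.Δ v) y - 2 * g.k * g.Γ v v y := by
      simp only [Raw.Γ2]
      ring
    rw [e]
    set ρ := Real.sqrt (g.Γ v v y + δ ^ 2)
    have e2 : 1 / (2 * ρ) * (2 * g.Γ v (g.Δ v) y) -
        (1 / (2 * ρ) * (2 * g.Γ2 v v y + 2 * g.Γ v (g.Δ v) y - 2 * g.k * g.Γ v v y) +
          -1 / (4 * ρ ^ 3) * g.Γ (g.Γ v v) (g.Γ v v) y) - g.k * (ρ - δ) =
        g.k * δ + (g.Γ (g.Γ v v) (g.Γ v v) y - 4 * g.Γ2 v v y * ρ ^ 2 +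
          4 * g.k * ρ ^ 2 * (g.Γ v v y - ρ ^ 2)) / (4 * ρ ^ 3) := by
      field_simp
      ring
    rw [e2, add_le_iff_nonpos_right]
    refine div_nonpos_of_nonpos_of_nonneg ?_ (by positivity)
    rw [r1]
    nlinarith [mul_nonneg b0 (sq_nonneg δ), mul_nonneg (mul_nonneg k0 (add_nonneg a0 (sq_nonneg δ))) (sq_nonneg δ)]

lemma Geo.h2a_STI (g : Geo n M) {I : Set ℝ} {a b B : ℝ} (hs : Icc a b ⊆ I) {Q : ℝ → M → ℝ}
    (hQ : ContinuousOn (fun p : ℝ × M => Q p.1 p.2) (I ×ˢ univ))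
    (hB : ∀ s ∈ Icc a b, ∃ R : M → ℝ, Integrable R g.m ∧ ∫ y, R y ∂g.m ≤ B ∧ ∀ y, |Q s y| ≤ R y) :
    g.STI a b Q := by
  refine g.STI_of_bound (B := B) hs hQ fun s hs' => ?_
  obtain ⟨R, h1, h2, h3⟩ := hB s hs'
  have hc : Continuous (Q s) := continuousOn_univ.1
    (hQ.comp (f := fun y : M => (s, y)) (by fun_prop) fun y _ => ⟨hs hs', mem_univ _⟩)
  have hi : Integrable (Q s) g.m := h1.mono' hc.aestronglyMeasurable (Eventually.of_forall h3)
  exact ⟨hi, (integral_mono hi.abs h1 h3).trans h2⟩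

lemma HS.h2a_L1 {t : ℝ} (ht : 0 < t) {χ : M → ℝ} (hi : Integrable χ h.m) (h0 : ∀ y, 0 ≤ χ y) :
    Integrable (h.P t χ) h.m ∧ ∫ y, h.P t χ y ∂h.m ≤ ∫ y, χ y ∂h.m := by
  have := h.fin_cpt
  have hb : ∀ y, |h.P t (fun _ => |(1 : ℝ)|) y| ≤ 1 := fun y => h.abs_P_le ht y fun _ => by simp
  have hm : AEStronglyMeasurable (h.P t fun _ => |(1 : ℝ)|) h.m :=
    (((h.H_meas ht).mul_const |(1 : ℝ)|).stronglyMeasurable.integral_prod_right' (ν := h.m)).aestronglyMeasurable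
  have i1 : Integrable (fun y => χ y * h.P t (fun _ => |(1 : ℝ)|) y) h.m :=
    hi.mul_bdd hm (Eventually.of_forall hb)
  obtain ⟨j1, j2, j3⟩ := h.P_symm ht (f := χ) (f' := fun _ => 1) hi.aestronglyMeasurable
    aestronglyMeasurable_const (fun y => (h.H_int ht y).1.mul_const 1) i1
  simp only [one_mul] at j2 j3
  refine ⟨j2, j3 ▸ integral_mono j1 hi fun y => mul_le_of_le_one_right (h0 y) ?_⟩
  exact (le_abs_self _).trans (h.abs_P_le ht y fun _ => by simp)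

lemma h2a_lim {μ : Measure M} {p : M → ℝ} {q : ℝ → M → ℝ} {l : Filter ℝ} (hp : MemLp p 2 μ)
    (hq : ∀ᶠ a in l, MemLp (q a) 2 μ) (h0 : Tendsto (fun a => ∫ y, q a y ^ 2 ∂μ) l (𝓝 0)) :
    Tendsto (fun a => ∫ y, p y * q a y ∂μ) l (𝓝 0) := by
  have t1 := (h0.sqrt).const_mul (Real.sqrt (∫ y, p y ^ 2 ∂μ))
  rw [Real.sqrt_zero, mul_zero] at t1
  refine squeeze_zero_norm' ?_ t1
  filter_upwards [hq] with a ha
  have := integral_mul_norm_le_Lp_mul_Lq Real.HolderConjugate.two_two (f := p) (g := q a) (μ := μ)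
    (by simpa using hp) (by simpa using ha)
  simp only [Real.rpow_two, Real.norm_eq_abs, sq_abs, ← Real.sqrt_eq_rpow] at this
  refine (norm_integral_le_integral_norm _).trans ?_
  simpa only [norm_mul, Real.norm_eq_abs] using this

lemma HS.h2a_step {f χ : M → ℝ} (hf : MemLp f 2 h.m) (hχ : MemLp χ 2 h.m) (hi : Integrable χ h.m)
    (h0 : ∀ y, 0 ≤ χ y) {a t δ : ℝ} (ha : 0 < a) (hat : a ≤ t) (hδ : 0 < δ) :
    ∫ y, (Real.sqrt (h.Γ (h.P t f) (h.P t f) y + δ ^ 2) - δ) * (Real.exp (-h.k * t) * h.P a χ y) ∂h.m ≤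
      ∫ y, (Real.sqrt (h.Γ (h.P a f) (h.P a f) y + δ ^ 2) - δ) * (Real.exp (-h.k * a) * h.P t χ y) ∂h.m +
        h.k * δ * (∫ y, χ y ∂h.m) * t := by
  have k0 := h.k_nonneg
  set I : Set ℝ := Ioo 0 (t + a) with hI
  have hIo : IsOpen I := isOpen_Ioo
  have hs : Icc a t ⊆ I := fun s hs => ⟨ha.trans_le hs.1, by linarith [hs.2]⟩
  have su : h.Sm I fun s => h.P s f := h.Sm_mono (h.P_Sm hf) fun s hs => hs.1
  have sA := h.Sm_Γ hIo su su
  have hm : ∀ s y, h.Γ (h.P s f) (h.P s f) y ∈ Ioi (-δ ^ 2) := fun s z => by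
    have := h.Γ_nonneg (h.P s f) z
    have : 0 < δ ^ 2 := by positivity
    show -δ ^ 2 < _
    linarith
  have sw := h.Sm_comp sA isOpen_Ioi (h2a_sm δ) fun s _ y => hm s y
  obtain ⟨r1, r2⟩ := h.Sm_rev (h.P_Sm hχ) (t + a)
  have sv : h.Sm I fun s => h.P (t + a - s) χ := h.Sm_mono r1 fun s hs => hs.2
  have sc : h.Sm I fun s _ => Real.exp (-h.k * s) := h.Sm_time (by fun_prop)
  have sF := h.Sm_mul sc sv
  have se := h.Sm_neg sw
  have c0 : ∀ s ∈ I, 0 < Real.exp (-h.k * s) ∧ Real.exp (-h.k * s) ≤ 1 := fun s hs =>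
    ⟨Real.exp_pos _, Real.exp_le_one_iff.2 (by nlinarith [hs.1])⟩
  have w0 : ∀ s y, 0 ≤ Real.sqrt (h.Γ (h.P s f) (h.P s f) y + δ ^ 2) - δ ∧
      (Real.sqrt (h.Γ (h.P s f) (h.P s f) y + δ ^ 2) - δ) ^ 2 ≤ h.Γ (h.P s f) (h.P s f) y := fun s y => by
    have a0 := h.Γ_nonneg (h.P s f) y
    have e1 : δ ≤ Real.sqrt (h.Γ (h.P s f) (h.P s f) y + δ ^ 2) := Real.le_sqrt_of_sq_le (by linarith)
    have e2 := Real.sq_sqrt (show 0 ≤ h.Γ (h.P s f) (h.P s f) y + δ ^ 2 by positivity)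
    exact ⟨by linarith, by nlinarith⟩
  obtain ⟨B, hB⟩ := h.unif_L2 hf ha
  obtain ⟨B', hB'⟩ := h.unif_L2 hχ ha
  have hu : ∀ s ∈ I, h.H1 (h.P s f) ∧ h.H1 (h.Δ (h.P s f)) := fun s hs => h.P_H1 hs.1 hf
  have hv : ∀ s ∈ I, h.H1 (h.P (t + a - s) χ) := fun s hs => (h.P_H1 (sub_pos.2 hs.2) hχ).1
  have v0 : ∀ s ∈ I, ∀ y, 0 ≤ h.P (t + a - s) χ y := fun s hs y => h.P_nonneg (sub_pos.2 hs.2) y h0
  have iEF : ∀ s ∈ I, Integrable (fun y => -(Real.sqrt (h.Γ (h.P s f) (h.P s f) y + δ ^ 2) - δ) *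
      (Real.exp (-h.k * s) * h.P (t + a - s) χ y)) h.m := fun s hs => by
    have c1 := h.S_cont (h.Sm_slice se hs)
    refine MemLp.integrable_mul ((memLp_two_iff_integrable_sq c1.aestronglyMeasurable).2 ?_)
      ((hv s hs).2.1.const_mul _)
    refine (hu s hs).1.2.2.mono' (c1.pow 2).aestronglyMeasurable (Eventually.of_forall fun y => ?_)
    rw [Real.norm_of_nonneg (sq_nonneg _), neg_sq]
    exact (w0 s y).2
  have hG : ∀ s ∈ Icc a t, Integrable (fun y => -(h.k * δ) * (Real.exp (-h.k * s) * h.P (t + a - s) χ y)) h.m ∧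
      ∫ y, |-(h.k * δ) * (Real.exp (-h.k * s) * h.P (t + a - s) χ y)| ∂h.m ≤ h.k * δ * ∫ y, χ y ∂h.m := by
    intro s hs'
    obtain ⟨l1, l2⟩ := h.h2a_L1 (sub_pos.2 (hs hs').2) hi h0
    have i1 := (l1.const_mul (Real.exp (-h.k * s))).const_mul (-(h.k * δ))
    refine ⟨i1, (integral_mono i1.abs (l1.const_mul (h.k * δ)) fun y => ?_).trans ?_⟩
    · simp only
      rw [abs_mul, abs_neg, abs_of_nonneg (by positivity),
        abs_of_nonneg (mul_nonneg (c0 s (hs hs')).1.le (v0 s (hs hs') y))]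
      exact mul_le_mul_of_nonneg_left (mul_le_of_le_one_left (v0 s (hs hs') y) (c0 s (hs hs')).2) (by positivity)
    · rw [integral_const_mul]
      exact mul_le_mul_of_nonneg_left l2 (by positivity)
  have hQ0 : ∀ s ∈ Icc a t, ∀ y, 0 ≤ Real.exp (-h.k * s) * h.P (t + a - s) χ y *
      (dt (fun s y => -(Real.sqrt (h.Γ (h.P s f) (h.P s f) y + δ ^ 2) - δ)) s y -
        h.Δ (fun y => -(Real.sqrt (h.Γ (h.P s f) (h.P s f) y + δ ^ 2) - δ)) y) +
      -(Real.sqrt (h.Γ (h.P s f) (h.P s f) y + δ ^ 2) - δ) *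
        (dt (fun s y => Real.exp (-h.k * s) * h.P (t + a - s) χ y) s y +
          h.Δ (fun y => Real.exp (-h.k * s) * h.P (t + a - s) χ y) y) -
      -(h.k * δ) * (Real.exp (-h.k * s) * h.P (t + a - s) χ y) := by
    intro s hs' y
    have hsI := hs hs'
    obtain ⟨p1, -, p3⟩ := h.h2a_pt (hu s hsI).1.1 hδ y
    have d0 : dt (fun s => h.P s f) s = h.Δ (h.P s f) := funext (h.P_heat hf hsI.1)
    have d1 := (h2a_d1 (hm s y)).comp s (h.Sm_deriv hIo sA hsI y)
    rw [h.dt_Γ hIo su su hsI, d0, h.Γ_comm (h.Δ _), ← two_mul] at d1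
    have d2 : HasDerivAt (fun s => Real.exp (-h.k * s)) (Real.exp (-h.k * s) * -h.k) s := by
      simpa using ((hasDerivAt_id s).const_mul (-h.k)).exp
    have d3 := h.Sm_deriv hIo sv hsI y
    rw [show dt (fun s => h.P (t + a - s) χ) s y = -h.Δ (h.P (t + a - s) χ) y from
      (r2 s hsI.2 y).trans (congrArg _ (h.P_heat hχ (sub_pos.2 hsI.2) y))] at d3
    have e0 : (fun y => -(Real.sqrt (h.Γ (h.P s f) (h.P s f) y + δ ^ 2) - δ)) =
        fun y => -1 * (Real.sqrt (h.Γ (h.P s f) (h.P s f) y + δ ^ 2) - δ) := by simp only [neg_one_mul]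
    rw [Geo.dt_eq (F := fun s y => -(Real.sqrt (h.Γ (h.P s f) (h.P s f) y + δ ^ 2) - δ)) d1.neg,
      Geo.dt_eq (F := fun s y => Real.exp (-h.k * s) * h.P (t + a - s) χ y) (d2.mul d3), e0,
      h.Δ_cmul _ p1, h.Δ_cmul _ (hv s hsI).1]
    have := mul_nonneg (mul_nonneg (c0 s hsI).1.le (v0 s hsI y)) (sub_nonneg.2 p3)
    linarith
  have key := (h.duh1 (G := fun s y => -(h.k * δ) * (Real.exp (-h.k * s) * h.P (t + a - s) χ y))
    (Q := fun s y => _ - -(h.k * δ) * (Real.exp (-h.k * s) * h.P (t + a - s) χ y)) hIo se sF hat hs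
    (iEF a (hs (left_mem_Icc.2 hat))) (iEF t (hs (right_mem_Icc.2 hat))) ?_ ?_ ?_ ?_
    (fun s _ y => (sub_add_cancel _ _).symm) ?_)
  · obtain ⟨k1, k2⟩ := key
    have q0 := intervalIntegral.integral_nonneg (μ := volume) hat fun s hs' => integral_nonneg (μ := h.m) (hQ0 s hs')
    have g0 : ‖∫ s in a..t, ∫ y, -(h.k * δ) * (Real.exp (-h.k * s) * h.P (t + a - s) χ y) ∂h.m‖ ≤
        h.k * δ * (∫ y, χ y ∂h.m) * |t - a| := by
      refine intervalIntegral.norm_integral_le_of_norm_le_const fun s hs' => ?_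
      rw [uIoc_of_le hat] at hs'
      exact (norm_integral_le_integral_norm _).trans (hG s (Ioc_subset_Icc_self hs')).2
    have g1 : h.k * δ * (∫ y, χ y ∂h.m) * |t - a| ≤ h.k * δ * (∫ y, χ y ∂h.m) * t :=
      mul_le_mul_of_nonneg_left (by rw [abs_of_nonneg (by linarith)]; linarith)
        (mul_nonneg (by positivity) (integral_nonneg h0))
    have g2 := (abs_le.1 (g0.trans g1)).1
    simp only [neg_mul, integral_neg, add_sub_cancel_left, add_sub_cancel_right] at k2 q0 g2 ⊢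
    linarith
  · refine h.h2a_STI (B := B + B') hs ((h.Sm_cont se).abs.mul (h.Sm_cont (h.Sm_Γ hIo sF sF)).sqrt)
      fun s hs' => ⟨fun y => h.Γ (h.P s f) (h.P s f) y + h.Γ (h.P (t + a - s) χ) (h.P (t + a - s) χ) y,
        (hu s (hs hs')).1.2.2.add (hv s (hs hs')).2.2, ?_, fun y => ?_⟩
    · rw [integral_add (hu s (hs hs')).1.2.2 (hv s (hs hs')).2.2]
      exact add_le_add (hB s hs'.1).2.1 (hB' _ (by linarith [hs'.2])).2.1
    · have e1 := Real.sq_sqrt (h.Γ_nonneg (fun y => Real.exp (-h.k * s) * h.P (t + a - s) χ y) y)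
      have e2 : h.Γ (fun y => Real.exp (-h.k * s) * h.P (t + a - s) χ y)
          (fun y => Real.exp (-h.k * s) * h.P (t + a - s) χ y) y ≤
          h.Γ (h.P (t + a - s) χ) (h.P (t + a - s) χ) y := by
        rw [h.Γ_cmul_left _ (hv s (hs hs')).1, h.Γ_comm, h.Γ_cmul_left _ (hv s (hs hs')).1, ← mul_assoc]
        exact mul_le_of_le_one_left (h.Γ_nonneg _ y)
          (mul_le_one₀ (c0 s (hs hs')).2 (c0 s (hs hs')).1.le (c0 s (hs hs')).2)
      rw [abs_of_nonneg (by positivity), abs_neg, abs_of_nonneg (w0 s y).1]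
      nlinarith [(w0 s y).2, sq_nonneg (Real.sqrt (h.Γ (h.P s f) (h.P s f) y + δ ^ 2) - δ -
        Real.sqrt (h.Γ (fun y => Real.exp (-h.k * s) * h.P (t + a - s) χ y)
          (fun y => Real.exp (-h.k * s) * h.P (t + a - s) χ y) y)), h.Γ_nonneg (h.P s f) y,
          h.Γ_nonneg (h.P (t + a - s) χ) y]
  · have i2 : ∀ s ∈ I, Integrable (fun y => h.P (t + a - s) χ y ^ 2) h.m := fun s hs =>
      (hv s hs).2.1.integrable_sq
    refine h.h2a_STI (B := B' + (2 * B + 2 * h.k * B)) hs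
      ((h.Sm_cont sF).abs.mul (h.Sm_cont (h.Sm_Γ hIo se se)).sqrt) fun s hs' => ?_
    obtain ⟨j1, j2⟩ := h.Γ2_int (hu s (hs hs')).1.1 (hu s (hs hs')).1.2.2 (hu s (hs hs')).2.2.1
    refine ⟨fun y => h.P (t + a - s) χ y ^ 2 + h.Γ2 (h.P s f) (h.P s f) y, (i2 s (hs hs')).add j1, ?_,
      fun y => ?_⟩
    · rw [integral_add (i2 s (hs hs')) j1]
      obtain ⟨-, b1, b2⟩ := hB s hs'.1
      refine add_le_add (hB' _ (by linarith [hs'.2])).1 (j2.trans ?_)
      gcongr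
    · obtain ⟨p1, p2, -⟩ := h.h2a_pt (hu s (hs hs')).1.1 hδ y
      have e0 : (fun y => -(Real.sqrt (h.Γ (h.P s f) (h.P s f) y + δ ^ 2) - δ)) =
          fun y => -1 * (Real.sqrt (h.Γ (h.P s f) (h.P s f) y + δ ^ 2) - δ) := by simp only [neg_one_mul]
      rw [abs_of_nonneg (by positivity), e0, h.Γ_cmul_left _ p1, h.Γ_comm, h.Γ_cmul_left _ p1, ← mul_assoc,
        neg_one_mul, neg_neg, one_mul, abs_of_nonneg (mul_nonneg (c0 s (hs hs')).1.le (v0 s (hs hs') y))]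
      have e1 := Real.sq_sqrt (h.Γ_nonneg (fun y => Real.sqrt (h.Γ (h.P s f) (h.P s f) y + δ ^ 2) - δ) y)
      have e2 := mul_le_mul_of_nonneg_right
        (mul_le_of_le_one_left (v0 s (hs hs') y) (c0 s (hs hs')).2) (Real.sqrt_nonneg
        (h.Γ (fun y => Real.sqrt (h.Γ (h.P s f) (h.P s f) y + δ ^ 2) - δ)
          (fun y => Real.sqrt (h.Γ (h.P s f) (h.P s f) y + δ ^ 2) - δ) y))
      nlinarith [sq_nonneg (h.P (t + a - s) χ y - Real.sqrt (h.Γ
        (fun y => Real.sqrt (h.Γ (h.P s f) (h.P s f) y + δ ^ 2) - δ)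
          (fun y => Real.sqrt (h.Γ (h.P s f) (h.P s f) y + δ ^ 2) - δ) y)), sq_nonneg (h.P (t + a - s) χ y),
          h.Γ2_nonneg (hu s (hs hs')).1.1 y]
  · exact continuousOn_const.mul (h.Sm_cont sF)
  · exact h.STI_of_bound hs (continuousOn_const.mul (h.Sm_cont sF)) hG
  · exact hQ0

lemma Geo.h2a_L2 (g : Geo n M) {f : M → ℝ} (hf : g.H1 f) :
    Continuous (fun y => Real.sqrt (g.Γ f f y)) ∧ MemLp (fun y => Real.sqrt (g.Γ f f y)) 2 g.m := by
  have hc : Continuous fun y => Real.sqrt (g.Γ f f y) := (g.S_cont (g.S_Γ hf.1 hf.1)).sqrt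
  refine ⟨hc, (memLp_two_iff_integrable_sq hc.aestronglyMeasurable).2 ?_⟩
  simp only [Real.sq_sqrt (g.Γ_nonneg f _)]
  exact hf.2.2

lemma HS.h2a_step2 {f χ : M → ℝ} (hf : MemLp f 2 h.m) (hχ : MemLp χ 2 h.m) (hi : Integrable χ h.m)
    (h0 : ∀ y, 0 ≤ χ y) {a t : ℝ} (ha : 0 < a) (hat : a ≤ t) :
    Real.exp (-h.k * t) * ∫ y, Real.sqrt (h.Γ (h.P t f) (h.P t f) y) * h.P a χ y ∂h.m ≤
      ∫ y, Real.sqrt (h.Γ (h.P a f) (h.P a f) y) * h.P t χ y ∂h.m := by
  have k0 := h.k_nonneg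
  have ht := ha.trans_le hat
  have C0 : 0 ≤ ∫ y, χ y ∂h.m := integral_nonneg h0
  have iw : ∀ {s r δ : ℝ}, 0 < s → 0 < r → 0 < δ → Integrable (fun y =>
      (Real.sqrt (h.Γ (h.P s f) (h.P s f) y + δ ^ 2) - δ) * (Real.exp (-h.k * s) * h.P r χ y)) h.m ∧
      Integrable (fun y => Real.sqrt (h.Γ (h.P s f) (h.P s f) y) * h.P r χ y) h.m ∧ ∀ y,
      0 ≤ Real.sqrt (h.Γ (h.P s f) (h.P s f) y + δ ^ 2) - δ ∧
      Real.sqrt (h.Γ (h.P s f) (h.P s f) y + δ ^ 2) - δ ≤ Real.sqrt (h.Γ (h.P s f) (h.P s f) y) ∧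
      Real.sqrt (h.Γ (h.P s f) (h.P s f) y) - δ ≤ Real.sqrt (h.Γ (h.P s f) (h.P s f) y + δ ^ 2) - δ := by
    intro s r δ hs hr hδ
    have w0 : ∀ y, 0 ≤ Real.sqrt (h.Γ (h.P s f) (h.P s f) y + δ ^ 2) - δ ∧
        Real.sqrt (h.Γ (h.P s f) (h.P s f) y + δ ^ 2) - δ ≤ Real.sqrt (h.Γ (h.P s f) (h.P s f) y) ∧
        Real.sqrt (h.Γ (h.P s f) (h.P s f) y) - δ ≤ Real.sqrt (h.Γ (h.P s f) (h.P s f) y + δ ^ 2) - δ := by
      intro y
      have a0 := h.Γ_nonneg (h.P s f) y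
      refine ⟨sub_nonneg.2 (Real.le_sqrt_of_sq_le (by linarith)), sub_le_iff_le_add.2
        (Real.sqrt_le_iff.2 ⟨by positivity, ?_⟩), sub_le_sub_right (Real.sqrt_le_sqrt (by nlinarith)) _⟩
      nlinarith [Real.sq_sqrt a0, mul_nonneg (Real.sqrt_nonneg (h.Γ (h.P s f) (h.P s f) y)) hδ.le]
    obtain ⟨l1, l2⟩ := h.toGeo.h2a_L2 (h.P_H1 hs hf).1
    have l3 := (h.P_H1 hr hχ).1.2.1
    refine ⟨MemLp.integrable_mul (l2.of_le (((h.S_cont (h.S_Γ (h.P_S hs hf) (h.P_S hs hf))).add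
      continuous_const).sqrt.sub continuous_const).aestronglyMeasurable
      (Eventually.of_forall fun y => ?_)) (l3.const_mul _), l2.integrable_mul l3, w0⟩
    exact (Real.norm_of_nonneg (w0 y).1).trans_le ((w0 y).2.1.trans (le_abs_self _))
  refine le_of_forall_pos_le_add fun ε hε => ?_
  obtain ⟨δ, hδ, hδε⟩ := exists_pos_mul_lt hε ((1 + h.k * t) * ∫ y, χ y ∂h.m)
  have key := h.h2a_step hf hχ hi h0 ha hat hδ
  obtain ⟨i1, i2, i3⟩ := iw ht ha hδ
  obtain ⟨j1, j2, j3⟩ := iw ha ht hδ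
  obtain ⟨l1, l2⟩ := h.h2a_L1 ha hi h0
  have c1 : ∀ s, 0 < s → Real.exp (-h.k * s) ≤ 1 := fun s hs => Real.exp_le_one_iff.2 (by nlinarith)
  have m1 : ∫ y, (Real.exp (-h.k * t) * (Real.sqrt (h.Γ (h.P t f) (h.P t f) y) * h.P a χ y) - δ * h.P a χ y) ∂h.m ≤ _ :=
    integral_mono ((i2.const_mul _).sub (l1.const_mul δ)) i1 fun y => by
      have v0 := h.P_nonneg ha y h0
      have := mul_le_mul_of_nonneg_right (i3 y).2.2 (mul_nonneg (Real.exp_pos (-h.k * t)).le v0)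
      have := mul_le_mul_of_nonneg_left (mul_le_of_le_one_left v0 (c1 t ht)) hδ.le
      simp only
      linarith
  rw [integral_sub (i2.const_mul _) (l1.const_mul δ), integral_const_mul, integral_const_mul] at m1
  have m2 := integral_mono j1 j2 fun y => mul_le_mul (j3 y).2.1
    (mul_le_of_le_one_left (h.P_nonneg ht y h0) (c1 a ha))
    (mul_nonneg (Real.exp_pos _).le (h.P_nonneg ht y h0)) (Real.sqrt_nonneg _)
  have m3 := mul_le_mul_of_nonneg_left l2 hδ.le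
  linarith

/-- Strong gradient estimate for test functions.  Recipe: `u s = P s f`, `w s = √(Γ(u s) + δ²) - δ ≤ √Γ(u s)`; `Γ w ≤ Γ2 (u s)` and
`(∂ₛ - Δ) w ≤ k Γ/√(Γ+δ²) ≤ k √Γ(u s)` (`Γ(Γu,Γu) ≤ 4 Γ2(u) Γ(u)`; mind that `Γ2` contains `kΓ`: `(∂ₛ-Δ)Γu = -2Γ2 u + 2kΓu`).  For a test `χ ≥ 0` apply `duh1` on `[a,b] ⊂ (0,t)` to `e = -w`, `F s = P (t-s) χ`
(`Γ2_int`, `unif_L2`), let `δ → 0`: `ψ s = ∫ √Γ(u s) · P (t-s) χ` has `ψ b - ψ a ≤ k ∫ₐᵇ ψ`, is continuous on `(0,t)`; Gronwall; `a → 0` (`P_zero_grad`), `b → t` (`P_zero`); `P_symm_L2`, `le_of_test`. -/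
theorem HS.ge_c {f : M → ℝ} (hf : h.S f) (hc : HasCompactSupport f) {t : ℝ} (ht : 0 < t) (x : M) :
    Real.sqrt (h.Γ (h.P t f) (h.P t f) x) ≤
      Real.exp (h.k * t) * h.P t (fun y => Real.sqrt (h.Γ f f y)) x := by
  have := h.fin_cpt
  have f1 := (h.H1_of_cs hf hc).1
  obtain ⟨gc, g2⟩ := h.toGeo.h2a_L2 f1
  obtain ⟨uc, u2⟩ := h.toGeo.h2a_L2 (h.P_H1 ht f1.2.1).1
  refine h.le_of_test uc ((h.S_cont (h.P_S ht g2)).const_mul _) (fun χ hχ cχ h0 => ?_) x
  have χ2 := (h.H1_of_cs hχ cχ).1.2.1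
  have hi := h.int_cs (h.S_cont hχ) cχ
  have p2 := (h.P_H1 ht χ2).1.2.1
  have hpos : ∀ᶠ a in 𝓝[>] (0 : ℝ), 0 < a := self_mem_nhdsWithin
  have s1 : ∀ a, 0 < a → h.H1 fun y => h.P a f y - f y := fun a ha => by
    have q := (h.P_H1 ha f1.2.1).1
    have q1 := h.S_sub q.1 hf
    refine ⟨q1, q.2.1.sub f1.2.1, ((q.2.2.const_mul 2).add (f1.2.2.const_mul 2)).mono'
      (h.S_cont (h.S_Γ q1 q1)).aestronglyMeasurable (Eventually.of_forall fun y => ?_)⟩
    rw [Real.norm_of_nonneg (h.Γ_nonneg _ y)]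
    exact h.Γ_sub_le q.1 hf y
  have t1 := (h2a_lim u2 (q := fun a y => h.P a χ y - χ y)
    (hpos.mono fun a ha => (h.P_H1 ha χ2).1.2.1.sub χ2) (h.P_zero χ2)).add_const
    (∫ y, Real.sqrt (h.Γ (h.P t f) (h.P t f) y) * χ y ∂h.m)
  have t2 := (h2a_lim p2 (q := fun a y => Real.sqrt
      (h.Γ (fun y => h.P a f y - f y) (fun y => h.P a f y - f y) y))
    (hpos.mono fun a ha => (h.toGeo.h2a_L2 (s1 a ha)).2) (by
      have := (ENNReal.tendsto_toReal ENNReal.zero_ne_top).comp (h.P_zero_grad hf hc)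
      refine this.congr' (hpos.mono fun a ha => ?_)
      simp only [Function.comp, Real.sq_sqrt (h.Γ_nonneg _ _)]
      exact (integral_eq_lintegral_of_nonneg_ae (Eventually.of_forall (h.Γ_nonneg _))
        (s1 a ha).2.2.aestronglyMeasurable).symm)).add_const
    (∫ y, Real.sqrt (h.Γ f f y) * h.P t χ y ∂h.m)
  rw [zero_add] at t1 t2
  have key := le_of_tendsto_of_tendsto (t1.const_mul (Real.exp (-h.k * t))) t2 (by
    filter_upwards [Ioo_mem_nhdsGT ht] with a ha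
    have q := (h.P_H1 ha.1 f1.2.1).1
    have q2 := (h.P_H1 ha.1 χ2).1.2.1
    have i1 := p2.integrable_mul (h.toGeo.h2a_L2 (s1 a ha.1)).2
    have i2 := g2.integrable_mul p2
    have e1 := integral_add (u2.integrable_mul (q2.sub χ2)) (u2.integrable_mul χ2)
    have e2 := integral_add i1 i2
    simp only [Pi.mul_apply, Pi.sub_apply] at e1 e2
    rw [← e1, ← e2]
    refine le_trans (le_of_eq ?_) ((h.h2a_step2 f1.2.1 χ2 hi h0 ha.1 ha.2.le).trans
      (integral_mono ((h.toGeo.h2a_L2 q).2.integrable_mul p2) (i1.add i2) fun y => ?_))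
    · congr 2 with y
      ring
    · have := h.sqrt_Γ_add_le (s1 a ha.1).1 hf y
      simp only [sub_add_cancel] at this
      have := mul_le_mul_of_nonneg_right this (h.P_nonneg ht y h0)
      simp only
      linarith)
  rw [h.P_symm_L2 ht g2 χ2, neg_mul, Real.exp_neg, inv_mul_le_iff₀ (Real.exp_pos _), ← integral_const_mul] at key
  refine key.trans (le_of_eq ?_)
  congr 1 with y
  ring

theorem Geo.h2b_mul (g : Geo n M) {χ f : M → ℝ} (hχ : g.S χ) (hf : g.S f) {y : M} (h0 : 0 ≤ χ y)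
    (h1 : χ y ≤ 1) : Real.sqrt (g.Γ (fun z => χ z * f z) (fun z => χ z * f z) y) ≤
      Real.sqrt (g.Γ f f y) + Real.sqrt (g.Γ χ χ y) * |f y| := by
  refine Real.sqrt_le_iff.2 ⟨by positivity, ?_⟩
  rw [g.Γ_mul_left hχ hf, g.Γ_comm f, g.Γ_comm χ, g.Γ_mul_left hχ hf, g.Γ_mul_left hχ hf, g.Γ_comm χ f]
  have a1 := g.abs_Γ_le f χ y
  have a2 := Real.sq_sqrt (g.Γ_nonneg f y)
  have a3 := Real.sq_sqrt (g.Γ_nonneg χ y)
  have a4 : χ y * (f y * g.Γ f χ y) ≤ |f y| * (Real.sqrt (g.Γ f f y) * Real.sqrt (g.Γ χ χ y)) := by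
    refine (mul_le_mul_of_nonneg_left (le_abs_self _) h0).trans
      ((mul_le_of_le_one_left (abs_nonneg _) h1).trans ?_)
    rw [abs_mul]
    exact mul_le_mul_of_nonneg_left a1 (abs_nonneg _)
  have a5 : χ y * χ y * g.Γ f f y ≤ g.Γ f f y :=
    mul_le_of_le_one_left (g.Γ_nonneg f y) (mul_le_one₀ h1 h0 h1)
  have a6 := sq_abs (f y)
  calc _ ≤ g.Γ f f y + 2 * (|f y| * (Real.sqrt (g.Γ f f y) * Real.sqrt (g.Γ χ χ y))) +
        f y ^ 2 * g.Γ χ χ y := by linarith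
    _ = _ := by rw [add_sq, mul_pow, a2, a3, a6]; ring

theorem Geo.h2b_L2 (g : Geo n M) {f : M → ℝ} (hf : g.H1 f) :
    Continuous (fun y => Real.sqrt (g.Γ f f y)) ∧ MemLp (fun y => Real.sqrt (g.Γ f f y)) 2 g.m := by
  have hc : Continuous fun y => Real.sqrt (g.Γ f f y) := (g.S_cont (g.S_Γ hf.1 hf.1)).sqrt
  refine ⟨hc, (memLp_two_iff_integrable_sq hc.aestronglyMeasurable).2 ?_⟩
  simp only [Real.sq_sqrt (g.Γ_nonneg f _)]
  exact hf.2.2

/-- Recipe: `ge_c` for `χ_R f` (`cut1`): `√Γ(χ f) ≤ √Γ f + |f| √C/R`; both `P t √Γf` and `P t |f|` are continuous (`P_S`); `abs_sub_le_of_Γ` near `x`, `R → ∞`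
(dominated convergence), `Γ_le_of_lip`. -/
theorem HS.ge {f : M → ℝ} (hf : h.H1 f) {t : ℝ} (ht : 0 < t) (x : M) :
    Real.sqrt (h.Γ (h.P t f) (h.P t f) x) ≤
      Real.exp (h.k * t) * h.P t (fun y => Real.sqrt (h.Γ f f y)) x := by
  obtain ⟨hGc, hG⟩ := h.toGeo.h2b_L2 hf
  have hA : MemLp (fun y => |f y|) 2 h.m := hf.2.1.abs
  set G : M → ℝ := fun y => Real.sqrt (h.Γ f f y) with hGd
  set e := Real.exp (h.k * t) with he
  have he0 : 0 < e := Real.exp_pos _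
  have ca : Continuous fun z => e * h.P t G z := (h.S_cont (h.P_S ht hG)).const_mul e
  have cb : Continuous fun z => e * h.P t (fun y => |f y|) z := (h.S_cont (h.P_S ht hA)).const_mul e
  have ha0 : 0 ≤ e * h.P t G x := mul_nonneg he0.le (h.P_nonneg ht x fun y => Real.sqrt_nonneg _)
  have hb0 : 0 ≤ e * h.P t (fun y => |f y|) x := mul_nonneg he0.le (h.P_nonneg ht x fun y => abs_nonneg _)
  obtain ⟨C, hC⟩ := h.cut1 x
  choose χ h1 h2 h3 h4 h5 using fun j : ℕ => hC ((j : ℝ) + 1) (by linarith [(Nat.cast_nonneg j : (0 : ℝ) ≤ j)])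
  have sj : ∀ j, h.S fun z => χ j z * f z := fun j => h.S_mul (h1 j) hf.1
  have cj : ∀ j, HasCompactSupport fun z => χ j z * f z := fun j => (h2 j).mul_right
  have nj : ∀ j, h.H1 fun z => χ j z * f z := fun j => (h.H1_of_cs (sj j) (cj j)).1
  set c : ℕ → ℝ := fun j => Real.sqrt (C / ((j : ℝ) + 1) ^ 2) with hc
  have hc0 : Tendsto c atTop (𝓝 0) := by
    have := ((tendsto_one_div_add_atTop_nhds_zero_nat.pow 2).const_mul C).sqrt
    simp only [ne_eq, OfNat.ofNat_ne_zero, not_false_eq_true, zero_pow, mul_zero, Real.sqrt_zero] at this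
    refine this.congr fun j => ?_
    simp only [hc]
    rw [div_pow, one_pow, mul_one_div]
  have lim : ∀ z, Tendsto (fun j => h.P t (fun y => χ j y * f y) z) atTop (𝓝 (h.P t f z)) := fun z => by
    refine tendsto_integral_of_dominated_convergence (fun y => ‖h.H t z y * f y‖)
      (fun j => (h.int_L2 ht z (nj j).2.1).aestronglyMeasurable) (h.int_L2 ht z hf.2.1).norm
      (fun j => Eventually.of_forall fun y => ?_) (Eventually.of_forall fun y => ?_)
    · rw [norm_mul, norm_mul, norm_mul, Real.norm_of_nonneg (h3 j y).1]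
      exact mul_le_mul_of_nonneg_left (mul_le_of_le_one_left (norm_nonneg _) (h3 j y).2) (norm_nonneg _)
    · refine tendsto_const_nhds.congr' ?_
      filter_upwards [tendsto_natCast_atTop_atTop.eventually_ge_atTop (dist y x)] with j hj
      rw [h4 j y (by linarith), one_mul]
  have bd : ∀ j z, Real.sqrt (h.Γ (h.P t fun y => χ j y * f y) (h.P t fun y => χ j y * f y) z) ≤
      e * h.P t G z + c j * (e * h.P t (fun y => |f y|) z) := fun j z => by
    refine (h.ge_c (sj j) (cj j) ht z).trans ?_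
    have i1 := h.int_L2 ht z hG
    have i2 := h.int_L2 ht z (hA.const_mul (c j))
    have := h.P_mono ht (h.int_L2 ht z (h.toGeo.h2b_L2 (nj j)).2) (h.int_L2 ht z (hG.add (hA.const_mul (c j))))
      fun y => (h.toGeo.h2b_mul (h1 j) hf.1 (h3 j y).1 (h3 j y).2).trans (add_le_add_right
        (mul_le_mul_of_nonneg_right (Real.sqrt_le_sqrt (h5 j y)) (abs_nonneg _)) _)
    have e1 : h.P t (G + fun y => c j * |f y|) z = h.P t G z + c j * h.P t (fun y => |f y|) z := by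
      rw [← h.P_cmul, ← h.P_add i1 i2]
      rfl
    rw [e1] at this
    have := mul_le_mul_of_nonneg_left this he0.le
    linarith
  refine le_of_forall_pos_le_add fun ε hε => ?_
  refine Real.sqrt_le_iff.2 ⟨by positivity, h.Γ_le_of_lip (h.P_S ht hf.2.1) (by positivity) ?_⟩
  obtain ⟨δ, hδ, hz⟩ := Metric.eventually_nhds_iff.1
    ((ca.continuousAt.eventually (gt_mem_nhds (lt_add_of_pos_right (e * h.P t G x) hε))).and
      (cb.continuousAt.eventually (gt_mem_nhds (lt_add_one (e * h.P t (fun y => |f y|) x)))))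
  filter_upwards [ball_mem_nhds x hδ] with y hy
  have t1 := ((lim y).sub (lim x)).abs
  have t2 := ((hc0.mul_const (e * h.P t (fun y => |f y|) x + 1)).const_add (e * h.P t G x + ε)).mul_const
    (dist x y)
  rw [zero_mul, add_zero] at t2
  rw [dist_comm]
  refine le_of_tendsto_of_tendsto' t1 t2 fun j => ?_
  have hcj : 0 ≤ c j := Real.sqrt_nonneg _
  refine h.abs_sub_le_of_Γ (h.P_S ht (nj j).2.1) (by positivity) fun z hz' => ?_
  obtain ⟨z1, z2⟩ := hz (y := z) (by rw [dist_comm]; exact hz'.trans_lt (by rw [dist_comm]; exact hy))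
  refine (Real.sqrt_le_iff.1 ((bd j z).trans ?_)).2
  have := mul_le_mul_of_nonneg_left z2.le hcj
  linarith

theorem HS.ge2 {f : M → ℝ} (hf : h.H1 f) {t : ℝ} (ht : 0 < t) (x : M)
    (hi : Integrable (fun y => h.H t x y * h.Γ f f y) h.m) :
    h.Γ (h.P t f) (h.P t f) x ≤ Real.exp (2 * h.k * t) * h.P t (h.Γ f f) x := by
  have e : (fun y => Real.sqrt (h.Γ f f y) ^ 2) = h.Γ f f := funext fun y => Real.sq_sqrt (h.Γ_nonneg f y)
  have h1 := (h.P_sq_le ht (x := x) (h.toGeo.h2b_L2 hf).1.aestronglyMeasurable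
    (by simpa only [Real.sq_sqrt (h.Γ_nonneg f _)] using hi)).2
  rw [e] at h1
  refine (Real.sqrt_le_iff.1 (h.ge hf ht x)).2.trans ?_
  rw [mul_pow, ← Real.exp_nat_mul, Nat.cast_ofNat, mul_assoc]
  exact mul_le_mul_of_nonneg_left h1 (Real.exp_pos _).le

theorem HS.P_nice {f : M → ℝ} (hf : h.Nice f) {t : ℝ} (ht : 0 < t) : h.Nice (h.P t f) := by
  obtain ⟨h1, B, hB⟩ := hf
  have hΓ : ∀ y, |h.Γ f f y| ≤ B := fun y => by
    rw [abs_of_nonneg (h.Γ_nonneg f y)]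
    exact (hB y).2
  refine ⟨(h.P_H1 ht h1.2.1).1, max B (Real.exp (2 * h.k * t) * B), fun y =>
    ⟨(h.abs_P_le ht y fun z => (hB z).1).trans (le_max_left _ _), ?_⟩⟩
  refine (h.ge2 h1 ht y (h.int_bdd ht y h1.2.2.aestronglyMeasurable hΓ)).trans (le_trans ?_ (le_max_right _ _))
  exact mul_le_mul_of_nonneg_left ((le_abs_self _).trans (h.abs_P_le ht y hΓ)) (Real.exp_pos _).le

theorem HS.h2c_grad {f : M → ℝ} (hf : h.S f) (hc : HasCompactSupport f) {c : ℝ}
    (hb : ∀ y, Real.sqrt (h.Γ f f y) ≤ c) {s t : ℝ} (hs : 0 < s) (hst : s ≤ t) (z : M) :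
    Real.sqrt (h.Γ (h.P s f) (h.P s f) z) ≤ Real.exp (h.k * t) * c := by
  have h1 : h.P s (fun y => Real.sqrt (h.Γ f f y)) z ≤ c :=
    (le_abs_self _).trans (h.abs_P_le hs z fun y => by rw [abs_of_nonneg (Real.sqrt_nonneg _)]; exact hb y)
  exact (h.ge_c hf hc hs z).trans (mul_le_mul (Real.exp_le_exp.2 (mul_le_mul_of_nonneg_left hst h.k_nonneg)) h1
    (h.P_nonneg hs z fun y => Real.sqrt_nonneg _) (Real.exp_pos _).le)

theorem Geo.h2c_lip (g : Geo n M) {f : M → ℝ} (hf : g.S f) {L : ℝ} (hb : ∀ y, Real.sqrt (g.Γ f f y) ≤ L) (x y : M) :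
    |f x - f y| ≤ L * dist y x :=
  g.abs_sub_le_of_Γ hf ((Real.sqrt_nonneg _).trans (hb x)) fun z _ => (Real.sqrt_le_iff.1 (hb z)).2

/-- pointwise convergence at `t = 0` for test functions -/
theorem HS.h2c_pt {f : M → ℝ} (hf : h.S f) (hc : HasCompactSupport f) (x : M) :
    Tendsto (fun s => h.P s f x) (𝓝[>] 0) (𝓝 (f x)) := by
  have := h.fin_cpt
  have := h.open_pos
  obtain ⟨h1, B, hB⟩ := h.H1_of_cs hf hc
  have hb : ∀ y, Real.sqrt (h.Γ f f y) ≤ Real.sqrt B := fun y => Real.sqrt_le_sqrt (hB y).2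
  set L := Real.exp (h.k * 1) * Real.sqrt B + Real.sqrt B + 1 with hL
  have hL0 : 0 < L := by positivity
  refine Metric.tendsto_nhds.2 fun η hη => ?_
  have hρ : 0 < η / 2 / L := by positivity
  have hm : 0 < h.m.real (ball x (η / 2 / L)) :=
    ENNReal.toReal_pos (measure_ball_pos _ _ hρ).ne' measure_ball_lt_top.ne
  filter_upwards [(h.P_zero h1.2.1).eventually (gt_mem_nhds (mul_pos hm (by positivity : 0 < (η / 2) ^ 2))),
    Ioo_mem_nhdsGT one_pos] with s a1 hs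
  by_contra a2
  rw [Real.dist_eq, not_lt] at a2
  refine a1.not_ge ?_
  have i1 : Integrable (fun y => (h.P s f y - f y) ^ 2) h.m :=
    ((h.P_L2 h1.2.1 hs.1).1.sub h1.2.1).integrable_sq
  refine le_trans ?_ (setIntegral_le_integral (s := ball x (η / 2 / L)) i1 (Eventually.of_forall fun y => sq_nonneg _))
  rw [← smul_eq_mul, ← setIntegral_const]
  refine setIntegral_mono_on (integrableOn_const measure_ball_lt_top.ne) i1.integrableOn measurableSet_ball fun y hy => ?_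
  have b1 := h.h2c_lip (h.P_S hs.1 h1.2.1) (h.h2c_grad hf hc hb hs.1 hs.2.le) x y
  have b2 := h.h2c_lip hf hb y x
  have b3 : L * dist y x ≤ η / 2 := by
    rw [← le_div_iff₀' hL0]
    exact (mem_ball.1 hy).le
  have b4 := abs_add_three (h.P s f x - h.P s f y) (h.P s f y - f y) (f y - f x)
  rw [sub_add_sub_cancel, sub_add_sub_cancel] at b4
  rw [dist_comm] at b2
  refine (pow_le_pow_left₀ (by positivity) ?_ 2).trans_eq (sq_abs (h.P s f y - f y))
  rw [hL] at b3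
  linarith [dist_nonneg (x := y) (y := x)]

/-- weak conservation against a test function -/
theorem HS.h2c_weak {f ψ : M → ℝ} (hf : h.S f) (hc : HasCompactSupport f) (hψ : h.S ψ) (hψc : HasCompactSupport ψ)
    {c : ℝ} (hc0 : 0 ≤ c) (hb : ∀ y, Real.sqrt (h.Γ f f y) ≤ c) {t : ℝ} (ht : 0 < t) :
    |∫ y, ψ y * h.P t f y ∂h.m - ∫ y, ψ y * f y ∂h.m| ≤
      (∫ y, Real.sqrt (h.Γ ψ ψ y) ∂h.m) * (Real.exp (h.k * t) * c) * t := by
  obtain ⟨h1, B, hB⟩ := h.H1_of_cs hf hc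
  have cψ := h.S_cont hψ
  have iψ : Integrable (fun y => Real.sqrt (h.Γ ψ ψ y)) h.m :=
    h.int_cs (h.S_cont (h.S_Γ hψ hψ)).sqrt ((h.cs_Γ hψc ψ).comp_left Real.sqrt_zero)
  have t1 : Tendsto (fun a => ∫ y, ψ y * h.P a f y ∂h.m) (𝓝[>] 0) (𝓝 (∫ y, ψ y * f y ∂h.m)) := by
    refine tendsto_integral_filter_of_dominated_convergence (fun y => ‖ψ y‖ * B) ?_ ?_
      ((h.int_cs cψ hψc).norm.mul_const B) (Eventually.of_forall fun y => (h.h2c_pt hf hc y).const_mul _)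
    · filter_upwards [self_mem_nhdsWithin] with a ha
      exact (cψ.mul (h.S_cont (h.P_S ha h1.2.1))).aestronglyMeasurable
    · filter_upwards [self_mem_nhdsWithin] with a ha
      refine Eventually.of_forall fun y => ?_
      rw [norm_mul]
      exact mul_le_mul_of_nonneg_left (h.abs_P_le ha y fun z => (hB z).1) (norm_nonneg _)
  refine le_of_tendsto (tendsto_const_nhds.sub t1).abs ?_
  filter_upwards [Ioo_mem_nhdsGT ht] with a ha
  have hs : Icc a t ⊆ Ioi 0 := fun s hs => ha.1.trans_le hs.1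
  have e := h.ftc isOpen_Ioi (h.P_Sm h1.2.1) ha.2.le hs cψ hψc
  have hK : 0 ≤ (∫ y, Real.sqrt (h.Γ ψ ψ y) ∂h.m) * (Real.exp (h.k * t) * c) :=
    mul_nonneg (integral_nonneg fun y => Real.sqrt_nonneg _)
      (mul_nonneg (Real.exp_pos _).le hc0)
  refine (le_of_eq ((congrArg abs e).trans (Real.norm_eq_abs _).symm)).trans ((intervalIntegral.norm_integral_le_of_norm_le_const
    (C := (∫ y, Real.sqrt (h.Γ ψ ψ y) ∂h.m) * (Real.exp (h.k * t) * c)) fun s hs' => ?_).trans ?_)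
  · rw [uIoc_of_le ha.2.le] at hs'
    have s0 : 0 < s := ha.1.trans hs'.1
    simp only [h.P_heat h1.2.1 s0]
    have e2 := h.ibp hψ (h.P_S s0 h1.2.1) hψc
    rw [← norm_neg]
    refine (le_of_eq (congrArg norm e2.symm)).trans ?_
    rw [← integral_mul_const]
    refine norm_integral_le_of_norm_le (iψ.mul_const _) (Eventually.of_forall fun y => (h.abs_Γ_le _ _ y).trans ?_)
    exact mul_le_mul_of_nonneg_left (h.h2c_grad hf hc hb s0 hs'.2 y) (Real.sqrt_nonneg _)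
  · refine mul_le_mul_of_nonneg_left ?_ hK
    rw [abs_of_nonneg (sub_nonneg.2 ha.2.le)]
    linarith [ha.1]

/-- Conservativeness.  Recipe: for a test `ψ ≥ 0` and `χ = χ_R`: `∫ χ P t ψ - ∫ χ P a ψ = ∫ₐᵗ ∫ χ Δ P s ψ = -∫ₐᵗ∫ Γ(χ, P s ψ)` (`ftc`, `ibp`), bounded by `t √C/R e^{kt} ∫ √Γψ` (`ge_c`, `∫ P s g ≤ ∫ g` for
`g ≥ 0`); `a → 0`, `R → ∞`: `∫ P t ψ = ∫ ψ`, i.e. `∫ ψ(x) (1 - ∫ H t x) = 0`; `x ↦ ∫ H t x` is Lipschitz (limit of `P t χ_R`, gradient `≤ e^{kt}√C/R`), in particular continuous. -/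
theorem HS.int_H {t : ℝ} (ht : 0 < t) (x : M) : ∫ y, h.H t x y ∂h.m = 1 := by
  have := h.fin_cpt
  have := h.open_pos
  obtain ⟨C, hC⟩ := h.cut1 x
  choose χ h1 h2 h3 h4 h5 using fun j : ℕ => hC ((j : ℝ) + 1) (by linarith [(Nat.cast_nonneg j : (0 : ℝ) ≤ j)])
  have ev1 : ∀ y, ∀ᶠ j : ℕ in atTop, χ j y = 1 := fun y => by
    filter_upwards [tendsto_natCast_atTop_atTop.eventually_ge_atTop (dist y x)] with j hj
    exact h4 j y (by linarith)
  have ab : ∀ j y, |χ j y| ≤ 1 := fun j y => by rw [abs_of_nonneg (h3 j y).1]; exact (h3 j y).2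
  set c : ℕ → ℝ := fun j => Real.sqrt (C / ((j : ℝ) + 1) ^ 2) with hc
  have hc0 : Tendsto c atTop (𝓝 0) := by
    have := ((tendsto_one_div_add_atTop_nhds_zero_nat.pow 2).const_mul C).sqrt
    simp only [ne_eq, OfNat.ofNat_ne_zero, not_false_eq_true, zero_pow, mul_zero, Real.sqrt_zero] at this
    refine this.congr fun j => ?_
    simp only [hc]
    rw [div_pow, one_pow, mul_one_div]
  have hb : ∀ j y, Real.sqrt (h.Γ (χ j) (χ j) y) ≤ c j := fun j y => Real.sqrt_le_sqrt (h5 j y)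
  have L2 : ∀ j, MemLp (χ j) 2 h.m := fun j => (h.H1_of_cs (h1 j) (h2 j)).1.2.1
  have lim : ∀ z, Tendsto (fun j => h.P t (χ j) z) atTop (𝓝 (∫ y, h.H t z y ∂h.m)) := fun z => by
    refine tendsto_integral_of_dominated_convergence (fun y => ‖h.H t z y‖)
      (fun j => (h.int_L2 ht z (L2 j)).aestronglyMeasurable) (h.H_int ht z).1.norm
      (fun j => Eventually.of_forall fun y => ?_) (Eventually.of_forall fun y => ?_)
    · rw [norm_mul]
      exact mul_le_of_le_one_right (norm_nonneg _) (ab j y)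
    · exact tendsto_const_nhds.congr' ((ev1 y).mono fun j hj => by simp [hj])
  have cst : ∀ z, ∫ y, h.H t z y ∂h.m = ∫ y, h.H t x y ∂h.m := fun z => by
    have t2 := (hc0.const_mul (Real.exp (h.k * t))).mul_const (dist x z)
    rw [mul_zero, zero_mul] at t2
    exact sub_eq_zero.1 (abs_nonpos_iff.1 (le_of_tendsto_of_tendsto' ((lim z).sub (lim x)).abs t2 fun j =>
      h.h2c_lip (h.P_S ht (L2 j)) (h.h2c_grad (h1 j) (h2 j) (hb j) ht le_rfl) z x))
  obtain ⟨ψ, p1, p2, p3, p4, -⟩ := h.bump x one_pos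
  have cψ := h.S_cont p1
  have iψ := h.int_cs cψ p2
  have pos : 0 < ∫ y, ψ y ∂h.m :=
    cψ.integral_pos_of_hasCompactSupport_nonneg_nonzero p2 (fun y => (p3 y).1) (x := x) (by rw [p4 x (by simp)]; simp)
  have t1 : Tendsto (fun j => ∫ y, ψ y * h.P t (χ j) y ∂h.m) atTop (𝓝 (∫ y, ψ y * ∫ y, h.H t x y ∂h.m ∂h.m)) := by
    refine tendsto_integral_of_dominated_convergence (fun y => ‖ψ y‖)
      (fun j => (cψ.mul (h.S_cont (h.P_S ht (L2 j)))).aestronglyMeasurable) iψ.norm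
      (fun j => Eventually.of_forall fun y => ?_) (Eventually.of_forall fun y => ?_)
    · rw [norm_mul]
      exact mul_le_of_le_one_right (norm_nonneg _) (h.abs_P_le ht y (ab j))
    · exact (cst y ▸ lim y).const_mul _
  have t2 : Tendsto (fun j => ∫ y, ψ y * χ j y ∂h.m) atTop (𝓝 (∫ y, ψ y ∂h.m)) := by
    refine tendsto_integral_of_dominated_convergence (fun y => ‖ψ y‖)
      (fun j => (cψ.mul (h.S_cont (h1 j))).aestronglyMeasurable) iψ.norm
      (fun j => Eventually.of_forall fun y => ?_) (Eventually.of_forall fun y => ?_)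
    · rw [norm_mul]
      exact mul_le_of_le_one_right (norm_nonneg _) (ab j y)
    · exact tendsto_const_nhds.congr' ((ev1 y).mono fun j hj => by simp [hj])
  have t3 := ((hc0.const_mul (Real.exp (h.k * t))).const_mul (∫ y, Real.sqrt (h.Γ ψ ψ y) ∂h.m)).mul_const t
  rw [mul_zero, mul_zero, zero_mul] at t3
  have := sub_eq_zero.1 (abs_nonpos_iff.1 (le_of_tendsto_of_tendsto' (t1.sub t2).abs t3 fun j =>
    h.h2c_weak (h1 j) (h2 j) p1 p2 (Real.sqrt_nonneg _) (hb j) ht))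
  rw [integral_mul_const] at this
  exact (mul_eq_left₀ pos.ne').1 this

theorem HS.P_const {t : ℝ} (ht : 0 < t) (c : ℝ) (x : M) : h.P t (fun _ => c) x = c := by
  simp only [HS.P, kerP]
  rw [integral_mul_const, h.int_H ht, one_mul]

theorem HS.th_pos {t : ℝ} (ht : 0 < t) (x : M) : 0 < h.th t x := by
  rw [h.th_eq ht]
  refine (integral_nonneg fun y => sq_nonneg _).lt_of_ne fun e => ?_
  have h1 := (integral_eq_zero_iff_of_nonneg (fun y => sq_nonneg _) (h.H_L2 (half_pos ht) x).integrable_sq).1 e.symm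
  have h2 := h.int_H (half_pos ht) x
  rw [integral_congr_ae (g := fun _ => 0) (h1.mono fun y hy => pow_eq_zero_iff two_ne_zero |>.1 hy), integral_zero] at h2
  exact zero_ne_one h2

/-- Recipe: for a bump `χ` at `x`, the `P t χ`, `t ≤ 1`, are equi-Lipschitz (`ge_c`) and tend to `χ` in `L²`, so `P t χ x → 1`; hence the mass of `H t x` outside any ball tends to `0`. -/
theorem HS.P_tendsto {F : ℝ → M → ℝ} {x : M} {B ε : ℝ} (hε : 0 < ε)
    (hm : ∀ s ∈ Ioo 0 ε, Continuous (F s)) (hB : ∀ s ∈ Ioo 0 ε, ∀ y, |F s y| ≤ B) {l : ℝ}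
    (hF : Tendsto (fun p : ℝ × M => F p.1 p.2) (𝓝[>] 0 ×ˢ 𝓝 x) (𝓝 l)) :
    Tendsto (fun s => h.P s (F s) x) (𝓝[>] 0) (𝓝 l) := by
  refine Metric.tendsto_nhds.2 fun η hη => ?_
  obtain ⟨p, hp, q, hq, hpq⟩ := eventually_prod_iff.1 (Metric.tendsto_nhds.1 hF _ (half_pos hη))
  obtain ⟨r, hr, hq'⟩ := Metric.eventually_nhds_iff.1 hq
  obtain ⟨χ, c1, c2, c3, c4, c5⟩ := h.bump x hr
  have t1 := ((h.h2c_pt c1 c2 x).const_mul (-(B + |l|))).const_add (η / 2 + (B + |l|))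
  rw [c4 x (by simpa using half_pos hr |>.le)] at t1
  filter_upwards [hp, Ioo_mem_nhdsGT hε, t1.eventually (gt_mem_nhds (show _ < η by linarith))] with s a1 hs a2
  have hB0 : 0 ≤ B + |l| := add_nonneg ((abs_nonneg _).trans (hB s hs x)) (abs_nonneg _)
  have i0 : ∀ a : ℝ, Integrable (fun y => h.H s x y * a) h.m := fun a => (h.H_int hs.1 x).1.mul_const a
  have i1 := h.int_bdd hs.1 x (hm s hs).aestronglyMeasurable (hB s hs)
  have i2 := h.int_L2 hs.1 x ((h.H1_of_cs c1 c2).1.2.1.const_mul (-(B + |l|)))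
  have e1 := h.P_sub i1 (i0 l)
  have e2 := h.P_add (i0 (η / 2 + (B + |l|))) i2
  rw [h.P_const hs.1] at e1 e2
  rw [h.P_cmul] at e2
  rw [Real.dist_eq, ← e1]
  refine (h.abs_P_le_P hs.1 (f' := fun y => η / 2 + (B + |l|) + -(B + |l|) * χ y)
    (((i0 _).add i2).congr (Eventually.of_forall fun y => (mul_add _ _ _).symm)) fun y => ?_).trans_lt (e2 ▸ a2)
  by_cases hy : dist y x < r
  · have := hpq a1 (hq' hy)
    rw [Real.dist_eq] at this
    nlinarith [(c3 y).2]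
  · rw [image_eq_zero_of_notMem_tsupport fun h' => hy (c5 h')]
    linarith [abs_sub (F s y) l, hB s hs y]

/-- Covariance formula on an inner interval: `duh1` with `e = H · x`, `F s = (P (t-s) f)²`, `Q = 2 H Γ(P f)`, `G = 0`; then polarise (`f + f'`, `f`, `f'`). -/
theorem HS.cov_ab {f f' : M → ℝ} (hf : h.Bd f) (hf' : h.Bd f') {a b t : ℝ} (ha : 0 < a) (hab : a ≤ b)
    (hb : b < t) (x : M) :
    IntervalIntegrable (fun s => h.P s (h.Γ (h.P (t - s) f) (h.P (t - s) f')) x) volume a b ∧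
    h.P b (fun y => h.P (t - b) f y * h.P (t - b) f' y) x -
      h.P a (fun y => h.P (t - a) f y * h.P (t - a) f' y) x =
      2 * ∫ s in a..b, h.P s (h.Γ (h.P (t - s) f) (h.P (t - s) f')) x := by
  exact h.h2d_cov_ab hf hf' ha hab hb x

/-- The end points of `cov_ab`. -/
theorem HS.cov_lim {f f' : M → ℝ} (hf : h.Bd f) (hf' : h.Bd f') {t : ℝ} (ht : 0 < t) (x : M) :
    Tendsto (fun b => h.P b (fun y => h.P (t - b) f y * h.P (t - b) f' y) x) (𝓝[<] t)
      (𝓝 (h.P t (fun y => f y * f' y) x)) ∧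
    Tendsto (fun a => h.P a (fun y => h.P (t - a) f y * h.P (t - a) f' y) x) (𝓝[>] 0)
      (𝓝 (h.P t f x * h.P t f' x)) := by
  refine ⟨h.h2d_lim hf hf' ht x, ?_⟩
  obtain ⟨B, hB0, hB, hB'⟩ := hf.h2d_two hf'
  have F1 := h.Sm_mul (h.h2d_rev hf.1 t).1 (h.h2d_rev hf'.1 t).1
  refine h.P_tendsto (F := fun s y => h.P (t - s) f y * h.P (t - s) f' y) (B := B * B) ht
    (fun s hs => h.S_cont (h.Sm_slice F1 hs.2)) (fun s hs y => ?_) ?_
  · rw [abs_mul]
    exact mul_le_mul (h.abs_P_le (sub_pos.2 hs.2) y hB) (h.abs_P_le (sub_pos.2 hs.2) y hB')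
      (abs_nonneg _) hB0
  · have := ((h.Sm_cont F1).continuousAt (x := (0, x))
      ((isOpen_Iio.prod isOpen_univ).mem_nhds ⟨ht, trivial⟩)).tendsto
    rw [nhds_prod_eq] at this
    simpa only [sub_zero] using this.mono_left (prod_mono nhdsWithin_le_nhds le_rfl)

theorem HS.cov {f f' : M → ℝ} (hf : h.Nice f) (hf' : h.Nice f') {t : ℝ} (ht : 0 < t) (x : M) :
    IntervalIntegrable (fun s => h.P s (h.Γ (h.P (t - s) f) (h.P (t - s) f')) x) volume 0 t ∧
    h.P t (fun y => f y * f' y) x - h.P t f x * h.P t f' x =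
      2 * ∫ s in (0 : ℝ)..t, h.P s (h.Γ (h.P (t - s) f) (h.P (t - s) f')) x := by
  have key : ∀ {w : M → ℝ}, h.Nice w → ∃ C, 0 ≤ C ∧ ∀ s ∈ Ioo 0 t, ∀ y,
      h.Γ (h.P (t - s) w) (h.P (t - s) w) y ≤ C := fun {w} hw => by
    obtain ⟨h1, B, hB⟩ := hw
    have hΓ : ∀ y, |h.Γ w w y| ≤ B := fun y => by
      rw [abs_of_nonneg (h.Γ_nonneg w y)]
      exact (hB y).2
    have hB0 : 0 ≤ B := (abs_nonneg _).trans (hΓ x)
    refine ⟨Real.exp (2 * h.k * t) * B, by positivity, fun s hs y => ?_⟩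
    have hs' := sub_pos.2 hs.2
    refine (h.ge2 h1 hs' y (h.int_bdd hs' y h1.2.2.aestronglyMeasurable hΓ)).trans
      (mul_le_mul (Real.exp_le_exp.2 ?_) ((le_abs_self _).trans (h.abs_P_le hs' y hΓ))
        (h.P_nonneg hs' y (h.Γ_nonneg w)) (Real.exp_pos _).le)
    exact mul_le_mul_of_nonneg_left (sub_le_self t hs.1.le) (mul_nonneg zero_le_two h.k_nonneg)
  obtain ⟨C, hC0, hC⟩ := key hf
  obtain ⟨C', hC0', hC'⟩ := key hf'
  obtain ⟨l1, l0⟩ := h.cov_lim hf.bd hf'.bd ht x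
  refine h2d_ends (C := Real.sqrt C * Real.sqrt C') ht (fun s hs => h.abs_P_le hs.1 x fun y => ?_)
    (fun a b ha hab hb => h.cov_ab hf.bd hf'.bd ha hab hb x) l1 l0
  exact (h.abs_Γ_le _ _ y).trans (mul_le_mul (Real.sqrt_le_sqrt (hC s hs y))
    (Real.sqrt_le_sqrt (hC' s hs y)) (Real.sqrt_nonneg _) (Real.sqrt_nonneg _))

theorem HS.h2e_sq {f : M → ℝ} (hf : h.Bd f) {t : ℝ} (ht : 0 < t) (x : M) :
    Integrable (fun y => h.H t x y * f y ^ 2) h.m := by
  obtain ⟨h1, B, hB⟩ := hf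
  refine h.int_bdd ht x (h1.aestronglyMeasurable.pow 2) (B := B ^ 2) fun y => ?_
  rw [abs_pow]
  exact pow_le_pow_left₀ (abs_nonneg _) (hB y) 2

theorem HS.h2e_PP {f : M → ℝ} (hf : MemLp f 2 h.m) {s t : ℝ} (hs : 0 < s) (hst : s < t) :
    h.P s (h.P (t - s) f) = h.P t f := funext fun x => by
  rw [(h.P_P hs (sub_pos.2 hst) hf.aestronglyMeasurable (h.int_L2 (by linarith) x hf)).2, add_sub_cancel]

theorem HS.h2e_rev {f : M → ℝ} (hf : h.Bd f) (hn : ∀ r, 0 < r → h.Nice (h.P r f)) {t : ℝ} (ht : 0 < t) (x : M) :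
    2 * t * h.Γ (h.P t f) (h.P t f) x ≤ Real.exp (2 * h.k * t) * h.P t (fun y => f y ^ 2) x := by
  have hm := hf.1.aestronglyMeasurable
  have he := Real.exp_pos (2 * h.k * t)
  have key : ∀ ε ∈ Ioo 0 (t / 2), 2 * (t - ε - ε) * h.Γ (h.P t f) (h.P t f) x ≤
      Real.exp (2 * h.k * t) * h.P t (fun y => f y ^ 2) x := by
    intro ε hε
    have hb : 0 < t - ε := by linarith [hε.2]
    obtain ⟨c1, c2⟩ := h.cov_ab hf hf hε.1 (show ε ≤ t - ε by linarith [hε.2]) (sub_lt_self t hε.1) x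
    have a1 := intervalIntegral.integral_mono_on (f := fun _ => h.Γ (h.P t f) (h.P t f) x)
      (show ε ≤ t - ε by linarith [hε.2]) intervalIntegrable_const (c1.const_mul (Real.exp (2 * h.k * t)))
      fun s hs => by
        have hs0 : 0 < s := hε.1.trans_le hs.1
        have hst : s < t := by linarith [hs.2, hε.1]
        have n1 := hn _ (sub_pos.2 hst)
        have := h.ge2 n1.1 hs0 x (h.int_L2 hs0 x (n1.Γ_bd n1).1)
        rw [h.h2e_PP hf.1 hs0 hst] at this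
        refine this.trans (mul_le_mul_of_nonneg_right (Real.exp_le_exp.2 ?_) (h.P_nonneg hs0 x (h.Γ_nonneg _)))
        exact mul_le_mul_of_nonneg_left hst.le (mul_nonneg zero_le_two h.k_nonneg)
    rw [intervalIntegral.integral_const, intervalIntegral.integral_const_mul, smul_eq_mul] at a1
    have a2 := h.P_nonneg hε.1 x (f := fun y => h.P (t - ε) f y * h.P (t - ε) f y) fun y => mul_self_nonneg _
    rw [sub_sub_cancel] at c2
    have a3 := h.P_P hb hε.1 (hm.pow 2) (h.h2e_sq hf (add_pos hb hε.1) x)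
    rw [sub_add_cancel] at a3
    have a4 := (h.P_mono hb (h.h2e_sq (hn _ hε.1).bd hb x) a3.1 fun y =>
      (h.P_sq_le hε.1 hm (h.h2e_sq hf hε.1 y)).2).trans_eq a3.2
    simp only [← sq] at c2 a2
    have a5 : 2 * ∫ s in ε..t - ε, h.P s (h.Γ (h.P (t - s) f) (h.P (t - s) f)) x ≤ h.P t (fun y => f y ^ 2) x := by
      rw [← c2]; exact (sub_le_self _ a2).trans a4
    nlinarith [mul_le_mul_of_nonneg_left a5 he.le]
  have hc : Continuous fun ε : ℝ => 2 * (t - ε - ε) * h.Γ (h.P t f) (h.P t f) x := by fun_prop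
  have := le_of_tendsto ((hc.tendsto 0).mono_left (nhdsWithin_le_nhds (s := Ioi 0)))
    (eventually_of_mem (Ioo_mem_nhdsGT (half_pos ht)) key)
  simpa using this

theorem HS.h2e_lim {χ : ℕ → M → ℝ} {o : M} (hc : ∀ j, h.S (χ j)) (h3 : ∀ j y, 0 ≤ χ j y ∧ χ j y ≤ 1)
    (h4 : ∀ (j : ℕ) y, dist y o ≤ (j : ℝ) + 1 → χ j y = 1) {t : ℝ} {z : M} {f : M → ℝ}
    (hf : Integrable (fun y => h.H t z y * f y) h.m) (k : ℕ) :
    Tendsto (fun j => h.P t (fun y => χ j y ^ k * f y) z) atTop (𝓝 (h.P t f z)) := by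
  refine tendsto_integral_of_dominated_convergence (fun y => ‖h.H t z y * f y‖)
    (fun j => ?_) hf.norm (fun j => Eventually.of_forall fun y => ?_) (Eventually.of_forall fun y => ?_)
  · simp only [mul_left_comm _ (χ j _ ^ k)]
    exact ((h.S_cont (hc j)).pow k).aestronglyMeasurable.mul hf.aestronglyMeasurable
  · rw [mul_left_comm, norm_mul, Real.norm_of_nonneg (pow_nonneg (h3 j y).1 k)]
    exact mul_le_of_le_one_left (norm_nonneg _) (pow_le_one₀ (h3 j y).1 (h3 j y).2)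
  · refine tendsto_const_nhds.congr' ?_
    filter_upwards [tendsto_natCast_atTop_atTop.eventually_ge_atTop (dist y o)] with j hj
    rw [h4 j y (by linarith), one_pow, one_mul]

theorem HS.h2e_nice {f : M → ℝ} (hf : h.Bd f) {t : ℝ} (ht : 0 < t) : h.Nice (h.P t f) := by
  obtain ⟨h0, B, hB⟩ := hf
  have ht2 := half_pos ht
  have hF := (h.P_H1 ht2 h0).1
  have hFB : ∀ y, |h.P (t / 2) f y| ≤ B := fun y => h.abs_P_le ht2 y hB
  set L := Real.sqrt (Real.exp (2 * h.k * (t / 2)) * B ^ 2 / (2 * (t / 2))) with hL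
  refine ⟨(h.P_H1 ht h0).1, max B (L ^ 2), fun x => ⟨(h.abs_P_le ht x hB).trans (le_max_left _ _),
    le_max_of_le_right (h.Γ_le_of_lip (h.P_S ht h0) (Real.sqrt_nonneg _) (Eventually.of_forall fun y => ?_))⟩⟩
  obtain ⟨C, hC⟩ := h.cut1 x
  choose χ h1 h2 h3 h4 h5 using fun j : ℕ => hC ((j : ℝ) + 1) (by linarith [(Nat.cast_nonneg j : (0 : ℝ) ≤ j)])
  have nj : ∀ j, h.Nice fun z => χ j z * h.P (t / 2) f z := fun j =>
    h.H1_of_cs (h.S_mul (h1 j) hF.1) (h2 j).mul_right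
  have e := h.h2e_PP h0 ht2 (half_lt_self ht)
  rw [sub_half] at e
  have lim := fun z => h.h2e_lim h1 h3 h4 (h.int_L2 ht2 z hF.2.1) 1
  simp only [pow_one, e] at lim
  refine le_of_tendsto' ((lim y).sub (lim x)).abs fun j => ?_
  rw [dist_comm]
  refine h.abs_sub_le_of_Γ (h.P_S ht2 (nj j).1.2.1) (Real.sqrt_nonneg _) fun z _ => ?_
  rw [hL, Real.sq_sqrt (by positivity), le_div_iff₀ (by positivity), mul_comm]
  refine (h.h2e_rev (nj j).bd (fun r hr => h.P_nice (nj j) hr) ht2 z).trans (mul_le_mul_of_nonneg_left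
    ((le_abs_self _).trans (h.abs_P_le ht2 z fun w => ?_)) (Real.exp_pos _).le)
  rw [abs_pow, abs_mul, abs_of_nonneg (h3 j w).1]
  exact pow_le_pow_left₀ (mul_nonneg (h3 j w).1 (abs_nonneg _))
    ((mul_le_of_le_one_left (abs_nonneg _) (h3 j w).2).trans (hFB w)) 2

/-- Reverse Poincaré inequality.  In `cov_ab` the integrand needs `Integrable (H s x * Γ)` for `ge2`; it holds for a.e. `s` (`duh1` gives `STI`), or bound first `√Γ` by `ge` and
`P_sq_le` in the `lintegral` form. -/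
theorem HS.rev_poincare {f : M → ℝ} (hf : h.Bd f) {t : ℝ} (ht : 0 < t) (x : M) :
    2 * t * h.Γ (h.P t f) (h.P t f) x ≤ Real.exp (2 * h.k * t) * h.P t (fun y => f y ^ 2) x := by
  exact h.h2e_rev hf (fun r hr => h.h2e_nice hf hr) ht x

theorem HS.P_nice_bd {f : M → ℝ} (hf : h.Bd f) {t : ℝ} (ht : 0 < t) : h.Nice (h.P t f) := by
  exact h.h2e_nice hf ht

theorem HS.h2e_poin {f : M → ℝ} (hf : h.Nice f) {t : ℝ} (ht : 0 < t) (x : M) :
    h.P t (fun y => f y ^ 2) x - h.P t f x ^ 2 ≤ 2 * t * Real.exp (2 * h.k * t) * h.P t (h.Γ f f) x := by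
  obtain ⟨c1, c2⟩ := h.cov hf hf ht x
  have hΓ := (hf.Γ_bd hf).1
  have a1 := intervalIntegral.integral_mono_on_of_le_Ioo (g := fun _ => Real.exp (2 * h.k * t) * h.P t (h.Γ f f) x)
    ht.le c1 intervalIntegrable_const fun s hs => by
      have hr := sub_pos.2 hs.2
      have n1 := h.P_nice hf hr
      rw [← h.h2e_PP hΓ hs.1 hs.2, ← h.P_cmul]
      refine h.P_mono hs.1 (h.int_L2 hs.1 x (n1.Γ_bd n1).1) (h.int_L2 hs.1 x ((h.P_H1 hr hΓ).1.2.1.const_mul _))
        fun y => (h.ge2 hf.1 hr y (h.int_L2 hr y hΓ)).trans (mul_le_mul_of_nonneg_right (Real.exp_le_exp.2 ?_)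
          (h.P_nonneg hr y (h.Γ_nonneg _)))
      exact mul_le_mul_of_nonneg_left (sub_le_self _ hs.1.le) (mul_nonneg zero_le_two h.k_nonneg)
  rw [intervalIntegral.integral_const, smul_eq_mul, sub_zero] at a1
  simp only [← sq] at c2
  linarith

/-- Poincaré inequality for `H t x`: `cov` + `ge2` for `χ_R f`, then `R → ∞`. -/
theorem HS.poincare {f : M → ℝ} (hf : h.S f) {t : ℝ} (ht : 0 < t) (x : M)
    (h₁ : Integrable (fun y => h.H t x y * f y ^ 2) h.m)
    (h₂ : Integrable (fun y => h.H t x y * h.Γ f f y) h.m) :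
    h.P t (fun y => f y ^ 2) x - h.P t f x ^ 2 ≤ 2 * t * Real.exp (2 * h.k * t) * h.P t (h.Γ f f) x := by
  obtain ⟨C, hC⟩ := h.cut1 x
  choose χ h1 h2 h3 h4 h5 using fun j : ℕ => hC ((j : ℝ) + 1) (by linarith [(Nat.cast_nonneg j : (0 : ℝ) ≤ j)])
  have nj : ∀ j, h.Nice fun z => χ j z * f z := fun j => h.H1_of_cs (h.S_mul (h1 j) hf) (h2 j).mul_right
  have l1 := h.h2e_lim h1 h3 h4 (h.P_sq_le ht (h.S_cont hf).aestronglyMeasurable h₁).1 1
  have l2 := h.h2e_lim h1 h3 h4 h₁ 2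
  simp only [pow_one, ← mul_pow] at l1 l2
  have l3 : Tendsto (fun j => h.P t (h.Γ (fun z => χ j z * f z) fun z => χ j z * f z) x) atTop
      (𝓝 (h.P t (h.Γ f f) x)) := by
    refine tendsto_integral_of_dominated_convergence
      (fun y => 2 * (h.H t x y * h.Γ f f y) + 2 * |C| * (h.H t x y * f y ^ 2))
      (fun j => (h.int_L2 ht x ((nj j).Γ_bd (nj j)).1).aestronglyMeasurable)
      ((h₂.const_mul _).add (h₁.const_mul _)) (fun j => Eventually.of_forall fun y => ?_)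
      (Eventually.of_forall fun y => ?_)
    · have b0 := h.H_nonneg ht x y
      have b1 := (Real.sqrt_le_iff.1 (h.toGeo.h2b_mul (h1 j) hf (h3 j y).1 (h3 j y).2)).2
      have b2 : h.Γ (χ j) (χ j) y ≤ |C| := (h5 j y).trans ((div_le_div_of_nonneg_right (le_abs_self C)
        (by positivity)).trans (div_le_self (abs_nonneg _) (one_le_pow₀ (by linarith [(Nat.cast_nonneg j : (0 : ℝ) ≤ j)]))))
      have b3 := Real.sq_sqrt (h.Γ_nonneg f y)
      have b4 : (Real.sqrt (h.Γ (χ j) (χ j) y) * |f y|) ^ 2 ≤ |C| * f y ^ 2 := by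
        rw [mul_pow, Real.sq_sqrt (h.Γ_nonneg _ y), sq_abs]
        exact mul_le_mul_of_nonneg_right b2 (sq_nonneg _)
      rw [Real.norm_of_nonneg (mul_nonneg b0 (h.Γ_nonneg _ y))]
      have b5 : h.Γ (fun z => χ j z * f z) (fun z => χ j z * f z) y ≤ 2 * h.Γ f f y + 2 * (|C| * f y ^ 2) := by
        nlinarith [sq_nonneg (Real.sqrt (h.Γ f f y) - Real.sqrt (h.Γ (χ j) (χ j) y) * |f y|)]
      linarith [mul_le_mul_of_nonneg_left b5 b0]
    · refine tendsto_const_nhds.congr' ?_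
      filter_upwards [tendsto_natCast_atTop_atTop.eventually_ge_atTop (dist y x)] with j hj
      have : (fun z => χ j z * f z) =ᶠ[𝓝 y] f := by
        filter_upwards [ball_mem_nhds y one_pos] with z hz
        rw [h4 j z (by linarith [dist_triangle z y x, mem_ball.1 hz]), one_mul]
      simp only [Raw.Γ, h.grad_congr this]
  exact le_of_tendsto_of_tendsto' (l2.sub (l1.pow 2)) (l3.const_mul _) fun j => h.h2e_poin (nj j) ht x

theorem HS.h2f_pt {f f' : M → ℝ} (hf : h.H1 f) (hf' : h.Bd f') (h2 : ∀ y, |f' y| ≤ 2) {s t : ℝ}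
    (hs : 0 < s) (hst : s < t) (x : M) :
    h.P s (h.Γ (h.P (t - s) f) (h.P (t - s) f')) x ≤
      2 * Real.exp (2 * h.k * t) * h.P t (fun y => Real.sqrt (h.Γ f f y)) x * (1 / Real.sqrt (t - s)) := by
  obtain ⟨hGc, hG⟩ := h.toGeo.h2b_L2 hf
  set G : M → ℝ := fun y => Real.sqrt (h.Γ f f y) with hGd
  have hr : 0 < t - s := sub_pos.2 hst
  have hsq : 0 < Real.sqrt (t - s) := Real.sqrt_pos.2 hr
  obtain ⟨i1, e1⟩ := h.P_P hs hr (x := x) hGc.aestronglyMeasurable (h.int_L2 (by linarith) x hG)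
  rw [add_sub_cancel] at e1
  set c := 2 * Real.exp (2 * h.k * t) * (1 / Real.sqrt (t - s)) with hc
  have i2 : Integrable (fun y => h.H s x y * (c * h.P (t - s) G y)) h.m :=
    (i1.const_mul c).congr (Eventually.of_forall fun y => by simp only; ring)
  have key : ∀ y, |h.Γ (h.P (t - s) f) (h.P (t - s) f') y| ≤ c * h.P (t - s) G y := fun y => by
    have a1 := h.ge hf hr y
    have a2 := h.rev_poincare hf' hr y
    have a3 : h.P (t - s) (fun z => f' z ^ 2) y ≤ 4 := (le_abs_self _).trans (h.abs_P_le hr y fun z => by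
      rw [abs_pow]; nlinarith [h2 z, abs_nonneg (f' z)])
    have a4 : Real.exp (2 * h.k * (t - s)) = Real.exp (h.k * (t - s)) ^ 2 := by
      rw [← Real.exp_nat_mul]; congr 1; push_cast; ring
    have a5 : Real.sqrt (h.Γ (h.P (t - s) f') (h.P (t - s) f') y) ≤
        Real.exp (h.k * (t - s)) * 2 / Real.sqrt (t - s) := by
      refine Real.sqrt_le_iff.2 ⟨by positivity, ?_⟩
      rw [div_pow, Real.sq_sqrt hr.le, le_div_iff₀ hr, mul_pow, ← a4]
      have := mul_le_mul_of_nonneg_left a3 (Real.exp_pos (2 * h.k * (t - s))).le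
      have := mul_nonneg hr.le (h.Γ_nonneg (h.P (t - s) f') y)
      nlinarith
    have a6 : 0 ≤ h.P (t - s) G y := h.P_nonneg hr y fun z => Real.sqrt_nonneg _
    have a7 : Real.exp (2 * h.k * (t - s)) ≤ Real.exp (2 * h.k * t) :=
      Real.exp_le_exp.2 (by nlinarith [h.k_nonneg])
    calc _ ≤ _ := h.abs_Γ_le _ _ y
      _ ≤ (Real.exp (h.k * (t - s)) * h.P (t - s) G y) *
          (Real.exp (h.k * (t - s)) * 2 / Real.sqrt (t - s)) :=
        mul_le_mul a1 a5 (Real.sqrt_nonneg _) (by positivity)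
      _ = 2 * Real.exp (2 * h.k * (t - s)) * (1 / Real.sqrt (t - s)) * h.P (t - s) G y := by
        rw [a4]; ring
      _ ≤ _ := by rw [hc]; gcongr
  refine (le_abs_self _).trans ((h.abs_P_le_P hs i2 key).trans_eq ?_)
  rw [h.P_cmul, e1, hc]
  ring

theorem HS.h2f_ab {f f' : M → ℝ} (hf : h.H1 f) (hb : h.Bd f) (hf' : h.Bd f') (h2 : ∀ y, |f' y| ≤ 2)
    {a b t : ℝ} (ha : 0 < a) (hab : a ≤ b) (hbt : b < t) (x : M) :
    h.P b (fun y => h.P (t - b) f y * h.P (t - b) f' y) x -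
      h.P a (fun y => h.P (t - a) f y * h.P (t - a) f' y) x ≤
      8 * Real.sqrt t * Real.exp (2 * h.k * t) * h.P t (fun y => Real.sqrt (h.Γ f f y)) x := by
  obtain ⟨i1, e1⟩ := h.cov_ab hb hf' ha hab hbt x
  set K := 2 * Real.exp (2 * h.k * t) * h.P t (fun y => Real.sqrt (h.Γ f f y)) x with hK
  have hK0 : 0 ≤ K := mul_nonneg (by positivity)
    (h.P_nonneg (by linarith) x fun z => Real.sqrt_nonneg _)
  have hc : ContinuousOn (fun s => 1 / Real.sqrt (t - s)) (uIcc a b) := by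
    refine continuousOn_const.div (by fun_prop) fun s hs => (Real.sqrt_pos.2 ?_).ne'
    rw [uIcc_of_le hab] at hs
    linarith [hs.2]
  have hd : ∀ s ∈ uIcc a b, HasDerivAt (fun s => -2 * Real.sqrt (t - s)) (1 / Real.sqrt (t - s)) s := by
    intro s hs
    rw [uIcc_of_le hab] at hs
    have hr : 0 < t - s := by linarith [hs.2]
    have := (((hasDerivAt_id s).const_sub t).sqrt hr.ne').const_mul (-2)
    refine this.congr_deriv ?_
    have := (Real.sqrt_pos.2 hr).ne'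
    simp only [id]
    field_simp
  have e2 := intervalIntegral.integral_eq_sub_of_hasDerivAt hd hc.intervalIntegrable
  have m1 := intervalIntegral.integral_mono_on hab i1 (hc.intervalIntegrable.const_mul K)
    fun s hs => h.h2f_pt hf hf' h2 (ha.trans_le hs.1) (hs.2.trans_lt hbt) x
  rw [intervalIntegral.integral_const_mul, e2] at m1
  have m2 : Real.sqrt (t - a) ≤ Real.sqrt t := Real.sqrt_le_sqrt (by linarith)
  have m3 := Real.sqrt_nonneg (t - b)
  have m4 : K * (-2 * Real.sqrt (t - b) - -2 * Real.sqrt (t - a)) ≤ K * (2 * Real.sqrt t) :=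
    mul_le_mul_of_nonneg_left (by linarith) hK0
  rw [e1]
  calc _ ≤ 2 * (K * (2 * Real.sqrt t)) := by linarith
    _ = _ := by rw [hK]; ring

theorem HS.h2f_cov {f f' : M → ℝ} (hf : h.H1 f) (hb : h.Bd f) (hf' : h.Bd f') (h2 : ∀ y, |f' y| ≤ 2)
    {t : ℝ} (ht : 0 < t) (x : M) :
    h.P t (fun y => f y * f' y) x - h.P t f x * h.P t f' x ≤
      8 * Real.sqrt t * Real.exp (2 * h.k * t) * h.P t (fun y => Real.sqrt (h.Γ f f y)) x := by
  obtain ⟨l1, l2⟩ := h.cov_lim hb hf' ht x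
  refine le_of_tendsto (l2.const_sub _) ?_
  filter_upwards [Ioo_mem_nhdsGT ht] with a ha
  refine le_of_tendsto (l1.sub_const _) ?_
  filter_upwards [Ioo_mem_nhdsLT ha.2] with b hb'
  exact h.h2f_ab hf hb hf' h2 ha.1 hb'.1.le hb'.2 x

/-- `L¹` Poincaré inequality.  Recipe: `cov_ab`, `cov_lim` with `f' = θ_δ(f - c) - θ_δ(-c)`, `θ_δ r = r/√(r²+δ²)`, `c = P t f x`; `|Γ(P f, P f')| ≤ e^{k(t-s)} P_{t-s}√Γf · e^{k(t-s)} 2/√(2(t-s))`
(`ge`, `rev_poincare`). -/
theorem HS.poincare1 {f : M → ℝ} (hf : h.H1 f) (hb : h.Bd f) {t : ℝ} (ht : 0 < t) (x : M) :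
    h.P t (fun y => |f y - h.P t f x|) x ≤
      8 * Real.sqrt t * Real.exp (2 * h.k * t) * h.P t (fun y => Real.sqrt (h.Γ f f y)) x := by
  refine le_of_forall_pos_le_add fun δ hδ => ?_
  set c := h.P t f x with hc
  let θ : ℝ → ℝ := fun r => max (-1) (min 1 (r / δ))
  have θ1 : ∀ r, |θ r| ≤ 1 := fun r =>
    abs_le.2 ⟨le_max_left _ _, max_le (by norm_num) (min_le_left _ _)⟩
  have θc : Continuous θ := by fun_prop
  have θl : ∀ r s, |θ r - θ s| ≤ |r - s| / δ := fun r s => by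
    simp only [θ, max_comm (-1 : ℝ)]
    refine (abs_max_sub_max_le_abs _ _ _).trans ((abs_min_sub_min_le_max _ _ _ _).trans ?_)
    rw [sub_self, abs_zero, ← sub_div, abs_div, abs_of_pos hδ]
    exact max_le (by positivity) le_rfl
  have θm : ∀ r, |r| ≤ r * θ r + δ := fun r => by
    simp only [θ]
    rcases le_total 0 r with hr | hr
    · rw [abs_of_nonneg hr]
      have : 0 ≤ r / δ := by positivity
      rw [max_eq_right (le_min (by norm_num) (by linarith))]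
      rcases le_total 1 (r / δ) with h1 | h1
      · rw [min_eq_left h1]; linarith
      · rw [min_eq_right h1]
        have := (div_le_one hδ).1 h1
        nlinarith
    · rw [abs_of_nonpos hr]
      have : r / δ ≤ 0 := div_nonpos_of_nonpos_of_nonneg hr hδ.le
      rw [min_eq_right (by linarith)]
      rcases le_total (-1) (r / δ) with h1 | h1
      · rw [max_eq_right h1]
        have := (le_div_iff₀ hδ).1 h1
        nlinarith
      · rw [max_eq_left h1]; linarith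
  have fc : Continuous f := h.S_cont hf.1
  obtain ⟨B, hB⟩ := hb.2
  let f' : M → ℝ := fun y => θ (f y - c) - θ (-c)
  have f'c : Continuous f' := by fun_prop
  have h2 : ∀ y, |f' y| ≤ 2 := fun y => (abs_sub _ _).trans (by linarith [θ1 (f y - c), θ1 (-c)])
  have hf' : h.Bd f' := by
    refine ⟨(hf.2.1.const_mul δ⁻¹).of_le f'c.aestronglyMeasurable (Eventually.of_forall fun y => ?_), 2, h2⟩
    have := θl (f y - c) (-c)
    rw [show f y - c - -c = f y by ring] at this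
    rw [Real.norm_eq_abs, Real.norm_eq_abs, abs_mul, abs_inv, abs_of_pos hδ, ← div_eq_inv_mul]
    exact this
  have k1 := h.h2f_cov hf hb hf' h2 ht x
  have i0 : ∀ r : ℝ, Integrable (fun y => h.H t x y * r) h.m := fun r => (h.H_int ht x).1.mul_const r
  have i1 := h.int_L2 ht x hf.2.1
  have i2 := h.int_L2 ht x hf'.1
  have i3 : Integrable (fun y => h.H t x y * (f y * f' y)) h.m :=
    h.int_bdd ht x (fc.mul f'c).aestronglyMeasurable (B := B * 2) fun y => by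
      rw [abs_mul]
      exact mul_le_mul (hB y) (h2 y) (abs_nonneg _) ((abs_nonneg _).trans (hB y))
  have i4 : Integrable (fun y => h.H t x y * |f y - c|) h.m :=
    h.int_bdd ht x (by fun_prop : Continuous fun y => |f y - c|).aestronglyMeasurable (B := B + |c|)
      fun y => by rw [abs_abs]; exact (abs_sub _ _).trans (by linarith [hB y])
  have i5 : Integrable (fun y => h.H t x y * (c * f' y)) h.m :=
    (i2.const_mul c).congr (Eventually.of_forall fun y => by simp only; ring)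
  have i6 : Integrable (fun y => h.H t x y * (θ (-c) * f y)) h.m :=
    (i1.const_mul (θ (-c))).congr (Eventually.of_forall fun y => by simp only; ring)
  have i7 : Integrable (fun y => h.H t x y * (f y * f' y - c * f' y)) h.m :=
    (i3.sub i5).congr (Eventually.of_forall fun y => by simp only [Pi.sub_apply]; ring)
  have i8 : Integrable (fun y => h.H t x y * (θ (-c) * f y + (δ - θ (-c) * c))) h.m :=
    (i6.add (i0 (δ - θ (-c) * c))).congr (Eventually.of_forall fun y => by simp only [Pi.add_apply]; ring)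
  have k2 := h.P_mono ht i4 ((i7.add i8).congr (Eventually.of_forall fun y =>
    (mul_add _ _ _).symm)) fun y => by
      have := θm (f y - c)
      simp only [f']
      nlinarith
  rw [h.P_add i7 i8, h.P_sub i3 i5, h.P_add i6 (i0 _), h.P_cmul, h.P_cmul, h.P_const ht, ← hc] at k2
  linarith

theorem Geo.h2g_STI (g : Geo n M) {I : Set ℝ} {a b C B : ℝ} (hs : Icc a b ⊆ I) {Q A A' : ℝ → M → ℝ}
    (hQ : ContinuousOn (fun p : ℝ × M => Q p.1 p.2) (I ×ˢ univ)) (hC : 0 ≤ C)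
    (hA : ∀ s ∈ Icc a b, Integrable (A s) g.m ∧ Integrable (A' s) g.m ∧ ∫ y, A s y ∂g.m ≤ B ∧
      ∫ y, A' s y ∂g.m ≤ B ∧ ∀ y, |Q s y| ≤ C * (A s y + A' s y)) : g.STI a b Q := by
  refine g.STI_of_bound (B := C * (B + B)) hs hQ fun s hs' => ?_
  obtain ⟨a1, a2, a3, a4, a5⟩ := hA s hs'
  have c : Continuous (Q s) :=
    hQ.comp_continuous (f := fun y : M => (s, y)) (by fun_prop) fun y => ⟨hs hs', trivial⟩
  have i1 : Integrable (fun y => C * (A s y + A' s y)) g.m := (a1.add a2).const_mul C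
  have i2 : Integrable (Q s) g.m := i1.mono' c.aestronglyMeasurable (Eventually.of_forall a5)
  refine ⟨i2, (integral_mono i2.abs i1 a5).trans ?_⟩
  rw [integral_const_mul, integral_add a1 a2]
  exact mul_le_mul_of_nonneg_left (add_le_add a3 a4) hC

theorem HS.h2g_bd {f : M → ℝ} (hf : h.Nice f) (t : ℝ) : ∃ B, 0 ≤ B ∧ ∀ s, 0 < s → s ≤ t → ∀ y,
    h.Γ (h.P s f) (h.P s f) y ≤ B ^ 2 := by
  obtain ⟨h1, B, hB⟩ := hf
  have hΓ : ∀ y, |h.Γ f f y| ≤ |B| := fun y => by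
    rw [abs_of_nonneg (h.Γ_nonneg f y)]
    exact (hB y).2.trans (le_abs_self B)
  refine ⟨Real.sqrt (Real.exp (2 * h.k * t) * |B|), Real.sqrt_nonneg _, fun s hs hst y => ?_⟩
  rw [Real.sq_sqrt (by positivity)]
  refine (h.ge2 h1 hs y (h.int_bdd hs y h1.2.2.aestronglyMeasurable hΓ)).trans ?_
  have := h.k_nonneg
  refine (mul_le_mul_of_nonneg_left ((le_abs_self _).trans (h.abs_P_le hs y hΓ)) (Real.exp_pos _).le).trans ?_
  gcongr

theorem HS.h2g_int {f : M → ℝ} (hf : h.Nice f) {t : ℝ} (ht : 0 < t) (x : M) :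
    Integrable (fun y => h.H t x y * h.Γ f f y) h.m := by
  obtain ⟨h1, B, hB⟩ := hf
  exact h.int_bdd ht x h1.2.2.aestronglyMeasurable (B := B) fun y => by
    rw [abs_of_nonneg (h.Γ_nonneg f y)]
    exact (hB y).2

/-- Monotonicity formula: `duh1` with `e = H · x`, `F s = e^{2ks} Γ(P (t-s) f, P (t-s) f)` (`bw_Γ`, `Γ2_int`, `unif_L2`, `sqrt_Γ_Γ_le`). -/
theorem HS.mono_Γ {f : M → ℝ} (hf : h.Nice f) {a b t : ℝ} (ha : 0 < a) (hab : a ≤ b) (hb : b < t)
    (x : M) : h.STI a b (fun s y => h.H s x y * h.Γ2 (h.P (t - s) f) (h.P (t - s) f) y) ∧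
    Real.exp (2 * h.k * b) * h.P b (h.Γ (h.P (t - b) f) (h.P (t - b) f)) x -
      Real.exp (2 * h.k * a) * h.P a (h.Γ (h.P (t - a) f) (h.P (t - a) f)) x =
      2 * ∫ s in a..b, Real.exp (2 * h.k * s) * h.P s (h.Γ2 (h.P (t - s) f) (h.P (t - s) f)) x := by
  have hk := h.k_nonneg
  have hs : Icc a b ⊆ Ioo 0 t := fun s hs => ⟨ha.trans_le hs.1, hs.2.trans_lt hb⟩
  obtain ⟨r1, r2⟩ := h.Sm_rev (h.P_Sm hf.1.2.1) t
  have hu : h.Sm (Ioo 0 t) fun s => h.P (t - s) f := h.Sm_mono r1 Ioo_subset_Iio_self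
  have he : h.Sm (Ioo 0 t) fun s => h.H s x := h.Sm_mono (h.H_Sm x) Ioo_subset_Ioi_self
  have hE : h.Sm (Ioo 0 t) fun s _ => Real.exp (2 * h.k * s) := h.Sm_time (by fun_prop)
  have hΓ := h.Sm_Γ isOpen_Ioo hu hu
  have hΓ2 := h.Sm_Γ2 isOpen_Ioo hu hu
  have hF := h.Sm_mul hE hΓ
  obtain ⟨B, B0, hB⟩ := h.h2g_bd hf t
  obtain ⟨B₁, hB₁⟩ := h.unif_H ha x
  obtain ⟨B₂, hB₂⟩ := h.unif_L2 hf.1.2.1 (sub_pos.2 hb)
  have nu : ∀ s ∈ Ioo 0 t, h.Nice (h.P (t - s) f) := fun s hs => h.P_nice hf (sub_pos.2 hs.2)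
  have hi : ∀ s ∈ Ioo 0 t, Integrable (fun y => h.H s x y *
      (Real.exp (2 * h.k * s) * h.Γ (h.P (t - s) f) (h.P (t - s) f) y)) h.m := fun s hs =>
    ((h.h2g_int (nu s hs) hs.1 x).const_mul (Real.exp (2 * h.k * s))).congr
      (Eventually.of_forall fun y => mul_left_comm _ _ _)
  have sb : ∀ s ∈ Ioo 0 t, ∀ y, Real.sqrt (h.Γ (h.P (t - s) f) (h.P (t - s) f) y) ≤ B := fun s hs y =>
    Real.sqrt_le_iff.2 ⟨B0, hB _ (sub_pos.2 hs.2) (by linarith [hs.1]) y⟩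
  obtain ⟨k1, k2⟩ := h.duh1 (G := fun _ _ => 0) (Q := fun s y => h.H s x y *
      (2 * Real.exp (2 * h.k * s) * h.Γ2 (h.P (t - s) f) (h.P (t - s) f) y)) isOpen_Ioo he hF hab hs
    (hi a (hs ⟨le_rfl, hab⟩)) (hi b (hs ⟨hab, le_rfl⟩))
    (h.h2g_STI (C := Real.exp (2 * h.k * t) * B) (B := max B₁ (2 * B₂ + 2 * h.k * B₂))
      (A := fun s y => h.H s x y ^ 2) (A' := fun s => h.Γ2 (h.P (t - s) f) (h.P (t - s) f)) hs
      ((h.Sm_cont he).abs.mul (h.Sm_cont (h.Sm_Γ isOpen_Ioo hF hF)).sqrt) (by positivity) fun s hs' => by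
        have s1 := hs hs'
        have su := (nu s s1).1.1
        obtain ⟨c1, c2⟩ := h.Γ2_int su (nu s s1).1.2.2 (h.P_lap_L2 hf.1.2.1 (sub_pos.2 s1.2))
        obtain ⟨-, d2, d3⟩ := hB₂ (t - s) (by linarith [hs'.2])
        refine ⟨(h.H_L2 s1.1 x).integrable_sq, c1, (hB₁ s hs'.1).2.1.trans (le_max_left _ _),
          (c2.trans (by gcongr)).trans (le_max_right _ _), fun y => ?_⟩
        have sΓ := h.S_Γ su su
        rw [h.Γ_cmul_left _ sΓ, h.Γ_comm, h.Γ_cmul_left _ sΓ, ← mul_assoc, Real.sqrt_mul (by positivity),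
          Real.sqrt_mul_self (Real.exp_pos _).le, abs_of_nonneg (by positivity)]
        have e1 := h.sqrt_Γ_Γ_le su su y
        have e2 := Real.sq_sqrt (h.Γ2_nonneg su y)
        have e3 := mul_le_mul_of_nonneg_left (sb s s1 y)
          (Real.sqrt_nonneg (h.Γ2 (h.P (t - s) f) (h.P (t - s) f) y))
        calc _ ≤ |h.H s x y| * (Real.exp (2 * h.k * t) *
              (2 * (Real.sqrt (h.Γ2 (h.P (t - s) f) (h.P (t - s) f) y) * B))) := by
              gcongr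
              · exact s1.2.le
              · linarith
          _ = Real.exp (2 * h.k * t) * B *
              (2 * |h.H s x y| * Real.sqrt (h.Γ2 (h.P (t - s) f) (h.P (t - s) f) y)) := by ring
          _ ≤ _ := by
              refine mul_le_mul_of_nonneg_left ((two_mul_le_add_sq _ _).trans (le_of_eq ?_)) (by positivity)
              rw [e2, sq_abs])
    (h.h2g_STI (C := Real.exp (2 * h.k * t) * B) (B := max B₁ B₂)
      (A := fun s => h.Γ (h.H s x) (h.H s x)) (A' := fun s => h.Γ (h.P (t - s) f) (h.P (t - s) f)) hs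
      ((h.Sm_cont hF).abs.mul (h.Sm_cont (h.Sm_Γ isOpen_Ioo he he)).sqrt) (by positivity) fun s hs' => by
        have s1 := hs hs'
        refine ⟨(hB₁ s hs'.1).1.2.2, (nu s s1).1.2.2, (hB₁ s hs'.1).2.2.trans (le_max_left _ _),
          (hB₂ (t - s) (by linarith [hs'.2])).2.1.trans (le_max_right _ _), fun y => ?_⟩
        have e1 := h.Γ_nonneg (h.P (t - s) f) y
        have e2 := Real.sq_sqrt e1
        have e3 := Real.sq_sqrt (h.Γ_nonneg (h.H s x) y)
        have e4 := sb s s1 y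
        rw [abs_of_nonneg (by positivity), abs_of_nonneg (by positivity)]
        generalize h.Γ (h.P (t - s) f) (h.P (t - s) f) y = p at e1 e2 e4 ⊢
        generalize h.Γ (h.H s x) (h.H s x) y = q at e3 ⊢
        calc _ = Real.exp (2 * h.k * s) * Real.sqrt p * (Real.sqrt q * Real.sqrt p) := by
              conv_lhs => rw [← e2]
              rw [Real.sq_sqrt e1]
              nth_rewrite 1 [← e2]
              ring
          _ ≤ Real.exp (2 * h.k * t) * B * (Real.sqrt q ^ 2 + Real.sqrt p ^ 2) := by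
              gcongr
              · exact s1.2.le
              · nlinarith [Real.sqrt_nonneg p, Real.sqrt_nonneg q]
          _ = _ := by rw [e2, e3])
    continuousOn_const (integrable_zero _ _ _) (fun s hs' y => by
      have e0 : (fun y => dt (fun s => h.P (t - s) f) s y + h.Δ (h.P (t - s) f) y) = fun _ => 0 := funext fun y => by
        have e1 := r2 s hs'.2 y
        rw [h.P_heat hf.1.2.1 (sub_pos.2 hs'.2)] at e1
        exact add_eq_zero_iff_eq_neg.2 e1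
      have e1 := h.bw_Γ isOpen_Ioo hu hu hs' y
      rw [e0, h.Γ_const_left, h.Γ_comm _ fun _ => 0, h.Γ_const_left] at e1
      have e2 : dt (fun s (_ : M) => Real.exp (2 * h.k * s)) s y = Real.exp (2 * h.k * s) * (2 * h.k) :=
        Geo.dt_eq (by simpa using ((hasDerivAt_id s).const_mul (2 * h.k)).exp)
      have su := (nu s hs').1.1
      rw [h.H_heat hs'.1, h.dt_mul isOpen_Ioo hE hΓ hs', e2, h.Δ_cmul _ (h.S_Γ su su)]
      linear_combination h.H s x y * Real.exp (2 * h.k * s) * e1)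
    (fun s hs' y => mul_nonneg (h.H_nonneg (hs hs').1 x y)
      (mul_nonneg (by positivity) (h.Γ2_nonneg (nu s (hs hs')).1.1 y)))
  refine ⟨h.STI_of_le hs (h.Sm_cont (h.Sm_mul he hΓ2)) k1 fun s hs' y => ?_, ?_⟩
  · have e1 := h.H_nonneg (hs hs').1 x y
    have e2 := h.Γ2_nonneg (nu s (hs hs')).1.1 y
    have e3 : 1 ≤ Real.exp (2 * h.k * s) := Real.one_le_exp (by have := (hs hs').1.le; positivity)
    rw [abs_of_nonneg (mul_nonneg e1 e2)]
    exact mul_le_mul_of_nonneg_left (le_mul_of_one_le_left e2 (by linarith)) e1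
  · rw [← h.P_cmul, ← h.P_cmul, ← intervalIntegral.integral_const_mul]
    simp only [integral_zero, intervalIntegral.integral_zero, add_zero] at k2
    refine k2.trans (intervalIntegral.integral_congr fun s _ => ?_)
    rw [← mul_assoc, ← h.P_cmul]
    rfl

/-- Dimensional gradient estimate: `mono_Γ`, `Δ_sub_sq_le` (`a = 0`), `P_sq_le`, `P_lap`, `ge2` at the upper end, `P_tendsto` at the lower end. -/
theorem HS.ge_dim {f : M → ℝ} (hf : h.Nice f) {t : ℝ} (ht : 0 < t) (x : M) :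
    n * h.Γ (h.P t f) (h.P t f) x + 2 * t * h.Δ (h.P t f) x ^ 2 ≤
      n * (Real.exp (2 * h.k * t) * h.P t (h.Γ f f) x) := by
  have hk := h.k_nonneg
  have key : ∀ a b : ℝ, 0 < a → a ≤ b → b < t → n * h.Γ (h.P t f) (h.P t f) x + 2 * (b - a) * h.Δ (h.P t f) x ^ 2 ≤
      n * (Real.exp (2 * h.k * t) * h.P t (h.Γ f f) x) := fun a b ha hab hb => by
    obtain ⟨k1, k2⟩ := h.mono_Γ hf ha hab hb x
    obtain ⟨k3, k4⟩ := k1.slice hab
    have ta := sub_pos.2 (hab.trans_lt hb)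
    have tb := sub_pos.2 hb
    have b0 := ha.trans_le hab
    have l1 : h.Γ (h.P t f) (h.P t f) x ≤
        Real.exp (2 * h.k * a) * h.P a (h.Γ (h.P (t - a) f) (h.P (t - a) f)) x := by
      have e : h.P a (h.P (t - a) f) = h.P t f := funext fun y => by
        have := (h.P_P ha ta hf.1.2.1.aestronglyMeasurable (h.int_L2 (add_pos ha ta) y hf.1.2.1)).2
        rwa [add_sub_cancel] at this
      have := h.ge2 (h.P_nice hf ta).1 ha x (h.h2g_int (h.P_nice hf ta) ha x)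
      rwa [e] at this
    have l2 : Real.exp (2 * h.k * b) * h.P b (h.Γ (h.P (t - b) f) (h.P (t - b) f)) x ≤
        Real.exp (2 * h.k * t) * h.P t (h.Γ f f) x := by
      obtain ⟨c1, c2⟩ := h.P_P b0 tb hf.1.2.2.aestronglyMeasurable (h.h2g_int hf (add_pos b0 tb) x)
      have := h.P_mono b0 (f' := fun y => Real.exp (2 * h.k * (t - b)) * h.P (t - b) (h.Γ f f) y)
        (h.h2g_int (h.P_nice hf tb) b0 x)
        ((c1.const_mul (Real.exp (2 * h.k * (t - b)))).congr (Eventually.of_forall fun y => mul_left_comm _ _ _))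
        fun y => h.ge2 hf.1 tb y (h.h2g_int hf tb y)
      rw [h.P_cmul, c2, add_sub_cancel] at this
      refine (mul_le_mul_of_nonneg_left this (Real.exp_pos _).le).trans (le_of_eq ?_)
      rw [← mul_assoc, ← Real.exp_add]
      congr 2
      ring
    have i1 : IntervalIntegrable (fun s => Real.exp (2 * h.k * s) *
        h.P s (h.Γ2 (h.P (t - s) f) (h.P (t - s) f)) x) volume a b := k3.continuousOn_mul (by fun_prop)
    have l3 : ∫ s in a..b, h.Δ (h.P t f) x ^ 2 ≤ ∫ s in a..b, n * (Real.exp (2 * h.k * s) *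
        h.P s (h.Γ2 (h.P (t - s) f) (h.P (t - s) f)) x) := by
      refine intervalIntegral.integral_mono_ae_restrict hab intervalIntegrable_const (i1.const_mul n) ?_
      rw [← Measure.restrict_congr_set Ioc_ae_eq_Icc]
      refine (ae_restrict_iff' measurableSet_Ioc).2 (k4.mono fun s c hs => ?_)
      have s0 := ha.trans hs.1
      have ts := sub_pos.2 (hs.2.trans_lt hb)
      have su := (h.P_nice hf ts).1.1
      have d1 : ∀ y, h.Δ (h.P (t - s) f) y ^ 2 ≤ n * h.Γ2 (h.P (t - s) f) (h.P (t - s) f) y := fun y => by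
        simpa only [mul_zero, sub_zero, h.D_zero] using h.Δ_sub_sq_le su 0 y
      have d2 : Integrable (fun y => h.H s x y * (n * h.Γ2 (h.P (t - s) f) (h.P (t - s) f) y)) h.m :=
        ((c hs).const_mul n).congr (Eventually.of_forall fun y => mul_left_comm _ _ _)
      have cΔ := h.S_cont (h.S_Δ su)
      have d3 : Integrable (fun y => h.H s x y * h.Δ (h.P (t - s) f) y ^ 2) h.m :=
        d2.mono' ((h.H_cont s0 x).mul (cΔ.pow 2)).aestronglyMeasurable (Eventually.of_forall fun y => by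
          rw [Real.norm_of_nonneg (mul_nonneg (h.H_nonneg s0 x y) (sq_nonneg _))]
          exact mul_le_mul_of_nonneg_left (d1 y) (h.H_nonneg s0 x y))
      have d4 := (h.P_sq_le s0 cΔ.aestronglyMeasurable d3).2.trans (h.P_mono s0 d3 d2 d1)
      have d5 := congrFun (h.P_lap hf.1.2.1 s0 ts) x
      rw [add_sub_cancel] at d5
      rw [h.P_cmul] at d4
      refine (le_of_eq (congrArg (· ^ 2) d5)).trans (d4.trans (mul_le_mul_of_nonneg_left ?_ (Nat.cast_nonneg n)))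
      exact le_mul_of_one_le_left (h.P_nonneg s0 x (h.Γ2_nonneg su)) (Real.one_le_exp (by positivity))
    rw [intervalIntegral.integral_const, intervalIntegral.integral_const_mul, smul_eq_mul] at l3
    have l4 := mul_le_mul_of_nonneg_left l1 (Nat.cast_nonneg (α := ℝ) n)
    have l5 := mul_le_mul_of_nonneg_left l2 (Nat.cast_nonneg (α := ℝ) n)
    have l6 := congrArg ((n : ℝ) * ·) k2
    linarith
  have c : Continuous fun ε : ℝ => n * h.Γ (h.P t f) (h.P t f) x + 2 * (t - ε - ε) * h.Δ (h.P t f) x ^ 2 := by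
    fun_prop
  have := (c.tendsto 0).mono_left (nhdsWithin_le_nhds (s := Ioi 0))
  rw [sub_zero, sub_zero] at this
  refine le_of_tendsto this ?_
  filter_upwards [Ioo_mem_nhdsGT (half_pos ht)] with ε hε
  exact key ε (t - ε) hε.1 (by linarith [hε.2]) (by linarith [hε.1])

end Crest.Agent.R247
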