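import Crest.Agent.R247.H2

/-! # Row 247, H3: auxiliary lemmas for `moment2` (task H3-c) -/

set_option autoImplicit false
set_option linter.unusedSectionVars false
set_option linter.unusedVariables false
open MeasureTheory Filter Set Metric Matrix
open scoped ENNReal NNReal Topology ContDiff
open Crest.GeometryTopology.CoordMetric

noncomputable section
namespace Crest.Agent.R247
universe u

/-- Fatou's lemma for real integrals. -/
lemma h3c_fatou {α : Type*} [MeasurableSpace α] {μ : Measure α} {f : ℕ → α → ℝ} {F : α → ℝ} {B : ℝ}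
    (hf : ∀ j, Integrable (f j) μ) (h0 : ∀ j y, 0 ≤ f j y) (hB : ∀ j, ∫ y, f j y ∂μ ≤ B)
    (hl : ∀ y, Tendsto (fun j => f j y) atTop (𝓝 (F y))) : Integrable F μ ∧ ∫ y, F y ∂μ ≤ B := by
  have hF0 : ∀ y, 0 ≤ F y := fun y => ge_of_tendsto' (hl y) fun j => h0 j y
  have hm : AEStronglyMeasurable F μ :=
    aestronglyMeasurable_of_tendsto_ae atTop (fun j => (hf j).1) (Eventually.of_forall hl)
  have hB0 : 0 ≤ B := (integral_nonneg (h0 0)).trans (hB 0)
  have h1 : ∫⁻ y, ENNReal.ofReal (F y) ∂μ ≤ ENNReal.ofReal B := by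
    have e : ∀ y, ENNReal.ofReal (F y) = liminf (fun j => ENNReal.ofReal (f j y)) atTop := fun y =>
      ((ENNReal.continuous_ofReal.tendsto _).comp (hl y)).liminf_eq.symm
    simp_rw [e]
    refine (lintegral_liminf_le' fun j => (hf j).1.aemeasurable.ennreal_ofReal).trans ?_
    refine liminf_le_of_frequently_le' (Frequently.of_forall fun j => ?_)
    rw [← ofReal_integral_eq_lintegral_ofReal (hf j) (Eventually.of_forall (h0 j))]
    exact ENNReal.ofReal_le_ofReal (hB j)
  have hi : Integrable F μ :=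
    ⟨hm, (hasFiniteIntegral_iff_ofReal (Eventually.of_forall hF0)).2 (h1.trans_lt ENNReal.ofReal_lt_top)⟩
  refine ⟨hi, ?_⟩
  rw [← ofReal_integral_eq_lintegral_ofReal hi (Eventually.of_forall hF0)] at h1
  exact (ENNReal.ofReal_le_ofReal_iff hB0).1 h1

lemma h3c_alg {N t r l E A G U : ℝ} (hN : 0 < N) (ht : 0 < t) (hr : 0 < r) (hE : 0 < E)
    (h : N * G ^ 2 + 2 * (t * r ^ 2) * A ^ 2 ≤ N * (E * (4 * U))) :
    t * A - U / (2 * r ^ 2) + l * (G / (2 * r)) ≤ E * (l ^ 2 / 2 + N * t) := by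
  have h1 : G ^ 2 / (8 * E * r ^ 2) + t * A ^ 2 / (4 * N * E) ≤ U / (2 * r ^ 2) := by
    rw [div_add_div _ _ (by positivity) (by positivity), div_le_div_iff₀ (by positivity) (by positivity)]
    have := mul_le_mul_of_nonneg_right h (by positivity : (0 : ℝ) ≤ 8 * E * r ^ 2)
    nlinarith
  have h2 : t * A - t * A ^ 2 / (4 * N * E) ≤ E * (N * t) := by
    have : E * (N * t) - (t * A - t * A ^ 2 / (4 * N * E)) = t * (A - 2 * N * E) ^ 2 / (4 * N * E) := by
      field_simp; ring
    have h3 : 0 ≤ t * (A - 2 * N * E) ^ 2 / (4 * N * E) := by positivity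
    linarith
  have h3 : l * (G / (2 * r)) - G ^ 2 / (8 * E * r ^ 2) ≤ E * (l ^ 2 / 2) := by
    have : E * (l ^ 2 / 2) - (l * (G / (2 * r)) - G ^ 2 / (8 * E * r ^ 2)) = (G - 2 * E * r * l) ^ 2 / (8 * E * r ^ 2) := by
      field_simp; ring
    have h3 : 0 ≤ (G - 2 * E * r * l) ^ 2 / (8 * E * r ^ 2) := by positivity
    linarith
  linarith

variable {n : ℕ} {M : Type u} [MetricSpace M] [MeasurableSpace M] [BorelSpace M] [ProperSpace M]
  (h : HS n M)

/-- The path estimate for `η = R - f`. -/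
lemma HS.h3c_path {f : M → ℝ} (hf : h.S f) (hc : HasCompactSupport f) {L : ℝ} (hL : 0 < L) (hΓ : ∀ y, h.Γ f f y ≤ L)
    (R : ℝ) {t r₀ : ℝ} (ht : 0 < t) (hr₀ : 0 < r₀) (hr₁ : r₀ < 1) (p x : M) :
    h.P t (fun y => (R - f y) ^ 2) x / 2 - h.P (t * r₀ ^ 2) (fun y => (R - f y) ^ 2) p / (2 * r₀) ≤
      Real.exp (2 * h.k * t) * L * (dist p x ^ 2 / (2 * (1 - r₀)) + n * t * (1 - r₀)) := by
  set w : M → ℝ := fun y => f y ^ 2 - 2 * R * f y with hw
  have hwS : h.S w := h.S_sub (h.g1b_sq hf p).1 (h.S_cmul _ hf)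
  have hwc : HasCompactSupport w := hc.comp_left (g := fun s => s ^ 2 - 2 * R * s) (by simp)
  have hwN := h.H1_of_cs hwS hwc
  have hwL : MemLp w 2 h.m := hwN.1.2.1
  obtain ⟨B, hB⟩ := hwN.2
  have hwi : ∀ {s : ℝ}, 0 < s → ∀ z, Integrable (fun y => h.H s z y * w y) h.m := fun hs z => h.int_L2 hs z hwL
  have hci : ∀ {s : ℝ}, 0 < s → ∀ z (c : ℝ), Integrable (fun y => h.H s z y * c) h.m := fun hs z c =>
    (h.H_int hs z).1.mul_const c
  have he : (fun y => (R - f y) ^ 2) = fun y => w y + R ^ 2 := by funext y; simp only [hw]; ring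
  have hU : ∀ {s : ℝ}, 0 < s → ∀ z, h.P s (fun y => (R - f y) ^ 2) z = h.P s w z + R ^ 2 := by
    intro s hs z
    rw [he, h.P_add (hwi hs z) (hci hs z _), h.P_const hs]
  have hΓw : ∀ y, h.Γ w w y ≤ L * 4 * (w y + R ^ 2) := by
    intro y
    have h1 : h.grad w y = (2 * f y - 2 * R) • h.grad f y := by
      rw [hw, h.grad_sub (h.g1b_sq hf p).1 (h.S_cmul _ hf), (h.g1b_sq hf y).2.1, h.grad_cmul _ hf, sub_smul]
    have h2 : h.Γ w w y = (2 * f y - 2 * R) ^ 2 * h.Γ f f y := by
      simp only [Raw.Γ, h1, smul_dotProduct, dotProduct_smul, smul_eq_mul]; ring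
    rw [h2]
    have := mul_le_mul_of_nonneg_left (hΓ y) (sq_nonneg (2 * f y - 2 * R))
    simp only [hw]
    nlinarith
  set F : ℝ → M → ℝ := fun r z => (2 * r)⁻¹ * (h.P (t * r ^ 2) w z + R ^ 2) with hF
  have hτ : MapsTo (fun r : ℝ => t * r ^ 2) (Ioi 0) (Ioi 0) := fun r hr => by
    have : 0 < r := hr
    show 0 < t * r ^ 2
    positivity
  have hFS : h.Sm (Ioi 0) F := by
    refine h.Sm_mul (F := fun r _ => (2 * r)⁻¹) (h.Sm_time ?_) (h.Sm_add ?_ (h.Sm_const _ _))
    · exact (contDiffOn_const.mul contDiffOn_id).inv fun r hr => by have : 0 < r := hr; positivity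
    · exact h.Sm_reparam (h.P_Sm hwL) (by fun_prop) hτ
  set E := Real.exp (2 * h.k * t) * L with hE
  have hE0 : 0 < E := by positivity
  have h1r : 0 < 1 - r₀ := by linarith
  set l := dist p x / (1 - r₀) with hl
  have key := h.path isOpen_Ioi hFS hr₁ (fun r hr => lt_of_lt_of_le hr₀ hr.1) (l := l)
    (c := fun _ => E * (l ^ 2 / 2 + n * t)) continuousOn_const (x := x) (y := p)
    (by rw [hl, div_mul_cancel₀ _ h1r.ne']) (by
      intro r hr z _
      have hr0 : 0 < r := lt_of_lt_of_le hr₀ hr.1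
      have hs : 0 < t * r ^ 2 := by positivity
      have hPS := h.P_S hs hwL
      have hd : dt F r z = t * h.Δ (h.P (t * r ^ 2) w) z - (h.P (t * r ^ 2) w z + R ^ 2) / (2 * r ^ 2) := by
        have d1 := h.Sm_deriv isOpen_Ioi (h.P_Sm hwL) (t := t * r ^ 2) hs z
        rw [h.P_heat hwL hs] at d1
        have d2 : HasDerivAt (fun r : ℝ => t * r ^ 2) (t * (2 * r)) r := by
          simpa using (hasDerivAt_pow 2 r).const_mul t
        have d3 := (d1.comp r d2).add_const (R ^ 2)
        have d4 : HasDerivAt (fun r : ℝ => (2 * r)⁻¹) (-2 / (2 * r) ^ 2) r := by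
          have := ((hasDerivAt_id' r).const_mul 2).inv (by positivity)
          rw [mul_one] at this
          exact this
        have d5 := d4.mul d3
        refine d5.deriv.trans ?_
        have e : kerP h.m h.H (t * r ^ 2) w = h.P (t * r ^ 2) w := rfl
        simp only [Function.comp, e]
        field_simp
        ring
      have hg : Real.sqrt (h.Γ (F r) (F r) z) = Real.sqrt (h.Γ (h.P (t * r ^ 2) w) (h.P (t * r ^ 2) w) z) / (2 * r) := by
        have h1 : h.grad (F r) z = (2 * r)⁻¹ • h.grad (h.P (t * r ^ 2) w) z := by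
          simp only [hF]
          rw [h.grad_cmul _ (h.S_add hPS (h.S_const _)), h.grad_add hPS (h.S_const _), h.grad_const, add_zero]
        have h2 : h.Γ (F r) (F r) z = h.Γ (h.P (t * r ^ 2) w) (h.P (t * r ^ 2) w) z / (2 * r) ^ 2 := by
          simp only [Raw.Γ, h1, smul_dotProduct, dotProduct_smul, smul_eq_mul]; field_simp
        rw [h2, Real.sqrt_div' _ (by positivity), Real.sqrt_sq (by positivity)]
      rw [hd, hg]
      have hU0 : 0 ≤ h.P (t * r ^ 2) w z + R ^ 2 := by
        rw [← hU hs]; exact h.P_nonneg hs z fun y => sq_nonneg _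
      rcases Nat.eq_zero_or_pos n with hn | hn
      · subst hn
        have : 0 ≤ (h.P (t * r ^ 2) w z + R ^ 2) / (2 * r ^ 2) := by positivity
        have h2 : 0 ≤ E * (l ^ 2 / 2) := by positivity
        simp only [Raw.Γ, Raw.Δ, Matrix.trace, dotProduct, Finset.univ_eq_empty, Finset.sum_empty, Real.sqrt_zero,
          Nat.cast_zero, zero_div, mul_zero, zero_mul, add_zero]
        linarith
      refine h3c_alg (by exact_mod_cast hn) ht hr0 hE0 ?_
      rw [Real.sq_sqrt (h.Γ_nonneg _ _)]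
      refine (h.ge_dim hwN hs z).trans (mul_le_mul_of_nonneg_left ?_ (Nat.cast_nonneg n))
      have e1 : h.P (t * r ^ 2) (h.Γ w w) z ≤ L * 4 * (h.P (t * r ^ 2) w z + R ^ 2) := by
        rw [← hU hs, he, ← h.P_cmul]
        refine h.P_mono hs (h.int_L2 hs z (hwN.Γ_bd hwN).1) ?_ hΓw
        have := ((hwi hs z).add (hci hs z (R ^ 2))).const_mul (L * 4)
        refine this.congr (Eventually.of_forall fun y => ?_)
        simp only [Pi.add_apply]; ring
      have e2 : Real.exp (2 * h.k * (t * r ^ 2)) ≤ Real.exp (2 * h.k * t) := by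
        refine Real.exp_le_exp.2 (mul_le_mul_of_nonneg_left ?_ (by have := h.k_nonneg; positivity))
        have : r ^ 2 ≤ 1 := pow_le_one₀ hr0.le hr.2
        nlinarith
      calc _ ≤ Real.exp (2 * h.k * t) * (L * 4 * (h.P (t * r ^ 2) w z + R ^ 2)) :=
            mul_le_mul e2 e1 (h.P_nonneg hs z fun y => h.Γ_nonneg _ _) (Real.exp_pos _).le
        _ = _ := by rw [hE]; ring)
  rw [intervalIntegral.integral_const, smul_eq_mul] at key
  rw [hU ht, hU (by positivity)]
  simp only [hF, one_pow, mul_one] at key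
  have e : (1 - r₀) * (E * (l ^ 2 / 2 + n * t)) = E * (dist p x ^ 2 / (2 * (1 - r₀)) + n * t * (1 - r₀)) := by
    rw [hl]; field_simp
  rw [e] at key
  calc _ = 2⁻¹ * (h.P t w x + R ^ 2) - (2 * r₀)⁻¹ * (h.P (t * r₀ ^ 2) w p + R ^ 2) := by ring
    _ ≤ _ := key

/-- The truncated estimate, up to an error `O(r₀)`. -/
lemma HS.h3c_trunc {t : ℝ} (ht : 0 < t) (p x : M) {R : ℝ} (hR : 0 ≤ R)
    (hlip : ∀ {f : M → ℝ}, (∀ x y, |f x - f y| ≤ dist x y) → HasCompactSupport f → ∀ {s : ℝ}, 0 < s →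
      |h.P s f p - f p| ≤ Real.sqrt (2 * n * s) * Real.exp (h.k * s)) :
    h.P t (fun y => min (dist p y) R ^ 2) x ≤ Real.exp (2 * h.k * t) * (dist p x ^ 2 + 2 * n * t) := by
  set f : M → ℝ := fun y => R - min (dist p y) R with hf
  have hfl : ∀ x y, |f x - f y| ≤ dist x y := by
    intro x y
    simp only [hf, sub_sub_sub_cancel_left]
    refine (abs_min_sub_min_le_max _ _ _ _).trans ?_
    rw [sub_self, abs_zero, max_eq_left (abs_nonneg _), dist_comm p y, dist_comm p x, dist_comm x y]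
    exact abs_dist_sub_le _ _ _
  have hfc : HasCompactSupport f := by
    refine HasCompactSupport.intro (isCompact_closedBall p R) fun y hy => ?_
    rw [mem_closedBall', not_le] at hy
    simp [hf, hy.le]
  have hfC : Continuous f := by rw [hf]; fun_prop
  have hm0 : ∀ y, 0 ≤ min (dist p y) R := fun y => le_min dist_nonneg hR
  have hk := h.k_nonneg
  have := h.fin_cpt
  set E := Real.exp (2 * h.k * t) with hE
  set a := Real.sqrt (2 * n * t) * Real.exp (h.k * t) with ha
  have ha0 : 0 ≤ a := by positivity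
  have key : ∀ r : ℝ, 0 < r → r < 1 → h.P t (fun y => min (dist p y) R ^ 2) x ≤
      r * (2 * R + r) + r * ((a + 1) ^ 2 + 8 * t * E) +
        E * (1 + r) ^ 2 * (dist p x ^ 2 / (1 - r) + 2 * n * t * (1 - r)) := by
    intro r hr hr1
    obtain ⟨f', hS, hc, hd, hΓ, -⟩ := h.approx hfl hfc hr
    have h1 := h.h3c_path hS hc (by positivity) hΓ R ht hr hr1 p x
    have hηS : h.S fun y => R - f' y := h.S_sub (h.S_const R) hS
    have hηC := h.S_cont hηS
    have hηb : ∀ y, |R - f' y| ≤ R + r := by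
      intro y
      have := abs_le.1 (hd y); have := hm0 y; have := min_le_right (dist p y) R
      simp only [hf] at *
      rw [abs_le]; constructor <;> linarith
    have hη2 : ∀ {s : ℝ}, 0 < s → ∀ z, Integrable (fun y => h.H s z y * (R - f' y) ^ 2) h.m := fun hs z =>
      h.int_bdd hs z (hηC.pow 2).aestronglyMeasurable (B := (R + r) ^ 2) fun y => by
        rw [abs_pow]; exact pow_le_pow_left₀ (abs_nonneg _) (hηb y) 2
    have hci : ∀ {s : ℝ}, 0 < s → ∀ z (c : ℝ), Integrable (fun y => h.H s z y * c) h.m := fun hs z c =>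
      (h.H_int hs z).1.mul_const c
    -- final time
    have h2 : h.P t (fun y => min (dist p y) R ^ 2) x ≤ h.P t (fun y => (R - f' y) ^ 2) x + r * (2 * R + r) := by
      rw [← h.P_const ht (r * (2 * R + r)) x, ← h.P_add (hη2 ht x) (hci ht x _)]
      refine h.P_mono ht (h.int_bdd ht x (by fun_prop) (B := R ^ 2) fun y => ?_) ?_ fun y => ?_
      · rw [abs_pow, abs_of_nonneg (hm0 y)]; exact pow_le_pow_left₀ (hm0 y) (min_le_right _ _) 2
      · simp only [mul_add]; exact (hη2 ht x).add ((hci ht x _).congr (Eventually.of_forall fun y => (mul_add _ _ _)))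
      · have e1 := abs_le.1 (hd y); have e2 := hm0 y; have e3 := min_le_right (dist p y) R
        simp only [hf] at e1
        nlinarith
    -- initial time
    have hs : 0 < t * r ^ 2 := by positivity
    have hst : t * r ^ 2 ≤ t := by have : r ^ 2 ≤ 1 := pow_le_one₀ hr.le hr1.le; nlinarith
    have hΓη : ∀ y, h.Γ (fun y => R - f' y) (fun y => R - f' y) y = h.Γ f' f' y := by
      intro y
      simp only [Raw.Γ, h.grad_sub (h.S_const R) hS, h.grad_const, zero_sub, neg_dotProduct_neg]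
    have hΓb : ∀ y, |h.Γ (fun y => R - f' y) (fun y => R - f' y) y| ≤ 4 := by
      intro y
      rw [abs_of_nonneg (h.Γ_nonneg _ _), hΓη]
      refine (hΓ y).trans ?_
      nlinarith
    have h3 := h.poincare hηS hs p (hη2 hs p) (h.int_bdd hs p (h.S_cont (h.S_Γ hηS hηS)).aestronglyMeasurable hΓb)
    have h4 : h.P (t * r ^ 2) (h.Γ (fun y => R - f' y) fun y => R - f' y) p ≤ 4 := (abs_le.1 (h.abs_P_le hs p hΓb)).2
    have h5 : Real.exp (2 * h.k * (t * r ^ 2)) ≤ E := Real.exp_le_exp.2 (mul_le_mul_of_nonneg_left hst (by positivity))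
    have h6 : |h.P (t * r ^ 2) (fun y => R - f' y) p| ≤ r * (a + 1) := by
      have hfi : Integrable (fun y => h.H (t * r ^ 2) p y * f y) h.m :=
        h.int_L2 hs p (hfC.memLp_of_hasCompactSupport hfc)
      have hf'i : Integrable (fun y => h.H (t * r ^ 2) p y * f' y) h.m :=
        h.int_L2 hs p ((h.S_cont hS).memLp_of_hasCompactSupport hc)
      have e1 := h.abs_P_le hs p hd
      rw [h.P_sub hf'i hfi] at e1
      have e2 := hlip hfl hfc hs
      have e3 : f p = R := by simp [hf, hR]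
      have e4 : Real.sqrt (2 * n * (t * r ^ 2)) * Real.exp (h.k * (t * r ^ 2)) ≤ r * a := by
        rw [← mul_assoc, Real.sqrt_mul' _ (by positivity), Real.sqrt_sq hr.le, ha]
        have : Real.exp (h.k * (t * r ^ 2)) ≤ Real.exp (h.k * t) :=
          Real.exp_le_exp.2 (mul_le_mul_of_nonneg_left hst hk)
        calc _ ≤ Real.sqrt (2 * n * t) * r * Real.exp (h.k * t) := by gcongr
          _ = _ := by ring
      rw [h.P_sub (hci hs p R) hf'i, h.P_const hs]
      rw [e3] at e2
      have := abs_le.1 e1; have := abs_le.1 (e2.trans e4)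
      rw [abs_le]; constructor <;> linarith
    have h7 : h.P (t * r ^ 2) (fun y => R - f' y) p ^ 2 ≤ (r * (a + 1)) ^ 2 := by
      rw [← sq_abs]; exact pow_le_pow_left₀ (abs_nonneg _) h6 2
    have h8 : 2 * (t * r ^ 2) * Real.exp (2 * h.k * (t * r ^ 2)) *
        h.P (t * r ^ 2) (h.Γ (fun y => R - f' y) fun y => R - f' y) p ≤ 2 * (t * r ^ 2) * E * 4 := by
      gcongr
      exact h.P_nonneg hs p fun y => h.Γ_nonneg _ _
    have h9 : h.P (t * r ^ 2) (fun y => (R - f' y) ^ 2) p / (2 * r) ≤ r * ((a + 1) ^ 2 + 8 * t * E) / 2 := by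
      rw [div_le_iff₀ (by positivity)]
      nlinarith
    have h10 : E * (1 + r) ^ 2 * (dist p x ^ 2 / (2 * (1 - r)) + n * t * (1 - r)) =
        E * (1 + r) ^ 2 * (dist p x ^ 2 / (1 - r) + 2 * n * t * (1 - r)) / 2 := by
      have : 1 - r ≠ 0 := by linarith
      field_simp
    linarith
  have hcont : ContinuousAt (fun r : ℝ => r * (2 * R + r) + r * ((a + 1) ^ 2 + 8 * t * E) +
      E * (1 + r) ^ 2 * (dist p x ^ 2 / (1 - r) + 2 * n * t * (1 - r))) 0 := by
    refine ContinuousAt.add (by fun_prop) (ContinuousAt.mul (by fun_prop) (ContinuousAt.add ?_ (by fun_prop)))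
    exact ContinuousAt.div (by fun_prop) (by fun_prop) (by norm_num)
  have hlim := hcont.tendsto.mono_left (nhdsWithin_le_nhds (s := Ioi 0))
  have := ge_of_tendsto hlim (by
    filter_upwards [Ioo_mem_nhdsGT one_pos] with r hr using key r hr.1 hr.2)
  simpa using this

end Crest.Agent.R247
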