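import Crest.Agent.R247.H2
import Crest.Agent.R247.H3AuxC

/-! # Row 247, H3: Lipschitz data, good cut-offs, Duhamel formulas, moments -/

set_option autoImplicit false
set_option linter.unusedSectionVars false
set_option linter.unusedVariables false
open MeasureTheory Filter Set Metric Matrix
open scoped ENNReal NNReal Topology ContDiff
open Crest.GeometryTopology.CoordMetric

noncomputable section
namespace Crest.Agent.R247
universe u

variable {n : ℕ} {M : Type u} [MetricSpace M] [MeasurableSpace M] [BorelSpace M] [ProperSpace M]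
  (h : HS n M)

omit h in
lemma h3a_mv {φ D : ℝ → ℝ} {s r N K : ℝ} (hs : 0 < s) (hsr : s ≤ r) (hK : 0 ≤ K)
    (hφ : ∀ σ ∈ Icc s r, HasDerivAt φ (D σ) σ) (hD : ∀ σ ∈ Icc s r, 2 * σ * D σ ^ 2 ≤ N * K ^ 2) :
    |φ r - φ s| ≤ K * Real.sqrt (2 * N) * (Real.sqrt r - Real.sqrt s) := by
  refine image_norm_le_of_norm_deriv_right_le_deriv_boundary' (f := fun σ => φ σ - φ s) (f' := D)
    (B := fun σ => K * Real.sqrt (2 * N) * (Real.sqrt σ - Real.sqrt s))
    (B' := fun σ => K * Real.sqrt (2 * N) * (1 / (2 * Real.sqrt σ))) (a := s) (b := r)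
    (fun σ hσ => ((hφ σ hσ).sub_const _).continuousAt.continuousWithinAt)
    (fun σ hσ => ((hφ σ (Ico_subset_Icc_self hσ)).sub_const _).hasDerivWithinAt) (by simp)
    (by fun_prop) (fun σ hσ => (((Real.hasDerivAt_sqrt (hs.trans_le hσ.1).ne').sub_const _).const_mul
      _).hasDerivWithinAt) (fun σ hσ => ?_) ⟨hsr, le_rfl⟩
  have h0 : 0 < σ := hs.trans_le hσ.1
  have h1 := hD σ (Ico_subset_Icc_self hσ)
  have h2 := Real.sqrt_pos.2 h0
  rw [mul_one_div, le_div_iff₀ (by positivity), ← Real.sqrt_sq hK, ← Real.sqrt_mul (sq_nonneg K)]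
  refine Real.le_sqrt_of_sq_le ?_
  rw [mul_pow, mul_pow, Real.sq_sqrt h0.le, Real.norm_eq_abs, sq_abs]
  linarith

omit h in
lemma h3a_lim {a b c : ℝ} (H : ∀ δ : ℝ, 0 < δ → a ≤ b + δ * c) : a ≤ b := by
  have : Tendsto (fun δ : ℝ => b + δ * c) (𝓝[>] 0) (𝓝 (b + 0 * c)) :=
    tendsto_nhdsWithin_of_tendsto_nhds (Continuous.tendsto (by fun_prop) 0)
  rw [zero_mul, add_zero] at this
  exact ge_of_tendsto this (eventually_nhdsWithin_of_forall H)

lemma HS.h3a_der {f : M → ℝ} (hf : MemLp f 2 h.m) {t : ℝ} (ht : 0 < t) (x : M) :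
    HasDerivAt (fun s => h.P s f x) (h.Δ (h.P t f) x) t := by
  have := h.Sm_deriv isOpen_Ioi (h.P_Sm hf) ht x
  rwa [h.P_heat hf ht] at this

/-- Smoothing of Lipschitz functions.  Recipe: `approx` gives smooth `f' → f` uniformly (supports in a fixed compact); `ge_c`, `ge_dim` for `f'`; pass to the limit in
`|P t f' x - P t f' y| ≤ …` and `|P t f' x - P s f' x| ≤ ∫ₛᵗ …` (`P_heat`), then differentiate; `P_tendsto` for the last claim. -/
theorem HS.lip_P {f : M → ℝ} (hf : ∀ x y, |f x - f y| ≤ dist x y) (hc : HasCompactSupport f) {t : ℝ}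
    (ht : 0 < t) (x : M) : h.Bd f ∧ h.Γ (h.P t f) (h.P t f) x ≤ Real.exp (2 * h.k * t) ∧
      2 * t * h.Δ (h.P t f) x ^ 2 ≤ n * Real.exp (2 * h.k * t) ∧
      |h.P t f x - f x| ≤ Real.sqrt (2 * n * t) * Real.exp (h.k * t) := by
  have := h.fin_cpt
  have hcont : Continuous f := (LipschitzWith.of_dist_le_mul (K := 1) fun x y => by
    simpa [Real.dist_eq] using hf x y).continuous
  have hL : MemLp f 2 h.m := hcont.memLp_of_hasCompactSupport hc
  obtain ⟨B, hB⟩ := hc.exists_bound_of_continuous hcont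
  have key : ∀ δ : ℝ, 0 < δ → ∃ f', (∀ s, 0 < s → ∀ y, |h.P s f' y - h.P s f y| ≤ δ) ∧
      (∀ y z, |h.P t f' y - h.P t f' z| ≤ Real.exp (h.k * t) * (1 + δ) * dist z y) ∧
      ∀ s, 0 < s → s ≤ t → |h.P t f' x - h.P s f' x| ≤
        Real.exp (h.k * t) * (1 + δ) * Real.sqrt (2 * n) * (Real.sqrt t - Real.sqrt s) := fun δ hδ => by
    obtain ⟨f', h1, h2, h3, h4, -⟩ := h.approx hf hc hδ
    have hN := h.H1_of_cs h1 h2
    have hL' := hN.1.2.1
    refine ⟨f', fun s hs y => ?_, fun y z => ?_, fun s hs hst => ?_⟩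
    · rw [← h.P_sub (h.int_L2 hs y hL') (h.int_L2 hs y hL)]
      exact h.abs_P_le hs y h3
    · refine h.abs_sub_le_of_Γ (h.P_S ht hL') (by positivity) fun w _ => ?_
      refine (Real.sqrt_le_left (by positivity)).1 ((h.ge_c h1 h2 ht w).trans ?_)
      refine mul_le_mul_of_nonneg_left ((le_abs_self _).trans (h.abs_P_le ht w fun v => ?_))
        (Real.exp_pos _).le
      rw [abs_of_nonneg (Real.sqrt_nonneg _)]
      exact (Real.sqrt_le_left (by positivity)).2 (h4 v)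
    · refine h3a_mv hs hst (by positivity) (fun σ hσ => h.h3a_der hL' (hs.trans_le hσ.1) x)
        fun σ hσ => ?_
      have h0 := hs.trans_le hσ.1
      have h5 := h.ge_dim hN h0 x
      have h6 : h.P σ (h.Γ f' f') x ≤ (1 + δ) ^ 2 := (le_abs_self _).trans (h.abs_P_le h0 x fun v => by
        rw [abs_of_nonneg (h.Γ_nonneg _ _)]; exact h4 v)
      have h7 : Real.exp (2 * h.k * σ) ≤ Real.exp (h.k * t) ^ 2 := by
        rw [← Real.exp_nat_mul]
        refine Real.exp_le_exp.2 ?_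
        have := mul_le_mul_of_nonneg_left hσ.2 h.k_nonneg
        push_cast; linarith
      have h8 := mul_nonneg (Nat.cast_nonneg (α := ℝ) n) (h.Γ_nonneg (h.P σ f') x)
      have h9 : (n : ℝ) * (Real.exp (2 * h.k * σ) * h.P σ (h.Γ f' f') x) ≤
          n * (Real.exp (h.k * t) * (1 + δ)) ^ 2 := by
        rw [mul_pow]
        exact mul_le_mul_of_nonneg_left ((mul_le_mul_of_nonneg_left h6 (Real.exp_pos _).le).trans
          (mul_le_mul_of_nonneg_right h7 (sq_nonneg _))) (Nat.cast_nonneg n)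
      linarith
  have hE : Real.exp (h.k * t) ^ 2 = Real.exp (2 * h.k * t) := by
    rw [← Real.exp_nat_mul]; congr 1; push_cast; ring
  set K := Real.exp (h.k * t) * Real.sqrt (2 * n) with hK
  have hT : ∀ s, 0 < s → s ≤ t → |h.P t f x - h.P s f x| ≤ K * (Real.sqrt t - Real.sqrt s) :=
    fun s hs hst => h3a_lim (c := K * (Real.sqrt t - Real.sqrt s) + 2) fun δ hδ => by
      obtain ⟨f', h1, -, h3⟩ := key δ hδ
      have a1 := abs_le.1 (h1 s hs x)
      have a2 := abs_le.1 (h1 t ht x)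
      have a3 := abs_le.1 (h3 s hs hst)
      rw [abs_le, hK]
      constructor <;> linarith
  refine ⟨⟨hL, B, hB⟩, ?_, ?_, ?_⟩
  · rw [← hE]
    refine h.Γ_le_of_lipschitz (h.P_S ht hL) (Real.exp_pos _).le (fun y z => ?_) x
    refine h3a_lim (c := Real.exp (h.k * t) * dist y z + 2) fun δ hδ => ?_
    obtain ⟨f', h1, h2, -⟩ := key δ hδ
    have a1 := abs_le.1 (h1 t ht y)
    have a2 := abs_le.1 (h1 t ht z)
    have a3 := abs_le.1 (h2 y z)
    rw [dist_comm] at a3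
    rw [abs_le]
    constructor <;> linarith
  · have h1 : |h.Δ (h.P t f) x| ≤ K * (1 / (2 * Real.sqrt t)) := by
      refine le_of_tendsto_of_tendsto (b := 𝓝[<] t)
        ((h.h3a_der hL ht x).tendsto_slope.mono_left (nhdsLT_le_nhdsNE t)).abs
        (((Real.hasDerivAt_sqrt ht.ne').tendsto_slope.mono_left (nhdsLT_le_nhdsNE t)).const_mul K) ?_
      filter_upwards [Ioo_mem_nhdsLT ht] with s hs
      have h2 : 0 < t - s := sub_pos.2 hs.2
      rw [slope_comm, slope_comm Real.sqrt, slope_def_field, slope_def_field, abs_div, abs_of_pos h2,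
        ← mul_div_assoc]
      exact div_le_div_of_nonneg_right (hT s hs.1 hs.2.le) h2.le
    have h2 := Real.sqrt_pos.2 ht
    rw [mul_one_div, le_div_iff₀ (by positivity)] at h1
    have h3 := pow_le_pow_left₀ (by positivity) h1 2
    rw [hK, mul_pow, mul_pow, mul_pow, sq_abs, Real.sq_sqrt ht.le, Real.sq_sqrt (by positivity), hE] at h3
    linarith
  · have h1 := h.P_tendsto (F := fun _ => f) (x := x) ht (fun _ _ => hcont) (fun _ _ => hB)
      ((hcont.tendsto x).comp tendsto_snd)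
    refine le_of_tendsto ((h1.const_sub (h.P t f x)).abs) ?_
    filter_upwards [Ioo_mem_nhdsGT ht] with s hs
    refine (hT s hs.1 hs.2.le).trans ?_
    rw [Real.sqrt_mul (by positivity) t, hK]
    nlinarith [mul_nonneg (mul_nonneg (Real.exp_pos (h.k * t)).le (Real.sqrt_nonneg (2 * n)))
      (Real.sqrt_nonneg s)]

/-- Good cut-offs: `χ = θ(P 1 f_R / R)`, `f_R = (2R - d(·,o))₊`, `θ = 0` on `(-∞,1/4]`, `1` on `[1/2,∞)`, `R ≥ R₀`; (`lip_P`, `Δ_comp`). -/
theorem HS.cut2 (o : M) : ∃ (C : ℝ) (χ : ℕ → M → ℝ), (∀ j, h.S (χ j) ∧ HasCompactSupport (χ j) ∧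
    ∀ y, (0 ≤ χ j y ∧ χ j y ≤ 1) ∧ Real.sqrt (h.Γ (χ j) (χ j) y) ≤ C / (j + 1) ∧
      |h.Δ (χ j) y| ≤ C / (j + 1)) ∧ ∀ y, ∀ᶠ j in atTop, χ j y = 1 := by
  have hθ : ContDiff ℝ ∞ Real.smoothTransition := Real.smoothTransition.contDiff
  have hθ' : ContDiff ℝ ∞ (deriv Real.smoothTransition) := (contDiff_infty_iff_deriv.1 hθ).2
  obtain ⟨B, hB⟩ := (isCompact_Icc (a := (-9 : ℝ)) (b := 7)).exists_bound_of_continuousOn
    (f := fun s => |deriv Real.smoothTransition s| + |deriv (deriv Real.smoothTransition) s|)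
    (hθ'.continuous.abs.add (hθ'.continuous_deriv (by simp)).abs).continuousOn
  have hB0 : 0 ≤ B := (norm_nonneg _).trans (hB 0 ⟨by norm_num, by norm_num⟩)
  set c := Real.sqrt (2 * n * 1) * Real.exp (h.k * 1) with hc
  set E := Real.exp (2 * h.k * 1) with hE
  have hc0 : 0 ≤ c := by positivity
  have hE0 : 0 < E := Real.exp_pos _
  set R : ℕ → ℝ := fun j => (4 * c + 1) * (j + 1) with hR
  have hR1 : ∀ j : ℕ, (j : ℝ) + 1 ≤ R j := fun j => le_mul_of_one_le_left (by positivity) (by linarith)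
  have hR2 : ∀ j : ℕ, 4 * c ≤ R j := fun j =>
    (le_add_of_nonneg_right zero_le_one).trans (le_mul_of_one_le_right (by positivity) (by simp))
  have hR0 : ∀ j, 0 < R j := fun j => lt_of_lt_of_le (by positivity) (hR1 j)
  set f : ℕ → M → ℝ := fun j y => max (2 * R j - dist y o) 0 with hf
  have hlip : ∀ j (y z : M), |f j y - f j z| ≤ dist y z := fun j y z => by
    refine (abs_max_sub_max_le_abs _ _ _).trans ?_
    have := abs_dist_sub_le z y o
    rw [dist_comm z y] at this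
    rwa [show 2 * R j - dist y o - (2 * R j - dist z o) = dist z o - dist y o by ring]
  have hout : ∀ j, ∀ y ∉ closedBall o (2 * R j), f j y = 0 := fun j y hy =>
    max_eq_right (by rw [mem_closedBall, not_le] at hy; linarith)
  have H := fun j y => h.lip_P (hlip j) (HasCompactSupport.intro (isCompact_closedBall o _) (hout j))
    one_pos y
  refine ⟨4 * B * Real.sqrt E + 4 * B * (1 + n * E) + 16 * B * E,
    fun j y => Real.smoothTransition (4 / R j * h.P 1 (f j) y - 1), fun j => ?_, fun y => ?_⟩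
  · have hu := h.P_S one_pos (H j o).1.1
    have hu' := h.S_cmul (4 / R j) hu
    have hw := h.S_sub hu' (h.S_const 1)
    have r0 := hR0 j
    refine ⟨h.S_comp hw isOpen_univ hθ.contDiffOn fun _ => mem_univ _,
      HasCompactSupport.intro (isCompact_closedBall o (2 * R j)) fun y hy => ?_, fun y => ?_⟩
    · refine Real.smoothTransition.zero_of_nonpos ?_
      have h1 := (abs_le.1 (H j y).2.2.2).2
      rw [hout j y hy, sub_zero] at h1
      rw [sub_nonpos, div_mul_eq_mul_div, div_le_one r0]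
      linarith [hR2 j]
    obtain ⟨-, h1, h2, -⟩ := H j y
    have h3 : |h.P 1 (f j) y| ≤ 2 * R j := h.abs_P_le one_pos y fun z => by
      rw [abs_of_nonneg (le_max_right _ _)]
      exact max_le (sub_le_self _ dist_nonneg) (by positivity)
    have h4 : |4 / R j * h.P 1 (f j) y| ≤ 8 := by
      rw [abs_mul, abs_of_pos (by positivity), div_mul_eq_mul_div, div_le_iff₀ r0]; linarith
    have h5 := (le_abs_self _).trans (hB (4 / R j * h.P 1 (f j) y - 1)
      ⟨by linarith [(abs_le.1 h4).1], by linarith [(abs_le.1 h4).2]⟩)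
    have hΓ : h.Γ (fun y => 4 / R j * h.P 1 (f j) y - 1) (fun y => 4 / R j * h.P 1 (f j) y - 1) y =
        (4 / R j) ^ 2 * h.Γ (h.P 1 (f j)) (h.P 1 (f j)) y := by
      rw [h.Γ_sub_left hu' (h.S_const 1), h.Γ_const_left, h.Γ_cmul_left _ hu, h.Γ_comm,
        h.Γ_sub_left hu' (h.S_const 1), h.Γ_const_left, h.Γ_cmul_left _ hu]
      ring
    have hq : 4 / R j ≤ 4 / (j + 1) := div_le_div_of_nonneg_left (by norm_num) (by positivity) (hR1 j)
    have hq1 : 4 / R j ≤ 4 := div_le_self (by norm_num) (le_trans (by simp) (hR1 j))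
    have hq0 : 0 < 4 / R j := by positivity
    have hG0 := h.Γ_nonneg (h.P 1 (f j)) y
    refine ⟨⟨Real.smoothTransition.nonneg _, Real.smoothTransition.le_one _⟩, ?_, ?_⟩
    · rw [h.Γ_comp_left hw isOpen_univ hθ.contDiffOn (fun _ => mem_univ _), h.Γ_comm,
        h.Γ_comp_left hw isOpen_univ hθ.contDiffOn (fun _ => mem_univ _), hΓ, ← mul_assoc, ← sq,
        Real.sqrt_mul (sq_nonneg _), Real.sqrt_mul (sq_nonneg _), Real.sqrt_sq_eq_abs, Real.sqrt_sq hq0.le]
      calc _ ≤ B * (4 / (j + 1) * Real.sqrt E) := by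
            gcongr
            exact (le_add_of_nonneg_right (abs_nonneg _)).trans h5
        _ = 4 * B * Real.sqrt E / (j + 1) := by ring
        _ ≤ _ := by gcongr; rw [add_assoc]; exact le_add_of_nonneg_right (by positivity)
    · rw [h.Δ_comp hw isOpen_univ hθ.contDiffOn (fun _ => mem_univ _), hΓ, h.Δ_sub hu' (h.S_const 1),
        h.Δ_const, h.Δ_cmul _ hu, sub_zero]
      have h6 : |h.Δ (h.P 1 (f j)) y| ≤ 1 + n * E := by
        nlinarith [sq_nonneg (|h.Δ (h.P 1 (f j)) y| - 1), sq_abs (h.Δ (h.P 1 (f j)) y),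
          abs_nonneg (h.Δ (h.P 1 (f j)) y)]
      refine (abs_add_le _ _).trans ?_
      rw [abs_mul, abs_mul, abs_mul, abs_of_pos hq0, abs_of_nonneg (mul_nonneg (sq_nonneg _) hG0), sq]
      calc _ ≤ B * (4 / (j + 1) * (1 + n * E)) + B * (4 * (4 / (j + 1)) * E) := by
            gcongr
            · exact (le_add_of_nonneg_right (abs_nonneg _)).trans h5
            · exact (le_add_of_nonneg_left (abs_nonneg _)).trans h5
        _ = (4 * B * (1 + n * E) + 16 * B * E) / (j + 1) := by ring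
        _ ≤ _ := by gcongr; exact le_add_of_nonneg_left (by positivity)
  · filter_upwards [tendsto_natCast_atTop_atTop.eventually_ge_atTop (dist y o)] with j hj
    refine Real.smoothTransition.one_of_one_le ?_
    have h1 := (abs_le.1 (H j y).2.2.2).1
    have h2 : 2 * R j - dist y o ≤ f j y := le_max_left _ _
    rw [le_sub_iff_add_le, div_mul_eq_mul_div, le_div_iff₀ (hR0 j)]
    linarith [hR1 j, hR2 j, hR0 j]

lemma HS.h3b_cut : ∃ (C : ℝ) (χ : ℕ → M → ℝ), (∀ j, h.S (χ j) ∧ HasCompactSupport (χ j) ∧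
    ∀ y, (0 ≤ χ j y ∧ χ j y ≤ 1) ∧ Real.sqrt (h.Γ (χ j) (χ j) y) ≤ C / (j + 1) ∧
      |h.Δ (χ j) y| ≤ C / (j + 1)) ∧ ∀ y, ∀ᶠ j in atTop, χ j y = 1 := by
  rcases isEmpty_or_nonempty M with hM | ⟨⟨o⟩⟩
  · exact ⟨0, fun _ _ => 0, fun j => ⟨h.S_const 0, HasCompactSupport.zero, isEmptyElim⟩, isEmptyElim⟩
  · exact h.cut2 o

omit h in
lemma Geo.h3b_int (g : Geo n M) {a b : ℝ} (hab : a ≤ b) {Q : ℝ → M → ℝ} (hQ : g.STI a b Q) :
    ∫ s in a..b, ∫ y, Q s y ∂g.m = ∫ p, Q p.1 p.2 ∂(volume.restrict (Ioc a b)).prod g.m := by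
  have := g.fin_cpt
  rw [intervalIntegral.integral_of_le hab, integral_prod _ hQ]

omit h in
lemma Geo.h3b_sti (g : Geo n M) {a b c : ℝ} (hab : a ≤ b) {Q Q' : ℝ → M → ℝ}
    (hQ : ContinuousOn (fun p : ℝ × M => Q p.1 p.2) (Ioo a b ×ˢ univ)) (hQ' : g.STI a b Q')
    (hle : ∀ s ∈ Ioo a b, ∀ y, |Q s y| ≤ c * |Q' s y|) : g.STI a b Q ∧
      |∫ s in a..b, ∫ y, Q s y ∂g.m| ≤ c * ∫ p, |Q' p.1 p.2| ∂(volume.restrict (Ioc a b)).prod g.m := by
  have := g.fin_cpt
  have e : (volume.restrict (Ioc a b)).prod g.m = (volume.prod g.m).restrict (Ioo a b ×ˢ univ) := by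
    rw [← Measure.restrict_prod_eq_prod_univ, Measure.restrict_congr_set Ioo_ae_eq_Ioc]
  have hm : MeasurableSet (Ioo a b ×ˢ (univ : Set M)) := measurableSet_Ioo.prod MeasurableSet.univ
  have h1 : ∀ᵐ p ∂(volume.restrict (Ioc a b)).prod g.m, ‖Q p.1 p.2‖ ≤ c * |Q' p.1 p.2| := by
    rw [e]
    filter_upwards [ae_restrict_mem hm] with p hp using hle _ hp.1 _
  have h2 : g.STI a b Q := (hQ'.abs.const_mul c).mono' (e ▸ hQ.aestronglyMeasurable hm) h1
  refine ⟨h2, ?_⟩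
  rw [g.h3b_int hab h2, ← integral_const_mul]
  exact norm_integral_le_of_norm_le (hQ'.abs.const_mul c) h1

omit h in
lemma Geo.h3b_err (g : Geo n M) {J : Set ℝ} {e F : ℝ → M → ℝ} (hJ : IsOpen J) (he : g.Sm J e)
    (hF : g.Sm J F) {a b : ℝ} (hab : a ≤ b) (hs : Ioo a b ⊆ J)
    (h₁ : g.STI a b fun s y => |e s y| * (|F s y| + Real.sqrt (g.Γ (F s) (F s) y))) {C : ℝ}
    {χ : ℕ → M → ℝ} (hχ : ∀ j, g.S (χ j) ∧ HasCompactSupport (χ j) ∧
      ∀ y, (0 ≤ χ j y ∧ χ j y ≤ 1) ∧ Real.sqrt (g.Γ (χ j) (χ j) y) ≤ C / (j + 1) ∧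
        |g.Δ (χ j) y| ≤ C / (j + 1)) :
    (∀ j, g.STI a b fun s y => e s y * (F s y * g.Δ (χ j) y + 2 * g.Γ (F s) (χ j) y)) ∧
      Tendsto (fun j => ∫ s in a..b, ∫ y, e s y * (F s y * g.Δ (χ j) y + 2 * g.Γ (F s) (χ j) y) ∂g.m)
        atTop (𝓝 0) := by
  have key := fun j : ℕ => g.h3b_sti hab (c := 2 * (C / (j + 1)))
    (Q := fun s y => e s y * (F s y * g.Δ (χ j) y + 2 * g.Γ (F s) (χ j) y))
    ((g.Sm_cont (g.Sm_mul he (g.Sm_add (g.Sm_mul hF (Geo.S.Sm (g.S_Δ (hχ j).1) J))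
      (g.Sm_mul (g.Sm_const J 2) (g.Sm_Γ hJ hF (Geo.S.Sm (hχ j).1 J)))))).mono
        (prod_mono_left hs)) h₁ fun s _ y => by
      obtain ⟨-, a1, a2⟩ := (hχ j).2.2 y
      have a3 := (g.abs_Γ_le (F s) (χ j) y).trans (mul_le_mul_of_nonneg_left a1 (Real.sqrt_nonneg _))
      have a4 := abs_add_le (F s y * g.Δ (χ j) y) (2 * g.Γ (F s) (χ j) y)
      rw [abs_mul, abs_mul, abs_two] at a4
      have a5 := mul_le_mul_of_nonneg_left a2 (abs_nonneg (F s y))
      have a6 := mul_nonneg (abs_nonneg (F s y)) ((abs_nonneg _).trans a2)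
      rw [abs_mul, abs_of_nonneg (a := |e s y| * _) (by positivity), mul_left_comm]
      exact mul_le_mul_of_nonneg_left (by linarith) (abs_nonneg _)
  refine ⟨fun j => (key j).1, squeeze_zero_norm (fun j => (key j).2) ?_⟩
  have := ((tendsto_one_div_add_atTop_nhds_zero_nat.const_mul C).const_mul 2).mul_const
    (∫ p, |(|e p.1 p.2| * (|F p.1 p.2| + Real.sqrt (g.Γ (F p.1) (F p.1) p.2)))|
      ∂(volume.restrict (Ioc a b)).prod g.m)
  simpa only [mul_one_div, mul_zero, zero_mul] using this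

omit h in
lemma Geo.h3b_duh (g : Geo n M) {I : Set ℝ} {X Q G : ℝ → M → ℝ} (hX : g.Sm I X) {a b : ℝ}
    (hab : a ≤ b) (hs : Icc a b ⊆ I) {Ψa Ψb : M → ℝ} (ha : Integrable Ψa g.m) (hb : Integrable Ψb g.m)
    (hG : ContinuousOn (fun p : ℝ × M => G p.1 p.2) (I ×ˢ univ)) (hGi : g.STI a b G)
    (hQ : ∀ s ∈ I, ∀ y, X s y = Q s y + G s y) (hQ0 : ∀ s ∈ Icc a b, ∀ y, 0 ≤ Q s y)
    {χ : ℕ → M → ℝ} (hχ : ∀ j, Continuous (χ j) ∧ HasCompactSupport (χ j) ∧ ∀ y, 0 ≤ χ j y ∧ χ j y ≤ 1)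
    (hχ1 : ∀ y, ∀ᶠ j in atTop, χ j y = 1) {β : ℕ → ℝ → ℝ}
    (hβ : ∀ j, IntervalIntegrable (β j) volume a b)
    (hβ' : Tendsto (fun j => ∫ s in a..b, β j s) atTop (𝓝 0))
    (hid : ∀ j, ∫ y, χ j y * Ψb y ∂g.m - ∫ y, χ j y * Ψa y ∂g.m =
      ∫ s in a..b, ((∫ y, χ j y * X s y ∂g.m) + β j s)) :
    g.STI a b Q ∧ ∫ y, Ψb y ∂g.m - ∫ y, Ψa y ∂g.m =
      (∫ s in a..b, ∫ y, Q s y ∂g.m) + ∫ s in a..b, ∫ y, G s y ∂g.m := by
  refine g.cut_limit hab hs hχ hχ1 ha hb (((g.Sm_cont hX).sub hG).congr fun p hp => ?_) hG hQ0 hGi hβ'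
    fun j => ?_
  · simp [hQ _ hp.1]
  · rw [hid, intervalIntegral.integral_add (((g.cont_int (g.Sm_cont hX) (hχ j).1 (hχ j).2.1).mono
      (uIcc_of_le hab ▸ hs)).intervalIntegrable) (hβ j)]
    congr 1
    refine intervalIntegral.integral_congr fun s hs' => ?_
    simp only [hQ s (hs (uIcc_of_le hab ▸ hs'))]

omit h in
lemma Geo.h3b_X (g : Geo n M) {I : Set ℝ} {e F : ℝ → M → ℝ} (hI : IsOpen I) (he : g.Sm I e)
    (hF : g.Sm I F) : g.Sm I fun s y =>
      F s y * (dt e s y - g.Δ (e s) y) + e s y * (dt F s y + g.Δ (F s) y) :=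
  g.Sm_add (g.Sm_mul hF (g.Sm_sub (g.Sm_dt hI he) (g.Sm_Δ hI he)))
    (g.Sm_mul he (g.Sm_add (g.Sm_dt hI hF) (g.Sm_Δ hI hF)))
/-- Duhamel, derivatives on `F`: `cut`, `cut2`, `cut_limit`. -/
theorem HS.duh2 {I : Set ℝ} {e F Q G : ℝ → M → ℝ} (hI : IsOpen I) (he : h.Sm I e) (hF : h.Sm I F)
    {a b : ℝ} (hab : a ≤ b) (hs : Icc a b ⊆ I) (ha : Integrable (fun y => e a y * F a y) h.m)
    (hb : Integrable (fun y => e b y * F b y) h.m)
    (h₁ : h.STI a b fun s y => |e s y| * (|F s y| + Real.sqrt (h.Γ (F s) (F s) y)))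
    (hG : ContinuousOn (fun p : ℝ × M => G p.1 p.2) (I ×ˢ univ)) (hGi : h.STI a b G)
    (hQ : ∀ s ∈ I, ∀ y, F s y * (dt e s y - h.Δ (e s) y) + e s y * (dt F s y + h.Δ (F s) y) =
      Q s y + G s y) (hQ0 : ∀ s ∈ Icc a b, ∀ y, 0 ≤ Q s y) :
    h.STI a b Q ∧ ∫ y, e b y * F b y ∂h.m - ∫ y, e a y * F a y ∂h.m =
      (∫ s in a..b, ∫ y, Q s y ∂h.m) + ∫ s in a..b, ∫ y, G s y ∂h.m := by
  obtain ⟨C, χ, h1, h2⟩ := h.h3b_cut
  obtain ⟨h3, h4⟩ := h.h3b_err hI he hF hab (Ioo_subset_Icc_self.trans hs) h₁ h1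
  exact h.h3b_duh (h.h3b_X hI he hF) hab hs ha hb hG hGi hQ hQ0
    (fun j => ⟨h.S_cont (h1 j).1, (h1 j).2.1, fun y => ((h1 j).2.2 y).1⟩) h2
    (fun j => ((h3 j).slice hab).1) h4 fun j => h.cut hI he hF hab hs (h1 j).1 (h1 j).2.1

/-- Duhamel, derivatives on `e`: `cut'`, `cut2`, `cut_limit`. -/
theorem HS.duh3 {I : Set ℝ} {e F Q G : ℝ → M → ℝ} (hI : IsOpen I) (he : h.Sm I e) (hF : h.Sm I F)
    {a b : ℝ} (hab : a ≤ b) (hs : Icc a b ⊆ I) (ha : Integrable (fun y => e a y * F a y) h.m)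
    (hb : Integrable (fun y => e b y * F b y) h.m)
    (h₁ : h.STI a b fun s y => |F s y| * (|e s y| + Real.sqrt (h.Γ (e s) (e s) y)))
    (hG : ContinuousOn (fun p : ℝ × M => G p.1 p.2) (I ×ˢ univ)) (hGi : h.STI a b G)
    (hQ : ∀ s ∈ I, ∀ y, F s y * (dt e s y - h.Δ (e s) y) + e s y * (dt F s y + h.Δ (F s) y) =
      Q s y + G s y) (hQ0 : ∀ s ∈ Icc a b, ∀ y, 0 ≤ Q s y) :
    h.STI a b Q ∧ ∫ y, e b y * F b y ∂h.m - ∫ y, e a y * F a y ∂h.m =
      (∫ s in a..b, ∫ y, Q s y ∂h.m) + ∫ s in a..b, ∫ y, G s y ∂h.m := by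
  obtain ⟨C, χ, h1, h2⟩ := h.h3b_cut
  obtain ⟨h3, h4⟩ := h.h3b_err hI hF he hab (Ioo_subset_Icc_self.trans hs) h₁ h1
  refine h.h3b_duh (h.h3b_X hI he hF) hab hs ha hb hG hGi hQ hQ0
    (fun j => ⟨h.S_cont (h1 j).1, (h1 j).2.1, fun y => ((h1 j).2.2 y).1⟩) h2
    (fun j => ((h3 j).slice hab).1.neg) ?_ fun j => ?_
  · simpa only [Pi.neg_apply, intervalIntegral.integral_neg, neg_zero] using h4.neg
  · simpa only [Pi.neg_apply, sub_eq_add_neg] using h.cut' hI he hF hab hs (h1 j).1 (h1 j).2.1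

omit h in
lemma h3b_dom {X : Type*} [MeasurableSpace X] {ν : Measure X} {c : ℕ → X → ℝ}
    (hm : ∀ j, AEStronglyMeasurable (c j) ν) (h0 : ∀ j x, 0 ≤ c j x ∧ c j x ≤ 1)
    (h1 : ∀ x, ∀ᶠ j in atTop, c j x = 1) {Ψ : X → ℝ} (hΨ : Integrable Ψ ν) :
    Tendsto (fun j => ∫ x, c j x * Ψ x ∂ν) atTop (𝓝 (∫ x, Ψ x ∂ν)) := by
  refine tendsto_integral_of_dominated_convergence _ (fun j => (hm j).mul hΨ.1) hΨ.norm
    (fun j => Eventually.of_forall fun x => ?_) (Eventually.of_forall fun x => ?_)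
  · rw [norm_mul, Real.norm_of_nonneg (h0 j x).1]
    exact mul_le_of_le_one_left (norm_nonneg _) (h0 j x).2
  · refine tendsto_const_nhds.congr' ?_
    filter_upwards [h1 x] with j hj
    rw [hj, one_mul]

lemma HS.h3b_lim {I : Set ℝ} {e : ℝ → M → ℝ} (hI : IsOpen I) (he : h.Sm I e) {a b : ℝ} (hab : a < b)
    (hs : Icc a b ⊆ I) {w : M → ℝ} (hw : h.Nice w) {χ : M → ℝ} (hχ : Continuous χ)
    (hc : HasCompactSupport χ) : Tendsto (fun s => ∫ y, χ y * (e s y * h.P (b - s) w y) ∂h.m) (𝓝[<] b)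
      (𝓝 (∫ y, χ y * (e b y * w y) ∂h.m)) := by
  obtain ⟨B, hB⟩ := hw.2
  obtain ⟨C, hC⟩ := (isCompact_Icc.prod hc).exists_bound_of_continuousOn
    ((h.Sm_cont he).mono (prod_mono hs (subset_univ _)))
  have hm : ∀ᶠ s in 𝓝[<] b, s ∈ Ioo a b := Ioo_mem_nhdsLT hab
  refine tendsto_integral_filter_of_dominated_convergence (fun y => ‖χ y‖ * (C * B)) ?_ ?_
    ((h.int_cs hχ hc).norm.mul_const _) (Eventually.of_forall fun y => ?_)
  · filter_upwards [hm] with s hs'
    exact (hχ.mul ((h.S_cont (h.Sm_slice he (hs (Ioo_subset_Icc_self hs')))).mul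
      (h.S_cont (h.P_S (sub_pos.2 hs'.2) hw.1.2.1)))).aestronglyMeasurable
  · filter_upwards [hm] with s hs'
    refine Eventually.of_forall fun y => ?_
    by_cases hy : y ∈ tsupport χ
    · have a1 := hC (s, y) ⟨Ioo_subset_Icc_self hs', hy⟩
      rw [norm_mul, norm_mul]
      exact mul_le_mul_of_nonneg_left (mul_le_mul a1 (h.abs_P_le (sub_pos.2 hs'.2) y fun z => (hB z).1)
        (norm_nonneg _) ((norm_nonneg _).trans a1)) (norm_nonneg _)
    · simp [image_eq_zero_of_notMem_tsupport hy]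
  · have a1 : Tendsto (fun s => b - s) (𝓝[<] b) (𝓝[>] 0) := by
      refine tendsto_nhdsWithin_iff.2 ⟨?_, hm.mono fun s hs' => sub_pos.2 hs'.2⟩
      simpa using ((continuous_sub_left b).tendsto b).mono_left nhdsWithin_le_nhds
    have a2 := h.P_tendsto (F := fun _ => w) (x := y) one_pos (fun _ _ => h.S_cont hw.1.1)
      (fun _ _ z => (hB z).1) (((h.S_cont hw.1.1).tendsto y).comp tendsto_snd)
    exact (((h.Sm_deriv hI he (hs (right_mem_Icc.2 hab.le)) y).continuousAt.tendsto.mono_left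
      nhdsWithin_le_nhds).mul (a2.comp a1)).const_mul _
/-- Duality up to the final time.  Recipe: `cut` on `[a,b']`, `b' < b`, with `F s = P (b-s) w` (`Sm_rev`; bounded with bounded gradient, `ge_c`) and `χ j` from `cut2`; let `b' → b` for fixed `j`
(`P σ w → w` pointwise boundedly, `P_tendsto`; dominated convergence on the compact support), then `j → ∞` by dominated convergence (`he₁`, `he₂`). -/
theorem HS.dual {I : Set ℝ} {e : ℝ → M → ℝ} (hI : IsOpen I) (he : h.Sm I e) {a b : ℝ} (hab : a < b)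
    (hs : Icc a b ⊆ I) (he₁ : h.STI a b e) (he₂ : h.STI a b fun s y => dt e s y - h.Δ (e s) y)
    (ha : Integrable (e a) h.m) {w : M → ℝ} (hw : h.S w) (hc : HasCompactSupport w) :
    ∫ y, e b y * w y ∂h.m - ∫ y, e a y * h.P (b - a) w y ∂h.m =
      ∫ s in a..b, ∫ y, (dt e s y - h.Δ (e s) y) * h.P (b - s) w y ∂h.m := by
  have := h.fin_cpt
  obtain ⟨C, χ, h1, h2⟩ := h.h3b_cut
  have hN := h.H1_of_cs hw hc
  obtain ⟨B, hB⟩ := hN.2
  obtain ⟨h3, h4⟩ := h.Sm_rev (h.P_Sm hN.1.2.1) b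
  have hJ : IsOpen (I ∩ Iio b) := hI.inter isOpen_Iio
  have he' : h.Sm (I ∩ Iio b) e := h.Sm_mono he inter_subset_left
  have hF : h.Sm (I ∩ Iio b) fun s => h.P (b - s) w := h.Sm_mono h3 inter_subset_right
  have hsJ : Ioo a b ⊆ I ∩ Iio b := fun s hs' => ⟨hs (Ioo_subset_Icc_self hs'), hs'.2⟩
  have b1 : ∀ s < b, ∀ y, |h.P (b - s) w y| ≤ B := fun s hs' y =>
    h.abs_P_le (sub_pos.2 hs') y fun z => (hB z).1
  have b2 : ∀ s ∈ Ioo a b, ∀ y, Real.sqrt (h.Γ (h.P (b - s) w) (h.P (b - s) w) y) ≤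
      Real.exp (h.k * (b - a)) * Real.sqrt B := fun s hs' y => by
    refine (h.ge_c hw hc (sub_pos.2 hs'.2) y).trans (mul_le_mul (Real.exp_le_exp.2
      (mul_le_mul_of_nonneg_left (by linarith [hs'.1]) h.k_nonneg)) ((le_abs_self _).trans
        (h.abs_P_le (sub_pos.2 hs'.2) y fun z => ?_))
      (h.P_nonneg (sub_pos.2 hs'.2) y fun _ => Real.sqrt_nonneg _) (Real.exp_pos _).le)
    rw [abs_of_nonneg (Real.sqrt_nonneg _)]
    exact Real.sqrt_le_sqrt (hB z).2
  have c1 := (h.Sm_cont he').mono (prod_mono_left hsJ)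
  have c2 := (h.Sm_cont hF).mono (prod_mono_left hsJ)
  have c3 := (h.Sm_cont (h.Sm_Γ hJ hF hF)).mono (prod_mono_left hsJ)
  have c4 := (h.Sm_cont (h.Sm_sub (h.Sm_dt hJ he') (h.Sm_Δ hJ he'))).mono (prod_mono_left hsJ)
  obtain ⟨h5, h6⟩ := h.h3b_err hJ he' hF hab.le hsJ (h.h3b_sti hab.le
    (c := B + Real.exp (h.k * (b - a)) * Real.sqrt B) (c1.abs.mul (c2.abs.add c3.sqrt)) he₁
      fun s hs' y => by
        rw [abs_of_nonneg (by positivity), mul_comm]
        exact mul_le_mul_of_nonneg_right (add_le_add (b1 s hs'.2 y) (b2 s hs' y)) (abs_nonneg _)).1 h1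
  have hG : h.STI a b fun s y => (dt e s y - h.Δ (e s) y) * h.P (b - s) w y :=
    (h.h3b_sti hab.le (c := B) (c4.mul c2) he₂ fun s hs' y => by
      rw [abs_mul, mul_comm]
      exact mul_le_mul_of_nonneg_right (b1 s hs'.2 y) (abs_nonneg _)).1
  have hm : ∀ j, AEStronglyMeasurable (fun p : ℝ × M => χ j p.2) ((volume.restrict (Ioc a b)).prod h.m) :=
    fun j => ((h.S_cont (h1 j).1).comp continuous_snd).aestronglyMeasurable
  have hGj : ∀ j, h.STI a b fun s y => χ j y * ((dt e s y - h.Δ (e s) y) * h.P (b - s) w y) := fun j =>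
    Integrable.bdd_mul (c := 1) hG (hm j) (Eventually.of_forall fun p => by
      rw [Real.norm_of_nonneg ((h1 j).2.2 _).1.1]; exact ((h1 j).2.2 _).1.2)
  have hid : ∀ j, ∫ y, χ j y * (e b y * w y) ∂h.m - ∫ y, χ j y * (e a y * h.P (b - a) w y) ∂h.m =
      (∫ s in a..b, ∫ y, χ j y * ((dt e s y - h.Δ (e s) y) * h.P (b - s) w y) ∂h.m) +
      ∫ s in a..b, ∫ y, e s y * (h.P (b - s) w y * h.Δ (χ j) y + 2 * h.Γ (h.P (b - s) w) (χ j) y) ∂h.m := by
    intro j
    have i1 := ((hGj j).slice hab.le).1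
    have i2 := ((h5 j).slice hab.le).1
    rw [← intervalIntegral.integral_add i1 i2]
    have l1 := (h.h3b_lim hI he hab hs hN (h.S_cont (h1 j).1) (h1 j).2.1).sub_const
      (∫ y, χ j y * (e a y * h.P (b - a) w y) ∂h.m)
    have l2 := ((intervalIntegral.continuousOn_primitive_interval' (i1.add i2) left_mem_uIcc) b
      right_mem_uIcc).mono (s := Ioo a b) (uIcc_of_le hab.le ▸ Ioo_subset_Icc_self)
    rw [ContinuousWithinAt, nhdsWithin_Ioo_eq_nhdsLT hab] at l2
    refine tendsto_nhds_unique_of_eventuallyEq l1 l2 ?_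
    filter_upwards [Ioo_mem_nhdsLT hab] with b' hb'
    have hs' : Icc a b' ⊆ I ∩ Iio b := fun s hs' =>
      ⟨hs ⟨hs'.1, hs'.2.trans hb'.2.le⟩, hs'.2.trans_lt hb'.2⟩
    rw [h.cut hJ he' hF hb'.1.le hs' (h1 j).1 (h1 j).2.1]
    refine intervalIntegral.integral_congr fun s hs'' => ?_
    have hsb : s < b := (hs' (uIcc_of_le hb'.1.le ▸ hs'')).2
    have e1 : ∀ y, dt (fun s => h.P (b - s) w) s y + h.Δ (h.P (b - s) w) y = 0 := fun y => by
      have := h4 s hsb y
      rw [h.P_heat hN.1.2.1 (sub_pos.2 hsb)] at this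
      exact add_eq_zero_iff_eq_neg.2 this
    simp only [e1, mul_zero, add_zero, mul_comm (h.P (b - s) w _) (dt e s _ - _)]
  have m1 := fun j => (h.S_cont (h1 j).1).aestronglyMeasurable (μ := h.m)
  have l1 := (h3b_dom m1 (fun j y => ((h1 j).2.2 y).1) h2 (h.int_cs
    ((h.S_cont (h.Sm_slice he (hs (right_mem_Icc.2 hab.le)))).mul (h.S_cont hw)) hc.mul_left)).sub
    (h3b_dom m1 (fun j y => ((h1 j).2.2 y).1) h2 (ha.mul_bdd
      (h.S_cont (h.P_S (sub_pos.2 hab) hN.1.2.1)).aestronglyMeasurable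
      (Eventually.of_forall (b1 a hab))))
  have l2 := (h3b_dom hm (fun j p => ((h1 j).2.2 p.2).1) (fun p => h2 p.2) hG).add h6
  rw [add_zero, ← h.h3b_int hab.le hG] at l2
  refine tendsto_nhds_unique_of_eventuallyEq l1 l2 (Eventually.of_forall fun j => ?_)
  exact (hid j).trans (by rw [h.h3b_int hab.le (hGj j)])

/-- Weak Laplacian comparison.  Recipe: `η = R - f'`, `f'` from `approx` for `(R - d(·,p))₊` with `δ = r₀`; `F r = P (t r²) (η²)/(2r)` on `[r₀,1]` (write `η² = (η² - R²) + R²`, `P_const`, `Sm_reparam`);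
`∂ᵣ(η²/2r) = -η²/2r² ≤ -Γ(η²/2r)/(2(1+δ)²)`; `ge_dim` gives `dt F + ℓ√ΓF ≤ e^{2kt}(1+δ)²(ℓ²/2 + n t)`; `path` from `p` to `x` with `ℓ = d/(1-r₀)`;
`F r₀ p = O(r₀)` (`poincare`, `lip_P`-type bound); `r₀ → 0`, then `R → ∞` (Fatou). -/
theorem HS.moment2 {t : ℝ} (ht : 0 < t) (p x : M) :
    Integrable (fun y => h.H t x y * dist p y ^ 2) h.m ∧
      h.P t (fun y => dist p y ^ 2) x ≤ Real.exp (2 * h.k * t) * (dist p x ^ 2 + 2 * n * t) := by
  refine h3c_fatou (f := fun (j : ℕ) y => h.H t x y * min (dist p y) j ^ 2) (fun j => ?_)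
    (fun j y => mul_nonneg (h.H_nonneg ht x y) (sq_nonneg _))
    (fun j => h.h3c_trunc ht p x (Nat.cast_nonneg j) fun hf hc s hs => (h.lip_P hf hc hs p).2.2.2) fun y => ?_
  · refine h.int_bdd ht x (by fun_prop) (B := (j : ℝ) ^ 2) fun y => ?_
    have h0 : 0 ≤ min (dist p y) (j : ℝ) := le_min dist_nonneg (Nat.cast_nonneg j)
    rw [abs_pow, abs_of_nonneg h0]
    exact pow_le_pow_left₀ h0 (min_le_right _ _) 2
  · refine tendsto_const_nhds.congr' ?_
    filter_upwards [tendsto_natCast_atTop_atTop.eventually_ge_atTop (dist p y)] with j hj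
    rw [min_eq_left hj]

omit h in
lemma h3d_fatou {μ : Measure M} {f : ℕ → M → ℝ} {g : M → ℝ} {C : ℝ} (hf : ∀ j, Integrable (f j) μ)
    (h0 : ∀ j y, 0 ≤ f j y) (hg : ∀ y, Tendsto (fun j => f j y) atTop (𝓝 (g y)))
    (hC : ∀ j, ∫ y, f j y ∂μ ≤ C) : Integrable g μ ∧ ∫ y, g y ∂μ ≤ C := by
  have hC0 : 0 ≤ C := (integral_nonneg (h0 0)).trans (hC 0)
  have hg0 : ∀ y, 0 ≤ g y := fun y => ge_of_tendsto' (hg y) fun j => h0 j y
  have hm : AEStronglyMeasurable g μ :=
    aestronglyMeasurable_of_tendsto_ae _ (fun j => (hf j).1) (Eventually.of_forall hg)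
  have h1 : ∫⁻ y, ENNReal.ofReal (g y) ∂μ ≤ ENNReal.ofReal C := by
    have e : ∀ y, ENNReal.ofReal (g y) = liminf (fun j => ENNReal.ofReal (f j y)) atTop := fun y =>
      ((ENNReal.continuous_ofReal.tendsto _).comp (hg y)).liminf_eq.symm
    simp_rw [e]
    refine (lintegral_liminf_le' fun j => (hf j).1.aemeasurable.ennreal_ofReal).trans ?_
    refine liminf_le_of_frequently_le' (Frequently.of_forall fun j => ?_)
    rw [← ofReal_integral_eq_lintegral_ofReal (hf j) (Eventually.of_forall (h0 j))]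
    exact ENNReal.ofReal_le_ofReal (hC j)
  have hi : Integrable g μ :=
    ⟨hm, (hasFiniteIntegral_iff_ofReal (Eventually.of_forall hg0)).2 (h1.trans_lt ENNReal.ofReal_lt_top)⟩
  refine ⟨hi, ?_⟩
  rw [← ofReal_integral_eq_lintegral_ofReal hi (Eventually.of_forall hg0)] at h1
  exact (ENNReal.ofReal_le_ofReal_iff hC0).1 h1

lemma HS.h3d_exp {v : M → ℝ} (hv : h.S v) (a b : ℝ) (y : M) :
    h.Δ (fun y => -Real.exp (a + b * v y)) y =
      -Real.exp (a + b * v y) * (b * h.Δ v y + b ^ 2 * h.Γ v v y) ∧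
    h.Γ (fun y => -Real.exp (a + b * v y)) (fun y => -Real.exp (a + b * v y)) y =
      (Real.exp (a + b * v y) * b) ^ 2 * h.Γ v v y := by
  have hφ : ContDiff ℝ ∞ fun r : ℝ => -Real.exp (a + b * r) := by fun_prop
  have hd : ∀ c : ℝ, deriv (fun r : ℝ => c * Real.exp (a + b * r)) =
      fun r => (c * b) * Real.exp (a + b * r) := by
    intro c
    funext r
    have : HasDerivAt (fun r : ℝ => a + b * r) b r := by
      simpa using ((hasDerivAt_id r).const_mul b).const_add a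
    rw [(this.exp.const_mul c).deriv]
    ring
  have e : (fun r : ℝ => -Real.exp (a + b * r)) = fun r => (-1) * Real.exp (a + b * r) := by
    funext r; ring
  have h1 : deriv (fun r : ℝ => -Real.exp (a + b * r)) = fun r => (-1 * b) * Real.exp (a + b * r) := by
    rw [e, hd]
  constructor
  · rw [h.Δ_comp (φ := fun r : ℝ => -Real.exp (a + b * r)) hv isOpen_univ hφ.contDiffOn
      (fun _ => mem_univ _), h1, hd]
    ring
  · rw [h.Γ_comp_left (φ := fun r : ℝ => -Real.exp (a + b * r)) hv isOpen_univ hφ.contDiffOn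
      (fun _ => mem_univ _), h.Γ_comm, h.Γ_comp_left (φ := fun r : ℝ => -Real.exp (a + b * r)) hv
      isOpen_univ hφ.contDiffOn (fun _ => mem_univ _), h1]
    ring

lemma HS.h3d_core {f : M → ℝ} (hf : ∀ x y, |f x - f y| ≤ dist x y) (hc : HasCompactSupport f)
    {t T l : ℝ} (ht : 0 < t) (hT : t < T) (hl : 0 ≤ l) (x : M) :
    h.P t (fun y => Real.exp (-l * h.P (T - t) f y)) x ≤
      Real.exp (l ^ 2 * Real.exp (2 * h.k * T) * T + -l * h.P T f x) := by
  obtain ⟨hf2, B, hB⟩ := (h.lip_P hf hc ht x).1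
  have hT0 : 0 < T := ht.trans hT
  set c : ℝ := l ^ 2 * Real.exp (2 * h.k * T) with hcdef
  have hc0 : 0 ≤ c := by positivity
  have hB0 : 0 ≤ B := (abs_nonneg _).trans (hB x)
  obtain ⟨hv, hvd⟩ := h.Sm_rev (h.P_Sm hf2) T
  let F : ℝ → M → ℝ := fun s y => -Real.exp (c * (T - s) + -l * h.P (T - s) f y)
  have hF : h.Sm (Iio T) F :=
    h.Sm_comp' (φ := fun r => -Real.exp r) (h.Sm_add (h.Sm_time (a := fun s => c * (T - s)) (by fun_prop))
      (h.g1a_cmul (-l) hv)) (by fun_prop)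
  have hΓ : ∀ s ∈ Ioo 0 T, ∀ y, h.Γ (h.P (T - s) f) (h.P (T - s) f) y ≤ Real.exp (2 * h.k * T) := by
    intro s hs y
    refine (h.lip_P hf hc (sub_pos.2 hs.2) y).2.1.trans (Real.exp_le_exp.2 ?_)
    have := h.k_nonneg
    nlinarith [hs.1]
  have hE : ∀ s ∈ Ioo 0 T, ∀ y, Real.exp (c * (T - s) + -l * h.P (T - s) f y) ≤ Real.exp (c * T + l * B) := by
    intro s hs y
    refine Real.exp_le_exp.2 ?_
    have h1 := (abs_le.1 (h.abs_P_le (sub_pos.2 hs.2) y hB)).1
    nlinarith [hs.1, mul_nonneg hc0 hs.1.le, mul_le_mul_of_nonneg_left h1 hl]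
  have hFb : ∀ s ∈ Ioo 0 T, ∀ y, |F s y| ≤ Real.exp (c * T + l * B) := by
    intro s hs y
    simp only [F, abs_neg, Real.abs_exp]
    exact hE s hs y
  have hFc : ∀ s ∈ Ioo 0 T, Continuous (F s) := fun s hs => h.S_cont (h.Sm_slice hF hs.2)
  have hF' : h.Sm (Ioo 0 T) F := h.Sm_mono hF Ioo_subset_Iio_self
  have he : h.Sm (Ioo 0 T) fun s => h.H s x := h.Sm_mono (h.H_Sm x) Ioo_subset_Ioi_self
  have hint : ∀ s ∈ Ioo 0 T, Integrable (fun y => h.H s x y * F s y) h.m := fun s hs =>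
    h.int_bdd hs.1 x (hFc s hs).aestronglyMeasurable (hFb s hs)
  have key : ∀ a ∈ Ioo 0 t, h.P a (F a) x ≤ h.P t (F t) x := by
    intro a ha
    have hs : Icc a t ⊆ Ioo 0 T := fun s hs => ⟨ha.1.trans_le hs.1, hs.2.trans_lt hT⟩
    have h₁ : h.STI a t fun s y => |h.H s x y| * (|F s y| + Real.sqrt (h.Γ (F s) (F s) y)) := by
      refine h.STI_of_bound (B := Real.exp (c * T + l * B) +
        Real.exp (c * T + l * B) * l * Real.sqrt (Real.exp (2 * h.k * T))) hs ((h.Sm_cont he).abs.mul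
        ((h.Sm_cont hF').abs.add (h.Sm_cont (h.Sm_Γ isOpen_Ioo hF' hF')).sqrt)) fun s hs' => ?_
      have hs0 := hs hs'
      have hb : ∀ y, |(|F s y| + Real.sqrt (h.Γ (F s) (F s) y))| ≤ Real.exp (c * T + l * B) +
          Real.exp (c * T + l * B) * l * Real.sqrt (Real.exp (2 * h.k * T)) := by
        intro y
        rw [abs_of_nonneg (by positivity)]
        refine add_le_add (hFb s hs0 y) ?_
        rw [(h.h3d_exp (h.P_S (sub_pos.2 hs0.2) hf2) _ _ y).2, Real.sqrt_mul (sq_nonneg _),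
          Real.sqrt_sq_eq_abs, abs_mul, abs_neg, abs_of_nonneg hl, Real.abs_exp]
        exact mul_le_mul (mul_le_mul_of_nonneg_right (hE s hs0 y) hl) (Real.sqrt_le_sqrt (hΓ s hs0 y))
          (Real.sqrt_nonneg _) (by positivity)
      have hm : Continuous fun y => |F s y| + Real.sqrt (h.Γ (F s) (F s) y) :=
        (hFc s hs0).abs.add (h.S_cont (h.S_Γ (h.Sm_slice hF' hs0) (h.Sm_slice hF' hs0))).sqrt
      have e1 : (fun y => |h.H s x y| * (|F s y| + Real.sqrt (h.Γ (F s) (F s) y))) =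
          fun y => h.H s x y * (|F s y| + Real.sqrt (h.Γ (F s) (F s) y)) := by
        funext y; rw [abs_of_nonneg (h.H_nonneg hs0.1 x y)]
      have e2 : (fun y => |(|h.H s x y| * (|F s y| + Real.sqrt (h.Γ (F s) (F s) y)))|) =
          fun y => h.H s x y * (|F s y| + Real.sqrt (h.Γ (F s) (F s) y)) := by
        funext y; rw [abs_of_nonneg (by positivity), abs_of_nonneg (h.H_nonneg hs0.1 x y)]
      refine ⟨?_, ?_⟩
      · rw [e1]; exact h.int_bdd hs0.1 x hm.aestronglyMeasurable hb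
      · rw [e2]; exact (le_abs_self _).trans (h.abs_P_le hs0.1 x hb)
    have hQ0 : ∀ s ∈ Icc a t, ∀ y, 0 ≤ h.H s x y * (Real.exp (c * (T - s) + -l * h.P (T - s) f y) *
        (c - l ^ 2 * h.Γ (h.P (T - s) f) (h.P (T - s) f) y)) := fun s hs' y =>
      mul_nonneg (h.H_nonneg (hs hs').1 x y) (mul_nonneg (Real.exp_pos _).le
        (sub_nonneg.2 (mul_le_mul_of_nonneg_left (hΓ s (hs hs') y) (sq_nonneg l))))
    have hd := (h.duh2 (G := fun _ _ => 0) isOpen_Ioo he hF' ha.2.le hs (hint a (hs ⟨le_rfl, ha.2.le⟩))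
      (hint t ⟨ht, hT⟩) h₁ continuousOn_const (integrable_zero _ _ _) (fun s hs' y => ?_) hQ0).2
    · have h2 : 0 ≤ ∫ s in a..t, ∫ y, h.H s x y * (Real.exp (c * (T - s) + -l * h.P (T - s) f y) *
          (c - l ^ 2 * h.Γ (h.P (T - s) f) (h.P (T - s) f) y)) ∂h.m :=
        intervalIntegral.integral_nonneg ha.2.le fun s hs' => integral_nonneg (hQ0 s hs')
      simp only [integral_zero, intervalIntegral.integral_zero, add_zero] at hd
      have : h.P t (F t) x - h.P a (F a) x = _ := hd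
      linarith
    · have d1 : HasDerivAt (fun s => h.P (T - s) f y) (-h.Δ (h.P (T - s) f) y) s := by
        have := h.Sm_deriv isOpen_Iio hv hs'.2 y
        rw [hvd s hs'.2 y, h.P_heat hf2 (sub_pos.2 hs'.2) y] at this
        exact this
      have d2 : HasDerivAt (fun s => c * (T - s)) (c * -1) s :=
        ((hasDerivAt_id s).const_sub T).const_mul c
      have d3 : dt F s y = _ := Geo.dt_eq (d2.add (d1.const_mul (-l))).exp.neg
      rw [d3, h.H_heat hs'.1 x y, (h.h3d_exp (h.P_S (sub_pos.2 hs'.2) hf2) _ _ y).1]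
      simp only [Pi.add_apply]
      ring
  have hlim : Tendsto (fun s => h.P s (F s) x) (𝓝[>] 0) (𝓝 (F 0 x)) := by
    refine h.P_tendsto hT0 hFc hFb ?_
    have := (h.Sm_cont hF).continuousAt (x := (0, x))
      ((isOpen_Iio.prod isOpen_univ).mem_nhds ⟨hT0, mem_univ _⟩)
    refine this.tendsto.mono_left ?_
    rw [nhds_prod_eq]
    exact prod_mono nhdsWithin_le_nhds le_rfl
  have h3 : F 0 x ≤ h.P t (F t) x :=
    le_of_tendsto hlim (by filter_upwards [Ioo_mem_nhdsGT ht] with a ha using key a ha)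
  have h4 : h.P t (F t) x ≤ h.P t (fun y => -1 * Real.exp (-l * h.P (T - t) f y)) x := by
    have hP : Continuous (h.P (T - t) f) := h.S_cont (h.P_S (sub_pos.2 hT) hf2)
    refine h.P_mono ht (hint t ⟨ht, hT⟩) (h.int_bdd ht x (by fun_prop : Continuous _).aestronglyMeasurable
      (B := Real.exp (l * B)) fun y => ?_) fun y => ?_
    · rw [abs_mul, abs_neg, abs_one, one_mul, Real.abs_exp]
      refine Real.exp_le_exp.2 ?_
      have h1 := (abs_le.1 (h.abs_P_le (sub_pos.2 hT) y hB)).1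
      nlinarith [mul_le_mul_of_nonneg_left h1 hl]
    · simp only [F]
      have : Real.exp (-l * h.P (T - t) f y) ≤ Real.exp (c * (T - t) + -l * h.P (T - t) f y) :=
        Real.exp_le_exp.2 (le_add_of_nonneg_left (mul_nonneg hc0 (sub_pos.2 hT).le))
      linarith
  rw [h.P_cmul] at h4
  simp only [F, sub_zero] at h3
  linarith

lemma HS.h3d_trunc {t l : ℝ} (ht : 0 < t) (hl : 0 ≤ l) (x : M) {R : ℝ} (hR : 0 ≤ R) :
    h.P t (fun y => Real.exp (l * min (dist x y) R)) x ≤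
      Real.exp (l * Real.sqrt (2 * n * t) * Real.exp (h.k * t) + l ^ 2 * t * Real.exp (2 * h.k * t)) := by
  let f : M → ℝ := fun y => R - min (dist x y) R
  have hf : ∀ y z, |f y - f z| ≤ dist y z := by
    intro y z
    have h1 : f y - f z = min (dist x z) R - min (dist x y) R := by simp only [f]; ring
    rw [h1]
    refine (abs_min_sub_min_le_max _ _ _ _).trans ?_
    rw [sub_self, abs_zero, max_eq_left (abs_nonneg _), dist_comm x z, dist_comm x y, abs_sub_comm]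
    exact abs_dist_sub_le y z x
  have hc : HasCompactSupport f :=
    HasCompactSupport.intro (isCompact_closedBall x R) fun y hy => by
      have : R ≤ dist x y := by
        rw [mem_closedBall, dist_comm, not_le] at hy
        exact hy.le
      simp only [f, min_eq_right this, sub_self]
  have hfx : f x = R := by simp only [f, dist_self, min_eq_left hR, sub_zero]
  obtain ⟨hf2, B, hB⟩ := (h.lip_P hf hc ht x).1
  let ρ : ℝ → ℝ := fun s => Real.sqrt (2 * n * s) * Real.exp (h.k * s)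
  have key : ∀ σ, 0 < σ → h.P t (fun y => Real.exp (l * min (dist x y) R)) x ≤
      Real.exp (l * ρ σ + l ^ 2 * Real.exp (2 * h.k * (t + σ)) * (t + σ) + l * ρ (t + σ)) := by
    intro σ hσ
    have h1 := h.h3d_core hf hc ht (lt_add_of_pos_right t hσ) hl x
    rw [add_sub_cancel_left] at h1
    have hP : Continuous (h.P σ f) := h.S_cont (h.P_S hσ hf2)
    have h2 : h.P t (fun y => Real.exp (l * min (dist x y) R)) x ≤
        h.P t (fun y => Real.exp (l * (R + ρ σ)) * Real.exp (-l * h.P σ f y)) x := by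
      refine h.P_mono ht (h.int_bdd ht x (by fun_prop : Continuous _).aestronglyMeasurable
        (B := Real.exp (l * R)) fun y => ?_) (h.int_bdd ht x (by fun_prop : Continuous _).aestronglyMeasurable
        (B := Real.exp (l * (R + ρ σ)) * Real.exp (l * B)) fun y => ?_) fun y => ?_
      · rw [Real.abs_exp]
        exact Real.exp_le_exp.2 (mul_le_mul_of_nonneg_left (min_le_right _ _) hl)
      · rw [abs_mul, Real.abs_exp, Real.abs_exp]
        refine mul_le_mul_of_nonneg_left (Real.exp_le_exp.2 ?_) (Real.exp_pos _).le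
        have h3 := (abs_le.1 (h.abs_P_le hσ y hB)).1
        nlinarith [mul_le_mul_of_nonneg_left h3 hl]
      · rw [← Real.exp_add]
        refine Real.exp_le_exp.2 ?_
        have h3 : h.P σ f y - (R - min (dist x y) R) ≤ ρ σ := (abs_le.1 (h.lip_P hf hc hσ y).2.2.2).2
        nlinarith [mul_le_mul_of_nonneg_left h3 hl]
    rw [h.P_cmul] at h2
    refine h2.trans ((mul_le_mul_of_nonneg_left h1 (Real.exp_pos _).le).trans ?_)
    rw [← Real.exp_add]
    refine Real.exp_le_exp.2 ?_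
    have h3 : -ρ (t + σ) ≤ h.P (t + σ) f x - f x := (abs_le.1 (h.lip_P hf hc (add_pos ht hσ) x).2.2.2).1
    rw [hfx] at h3
    nlinarith [mul_le_mul_of_nonneg_left h3 hl]
  have hcont : Continuous fun σ =>
      Real.exp (l * ρ σ + l ^ 2 * Real.exp (2 * h.k * (t + σ)) * (t + σ) + l * ρ (t + σ)) := by
    simp only [ρ]; fun_prop
  have h5 := ge_of_tendsto ((hcont.tendsto 0).mono_left (nhdsWithin_le_nhds (s := Ioi 0)))
    (eventually_nhdsWithin_of_forall key)
  refine h5.trans (le_of_eq ?_)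
  simp only [ρ, mul_zero, Real.sqrt_zero, zero_mul, add_zero, zero_add]
  congr 1
  ring

/-- Exponential moments.  Recipe: `f' ≈ (R - d(x,·))₊` smooth, `F s = exp(-λ P (t-s) f') - 1`, `duh1` with the factor `exp(λ²(1+δ)² e^{2kt}(t-s))`; `(∂ₛ+Δ) exp(-λ v) = λ² Γ(v) exp(-λ v)`;
so `P t e^{-λ f'} ≤ exp(-λ P t f' + λ²(1+δ)²e^{2kt} t)`; multiply by `e^{λR}`, `lip_P`, `δ → 0`, `R → ∞`. -/
theorem HS.moment_exp {t l : ℝ} (ht : 0 < t) (hl : 0 ≤ l) (x : M) :
    Integrable (fun y => h.H t x y * Real.exp (l * dist x y)) h.m ∧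
      h.P t (fun y => Real.exp (l * dist x y)) x ≤
        Real.exp (l * Real.sqrt (2 * n * t) * Real.exp (h.k * t) + l ^ 2 * t * Real.exp (2 * h.k * t)) := by
  refine h3d_fatou (f := fun (j : ℕ) y => h.H t x y * Real.exp (l * min (dist x y) j)) (fun j => ?_)
    (fun j y => mul_nonneg (h.H_nonneg ht x y) (Real.exp_pos _).le) (fun y => ?_)
    fun j => h.h3d_trunc ht hl x (Nat.cast_nonneg j)
  · refine h.int_bdd ht x (by fun_prop : Continuous _).aestronglyMeasurable (B := Real.exp (l * j)) fun y => ?_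
    rw [Real.abs_exp]
    exact Real.exp_le_exp.2 (mul_le_mul_of_nonneg_left (min_le_right _ _) hl)
  · refine tendsto_const_nhds.congr' ?_
    filter_upwards [tendsto_natCast_atTop_atTop.eventually_ge_atTop (dist x y)] with j hj
    rw [min_eq_left hj]

omit h in
lemma h3d_clamp {K : ℝ} (hK : 0 < K) (r : ℝ) : |r - max (-K) (min K r)| ≤ r ^ 2 / K := by
  rw [le_div_iff₀ hK]
  rcases le_total r K with h1 | h1
  · rw [min_eq_right h1]
    rcases le_total (-K) r with h2 | h2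
    · rw [max_eq_right h2, sub_self, abs_zero, zero_mul]; positivity
    · rw [max_eq_left h2, abs_of_nonpos (by linarith)]; nlinarith
  · rw [min_eq_left h1, max_eq_right (by linarith), abs_of_nonneg (by linarith)]; nlinarith

/-- Continuity at time zero for data of exponential growth (`P_tendsto` for the truncation, `moment_exp` for the tail). -/
theorem HS.P_tendsto_gr {F : ℝ → M → ℝ} {x o : M} {B R ε : ℝ} (hε : 0 < ε)
    (hm : ∀ s ∈ Ioo 0 ε, Continuous (F s))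
    (hB : ∀ s ∈ Ioo 0 ε, ∀ y, |F s y| ≤ B * Real.exp (R * dist o y)) {l : ℝ}
    (hF : Tendsto (fun p : ℝ × M => F p.1 p.2) (𝓝[>] 0 ×ˢ 𝓝 x) (𝓝 l)) :
    Tendsto (fun s => h.P s (F s) x) (𝓝[>] 0) (𝓝 l) := by
  set L : ℝ := 2 * |R| with hL
  have hL0 : 0 ≤ L := by positivity
  set A : ℝ := B ^ 2 * Real.exp (L * dist o x) with hA
  have hA0 : 0 ≤ A := by positivity
  set C : ℝ := Real.exp (L * Real.sqrt (2 * n * ε) * Real.exp (h.k * ε) + L ^ 2 * ε * Real.exp (2 * h.k * ε))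
    with hC
  have hC0 : 0 < C := Real.exp_pos _
  have hsq : ∀ s ∈ Ioo 0 ε, ∀ y, F s y ^ 2 ≤ A * Real.exp (L * dist x y) := by
    intro s hs y
    have h1 : F s y ^ 2 ≤ (B * Real.exp (R * dist o y)) ^ 2 := by
      rw [← sq_abs (F s y)]
      exact pow_le_pow_left₀ (abs_nonneg _) (hB s hs y) 2
    refine h1.trans ?_
    rw [mul_pow, hA, mul_assoc, ← Real.exp_add, ← Real.exp_nat_mul]
    refine mul_le_mul_of_nonneg_left (Real.exp_le_exp.2 ?_) (sq_nonneg B)
    have h2 := mul_le_mul_of_nonneg_right (le_abs_self R) (dist_nonneg (x := o) (y := y))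
    have h3 := mul_le_mul_of_nonneg_left (dist_triangle o x y) (abs_nonneg R)
    push_cast
    nlinarith
  have hmom : ∀ s ∈ Ioo 0 ε, h.P s (fun y => Real.exp (L * dist x y)) x ≤ C := by
    intro s hs
    refine (h.moment_exp hs.1 hL0 x).2.trans (Real.exp_le_exp.2 ?_)
    have := h.k_nonneg
    have := hs.1
    have := hs.2
    gcongr
  rw [Metric.tendsto_nhds]
  intro η hη
  obtain ⟨K, hK1, hK2⟩ : ∃ K : ℝ, |l| + 1 ≤ K ∧ A * C / K ≤ η / 2 := by
    refine ⟨max (|l| + 1) (2 * A * C / η), le_max_left _ _, ?_⟩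
    rw [div_le_iff₀ (lt_max_of_lt_left (by positivity))]
    have h1 := mul_le_mul_of_nonneg_left (le_max_right (|l| + 1) (2 * A * C / η)) (half_pos hη).le
    refine le_trans (le_of_eq ?_) h1
    field_simp
  have hK : 0 < K := lt_of_lt_of_le (by positivity) hK1
  have hcl : Continuous fun r : ℝ => max (-K) (min K r) := by fun_prop
  have hGb : ∀ s ∈ Ioo 0 ε, ∀ y, |max (-K) (min K (F s y))| ≤ K := fun s _ y =>
    abs_le.2 ⟨le_max_left _ _, max_le (by linarith) (min_le_left _ _)⟩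
  have hG : Tendsto (fun s => h.P s (fun y => max (-K) (min K (F s y))) x) (𝓝[>] 0) (𝓝 l) := by
    refine h.P_tendsto (F := fun s y => max (-K) (min K (F s y))) hε (fun s hs => hcl.comp (hm s hs)) hGb ?_
    have h1 := (hcl.tendsto l).comp hF
    have h2 := abs_le.1 (show |l| ≤ K by linarith)
    rwa [min_eq_right h2.2, max_eq_right h2.1] at h1
  filter_upwards [Metric.tendsto_nhds.1 hG (η / 2) (half_pos hη), Ioo_mem_nhdsGT hε] with s h1 hs
  have hi := (h.moment_exp hs.1 hL0 x).1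
  have hi' : Integrable (fun y => h.H s x y * (A / K * Real.exp (L * dist x y))) h.m := by
    simpa only [mul_left_comm _ (A / K)] using hi.const_mul (A / K)
  have hle : ∀ y, |F s y - max (-K) (min K (F s y))| ≤ A / K * Real.exp (L * dist x y) := fun y => by
    refine (h3d_clamp hK _).trans ?_
    rw [div_mul_eq_mul_div]
    exact div_le_div_of_nonneg_right (hsq s hs y) hK.le
  have hiG : Integrable (fun y => h.H s x y * max (-K) (min K (F s y))) h.m :=
    h.int_bdd hs.1 x (hcl.comp (hm s hs)).aestronglyMeasurable (hGb s hs)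
  have hiD : Integrable (fun y => h.H s x y * (F s y - max (-K) (min K (F s y)))) h.m := by
    refine hi'.mono' ((h.H_cont hs.1 x).mul ((hm s hs).sub (hcl.comp (hm s hs)))).aestronglyMeasurable
      (Eventually.of_forall fun y => ?_)
    rw [Real.norm_eq_abs, abs_mul, abs_of_nonneg (h.H_nonneg hs.1 x y)]
    exact mul_le_mul_of_nonneg_left (hle y) (h.H_nonneg hs.1 x y)
  have h2 := h.abs_P_le_P hs.1 hi' hle
  rw [h.P_cmul] at h2
  have h3 : A / K * h.P s (fun y => Real.exp (L * dist x y)) x ≤ η / 2 := by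
    refine (mul_le_mul_of_nonneg_left (hmom s hs) (by positivity)).trans ?_
    rwa [div_mul_eq_mul_div]
  have h4 := h.P_add hiD hiG
  simp only [sub_add_cancel] at h4
  rw [Real.dist_eq] at h1 ⊢
  have h5 : h.P s (F s) x = _ := h4
  rw [h5, add_sub_assoc]
  exact (abs_add_le _ _).trans_lt (by linarith)

/-- Domination under the heat kernel. -/
theorem HS.h3e_dom {t : ℝ} (ht : 0 < t) (x : M) {f g : M → ℝ} (hf : AEStronglyMeasurable f h.m)
    (hfg : ∀ y, |f y| ≤ g y) (hg : Integrable (fun y => h.H t x y * g y) h.m) :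
    Integrable (fun y => h.H t x y * f y) h.m ∧ |h.P t f x| ≤ h.P t g x := by
  have hb : ∀ y, ‖h.H t x y * f y‖ ≤ h.H t x y * g y := fun y => by
    rw [Real.norm_eq_abs, abs_mul, abs_of_nonneg (h.H_nonneg ht x y)]
    exact mul_le_mul_of_nonneg_left (hfg y) (h.H_nonneg ht x y)
  refine ⟨hg.mono' ((h.H_int ht x).1.aestronglyMeasurable.mul hf) (Eventually.of_forall hb), ?_⟩
  exact norm_integral_le_of_norm_le hg (Eventually.of_forall hb)

omit h in
theorem h3e_pt (u : ℝ) (hu : 0 ≤ u) :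
    u ^ 2 / 8 ≤ 1 / 8 - (⌊u⌋₊ : ℝ) ^ 2 / 8 + (⌊u⌋₊ : ℝ) / 4 * u := by
  have h1 := Nat.floor_le hu
  have h2 := Nat.lt_floor_add_one u
  nlinarith

omit h in
theorem h3e_exp_le {a : ℝ} (ha : a ≤ 1 / 5) : Real.exp a ≤ 5 / 4 := by
  have h1 := Real.add_one_le_exp (-a)
  have h2 : Real.exp a * Real.exp (-a) = 1 := by rw [← Real.exp_add]; simp
  nlinarith [Real.exp_pos a]

omit h in
/-- Gaussian moment: `e^{d²/8t} = √(2t/π) ∫ e^{λ d - 2tλ²} dλ ≤ 2 √(2t/π) ∫_{λ ≥ 0} …`, Tonelli and `moment_exp`; or sum the tails. -/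
theorem moment_gauss (n : ℕ) : ∃ C : ℝ, 0 < C ∧ ∀ (X : Sp.{u} n) {t : ℝ}, 0 < t → X.h.k * t ≤ 1 / 10 →
    ∀ x, Integrable (fun y => X.h.H t x y * Real.exp (dist x y ^ 2 / (8 * t))) X.h.m ∧
      X.h.P t (fun y => Real.exp (dist x y ^ 2 / (8 * t))) x ≤ C := by
  set a : ℝ := Real.sqrt (2 * n) with ha
  have ha0 : 0 ≤ a := Real.sqrt_nonneg _
  set K : ℝ := 1 / 8 + 6 * (a + 1) ^ 2 with hK
  have hsum : Summable fun j : ℕ => Real.exp (K - j) := by
    have : (fun j : ℕ => Real.exp (K - j)) = fun j : ℕ => Real.exp K * Real.exp (-(j : ℝ)) := by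
      funext j
      rw [← Real.exp_add, sub_eq_add_neg]
    rw [this]
    exact Real.summable_exp_neg_nat.mul_left _
  refine ⟨∑' j : ℕ, Real.exp (K - j) + 1, ?_, fun X t ht hk x => ?_⟩
  · have : 0 ≤ ∑' j : ℕ, Real.exp (K - j) := tsum_nonneg fun _ => (Real.exp_pos _).le
    linarith
  have hst : 0 < Real.sqrt t := Real.sqrt_pos.2 ht
  have hsq : Real.sqrt t ^ 2 = t := Real.sq_sqrt ht.le
  set F : ℕ → X.M → ℝ := fun j y => Real.exp (1 / 8 - (j : ℝ) ^ 2 / 8) *
    (X.h.H t x y * Real.exp ((j : ℝ) / (4 * Real.sqrt t) * dist x y)) with hF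
  have hm := fun j : ℕ => X.h.moment_exp (l := (j : ℝ) / (4 * Real.sqrt t)) ht (by positivity) x
  have hFi : ∀ j, Integrable (F j) X.h.m := fun j => (hm j).1.const_mul _
  have hF0 : ∀ j y, 0 ≤ F j y := fun j y =>
    mul_nonneg (Real.exp_pos _).le (mul_nonneg (X.h.H_nonneg ht x y) (Real.exp_pos _).le)
  have hFb : ∀ j, ∫ y, F j y ∂X.h.m ≤ Real.exp (K - j) := fun j => by
    rw [hF, integral_const_mul]
    refine (mul_le_mul_of_nonneg_left (hm j).2 (Real.exp_pos _).le).trans ?_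
    rw [← Real.exp_add, Real.exp_le_exp]
    have e1 : Real.exp (X.h.k * t) ≤ 5 / 4 := h3e_exp_le (by linarith)
    have e2 : Real.exp (2 * X.h.k * t) ≤ 5 / 4 := h3e_exp_le (by linarith)
    have e3 : (j : ℝ) / (4 * Real.sqrt t) * Real.sqrt (2 * n * t) = j / 4 * a := by
      rw [Real.sqrt_mul (by positivity), ← ha]
      field_simp
    have e4 : ((j : ℝ) / (4 * Real.sqrt t)) ^ 2 * t = (j : ℝ) ^ 2 / 16 := by
      rw [div_pow, mul_pow, hsq]
      field_simp
      norm_num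
    rw [e3, e4]
    have hj : (0 : ℝ) ≤ j := Nat.cast_nonneg j
    have e5 : (j : ℝ) / 4 * a * Real.exp (X.h.k * t) ≤ j * a := by
      have : 0 ≤ (j : ℝ) * a := mul_nonneg hj ha0
      nlinarith
    have e6 : (j : ℝ) ^ 2 / 16 * Real.exp (2 * X.h.k * t) ≤ 5 / 64 * (j : ℝ) ^ 2 := by
      nlinarith [sq_nonneg (j : ℝ)]
    nlinarith [sq_nonneg ((j : ℝ) - 32 / 3 * (a + 1)), sq_nonneg (a + 1)]
  have hpt : ∀ y, ENNReal.ofReal (X.h.H t x y * Real.exp (dist x y ^ 2 / (8 * t))) ≤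
      ∑' j, ENNReal.ofReal (F j y) := fun y => by
    refine le_trans (ENNReal.ofReal_le_ofReal ?_) (ENNReal.le_tsum ⌊dist x y / Real.sqrt t⌋₊)
    have h1 := h3e_pt (dist x y / Real.sqrt t) (by positivity)
    rw [hF]
    dsimp only
    rw [mul_left_comm, ← Real.exp_add]
    refine mul_le_mul_of_nonneg_left (Real.exp_le_exp.2 ?_) (X.h.H_nonneg ht x y)
    have h2 : (dist x y / Real.sqrt t) ^ 2 / 8 = dist x y ^ 2 / (8 * t) := by
      rw [div_pow, hsq]
      field_simp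
    have h3 : (⌊dist x y / Real.sqrt t⌋₊ : ℝ) / 4 * (dist x y / Real.sqrt t) =
        (⌊dist x y / Real.sqrt t⌋₊ : ℝ) / (4 * Real.sqrt t) * dist x y := by
      field_simp
    linarith
  have hl : ∫⁻ y, ENNReal.ofReal (X.h.H t x y * Real.exp (dist x y ^ 2 / (8 * t))) ∂X.h.m ≤
      ENNReal.ofReal (∑' j : ℕ, Real.exp (K - j)) := by
    refine (lintegral_mono hpt).trans ?_
    rw [lintegral_tsum fun j => (hFi j).aestronglyMeasurable.aemeasurable.ennreal_ofReal,
      ENNReal.ofReal_tsum_of_nonneg (fun _ => (Real.exp_pos _).le) hsum]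
    refine ENNReal.tsum_le_tsum fun j => ?_
    rw [← ofReal_integral_eq_lintegral_ofReal (hFi j) (Eventually.of_forall (hF0 j))]
    exact ENNReal.ofReal_le_ofReal (hFb j)
  have h0 : ∀ y, 0 ≤ X.h.H t x y * Real.exp (dist x y ^ 2 / (8 * t)) := fun y =>
    mul_nonneg (X.h.H_nonneg ht x y) (Real.exp_pos _).le
  have hme : AEStronglyMeasurable (fun y => X.h.H t x y * Real.exp (dist x y ^ 2 / (8 * t))) X.h.m :=
    (X.h.H_int ht x).1.aestronglyMeasurable.mul
      (by fun_prop : Continuous fun y => Real.exp (dist x y ^ 2 / (8 * t))).aestronglyMeasurable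
  have hi : Integrable (fun y => X.h.H t x y * Real.exp (dist x y ^ 2 / (8 * t))) X.h.m :=
    ⟨hme, (hasFiniteIntegral_iff_ofReal (Eventually.of_forall h0)).2 (hl.trans_lt ENNReal.ofReal_lt_top)⟩
  refine ⟨hi, ?_⟩
  rw [← ofReal_integral_eq_lintegral_ofReal hi (Eventually.of_forall h0),
    ENNReal.ofReal_le_ofReal_iff (tsum_nonneg fun _ => (Real.exp_pos _).le)] at hl
  exact hl.trans (le_add_of_nonneg_right zero_le_one)

omit h in
/-- Integrals of functions of exponential growth, also from a different base point. -/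
theorem P_gr (n : ℕ) (R : ℝ) : ∃ C : ℝ, 0 < C ∧ ∀ (X : Sp.{u} n) {s t B : ℝ}, 0 < s → s ≤ 10 ^ 5 * t →
    X.h.k * s ≤ 1 → ∀ (x z : X.M) {f : X.M → ℝ}, AEStronglyMeasurable f X.h.m → Gr x t B R f →
      Integrable (fun y => X.h.H s z y * f y) X.h.m ∧
      |X.h.P s f z| ≤ C * B * Real.exp (|R| * dist x z / Real.sqrt t) := by
  refine ⟨Real.exp (|R| * Real.sqrt (2 * n * 10 ^ 5) * Real.exp 1 + |R| ^ 2 * 10 ^ 5 * Real.exp 2),
    Real.exp_pos _, fun X s t B hs hst hk x z f hf hG => ?_⟩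
  have ht : 0 < t := by linarith
  have hrt : 0 < Real.sqrt t := Real.sqrt_pos.2 ht
  have hsq : Real.sqrt t ^ 2 = t := Real.sq_sqrt ht.le
  have hB : 0 ≤ B := by
    have h1 := (abs_nonneg _).trans (hG x)
    simpa using h1
  have hm := X.h.moment_exp (l := |R| / Real.sqrt t) hs (by positivity) z
  set c : ℝ := B * Real.exp (|R| * dist x z / Real.sqrt t) with hc
  have hc0 : 0 ≤ c := mul_nonneg hB (Real.exp_pos _).le
  have hfg : ∀ y, |f y| ≤ c * Real.exp (|R| / Real.sqrt t * dist z y) := fun y => by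
    refine (hG y).trans ?_
    rw [hc, mul_assoc, ← Real.exp_add]
    refine mul_le_mul_of_nonneg_left (Real.exp_le_exp.2 ?_) hB
    have h1 : R * dist x y ≤ |R| * (dist x z + dist z y) :=
      mul_le_mul (le_abs_self R) (dist_triangle x z y) dist_nonneg (abs_nonneg R)
    calc R * dist x y / Real.sqrt t ≤ |R| * (dist x z + dist z y) / Real.sqrt t := by gcongr
      _ = _ := by ring
  have hg : Integrable (fun y => X.h.H s z y * (c * Real.exp (|R| / Real.sqrt t * dist z y))) X.h.m := by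
    simpa only [mul_left_comm] using hm.1.const_mul c
  obtain ⟨h1, h2⟩ := X.h.h3e_dom hs z hf hfg hg
  refine ⟨h1, h2.trans ?_⟩
  have h3 : X.h.P s (fun y => c * Real.exp (|R| / Real.sqrt t * dist z y)) z =
      c * X.h.P s (fun y => Real.exp (|R| / Real.sqrt t * dist z y)) z := by
    simp only [HS.P, kerP, ← integral_const_mul, mul_left_comm]
  rw [h3, mul_assoc _ B, ← hc, mul_comm _ c]
  refine mul_le_mul_of_nonneg_left (hm.2.trans (Real.exp_le_exp.2 (add_le_add ?_ ?_))) hc0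
  · have e1 : Real.sqrt (2 * n * s) ≤ Real.sqrt (2 * n * 10 ^ 5) * Real.sqrt t := by
      rw [← Real.sqrt_mul (by positivity)]
      refine Real.sqrt_le_sqrt ?_
      have : (0 : ℝ) ≤ 2 * n := by positivity
      nlinarith
    have e2 : |R| / Real.sqrt t * Real.sqrt (2 * n * s) ≤ |R| * Real.sqrt (2 * n * 10 ^ 5) := by
      calc _ ≤ |R| / Real.sqrt t * (Real.sqrt (2 * n * 10 ^ 5) * Real.sqrt t) := by gcongr
        _ = _ := by field_simp
    exact mul_le_mul e2 (Real.exp_le_exp.2 hk) (Real.exp_pos _).le (by positivity)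
  · have e2 : (|R| / Real.sqrt t) ^ 2 * s ≤ |R| ^ 2 * 10 ^ 5 := by
      calc _ ≤ (|R| / Real.sqrt t) ^ 2 * (10 ^ 5 * t) := by gcongr
        _ = _ := by rw [div_pow, hsq]; field_simp
    exact mul_le_mul e2 (Real.exp_le_exp.2 (by linarith)) (Real.exp_pos _).le (by positivity)

omit h in
/-- Tails. -/
theorem P_tail (n : ℕ) (R ε : ℝ) (hε : 0 < ε) : ∃ A : ℝ, 0 < A ∧ ∀ (X : Sp.{u} n) {s t : ℝ}, 0 < s →
    s ≤ t → X.h.k * s ≤ 1 → ∀ x : X.M,
      X.h.P s ({y | A * Real.sqrt t ≤ dist x y}.indicator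
        fun y => Real.exp (R * dist x y / Real.sqrt t)) x ≤ ε := by
  obtain ⟨C, hC, H⟩ := P_gr.{u} n (R + 1)
  refine ⟨C / ε, by positivity, fun X s t hs hst hk x => ?_⟩
  have ht : 0 < t := by linarith
  have hrt : 0 < Real.sqrt t := Real.sqrt_pos.2 ht
  have hG : Gr x t (Real.exp (-(C / ε))) (R + 1) ({y | C / ε * Real.sqrt t ≤ dist x y}.indicator
      fun y => Real.exp (R * dist x y / Real.sqrt t)) := fun y => by
    by_cases hy : y ∈ {y | C / ε * Real.sqrt t ≤ dist x y}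
    · rw [indicator_of_mem hy, abs_of_pos (Real.exp_pos _), ← Real.exp_add, Real.exp_le_exp]
      have h1 : C / ε ≤ dist x y / Real.sqrt t := (le_div_iff₀ hrt).2 hy
      have h2 : (R + 1) * dist x y / Real.sqrt t = R * dist x y / Real.sqrt t + dist x y / Real.sqrt t := by
        ring
      linarith
    · rw [indicator_of_notMem hy, abs_zero]
      positivity
  have hme : AEStronglyMeasurable ({y | C / ε * Real.sqrt t ≤ dist x y}.indicator
      fun y => Real.exp (R * dist x y / Real.sqrt t)) X.h.m :=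
    (by fun_prop : Continuous fun y => Real.exp (R * dist x y / Real.sqrt t)).aestronglyMeasurable.indicator
      (isClosed_le continuous_const (by fun_prop)).measurableSet
  have h1 := (H X hs (by linarith) hk x x hme hG).2
  rw [dist_self, mul_zero, zero_div, Real.exp_zero, mul_one] at h1
  refine (le_abs_self _).trans (h1.trans ?_)
  have h2 := Real.add_one_le_exp (C / ε)
  have h3 : Real.exp (-(C / ε)) * Real.exp (C / ε) = 1 := by rw [← Real.exp_add]; simp
  have h4 : C = C / ε * ε := by field_simp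
  have h5 := Real.exp_pos (-(C / ε))
  have h6 : Real.exp (-(C / ε)) * (C / ε) ≤ 1 := by nlinarith
  nlinarith

end Crest.Agent.R247
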