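import Crest.Agent.R247.H3

/-! # Row 247, H4 (auxiliary): the Li-Yau inequality for `P t w + δ` -/

set_option autoImplicit false
set_option linter.unusedSectionVars false
set_option linter.unusedVariables false
open MeasureTheory Filter Set Metric Matrix
open scoped ENNReal NNReal Topology ContDiff
open Crest.GeometryTopology.CoordMetric

noncomputable section
namespace Crest.Agent.R247
universe u

variable {n : ℕ} {M : Type u} [MetricSpace M] [MeasurableSpace M] [BorelSpace M] [ProperSpace M]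

lemma Geo.h4a_log (g : Geo n M) {f : M → ℝ} (hf : g.S f) (h0 : ∀ y, 0 < f y) :
    g.S (fun y => Real.log (f y)) ∧
      (∀ W y, g.Γ (fun y => Real.log (f y)) W y = (f y)⁻¹ * g.Γ f W y) ∧
      ∀ y, g.Δ (fun y => Real.log (f y)) y = (f y)⁻¹ * g.Δ f y - (f y)⁻¹ ^ 2 * g.Γ f f y := by
  have hφ : ContDiffOn ℝ ∞ Real.log (Ioi 0) :=
    Real.contDiffOn_log.mono fun x hx => ne_of_gt hx
  refine ⟨g.S_comp hf isOpen_Ioi hφ h0, fun W y => ?_, fun y => ?_⟩
  · rw [g.Γ_comp_left hf isOpen_Ioi hφ h0, Real.deriv_log]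
  · rw [g.Δ_comp hf isOpen_Ioi hφ h0, Real.deriv_log', deriv_inv]
    ring

/-- the pointwise Bakry-Ledoux inequality -/
lemma Geo.h4a_pt (g : Geo n M) {I : Set ℝ} (hI : IsOpen I) {f : ℝ → M → ℝ} (hf : g.Sm I f)
    (h0 : ∀ s ∈ I, ∀ y, 0 < f s y) {s : ℝ} (hs : s ∈ I)
    (heq : ∀ y, dt f s y + g.Δ (f s) y = 0) (γ : ℝ) (y : M) :
    4 * γ * g.Δ (f s) y - 2 * n * γ ^ 2 * f s y - (4 * γ + 2 * g.k) *
        (f s y * g.Γ (fun z => Real.log (f s z)) (fun z => Real.log (f s z)) y) ≤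
      dt (fun s y => f s y * g.Γ (fun z => Real.log (f s z)) (fun z => Real.log (f s z)) y) s y +
        g.Δ (fun y => f s y * g.Γ (fun z => Real.log (f s z)) (fun z => Real.log (f s z)) y) y := by
  have hv := g.Sm_log hf h0
  have hfs := g.Sm_slice hf hs
  obtain ⟨hvs, l1, l2⟩ := g.h4a_log hfs (h0 s hs)
  have hΓ := g.Sm_Γ hI hv hv
  have hΓs := g.S_Γ hvs hvs
  have e1 := g.dt_mul hI hf hΓ hs y
  have e2 := g.Δ_mul hfs hΓs y
  have e3 := g.bw_Γ hI hv hv hs y
  have hK : (fun y => dt (fun t x => Real.log (f t x)) s y + g.Δ (fun z => Real.log (f s z)) y) =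
      fun y => -1 * g.Γ (fun z => Real.log (f s z)) (fun z => Real.log (f s z)) y := by
    funext z
    rw [g.dt_comp hI hf hs z (Real.differentiableAt_log (h0 s hs z).ne'), Real.deriv_log, l2, l1,
      g.Γ_comm (f s) (fun z => Real.log (f s z)), l1]
    have := heq z
    have h2 : dt f s z = -g.Δ (f s) z := by linarith
    rw [h2]; ring
  beta_reduce at e1 e3
  rw [hK, g.Γ_comm (fun z => Real.log (f s z)) (fun y => -1 * _), g.Γ_cmul_left _ hΓs,
    g.Γ_comm (g.Γ _ _), l1 (g.Γ _ _)] at e3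
  have e4 := g.D_nonneg hvs γ y
  simp only [Raw.D] at e4
  rw [l2] at e4
  have e5 : g.Γ (fun z => Real.log (f s z)) (fun z => Real.log (f s z)) y =
      (f s y)⁻¹ ^ 2 * g.Γ (f s) (f s) y := by
    rw [l1, g.Γ_comm (f s) (fun z => Real.log (f s z)), l1]; ring
  rw [← e5] at e4
  have hp := h0 s hs y
  have e6 : f s y * (f s y)⁻¹ = 1 := mul_inv_cancel₀ hp.ne'
  have e7 := heq y
  rw [e1]
  erw [e2]
  generalize g.Γ (fun z => Real.log (f s z)) (fun z => Real.log (f s z)) = A at *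
  generalize dt (fun t => g.Γ (fun x => Real.log (f t x)) fun x => Real.log (f t x)) s y = d at *
  generalize g.Γ2 (fun z => Real.log (f s z)) (fun z => Real.log (f s z)) y = G at *
  generalize (f s y)⁻¹ = i at *
  have e8 := mul_nonneg hp.le e4
  have e9 : f s y * (d + g.Δ A y) =
      2 * f s y * G - 2 * g.k * (f s y * A y) - 2 * g.Γ (f s) A y := by
    rw [e3]; linear_combination (-2 * g.Γ (f s) A y) * e6
  have e10 : f s y * (G - 2 * γ * (i * g.Δ (f s) y - A y) + n * γ ^ 2) =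
      f s y * G - 2 * γ * g.Δ (f s) y + 2 * γ * (f s y * A y) + n * γ ^ 2 * f s y := by
    linear_combination (-2 * γ * g.Δ (f s) y) * e6
  have e11 : dt f s y * A y + A y * g.Δ (f s) y = 0 := by linear_combination (A y) * e7
  linarith

/-- gradient bound for `Γ(u,u)/(u+δ)` -/
lemma Geo.h4a_grad (g : Geo n M) {u : M → ℝ} (hu : g.S u) (h0 : ∀ y, 0 ≤ u y) {δ B c : ℝ}
    (hδ : 0 < δ) (hB : ∀ y, g.Γ u u y ≤ B) (hc : |c| ≤ 1) {F : M → ℝ}
    (hF : F = fun y => c * ((u y + δ) *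
      g.Γ (fun z => Real.log (u z + δ)) (fun z => Real.log (u z + δ)) y)) (y : M) :
    F y = c * (g.Γ u u y / (u y + δ)) ∧ |F y| ≤ |c| * (B / δ) ∧
    Real.sqrt (g.Γ F F y) ≤
      2 * Real.sqrt B / δ * Real.sqrt (g.Γ2 u u y) + Real.sqrt B * B / δ ^ 2 := by
  have hp : ∀ y, 0 < u y + δ := fun y => by linarith [h0 y]
  have hf : g.S fun y => u y + δ := g.S_add hu (g.S_const δ)
  obtain ⟨-, l1, -⟩ := g.h4a_log hf hp
  have hfu : ∀ W z, g.Γ (fun y => u y + δ) W z = g.Γ u W z := fun W z => by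
    rw [g.Γ_add_left hu (g.S_const δ), g.Γ_const_left, add_zero]
  have hF1 : ∀ y, F y = c * (g.Γ u u y / (u y + δ)) := fun y => by
    rw [hF]
    beta_reduce
    rw [l1, g.Γ_comm, l1, hfu, g.Γ_comm, hfu]
    have := (hp y).ne'
    field_simp
  have hB0 : 0 ≤ B := (g.Γ_nonneg u y).trans (hB y)
  have hA := g.S_Γ hu hu
  have hφ : ContDiffOn ℝ ∞ (fun s : ℝ => δ * s⁻¹) (Ioi 0) :=
    contDiffOn_const.mul (contDiffOn_inv ℝ |>.mono fun x hx => ne_of_gt hx)
  have hχ : g.S fun y => δ * (u y + δ)⁻¹ := g.S_comp (φ := fun s : ℝ => δ * s⁻¹) hf isOpen_Ioi hφ hp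
  have hF2 : F = fun y => c / δ * (δ * (u y + δ)⁻¹ * g.Γ u u y) := by
    funext z
    rw [hF1]
    have := (hp z).ne'
    field_simp
  refine ⟨hF1 y, ?_, ?_⟩
  · rw [hF1, abs_mul, abs_of_nonneg (div_nonneg (g.Γ_nonneg u y) (hp y).le)]
    exact mul_le_mul_of_nonneg_left
      (div_le_div₀ hB0 (hB y) hδ (by linarith [h0 y])) (abs_nonneg _)
  · have h1 := g.h2b_mul hχ hA (y := y) (by have := hp y; positivity)
      (by rw [← div_eq_mul_inv, div_le_one (hp y)]; linarith [h0 y])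
    have h2 := g.sqrt_Γ_Γ_le hu hu y
    have h3 : Real.sqrt (g.Γ u u y) ≤ Real.sqrt B := Real.sqrt_le_sqrt (hB y)
    have h4 : g.Γ (fun y => δ * (u y + δ)⁻¹) (fun y => δ * (u y + δ)⁻¹) y ≤ B / δ ^ 2 := by
      have hd : deriv (fun s : ℝ => δ * s⁻¹) (u y + δ) = -(δ / (u y + δ) ^ 2) := by
        rw [deriv_const_mul_field, deriv_inv]; ring
      rw [g.Γ_comp_left (φ := fun s : ℝ => δ * s⁻¹) hf isOpen_Ioi hφ hp, g.Γ_comm,
        g.Γ_comp_left (φ := fun s : ℝ => δ * s⁻¹) hf isOpen_Ioi hφ hp, hd, hfu, g.Γ_comm, hfu]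
      have h5 : δ / (u y + δ) ^ 2 ≤ 1 / δ := by
        rw [div_le_div_iff₀ (pow_pos (hp y) 2) hδ]; nlinarith [h0 y]
      have h6 : 0 ≤ δ / (u y + δ) ^ 2 := by have := hp y; positivity
      have h7 := g.Γ_nonneg u y
      calc -(δ / (u y + δ) ^ 2) * (-(δ / (u y + δ) ^ 2) * g.Γ u u y)
          = (δ / (u y + δ) ^ 2) ^ 2 * g.Γ u u y := by ring
        _ ≤ (1 / δ) ^ 2 * B := by gcongr; exact hB y
        _ = B / δ ^ 2 := by ring
    have h5 : Real.sqrt (g.Γ (fun y => δ * (u y + δ)⁻¹) (fun y => δ * (u y + δ)⁻¹) y) ≤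
        Real.sqrt B / δ := by
      refine (Real.sqrt_le_sqrt h4).trans (le_of_eq ?_)
      rw [Real.sqrt_div hB0, Real.sqrt_sq hδ.le]
    rw [abs_of_nonneg (g.Γ_nonneg u y)] at h1
    have hS := g.S_mul hχ hA
    rw [hF2, g.Γ_cmul_left _ hS, g.Γ_comm, g.Γ_cmul_left _ hS, ← mul_assoc, ← sq,
      Real.sqrt_mul (sq_nonneg _), Real.sqrt_sq_eq_abs, abs_div, abs_of_pos hδ]
    have h6 : Real.sqrt (g.Γ (fun y => δ * (u y + δ)⁻¹ * g.Γ u u y)
        (fun y => δ * (u y + δ)⁻¹ * g.Γ u u y) y) ≤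
        2 * Real.sqrt B * Real.sqrt (g.Γ2 u u y) + Real.sqrt B / δ * B := by
      refine h1.trans (add_le_add (h2.trans ?_) ?_)
      · nlinarith [Real.sqrt_nonneg (g.Γ2 u u y)]
      · exact mul_le_mul h5 (hB y) (g.Γ_nonneg u y) (by positivity)
    calc _ ≤ 1 / δ * (2 * Real.sqrt B * Real.sqrt (g.Γ2 u u y) + Real.sqrt B / δ * B) := by
          gcongr
      _ = _ := by ring

/-- the dominating function -/
lemma HS.h4a_dom (h : HS n M) {w : M → ℝ} (hw : MemLp w 2 h.m) {a b t : ℝ} (ha : 0 < a) (hb : b < t)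
    (x : M) : h.STI a b fun s y =>
      h.H s x y + h.H s x y ^ 2 + h.Γ2 (h.P (t - s) w) (h.P (t - s) w) y := by
  have hI : Icc a b ⊆ Ioo 0 t := fun s hs => ⟨ha.trans_le hs.1, hs.2.trans_lt hb⟩
  have hu : h.Sm (Ioo 0 t) fun s => h.P (t - s) w :=
    h.Sm_mono (h.Sm_rev (h.P_Sm hw) t).1 Ioo_subset_Iio_self
  have hH : h.Sm (Ioo 0 t) fun s => h.H s x := h.Sm_mono (h.H_Sm x) Ioo_subset_Ioi_self
  obtain ⟨B1, hB1⟩ := h.unif_H ha x
  obtain ⟨B2, hB2⟩ := h.unif_L2 hw (sub_pos.2 hb)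
  refine h.STI_of_bound (B := 1 + B1 + (2 * B2 + 2 * h.k * B2)) hI
    (((h.Sm_cont hH).add ((h.Sm_cont hH).pow 2)).add (h.Sm_cont (h.Sm_Γ2 isOpen_Ioo hu hu)))
    fun s hs => ?_
  have hs0 := (hI hs).1
  have hτ : 0 < t - s := sub_pos.2 (hI hs).2
  obtain ⟨p1, p2⟩ := h.P_H1 hτ hw
  obtain ⟨i3, b3⟩ := h.Γ2_int p1.1 p1.2.2 p2.2.1
  obtain ⟨i1, b1⟩ := h.H_int hs0 x
  have i2 : Integrable (fun y => h.H s x y ^ 2) h.m := (h.H_L2 hs0 x).integrable_sq
  obtain ⟨-, b4, b5⟩ := hB2 (t - s) (by linarith [hs.2])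
  refine ⟨(i1.add i2).add i3, ?_⟩
  have e : ∀ y, |h.H s x y + h.H s x y ^ 2 + h.Γ2 (h.P (t - s) w) (h.P (t - s) w) y| =
      h.H s x y + h.H s x y ^ 2 + h.Γ2 (h.P (t - s) w) (h.P (t - s) w) y := fun y =>
    abs_of_nonneg (add_nonneg (add_nonneg (h.H_nonneg hs0 x y) (sq_nonneg _)) (h.Γ2_nonneg p1.1 y))
  simp only [e]
  have i12 : Integrable (fun y => h.H s x y + h.H s x y ^ 2) h.m := i1.add i2
  rw [integral_add i12 i3, integral_add i1 i2]
  have := (hB1 s hs.1).2.1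
  have := mul_le_mul_of_nonneg_left b4 h.k_nonneg
  linarith

/-- Li-Yau inequality for `P t w + δ`. -/
theorem HS.li_yau_δ (h : HS n M) {w : M → ℝ} (hw : h.Bd w) (h0 : ∀ y, 0 ≤ w y) {t B δ : ℝ}
    (ht : 0 < t) (hδ : 0 < δ)
    (hB : ∀ s ∈ Ioc 0 t, ∀ y, h.Γ (h.P s w) (h.P s w) y ≤ B) (x : M) :
    h.Γ (h.P t w) (h.P t w) x ≤ (1 + 2 * h.k * t / 3) * (h.Δ (h.P t w) x * (h.P t w x + δ)) +
      n / (2 * t) * (1 + h.k * t + (h.k * t) ^ 2 / 3) * (h.P t w x + δ) ^ 2 := by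
  obtain ⟨hw2, Bw, hBw⟩ := hw
  have hk := h.k_nonneg
  obtain ⟨u, hu⟩ : ∃ u : ℝ → M → ℝ, u = fun s => h.P (t - s) w := ⟨_, rfl⟩
  have hus : ∀ s, u s = h.P (t - s) w := fun s => by rw [hu]
  have huS : h.Sm (Iio t) u := hu ▸ (h.Sm_rev (h.P_Sm hw2) t).1
  have hheat : ∀ s < t, ∀ y, dt u s y + h.Δ (u s) y = 0 := fun s hs y => by
    have h1 := (h.Sm_rev (h.P_Sm hw2) t).2 s hs y
    rw [h.P_heat hw2 (sub_pos.2 hs)] at h1
    rw [hu]
    exact add_eq_zero_iff_eq_neg.2 h1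
  have hu0 : ∀ s < t, ∀ y, 0 ≤ u s y := fun s hs y => hus s ▸ h.P_nonneg (sub_pos.2 hs) y h0
  have hp : ∀ s ∈ Iio t, ∀ y, 0 < u s y + δ := fun s hs y => by linarith [hu0 s hs y]
  have hfS : h.Sm (Iio t) fun s y => u s y + δ := h.Sm_add huS (h.Sm_const _ δ)
  have hΔ : ∀ s < t, ∀ y, h.Δ (fun y => u s y + δ) y = h.Δ (u s) y := fun s hs y => by
    rw [h.Δ_add (h.Sm_slice huS hs) (h.S_const δ), h.Δ_const, add_zero]
  have hfheat : ∀ s < t, ∀ y, dt (fun s y => u s y + δ) s y + h.Δ (fun y => u s y + δ) y = 0 :=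
    fun s hs y => by
      rw [Geo.dt_eq (F := fun s y => u s y + δ) ((h.Sm_deriv isOpen_Iio huS hs y).add_const δ),
        hΔ s hs, hheat s hs]
  obtain ⟨F0, hF0⟩ : ∃ F0 : ℝ → M → ℝ, F0 = fun s y => (u s y + δ) *
    h.Γ (fun z => Real.log (u s z + δ)) (fun z => Real.log (u s z + δ)) y := ⟨_, rfl⟩
  have hF0S : h.Sm (Iio t) F0 :=
    hF0 ▸ h.Sm_mul hfS (h.Sm_Γ isOpen_Iio (h.Sm_log hfS hp) (h.Sm_log hfS hp))
  obtain ⟨F, hF⟩ : ∃ F : ℝ → M → ℝ, F = fun s y => (1 - s / t) ^ 2 * F0 s y := ⟨_, rfl⟩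
  have hFS : h.Sm (Iio t) F :=
    hF ▸ h.Sm_mul (h.Sm_time (a := fun s => (1 - s / t) ^ 2) (by fun_prop)) hF0S
  have hdb : ∀ s : ℝ, HasDerivAt (fun s : ℝ => 1 - s / t) (-(1 / t)) s := fun s =>
    ((hasDerivAt_id s).div_const t).const_sub 1
  -- the differential inequality
  have hpt : ∀ s < t, ∀ y, -2 * (1 - s / t) * (1 / t + h.k * (1 - s / t)) * h.Δ (u s) y -
      n / 2 * (1 / t + h.k * (1 - s / t)) ^ 2 * (u s y + δ) ≤ dt F s y + h.Δ (F s) y := by
    intro s hs y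
    have hb : 0 < 1 - s / t := by rw [sub_pos, div_lt_one ht]; exact hs
    have h1 := h.h4a_pt isOpen_Iio hfS hp hs (hfheat s hs)
      (-(1 / t + h.k * (1 - s / t)) / (2 * (1 - s / t))) y
    beta_reduce at h1
    rw [hΔ s hs] at h1
    have h2 : dt F s y = 2 * (1 - s / t) * (-(1 / t)) * F0 s y + (1 - s / t) ^ 2 * dt F0 s y := by
      refine Geo.dt_eq ?_
      rw [hF]
      refine (((hdb s).fun_pow 2).fun_mul (h.Sm_deriv isOpen_Iio hF0S hs y)).congr_deriv ?_
      norm_num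
    have h3 : h.Δ (F s) y = (1 - s / t) ^ 2 * h.Δ (F0 s) y := by
      rw [hF]; exact h.Δ_cmul _ (h.Sm_slice hF0S hs) y
    have h4 : 4 * (-(1 / t + h.k * (1 - s / t)) / (2 * (1 - s / t))) * h.Δ (u s) y -
        2 * n * (-(1 / t + h.k * (1 - s / t)) / (2 * (1 - s / t))) ^ 2 * (u s y + δ) -
        (4 * (-(1 / t + h.k * (1 - s / t)) / (2 * (1 - s / t))) + 2 * h.k) * F0 s y ≤
        dt F0 s y + h.Δ (F0 s) y := by rw [hF0]; exact h1
    rw [h2, h3]
    generalize 1 - s / t = b at hb h4 ⊢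
    have h5 := mul_le_mul_of_nonneg_left h4 (sq_nonneg b)
    refine le_trans (le_of_eq ?_) (le_trans (add_le_add_right h5 (2 * b * (-(1 / t)) * F0 s y))
      (le_of_eq (by ring)))
    field_simp
    ring
  -- bounds
  have hB0 : 0 ≤ B := (h.Γ_nonneg _ x).trans (hB t ⟨ht, le_rfl⟩ x)
  have hb1 : ∀ s, 0 ≤ s → s < t → 0 ≤ 1 - s / t ∧ 1 - s / t ≤ 1 := fun s h1 h2 =>
    ⟨by rw [sub_nonneg, div_le_one ht]; exact h2.le, by have := div_nonneg h1 ht.le; linarith⟩
  have hgr := fun s (h1 : 0 ≤ s) (h2 : s < t) => h.h4a_grad (h.Sm_slice huS h2) (hu0 s h2) hδ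
    (c := (1 - s / t) ^ 2) (B := B) (F := F s)
    (fun y => hus s ▸ hB (t - s) ⟨sub_pos.2 h2, by linarith⟩ y)
    (by rw [abs_of_nonneg (sq_nonneg _)]; exact pow_le_one₀ (hb1 s h1 h2).1 (hb1 s h1 h2).2)
    (by rw [hF, hF0])
  have hFb : ∀ s, 0 ≤ s → s < t → ∀ y, |F s y| ≤ B / δ := fun s h1 h2 y =>
    (hgr s h1 h2 y).2.1.trans (mul_le_of_le_one_left (by positivity) (by
      rw [abs_of_nonneg (sq_nonneg _)]; exact pow_le_one₀ (hb1 s h1 h2).1 (hb1 s h1 h2).2))
  obtain ⟨Φ, hΦ⟩ : ∃ Φ : ℝ → ℝ, Φ = fun s =>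
    ((1 - s / t) ^ 2 + 2 * h.k * t / 3 * (1 - s / t) ^ 3) * h.Δ (h.P t w) x +
      n / 2 * ((1 - s / t) / t + h.k * (1 - s / t) ^ 2 + h.k ^ 2 * t / 3 * (1 - s / t) ^ 3) *
        (h.P t w x + δ) := ⟨_, rfl⟩
  have hΦc : Continuous Φ := by rw [hΦ]; fun_prop
  have hΦd : ∀ s, HasDerivAt Φ (-2 * (1 - s / t) * (1 / t + h.k * (1 - s / t)) * h.Δ (h.P t w) x -
      n / 2 * (1 / t + h.k * (1 - s / t)) ^ 2 * (h.P t w x + δ)) s := fun s => by
    rw [hΦ]
    have h1 := hdb s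
    refine ((((h1.fun_pow 2).fun_add ((h1.fun_pow 3).const_mul (2 * h.k * t / 3))).mul_const
      (h.Δ (h.P t w) x)).fun_add (((((h1.div_const t).fun_add ((h1.fun_pow 2).const_mul h.k)).fun_add
        ((h1.fun_pow 3).const_mul (h.k ^ 2 * t / 3))).const_mul ((n : ℝ) / 2)).mul_const
          (h.P t w x + δ))).congr_deriv ?_
    simp only [Nat.cast_ofNat, Nat.add_one_sub_one, pow_one]
    generalize 1 - s / t = b
    field_simp
    ring
  have key : ∀ a b, 0 < a → a ≤ b → b < t →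
      h.P a (F a) x ≤ (1 - b / t) ^ 2 * (B / δ) - Φ b + Φ a := by
    intro a b ha hab hb
    have hI : Icc a b ⊆ Ioo 0 t := fun s hs => ⟨ha.trans_le hs.1, hs.2.trans_lt hb⟩
    have hH : h.Sm (Ioo 0 t) fun s => h.H s x := h.Sm_mono (h.H_Sm x) Ioo_subset_Ioi_self
    have hFI := h.Sm_mono hFS (Ioo_subset_Iio_self (a := 0))
    have huI := h.Sm_mono huS (Ioo_subset_Iio_self (a := 0))
    have hdom := h.h4a_dom hw2 ha hb x
    simp only [← hus] at hdom
    have hdom' : ∀ C : ℝ, h.STI a b fun s y =>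
        C * (h.H s x y + h.H s x y ^ 2 + h.Γ2 (u s) (u s) y) := fun C => hdom.const_mul C
    have hint : ∀ s ∈ Ioo 0 t, Integrable (fun y => h.H s x y * F s y) h.m := fun s hs =>
      h.int_bdd hs.1 x (h.S_cont (h.Sm_slice hFI hs)).aestronglyMeasurable (hFb s hs.1.le hs.2)
    have hG : ContinuousOn (fun p : ℝ × M => h.H p.1 x p.2 *
        (-2 * (1 - p.1 / t) * (1 / t + h.k * (1 - p.1 / t)) * h.Δ (u p.1) p.2 -
          n / 2 * (1 / t + h.k * (1 - p.1 / t)) ^ 2 * (u p.1 p.2 + δ))) (Ioo 0 t ×ˢ univ) :=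
      (h.Sm_cont hH).mul ((ContinuousOn.mul (by fun_prop)
        (h.Sm_cont (h.Sm_Δ isOpen_Ioo huI))).sub (ContinuousOn.mul (by fun_prop)
          ((h.Sm_cont huI).add continuousOn_const)))
    obtain ⟨-, hd⟩ := h.duh2 (e := fun s => h.H s x) (F := F)
      (G := fun s y => h.H s x y * (-2 * (1 - s / t) * (1 / t + h.k * (1 - s / t)) * h.Δ (u s) y -
          n / 2 * (1 / t + h.k * (1 - s / t)) ^ 2 * (u s y + δ)))
      (Q := fun s y => h.H s x y * (dt F s y + h.Δ (F s) y -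
        (-2 * (1 - s / t) * (1 / t + h.k * (1 - s / t)) * h.Δ (u s) y -
          n / 2 * (1 / t + h.k * (1 - s / t)) ^ 2 * (u s y + δ))))
      isOpen_Ioo hH hFI hab hI (hint a (hI ⟨le_rfl, hab⟩)) (hint b (hI ⟨hab, le_rfl⟩))
      (h.STI_of_le hI ((h.Sm_cont hH).abs.mul ((h.Sm_cont hFI).abs.add
          (h.Sm_cont (h.Sm_Γ isOpen_Ioo hFI hFI)).sqrt))
        (hdom' (B / δ + Real.sqrt B * B / δ ^ 2 + 2 * Real.sqrt B / δ)) fun s hs y => by
          have hs' := hI hs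
          have h1 := hFb s hs'.1.le hs'.2 y
          have h2 := (hgr s hs'.1.le hs'.2 y).2.2
          have h3 := h.H_nonneg hs'.1 x y
          have h4 := h.Γ2_nonneg (h.Sm_slice huI hs') y
          have h5 := Real.sq_sqrt h4
          have h6 := Real.sqrt_nonneg (h.Γ2 (u s) (u s) y)
          rw [abs_of_nonneg (by positivity), abs_of_nonneg h3]
          have k1 : 0 ≤ B / δ + Real.sqrt B * B / δ ^ 2 := by positivity
          have k2 : 0 ≤ 2 * Real.sqrt B / δ := by positivity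
          generalize h.H s x y = H at *
          generalize Real.sqrt (h.Γ2 (u s) (u s) y) = r at *
          generalize h.Γ2 (u s) (u s) y = G at *
          generalize 2 * Real.sqrt B / δ = K2 at *
          have h7 : H * (|F s y| + Real.sqrt (h.Γ (F s) (F s) y)) ≤
              H * ((B / δ + Real.sqrt B * B / δ ^ 2) + K2 * r) :=
            mul_le_mul_of_nonneg_left (by linarith) h3
          generalize B / δ + Real.sqrt B * B / δ ^ 2 = K1 at *
          have h8 : H * r ≤ H + H ^ 2 + G := by nlinarith [sq_nonneg (H - r)]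
          have h9 := mul_le_mul_of_nonneg_left h8 k2
          have h10 : K1 * H ≤ K1 * (H + H ^ 2 + G) :=
            mul_le_mul_of_nonneg_left (by nlinarith [sq_nonneg H]) k1
          linarith)
      hG
      (h.STI_of_le hI hG (hdom' (2 * (1 / t + h.k) * (1 + n) +
          n / 2 * (1 / t + h.k) ^ 2 * (Bw + δ))) fun s hs y => by
          have hs' := hI hs
          obtain ⟨b0, b1⟩ := hb1 s hs'.1.le hs'.2
          have h3 := h.H_nonneg hs'.1 x y
          have h4 := h.Γ2_nonneg (h.Sm_slice huI hs') y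
          have h5 := h.Δ_sub_sq_le (h.Sm_slice huI hs') 0 y
          rw [h.D_zero, mul_zero, sub_zero, ← sq_abs] at h5
          have h6 : u s y + δ ≤ Bw + δ := by
            have := (abs_le.1 (h.abs_P_le (sub_pos.2 hs'.2) y hBw)).2
            rw [hus]; linarith
          have h7 := (hp s hs'.2 y).le
          have t0 : 0 < 1 / t := by positivity
          have c0 : 0 ≤ 1 / t + h.k * (1 - s / t) := by positivity
          have c1 : 1 / t + h.k * (1 - s / t) ≤ 1 / t + h.k := by nlinarith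
          have hn : (0 : ℝ) ≤ n := n.cast_nonneg
          rw [abs_mul, abs_of_nonneg h3]
          have h8 : |-2 * (1 - s / t) * (1 / t + h.k * (1 - s / t)) * h.Δ (u s) y -
              n / 2 * (1 / t + h.k * (1 - s / t)) ^ 2 * (u s y + δ)| ≤
              2 * (1 / t + h.k) * |h.Δ (u s) y| + n / 2 * (1 / t + h.k) ^ 2 * (Bw + δ) := by
            refine (abs_sub _ _).trans (add_le_add ?_ ?_)
            · rw [abs_mul, abs_mul, abs_mul, abs_of_nonneg b0, abs_of_nonneg c0, abs_neg, abs_two]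
              refine mul_le_mul_of_nonneg_right ?_ (abs_nonneg _)
              nlinarith
            · rw [abs_of_nonneg (by positivity)]
              gcongr
          have k1 : 0 ≤ 2 * (1 / t + h.k) := by positivity
          have k2 : 0 ≤ n / 2 * (1 / t + h.k) ^ 2 * (Bw + δ) :=
            mul_nonneg (by positivity) (h7.trans h6)
          refine (mul_le_mul_of_nonneg_left h8 h3).trans ?_
          generalize h.H s x y = H at *
          generalize |h.Δ (u s) y| = r at *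
          generalize h.Γ2 (u s) (u s) y = G at *
          generalize n / 2 * (1 / t + h.k) ^ 2 * (Bw + δ) = K2 at *
          generalize 2 * (1 / t + h.k) = K1 at *
          have h9 : H * r ≤ (1 + n) * (H + H ^ 2 + G) := by
            nlinarith [sq_nonneg (H - r), mul_nonneg hn h3, mul_nonneg hn (sq_nonneg H),
              mul_nonneg hn h4, sq_nonneg H]
          have h10 := mul_le_mul_of_nonneg_left h9 k1
          have h11 : K2 * H ≤ K2 * (H + H ^ 2 + G) :=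
            mul_le_mul_of_nonneg_left (by nlinarith [sq_nonneg H]) k2
          linarith)
      (fun s hs y => by rw [h.H_heat hs.1]; ring)
      (fun s hs y => mul_nonneg (h.H_nonneg (hI hs).1 x y) (sub_nonneg.2 (hpt s (hI hs).2 y)))
    have hQ : 0 ≤ ∫ s in a..b, ∫ y, h.H s x y * (dt F s y + h.Δ (F s) y -
        (-2 * (1 - s / t) * (1 / t + h.k * (1 - s / t)) * h.Δ (u s) y -
          n / 2 * (1 / t + h.k * (1 - s / t)) ^ 2 * (u s y + δ))) ∂h.m :=
      intervalIntegral.integral_nonneg hab fun s hs => integral_nonneg fun y =>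
        mul_nonneg (h.H_nonneg (hI hs).1 x y) (sub_nonneg.2 (hpt s (hI hs).2 y))
    have hGe : ∫ s in a..b, ∫ y, h.H s x y *
        (-2 * (1 - s / t) * (1 / t + h.k * (1 - s / t)) * h.Δ (u s) y -
          n / 2 * (1 / t + h.k * (1 - s / t)) ^ 2 * (u s y + δ)) ∂h.m = Φ b - Φ a := by
      rw [← intervalIntegral.integral_eq_sub_of_hasDerivAt (fun s _ => hΦd s)
        (Continuous.intervalIntegrable (by fun_prop) a b)]
      refine intervalIntegral.integral_congr fun s hs => ?_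
      rw [uIcc_of_le hab] at hs
      have hs' := hI hs
      have hτ := sub_pos.2 hs'.2
      have i1 := h.int_L2 hs'.1 x (h.P_lap_L2 hw2 hτ)
      have i2 := h.int_L2 hs'.1 x (h.P_L2 hw2 hτ).1
      have i3 := (h.H_int hs'.1 x).1
      have e1 : ∫ y, h.H s x y * h.Δ (kerP h.m h.H (t - s) w) y ∂h.m = h.Δ (h.P t w) x := by
        have := congrFun (h.P_lap hw2 hs'.1 hτ) x
        rw [add_sub_cancel] at this
        exact this.symm
      have e2 : ∫ y, h.H s x y * kerP h.m h.H (t - s) w y ∂h.m = h.P t w x := by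
        have := (h.P_P hs'.1 hτ hw2.1 (h.int_L2 (add_pos hs'.1 hτ) x hw2)).2
        rw [add_sub_cancel] at this
        exact this
      have e3 : ∀ (c d : ℝ) y, h.H s x y * (c * h.Δ (u s) y - d * (u s y + δ)) =
          c * (h.H s x y * h.Δ (kerP h.m h.H (t - s) w) y) -
            (d * (h.H s x y * kerP h.m h.H (t - s) w y) + d * δ * h.H s x y) := fun c d y => by
        have : u s = kerP h.m h.H (t - s) w := hus s
        rw [this]; ring
      simp only [e3]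
      have i4 : ∀ c d : ℝ, Integrable (fun y => c * (h.H s x y * kerP h.m h.H (t - s) w y) +
          d * h.H s x y) h.m := fun c d => (i2.const_mul _).add (i3.const_mul _)
      rw [integral_sub (i1.const_mul _) (i4 _ _),
        integral_add (i2.const_mul _) (i3.const_mul _), integral_const_mul, integral_const_mul,
        integral_const_mul, e1, e2, h.int_H hs'.1]
      ring
    have hPb : h.P b (F b) x ≤ (1 - b / t) ^ 2 * (B / δ) := by
      refine (le_abs_self _).trans (h.abs_P_le (ha.trans_le hab) x fun y => ?_)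
      have := (hgr b (ha.le.trans hab) hb y).2.1
      rwa [abs_of_nonneg (sq_nonneg (1 - b / t))] at this
    rw [hGe] at hd
    change h.P b (F b) x - h.P a (F a) x = _ at hd
    linarith
  have key2 : ∀ a, 0 < a → a < t → h.P a (F a) x ≤ Φ a := fun a ha hat => by
    have hc : Continuous fun b => (1 - b / t) ^ 2 * (B / δ) - Φ b + Φ a := by fun_prop
    have h1 := (hc.tendsto t).mono_left (nhdsWithin_le_nhds (s := Iio t))
    have h2 : (1 - t / t) ^ 2 * (B / δ) - Φ t + Φ a = Φ a := by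
      have : Φ t = 0 := by rw [hΦ]; simp [ht.ne']
      rw [this]; simp [ht.ne']
    rw [h2] at h1
    refine ge_of_tendsto h1 ?_
    filter_upwards [Ioo_mem_nhdsLT hat] with b hb
    exact key a b ha hb.1.le hb.2
  have hlim : Tendsto (fun s => h.P s (F s) x) (𝓝[>] 0) (𝓝 (F 0 x)) := by
    refine h.P_tendsto ht (fun s hs => h.S_cont (h.Sm_slice hFS hs.2))
      (fun s hs => hFb s hs.1.le hs.2) ?_
    have h1 := (h.Sm_cont hFS).continuousAt (x := (0, x))
      (prod_mem_nhds (Iio_mem_nhds ht) univ_mem)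
    refine h1.tendsto.mono_left ?_
    rw [nhds_prod_eq]
    exact Filter.prod_mono nhdsWithin_le_nhds le_rfl
  have hfin : F 0 x ≤ Φ 0 := by
    refine le_of_tendsto_of_tendsto hlim ((hΦc.tendsto 0).mono_left nhdsWithin_le_nhds) ?_
    filter_upwards [Ioo_mem_nhdsGT ht] with a ha
    exact key2 a ha.1 ha.2
  have hp0 := hp 0 ht x
  rw [(hgr 0 le_rfl ht x).1, hΦ] at hfin
  rw [hus, sub_zero] at hfin hp0
  simp only [zero_div, sub_zero, one_pow, one_mul, mul_one] at hfin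
  rw [div_le_iff₀ hp0] at hfin
  refine hfin.trans (le_of_eq ?_)
  field_simp

end Crest.Agent.R247
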