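import Crest.Agent.R247.H3
import Crest.Agent.R247.H4AuxA

/-! # Row 247, H4: Li-Yau, Harnack -/

set_option autoImplicit false
set_option linter.unusedSectionVars false
set_option linter.unusedVariables false
open MeasureTheory Filter Set Metric Matrix
open scoped ENNReal NNReal Topology ContDiff
open Crest.GeometryTopology.CoordMetric

noncomputable section
namespace Crest.Agent.R247
universe u

variable {n : ℕ} {M : Type u} [MetricSpace M] [MeasurableSpace M] [BorelSpace M] [ProperSpace M]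
  (h : HS n M)

/-- Li-Yau inequality (Bakry-Ledoux).  Recipe: `f s = P (t-s) w + δ`, `F s = (1-s/t)² Γ(f s)/f s`; `(∂ₛ+Δ)(Γf/f) = 2 f (Γ2(log f) - kΓ(log f))`,
`Γ2(log f) ≥ (Δ log f)²/n ≥ (2γ Δlog f - γ²)/n`, `f Δ log f = Δ f - Γ f/f`; with `a = (1-s/t)²`, `γ = (n/4)(a'/a - 2k)`:
`(∂ₛ+Δ)F ≥ (a' - 2ka) Δ f s - (n/8)(a'-2ka)²/a · f s`.  `duh1` on `[a,b] ⊂ (0,t)`, `P s (Δ f s) x = Δ P t w x` (`P_lap`), `P s (f s) x = P t w x + δ`; `b → t`, `a → 0`, `δ → 0`. -/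
theorem HS.li_yau {w : M → ℝ} (hw : h.Bd w) (h0 : ∀ y, 0 ≤ w y) {t B : ℝ} (ht : 0 < t)
    (hB : ∀ s ∈ Ioc 0 t, ∀ y, h.Γ (h.P s w) (h.P s w) y ≤ B) (x : M) :
    h.Γ (h.P t w) (h.P t w) x ≤ (1 + 2 * h.k * t / 3) * (h.Δ (h.P t w) x * h.P t w x) +
      n / (2 * t) * (1 + h.k * t + (h.k * t) ^ 2 / 3) * h.P t w x ^ 2 := by
  have hc : Continuous fun δ : ℝ =>
      (1 + 2 * h.k * t / 3) * (h.Δ (h.P t w) x * (h.P t w x + δ)) +
        n / (2 * t) * (1 + h.k * t + (h.k * t) ^ 2 / 3) * (h.P t w x + δ) ^ 2 := by fun_prop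
  have h1 := (hc.tendsto 0).mono_left (nhdsWithin_le_nhds (s := Ioi 0))
  simp only [add_zero] at h1
  exact ge_of_tendsto h1 (eventually_nhdsWithin_of_forall fun δ hδ => h.li_yau_δ hw h0 ht hδ hB x)

theorem h4b_alg {n : ℕ} {u δ G D l r a : ℝ} (hu : 0 ≤ u) (hδ : 0 < δ) (hG : 0 ≤ G) (hl : 0 ≤ l) (hr : 0 < r)
    (ha : 0 ≤ a) (ha1 : a ≤ 1)
    (h : G ≤ (1 + 2 * a / 3) * (D * u) + n / (2 * r) * ((1 + a + a ^ 2 / 3) * u ^ 2)) (h0 : u = 0 → D = 0) :
    -(D / (u + δ)) + l * (Real.sqrt G / (u + δ)) ≤ 2 * n / r + l ^ 2 / 2 := by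
  have hc : 0 ≤ 2 * (n : ℝ) / r + l ^ 2 / 2 := by positivity
  have key : -D + l * Real.sqrt G ≤ (2 * n / r + l ^ 2 / 2) * u := by
    rcases hu.eq_or_lt with rfl | hu'
    · have : G = 0 := le_antisymm (by simpa using h) hG
      simp [this, h0 rfl]
    · set g := Real.sqrt G with hg
      have hg2 : g ^ 2 = G := Real.sq_sqrt hG
      set c := (n : ℝ) / r with hcd
      have hc0 : 0 ≤ c := by positivity
      have e1 : (n : ℝ) / (2 * r) = c / 2 := by rw [hcd]; field_simp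
      have e2 : 2 * (n : ℝ) / r = 2 * c := by rw [hcd]; ring
      rw [e1] at h
      rw [e2]
      set A := 1 + 2 * a / 3 with hA
      have hA1 : 1 ≤ A := by linarith
      have hA2 : A ≤ 2 := by linarith
      have h1 : c / 2 * ((1 + a + a ^ 2 / 3) * u ^ 2) ≤ A * (2 * c * u ^ 2) := by
        have q1 : (1 + a + a ^ 2 / 3) / 2 ≤ 2 * A := by nlinarith
        have q2 := mul_le_mul_of_nonneg_right q1 (mul_nonneg hc0 (sq_nonneg u))
        linarith
      have h2 : A * (l * g * u) ≤ g ^ 2 + A * (l ^ 2 / 2 * u ^ 2) := by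
        have q1 := sq_nonneg (g - A * l * u / 2)
        have q2 : A * A * (l * u) ^ 2 ≤ 2 * A * (l * u) ^ 2 :=
          mul_le_mul_of_nonneg_right (by nlinarith) (sq_nonneg _)
        nlinarith
      have h3 : (A * u) * (-D + l * g) ≤ (A * u) * ((2 * c + l ^ 2 / 2) * u) := by nlinarith
      exact le_of_mul_le_mul_left h3 (by positivity)
  rw [← mul_div_assoc, ← neg_div, ← add_div, div_le_iff₀ (by positivity)]
  nlinarith

/-- Harnack for test data.  Recipe: `path` for `F r = -log (P r w + δ)` on `[s,t]` (Li-Yau holds for `P r w + δ` as well: if `Δ P r w < 0` use that the inequality is affine in `δ`; simplest is to keep `δ > 0` in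
an auxiliary version of `li_yau`); `dt F + ℓ√ΓF ≤ 3n/(2r)·… + ℓ²/2` since `1 + 2kr/3 ≤ 2`. -/
theorem HS.harnack_c {w : M → ℝ} (hw : h.S w) (hc : HasCompactSupport w) (h0 : ∀ y, 0 ≤ w y) {s t : ℝ}
    (hs : 0 < s) (hst : s < t) (hk : h.k * t ≤ 1) (x y : M) :
    h.P s w x ≤ (t / s) ^ (2 * n) * Real.exp (dist x y ^ 2 / (2 * (t - s))) * h.P t w y := by
  have hN := h.H1_of_cs hw hc
  have hL2 : MemLp w 2 h.m := hN.1.2.1
  obtain ⟨B, hB⟩ := hN.2
  have hΓ : ∀ y, |h.Γ w w y| ≤ B := fun y => by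
    rw [abs_of_nonneg (h.Γ_nonneg w y)]; exact (hB y).2
  have hk0 := h.k_nonneg
  have ht : 0 < t := hs.trans hst
  have hts : 0 < t - s := sub_pos.2 hst
  set K := (t / s) ^ (2 * n) * Real.exp (dist x y ^ 2 / (2 * (t - s))) with hK
  have hK0 : 0 < K := by positivity
  have key : ∀ δ : ℝ, 0 < δ → h.P s w x + δ ≤ K * (h.P t w y + δ) := by
    intro δ hδ
    have hpos : ∀ r, 0 < r → ∀ z, 0 < h.P r w z + δ := fun r hr z =>
      add_pos_of_nonneg_of_pos (h.P_nonneg hr z h0) hδ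
    have hP : h.Sm (Ioi 0) fun r => h.P r w := h.P_Sm hL2
    have hF : h.Sm (Ioi 0) fun r z => -Real.log (h.P r w z + δ) :=
      h.Sm_neg (h.Sm_log (h.Sm_add hP (h.Sm_const _ δ)) fun r hr z => hpos r hr z)
    set l := dist x y / (t - s) with hl
    have hl0 : 0 ≤ l := by positivity
    have hc : ContinuousOn (fun r : ℝ => 2 * n / r + l ^ 2 / 2) (Icc s t) :=
      (continuousOn_const.div continuousOn_id fun r hr => (hs.trans_le hr.1).ne').add continuousOn_const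
    have hp := h.path isOpen_Ioi hF hst (fun r hr => hs.trans_le hr.1) hc (x := y) (y := x) (l := l)
      (by rw [hl, div_mul_cancel₀ _ hts.ne']) (fun r hr z _ => by
        have hr0 : 0 < r := hs.trans_le hr.1
        have hkr : h.k * r ≤ 1 := (mul_le_mul_of_nonneg_left hr.2 hk0).trans hk
        have hd : HasDerivAt (fun s => h.P s w z) (h.Δ (h.P r w) z) r := by
          have := h.Sm_deriv isOpen_Ioi hP hr0 z
          rwa [show dt (fun r => h.P r w) r z = h.Δ (h.P r w) z from h.P_heat hL2 hr0 z] at this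
        have e1 : dt (fun r z => -Real.log (h.P r w z + δ)) r z = -(h.Δ (h.P r w) z / (h.P r w z + δ)) :=
          ((hd.add_const δ).log (hpos r hr0 z).ne').neg.deriv
        have hS := h.P_S hr0 hL2
        have hφ : ContDiffOn ℝ ∞ (fun u : ℝ => -Real.log (u + δ)) (Ioi (-δ)) :=
          ((contDiffOn_id.add contDiffOn_const).log fun u hu => by
            have : -δ < u := hu
            simp only [id]; linarith).neg
        have hm : ∀ z, h.P r w z ∈ Ioi (-δ) := fun z => by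
          have := hpos r hr0 z
          simp only [mem_Ioi]; linarith
        have hdφ : deriv (fun u : ℝ => -Real.log (u + δ)) (h.P r w z) = -(1 / (h.P r w z + δ)) :=
          (((hasDerivAt_id _).add_const δ).log (hpos r hr0 z).ne').neg.deriv
        have e2 : Real.sqrt (h.Γ (fun z => -Real.log (h.P r w z + δ)) (fun z => -Real.log (h.P r w z + δ)) z) =
            Real.sqrt (h.Γ (h.P r w) (h.P r w) z) / (h.P r w z + δ) := by
          rw [h.Γ_comp_left hS isOpen_Ioi hφ hm, h.Γ_comm, h.Γ_comp_left hS isOpen_Ioi hφ hm, hdφ, ← mul_assoc,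
            neg_mul_neg, Real.sqrt_mul (mul_self_nonneg _), Real.sqrt_mul_self (one_div_pos.2 (hpos r hr0 z)).le]
          ring
        have hly := h.li_yau hN.bd h0 hr0 (B := Real.exp (2 * h.k * r) * B) (fun s' hs' y' => by
          refine (h.ge2 hN.1 hs'.1 y' (h.int_bdd hs'.1 y' hN.1.2.2.aestronglyMeasurable hΓ)).trans ?_
          have q1 : h.P s' (h.Γ w w) y' ≤ B := (le_abs_self _).trans (h.abs_P_le hs'.1 y' hΓ)
          have q2 : 0 ≤ h.P s' (h.Γ w w) y' := h.P_nonneg hs'.1 y' (h.Γ_nonneg w)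
          have q3 : Real.exp (2 * h.k * s') ≤ Real.exp (2 * h.k * r) :=
            Real.exp_le_exp.2 (mul_le_mul_of_nonneg_left hs'.2 (by positivity))
          exact mul_le_mul q3 q1 q2 (Real.exp_pos _).le) z
        rw [e1, e2]
        refine h4b_alg (h.P_nonneg hr0 z h0) hδ (h.Γ_nonneg _ z) hl0 hr0 (mul_nonneg hk0 hr0.le) hkr
          (by simpa only [mul_assoc] using hly) fun hu => ?_
        have hmin : IsLocalMin (fun s => h.P s w z) r := by
          filter_upwards [Ioi_mem_nhds hr0] with s' hs'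
          rw [hu]; exact h.P_nonneg hs' z h0
        exact hmin.hasDerivAt_eq_zero hd)
    have hI : ∫ r in s..t, (2 * n / r + l ^ 2 / 2) = 2 * n * Real.log (t / s) + dist x y ^ 2 / (2 * (t - s)) := by
      have i1 : IntervalIntegrable (fun r : ℝ => 2 * n / r) volume s t :=
        (ContinuousOn.intervalIntegrable_of_Icc hst.le
          (continuousOn_const.div continuousOn_id fun r hr => (hs.trans_le hr.1).ne'))
      rw [intervalIntegral.integral_add i1 intervalIntegrable_const, intervalIntegral.integral_const]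
      simp only [div_eq_mul_inv (2 * (n : ℝ))]
      rw [intervalIntegral.integral_const_mul, integral_inv_of_pos hs ht, hl, smul_eq_mul]
      field_simp
    rw [hI] at hp
    have hK' : Real.log K = 2 * n * Real.log (t / s) + dist x y ^ 2 / (2 * (t - s)) := by
      rw [hK, Real.log_mul (by positivity) (by positivity), Real.log_pow, Real.log_exp]
      push_cast; ring
    rw [← Real.log_le_log_iff (hpos s hs x) (mul_pos hK0 (hpos t ht y)), Real.log_mul hK0.ne' (hpos t ht y).ne', hK']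
    linarith
  refine le_of_forall_pos_le_add fun ε hε => ?_
  have := key (ε / K) (by positivity)
  rw [mul_add, mul_div_cancel₀ _ hK0.ne'] at this
  have h2 : 0 < ε / K := by positivity
  linarith

/-- Harnack for the kernel (`le_of_test`). -/
theorem HS.harnack {s t : ℝ} (hs : 0 < s) (hst : s < t) (hk : h.k * t ≤ 1) (x y z : M) :
    h.H s x z ≤ (t / s) ^ (2 * n) * Real.exp (dist x y ^ 2 / (2 * (t - s))) * h.H t y z := by
  have ht : 0 < t := hs.trans hst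
  refine h.le_of_test (h.H_cont hs x) (continuous_const.mul (h.H_cont ht y)) (fun χ h1 h2 h3 => ?_) z
  refine (h.harnack_c h1 h2 h3 hs hst hk x y).trans (le_of_eq ?_)
  rw [HS.P, kerP, ← integral_const_mul]
  simp only [mul_assoc, Pi.mul_apply]

theorem HS.harnack_P {s t : ℝ} (hs : 0 < s) (hst : s < t) (hk : h.k * t ≤ 1) (x y : M) {f : M → ℝ}
    (hm : AEStronglyMeasurable f h.m) (h0 : ∀ z, 0 ≤ f z)
    (hi : Integrable (fun z => h.H t y z * f z) h.m) : Integrable (fun z => h.H s x z * f z) h.m ∧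
      h.P s f x ≤ (t / s) ^ (2 * n) * Real.exp (dist x y ^ 2 / (2 * (t - s))) * h.P t f y := by
  have ht : 0 < t := hs.trans hst
  have hle : ∀ z, h.H s x z * f z ≤
      (t / s) ^ (2 * n) * Real.exp (dist x y ^ 2 / (2 * (t - s))) * (h.H t y z * f z) := fun z => by
    rw [← mul_assoc]
    exact mul_le_mul_of_nonneg_right (h.harnack hs hst hk x y z) (h0 z)
  have hi' : Integrable (fun z => h.H s x z * f z) h.m :=
    (hi.const_mul _).mono' ((h.H_cont hs x).aestronglyMeasurable.mul hm) (Eventually.of_forall fun z => by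
      rw [Real.norm_of_nonneg (mul_nonneg (h.H_nonneg hs x z) (h0 z))]; exact hle z)
  refine ⟨hi', ?_⟩
  have := integral_mono hi' (hi.const_mul _) hle
  rwa [integral_const_mul] at this

/-- For `k t ≤ 1` from `harnack` and `th_pos`; in general by the semigroup property (induction on `⌈kt⌉`). -/
theorem HS.H_pos {t : ℝ} (ht : 0 < t) (x y : M) : 0 < h.H t x y := by
  have := h.open_pos
  have key : ∀ m : ℕ, ∀ t, 0 < t → h.k * t ≤ 2 ^ m → ∀ x y, 0 < h.H t x y := by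
    intro m
    induction m with
    | zero =>
      intro t ht hk x y
      have h1 := (h.th_pos (half_pos ht) y).trans_le
        (h.harnack (half_pos ht) (half_lt_self ht) (by simpa using hk) y x y)
      exact (pos_iff_pos_of_mul_pos h1).1 (by positivity)
    | succ m ih =>
      intro t ht hk x y
      have h2 := half_pos ht
      have hk' : h.k * (t / 2) ≤ 2 ^ m := by rw [pow_succ] at hk; linarith
      rw [← add_halves t, h.H_add h2 h2]
      exact integral_pos_of_integrable_nonneg_nonzero (x := x) ((h.H_cont h2 x).mul (h.H_cont h2 y))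
        (h.int_L2 h2 x (h.H_L2 h2 y)) (fun z => mul_nonneg (h.H_nonneg h2 x z) (h.H_nonneg h2 y z))
        (mul_pos (ih _ h2 hk' x x) (ih _ h2 hk' y x)).ne'
  obtain ⟨m, hm⟩ := pow_unbounded_of_one_lt (h.k * t) (one_lt_two (α := ℝ))
  exact key m t ht hm.le x y

theorem HS.φ_Sm (x : M) : h.Sm (Ioi 0) fun t => h.φ t x := by
  exact h.Sm_neg (h.Sm_log (h.H_Sm x) fun t ht y => h.H_pos ht x y)
theorem HS.φ_S {t : ℝ} (ht : 0 < t) (x : M) : h.S (h.φ t x) := by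
  exact h.Sm_slice (h.φ_Sm x) ht
lemma h4c_d1 : deriv (fun r : ℝ => Real.exp (-r)) = fun r => -Real.exp (-r) := by
  ext r
  simpa using ((hasDerivAt_neg r).exp).deriv
lemma h4c_d2 : deriv (fun r : ℝ => -Real.exp (-r)) = fun r => Real.exp (-r) := by
  ext r
  rw [deriv.fun_neg, h4c_d1, neg_neg]
lemma HS.h4c_exp {t : ℝ} (ht : 0 < t) (x y : M) : Real.exp (-h.φ t x y) = h.H t x y := by
  rw [HS.φ, neg_neg, Real.exp_log (h.H_pos ht x y)]

theorem HS.grad_H {t : ℝ} (ht : 0 < t) (x y : M) :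
    h.grad (h.H t x) y = -(h.H t x y) • h.grad (h.φ t x) y := by
  have := h.grad_comp (φ := fun r => Real.exp (-r)) (h.φ_S ht x) isOpen_univ (by fun_prop)
    (fun _ => mem_univ _) y
  rw [h4c_d1] at this
  simp only [h.h4c_exp ht] at this
  exact this
theorem HS.Γ_H {t : ℝ} (ht : 0 < t) (x y : M) (f : M → ℝ) :
    h.Γ (h.H t x) f y = -(h.H t x y * h.Γ (h.φ t x) f y) := by
  simp only [Raw.Γ, h.grad_H ht, smul_dotProduct, smul_eq_mul, neg_mul]
theorem HS.Δ_H {t : ℝ} (ht : 0 < t) (x y : M) :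
    h.Δ (h.H t x) y = h.H t x y * (h.Γ (h.φ t x) (h.φ t x) y - h.Δ (h.φ t x) y) := by
  have := h.Δ_comp (φ := fun r => Real.exp (-r)) (h.φ_S ht x) isOpen_univ (by fun_prop)
    (fun _ => mem_univ _) y
  rw [h4c_d1, h4c_d2] at this
  simp only [h.h4c_exp ht] at this
  rw [this]
  ring
theorem HS.dt_φ {t : ℝ} (ht : 0 < t) (x y : M) :
    dt (fun s => h.φ s x) t y = h.Δ (h.φ t x) y - h.Γ (h.φ t x) (h.φ t x) y := by
  have h0 := h.H_pos ht x y
  have h1 := ((h.Sm_deriv isOpen_Ioi (h.H_Sm x) ht y).log h0.ne').fun_neg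
  rw [h.H_heat ht, h.Δ_H ht] at h1
  refine h1.deriv.trans ?_
  field_simp
  ring
/-- the heat operator conjugated by `H` -/
def HS.h4cL (x : M) (F : ℝ → M → ℝ) (t : ℝ) (y : M) : ℝ :=
  dt F t y - h.Δ (F t) y + 2 * h.Γ (F t) (h.φ t x) y
lemma HS.h4c_key {F : ℝ → M → ℝ} (hF : h.Sm (Ioi 0) F) {t : ℝ} (ht : 0 < t) (x y : M) :
    dt (fun s z => F s z * h.H s x z) t y - h.Δ (fun z => F t z * h.H t x z) y =
      h.h4cL x F t y * h.H t x y := by
  rw [h.dt_mul isOpen_Ioi hF (h.H_Sm x) ht, h.Δ_mul (h.Sm_slice hF ht) (h.Sm_slice (h.H_Sm x) ht),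
    h.H_heat ht, h.Γ_comm (F t), h.Γ_H ht, HS.h4cL, h.Γ_comm (F t)]
  ring
lemma HS.h4c_add {F G : ℝ → M → ℝ} (hF : h.Sm (Ioi 0) F) (hG : h.Sm (Ioi 0) G) {t : ℝ} (ht : 0 < t)
    (x y : M) : h.h4cL x (fun s z => F s z + G s z) t y = h.h4cL x F t y + h.h4cL x G t y := by
  simp only [HS.h4cL]
  rw [h.dt_add isOpen_Ioi hF hG ht, h.Δ_add (h.Sm_slice hF ht) (h.Sm_slice hG ht),
    h.Γ_add_left (h.Sm_slice hF ht) (h.Sm_slice hG ht)]
  ring
lemma HS.h4c_sub {F G : ℝ → M → ℝ} (hF : h.Sm (Ioi 0) F) (hG : h.Sm (Ioi 0) G) {t : ℝ} (ht : 0 < t)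
    (x y : M) : h.h4cL x (fun s z => F s z - G s z) t y = h.h4cL x F t y - h.h4cL x G t y := by
  simp only [HS.h4cL]
  rw [h.dt_sub isOpen_Ioi hF hG ht, h.Δ_sub (h.Sm_slice hF ht) (h.Sm_slice hG ht),
    h.Γ_sub_left (h.Sm_slice hF ht) (h.Sm_slice hG ht)]
  ring
lemma HS.h4c_mul {F : ℝ → M → ℝ} (hF : h.Sm (Ioi 0) F) {t : ℝ} (ht : 0 < t) {a : ℝ → ℝ} {a' : ℝ}
    (ha : HasDerivAt a a' t) (x y : M) :
    h.h4cL x (fun s z => a s * F s z) t y = a' * F t y + a t * h.h4cL x F t y := by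
  simp only [HS.h4cL]
  rw [Geo.dt_eq (F := fun s z => a s * F s z) (ha.fun_mul (h.Sm_deriv isOpen_Ioi hF ht y)),
    h.Δ_cmul _ (h.Sm_slice hF ht),
    h.Γ_cmul_left _ (h.Sm_slice hF ht)]
  ring
lemma HS.h4c_time {t : ℝ} {a : ℝ → ℝ} {a' : ℝ} (ha : HasDerivAt a a' t) (x y : M) :
    h.h4cL x (fun s _ => a s) t y = a' := by
  simp only [HS.h4cL]
  rw [Geo.dt_eq ha, h.Δ_const, h.Γ_const_left]
  ring
lemma HS.h4c_φ {t : ℝ} (ht : 0 < t) (x y : M) :
    h.h4cL x (fun s => h.φ s x) t y = h.Γ (h.φ t x) (h.φ t x) y := by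
  simp only [HS.h4cL]
  rw [h.dt_φ ht]
  ring
lemma HS.h4c_Γ {t : ℝ} (ht : 0 < t) (x y : M) :
    h.h4cL x (fun s => h.Γ (h.φ s x) (h.φ s x)) t y =
      -2 * (h.Γ2 (h.φ t x) (h.φ t x) y - h.k * h.Γ (h.φ t x) (h.φ t x) y) := by
  have hφ := h.φ_S ht x
  simp only [HS.h4cL]
  rw [h.dt_Γ isOpen_Ioi (h.φ_Sm x) (h.φ_Sm x) ht, h.Γ_comm (h.φ t x) (dt _ t), funext (h.dt_φ ht x),
    h.Γ_sub_left (h.S_Δ hφ) (h.S_Γ hφ hφ), Raw.Γ2, h.Γ_comm (h.φ t x) (h.Δ (h.φ t x))]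
  ring
lemma HS.h4c_Δ {t : ℝ} (ht : 0 < t) (x y : M) :
    h.h4cL x (fun s => h.Δ (h.φ s x)) t y =
      -2 * (h.Γ2 (h.φ t x) (h.φ t x) y - h.k * h.Γ (h.φ t x) (h.φ t x) y) := by
  have hφ := h.φ_S ht x
  simp only [HS.h4cL]
  rw [h.dt_Δ isOpen_Ioi (h.φ_Sm x) ht, funext (h.dt_φ ht x),
    h.Δ_sub (h.S_Δ hφ) (h.S_Γ hφ hφ), Raw.Γ2, h.Γ_comm (h.φ t x) (h.Δ (h.φ t x))]
  ring

/-- `(∂ₜ - Δ)(Γφ · H) = -2 (Γ2 φ - kΓφ) H`. -/
theorem HS.heat_ΓφH {t : ℝ} (ht : 0 < t) (x y : M) :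
    dt (fun s z => h.Γ (h.φ s x) (h.φ s x) z * h.H s x z) t y -
      h.Δ (fun z => h.Γ (h.φ t x) (h.φ t x) z * h.H t x z) y =
      -2 * (h.Γ2 (h.φ t x) (h.φ t x) y - h.k * h.Γ (h.φ t x) (h.φ t x) y) * h.H t x y := by
  rw [h.h4c_key (h.Sm_Γ isOpen_Ioi (h.φ_Sm x) (h.φ_Sm x)) ht, h.h4c_Γ ht]
/-- `(∂ₜ - Δ)(tζH) = 2 (Dφ - k t² Γφ) H`; use `Δφ H = Γφ H - ΔH` and `(∂ₜ-Δ)ΔH = 0` (`dt_Δ`). -/
theorem HS.heat_ζH {t : ℝ} (ht : 0 < t) (x y : M) :
    dt (fun s z => s * h.ζ s x z * h.H s x z) t y - h.Δ (fun z => t * h.ζ t x z * h.H t x z) y =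
      2 * (h.Dφ t x y - h.k * t ^ 2 * h.Γ (h.φ t x) (h.φ t x) y) * h.H t x y := by
  have h1 : h.Sm (Ioi 0) fun s (_ : M) => s := h.Sm_time contDiffOn_id
  have h2 := h.Sm_Δ isOpen_Ioi (h.φ_Sm x)
  have h3 := h.Sm_mul h1 h2
  have h4 := h.Sm_sub (h.Sm_const (Ioi 0) (n / 2)) h3
  simp only [HS.ζ]
  rw [h.h4c_key (h.Sm_mul h1 h4) ht, h.h4c_mul h4 ht (hasDerivAt_id' t),
    h.h4c_sub (h.Sm_const (Ioi 0) (n / 2)) h3 ht, h.h4c_time (hasDerivAt_const t _),
    h.h4c_mul h2 ht (hasDerivAt_id' t), h.h4c_Δ ht, HS.Dφ, Raw.D]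
  field_simp
  ring
/-- Ni's pointwise entropy formula. -/
theorem HS.heat_vW {t : ℝ} (ht : 0 < t) (x y : M) :
    dt (fun s z => (s * (2 * h.Δ (h.φ s x) z - h.Γ (h.φ s x) (h.φ s x) z) + h.φ s x z -
        n / 2 * Real.log s) * h.H s x z) t y -
      h.Δ (fun z => (t * (2 * h.Δ (h.φ t x) z - h.Γ (h.φ t x) (h.φ t x) z) + h.φ t x z -
        n / 2 * Real.log t) * h.H t x z) y =
      -(2 / t) * (h.Dφ t x y - h.k * t ^ 2 * h.Γ (h.φ t x) (h.φ t x) y) * h.H t x y := by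
  have h1 : h.Sm (Ioi 0) fun s (_ : M) => s := h.Sm_time contDiffOn_id
  have h2 := h.Sm_Δ isOpen_Ioi (h.φ_Sm x)
  have h3 := h.Sm_mul (h.Sm_const (Ioi 0) 2) h2
  have h4 := h.Sm_Γ isOpen_Ioi (h.φ_Sm x) (h.φ_Sm x)
  have h5 := h.Sm_sub h3 h4
  have h6 := h.Sm_mul h1 h5
  have h7 := h.Sm_add h6 (h.φ_Sm x)
  have h8 := h.Sm_mul (h.Sm_const (Ioi 0) (n / 2)) (h.Sm_log h1 fun _ hs _ => hs)
  rw [h.h4c_key (h.Sm_sub h7 h8) ht, h.h4c_sub h7 h8 ht, h.h4c_add h6 (h.φ_Sm x) ht,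
    h.h4c_mul h5 ht (hasDerivAt_id' t), h.h4c_sub h3 h4 ht, h.h4c_mul h2 ht (hasDerivAt_const t _),
    h.h4c_time ((Real.hasDerivAt_log ht.ne').const_mul _), h.h4c_φ ht, h.h4c_Γ ht, h.h4c_Δ ht,
    HS.Dφ, Raw.D]
  field_simp
  ring

end Crest.Agent.R247
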