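import Crest.Agent.R247.H4

/-! # Row 247, H5: Gaussian bounds -/

set_option autoImplicit false
set_option linter.unusedSectionVars false
set_option linter.unusedVariables false
open MeasureTheory Filter Set Metric Matrix
open scoped ENNReal NNReal Topology ContDiff
open Crest.GeometryTopology.CoordMetric

noncomputable section
namespace Crest.Agent.R247
universe u

variable {n : ℕ}

/-- `harnack` from `(t/2, x)` to `(t, y)`, `th_anti`. -/
theorem gauss_lo (n : ℕ) : ∃ C : ℝ, 0 < C ∧ ∀ (X : Sp.{u} n) {t : ℝ}, 0 < t → X.h.k * t ≤ 1 → ∀ x y,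
    X.h.th t x * Real.exp (-dist x y ^ 2 / t) ≤ C * X.h.H t x y := by
  refine ⟨2 ^ (2 * n), by positivity, fun X t ht hk x y => ?_⟩
  have h1 := X.h.harnack (half_pos ht) (half_lt_self ht) hk x y x
  rw [show t / (t / 2) = 2 by field_simp, show 2 * (t - t / 2) = t by ring, X.h.H_symm ht y x] at h1
  have h2 := (X.h.th_anti (half_pos ht) (half_le_self ht.le) x).trans h1
  rw [neg_div, Real.exp_neg, ← div_eq_mul_inv, div_le_iff₀ (Real.exp_pos _)]
  linarith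

theorem th_le (n : ℕ) (A : ℝ) : ∃ C : ℝ, 0 < C ∧ ∀ (X : Sp.{u} n) {s t : ℝ}, 0 < s → s ≤ t → t ≤ A * s →
    X.h.k * t ≤ 1 → ∀ x, X.h.th s x ≤ C * X.h.th t x := by
  refine ⟨max A 1 ^ (2 * n), by positivity, fun X s t hs hst hA hk x => ?_⟩
  have h0 := (X.h.th_pos (hs.trans_le hst) x).le
  rcases hst.eq_or_lt with rfl | hst
  · exact le_mul_of_one_le_left h0 (one_le_pow₀ (le_max_right _ _))
  · have h1 := X.h.harnack hs hst hk x x x
    rw [dist_self, zero_pow two_ne_zero, zero_div, Real.exp_zero, mul_one] at h1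
    refine h1.trans (mul_le_mul_of_nonneg_right ?_ h0)
    exact pow_le_pow_left₀ (div_pos (hs.trans hst) hs).le (((div_le_iff₀ hs).2 hA).trans (le_max_left _ _)) _

/-- two Harnack steps of length `l` -/
theorem h5a_two (X : Sp.{u} n) {s l : ℝ} (hs : 0 < s) (hl : 0 < l) (hk : X.h.k * (s + 2 * l) ≤ 1) (x z : X.M) :
    X.h.th s z ≤ ((s + 2 * l) / s) ^ (2 * n) * Real.exp (dist x z ^ 2 / l) * X.h.th (s + 2 * l) x := by
  have h1 := X.h.harnack hs (show s < s + l by linarith)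
    (le_trans (mul_le_mul_of_nonneg_left (by linarith) X.h.k_nonneg) hk) z x z
  have h2 := X.h.harnack (show 0 < s + l by linarith) (show s + l < s + 2 * l by linarith) hk z x x
  rw [X.h.H_symm (show 0 < s + l by linarith) x z] at h1
  refine h1.trans ((mul_le_mul_of_nonneg_left h2 (by positivity)).trans_eq ?_)
  rw [show (s + 2 * l) / s = (s + l) / s * ((s + 2 * l) / (s + l)) by field_simp, mul_pow,
    show dist x z ^ 2 / l = dist z x ^ 2 / (2 * (s + l - s)) + dist z x ^ 2 / (2 * (s + 2 * l - (s + l))) by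
      rw [dist_comm, show s + l - s = l by ring, show s + 2 * l - (s + l) = l by ring]; field_simp; ring,
    Real.exp_add, HS.th]
  ring

theorem th_le_th (n : ℕ) : ∃ C : ℝ, 0 < C ∧ ∀ (X : Sp.{u} n) {t : ℝ}, 0 < t → X.h.k * t ≤ 1 → ∀ x z,
    X.h.th t z ≤ C * Real.exp (3 * dist x z ^ 2 / t) * X.h.th t x := by
  refine ⟨3 ^ (2 * n), by positivity, fun X t ht hk x z => ?_⟩
  have e : t / 3 + 2 * (t / 3) = t := by ring
  have h1 := h5a_two X (s := t / 3) (l := t / 3) (by positivity) (by positivity) (by rwa [e]) x z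
  rw [e, show t / (t / 3) = 3 by field_simp, show dist x z ^ 2 / (t / 3) = 3 * dist x z ^ 2 / t by field_simp] at h1
  exact (X.h.th_anti (by positivity) (by linarith) z).trans h1

/-- Recipe: `σ = t/2`, `E x = ∫ H σ x w² e^{d(x,w)²/(10σ)} ≤ C θ (21σ) x` (`harnack` in the second variable from `(σ,w)` to `(21σ,x)`, `moment_gauss`);
`H t x y e^{d²/(40σ)} ≤ √(E x) √(E y)`; `θ (21σ) y ≤ C θ (221σ) x e^{d²/(100σ)}` (two Harnack steps of length `100σ`); `th_anti`. -/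
theorem gauss_up (n : ℕ) : ∃ C : ℝ, 0 < C ∧ ∀ (X : Sp.{u} n) {t : ℝ}, 0 < t → X.h.k * t ≤ 1 / 200 →
    ∀ x y, X.h.H t x y ≤ C * X.h.th t x * Real.exp (-dist x y ^ 2 / (100 * t)) := by
  obtain ⟨Cm, hCm, hm⟩ := moment_gauss.{u} n
  refine ⟨21 ^ (2 * n) * Cm * (1 + 11 ^ (2 * n)), by positivity, fun X t ht hk x y => ?_⟩
  obtain ⟨σ, rfl⟩ : ∃ σ, t = σ + σ := ⟨t / 2, by ring⟩
  have hσ : 0 < σ := by linarith
  have hk0 := mul_nonneg X.h.k_nonneg hσ.le
  have hE : ∀ x w, (X.h.H σ x w * Real.exp (dist x w ^ 2 / (20 * σ))) ^ 2 ≤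
      21 ^ (2 * n) * X.h.th (21 * σ) x * (X.h.H σ x w * Real.exp (dist x w ^ 2 / (8 * σ))) := fun x w => by
    have h1 := X.h.harnack hσ (show σ < 21 * σ by linarith) (by linarith) w x x
    rw [show 21 * σ / σ = 21 by field_simp, X.h.H_symm hσ w x, dist_comm,
      show 2 * (21 * σ - σ) = 40 * σ by ring] at h1
    rw [show dist x w ^ 2 / (20 * σ) = (2 : ℕ) * (dist x w ^ 2 / (40 * σ)) by push_cast; field_simp; ring,
      show dist x w ^ 2 / (8 * σ) = (5 : ℕ) * (dist x w ^ 2 / (40 * σ)) by push_cast; field_simp; ring,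
      Real.exp_nat_mul, Real.exp_nat_mul, HS.th]
    have h2 := mul_le_mul_of_nonneg_right h1 (mul_nonneg (X.h.H_nonneg hσ x w)
      (pow_pos (Real.exp_pos (dist x w ^ 2 / (40 * σ))) 4).le)
    linarith
  set u := Real.exp (dist x y ^ 2 / (200 * σ)) with hu
  have u0 : 0 < u := Real.exp_pos _
  set θ := X.h.th (σ + σ) x with hθ
  have θ0 : 0 < θ := X.h.th_pos ht x
  have a1 : X.h.th (21 * σ) x ≤ θ := X.h.th_anti ht (by linarith) x
  have a2 : X.h.th (21 * σ) y ≤ 11 ^ (2 * n) * u ^ 2 * θ := by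
    have h1 := h5a_two X (s := 21 * σ) (l := 100 * σ) (by positivity) (by positivity) (by linarith) x y
    rw [show dist x y ^ 2 / (100 * σ) = (2 : ℕ) * (dist x y ^ 2 / (200 * σ)) by push_cast; field_simp; ring,
      Real.exp_nat_mul] at h1
    refine h1.trans (mul_le_mul (mul_le_mul_of_nonneg_right (pow_le_pow_left₀ (by positivity) ?_ _) (by positivity))
      (X.h.th_anti ht (by linarith) x) (X.h.th_pos (by positivity) x).le (by positivity))
    rw [div_le_iff₀ (by positivity)]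
    linarith
  obtain ⟨i1, j1⟩ := hm X hσ (by linarith) x
  obtain ⟨i2, j2⟩ := hm X hσ (by linarith) y
  have key : (∫ w, X.h.H σ x w * X.h.H σ y w ∂X.h.m) * u ^ 5 ≤
      ∫ w, (21 ^ (2 * n) * θ * u * (X.h.H σ x w * Real.exp (dist x w ^ 2 / (8 * σ))) +
        21 ^ (2 * n) * (11 ^ (2 * n) * u * θ) * (X.h.H σ y w * Real.exp (dist y w ^ 2 / (8 * σ)))) ∂X.h.m := by
    rw [← integral_mul_const]
    refine integral_mono_of_nonneg (Eventually.of_forall fun w => ?_) ((i1.const_mul _).add (i2.const_mul _))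
      (Eventually.of_forall fun w => ?_)
    · exact mul_nonneg (mul_nonneg (X.h.H_nonneg hσ x w) (X.h.H_nonneg hσ y w)) (by positivity)
    · have b0 : u ^ 5 ≤ Real.exp (dist x w ^ 2 / (20 * σ)) * Real.exp (dist y w ^ 2 / (20 * σ)) := by
        rw [hu, ← Real.exp_nat_mul, ← Real.exp_add, Real.exp_le_exp, ← add_div,
          show ((5 : ℕ) : ℝ) * (dist x y ^ 2 / (200 * σ)) = dist x y ^ 2 / 2 / (20 * σ) by push_cast; field_simp; ring]
        gcongr
        have := pow_le_pow_left₀ dist_nonneg (dist_triangle_right x y w) 2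
        nlinarith [sq_nonneg (dist x w - dist y w)]
      have p1 := mul_nonneg (X.h.H_nonneg hσ x w) (Real.exp_pos (dist x w ^ 2 / (8 * σ))).le
      have p2 := mul_nonneg (X.h.H_nonneg hσ y w) (Real.exp_pos (dist y w ^ 2 / (8 * σ))).le
      have b1 := (hE x w).trans (mul_le_mul_of_nonneg_right (mul_le_mul_of_nonneg_left a1 (by positivity)) p1)
      have b2 := (hE y w).trans (mul_le_mul_of_nonneg_right (mul_le_mul_of_nonneg_left a2 (by positivity)) p2)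
      have b3 := mul_le_mul_of_nonneg_left b0 (mul_nonneg (X.h.H_nonneg hσ x w) (X.h.H_nonneg hσ y w))
      have q1 := mul_nonneg (X.h.H_nonneg hσ x w) (Real.exp_pos (dist x w ^ 2 / (20 * σ))).le
      have q2 := mul_nonneg (X.h.H_nonneg hσ y w) (Real.exp_pos (dist y w ^ 2 / (20 * σ))).le
      refine b3.trans (le_of_mul_le_mul_left ?_ u0)
      rw [mul_mul_mul_comm]
      generalize X.h.H σ x w * Real.exp (dist x w ^ 2 / (20 * σ)) = a at b1 q1 ⊢
      generalize X.h.H σ y w * Real.exp (dist y w ^ 2 / (20 * σ)) = b at b2 q2 ⊢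
      have b4 := mul_le_mul_of_nonneg_left b1 (sq_nonneg u)
      nlinarith [sq_nonneg (u * a - b), mul_nonneg u0.le (mul_nonneg q1 q2)]
  rw [← X.h.H_add hσ hσ, integral_add (i1.const_mul _) (i2.const_mul _), integral_const_mul,
    integral_const_mul] at key
  have k1 := mul_le_mul_of_nonneg_left j1 (show 0 ≤ 21 ^ (2 * n) * θ * u by positivity)
  have k2 := mul_le_mul_of_nonneg_left j2 (show 0 ≤ 21 ^ (2 * n) * (11 ^ (2 * n) * u * θ) by positivity)
  have k3 : X.h.H (σ + σ) x y * u ^ 5 ≤ 21 ^ (2 * n) * Cm * (1 + 11 ^ (2 * n)) * θ * u :=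
    (key.trans (add_le_add k1 k2)).trans_eq (by ring)
  have u1 : 1 ≤ u := Real.one_le_exp (by positivity)
  rw [neg_div, Real.exp_neg, show 100 * (σ + σ) = 200 * σ by ring, ← hu, ← div_eq_mul_inv, le_div_iff₀ u0]
  refine le_of_mul_le_mul_right (le_trans ?_ k3) u0
  rw [mul_assoc]
  refine mul_le_mul_of_nonneg_left ?_ (X.h.H_nonneg ht x y)
  rw [← sq]
  exact pow_le_pow_right₀ u1 (by norm_num)

theorem h5b_quad {t c : ℝ} (ht : 0 < t) (hc : 0 < c) (d R : ℝ) :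
    R * d / Real.sqrt t ≤ c * (d ^ 2 / t) + R ^ 2 / (4 * c) := by
  have h1 : d ^ 2 / t = (d / Real.sqrt t) ^ 2 := by rw [div_pow, Real.sq_sqrt ht.le]
  rw [h1, mul_div_assoc]
  have h2 : c * (d / Real.sqrt t) ^ 2 + R ^ 2 / (4 * c) - R * (d / Real.sqrt t) =
      (2 * c * (d / Real.sqrt t) - R) ^ 2 / (4 * c) := by field_simp; ring
  have h3 : 0 ≤ (2 * c * (d / Real.sqrt t) - R) ^ 2 / (4 * c) := by positivity
  linarith

theorem h5b_div {s t d : ℝ} (ht : 0 < t) (h : 1000 * t ≤ s) : d ^ 2 / s ≤ 1 / 1000 * (d ^ 2 / t) := by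
  rw [mul_div_assoc', one_div_mul_eq_div, div_div]
  exact div_le_div_of_nonneg_left (sq_nonneg _) (by positivity) h

/-- Domination by the kernel at a later time (`gauss_lo`, `th_le`). -/
theorem gauss_dom (n : ℕ) (R : ℝ) : ∃ C : ℝ, 0 < C ∧ ∀ (X : Sp.{u} n) {s t : ℝ}, 0 < t → 1000 * t ≤ s →
    s ≤ 10 ^ 5 * t → X.h.k * s ≤ 1 → ∀ x y,
      X.h.th t x * Real.exp (-dist x y ^ 2 / (500 * t) + R * dist x y / Real.sqrt t) ≤
        C * X.h.H s x y := by
  obtain ⟨C₁, hC₁, H₁⟩ := gauss_lo.{u} n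
  obtain ⟨C₂, hC₂, H₂⟩ := th_le.{u} n (10 ^ 5)
  refine ⟨C₂ * Real.exp (R ^ 2 / (4 * (1 / 1000))) * C₁, by positivity,
    fun X s t ht h1 h2 hk x y => ?_⟩
  have hs : 0 < s := by linarith
  have a1 := H₁ X hs hk x y
  have a2 := H₂ X ht (by linarith) h2 hk x
  have a3 : -dist x y ^ 2 / (500 * t) + R * dist x y / Real.sqrt t ≤
      R ^ 2 / (4 * (1 / 1000)) + -dist x y ^ 2 / s := by
    have b1 := h5b_quad ht (c := 1 / 1000) (by norm_num) (dist x y) R
    have b2 := h5b_div (d := dist x y) ht h1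
    have b3 : -dist x y ^ 2 / (500 * t) = -(1 / 500 * (dist x y ^ 2 / t)) := by field_simp
    rw [b3, neg_div]
    linarith
  calc _ ≤ C₂ * X.h.th s x * Real.exp (R ^ 2 / (4 * (1 / 1000)) + -dist x y ^ 2 / s) :=
        mul_le_mul a2 (Real.exp_le_exp.2 a3) (Real.exp_pos _).le
          (mul_pos hC₂ (X.h.th_pos hs x)).le
    _ = C₂ * Real.exp (R ^ 2 / (4 * (1 / 1000))) * (X.h.th s x * Real.exp (-dist x y ^ 2 / s)) := by
        rw [Real.exp_add]; ring
    _ ≤ C₂ * Real.exp (R ^ 2 / (4 * (1 / 1000))) * (C₁ * X.h.H s x y) :=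
        mul_le_mul_of_nonneg_left a1 (by positivity)
    _ = _ := by ring

/-- As `gauss_dom`, for a fixed ratio of times as small as one likes. -/
theorem H_dom (n : ℕ) (R δ : ℝ) (hδ : 0 < δ) : ∃ C : ℝ, 0 < C ∧ ∀ (X : Sp.{u} n) {s t : ℝ}, X.h.ok t →
    δ * t ≤ s → 1000 * s ≤ t → ∀ x y,
      X.h.H s x y * Real.exp (R * dist x y / Real.sqrt s) ≤ C * X.h.H t x y := by
  obtain ⟨C₁, hC₁, H₁⟩ := gauss_lo.{u} n
  obtain ⟨C₂, hC₂, H₂⟩ := th_le.{u} n (1 / δ)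
  obtain ⟨C₃, hC₃, H₃⟩ := gauss_up.{u} n
  refine ⟨C₃ * C₂ * Real.exp (R ^ 2 / (4 * (1 / 1000))) * C₁, by positivity,
    fun X s t ht h1 h2 x y => ?_⟩
  have hs : 0 < s := (mul_pos hδ ht.1).trans_le h1
  have hk : X.h.k * t ≤ 1 := ht.2.trans (by norm_num)
  have hks : X.h.k * s ≤ 1 / 200 :=
    (mul_le_mul_of_nonneg_left (by linarith) X.h.k_nonneg).trans (ht.2.trans (by norm_num))
  have a1 := H₁ X ht.1 hk x y
  have a2 := H₂ X hs (by linarith) (by rw [one_div_mul_eq_div, le_div_iff₀ hδ]; linarith) hk x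
  have a4 := H₃ X hs hks x y
  have a3 : -dist x y ^ 2 / (100 * s) + R * dist x y / Real.sqrt s ≤
      R ^ 2 / (4 * (1 / 1000)) + -dist x y ^ 2 / t := by
    have b1 := h5b_quad hs (c := 1 / 1000) (by norm_num) (dist x y) R
    have b2 := h5b_div (d := dist x y) hs h2
    have b3 : -dist x y ^ 2 / (100 * s) = -(1 / 100 * (dist x y ^ 2 / s)) := by field_simp
    have b4 : 0 ≤ dist x y ^ 2 / s := by positivity
    rw [b3, neg_div]
    linarith
  calc _ ≤ C₃ * X.h.th s x * Real.exp (-dist x y ^ 2 / (100 * s)) *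
        Real.exp (R * dist x y / Real.sqrt s) := mul_le_mul_of_nonneg_right a4 (Real.exp_pos _).le
    _ = C₃ * (X.h.th s x * Real.exp (-dist x y ^ 2 / (100 * s) + R * dist x y / Real.sqrt s)) := by
        rw [Real.exp_add]; ring
    _ ≤ C₃ * (C₂ * X.h.th t x * Real.exp (R ^ 2 / (4 * (1 / 1000)) + -dist x y ^ 2 / t)) :=
        mul_le_mul_of_nonneg_left (mul_le_mul a2 (Real.exp_le_exp.2 a3) (Real.exp_pos _).le
          (mul_pos hC₂ (X.h.th_pos ht.1 x)).le) hC₃.le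
    _ = C₃ * C₂ * Real.exp (R ^ 2 / (4 * (1 / 1000))) *
        (X.h.th t x * Real.exp (-dist x y ^ 2 / t)) := by rw [Real.exp_add]; ring
    _ ≤ C₃ * C₂ * Real.exp (R ^ 2 / (4 * (1 / 1000))) * (C₁ * X.h.H t x y) :=
        mul_le_mul_of_nonneg_left a1 (by positivity)
    _ = _ := by ring

theorem h5b_le {C θ d t H : ℝ} (hC : 0 < C) (hθ : 0 < θ) (ht : 0 < t)
    (h : H ≤ C * θ * Real.exp (-d ^ 2 / (100 * t))) : H ≤ C * θ := by
  refine h.trans (mul_le_of_le_one_right (by positivity) (Real.exp_le_one_iff.2 ?_))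
  rw [neg_div, neg_nonpos]; positivity

theorem H_nice (X : Sp.{u} n) {t : ℝ} (ht : 0 < t) (hk : X.h.k * t ≤ 1 / 200) (x : X.M) :
    X.h.Nice (X.h.H t x) := by
  obtain ⟨C, hC, H⟩ := gauss_up.{u} n
  have ht2 : 0 < t / 2 := half_pos ht
  have hk2 : X.h.k * (t / 2) ≤ 1 / 200 :=
    (mul_le_mul_of_nonneg_left (by linarith) X.h.k_nonneg).trans hk
  have hb : X.h.Bd (X.h.H (t / 2) x) := ⟨X.h.H_L2 ht2 x, C * X.h.th (t / 2) x, fun y => by
    rw [abs_of_nonneg (X.h.H_nonneg ht2 x y)]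
    exact h5b_le hC (X.h.th_pos ht2 x) ht2 (H X ht2 hk2 x y)⟩
  have he : X.h.P (t / 2) (X.h.H (t / 2) x) = X.h.H t x := by
    funext y; rw [X.h.P_H ht2 ht2, add_halves]
  rw [← he]
  exact X.h.P_nice_bd hb ht2

section h5c
variable {M : Type u} [MetricSpace M] [MeasurableSpace M] [BorelSpace M] [ProperSpace M]

theorem h5c_mul (g : Geo n M) {I : Set ℝ} {F G : ℝ → M → ℝ} {t : ℝ} (hI : IsOpen I) (hF : g.Sm I F)
    (hG : g.Sm I G) (ht : t ∈ I) (x : M) :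
    dt (fun s y => F s y * G s y) t x + g.Δ (fun y => F t y * G t y) x =
      F t x * (dt G t x + g.Δ (G t) x) + G t x * (dt F t x + g.Δ (F t) x) + 2 * g.Γ (F t) (G t) x := by
  rw [g.dt_mul hI hF hG ht, g.Δ_mul (g.Sm_slice hF ht) (g.Sm_slice hG ht)]
  ring

theorem h5c_comp (g : Geo n M) {I : Set ℝ} {F : ℝ → M → ℝ} {φ : ℝ → ℝ} {t : ℝ} (hI : IsOpen I)
    (hF : g.Sm I F) (ht : t ∈ I) (hφ : ContDiffOn ℝ ∞ φ (Ioi 0)) (h0 : ∀ y, 0 < F t y) (x : M)
    (hL : dt F t x + g.Δ (F t) x = 0) :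
    dt (fun s y => φ (F s y)) t x + g.Δ (fun y => φ (F t y)) x =
      deriv (deriv φ) (F t x) * g.Γ (F t) (F t) x := by
  rw [g.dt_comp hI hF ht x ((hφ.contDiffAt (Ioi_mem_nhds (h0 x))).differentiableAt (by simp)),
    g.Δ_comp (g.Sm_slice hF ht) isOpen_Ioi hφ h0]
  linear_combination deriv φ (F t x) * hL

theorem h5c_inv : ContDiffOn ℝ ∞ (fun r : ℝ => r⁻¹) (Ioi 0) :=
  contDiffOn_id.inv fun r hr => ne_of_gt hr

theorem h5c_log : ContDiffOn ℝ ∞ (fun r : ℝ => r * Real.log r) (Ioi 0) :=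
  contDiffOn_id.mul (contDiffOn_id.log fun r hr => ne_of_gt hr)

/-- Hamilton's quantity is a subsolution of the backward heat equation. -/
theorem h5c_sub (g : Geo n M) {I : Set ℝ} {f : ℝ → M → ℝ} (τ : ℝ) (hI : IsOpen I) (hf : g.Sm I f)
    (h0 : ∀ s ∈ I, ∀ y, 0 < f s y) (hL : ∀ s ∈ I, ∀ y, dt f s y + g.Δ (f s) y = 0) {F : ℝ → M → ℝ}
    (hF : F = fun s y => (τ - s) / 2 * (g.Γ (f s) (f s) y * (f s y)⁻¹) + f s y * Real.log (f s y)) :
    g.Sm I F ∧ ∀ t ∈ I, t ≤ τ → g.k * (τ - t) ≤ 1 / 2 → ∀ x, 0 ≤ dt F t x + g.Δ (F t) x := by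
  have s1 : g.Sm I fun s _ => (τ - s) / 2 := g.Sm_time (by fun_prop)
  have s2 := g.Sm_Γ hI hf hf
  have s3 := g.Sm_comp hf isOpen_Ioi h5c_inv h0
  have s4 := g.Sm_comp hf isOpen_Ioi h5c_log h0
  have s5 := g.Sm_mul s2 s3
  have s6 := g.Sm_mul s1 s5
  subst hF
  refine ⟨g.Sm_add s6 s4, fun t ht h1 h2 x => ?_⟩
  have st := g.Sm_slice hf ht
  have e1 := h5c_mul g hI s1 s5 ht x
  have e2 := h5c_mul g hI s2 s3 ht x
  have e3 := h5c_comp g hI hf ht h5c_inv (h0 t ht) x (hL t ht x)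
  have e4 := h5c_comp g hI hf ht h5c_log (h0 t ht) x (hL t ht x)
  have e5 := g.bw_Γ hI hf hf ht x
  have e6 : dt (fun s (_ : M) => (τ - s) / 2) t x = -1 / 2 :=
    Geo.dt_eq (((hasDerivAt_id t).const_sub τ).div_const 2)
  have e7 := g.Γ_comp_left st isOpen_Ioi h5c_inv (h0 t ht) (g.Γ (f t) (f t)) x
  have p := h0 t ht x
  have d1 : deriv (deriv fun r : ℝ => r⁻¹) (f t x) = 2 * (f t x)⁻¹ ^ 3 := by
    have := iter_deriv_inv (𝕜 := ℝ) 2 (f t x)
    simp only [Function.iterate_succ, Function.iterate_zero, Function.comp_apply, id] at this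
    refine this.trans ?_
    norm_num [_root_.zpow_neg, Nat.factorial]
  have d2 : deriv (deriv fun r : ℝ => r * Real.log r) (f t x) = (f t x)⁻¹ := Real.deriv2_mul_log _
  simp only [hL t ht] at e5
  rw [g.Γ_const_left, g.Γ_comm (f t) fun _ => 0, g.Γ_const_left] at e5
  rw [g.Δ_const, g.Γ_const_left, e6, e2, e3, e5, d1, g.Γ_comm (g.Γ (f t) (f t)), e7, deriv_inv,
    ← inv_pow] at e1
  rw [d2] at e4
  rw [g.dt_add hI s6 s4 ht, g.Δ_add (g.Sm_slice s6 ht) (g.Sm_slice s4 ht), add_add_add_comm, e1, e4]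
  have b1 := (le_abs_self _).trans (g.abs_Γ_le (f t) (g.Γ (f t) (f t)) x)
  have b2 := mul_le_mul_of_nonneg_left (g.sqrt_Γ_Γ_le st st x) (Real.sqrt_nonneg (g.Γ (f t) (f t) x))
  have b3 := Real.mul_self_sqrt (g.Γ_nonneg (f t) x)
  have b4 := Real.mul_self_sqrt (g.Γ2_nonneg st x)
  have b5 := g.Γ_nonneg (f t) x
  have b6 : g.Γ (f t) (g.Γ (f t) (f t)) x ≤ 2 * Real.sqrt (g.Γ2 (f t) (f t) x) * g.Γ (f t) (f t) x := by
    have := congrArg (fun r => 2 * Real.sqrt (g.Γ2 (f t) (f t) x) * r) b3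
    linarith
  have q : 0 < (f t x)⁻¹ := inv_pos.2 p
  generalize (f t x)⁻¹ = r at *
  generalize g.Γ (f t) (g.Γ (f t) (f t)) x = c at *
  generalize g.Γ (f t) (f t) x = a at *
  rw [← b4]
  generalize Real.sqrt (g.Γ2 (f t) (f t) x) = b at *
  have k1 := mul_nonneg (mul_nonneg (sub_nonneg.2 h1) q.le) (sq_nonneg (b - a * r))
  have k2 := mul_nonneg (mul_nonneg (sub_nonneg.2 h1) (sq_nonneg r)) (sub_nonneg.2 b6)
  have k3 := mul_nonneg (mul_nonneg b5 q.le) (sub_nonneg.2 h2)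
  linarith

theorem h5c_mono (h : HS n M) {F : ℝ → M → ℝ} {τ a b B : ℝ} (hF : h.Sm (Iio τ) F) (ha : 0 < a)
    (hab : a ≤ b) (hb : b < τ) (hL : ∀ s ∈ Icc a b, ∀ y, 0 ≤ dt F s y + h.Δ (F s) y)
    (hB : ∀ s ∈ Icc a b, Integrable (fun y => F s y ^ 2) h.m ∧ ∫ y, F s y ^ 2 ∂h.m ≤ B) (x : M) :
    h.P a (F a) x ≤ h.P b (F b) x := by
  have hs : Icc a b ⊆ Ioo 0 τ := fun s hs => ⟨ha.trans_le hs.1, hs.2.trans_lt hb⟩
  have he : h.Sm (Ioo 0 τ) fun s => h.H s x := h.Sm_mono (h.H_Sm x) Ioo_subset_Ioi_self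
  have hF' : h.Sm (Ioo 0 τ) F := h.Sm_mono hF Ioo_subset_Iio_self
  have l2 : ∀ s ∈ Icc a b, MemLp (F s) 2 h.m := fun s hs' =>
    (memLp_two_iff_integrable_sq (h.S_cont (h.Sm_slice hF' (hs hs'))).aestronglyMeasurable).2 (hB s hs').1
  obtain ⟨B', hB'⟩ := h.unif_H ha x
  have c1 := h.Sm_cont hF'
  have c2 := h.Sm_cont he
  have c3 := h.Sm_cont (h.Sm_Γ isOpen_Ioo he he)
  have key := (h.duh3 (G := fun _ _ => 0) isOpen_Ioo he hF' hab hs
    (h.int_L2 ha x (l2 a ⟨le_rfl, hab⟩)) (h.int_L2 (ha.trans_le hab) x (l2 b ⟨hab, le_rfl⟩))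
    (h.STI_of_le (Q' := fun s y => F s y ^ 2 + (h.H s x y ^ 2 + h.Γ (h.H s x) (h.H s x) y)) hs
      (c1.abs.mul (c2.abs.add c3.sqrt))
      (h.STI_of_bound (B := B + (B' + B')) hs ((c1.pow 2).add ((c2.pow 2).add c3)) fun s hs' => ?_)
      fun s hs' y => ?_) continuousOn_const (integrable_zero _ _ _)
    (fun s _ y => (add_zero _).symm) fun s hs' y => ?_).2
  · rw [← sub_nonneg]
    refine le_of_le_of_eq ?_ key.symm
    simp only [integral_zero, intervalIntegral.integral_zero, add_zero]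
    refine intervalIntegral.integral_nonneg hab fun s hs' => integral_nonneg fun y => ?_
    have := h.H_heat (hs hs').1 x y
    simp only [this, sub_self, mul_zero, zero_add]
    exact mul_nonneg (h.H_nonneg (hs hs').1 x y) (hL s hs' y)
  · obtain ⟨⟨-, m1, m2⟩, m3, m4⟩ := hB' s hs'.1
    have i1 := m1.integrable_sq
    refine ⟨(hB s hs').1.add (i1.add m2), ?_⟩
    have e : ∀ y, |F s y ^ 2 + (h.H s x y ^ 2 + h.Γ (h.H s x) (h.H s x) y)| =
        F s y ^ 2 + (h.H s x y ^ 2 + h.Γ (h.H s x) (h.H s x) y) := fun y =>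
      abs_of_nonneg (add_nonneg (sq_nonneg _) (add_nonneg (sq_nonneg _) (h.Γ_nonneg _ y)))
    simp only [e]
    rw [integral_add (hB s hs').1 (by exact i1.add m2), integral_add i1 m2]
    linarith [(hB s hs').2]
  · rw [abs_of_nonneg (by positivity), ← sq_abs (F s y), ← sq_abs (h.H s x y)]
    have := Real.sq_sqrt (h.Γ_nonneg (h.H s x) y)
    nlinarith [sq_nonneg (|F s y| - 2 * |h.H s x y|),
      sq_nonneg (|F s y| - 2 * Real.sqrt (h.Γ (h.H s x) (h.H s x) y)), sq_nonneg (F s y), sq_abs (F s y)]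
  · have := h.H_heat (hs hs').1 x y
    simp only [this, sub_self, mul_zero, zero_add]
    exact mul_nonneg (h.H_nonneg (hs hs').1 x y) (hL s hs' y)

theorem h5c_ham (h : HS n M) {w : M → ℝ} (hw : h.Nice w) {A τ : ℝ} (h0 : ∀ y, 0 ≤ w y) (hA : ∀ y, w y ≤ A)
    (hτ : 0 < τ) (hk : h.k * τ ≤ 1 / 2) (x : M) :
    τ / 2 * (h.Γ (h.P τ w) (h.P τ w) x * (h.P τ w x + 1)⁻¹) ≤ Real.log (A + 1) * (h.P τ w x + 1) := by
  obtain ⟨h1, B, hB⟩ := hw
  have hΓ : ∀ y, |h.Γ w w y| ≤ B := fun y => by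
    rw [abs_of_nonneg (h.Γ_nonneg w y)]
    exact (hB y).2
  have hB0 : 0 ≤ B := (abs_nonneg _).trans (hΓ x)
  have hA0 : 0 ≤ A := (h0 x).trans (hA x)
  obtain ⟨r1, r2⟩ := h.Sm_rev (h.P_Sm h1.2.1) τ
  set u : ℝ → M → ℝ := fun s => h.P (τ - s) w with hu
  replace r1 : h.Sm (Iio τ) u := r1
  set f : ℝ → M → ℝ := fun s y => u s y + 1 with hf
  have sf : h.Sm (Iio τ) f := h.Sm_add r1 (h.Sm_const _ 1)
  have u0 : ∀ s ∈ Iio τ, ∀ y, 0 ≤ u s y ∧ u s y ≤ A := fun s hs y =>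
    ⟨h.P_nonneg (sub_pos.2 hs) y h0, (le_abs_self _).trans
      (h.abs_P_le (sub_pos.2 hs) y fun z => by rw [abs_of_nonneg (h0 z)]; exact hA z)⟩
  have eΓ : ∀ s ∈ Iio τ, ∀ y, h.Γ (f s) (f s) y = h.Γ (u s) (u s) y := fun s hs y => by
    have su := h.Sm_slice r1 hs
    simp only [hf]
    rw [h.Γ_add_left su (h.S_const 1), h.Γ_const_left, add_zero, h.Γ_comm,
      h.Γ_add_left su (h.S_const 1), h.Γ_const_left, add_zero]
  have hL : ∀ s ∈ Iio τ, ∀ y, dt f s y + h.Δ (f s) y = 0 := fun s hs y => by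
    have e1 : dt u s y = -h.Δ (u s) y := (r2 s hs y).trans (congrArg _ (h.P_heat h1.2.1 (sub_pos.2 hs) y))
    have e2 : dt (fun (_ : ℝ) (_ : M) => (1 : ℝ)) s y = 0 := Geo.dt_eq (hasDerivAt_const s 1)
    simp only [hf]
    rw [h.dt_add isOpen_Iio r1 (h.Sm_const _ 1) hs, h.Δ_add (h.Sm_slice r1 hs) (h.S_const 1), h.Δ_const,
      e1, e2]
    ring
  obtain ⟨F, hF⟩ : ∃ F : ℝ → M → ℝ, F = fun s y =>
    (τ - s) / 2 * (h.Γ (f s) (f s) y * (f s y)⁻¹) + f s y * Real.log (f s y) := ⟨_, rfl⟩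
  obtain ⟨sF, LF⟩ := h5c_sub h.toGeo τ isOpen_Iio sf (fun s hs y => by linarith [(u0 s hs y).1]) hL hF
  set D := Real.exp (2 * h.k * τ) * B with hD
  have gΓ : ∀ s ∈ Ioo 0 τ, ∀ y, h.Γ (u s) (u s) y ≤ D := fun s hs y => by
    have hs' := sub_pos.2 hs.2
    refine (h.ge2 h1 hs' y (h.int_bdd hs' y h1.2.2.aestronglyMeasurable hΓ)).trans ?_
    refine mul_le_mul (Real.exp_le_exp.2 ?_) ((le_abs_self _).trans (h.abs_P_le hs' y hΓ))
      (h.P_nonneg hs' y (h.Γ_nonneg w)) (Real.exp_pos _).le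
    nlinarith [h.k_nonneg, hs.1]
  have bF : ∀ s ∈ Ioo 0 τ, ∀ y, 0 ≤ F s y ∧ F s y ≤ τ / 2 * h.Γ (u s) (u s) y + (A + 1) * u s y ∧
      F s y ≤ (τ - s) / 2 * D + Real.log (A + 1) * (u s y + 1) := fun s hs y => by
    obtain ⟨a1, a2⟩ := u0 s hs.2 y
    have a3 := h.Γ_nonneg (u s) y
    have a4 : h.Γ (u s) (u s) y * (u s y + 1)⁻¹ ≤ h.Γ (u s) (u s) y :=
      mul_le_of_le_one_right a3 (inv_le_one_of_one_le₀ (by linarith))
    have a5 : 0 ≤ Real.log (u s y + 1) := Real.log_nonneg (by linarith)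
    have a6 : Real.log (u s y + 1) ≤ u s y := (Real.log_le_sub_one_of_pos (by linarith)).trans (by linarith)
    have a7 : Real.log (u s y + 1) ≤ Real.log (A + 1) := Real.log_le_log (by linarith) (by linarith)
    have a8 : 0 < τ - s := sub_pos.2 hs.2
    simp only [hF, eΓ s hs.2 y]
    simp only [hf]
    refine ⟨by positivity, add_le_add ?_ ?_, add_le_add ?_ ?_⟩
    · exact mul_le_mul (by linarith [hs.1]) a4 (by positivity) (by positivity)
    · exact mul_le_mul (by linarith) a6 a5 (by linarith)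
    · exact mul_le_mul_of_nonneg_left (a4.trans (gΓ s hs y)) (by positivity)
    · rw [mul_comm]
      exact mul_le_mul_of_nonneg_right a7 (by linarith)
  have hD0 : 0 ≤ D := by positivity
  have bF' : ∀ s ∈ Ioo 0 τ, ∀ y, |F s y| ≤ τ / 2 * D + (A + 1) * A := fun s hs y => by
    rw [abs_of_nonneg (bF s hs y).1]
    refine (bF s hs y).2.1.trans (add_le_add ?_ ?_)
    · exact mul_le_mul_of_nonneg_left (gΓ s hs y) (by positivity)
    · exact mul_le_mul_of_nonneg_left (u0 s hs.2 y).2 (by positivity)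
  have cF : ∀ s ∈ Ioo 0 τ, Continuous (F s) := fun s hs => h.S_cont (h.Sm_slice sF hs.2)
  have lim : Tendsto (fun s => h.P s (F s) x) (𝓝[>] 0) (𝓝 (F 0 x)) := by
    refine h.P_tendsto hτ cF bF' ?_
    have := (h.Sm_cont sF).continuousAt (x := (0, x)) (prod_mem_nhds (Iio_mem_nhds hτ) univ_mem)
    rw [ContinuousAt, nhds_prod_eq] at this
    exact this.mono_left (prod_mono_left _ nhdsWithin_le_nhds)
  have up : ∀ b ∈ Ioo 0 τ, F 0 x ≤ (τ - b) / 2 * D + Real.log (A + 1) * (h.P τ w x + 1) := fun b hb => by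
    obtain ⟨B', hB'⟩ := h.unif_L2 h1.2.1 (sub_pos.2 hb.2)
    have k1 : F 0 x ≤ h.P b (F b) x := by
      refine le_of_tendsto lim ?_
      filter_upwards [Ioo_mem_nhdsGT hb.1] with a ha
      refine h5c_mono h (B := 2 * (τ / 2) ^ 2 * D * B' + 2 * (A + 1) ^ 2 * B') sF ha.1 ha.2.le hb.2
        (fun s hs y => LF s (hs.2.trans_lt hb.2) (hs.2.trans hb.2.le) ?_ y) (fun s hs => ?_) x
      · nlinarith [h.k_nonneg, ha.1, hs.1]
      · have hs' : s ∈ Ioo 0 τ := ⟨ha.1.trans_le hs.1, hs.2.trans_lt hb.2⟩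
        obtain ⟨⟨-, m1, m2⟩, -⟩ := h.P_H1 (sub_pos.2 hs'.2) h1.2.1
        obtain ⟨m3, m4, -⟩ := hB' (τ - s) (by linarith [hs.2])
        have i1 := (m2.const_mul (2 * (τ / 2) ^ 2 * D)).add (m1.integrable_sq.const_mul (2 * (A + 1) ^ 2))
        have le : ∀ y, F s y ^ 2 ≤ 2 * (τ / 2) ^ 2 * D * h.Γ (u s) (u s) y + 2 * (A + 1) ^ 2 * u s y ^ 2 :=
          fun y => by
            refine (pow_le_pow_left₀ (bF s hs' y).1 (bF s hs' y).2.1 2).trans ?_
            have := mul_le_mul_of_nonneg_left (mul_le_mul_of_nonneg_right (gΓ s hs' y) (h.Γ_nonneg (u s) y))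
              (sq_nonneg (τ / 2))
            nlinarith [sq_nonneg (τ / 2 * h.Γ (u s) (u s) y - (A + 1) * u s y)]
        refine ⟨i1.mono' ((cF s hs').pow 2).aestronglyMeasurable (Eventually.of_forall fun y => ?_), ?_⟩
        · rw [Real.norm_of_nonneg (sq_nonneg _)]
          exact le y
        · refine (integral_mono_of_nonneg (Eventually.of_forall fun y => sq_nonneg _) i1
            (Eventually.of_forall le)).trans ?_
          simp only [Pi.add_apply]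
          rw [integral_add (m2.const_mul _) (m1.integrable_sq.const_mul _), integral_const_mul,
            integral_const_mul]
          gcongr
    obtain ⟨j1, j2⟩ := h.P_P hb.1 (sub_pos.2 hb.2) (x := x) h1.2.1.aestronglyMeasurable
      (h.int_L2 (by linarith) x h1.2.1)
    rw [add_sub_cancel] at j2
    have ic : ∀ c : ℝ, Integrable (fun y => h.H b x y * c) h.m := fun c => (h.H_int hb.1 x).1.mul_const c
    have j3 : Integrable (fun y => h.H b x y * (Real.log (A + 1) * u b y)) h.m :=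
      (j1.const_mul (Real.log (A + 1))).congr (Eventually.of_forall fun y => mul_left_comm _ _ _)
    have k2 := h.P_mono hb.1 (f' := fun y => ((τ - b) / 2 * D + Real.log (A + 1)) + Real.log (A + 1) * u b y)
      (h.int_bdd hb.1 x (cF b hb).aestronglyMeasurable (bF' b hb))
      (((ic _).add j3).congr (Eventually.of_forall fun y => (mul_add _ _ _).symm))
      fun y => (bF b hb y).2.2.trans_eq (by ring)
    rw [h.P_add (ic _) j3, h.P_const hb.1, h.P_cmul, j2] at k2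
    linarith
  have k3 : F 0 x ≤ Real.log (A + 1) * (h.P τ w x + 1) := by
    have t1 : Tendsto (fun b => (τ - b) / 2 * D + Real.log (A + 1) * (h.P τ w x + 1)) (𝓝[<] τ)
        (𝓝 ((τ - τ) / 2 * D + Real.log (A + 1) * (h.P τ w x + 1))) :=
      (Continuous.tendsto (by fun_prop) τ).mono_left nhdsWithin_le_nhds
    rw [sub_self, zero_div, zero_mul, zero_add] at t1
    exact ge_of_tendsto t1 (mem_of_superset (Ioo_mem_nhdsLT hτ) up)
  refine le_trans ?_ k3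
  simp only [hF, eΓ 0 hτ x]
  simp only [hf, hu, sub_zero]
  have := h.P_nonneg hτ x h0
  exact le_add_of_nonneg_right (mul_nonneg (by linarith) (Real.log_nonneg (by linarith)))

end h5c

/-- Hamilton's gradient estimate.  Recipe: `w = H (t/2) x ≤ A = C θ`, `τ = t/2`, `f s = P (τ-s) w + δ`.  `(∂ₛ+Δ)(e^{2ks}Γf/f) ≥ 0` and `(∂ₛ+Δ)(f log f) = Γf/f`; `duh1` (subtract the constants
`δ log δ`) based at `y`: `τ e^{-2kτ} Γf₀/f₀ ≤ P τ ((w+δ) log (w+δ)) - f₀ log f₀ ≤ f₀ log((A+δ)/f₀)`; `δ → 0`, `gauss_lo`, `th_le`. -/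
theorem grad_φ (n : ℕ) : ∃ C : ℝ, 0 < C ∧ ∀ (X : Sp.{u} n) {t : ℝ}, 0 < t → X.h.k * t ≤ 1 / 200 →
    ∀ x y, t * X.h.Γ (X.h.φ t x) (X.h.φ t x) y ≤ C * (1 + dist x y ^ 2 / t) := by
  obtain ⟨C₁, h₁, H₁⟩ := gauss_up.{u} n
  obtain ⟨C₂, h₂, H₂⟩ := th_le.{u} n 2
  obtain ⟨C₃, h₃, H₃⟩ := gauss_lo.{u} n
  refine ⟨16 * (C₁ * C₂ * C₃ + 1), by positivity, fun X t ht hk x y => ?_⟩
  have hτ : 0 < t / 2 := half_pos ht
  have hk' : X.h.k * (t / 2) ≤ 1 / 200 := by nlinarith [X.h.k_nonneg]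
  have p := X.h.H_pos ht x y
  set c := (X.h.H t x y)⁻¹ with hc
  have hc0 : 0 < c := inv_pos.2 p
  obtain ⟨⟨n1, n2, n3⟩, B, hB⟩ := H_nice X hτ hk' x
  have eΓ : ∀ {f : X.M → ℝ}, X.h.S f → ∀ z, X.h.Γ (fun z => c * f z) (fun z => c * f z) z =
      c ^ 2 * X.h.Γ f f z := fun hf z => by
    rw [X.h.Γ_cmul_left c hf, X.h.Γ_comm, X.h.Γ_cmul_left c hf]
    ring
  have nw : X.h.Nice fun z => c * X.h.H (t / 2) x z := by
    refine ⟨⟨X.h.S_cmul c n1, n2.const_mul c, ?_⟩, max (c * B) (c ^ 2 * B), fun z => ⟨?_, ?_⟩⟩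
    · rw [funext (eΓ n1)]
      exact n3.const_mul _
    · rw [abs_mul, abs_of_pos hc0]
      exact (mul_le_mul_of_nonneg_left (hB z).1 hc0.le).trans (le_max_left _ _)
    · rw [eΓ n1]
      exact (mul_le_mul_of_nonneg_left (hB z).2 (sq_nonneg c)).trans (le_max_right _ _)
  have hd : 0 ≤ dist x y ^ 2 / t := by positivity
  have hA : ∀ z, c * X.h.H (t / 2) x z ≤ C₁ * C₂ * C₃ * Real.exp (dist x y ^ 2 / t) := fun z => by
    have a0 := (X.h.th_pos hτ x).le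
    have a1 : X.h.H (t / 2) x z ≤ C₁ * X.h.th (t / 2) x :=
      (H₁ X hτ hk' x z).trans (mul_le_of_le_one_right (by positivity)
        (Real.exp_le_one_iff.2 (div_nonpos_of_nonpos_of_nonneg (neg_nonpos.2 (sq_nonneg _)) (by positivity))))
    have a2 := H₂ X (t := t) hτ (by linarith) (by linarith) (by linarith) x
    have a3 := H₃ X ht (by linarith) x y
    rw [neg_div, Real.exp_neg, ← div_eq_mul_inv, div_le_iff₀ (Real.exp_pos _)] at a3
    rw [hc, inv_mul_le_iff₀ p]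
    calc _ ≤ C₁ * (C₂ * (C₃ * X.h.H t x y * Real.exp (dist x y ^ 2 / t))) :=
          a1.trans (mul_le_mul_of_nonneg_left (a2.trans (mul_le_mul_of_nonneg_left a3 h₂.le)) h₁.le)
      _ = _ := by ring
  have key := h5c_ham X.h nw (fun z => mul_nonneg hc0.le (X.h.H_nonneg hτ x z)) hA hτ (by linarith) y
  have eP : X.h.P (t / 2) (fun z => c * X.h.H (t / 2) x z) = fun z => c * X.h.H t x z := funext fun z => by
    rw [X.h.P_cmul, X.h.P_H hτ hτ, add_halves]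
  have e1 : c * X.h.H t x y = 1 := inv_mul_cancel₀ p.ne'
  have e2 : c ^ 2 * X.h.Γ (X.h.H t x) (X.h.H t x) y = X.h.Γ (X.h.φ t x) (X.h.φ t x) y := by
    rw [X.h.Γ_H ht, X.h.Γ_comm, X.h.Γ_H ht]
    linear_combination (c * X.h.H t x y + 1) * X.h.Γ (X.h.φ t x) (X.h.φ t x) y * e1
  rw [eP, eΓ (X.h.H_S ht x), e2] at key
  simp only [e1] at key
  have K0 : 0 < C₁ * C₂ * C₃ := by positivity
  have l1 : Real.log (C₁ * C₂ * C₃ * Real.exp (dist x y ^ 2 / t) + 1) ≤ C₁ * C₂ * C₃ + dist x y ^ 2 / t := by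
    rw [Real.log_le_iff_le_exp (by positivity), Real.exp_add]
    have := Real.one_le_exp hd
    nlinarith [Real.add_one_le_exp (C₁ * C₂ * C₃)]
  nlinarith [mul_nonneg K0.le hd]

theorem abs_φ (n : ℕ) : ∃ C : ℝ, 0 < C ∧ ∀ (X : Sp.{u} n) {t : ℝ}, 0 < t → X.h.k * t ≤ 1 / 200 →
    ∀ x y, |X.h.φ t x y + Real.log (X.h.th t x)| ≤ C * (1 + dist x y ^ 2 / t) := by
  obtain ⟨C₁, hC₁, H₁⟩ := gauss_lo.{u} n
  obtain ⟨C₂, hC₂, H₂⟩ := gauss_up.{u} n
  refine ⟨|Real.log C₁| + |Real.log C₂| + 1, by positivity, fun X t ht hk x y => ?_⟩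
  have hθ := X.h.th_pos ht x
  have hH := X.h.H_pos ht x y
  have a1 := Real.log_le_log (by positivity) (H₁ X ht (hk.trans (by norm_num)) x y)
  have a2 := Real.log_le_log hH (h5b_le hC₂ hθ ht (H₂ X ht hk x y))
  rw [Real.log_mul hθ.ne' (Real.exp_pos _).ne', Real.log_exp, Real.log_mul hC₁.ne' hH.ne',
    neg_div] at a1
  rw [Real.log_mul hC₂.ne' hθ.ne'] at a2
  have b1 := le_abs_self (Real.log C₁)
  have b2 := le_abs_self (Real.log C₂)
  have b3 : 0 ≤ dist x y ^ 2 / t := by positivity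
  have b4 := mul_nonneg (abs_nonneg (Real.log C₁)) b3
  have b5 := mul_nonneg (abs_nonneg (Real.log C₂)) b3
  have b6 := abs_nonneg (Real.log C₁)
  have b7 := abs_nonneg (Real.log C₂)
  rw [HS.φ, abs_le]
  constructor <;> nlinarith

/-- `log H t y ·` is Lipschitz along the geodesic from `z` to `x` (`grad_φ` based at `y`, `H_symm`, `abs_sub_le_of_Γ`). -/
theorem H_ratio (n : ℕ) (R : ℝ) : ∃ C : ℝ, 0 < C ∧ ∀ (X : Sp.{u} n) {t : ℝ}, 0 < t →
    X.h.k * t ≤ 1 / 200 → ∀ x z y, dist x z ≤ R * Real.sqrt t →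
      |X.h.φ t x y - X.h.φ t z y| ≤ C * (dist x z / Real.sqrt t) * (1 + dist x y / Real.sqrt t) := by
  obtain ⟨C, hC, h⟩ := grad_φ.{u} n
  refine ⟨Real.sqrt C * (1 + |R|), by positivity, fun X t ht hk x z y hxz => ?_⟩
  have hr : 0 < Real.sqrt t := Real.sqrt_pos.2 ht
  have e : ∀ w, X.h.φ t w y = X.h.φ t y w := fun w => by rw [HS.φ, HS.φ, X.h.H_symm ht]
  obtain ⟨a, ha⟩ : ∃ a, a = dist x y / Real.sqrt t := ⟨_, rfl⟩
  have ha0 : 0 ≤ a := by rw [ha]; positivity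
  have h1 := X.h.toGeo.abs_sub_le_of_Γ (X.h.φ_S ht y) (x := z) (y := x)
    (L := Real.sqrt C * (1 + |R|) * (1 + a) / Real.sqrt t) (by positivity) fun w hw => by
      rw [div_pow, Real.sq_sqrt ht.le, le_div_iff₀' ht, mul_pow, mul_pow, Real.sq_sqrt hC.le, mul_assoc]
      refine (h X ht hk y w).trans (mul_le_mul_of_nonneg_left ?_ hC.le)
      have h2 : dist y w / Real.sqrt t ≤ a + |R| := by
        rw [ha, div_le_iff₀ hr, add_mul, div_mul_cancel₀ _ hr.ne']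
        have := dist_triangle y x w
        rw [dist_comm y x] at this
        nlinarith [le_abs_self R]
      have h3 : dist y w ^ 2 / t = (dist y w / Real.sqrt t) ^ 2 := by
        rw [div_pow, Real.sq_sqrt ht.le]
      have h4 := pow_le_pow_left₀ (by positivity) h2 2
      have h5 := abs_nonneg R
      have h6 := mul_nonneg ha0 h5
      rw [h3]
      nlinarith [mul_nonneg h6 ha0, mul_nonneg h6 h5, mul_nonneg h6 h6]
  rw [e, e, abs_sub_comm, ← ha]
  refine h1.trans_eq ?_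
  ring

theorem h5d_exp (a : ℝ) : |Real.exp a - 1| ≤ |a| * Real.exp |a| := by
  rcases le_total 0 a with h | h
  · rw [abs_of_nonneg h, abs_of_nonneg (sub_nonneg.2 (Real.one_le_exp h))]
    have h1 := Real.add_one_le_exp (-a)
    have h2 : Real.exp a * Real.exp (-a) = 1 := by rw [← Real.exp_add]; simp
    nlinarith [Real.exp_pos a]
  · rw [abs_of_nonpos h, abs_of_nonpos (sub_nonpos.2 (Real.exp_le_one_iff.2 h))]
    have h1 := Real.add_one_le_exp a
    nlinarith [Real.one_le_exp (neg_nonneg.2 h)]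

theorem h5d_dom (n : ℕ) (R : ℝ) : ∃ C : ℝ, 0 < C ∧ ∀ (X : Sp.{u} n) {t : ℝ}, X.h.ok t → ∀ x y,
    X.h.th t x * Real.exp (-dist x y ^ 2 / (200 * t)) * Real.exp (R * (dist x y / Real.sqrt t)) ≤
      C * X.h.H (1000 * t) x y := by
  obtain ⟨C, hC, h⟩ := gauss_dom.{u} n R
  refine ⟨C, hC, fun X t ht x y => le_trans ?_ (h X ht.1 le_rfl (by linarith [ht.1])
    (by nlinarith [ht.2]) x y)⟩
  rw [mul_assoc, ← Real.exp_add, mul_div_assoc R]
  refine mul_le_mul_of_nonneg_left (Real.exp_le_exp.2 (add_le_add_left ?_ _)) (X.h.th_pos ht.1 x).le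
  rw [neg_div, neg_div, neg_le_neg_iff]
  exact div_le_div_of_nonneg_left (sq_nonneg _) (by linarith [ht.1]) (by linarith [ht.1])

/-- `|e^a - 1| ≤ |a| e^{|a|}`, `H_ratio`, `gauss_up`, `gauss_dom`. -/
theorem H_lip (n : ℕ) (R : ℝ) : ∃ C : ℝ, 0 < C ∧ ∀ (X : Sp.{u} n) {t : ℝ}, X.h.ok t → ∀ x z y,
    dist x z ≤ R * Real.sqrt t →
      |X.h.H t z y - X.h.H t x y| ≤ C * (dist x z / Real.sqrt t) * X.h.H (1000 * t) x y := by
  obtain ⟨C₁, hC₁, h₁⟩ := H_ratio.{u} n R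
  obtain ⟨C₂, hC₂, h₂⟩ := gauss_up.{u} n
  obtain ⟨C₃, hC₃, h₃⟩ := h5d_dom.{u} n (C₁ * |R| + 1)
  refine ⟨C₁ * Real.exp (C₁ * |R|) * C₂ * C₃, by positivity, fun X t ht x z y hxz => ?_⟩
  have ht0 := ht.1
  have hk : X.h.k * t ≤ 1 / 200 := by linarith [ht.2]
  have hr : 0 < Real.sqrt t := Real.sqrt_pos.2 ht0
  have a1 := h₁ X ht0 hk x z y hxz
  have a2 := h₂ X ht0 hk x y
  have a3 := h₃ X ht x y
  have hθ := X.h.th_pos ht0 x
  have hb0 : 0 ≤ dist x z / Real.sqrt t := by positivity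
  have hb : dist x z / Real.sqrt t ≤ |R| := by
    rw [div_le_iff₀ hr]; nlinarith [le_abs_self R]
  have hD : 0 ≤ dist x y / Real.sqrt t := by positivity
  have e : X.h.H t z y - X.h.H t x y = X.h.H t x y * (Real.exp (X.h.φ t x y - X.h.φ t z y) - 1) := by
    rw [HS.φ, HS.φ, neg_sub_neg, Real.exp_sub, Real.exp_log (X.h.H_pos ht0 _ _),
      Real.exp_log (X.h.H_pos ht0 _ _)]
    field_simp [(X.h.H_pos ht0 x y).ne']
  have a4 : X.h.H t x y ≤ C₂ * (X.h.th t x * Real.exp (-dist x y ^ 2 / (200 * t))) := by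
    refine a2.trans ?_
    rw [mul_assoc]
    refine mul_le_mul_of_nonneg_left (mul_le_mul_of_nonneg_left (Real.exp_le_exp.2 ?_) hθ.le) hC₂.le
    rw [neg_div, neg_div, neg_le_neg_iff]
    exact div_le_div_of_nonneg_left (sq_nonneg _) (by linarith) (by linarith)
  generalize dist x z / Real.sqrt t = b at *
  generalize dist x y / Real.sqrt t = D at *
  generalize X.h.φ t x y - X.h.φ t z y = a at *
  have a5 : |Real.exp a - 1| ≤ C₁ * b * Real.exp (C₁ * |R|) * Real.exp ((C₁ * |R| + 1) * D) := by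
    refine (h5d_exp a).trans ?_
    have b1 : |a| ≤ C₁ * b * Real.exp D :=
      a1.trans (mul_le_mul_of_nonneg_left (by linarith [Real.add_one_le_exp D]) (by positivity))
    have b2 : Real.exp |a| ≤ Real.exp (C₁ * |R| * (1 + D)) :=
      Real.exp_le_exp.2 (a1.trans (by gcongr))
    refine (mul_le_mul b1 b2 (Real.exp_pos _).le (by positivity)).trans_eq ?_
    rw [mul_assoc (C₁ * b), mul_assoc (C₁ * b), ← Real.exp_add, ← Real.exp_add]
    congr 2; ring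
  rw [e, abs_mul, abs_of_pos (X.h.H_pos ht0 _ _)]
  calc _ ≤ C₂ * (X.h.th t x * Real.exp (-dist x y ^ 2 / (200 * t))) *
        (C₁ * b * Real.exp (C₁ * |R|) * Real.exp ((C₁ * |R| + 1) * D)) :=
        mul_le_mul a4 a5 (abs_nonneg _) (by positivity)
    _ = C₁ * Real.exp (C₁ * |R|) * C₂ * b * (X.h.th t x * Real.exp (-dist x y ^ 2 / (200 * t)) *
        Real.exp ((C₁ * |R| + 1) * D)) := by ring
    _ ≤ C₁ * Real.exp (C₁ * |R|) * C₂ * b * (C₃ * X.h.H (1000 * t) x y) :=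
        mul_le_mul_of_nonneg_left a3 (by positivity)
    _ = _ := by ring

theorem h5d_ΓH (X : Sp.{u} n) {t : ℝ} (ht : 0 < t) (x y : X.M) :
    X.h.Γ (X.h.H t x) (X.h.H t x) y = X.h.H t x y ^ 2 * X.h.Γ (X.h.φ t x) (X.h.φ t x) y := by
  rw [X.h.Γ_H ht, X.h.toGeo.Γ_comm (X.h.φ t x), X.h.Γ_H ht]; ring

/-- `ge_dim` for `H (t/2) x`, `Γ(H) = H² Γφ ≤ (C/t) θ H`, `P_H`, `gauss_up`, `gauss_dom`. -/
theorem H_lap (n : ℕ) : ∃ C : ℝ, 0 < C ∧ ∀ (X : Sp.{u} n) {t : ℝ}, X.h.ok t → ∀ x y,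
    t * |X.h.Δ (X.h.H t x) y| ≤ C * X.h.H (1000 * t) x y := by
  obtain ⟨C₁, hC₁, h₁⟩ := grad_φ.{u} n
  obtain ⟨C₂, hC₂, h₂⟩ := gauss_up.{u} n
  obtain ⟨C₃, hC₃, h₃⟩ := h5d_dom.{u} n 0
  obtain ⟨C₄, hC₄, h₄⟩ := th_le.{u} n 2
  obtain ⟨K, hK⟩ : ∃ K : ℝ, K = (n + 1) * 3 * (200 * C₁ * C₂) * C₄ * C₂ := ⟨_, rfl⟩
  have hK0 : 0 < K := by rw [hK]; positivity
  refine ⟨Real.sqrt K * C₃, by positivity, fun X t ht x y => ?_⟩
  have ht0 := ht.1
  have hk0 := X.h.k_nonneg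
  have hτ : 0 < t / 2 := half_pos ht0
  have hk : X.h.k * t ≤ 1 / 200 := by linarith [ht.2]
  have hk' : X.h.k * (t / 2) ≤ 1 / 200 := by nlinarith [mul_nonneg hk0 ht0.le]
  have hN := H_nice X hτ hk' x
  have hP : X.h.P (t / 2) (X.h.H (t / 2) x) = X.h.H t x := by
    funext w; rw [X.h.P_H hτ hτ, add_halves]
  have a1 := X.h.ge_dim hN hτ y
  rw [hP] at a1
  have hθ := X.h.th_pos ht0 x
  have hθ' := X.h.th_pos hτ x
  have a2 : ∀ w, X.h.Γ (X.h.H (t / 2) x) (X.h.H (t / 2) x) w ≤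
      200 * C₁ * C₂ * X.h.th (t / 2) x / t * X.h.H (t / 2) x w := fun w => by
    have b1 := h₁ X hτ hk' x w
    have b2 := h₂ X hτ hk' x w
    have hH := X.h.H_pos hτ x w
    have b3 : Real.exp (-dist x w ^ 2 / (100 * (t / 2))) * (1 + dist x w ^ 2 / (t / 2)) ≤ 100 := by
      have e : -dist x w ^ 2 / (100 * (t / 2)) = -(dist x w ^ 2 / (t / 2) / 100) := by
        field_simp
      have c0 : 0 ≤ dist x w ^ 2 / (t / 2) := by positivity
      rw [e, Real.exp_neg, inv_mul_le_iff₀ (Real.exp_pos _)]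
      nlinarith [Real.add_one_le_exp (dist x w ^ 2 / (t / 2) / 100)]
    have b4 : X.h.H (t / 2) x w * (t / 2 * X.h.Γ (X.h.φ (t / 2) x) (X.h.φ (t / 2) x) w) ≤
        100 * C₁ * C₂ * X.h.th (t / 2) x :=
      calc _ ≤ C₂ * X.h.th (t / 2) x * Real.exp (-dist x w ^ 2 / (100 * (t / 2))) *
            (C₁ * (1 + dist x w ^ 2 / (t / 2))) :=
            mul_le_mul b2 b1 (mul_nonneg hτ.le (X.h.toGeo.Γ_nonneg _ _)) (by positivity)
        _ = C₁ * C₂ * X.h.th (t / 2) x * (Real.exp (-dist x w ^ 2 / (100 * (t / 2))) *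
            (1 + dist x w ^ 2 / (t / 2))) := by ring
        _ ≤ C₁ * C₂ * X.h.th (t / 2) x * 100 := mul_le_mul_of_nonneg_left b3 (by positivity)
        _ = _ := by ring
    rw [h5d_ΓH X hτ, div_mul_eq_mul_div, le_div_iff₀ ht0]
    nlinarith [mul_le_mul_of_nonneg_left b4 hH.le]
  obtain ⟨hN1, B, hB⟩ := hN
  have a3 := X.h.P_mono hτ (x := y)
    (X.h.int_bdd hτ y (X.h.toGeo.S_cont (X.h.toGeo.S_Γ hN1.1 hN1.1)).aestronglyMeasurable (B := B)
      fun w => by rw [abs_of_nonneg (X.h.toGeo.Γ_nonneg _ _)]; exact (hB w).2)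
    (X.h.int_L2 hτ y ((X.h.H_L2 hτ x).const_mul _)) a2
  rw [X.h.P_cmul, hP] at a3
  have a4 : Real.exp (2 * X.h.k * (t / 2)) ≤ 3 :=
    (Real.exp_le_exp.2 (by nlinarith)).trans (Real.exp_one_lt_d9.le.trans (by norm_num))
  have a5 := h₄ X (t := t) hτ (by linarith) (by linarith) (by linarith) x
  have a6 := h₂ X ht0 hk x y
  have a7 := h₃ X ht x y
  rw [zero_mul, Real.exp_zero, mul_one] at a7
  have hH := X.h.H_pos ht0 x y
  have a8 : t * X.h.Δ (X.h.H t x) y ^ 2 ≤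
      (n + 1) * (3 * (200 * C₁ * C₂ * X.h.th (t / 2) x / t * X.h.H t x y)) := by
    have c1 := mul_nonneg (Nat.cast_nonneg (α := ℝ) n) (X.h.toGeo.Γ_nonneg (X.h.H t x) y)
    have c2 := mul_le_mul a4 a3 (X.h.P_nonneg hτ y fun w => X.h.toGeo.Γ_nonneg _ w) (by norm_num)
    have c3 := mul_le_mul (by linarith : (n : ℝ) ≤ n + 1) c2 (mul_nonneg (Real.exp_pos _).le
      (X.h.P_nonneg hτ y fun w => X.h.toGeo.Γ_nonneg _ w)) (by positivity)
    linarith
  have a9 : (t * |X.h.Δ (X.h.H t x) y|) ^ 2 ≤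
      (Real.sqrt K * (X.h.th t x * Real.exp (-dist x y ^ 2 / (200 * t)))) ^ 2 := by
    have e : Real.exp (-dist x y ^ 2 / (200 * t)) ^ 2 = Real.exp (-dist x y ^ 2 / (100 * t)) := by
      rw [← Real.exp_nat_mul]; congr 1; push_cast; field_simp; ring
    rw [mul_pow, mul_pow, mul_pow, sq_abs, Real.sq_sqrt hK0.le, e]
    calc t ^ 2 * X.h.Δ (X.h.H t x) y ^ 2 = t * (t * X.h.Δ (X.h.H t x) y ^ 2) := by ring
      _ ≤ t * ((n + 1) * (3 * (200 * C₁ * C₂ * X.h.th (t / 2) x / t * X.h.H t x y))) :=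
          mul_le_mul_of_nonneg_left a8 ht0.le
      _ = (n + 1) * 3 * (200 * C₁ * C₂) * (X.h.th (t / 2) x * X.h.H t x y) := by field_simp
      _ ≤ (n + 1) * 3 * (200 * C₁ * C₂) * (C₄ * X.h.th t x *
            (C₂ * X.h.th t x * Real.exp (-dist x y ^ 2 / (100 * t)))) :=
          mul_le_mul_of_nonneg_left (mul_le_mul a5 a6 hH.le (by positivity)) (by positivity)
      _ = _ := by rw [hK]; ring
  refine (pow_le_pow_iff_left₀ (by positivity) (by positivity) two_ne_zero |>.1 a9).trans ?_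
  rw [mul_assoc]
  exact mul_le_mul_of_nonneg_left a7 (Real.sqrt_nonneg _)

/-- Pointwise Li-Yau for the kernel: `li_yau` with `w = H τ x`, time `t - τ`, `τ → 0`; `Δ_H`, `grad_φ`. -/
theorem ζ_ge (n : ℕ) : ∃ C : ℝ, 0 < C ∧ ∀ (X : Sp.{u} n) {t : ℝ}, 0 < t → X.h.k * t ≤ 1 / 200 → ∀ x y,
    -(C * (X.h.k * t) * (1 + dist x y ^ 2 / t)) ≤ X.h.ζ t x y := by
  obtain ⟨C, hC, h⟩ := grad_φ.{u} n
  refine ⟨n + C, by positivity, fun X t ht hk x y => ?_⟩
  have hk0 := X.h.k_nonneg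
  have a1 : ∀ u ∈ Ioo 0 t, X.h.Γ (X.h.H t x) (X.h.H t x) y ≤
      (1 + 2 * X.h.k * u / 3) * (X.h.Δ (X.h.H t x) y * X.h.H t x y) +
        n / (2 * u) * (1 + X.h.k * u + (X.h.k * u) ^ 2 / 3) * X.h.H t x y ^ 2 := fun u hu => by
    have hτ : 0 < t - u := sub_pos.2 hu.2
    have hN := H_nice X hτ (by nlinarith [mul_nonneg hk0 hu.1.le]) x
    have hP : X.h.P u (X.h.H (t - u) x) = X.h.H t x := by
      funext w; rw [X.h.P_H hu.1 hτ, add_sub_cancel]
    obtain ⟨B, hB⟩ := hN.2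
    have hB' : ∀ w, |X.h.Γ (X.h.H (t - u) x) (X.h.H (t - u) x) w| ≤ B := fun w => by
      rw [abs_of_nonneg (X.h.toGeo.Γ_nonneg _ _)]; exact (hB w).2
    have b1 := X.h.li_yau hN.bd (X.h.H_nonneg hτ x) (B := Real.exp (2 * X.h.k * u) * B) hu.1
      (fun s hs w => by
        refine (X.h.ge2 hN.1 hs.1 w (X.h.int_bdd hs.1 w
          (X.h.toGeo.S_cont (X.h.toGeo.S_Γ hN.1.1 hN.1.1)).aestronglyMeasurable hB')).trans ?_
        exact mul_le_mul (Real.exp_le_exp.2 (by nlinarith [hs.2]))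
          ((le_abs_self _).trans (X.h.abs_P_le hs.1 w hB'))
          (X.h.P_nonneg hs.1 w fun z => X.h.toGeo.Γ_nonneg _ z) (Real.exp_pos _).le) y
    rwa [hP] at b1
  have a2 : X.h.Γ (X.h.H t x) (X.h.H t x) y ≤
      (1 + 2 * X.h.k * t / 3) * (X.h.Δ (X.h.H t x) y * X.h.H t x y) +
        n / (2 * t) * (1 + X.h.k * t + (X.h.k * t) ^ 2 / 3) * X.h.H t x y ^ 2 := by
    have hc : ContinuousAt (fun u : ℝ => (1 + 2 * X.h.k * u / 3) * (X.h.Δ (X.h.H t x) y * X.h.H t x y) +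
        n / (2 * u) * (1 + X.h.k * u + (X.h.k * u) ^ 2 / 3) * X.h.H t x y ^ 2) t := by
      fun_prop (disch := positivity)
    exact ge_of_tendsto (hc.tendsto.mono_left (nhdsWithin_le_nhds (s := Iio t)))
      (mem_of_superset (Ioo_mem_nhdsLT ht) a1)
  have hH := X.h.H_pos ht x y
  have a3 := h X ht hk x y
  have a4 := X.h.toGeo.Γ_nonneg (X.h.φ t x) y
  rw [h5d_ΓH X ht, X.h.Δ_H ht] at a2
  rw [HS.ζ]
  have hd : 0 ≤ dist x y ^ 2 / t := by positivity
  have hκ : 0 ≤ X.h.k * t := mul_nonneg hk0 ht.le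
  generalize dist x y ^ 2 / t = D at *
  generalize X.h.Γ (X.h.φ t x) (X.h.φ t x) y = G at *
  generalize X.h.Δ (X.h.φ t x) y = L at *
  generalize X.h.H t x y = H at *
  have a5 : t * G ≤ (1 + 2 * (X.h.k * t) / 3) * (t * G - t * L) +
      n / 2 * (1 + X.h.k * t + (X.h.k * t) ^ 2 / 3) := by
    have b1 := mul_le_mul_of_nonneg_left a2 (by positivity : 0 ≤ t / H ^ 2)
    refine le_trans (le_of_eq ?_) (b1.trans_eq ?_) <;> field_simp
  generalize X.h.k * t = κ at *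
  generalize t * G = G' at *
  generalize t * L = L' at *
  have hn : (0 : ℝ) ≤ n := Nat.cast_nonneg n
  rcases le_total 0 (n / 2 - L') with h0 | h0
  · exact le_trans (neg_nonpos.2 (by positivity)) h0
  · have b1 := mul_le_mul_of_nonneg_left a3 hκ
    have b2 := mul_nonneg hκ (neg_nonneg.2 h0)
    have b3 := mul_nonneg (mul_nonneg hn hκ) hd
    have b4 := mul_nonneg (mul_nonneg hC.le hκ) (by positivity : 0 ≤ 1 + D)
    have b5 := mul_nonneg (mul_nonneg hn hκ) (by linarith : 0 ≤ 1 - κ)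
    have b6 := mul_nonneg hn hκ
    nlinarith

theorem h5b_key {H θ C a p q : ℝ} (hH : 0 < H) (hθ : 0 < θ) (hC : 0 < C) (hq : 0 ≤ q)
    (h : H ≤ C * θ * Real.exp a) :
    H ^ (p + q) * θ ^ (1 - (p + q)) ≤ C ^ q * Real.exp (a * q) * (H ^ p * θ ^ (1 - p)) := by
  have h1 : H ^ q ≤ C ^ q * θ ^ q * Real.exp (a * q) := by
    rw [Real.exp_mul, ← Real.mul_rpow hC.le hθ.le, ← Real.mul_rpow (by positivity) (by positivity)]
    exact Real.rpow_le_rpow hH.le h hq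
  have h2 : θ ^ (1 - p) = θ ^ q * θ ^ (1 - (p + q)) := by
    rw [← Real.rpow_add hθ]; congr 1; ring
  rw [Real.rpow_add hH, h2]
  calc _ ≤ H ^ p * (C ^ q * θ ^ q * Real.exp (a * q)) * θ ^ (1 - (p + q)) := by gcongr
    _ = _ := by ring

theorem h5b_step {H θ C d t p q : ℝ} (R : ℝ) (hH : 0 < H) (hθ : 0 < θ) (hC : 0 < C) (hq : 0 < q)
    (ht : 0 < t) (h : H ≤ C * θ * Real.exp (-d ^ 2 / (100 * t))) :
    H ^ (p + q) * θ ^ (1 - (p + q)) * Real.exp (R * d / Real.sqrt t) ≤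
      C ^ q * Real.exp (R ^ 2 / (4 * (q / 100))) * (H ^ p * θ ^ (1 - p)) := by
  have h1 : -d ^ 2 / (100 * t) * q + R * d / Real.sqrt t ≤ R ^ 2 / (4 * (q / 100)) := by
    have b1 := h5b_quad ht (c := q / 100) (by positivity) d R
    have b3 : -d ^ 2 / (100 * t) * q = -(q / 100 * (d ^ 2 / t)) := by field_simp
    linarith
  calc _ ≤ C ^ q * Real.exp (-d ^ 2 / (100 * t) * q) * (H ^ p * θ ^ (1 - p)) *
        Real.exp (R * d / Real.sqrt t) :=
        mul_le_mul_of_nonneg_right (h5b_key hH hθ hC hq.le h) (Real.exp_pos _).le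
    _ = C ^ q * Real.exp (-d ^ 2 / (100 * t) * q + R * d / Real.sqrt t) * (H ^ p * θ ^ (1 - p)) := by
        rw [Real.exp_add]; ring
    _ ≤ _ := by gcongr

/-- The Rényi weights dominate exponential weights, and are integrable against them. -/
theorem W_bounds (n : ℕ) (hn : 1 ≤ n) (R : ℝ) : ∃ C : ℝ, 0 < C ∧ ∀ (X : Sp.{u} n) {t : ℝ}, X.h.ok t → ∀ x,
    (∀ y, X.h.H t x y * Real.exp (R * dist x y / Real.sqrt t) ≤ C * X.h.W (p1 n) t x y) ∧
    (∀ y, X.h.W (p1 n) t x y * Real.exp (R * dist x y / Real.sqrt t) ≤ C * X.h.W (p2 n) t x y) ∧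
    (∀ y, X.h.W (p2 n) t x y * Real.exp (R * dist x y / Real.sqrt t) ≤ C * X.h.H (1000 * t) x y) := by
  obtain ⟨C₁, hC₁, H₁⟩ := gauss_up.{u} n
  obtain ⟨C₂, hC₂, H₂⟩ := gauss_dom.{u} n R
  have hn' : (1 : ℝ) ≤ n := by exact_mod_cast hn
  have hq : (0 : ℝ) < 1 / (4 * n) := by positivity
  have hp : 1 / 2 ≤ p2 n := by
    have : 1 / (2 * (n : ℝ)) ≤ 1 / 2 := one_div_le_one_div_of_le (by norm_num) (by linarith)
    rw [p2]; linarith
  have e1 : p1 n + 1 / (4 * n) = 1 := by rw [p1]; ring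
  have e2 : p2 n + 1 / (4 * n) = p1 n := by rw [p1, p2]; field_simp; ring
  obtain ⟨K, hK⟩ : ∃ K : ℝ, K = C₁ ^ (1 / (4 * (n : ℝ))) *
    Real.exp (R ^ 2 / (4 * (1 / (4 * (n : ℝ)) / 100))) := ⟨_, rfl⟩
  have hK0 : 0 < K := by rw [hK]; positivity
  have hL : 0 < C₁ ^ p2 n * C₂ := by positivity
  refine ⟨K + C₁ ^ p2 n * C₂, by positivity, fun X t ht x => ?_⟩
  have hθ := X.h.th_pos ht.1 x
  have hH := X.h.H_pos ht.1 x
  have hu := H₁ X ht.1 (ht.2.trans (by norm_num)) x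
  have hW : ∀ p y, 0 < X.h.W p t x y := fun p y =>
    mul_pos (Real.rpow_pos_of_pos (hH y) _) (Real.rpow_pos_of_pos hθ _)
  refine ⟨fun y => ?_, fun y => ?_, fun y => ?_⟩
  · have h := h5b_step (p := p1 n) R (hH y) hθ hC₁ hq ht.1 (hu y)
    rw [e1, sub_self, Real.rpow_one, Real.rpow_zero, mul_one, ← hK] at h
    exact h.trans (mul_le_mul_of_nonneg_right (by linarith) (hW _ y).le)
  · have h := h5b_step (p := p2 n) R (hH y) hθ hC₁ hq ht.1 (hu y)
    rw [e2, ← hK] at h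
    exact h.trans (mul_le_mul_of_nonneg_right (by linarith) (hW _ y).le)
  · have h := h5b_key (p := 0) (q := p2 n) (hH y) hθ hC₁ (by linarith) (hu y)
    rw [zero_add, sub_zero, Real.rpow_one, Real.rpow_zero, one_mul] at h
    have ht0 := ht.1
    have hk : X.h.k * (1000 * t) ≤ 1 := by have := ht.2; linarith
    have h2 := H₂ X ht.1 le_rfl (by linarith) hk x y
    have h3 : -dist x y ^ 2 / (100 * t) * p2 n ≤ -dist x y ^ 2 / (500 * t) := by
      have b1 : -dist x y ^ 2 / (100 * t) * p2 n = -(p2 n / 100 * (dist x y ^ 2 / t)) := by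
        field_simp
      have b2 : -dist x y ^ 2 / (500 * t) = -(1 / 500 * (dist x y ^ 2 / t)) := by field_simp
      have b3 : 0 ≤ dist x y ^ 2 / t := by positivity
      rw [b1, b2, neg_le_neg_iff]
      exact mul_le_mul_of_nonneg_right (by linarith) b3
    calc _ ≤ C₁ ^ p2 n * Real.exp (-dist x y ^ 2 / (100 * t) * p2 n) * X.h.th t x *
          Real.exp (R * dist x y / Real.sqrt t) := mul_le_mul_of_nonneg_right h (Real.exp_pos _).le
      _ ≤ C₁ ^ p2 n * Real.exp (-dist x y ^ 2 / (500 * t)) * X.h.th t x *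
          Real.exp (R * dist x y / Real.sqrt t) := by gcongr
      _ = C₁ ^ p2 n * (X.h.th t x *
          Real.exp (-dist x y ^ 2 / (500 * t) + R * dist x y / Real.sqrt t)) := by
          rw [Real.exp_add]; ring
      _ ≤ C₁ ^ p2 n * (C₂ * X.h.H (1000 * t) x y) := by gcongr
      _ = C₁ ^ p2 n * C₂ * X.h.H (1000 * t) x y := by ring
      _ ≤ _ := mul_le_mul_of_nonneg_right (by linarith) (X.h.H_nonneg (by linarith) x y)

theorem h5e_diff (X : Sp.{u} n) {t₁ t₂ t c : ℝ} {x₁ x₂ x : X.M} {p : X.M → ℝ}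
    (i₁ : Integrable (fun z => X.h.H t₁ x₁ z * p z) X.h.m)
    (i₂ : Integrable (fun z => X.h.H t₂ x₂ z * p z) X.h.m)
    (i : Integrable (fun z => X.h.H t x z * |p z|) X.h.m) (hc : 0 ≤ c)
    (h : ∀ z, |X.h.H t₁ x₁ z - X.h.H t₂ x₂ z| ≤ c * X.h.H t x z) :
    |X.h.P t₁ p x₁ - X.h.P t₂ p x₂| ≤ c * X.h.P t (fun z => |p z|) x := by
  simp only [HS.P, kerP]
  rw [← integral_sub i₁ i₂, ← integral_const_mul, ← Real.norm_eq_abs]
  refine norm_integral_le_of_norm_le (i.const_mul c) (Eventually.of_forall fun z => ?_)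
  rw [Real.norm_eq_abs, ← sub_mul, abs_mul, ← mul_assoc]
  exact mul_le_mul_of_nonneg_right (h z) (abs_nonneg _)

theorem h5e_time (n : ℕ) : ∃ C : ℝ, 0 < C ∧ ∀ (X : Sp.{u} n) {s σ : ℝ}, X.h.ok s → 0 < σ → σ < s / 2 →
    ∀ x z, |X.h.H s x z - X.h.H (s - σ) x z| ≤ C * (σ / s) * X.h.H (2000 * s) x z := by
  obtain ⟨C, hC, h⟩ := H_lap.{u} n
  refine ⟨2 * C * 4 ^ (2 * n), by positivity, fun X s σ hs hσ hσs x z => ?_⟩
  have hs0 := hs.1
  have hk := X.h.k_nonneg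
  have hks : X.h.k * s ≤ 1 / 10 ^ 6 := hs.2
  have hH := X.h.H_nonneg (t := 2000 * s) (by positivity) x z
  have key := norm_image_sub_le_of_norm_deriv_le_segment' (f := fun τ => X.h.H τ x z)
    (f' := fun τ => X.h.Δ (X.h.H τ x) z) (a := s - σ) (b := s)
    (C := 2 * C * 4 ^ (2 * n) / s * X.h.H (2000 * s) x z) (fun τ hτ => by
      have hτ0 : 0 < τ := by linarith [hτ.1]
      have := X.h.Sm_deriv isOpen_Ioi (X.h.H_Sm x) hτ0 z
      rw [X.h.H_heat hτ0] at this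
      exact this.hasDerivWithinAt) (fun τ hτ => by
      have hτ0 : 0 < τ := by linarith [hτ.1]
      have h1 := h X (t := τ) ⟨hτ0, by nlinarith [hτ.2]⟩ x z
      have h2 := X.h.harnack (s := 1000 * τ) (t := 2000 * s) (by positivity) (by linarith [hτ.2])
        (by linarith) x x z
      have h3 : 2000 * s / (1000 * τ) ≤ 4 := by
        rw [div_le_iff₀ (by positivity)]; linarith [hτ.1]
      simp only [dist_self, ne_eq, OfNat.ofNat_ne_zero, not_false_eq_true, zero_pow, zero_div,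
        Real.exp_zero, mul_one] at h2
      have h4 : X.h.H (1000 * τ) x z ≤ 4 ^ (2 * n) * X.h.H (2000 * s) x z := h2.trans (by gcongr)
      rw [Real.norm_eq_abs, div_mul_eq_mul_div, le_div_iff₀ hs0]
      have h5 := mul_le_mul_of_nonneg_left h4 hC.le
      nlinarith [abs_nonneg (X.h.Δ (X.h.H τ x) z), hτ.1]) s ⟨by linarith, le_rfl⟩
  refine key.trans (le_of_eq ?_)
  field_simp
  ring

/-- Time and space modulus of `P` on mean-zero data of exponential growth (`H_lip`, `H_lap`, `P_gr`; for `d(x,y) > √s` use the crude bound). -/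
theorem P_modulus (n : ℕ) (R : ℝ) : ∃ C : ℝ, 0 < C ∧ ∀ (X : Sp.{u} n) {s σ B : ℝ}, X.h.ok s → 0 < σ →
    σ < s → ∀ (x : X.M) {p : X.M → ℝ}, Continuous p → Gr x s B R p → X.h.P s p x = 0 → ∀ y,
      |X.h.P (s - σ) p y| ≤ C * B * Real.sqrt (σ / s) *
        Real.exp ((|R| + 1) * dist x y / Real.sqrt σ) := by
  obtain ⟨Cg, hCg, hg⟩ := P_gr.{u} n R
  obtain ⟨C₁, hC₁, h₁⟩ := H_lip.{u} n 2
  obtain ⟨C₂, hC₂, h₂⟩ := h5e_time.{u} n
  refine ⟨(2 + 2 * C₁ + C₂) * Cg, by positivity, fun X s σ B hs hσ hσs x p hp hG h0 y => ?_⟩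
  have hs0 := hs.1
  have hk := X.h.k_nonneg
  have hks : X.h.k * s ≤ 1 / 10 ^ 6 := hs.2
  have hB : 0 ≤ B := (abs_nonneg _).trans (by simpa using hG x)
  have ht : 0 < s - σ := sub_pos.2 hσs
  have hkt : X.h.k * (s - σ) ≤ 1 / 10 ^ 6 := by nlinarith
  have hm := hp.aestronglyMeasurable (μ := X.h.m)
  have hi : ∀ z, _ := fun z => hg X (s := s - σ) ht (by linarith) (by linarith) x z hm hG
  set d := dist x y
  have hd : 0 ≤ d := dist_nonneg
  have hrs : 0 < Real.sqrt s := Real.sqrt_pos.2 hs0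
  have hrσ : 0 < Real.sqrt σ := Real.sqrt_pos.2 hσ
  have hle : Real.sqrt σ ≤ Real.sqrt s := Real.sqrt_le_sqrt hσs.le
  rw [Real.sqrt_div hσ.le]
  set q := Real.sqrt σ / Real.sqrt s with hq
  have hq0 : 0 < q := by positivity
  set e := Real.exp (d / Real.sqrt σ) with he
  have he1 : 1 ≤ e := Real.one_le_exp (by positivity)
  have he2 : d / Real.sqrt σ ≤ e := (le_add_of_nonneg_right zero_le_one).trans (Real.add_one_le_exp _)
  set E := Real.exp (|R| * d / Real.sqrt σ) with hE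
  have hE1 : 1 ≤ E := Real.one_le_exp (by positivity)
  have hexp : Real.exp ((|R| + 1) * d / Real.sqrt σ) = E * e := by
    rw [hE, he, ← Real.exp_add]; congr 1; ring
  rw [hexp]
  by_cases hc : 1 ≤ 2 * (q * e)
  · have h3 : Real.exp (|R| * d / Real.sqrt s) ≤ E := Real.exp_le_exp.2 (by gcongr)
    calc _ ≤ Cg * B * E := (hi y).2.trans (by gcongr)
      _ ≤ Cg * B * E * (2 * (q * e)) := le_mul_of_one_le_right (by positivity) hc
      _ = 2 * Cg * B * q * (E * e) := by ring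
      _ ≤ _ := by gcongr; linarith
  rw [not_le] at hc
  have hqq : q ^ 2 = σ / s := by rw [hq, div_pow, Real.sq_sqrt hσ.le, Real.sq_sqrt hs0.le]
  have hq1 : q < 1 / 2 := by nlinarith
  have hσ2 : σ < s / 2 := by
    have : σ / s < 1 / 2 := by nlinarith
    rw [div_lt_iff₀ hs0] at this
    linarith
  have hds : d / Real.sqrt s ≤ q * e := by
    calc d / Real.sqrt s = q * (d / Real.sqrt σ) := by rw [hq]; field_simp
      _ ≤ _ := by gcongr
  have hrt : 0 < Real.sqrt (s - σ) := Real.sqrt_pos.2 ht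
  have hst : Real.sqrt s ≤ 2 * Real.sqrt (s - σ) := by
    rw [Real.sqrt_le_left (by positivity), mul_pow, Real.sq_sqrt ht.le]
    linarith
  have hdt : d / Real.sqrt (s - σ) ≤ 2 * (q * e) := by
    calc d / Real.sqrt (s - σ) = 2 * (d / (2 * Real.sqrt (s - σ))) := by field_simp
      _ ≤ 2 * (d / Real.sqrt s) := by gcongr
      _ ≤ _ := by gcongr
  have hGa : Gr x s B R fun z => |p z| := fun z => by simpa using hG z
  have hma := hp.abs.aestronglyMeasurable (μ := X.h.m)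
  have a1 := hg X (s := 1000 * (s - σ)) (by positivity) (by linarith) (by linarith) x x hma hGa
  have a2 := hg X (s := 2000 * s) (by positivity) (by linarith) (by linarith) x x hma hGa
  have a3 := hg X (s := s) hs0 (by linarith) (by linarith) x x hm hG
  simp only [dist_self, mul_zero, zero_div, Real.exp_zero, mul_one] at a1 a2
  have b1 := h5e_diff X (hi y).1 (hi x).1 a1.1 (by positivity) fun z =>
    h₁ X ⟨ht, hkt⟩ x y z ((div_le_iff₀ hrt).1 (by linarith))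
  have b2 := h5e_diff X a3.1 (hi x).1 a2.1 (by positivity) fun z => h₂ X hs hσ hσ2 x z
  rw [h0, zero_sub, abs_neg] at b2
  have c1 : |X.h.P (s - σ) p y - X.h.P (s - σ) p x| ≤ C₁ * (2 * (q * e)) * (Cg * B) :=
    b1.trans (mul_le_mul (by gcongr) ((le_abs_self _).trans a1.2) (X.h.P_nonneg (by positivity) x
      fun _ => abs_nonneg _) (by positivity))
  have c2 : |X.h.P (s - σ) p x| ≤ C₂ * (q * e) * (Cg * B) := by
    refine b2.trans (mul_le_mul ?_ ((le_abs_self _).trans a2.2) (X.h.P_nonneg (by positivity) x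
      fun _ => abs_nonneg _) (by positivity))
    rw [← hqq]
    gcongr
    nlinarith
  calc _ ≤ C₁ * (2 * (q * e)) * (Cg * B) + C₂ * (q * e) * (Cg * B) := by
        linarith [abs_sub_abs_le_abs_sub (X.h.P (s - σ) p y) (X.h.P (s - σ) p x)]
    _ = (2 * C₁ + C₂) * Cg * B * q * (1 * e) := by ring
    _ ≤ _ := by gcongr; linarith

end Crest.Agent.R247
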