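import Crest.Agent.R247.Reg
import Crest.Agent.R247.G5
import Crest.Agent.R242.D7
import Crest.Agent.R247.HK.Ker

/-! # Row 247, block HK (OWNER task): the heat kernel

Recipe (use the lemmas of `R247/G1`-`G3`, in particular bump functions, once they are there).
1. Friedrichs form on `Lp ℝ 2 g.m`: `𝒟₀ = {f | S f, HasCompactSupport f}`, `E₀ f f' = ∫ Γ f f' = -⟪f, Δ f'⟫` (`ibp`).  `dom` = limits in `L²` of `E₀`-Cauchy sequences,
   `E u v = lim E₀`; well defined since `E₀ (f j) φ = -⟪f j, Δ φ⟫`.  This is a `R242.ClosedForm` (density: `C_c` is dense in `L²`, Lipschitz approximation,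
   `Geo.approx`); `R242.ClosedForm.sg` gives the semigroup (`heat`, `lap`; lemmas in `R242/D1`-`D7`).  `φ ∈ 𝒟₀` satisfies `IsGen φ (Δ φ)`.
2. Markov: for smooth `θ` with `θ 0 = 0`, `|θ'| ≤ 1`: `u ∈ dom → θ ∘ u ∈ dom`, `E (θ∘u) ≤ E u` (`Resolvent.lsc`); same for `P u = (u ∨ 0)` and `(u ∨ 0) ∧ 1` by `lsc` again.
   The resolvent `l • res l f` is the unique minimiser of `E v v + l ‖v - f‖²`, so the closed convex sets `{0 ≤ u}`, `{0 ≤ u ≤ 1}` are invariant (`SG.invariant`).
3. For `u ∈ dom`, in the chart at `x` the functions `∂ᵢ (f j ∘ symm)` are Cauchy in `L²(K)`: weak gradient `W`; `IsGen u a` gives the weak equation with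
   `a^{ij} = √det g · g^{ij}`, `ω = √det g` (`S_ext`, `Γ_ch`, `m_ch`).  `U k = ` the iterated generators of `heat t f` (`heat t f = heat (t/2) (…)`, `SG.lap_add`, …):
   `reg_smooth` gives a smooth representative in each chart; they glue (open-positive measure) to `T t f : M → ℝ`, linear in `f`, with `S (T t f)`, `Δ (T t f) = T`-representative of `lap`,
   `∫⁻ Γ (ũ) (ũ) ≤ E u u` for every `u ∈ dom` with a smooth representative `ũ`.
4. Closed graph (or Banach-Steinhaus): if `L : L² →ₗ (E n → ℝ)` has values smooth on `Ω` and `f ↦ ∫ L f · φ` is continuous for all test `φ`, the same holds for `∂ᵢ ∘ L`, and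
   `sup_K |L f| ≤ C ‖f‖`.  Hence `(t, y) ↦ L (γ t) y` is jointly smooth for the curve `γ t = heat (t - t₀) f` (all `t`-derivatives are of the same form; a family of jointly
   continuous functions closed under partial derivatives is `C^∞`): `P_Sm`, `P_heat`.
5. Riesz: `T t f x = ⟪h t x, f⟫`; `H t x y := T (t/2) (h (t/2) x) y = ⟪h (t/2) x, h (t/2) y⟫`; `H t x = h t x` a.e., `H (s+t) x = T s (h t x)`. -/

set_option autoImplicit false
set_option linter.unusedSectionVars false
set_option linter.unusedVariables false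
open MeasureTheory Filter Set Metric Matrix
open scoped ENNReal NNReal Topology ContDiff
open Crest.GeometryTopology.CoordMetric

noncomputable section
namespace Crest.Agent.R247
universe u



theorem exists_HS {n : ℕ} {M : Type u} [MetricSpace M] [MeasurableSpace M] [BorelSpace M]
    [ProperSpace M] (g : Geo n M) : ∃ h : HS n M, h.toGeo = g :=
  let ⟨e⟩ := g.exists_hkEv
  ⟨e.hs, rfl⟩

end Crest.Agent.R247
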