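import Crest.Agent.R247.Reg.Key
import Crest.Agent.R247.Reg.Four

/-! # Row 247, block Reg: interior elliptic regularity in `ℝⁿ`

Distributions are linear functionals on test functions (`Reg.Dz`); `Reg.Hk k T`: all derivatives of `T` of order `≤ k` are
locally `L²`-bounded.  `Reg.key` (cutoff, Riesz, mollification, Friedrichs commutator) is the `H²` step, `Reg.boot` the
bootstrap, `Reg.decay` + `Reg.four_smooth` (decay of the Fourier transform) give smoothness, `Reg.glue` glues. -/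

set_option autoImplicit false
set_option linter.unusedSectionVars false
set_option linter.unusedVariables false
open MeasureTheory Filter Set Metric Matrix
open scoped ENNReal NNReal Topology ContDiff
open Crest.GeometryTopology.CoordMetric

noncomputable section
namespace Crest.Agent.R247
universe u

namespace Reg
variable {n : ℕ} {Ω : Set (E n)}

theorem ind_mul {g φ : E n → ℝ} {K : Set (E n)} (h : tsupport φ ⊆ K) :
    (fun y => g y * φ y) = fun y => K.indicator g y * φ y := by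
  funext y
  by_cases hy : φ y = 0
  · simp [hy]
  · rw [indicator_of_mem (h (subset_tsupport _ hy))]

theorem loc_int {g : E n → ℝ} (hg : ∀ K ⊆ Ω, IsCompact K → MemLp g 2 (volume.restrict K))
    (φ : Dz Ω) : Integrable fun y => g y * φ.1 y := by
  rw [ind_mul (subset_refl (tsupport φ.1))]
  exact ((memLp_indicator_iff_restrict (isClosed_tsupport _).measurableSet).2
    (hg _ (Dz.sub φ) (Dz.ts φ).2)).integrable_mul (Dz.ts φ).memLp

/-- The functional of an `L²_loc` function. -/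
def intL (g : E n → ℝ) (hg : ∀ K ⊆ Ω, IsCompact K → MemLp g 2 (volume.restrict K)) :
    Dz Ω →ₗ[ℝ] ℝ where
  toFun φ := ∫ y, g y * φ.1 y
  map_add' φ ψ := by
    rw [← integral_add (loc_int hg φ) (loc_int hg ψ)]
    congr 1; funext y
    exact mul_add _ _ _
  map_smul' c φ := by
    rw [RingHom.id_apply, smul_eq_mul, ← integral_const_mul]
    congr 1; funext y
    change g y * (c * φ.1 y) = _
    ring

theorem intL_apply (g : E n → ℝ) (hg : ∀ K ⊆ Ω, IsCompact K → MemLp g 2 (volume.restrict K))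
    (φ : Dz Ω) : intL g hg φ = ∫ y, g y * φ.1 y := rfl

theorem intL_bd (g : E n → ℝ) (hg : ∀ K ⊆ Ω, IsCompact K → MemLp g 2 (volume.restrict K)) :
    Bd (intL g hg) := fun K hK hKΩ => ⟨N2 (K.indicator g), N2_nonneg _, fun φ hφ => by
  rw [intL_apply, ind_mul hφ]
  exact cs ((memLp_indicator_iff_restrict hK.measurableSet).2 (hg K hKΩ hK)) (Dz.ts φ).memLp⟩

end Reg

open Reg in
theorem reg_smooth {n : ℕ} {Ω : Set (E n)} (hΩ : IsOpen Ω) {a : E n → Mat n} {wt : E n → ℝ}
    (ha : ∀ i j, ContDiffOn ℝ ∞ (fun y => a y i j) Ω) (hpd : ∀ y ∈ Ω, (a y).PosDef)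
    (hwt : ContDiffOn ℝ ∞ wt Ω) (U : ℕ → E n → ℝ) (W : ℕ → Fin n → E n → ℝ)
    (hU : ∀ k, ∀ K ⊆ Ω, IsCompact K → MemLp (U k) 2 (volume.restrict K))
    (hW : ∀ k i, ∀ K ⊆ Ω, IsCompact K → MemLp (W k i) 2 (volume.restrict K))
    (hw : ∀ k i (φ : E n → ℝ), ContDiff ℝ ∞ φ → HasCompactSupport φ → tsupport φ ⊆ Ω →
      ∫ y, U k y * pderiv i φ y = -∫ y, W k i y * φ y)
    (he : ∀ k (φ : E n → ℝ), ContDiff ℝ ∞ φ → HasCompactSupport φ → tsupport φ ⊆ Ω →
      ∫ y, ∑ i, ∑ j, a y i j * W k i y * pderiv j φ y = -∫ y, wt y * U (k + 1) y * φ y) :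
    ∃ v : E n → ℝ, ContDiffOn ℝ ∞ v Ω ∧ ∀ᵐ y, y ∈ Ω → U 0 y = v y := by
  let A : Fin n → Fin n → Cz Ω := fun i j => ⟨fun y => a y i j, ha i j⟩
  have hp : ∀ x ∈ Ω, ∀ v : Fin n → ℝ, v ≠ 0 → 0 < ∑ i, ∑ j, (A i j).1 x * v i * v j := by
    intro x hx v hv
    refine ((hpd x hx).dotProduct_mulVec_pos hv).trans_eq ?_
    simp only [dotProduct, mulVec, star_trivial, Finset.mul_sum, A]
    exact Finset.sum_congr rfl fun i _ => Finset.sum_congr rfl fun j _ => by ring
  have hw' : ∀ k i (φ : Dz Ω), intL (U k) (hU k) (pdL Ω i φ) = -intL (W k i) (hW k i) φ :=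
    fun k i φ => hw k i φ.1 (Dz.ts φ).1 (Dz.ts φ).2 (Dz.sub φ)
  have h1 : ∀ k, Hk 1 (intL (U k) (hU k)) := fun k => ⟨intL_bd _ _, fun i => by
    rw [show intL (U k) (hU k) ∘ₗ pdL Ω i = -intL (W k i) (hW k i) from LinearMap.ext (hw' k i)]
    exact (intL_bd _ _).neg⟩
  have hL : ∀ k, intL (U k) (hU k) ∘ₗ Lop hΩ A =
      intL (U (k + 1)) (hU (k + 1)) ∘ₗ mulL hΩ ⟨wt, hwt⟩ := fun k => LinearMap.ext fun φ => by
    have hI : ∀ i j, Integrable fun y => a y i j * W k i y * pderiv j φ.1 y := fun i j =>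
      (loc_int (hW k i) (mulL hΩ (A i j) (pdL Ω j φ))).congr (Eventually.of_forall fun y => by
        change W k i y * (a y i j * pderiv j φ.1 y) = a y i j * W k i y * pderiv j φ.1 y
        ring)
    have h2 := he k φ.1 (Dz.ts φ).1 (Dz.ts φ).2 (Dz.sub φ)
    rw [integral_finsetSum _ fun i _ => integrable_finsetSum _ fun j _ => hI i j,
      Finset.sum_congr rfl fun i _ => integral_finsetSum _ fun j _ => hI i j] at h2
    simp only [LinearMap.comp_apply, Lop_apply, map_sum, hw', Finset.sum_neg_distrib]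
    rw [neg_eq_iff_eq_neg]
    refine Eq.trans ?_ (h2.trans ?_)
    · refine Finset.sum_congr rfl fun i _ => Finset.sum_congr rfl fun j _ => ?_
      rw [intL_apply]
      congr 1; funext y
      change W k i y * (a y i j * pderiv j φ.1 y) = a y i j * W k i y * pderiv j φ.1 y
      ring
    · rw [intL_apply]
      congr 2; funext y
      change wt y * U (k + 1) y * φ.1 y = U (k + 1) y * (wt y * φ.1 y)
      ring
  have hall : ∀ m k, Hk (m + 1) (intL (U k) (hU k)) := by
    intro m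
    induction m with
    | zero => exact h1
    | succ m ih =>
      intro k
      refine boot hΩ A (key hΩ A hp) m _ (ih k) ?_
      rw [hL]
      exact Hk.mul hΩ (ih (k + 1)).mono _
  refine glue hΩ fun x hx => ?_
  obtain ⟨r, hr, hrΩ⟩ := nhds_basis_closedBall.mem_iff.1 (hΩ.mem_nhds hx)
  obtain ⟨χ, hχ, hχΩ, hχ1, -⟩ := exists_cut hΩ (isCompact_closedBall x r) hrΩ
  obtain ⟨v, hv, hae⟩ := four_smooth (loc_int (hU 0) ⟨χ, hχ, hχΩ⟩) fun m => by
    obtain ⟨C, hC⟩ := decay hΩ m _ (fun k => (hall k 0).mono) ⟨χ, hχ, hχΩ⟩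
    refine ⟨C, fun ξ θ => le_of_eq_of_le ?_ (hC ξ θ)⟩
    rw [intL_apply]
    congr 3; funext y
    change U 0 y * χ y * Real.cos (inner ℝ ξ y + θ) = U 0 y * (Real.cos (inner ℝ ξ y + θ) * χ y)
    ring
  refine ⟨ball x r, isOpen_ball, mem_ball_self hr, v, hv, ?_⟩
  filter_upwards [hae] with y hy hyr
  rw [← hy]
  rw [hχ1 y (ball_subset_closedBall hyr), mul_one]

end Crest.Agent.R247
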