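import Crest.Agent.R247.E1

/-! # Row 247, K1: the summable error `kap` -/

set_option autoImplicit false
set_option linter.unusedSectionVars false
set_option linter.unusedVariables false
open MeasureTheory Filter Set Metric Matrix
open scoped ENNReal NNReal Topology ContDiff
open Crest.GeometryTopology.CoordMetric

noncomputable section
namespace Crest.Agent.R247
universe u

variable {n : ℕ} (X : Sp.{u} n)

omit X in
theorem k1a_w_le {a s σ : ℝ} (hs : 0 < s) (hσ : 0 < σ) (ha : 0 ≤ a) :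
    0 ≤ min (σ / s) (s / σ) ^ a ∧ min (σ / s) (s / σ) ^ a ≤ 1 := by
  have h0 : 0 ≤ min (σ / s) (s / σ) := le_min (by positivity) (by positivity)
  refine ⟨Real.rpow_nonneg h0 a, Real.rpow_le_one h0 ?_ ha⟩
  rcases le_total σ s with h | h
  · exact (min_le_left _ _).trans ((div_le_one hs).2 h)
  · exact (min_le_right _ _).trans ((div_le_one hσ).2 h)

omit X in
theorem k1a_I_le (K : ℝ → ℝ≥0∞) (T : ℝ) {a s : ℝ} (hs : 0 < s) (ha : 0 ≤ a) :
    ∫⁻ σ in Ioo 0 T, ENNReal.ofReal (min (σ / s) (s / σ) ^ a) * (K σ / ENNReal.ofReal σ) ≤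
      ∫⁻ σ in Ioo 0 T, K σ / ENNReal.ofReal σ := by
  refine setLIntegral_mono' measurableSet_Ioo fun σ hσ => ?_
  calc _ ≤ 1 * (K σ / ENNReal.ofReal σ) := by
        gcongr
        exact ENNReal.ofReal_le_one.2 (k1a_w_le hs hσ.1 ha).2
    _ = _ := one_mul _

omit X in
theorem k1a_int (K : ℝ → ℝ≥0∞) {T a s b b' c : ℝ} (hs : 0 < s) (ha : 0 ≤ a) (hb : 0 < b)
    (hbb : b ≤ b') (hT : b' ≤ T) (h : ∫⁻ σ in Ioo 0 T, K σ / ENNReal.ofReal σ ≠ ⊤) (hc : 0 ≤ c)
    {v : ℝ → ℝ} (hv : ∀ σ ∈ Ioo b b', 0 ≤ v σ ∧ v σ ≤ c * min (σ / s) (s / σ) ^ a) :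
    ∫ σ in b..b', v σ * ((K σ).toReal / σ) ≤ c *
      (∫⁻ σ in Ioo 0 T, ENNReal.ofReal (min (σ / s) (s / σ) ^ a) *
        (K σ / ENNReal.ofReal σ)).toReal := by
  have hI := ne_top_of_le_ne_top h (k1a_I_le K T hs ha)
  rw [intervalIntegral.integral_of_le hbb, integral_Ioc_eq_integral_Ioo]
  refine (le_abs_self _).trans ((Real.norm_eq_abs _).symm.le.trans
    ((norm_integral_le_lintegral_norm _).trans ?_))
  rw [← ENNReal.toReal_ofReal hc, ← ENNReal.toReal_mul, ← lintegral_const_mul' _ _ ENNReal.ofReal_ne_top]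
  refine ENNReal.toReal_mono ?_ ?_
  · rw [lintegral_const_mul' _ _ ENNReal.ofReal_ne_top]
    exact ENNReal.mul_ne_top ENNReal.ofReal_ne_top hI
  refine le_trans (setLIntegral_mono' measurableSet_Ioo fun σ hσ => ?_)
    (lintegral_mono_set (Ioo_subset_Ioo hb.le hT))
  have hσ0 : 0 < σ := hb.trans hσ.1
  obtain ⟨h0, h1⟩ := hv σ hσ
  rw [Real.norm_of_nonneg (by positivity), ENNReal.ofReal_mul h0, ENNReal.ofReal_div_of_pos hσ0,
    ← mul_assoc, ← ENNReal.ofReal_mul hc]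
  gcongr
  exact ENNReal.ofReal_toReal_le

omit X in
theorem k1a_pt {K : ℝ≥0∞} {a s t κ : ℝ} (hs : 0 < s) (ha : 0 ≤ a) (ha' : a ≤ 1) (hκ : 0 ≤ κ)
    (ht : t ∈ Ioo s (2 * s)) (hK : ENNReal.ofReal (4 * κ) ≤ K) :
    ENNReal.ofReal (κ / s) ≤
      ENNReal.ofReal (min (t / s) (s / t) ^ a) * (K / ENNReal.ofReal t) := by
  have ht0 : 0 < t := hs.trans ht.1
  have h1 : (1 / 2 : ℝ) ≤ min (t / s) (s / t) := by
    refine le_min ?_ ?_
    · rw [le_div_iff₀ hs]; linarith [ht.1]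
    · rw [le_div_iff₀ ht0]; linarith [ht.2]
  have h2 : (1 / 2 : ℝ) ≤ min (t / s) (s / t) ^ a :=
    calc (1 / 2 : ℝ) = (1 / 2 : ℝ) ^ (1 : ℝ) := (Real.rpow_one _).symm
      _ ≤ (1 / 2 : ℝ) ^ a := Real.rpow_le_rpow_of_exponent_ge (by norm_num) (by norm_num) ha'
      _ ≤ _ := Real.rpow_le_rpow (by norm_num) h1 ha
  calc ENNReal.ofReal (κ / s) ≤ ENNReal.ofReal (min (t / s) (s / t) ^ a * (4 * κ / t)) := by
        refine ENNReal.ofReal_le_ofReal ?_
        have h3 : 2 * κ / s ≤ 4 * κ / t := by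
          rw [div_le_div_iff₀ hs ht0]; nlinarith [ht.2]
        calc κ / s = 1 / 2 * (2 * κ / s) := by ring
          _ ≤ _ := mul_le_mul h2 h3 (by positivity) (by linarith)
    _ = ENNReal.ofReal (min (t / s) (s / t) ^ a) *
          (ENNReal.ofReal (4 * κ) / ENNReal.ofReal t) := by
        rw [ENNReal.ofReal_mul (by linarith), ENNReal.ofReal_div_of_pos ht0]
    _ ≤ _ := by gcongr

theorem k1a_meas (x : X.M) {b b' : ℝ} (hb : 0 ≤ b) :
    AEMeasurable (fun σ => X.h.KK x σ / ENNReal.ofReal σ) (volume.restrict (Ioo b b')) :=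
  ((KK_meas X x).mono_measure
    (Measure.restrict_mono (fun σ hσ => lt_of_le_of_lt hb hσ.1) le_rfl)).div
    ENNReal.measurable_ofReal.aemeasurable

theorem kap_basic (x : X.M) {T₁ a s E : ℝ} (hs : 0 < s) (hT : 0 < T₁) (ha : 0 ≤ a) (hE : 0 ≤ E)
    (h : X.h.Ent x T₁ ≤ ENNReal.ofReal E) :
    (s / T₁) ^ a ≤ X.h.kap x T₁ a s ∧ X.h.kap x T₁ a s ≤ E + (s / T₁) ^ a := by
  unfold HS.kap
  refine ⟨le_add_of_nonneg_left ENNReal.toReal_nonneg, ?_⟩
  have := ENNReal.toReal_le_of_le_ofReal hE ((k1a_I_le (X.h.KK x) T₁ hs ha).trans h)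
  linarith

theorem kap_cmp (x : X.M) {T₁ a s σ A : ℝ} (hs : 0 < s) (hσ : 0 < σ) (hT : 0 < T₁) (ha : 0 ≤ a)
    (h : X.h.Ent x T₁ ≠ ⊤) (h₁ : σ ≤ A * s) (h₂ : s ≤ A * σ) :
    X.h.kap x T₁ a σ ≤ A ^ a * X.h.kap x T₁ a s := by
  unfold HS.kap
  have hA : 0 < A := by
    by_contra hA
    have := mul_nonpos_of_nonpos_of_nonneg (not_lt.1 hA) hs.le
    linarith
  have hI := ne_top_of_le_ne_top h (k1a_I_le (X.h.KK x) T₁ hs ha)
  have hc : 0 ≤ A ^ a := Real.rpow_nonneg hA.le a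
  rw [mul_add]
  refine add_le_add ?_ ?_
  · rw [← ENNReal.toReal_ofReal hc, ← ENNReal.toReal_mul]
    refine ENNReal.toReal_mono (ENNReal.mul_ne_top ENNReal.ofReal_ne_top hI) ?_
    rw [← lintegral_const_mul' _ _ ENNReal.ofReal_ne_top]
    refine setLIntegral_mono' measurableSet_Ioo fun τ hτ => ?_
    have hτ0 := hτ.1
    rw [← mul_assoc, ← ENNReal.ofReal_mul hc,
      ← Real.mul_rpow hA.le (le_min (div_pos hτ0 hs).le (div_pos hs hτ0).le)]
    gcongr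
    rw [mul_min_of_nonneg _ _ hA.le]
    refine min_le_min ?_ ?_
    · rw [← mul_div_assoc, div_le_div_iff₀ hσ hs]; nlinarith
    · rw [← mul_div_assoc]; gcongr
  · rw [← Real.mul_rpow hA.le (by positivity), ← mul_div_assoc]
    gcongr

theorem KK_ae (x : X.M) {T₁ : ℝ} (h : X.h.Ent x T₁ ≠ ⊤) : ∀ᵐ σ, σ ∈ Ioc 0 T₁ → X.h.KK x σ ≠ ⊤ := by
  have h1 := ae_lt_top' (k1a_meas X x (b' := T₁) le_rfl) h
  rw [ae_restrict_iff' measurableSet_Ioo] at h1
  have h2 : ∀ᵐ σ : ℝ, σ ≠ T₁ := by simp [ae_iff]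
  filter_upwards [h1, h2] with σ h1 h2 hσ hK
  have := h1 ⟨hσ.1, lt_of_le_of_ne hσ.2 h2⟩
  rw [hK, ENNReal.top_div_of_ne_top ENNReal.ofReal_ne_top] at this
  exact lt_irrefl _ this

theorem kap_block (x : X.M) {T₁ a s b b' A : ℝ} (hs : 0 < s) (ha : 0 ≤ a) (hb : 0 < b) (hbb : b ≤ b')
    (hT : b' ≤ T₁) (h : X.h.Ent x T₁ ≠ ⊤) (h₁ : b' ≤ A * s) (h₂ : s ≤ A * b) :
    IntervalIntegrable (fun σ => (X.h.KK x σ).toReal / σ) volume b b' ∧
    IntervalIntegrable (fun σ => (X.h.KK x σ).toReal) volume b b' ∧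
      ∫ σ in b..b', (X.h.KK x σ).toReal / σ ≤ A ^ a * X.h.kap x T₁ a s := by
  have hA : 0 < A := by
    by_contra hA
    have := mul_nonpos_of_nonpos_of_nonneg (not_lt.1 hA) hs.le
    linarith
  have hT0 : 0 < T₁ := by linarith
  have hc : 0 ≤ A ^ a := Real.rpow_nonneg hA.le a
  have i1 : IntervalIntegrable (fun σ => (X.h.KK x σ).toReal / σ) volume b b' := by
    rw [intervalIntegrable_iff_integrableOn_Ioo_of_le hbb]
    have := integrable_toReal_of_lintegral_ne_top (k1a_meas X x (b' := b') hb.le)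
      (ne_top_of_le_ne_top h (lintegral_mono_set (Ioo_subset_Ioo hb.le hT)))
    refine IntegrableOn.congr_fun this (fun σ hσ => ?_) measurableSet_Ioo
    have hσ0 : 0 < σ := hb.trans hσ.1
    simp only [ENNReal.toReal_div, ENNReal.toReal_ofReal hσ0.le]
  refine ⟨i1, ?_, ?_⟩
  · have := i1.continuousOn_mul (g := fun σ => σ) continuousOn_id
    rw [intervalIntegrable_iff_integrableOn_Ioo_of_le hbb] at this ⊢
    refine IntegrableOn.congr_fun this (fun σ hσ => ?_) measurableSet_Ioo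
    have hσ0 : 0 < σ := hb.trans hσ.1
    field_simp
  · have := k1a_int (X.h.KK x) hs ha hb hbb hT h hc (v := fun _ => 1) fun σ hσ => by
      have hσ0 : 0 < σ := hb.trans hσ.1
      refine ⟨zero_le_one, ?_⟩
      rw [← Real.mul_rpow hA.le (le_min (by positivity) (by positivity))]
      refine Real.one_le_rpow ?_ ha
      rw [mul_min_of_nonneg _ _ hA.le]
      refine le_min ?_ ?_
      · rw [← mul_div_assoc, le_div_iff₀ hs]; nlinarith [hσ.1]
      · rw [← mul_div_assoc, le_div_iff₀ hσ0]; linarith [hσ.2]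
    simp only [one_mul] at this
    refine this.trans ?_
    unfold HS.kap
    gcongr
    exact le_add_of_nonneg_right (by positivity)

theorem kap_low (x : X.M) {T₁ a s b : ℝ} (ha : 0 ≤ a) (ha' : a ≤ 1 / 2) (hb : 0 < b) (hbs : b ≤ s)
    (hT : s ≤ T₁) (h : X.h.Ent x T₁ ≠ ⊤) :
    ∫ σ in b..s, Real.sqrt (σ / s) * ((X.h.KK x σ).toReal / σ) ≤ X.h.kap x T₁ a s := by
  have hs : 0 < s := by linarith
  have hT0 : 0 < T₁ := by linarith
  have := k1a_int (X.h.KK x) hs ha hb hbs hT h zero_le_one (v := fun σ => Real.sqrt (σ / s))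
    fun σ hσ => by
      have hσ0 : 0 < σ := hb.trans hσ.1
      have h1 : σ / s ≤ 1 := (div_le_one hs).2 hσ.2.le
      refine ⟨Real.sqrt_nonneg _, ?_⟩
      rw [one_mul, min_eq_left (h1.trans ((one_le_div hσ0).2 hσ.2.le)), Real.sqrt_eq_rpow]
      exact Real.rpow_le_rpow_of_exponent_ge (by positivity) h1 ha'
  rw [one_mul] at this
  refine this.trans ?_
  unfold HS.kap
  exact le_add_of_nonneg_right (by positivity)

/-- Good times (`4 log 2 > 2`). -/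
theorem good_time (x z : X.M) {T₁ a s : ℝ} (hs : 0 < s) (ha : 0 ≤ a) (ha' : a ≤ 1) (hT : 2 * s ≤ T₁)
    (hx : X.h.Ent x T₁ ≠ ⊤) (hz : X.h.Ent z T₁ ≠ ⊤) : ∃ t ∈ Icc s (2 * s),
      X.h.KK x t ≤ ENNReal.ofReal (4 * (X.h.kap x T₁ a s + X.h.kap z T₁ a s)) ∧
      X.h.KK z t ≤ ENNReal.ofReal (4 * (X.h.kap x T₁ a s + X.h.kap z T₁ a s)) := by
  by_contra hcon
  push Not at hcon
  have hT0 : 0 < T₁ := by linarith
  have hIx := ne_top_of_le_ne_top hx (k1a_I_le (X.h.KK x) T₁ hs ha)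
  have hIz := ne_top_of_le_ne_top hz (k1a_I_le (X.h.KK z) T₁ hs ha)
  have hp : 0 < (s / T₁) ^ a := by positivity
  set κ := X.h.kap x T₁ a s + X.h.kap z T₁ a s with hκ
  have hκ0 : 0 ≤ κ := by
    rw [hκ]; unfold HS.kap; positivity
  have hm : AEMeasurable (fun σ => ENNReal.ofReal (min (σ / s) (s / σ) ^ a) *
      (X.h.KK x σ / ENNReal.ofReal σ)) (volume.restrict (Ioo s (2 * s))) := by
    refine AEMeasurable.mul (Measurable.aemeasurable ?_) (k1a_meas X x hs.le)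
    fun_prop
  have key : ENNReal.ofReal κ ≤
      (∫⁻ σ in Ioo 0 T₁, ENNReal.ofReal (min (σ / s) (s / σ) ^ a) *
        (X.h.KK x σ / ENNReal.ofReal σ)) +
      ∫⁻ σ in Ioo 0 T₁, ENNReal.ofReal (min (σ / s) (s / σ) ^ a) *
        (X.h.KK z σ / ENNReal.ofReal σ) :=
    calc ENNReal.ofReal κ = ∫⁻ σ in Ioo s (2 * s), ENNReal.ofReal (κ / s) := by
          rw [setLIntegral_const, Real.volume_Ioo, ← ENNReal.ofReal_mul (by positivity)]
          congr 1
          field_simp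
          ring
      _ ≤ ∫⁻ σ in Ioo s (2 * s), (ENNReal.ofReal (min (σ / s) (s / σ) ^ a) *
          (X.h.KK x σ / ENNReal.ofReal σ) + ENNReal.ofReal (min (σ / s) (s / σ) ^ a) *
          (X.h.KK z σ / ENNReal.ofReal σ)) := by
          refine setLIntegral_mono' measurableSet_Ioo fun t ht => ?_
          by_cases h1 : X.h.KK x t ≤ ENNReal.ofReal (4 * κ)
          · exact (k1a_pt hs ha ha' hκ0 ht (hcon t (Ioo_subset_Icc_self ht) h1).le).trans le_add_self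
          · exact (k1a_pt hs ha ha' hκ0 ht (not_le.1 h1).le).trans le_self_add
      _ ≤ _ := by
          rw [lintegral_add_left' hm]
          exact add_le_add (lintegral_mono_set (Ioo_subset_Ioo hs.le hT))
            (lintegral_mono_set (Ioo_subset_Ioo hs.le hT))
  have := ENNReal.toReal_mono (ENNReal.add_ne_top.2 ⟨hIx, hIz⟩) key
  rw [ENNReal.toReal_ofReal hκ0, ENNReal.toReal_add hIx hIz, hκ] at this
  unfold HS.kap at this
  linarith

omit X in
lemma k1b_min {Q v : ℝ} (hQ : 1 < Q) (hv : 0 < v) :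
    min v v⁻¹ ≤ 2 * (1 + Q) / (Q - 1) * (Q * v / (1 + Q * v) - v / (1 + v)) := by
  have h1 : 0 < Q - 1 := by linarith
  have h2 : 0 < 1 + Q * v := by positivity
  have h3 : 0 < 1 + v := by positivity
  have e : 2 * (1 + Q) / (Q - 1) * (Q * v / (1 + Q * v) - v / (1 + v)) =
      2 * (1 + Q) * v / ((1 + Q * v) * (1 + v)) := by
    field_simp
    ring
  rw [e, le_div_iff₀ (by positivity)]
  rcases le_total v 1 with h | h
  · refine (mul_le_mul_of_nonneg_right (min_le_left _ _) (by positivity)).trans ?_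
    have h4 : (1 + Q * v) * (1 + v) ≤ (1 + Q) * 2 :=
      mul_le_mul (by nlinarith) (by linarith) h3.le (by linarith)
    nlinarith
  · refine (mul_le_mul_of_nonneg_right (min_le_right _ _) (by positivity)).trans ?_
    have h4 : (1 + Q * v) * (1 + v) ≤ ((1 + Q) * v) * (2 * v) :=
      mul_le_mul (by nlinarith) (by linarith) h3.le (by positivity)
    rw [inv_mul_le_iff₀ hv]
    nlinarith

omit X in
lemma k1b_tele {Q v : ℝ} (hQ : 1 < Q) (hv : 0 < v) (N : ℕ) :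
    ∑ k ∈ Finset.range N, min (Q ^ k * v) (Q ^ k * v)⁻¹ ≤ 2 * (1 + Q) / (Q - 1) := by
  have h1 : 0 < Q - 1 := by linarith
  have hQ0 : 0 < Q := by linarith
  have hc : 0 < 2 * (1 + Q) / (Q - 1) := by positivity
  calc _ ≤ ∑ k ∈ Finset.range N, 2 * (1 + Q) / (Q - 1) *
        (Q ^ (k + 1) * v / (1 + Q ^ (k + 1) * v) - Q ^ k * v / (1 + Q ^ k * v)) := by
        refine Finset.sum_le_sum fun k _ => ?_
        have := k1b_min hQ (v := Q ^ k * v) (by positivity)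
        rwa [← mul_assoc, ← pow_succ'] at this
    _ = 2 * (1 + Q) / (Q - 1) * (Q ^ N * v / (1 + Q ^ N * v) - Q ^ 0 * v / (1 + Q ^ 0 * v)) := by
        rw [← Finset.mul_sum, Finset.sum_range_sub fun k => Q ^ k * v / (1 + Q ^ k * v)]
    _ ≤ 2 * (1 + Q) / (Q - 1) * 1 := by
        gcongr
        have h2 : Q ^ N * v / (1 + Q ^ N * v) ≤ 1 := by
          rw [div_le_one (by positivity)]; linarith
        have h3 : 0 ≤ Q ^ 0 * v / (1 + Q ^ 0 * v) := by positivity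
        linarith
    _ = _ := mul_one _

omit X in
lemma k1b_geom {Q : ℝ} (hQ : 1 < Q) (N : ℕ) :
    ∑ k ∈ Finset.range N, (Q ^ k)⁻¹ ≤ 2 * (1 + Q) / (Q - 1) := by
  refine le_trans (Finset.sum_le_sum fun k _ => ?_) (k1b_tele hQ one_pos N)
  rw [mul_one]
  have h1 : 1 ≤ Q ^ k := one_le_pow₀ hQ.le
  exact le_min ((inv_le_one_of_one_le₀ h1).trans h1) le_rfl

omit X in
lemma k1b_super {α : Type*} [MeasurableSpace α] (μ : Measure α) (f : ℕ → α → ℝ≥0∞) (N : ℕ) :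
    ∑ k ∈ Finset.range N, ∫⁻ y, f k y ∂μ ≤ ∫⁻ y, ∑ k ∈ Finset.range N, f k y ∂μ := by
  induction N with
  | zero => simp
  | succ N ih =>
    simp only [Finset.sum_range_succ]
    exact (add_le_add ih le_rfl).trans (le_lintegral_add _ _)

omit X in
lemma k1b_pow {a r₀ : ℝ} (hr : 0 < r₀) {σ : ℝ} (hσ : 0 < σ) (k : ℕ) :
    (σ / rk r₀ k ^ 2) ^ a = ((16 : ℝ) ^ a) ^ k * (σ / r₀ ^ 2) ^ a ∧
    (rk r₀ k ^ 2 / σ) ^ a = (((16 : ℝ) ^ a) ^ k * (σ / r₀ ^ 2) ^ a)⁻¹ := by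
  have e : σ / rk r₀ k ^ 2 = 16 ^ k * (σ / r₀ ^ 2) := by
    have : (16 : ℝ) ^ k = (4 ^ k) ^ 2 := by rw [← pow_mul, mul_comm, pow_mul]; norm_num
    rw [rk, this]
    field_simp
  have h : (σ / rk r₀ k ^ 2) ^ a = ((16 : ℝ) ^ a) ^ k * (σ / r₀ ^ 2) ^ a := by
    rw [e, Real.mul_rpow (by positivity) (by positivity), Real.rpow_pow_comm (by norm_num)]
  refine ⟨h, ?_⟩
  have : 0 < rk r₀ k := by rw [rk]; positivity
  rw [← h, ← Real.inv_rpow (by positivity), inv_div]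

omit X in
/-- `Σ_k min(σ/t_k, t_k/σ)^a ≤ 2/(1 - 16^{-a})`. -/
theorem kap_sum (a : ℝ) (ha : 0 < a) : ∃ C : ℝ, 0 < C ∧ ∀ {n : ℕ} (X : Sp.{u} n) (x : X.M)
    {T₁ r₀ E : ℝ}, 0 < r₀ → 0 < T₁ → 0 ≤ E → X.h.Ent x T₁ ≤ ENNReal.ofReal E → ∀ N,
      ∑ k ∈ Finset.range N, X.h.kap x T₁ a (rk r₀ k ^ 2) ≤ C * (E + (r₀ ^ 2 / T₁) ^ a) := by
  have hQ : 1 < (16 : ℝ) ^ a := Real.one_lt_rpow (by norm_num) ha
  set Q := (16 : ℝ) ^ a with hQd
  have h1 : 0 < Q - 1 := by linarith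
  have hc : 0 < 2 * (1 + Q) / (Q - 1) := by positivity
  refine ⟨2 * (1 + Q) / (Q - 1), hc, fun {n} X x {T₁ r₀ E} hr hT hE h N => ?_⟩
  have hrk : ∀ k, 0 < rk r₀ k := fun k => by rw [rk]; positivity
  have key : ∑ k ∈ Finset.range N, ∫⁻ σ in Ioo 0 T₁,
      ENNReal.ofReal (min (σ / rk r₀ k ^ 2) (rk r₀ k ^ 2 / σ) ^ a) * (X.h.KK x σ / ENNReal.ofReal σ) ≤
      ENNReal.ofReal (2 * (1 + Q) / (Q - 1) * E) := by
    refine (k1b_super _ _ N).trans ?_
    calc _ ≤ ∫⁻ σ in Ioo 0 T₁, ENNReal.ofReal (2 * (1 + Q) / (Q - 1)) *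
          (X.h.KK x σ / ENNReal.ofReal σ) := by
          refine setLIntegral_mono' measurableSet_Ioo fun σ hσ => ?_
          have hσ0 : 0 < σ := hσ.1
          rw [← Finset.sum_mul, ← ENNReal.ofReal_sum_of_nonneg fun k _ =>
            Real.rpow_nonneg (le_min (by have := hrk k; positivity) (by positivity)) _]
          gcongr
          refine le_trans (Finset.sum_le_sum fun k _ => ?_)
            (k1b_tele hQ (v := (σ / r₀ ^ 2) ^ a) (by positivity) N)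
          obtain ⟨e₁, e₂⟩ := k1b_pow (a := a) hr hσ0 k
          have := hrk k
          have h0 : 0 ≤ min (σ / rk r₀ k ^ 2) (rk r₀ k ^ 2 / σ) := le_min (by positivity) (by positivity)
          exact le_min (e₁ ▸ Real.rpow_le_rpow h0 (min_le_left _ _) ha.le)
            (e₂ ▸ Real.rpow_le_rpow h0 (min_le_right _ _) ha.le)
      _ = ENNReal.ofReal (2 * (1 + Q) / (Q - 1)) * X.h.Ent x T₁ :=
          lintegral_const_mul' _ _ ENNReal.ofReal_ne_top
      _ ≤ _ := by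
          rw [ENNReal.ofReal_mul hc.le]
          gcongr
  have hfin := fun k hk =>
    ENNReal.lt_top_of_sum_ne_top (a := k) (ne_top_of_le_ne_top ENNReal.ofReal_ne_top key) hk
  simp only [HS.kap]
  rw [Finset.sum_add_distrib, ← ENNReal.toReal_sum fun k hk => (hfin k hk).ne, mul_add]
  refine add_le_add (ENNReal.toReal_le_of_le_ofReal (by positivity) key) ?_
  have e : ∀ k, (rk r₀ k ^ 2 / T₁) ^ a = (Q ^ k)⁻¹ * (r₀ ^ 2 / T₁) ^ a := fun k => by
    rw [(k1b_pow hr hT k).2, mul_inv, ← Real.inv_rpow (by positivity : 0 ≤ T₁ / r₀ ^ 2), inv_div]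
  simp only [e]
  rw [← Finset.sum_mul]
  gcongr
  exact k1b_geom hQ N

lemma k1b_cont (x : X.M) (R : ℝ) : ContinuousOn (fun p : ℝ × X.M => X.h.H p.1 x p.2 *
    (X.h.Dφ p.1 x p.2 * Real.exp (R * dist x p.2 / Real.sqrt p.1))) (Ioi 0 ×ˢ univ) := by
  have h1 := X.h.Sm_cont (X.h.H_Sm x)
  have h2 := X.h.Sm_cont (X.h.Sm_D (a := fun t => 1 / (2 * t)) isOpen_Ioi (X.h.φ_Sm x)
    (contDiffOn_const.div (by fun_prop) fun t ht => by have : 0 < t := ht; positivity))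
  refine h1.mul (((continuousOn_fst.pow 2).mul h2).mul (Real.continuous_exp.comp_continuousOn
    (ContinuousOn.div (by fun_prop) (by fun_prop) fun p hp => ?_)))
  exact (Real.sqrt_pos.2 hp.1).ne'

lemma k1b_nonneg (x : X.M) (R : ℝ) {t : ℝ} (ht : 0 < t) (y : X.M) :
    0 ≤ X.h.H t x y * (X.h.Dφ t x y * Real.exp (R * dist x y / Real.sqrt t)) :=
  mul_nonneg (X.h.H_nonneg ht x y) (mul_nonneg
    (mul_nonneg (sq_nonneg _) (X.h.D_nonneg (X.h.φ_S ht x) _ y)) (Real.exp_pos _).le)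

lemma k1b_lint (x : X.M) {R C t : ℝ} (ht : 0 < t) (hC : 0 ≤ C)
    (h : ∀ y, X.h.H t x y * Real.exp (R * dist x y / Real.sqrt t) ≤ C * X.h.W (p1 n) t x y) :
    ∫⁻ y, ENNReal.ofReal (X.h.H t x y * (X.h.Dφ t x y * Real.exp (R * dist x y / Real.sqrt t))) ∂X.h.m ≤
      ENNReal.ofReal C * X.h.KK x t := by
  rw [HS.KK, ← lintegral_const_mul' _ _ ENNReal.ofReal_ne_top]
  refine lintegral_mono fun y => ?_
  rw [← ENNReal.ofReal_mul hC]
  refine ENNReal.ofReal_le_ofReal ?_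
  have h0 : 0 ≤ X.h.Dφ t x y := mul_nonneg (sq_nonneg _) (X.h.D_nonneg (X.h.φ_S ht x) _ y)
  nlinarith [mul_le_mul_of_nonneg_left (h y) h0]

lemma k1b_int (x : X.M) {R C t : ℝ} (ht : 0 < t) (hC : 0 ≤ C)
    (h : ∀ y, X.h.H t x y * Real.exp (R * dist x y / Real.sqrt t) ≤ C * X.h.W (p1 n) t x y)
    (hK : X.h.KK x t ≠ ⊤) :
    Integrable (fun y => X.h.H t x y * (X.h.Dφ t x y * Real.exp (R * dist x y / Real.sqrt t))) X.h.m ∧
      X.h.P t (fun y => X.h.Dφ t x y * Real.exp (R * dist x y / Real.sqrt t)) x ≤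
        C * (X.h.KK x t).toReal := by
  have hc : Continuous fun y => X.h.H t x y * (X.h.Dφ t x y * Real.exp (R * dist x y / Real.sqrt t)) :=
    (k1b_cont X x R).comp_continuous (Continuous.prodMk_right t) fun y => ⟨ht, mem_univ _⟩
  have h0 := Eventually.of_forall (f := ae X.h.m) (k1b_nonneg X x R ht)
  have hl := k1b_lint X x ht hC h
  have hne : ENNReal.ofReal C * X.h.KK x t ≠ ⊤ := ENNReal.mul_ne_top ENNReal.ofReal_ne_top hK
  refine ⟨(lintegral_ofReal_ne_top_iff_integrable hc.aestronglyMeasurable h0).1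
    (ne_top_of_le_ne_top hne hl), ?_⟩
  rw [HS.P, kerP, integral_eq_lintegral_of_nonneg_ae h0 hc.aestronglyMeasurable]
  refine (ENNReal.toReal_mono hne hl).trans_eq ?_
  rw [ENNReal.toReal_mul, ENNReal.toReal_ofReal hC]

omit X in
/-- `W_bounds`, `D_nonneg`. -/
theorem KK_int (n : ℕ) (hn : 1 ≤ n) (R : ℝ) : ∃ C : ℝ, 0 < C ∧ ∀ (X : Sp.{u} n) {t : ℝ}, X.h.ok t →
    ∀ x, X.h.KK x t ≠ ⊤ →
      Integrable (fun y => X.h.H t x y * (X.h.Dφ t x y * Real.exp (R * dist x y / Real.sqrt t))) X.h.m ∧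
      X.h.P t (fun y => X.h.Dφ t x y * Real.exp (R * dist x y / Real.sqrt t)) x ≤
        C * (X.h.KK x t).toReal := by
  obtain ⟨C, hC, H⟩ := W_bounds.{u} n hn R
  exact ⟨C, hC, fun X {t} ht x hK => k1b_int X x ht.1 hC.le (H X ht x).1 hK⟩

omit X in
/-- Space-time version. -/
theorem KK_STI (n : ℕ) (hn : 1 ≤ n) (R : ℝ) : ∃ C : ℝ, 0 < C ∧ ∀ (X : Sp.{u} n) {a b T₁ : ℝ}, 0 < a →
    a ≤ b → b ≤ T₁ → X.h.ok b → ∀ x, X.h.Ent x T₁ ≠ ⊤ →
      X.h.STI a b (fun s y => X.h.H s x y * (X.h.Dφ s x y * Real.exp (R * dist x y / Real.sqrt s))) ∧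
      ∫ s in a..b, X.h.P s (fun y => X.h.Dφ s x y * Real.exp (R * dist x y / Real.sqrt s)) x ≤
        C * ∫ s in a..b, (X.h.KK x s).toReal := by
  obtain ⟨C, hC, H⟩ := W_bounds.{u} n hn R
  refine ⟨C, hC, fun X {a b T₁} ha hab hb hok x hE => ?_⟩
  have := X.h.fin_cpt
  have hok' : ∀ s ∈ Ioc a b, X.h.ok s := fun s hs =>
    ⟨ha.trans hs.1, (mul_le_mul_of_nonneg_left hs.2 X.h.k_nonneg).trans hok.2⟩
  have e : (volume.restrict (Ioc a b)).prod X.h.m = (volume.prod X.h.m).restrict (Ioc a b ×ˢ univ) :=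
    Measure.restrict_prod_eq_prod_univ _
  have hms : MeasurableSet (Ioc a b ×ˢ (univ : Set X.M)) := measurableSet_Ioc.prod MeasurableSet.univ
  have hm : AEStronglyMeasurable (fun p : ℝ × X.M => X.h.H p.1 x p.2 *
      (X.h.Dφ p.1 x p.2 * Real.exp (R * dist x p.2 / Real.sqrt p.1)))
      ((volume.restrict (Ioc a b)).prod X.h.m) := by
    rw [e]
    exact ((k1b_cont X x R).mono (prod_mono (fun s hs => ha.trans hs.1) subset_rfl)).aestronglyMeasurable hms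
  have h0 : 0 ≤ᵐ[(volume.restrict (Ioc a b)).prod X.h.m] fun p : ℝ × X.M => X.h.H p.1 x p.2 *
      (X.h.Dφ p.1 x p.2 * Real.exp (R * dist x p.2 / Real.sqrt p.1)) := by
    rw [e]
    exact ae_restrict_of_forall_mem hms fun p hp => k1b_nonneg X x R (ha.trans hp.1.1) p.2
  have hS : X.h.STI a b
      (fun s y => X.h.H s x y * (X.h.Dφ s x y * Real.exp (R * dist x y / Real.sqrt s))) := by
    refine (lintegral_ofReal_ne_top_iff_integrable hm h0).1 (ne_top_of_le_ne_top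
      (ENNReal.mul_ne_top (ENNReal.mul_ne_top (ENNReal.ofReal_ne_top (r := C))
        (ENNReal.ofReal_ne_top (r := b))) hE) ?_)
    rw [lintegral_prod _ hm.aemeasurable.ennreal_ofReal, HS.Ent, ← lintegral_const_mul' _ _
      (ENNReal.mul_ne_top ENNReal.ofReal_ne_top ENNReal.ofReal_ne_top),
      ← Measure.restrict_congr_set Ioo_ae_eq_Ioc]
    refine le_trans (setLIntegral_mono' measurableSet_Ioo fun s hs => ?_)
      (lintegral_mono_set (Ioo_subset_Ioo ha.le hb))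
    have hs0 : 0 < s := ha.trans hs.1
    refine (k1b_lint X x hs0 hC.le (H X (hok' s ⟨hs.1, hs.2.le⟩) x).1).trans ?_
    rw [mul_assoc]
    gcongr
    calc X.h.KK x s = ENNReal.ofReal s * (X.h.KK x s / ENNReal.ofReal s) :=
          (ENNReal.mul_div_cancel (ENNReal.ofReal_pos.2 hs0).ne' ENNReal.ofReal_ne_top).symm
      _ ≤ _ := by gcongr; exact hs.2.le
  refine ⟨hS, ?_⟩
  have hb0 : 0 < b := ha.trans_le hab
  have hK := (kap_block X x (a := 0) (s := b) (A := b / a) hb0 le_rfl ha hab hb hE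
    (le_mul_of_one_le_left hb0.le ((one_le_div ha).2 hab)) (div_mul_cancel₀ b ha.ne').ge).2.1
  rw [← intervalIntegral.integral_const_mul, intervalIntegral.integral_of_le hab,
    intervalIntegral.integral_of_le hab]
  refine integral_mono_ae (hS.slice hab).1.1 (hK.const_mul C).1 ?_
  refine (ae_restrict_iff' measurableSet_Ioc).2 ?_
  filter_upwards [KK_ae X x hE] with s hs hs'
  exact (k1b_int X x (ha.trans hs'.1) hC.le (H X (hok' s hs') x).1
    (hs ⟨ha.trans hs'.1, hs'.2.trans hb⟩)).2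

end Crest.Agent.R247
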