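import Crest.Agent.R247.G4
import Crest.Agent.Lib.Brouwer.Basic

/-! # Row 247, L1: openness of bi-Lipschitz maps and the passage to the limit -/

set_option autoImplicit false
set_option linter.unusedSectionVars false
set_option linter.unusedVariables false
open MeasureTheory Filter Set Metric Matrix
open scoped ENNReal NNReal Topology ContDiff
open Crest.GeometryTopology.CoordMetric

noncomputable section
namespace Crest.Agent.R247
universe u



/-- Invariance of domain for bi-Lipschitz maps.  Recipe: suppose `Φ 0` is not interior to `Φ '' B`, `B = closedBall 0 (r/2)`.  Extend the Lipschitz inverse to a Lipschitz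
`Ψ : E n → E n` (`LipschitzOnWith.extend_finite_dimension`).  Take `y₀ ∉ Φ '' B` within `δ` of `Φ 0`, `ρ` the map fixing the complement of `ball y₀ (2δ)` and projecting `ball y₀ (2δ) \ {y₀}` radially on
the sphere; `Ψ '' sphere y₀ (2δ)` is null (`μH[n]` is a Haar measure, Lipschitz images of null sets are null), so there is `w ∉ Ψ '' sphere` with `‖w‖ < δ/L`.
`h x = Ψ (ρ (Φ x)) - w` is continuous on `B`, `‖h x - x‖ ≤ Cδ < r/2`, so `x ↦ x - h x` has a fixed point (`exists_fixedPoint_closedBall`), i.e. `h x = 0`: impossible. -/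
theorem mem_nhds_of_bilip {n : ℕ} {Φ : E n → E n} {r L : ℝ} (hr : 0 < r) (hL : 0 < L)
    (h : ∀ y ∈ ball (0 : E n) r, ∀ y' ∈ ball (0 : E n) r,
      dist y y' ≤ L * dist (Φ y) (Φ y') ∧ dist (Φ y) (Φ y') ≤ L * dist y y') :
    Φ '' ball 0 r ∈ 𝓝 (Φ 0) := by
  by_contra hn
  have hB : closedBall (0 : E n) (r / 2) ⊆ ball 0 r := closedBall_subset_ball (by linarith)
  have inj : InjOn Φ (closedBall 0 (r / 2)) := fun a ha b hb e => by
    have := (h a (hB ha) b (hB hb)).1
    rwa [e, dist_self, mul_zero, dist_le_zero] at this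
  have lip : LipschitzOnWith ⟨L, hL.le⟩ (Function.invFunOn Φ (closedBall 0 (r / 2)))
      (Φ '' closedBall 0 (r / 2)) := LipschitzOnWith.of_dist_le_mul (by
    rintro _ ⟨a, ha, rfl⟩ _ ⟨b, hb, rfl⟩
    rw [inj.leftInvOn_invFunOn ha, inj.leftInvOn_invFunOn hb]
    exact (h a (hB ha) b (hB hb)).1)
  obtain ⟨Ψ, hΨ, e⟩ := lip.extend_finite_dimension
  generalize lipschitzExtensionConstant (E n) * ⟨L, hL.le⟩ = K at hΨ
  have hl : ∀ x ∈ closedBall (0 : E n) (r / 2), Ψ (Φ x) = x := fun x hx => by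
    rw [← e ⟨x, hx, rfl⟩, inj.leftInvOn_invFunOn hx]
  have K0 : (0 : ℝ) ≤ K := K.2
  obtain ⟨δ, δ0, hδ⟩ : ∃ δ : ℝ, 0 < δ ∧ K * (2 * δ) + δ / L = r / 2 :=
    ⟨r / 2 / (2 * K + 1 / L), by positivity, by field_simp⟩
  obtain ⟨y₀, y1, y2⟩ : ∃ y₀ ∈ ball (Φ 0) δ, y₀ ∉ Φ '' ball 0 r :=
    not_subset.1 fun k => hn (mem_of_superset (ball_mem_nhds _ δ0) k)
  obtain ⟨w, w1, w2⟩ : ∃ w ∈ ball (0 : E n) (δ / L), w ∉ Ψ '' sphere y₀ (2 * δ) := by
    refine not_subset.1 fun k => ?_
    have z := hΨ.hausdorffMeasure_image_le (d := Module.finrank ℝ (E n)) (Nat.cast_nonneg _) (sphere y₀ (2 * δ))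
    rw [Measure.addHaar_sphere_of_ne_zero _ _ (by positivity), mul_zero, nonpos_iff_eq_zero] at z
    exact (measure_ball_pos _ _ (by positivity)).ne' (measure_mono_null k z)
  have ne : ∀ x ∈ closedBall (0 : E n) (r / 2), 0 < ‖Φ x - y₀‖ := fun x hx =>
    norm_pos_iff.2 (sub_ne_zero.2 fun k => y2 ⟨x, hB hx, k⟩)
  have cΦ : ContinuousOn Φ (closedBall 0 (r / 2)) :=
    (LipschitzOnWith.of_dist_le_mul (K := ⟨L, hL.le⟩) fun a ha b hb => (h a (hB ha) b (hB hb)).2).continuousOn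
  have c1 : ContinuousOn (fun x => Φ x - y₀) (closedBall 0 (r / 2)) := cΦ.sub continuousOn_const
  obtain ⟨x, hx, fx⟩ := Lib.Brouwer.exists_fixedPoint_of_isCompact_convex (isCompact_closedBall (0 : E n) (r / 2))
    (convex_closedBall _ _) (nonempty_closedBall.2 (by linarith))
    (fun x => x - (Ψ (y₀ + max 1 (2 * δ / ‖Φ x - y₀‖) • (Φ x - y₀)) - w))
    (continuousOn_id.sub ((hΨ.continuous.comp_continuousOn (continuousOn_const.add
      ((continuousOn_const.sup (continuousOn_const.div c1.norm fun x hx => (ne x hx).ne')).smul c1))).sub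
        continuousOn_const))
    fun x hx => by
      have a1 : ‖Φ x - (y₀ + max 1 (2 * δ / ‖Φ x - y₀‖) • (Φ x - y₀))‖ ≤ 2 * δ := by
        have e1 : Φ x - (y₀ + max 1 (2 * δ / ‖Φ x - y₀‖) • (Φ x - y₀)) =
            (1 - max 1 (2 * δ / ‖Φ x - y₀‖)) • (Φ x - y₀) := by
          rw [sub_smul, one_smul]
          abel
        have p := ne x hx
        rw [e1, norm_smul, Real.norm_eq_abs, abs_of_nonpos (sub_nonpos.2 (le_max_left _ _)),
          ← le_div_iff₀ p]
        have : 0 < 2 * δ / ‖Φ x - y₀‖ := by positivity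
        have := max_le (b := 2 * δ / ‖Φ x - y₀‖) (c := 1 + 2 * δ / ‖Φ x - y₀‖) (a := 1) (by linarith) (by linarith)
        linarith
      have a2 := hΨ.dist_le_mul (Φ x) (y₀ + max 1 (2 * δ / ‖Φ x - y₀‖) • (Φ x - y₀))
      rw [hl x hx, dist_eq_norm, dist_eq_norm] at a2
      rw [mem_closedBall_zero_iff]
      beta_reduce
      rw [← sub_add]
      have a3 := mem_ball_zero_iff.1 w1
      have a4 := mul_le_mul_of_nonneg_left a1 K0
      linarith [norm_add_le (x - Ψ (y₀ + max 1 (2 * δ / ‖Φ x - y₀‖) • (Φ x - y₀))) w]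
  have fx' : Ψ (y₀ + max 1 (2 * δ / ‖Φ x - y₀‖) • (Φ x - y₀)) = w := sub_eq_zero.1 (sub_eq_self.1 fx)
  have p := ne x hx
  rcases le_total 1 (2 * δ / ‖Φ x - y₀‖) with c | c
  · refine w2 ⟨_, ?_, fx'⟩
    rw [max_eq_right c, mem_sphere_iff_norm, add_sub_cancel_left, norm_smul, Real.norm_of_nonneg (by positivity)]
    field_simp
  · rw [max_eq_left c, one_smul, add_sub_cancel, hl x hx] at fx'
    rw [div_le_one p] at c
    have a1 := (h x (hB hx) 0 (mem_ball_self hr)).2
    have a2 : L * dist x 0 < δ := by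
      rw [← lt_div_iff₀' hL, fx']
      exact w1
    have a3 := dist_triangle_right (Φ x) y₀ (Φ 0)
    rw [dist_eq_norm] at a3
    linarith [mem_ball.1 y1]

/-- Quantitative openness.  Recipe: by `chart_bilip` and `mem_nhds_of_bilip`, `F '' ball x s` is open; for `y ∈ ball (F x) (s/L)` pick `s' < s` with `dist y (F x) < s'/L`;
`F '' closedBall x s'` is compact and meets `ball (F x) (s'/L)` in the same set as the open `F '' ball x s`; the ball is preconnected. -/
theorem ball_subset_image {n : ℕ} {M : Type u} [MetricSpace M] [MeasurableSpace M] [BorelSpace M]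
    [ProperSpace M] (g : Geo n M) {F : M → E n} {L : ℝ} (hL : 1 ≤ L) {U : Set M} (hU : IsOpen U)
    (hF : BiLip L F U) {x : M} {s : ℝ} (hs : ball x s ⊆ U) : ball (F x) (s / L) ⊆ F '' ball x s := by
  have hL0 : 0 < L := by linarith
  have hlow : ∀ a ∈ U, ∀ b ∈ U, dist a b ≤ L * dist (F a) (F b) := fun a ha b hb => by
    have := (hF a ha b hb).1
    rwa [inv_mul_le_iff₀ hL0] at this
  have hopen : IsOpen (F '' ball x s) := by
    rw [isOpen_iff_mem_nhds]
    rintro _ ⟨z, hz, rfl⟩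
    obtain ⟨r, L', hr, hL', c, hc0, hc⟩ := g.chart_bilip z
    obtain ⟨δ, hδ, hb⟩ := Metric.isOpen_iff.1 isOpen_ball z hz
    have hsub : ball (0 : E n) (min r (δ / L')) ⊆ ball 0 r := ball_subset_ball (min_le_left _ _)
    have hcz : ∀ y ∈ ball (0 : E n) (min r (δ / L')), c y ∈ ball x s := fun y hy => hb (by
      have h1 := (hc y (hsub hy) 0 (mem_ball_self hr)).2
      have h2 : dist y 0 < δ / L' := (mem_ball.1 hy).trans_le (min_le_right _ _)
      rw [lt_div_iff₀ hL'] at h2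
      rw [mem_ball, ← hc0]
      linarith)
    have := mem_nhds_of_bilip (Φ := fun y => F (c y)) (lt_min hr (div_pos hδ hL')) (mul_pos hL' hL0)
      fun y hy y' hy' => ⟨?_, ?_⟩
    · rw [hc0] at this
      refine mem_of_superset this ?_
      rintro _ ⟨y, hy, rfl⟩
      exact ⟨c y, hcz y hy, rfl⟩
    · refine (hc y (hsub hy) y' (hsub hy')).1.trans ?_
      rw [mul_assoc]
      exact mul_le_mul_of_nonneg_left (hlow _ (hs (hcz y hy)) _ (hs (hcz y' hy'))) hL'.le
    · refine (hF _ (hs (hcz y hy)) _ (hs (hcz y' hy'))).2.trans ?_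
      rw [mul_comm L' L, mul_assoc]
      exact mul_le_mul_of_nonneg_left (hc y (hsub hy) y' (hsub hy')).2 hL0.le
  intro y hy
  rw [mem_ball, lt_div_iff₀ hL0] at hy
  obtain ⟨s', h1, h2⟩ := exists_between hy
  have hs' : 0 < s' := lt_of_le_of_lt (by positivity) h1
  have hxs : x ∈ ball x s := mem_ball_self (hs'.trans h2)
  have hcb : closedBall x s' ⊆ ball x s := closedBall_subset_ball h2
  have hcont : ContinuousOn F U := (LipschitzOnWith.of_dist_le_mul (K := ⟨L, hL0.le⟩)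
    fun a ha b hb => (hF a ha b hb).2).continuousOn
  have hK : IsClosed (F '' closedBall x s') :=
    ((isCompact_closedBall x s').image_of_continuousOn (hcont.mono (hcb.trans hs))).isClosed
  refine ((convex_ball (F x) (s' / L)).isPreconnected.subset_of_closure_inter_subset (hopen.inter isOpen_ball)
    ⟨F x, mem_ball_self (div_pos hs' hL0), mem_image_of_mem _ hxs, mem_ball_self (div_pos hs' hL0)⟩
    (fun w hw => ⟨image_mono hcb (closure_minimal ?_ hK hw.1), hw.2⟩) (by rwa [mem_ball, lt_div_iff₀ hL0])).1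
  rintro _ ⟨⟨z, hz, rfl⟩, hz'⟩
  refine ⟨z, ?_, rfl⟩
  rw [mem_ball, lt_div_iff₀ hL0] at hz'
  have := hlow z (hs hz) x (hs hxs)
  rw [mem_closedBall]
  linarith

theorem lc_compact {n : ℕ} {X : Type u} [MetricSpace X] [CompleteSpace X] {G : X → E n} {L ρ : ℝ} (hL : 1 ≤ L) {p : X}
    (hG : BiLip L G (ball p ρ)) {S : Set X} (hS : IsClosed S) (hSp : S ⊆ ball p ρ) : IsCompact S := by
  have hL0 : 0 < L := by linarith
  refine isCompact_iff_totallyBounded_isComplete.2 ⟨?_, hS.isComplete⟩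
  have hu : IsUniformInducing fun z : S => G z :=
    AntilipschitzWith.isUniformInducing (K := ⟨L, hL0.le⟩)
      (AntilipschitzWith.of_le_mul_dist fun a b => (inv_mul_le_iff₀ hL0).1 (hG _ (hSp a.2) _ (hSp b.2)).1)
      (LipschitzWith.of_dist_le_mul (K := ⟨L, hL0.le⟩) fun (a b : S) =>
        (hG _ (hSp a.2) _ (hSp b.2)).2).uniformContinuous
  refine TotallyBounded.subset (fun z hz => ?_) ((totallyBounded_preimage hu
    (isCompact_closedBall (G p) (L * ρ)).totallyBounded).image uniformContinuous_subtype_val)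
  refine ⟨⟨z, hz⟩, ?_, rfl⟩
  have h1 : dist z p < ρ := hSp hz
  exact (hG _ (hSp hz) _ (mem_ball_self (dist_nonneg.trans_lt h1))).2.trans (mul_le_mul_of_nonneg_left h1.le hL0.le)

theorem lc_aux {n : ℕ} {N : ℕ → Type u} [∀ k, MetricSpace (N k)] (q : ∀ k, N k) {X : Type u}
    [MetricSpace X] [CompleteSpace X] (p : X) {L ρ : ℝ} (hL : 1 ≤ L) (hρ : 0 < ρ) {ε : ℕ → ℝ}
    (hε : Tendsto ε atTop (𝓝 0)) (f : ∀ k, N k → X) (hf0 : ∀ k, f k (q k) = p)
    (hf1 : ∀ k x x', dist (q k) x < ρ → dist (q k) x' < ρ → |dist (f k x) (f k x') - dist x x'| ≤ ε k)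
    (hf2 : ∀ k y, dist p y < ρ - ε k → ∃ x, dist (q k) x < ρ ∧ dist (f k x) y ≤ ε k)
    (F : ∀ k, N k → E n) (hF1 : ∀ k, BiLip L (F k) (ball (q k) ρ))
    (hF2 : ∀ k x s, ball x s ⊆ ball (q k) ρ → ball (F k x) (s / L) ⊆ F k '' ball x s) :
    ∃ G : X → E n, IsOpen (G '' ball p ρ) ∧ BiLip L G (ball p ρ) := by
  have hL0 : 0 < L := by linarith
  have : ∀ k, Nonempty (N k) := fun k => ⟨q k⟩
  choose! x hx1 hx2 using hf2
  set 𝒰 : Ultrafilter ℕ := hyperfilter ℕ
  have h𝒰 : (𝒰 : Filter ℕ) ≤ atTop := Nat.hyperfilter_le_atTop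
  replace hε := hε.mono_left h𝒰
  have hx : ∀ y ∈ ball p ρ, ∀ᶠ k in 𝒰, dist (q k) (x k y) < ρ ∧ dist (f k (x k y)) y ≤ ε k := fun y hy => by
    filter_upwards [hε.eventually_lt_const (show 0 < ρ - dist p y by linarith [mem_ball'.1 hy])] with k hk
    exact ⟨hx1 k y (by linarith), hx2 k y (by linarith)⟩
  have hG : ∀ y ∈ ball p ρ, ∃ w, Tendsto (fun k => F k (x k y) - F k (q k)) 𝒰 (𝓝 w) := fun y hy => by
    obtain ⟨w, -, hw⟩ := (isCompact_closedBall (0 : E n) (L * ρ)).ultrafilter_le_nhds'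
      (𝒰.map fun k => F k (x k y) - F k (q k)) ((hx y hy).mono fun k hk => by
        rw [mem_closedBall_zero_iff, ← dist_eq_norm, dist_comm]
        exact (hF1 k _ (mem_ball_self hρ) _ (mem_ball'.2 hk.1)).2.trans (mul_le_mul_of_nonneg_left hk.1.le hL0.le))
    exact ⟨w, hw⟩
  choose! G hG using hG
  have hB : BiLip L G (ball p ρ) := fun y hy y' hy' => by
    have h1 : Tendsto (fun k => dist (x k y) (x k y')) 𝒰 (𝓝 (dist y y')) := by
      rw [tendsto_iff_dist_tendsto_zero]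
      refine squeeze_zero' (Eventually.of_forall fun _ => dist_nonneg) ?_ (by simpa using hε.const_mul 3)
      filter_upwards [hx y hy, hx y' hy'] with k h h'
      have h2 := abs_le.1 (hf1 k _ _ h.1 h'.1)
      have h3 := abs_le.1 ((abs_dist_sub_le _ _ _).trans h.2 : |dist (f k (x k y)) (f k (x k y')) - dist y (f k (x k y'))| ≤ ε k)
      have h4 := abs_le.1 ((abs_dist_sub_le _ _ y).trans h'.2)
      rw [dist_comm _ y, dist_comm _ y] at h4
      rw [Real.dist_eq, abs_le]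
      constructor <;> linarith [h2.1, h2.2, h3.1, h3.2, h4.1, h4.2]
    have h2 := (hG y hy).dist (hG y' hy')
    simp only [dist_sub_right] at h2
    have h3 := ((hx y hy).and (hx y' hy')).mono fun k h =>
      hF1 k _ (mem_ball'.2 h.1.1) _ (mem_ball'.2 h.2.1)
    exact ⟨le_of_tendsto_of_tendsto (h1.const_mul _) h2 (h3.mono fun _ h => h.1),
      le_of_tendsto_of_tendsto h2 (h1.const_mul _) (h3.mono fun _ h => h.2)⟩
  refine ⟨G, Metric.isOpen_iff.2 ?_, hB⟩
  rintro _ ⟨y, hy, rfl⟩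
  obtain ⟨s, hs0, hs⟩ : ∃ s, 0 < s ∧ dist p y + 2 * s = ρ :=
    ⟨(ρ - dist p y) / 2, by linarith [mem_ball'.1 hy], by ring⟩
  refine ⟨s / L, by positivity, fun w hw => ?_⟩
  have h1 : ∀ k, dist w (F k (x k y) - F k (q k)) < s / L → ball (x k y) s ⊆ ball (q k) ρ →
      ∃ z, z ∈ ball (x k y) s ∧ F k z = w + F k (q k) := fun k h h' =>
    hF2 k _ s h' (by rwa [mem_ball, ← dist_sub_right _ _ (F k (q k)), add_sub_cancel_right])
  choose! z hz1 hz2 using h1
  have h2 : ∀ᶠ k in 𝒰, dist (q k) (z k) < ρ ∧ F k (z k) = w + F k (q k) ∧ dist (f k (z k)) y ≤ 3 / 2 * s := by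
    filter_upwards [hx y hy, (tendsto_const_nhds.dist (hG y hy)).eventually_lt_const hw,
      hε.eventually_lt_const (show 0 < s / 4 by positivity)] with k h h' h''
    have h3 : ball (x k y) s ⊆ ball (q k) ρ := by
      refine ball_subset_ball' ?_
      have h4 := abs_le.1 (hf1 k (q k) _ (by simpa using hρ) h.1)
      rw [hf0] at h4
      linarith [h4.1, dist_comm (q k) (x k y), dist_triangle_right p (f k (x k y)) y, h.2]
    have h4 := hz1 k h' h3
    have h5 := abs_le.1 (hf1 k _ _ (mem_ball'.1 (h3 h4)) h.1)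
    exact ⟨mem_ball'.1 (h3 h4), hz2 k h' h3, by
      linarith [h5.2, mem_ball.1 h4, dist_triangle (f k (z k)) (f k (x k y)) y, h.2]⟩
  have h3 : closedBall y (3 / 2 * s) ⊆ ball p ρ := closedBall_subset_ball' (by linarith [dist_comm p y])
  obtain ⟨y', hy', h4⟩ := (lc_compact hL hB isClosed_closedBall h3).ultrafilter_le_nhds'
    (𝒰.map fun k => f k (z k)) (h2.mono fun k h => h.2.2)
  refine ⟨y', h3 hy', tendsto_nhds_unique (hG y' (h3 hy')) ?_⟩
  rw [tendsto_iff_dist_tendsto_zero]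
  have h5 : Tendsto (fun k => f k (z k)) 𝒰 (𝓝 y') := h4
  refine squeeze_zero' (Eventually.of_forall fun _ => dist_nonneg) ?_
    (by simpa using ((tendsto_iff_dist_tendsto_zero.1 h5).add (hε.const_mul 2)).const_mul L)
  filter_upwards [h2, hx y' (h3 hy')] with k h h'
  rw [← dist_add_right _ _ (F k (q k)), sub_add_cancel, ← h.2.1]
  refine (hF1 k _ (mem_ball'.2 h'.1) _ (mem_ball'.2 h.1)).2.trans (mul_le_mul_of_nonneg_left ?_ hL0.le)
  have h6 := abs_le.1 (hf1 k _ _ h'.1 h.1)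
  linarith [h6.1, dist_triangle_right (f k (x k y')) (f k (z k)) y', h'.2]

open Crest.GeometryTopology.PointedLimit in
/-- Recipe: approximations `f j : M j → X` with `R = 2ρ`, `ε j → 0` (choose `ε j` through `Nat.find`/a diagonal argument, or work along an ultrafilter `𝒰 ≤ atTop` on the index and choose for each `m` the
threshold `k₀(1/(m+1))`); for `p' ∈ ball p (ρ/2)` choose `x j p'` with `dist (f j (x j p')) p' ≤ ε j`; `G p' = lim_𝒰 (F j (x j p') - F j (q j))`.  `G` is bi-Lipschitz on `ball p (ρ/2)`, so `closedBall p (ρ/3)` is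
totally bounded and complete, hence compact.  `U = ball p (ρ/4)`; for `p' ∈ U`, small `s`, `y ∈ ball (G p') (s/(2L))`: `y + F j (q j) = F j (z j)`, `z j ∈ ball (x j p') s`,
`p'' = lim_𝒰 f j (z j)`, `G p'' = y`. -/
theorem limit_chart {n : ℕ} {M : ℕ → Type u} [∀ k, MetricSpace (M k)] (q : ∀ k, M k) {X : Type u}
    [MetricSpace X] [CompleteSpace X] (p : X) (hconv : SeqPointedTendsto q p) {L ρ : ℝ} (hL : 1 ≤ L)
    (hρ : 0 < ρ) (hF : ∀ᶠ k in atTop, ∃ F : M k → E n, BiLip L F (ball (q k) ρ) ∧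
      ∀ x s, ball x s ⊆ ball (q k) ρ → ball (F x) (s / L) ⊆ F '' ball x s) :
    ∃ U : Set X, IsOpen U ∧ p ∈ U ∧ ∃ F : X → E n, IsOpen (F '' U) ∧ BiLip L F U := by
  have h1 : ∀ m : ℕ, ∃ k, IsScaledApprox 1 (q k) p ρ (1 / ((m : ℝ) + 1)) ∧ ∃ F : M k → E n, BiLip L F (ball (q k) ρ) ∧
      ∀ x s, ball x s ⊆ ball (q k) ρ → ball (F x) (s / L) ⊆ F '' ball x s := fun m => by
    obtain ⟨k₀, hk₀⟩ := hconv ρ hρ _ (Nat.one_div_pos_of_nat (n := m))
    exact (((eventually_ge_atTop k₀).mono hk₀).and hF).exists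
  simp only [IsScaledApprox, one_mul] at h1
  choose k hk F hF1 hF2 using h1
  choose f hf0 hf1 hf2 using hk
  obtain ⟨G, h2, h3⟩ := lc_aux (fun m => q (k m)) p hL hρ tendsto_one_div_add_atTop_nhds_zero_nat f hf0 hf1 hf2 F hF1 hF2
  exact ⟨_, isOpen_ball, mem_ball_self hρ, G, h2, h3⟩

open Crest.GeometryTopology.PointedLimit in
/-- Composition of approximations: `ι = r • (f_X ∘ f_k)`, `f_X` an `(R+1, η')`-approximation of the rescaled `X`, `f_k` an `((R+1) r, η' r)`-approximation, `η' = min η 1 / 10`. -/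
theorem ghc_eventually {n : ℕ} {M : ℕ → Type u} [∀ k, MetricSpace (M k)] (q : ∀ k, M k) {X : Type u}
    [MetricSpace X] (p : X) (hconv : SeqPointedTendsto q p) (hreg : RescalingsTendstoEuclidean p n)
    {R η : ℝ} (hR : 1 ≤ R) (hη : 0 < η) :
    ∃ r₀ : ℝ, 0 < r₀ ∧ ∀ r : ℝ, 0 < r → r < r₀ → ∀ᶠ k in atTop, GHc n (q k) r R η := by
  obtain ⟨e, he, he1, he2⟩ : ∃ e : ℝ, 0 < e ∧ 10 * e ≤ η ∧ 10 * e ≤ 1 :=
    ⟨min η 1 / 10, by positivity, by linarith [min_le_left η 1], by linarith [min_le_right η 1]⟩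
  obtain ⟨r₀, hr₀, h⟩ := hreg (R + 1) (by linarith) e he
  refine ⟨r₀, hr₀, fun r hr hrr => ?_⟩
  obtain ⟨f, hf0, hf1, hf2⟩ := h r hr hrr
  obtain ⟨k₀, hk⟩ := hconv ((R + 1) * r) (by positivity) (e * r) (by positivity)
  filter_upwards [eventually_ge_atTop k₀] with k hk₀
  obtain ⟨φ, hφ0, hφ1, hφ2⟩ := hk k hk₀
  simp only [one_mul] at hφ1 hφ2
  have her : 0 < e * r := by positivity
  have her1 : 10 * (e * r) ≤ η * r := by nlinarith
  have her2 : 10 * (e * r) ≤ r := by nlinarith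
  have hRr : r ≤ R * r := by nlinarith
  have hf1' : ∀ a a', dist p a < (R + 1) * r → dist p a' < (R + 1) * r →
      |dist (r • f a) (r • f a') - dist a a'| ≤ e * r := by
    intro a a' ha ha'
    have := mul_le_mul_of_nonneg_left (hf1 a a' (by rwa [inv_mul_lt_iff₀' hr]) (by rwa [inv_mul_lt_iff₀' hr])) hr.le
    rwa [← abs_of_pos hr, ← abs_mul, abs_of_pos hr, mul_sub, mul_inv_cancel_left₀ hr.ne', mul_comm r e,
      ← Real.norm_of_nonneg hr.le, ← dist_smul₀, Real.norm_of_nonneg hr.le] at this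
  have hq : dist (q k) (q k) < (R + 1) * r := by rw [dist_self]; positivity
  have hp : dist p p < (R + 1) * r := by rw [dist_self]; positivity
  have hφp : ∀ x, dist (q k) x < (R + 1) * r → |dist p (φ x) - dist (q k) x| ≤ e * r := fun x hx => by
    simpa only [hφ0] using hφ1 _ x hq hx
  refine ⟨fun x => r • f (φ x), by simp [hφ0, hf0], fun x x' hx hx' => ?_, fun y hy => ?_⟩
  · have h1 := abs_le.1 (hφp x (by linarith))
    have h2 := abs_le.1 (hφp x' (by linarith))
    have h3 := abs_le.1 (hf1' (φ x) (φ x') (by linarith) (by linarith))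
    have h4 := abs_le.1 (hφ1 x x' (by linarith) (by linarith))
    rw [abs_le]
    constructor <;> linarith
  · obtain ⟨a, ha, hay⟩ := hf2 (r⁻¹ • y) (by
      rw [dist_zero_left, norm_smul, Real.norm_of_nonneg (inv_pos.2 hr).le, inv_mul_lt_iff₀' hr]
      linarith)
    rw [inv_mul_lt_iff₀' hr] at ha
    have h1 : dist (r • f a) y ≤ e * r := by
      rw [← smul_inv_smul₀ hr.ne' y, dist_smul₀, Real.norm_of_nonneg hr.le, mul_comm e]
      exact mul_le_mul_of_nonneg_left hay hr.le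
    have h2 := abs_le.1 (hf1' p a hp ha)
    rw [hf0, smul_zero] at h2
    have h3 := dist_triangle_right 0 (r • f a) y
    rw [dist_zero_left (a := y)] at h3
    obtain ⟨x, hx, hxa⟩ := hφ2 a (by linarith)
    have h4 := abs_le.1 (hφp x hx)
    have h5 := dist_triangle_right p (φ x) a
    have h6 := abs_le.1 (hf1' (φ x) a (by linarith) ha)
    have h7 := dist_triangle (r • f (φ x)) (r • f a) y
    exact ⟨x, by linarith, by linarith⟩

end Crest.Agent.R247
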