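import Crest.Agent.R247.Defs3

/-! # Row 247, S2: auxiliary lemmas for `rigid_diag`, `rigid_off` -/

set_option autoImplicit false
set_option linter.unusedSectionVars false
set_option linter.unusedVariables false
open MeasureTheory Filter Set Metric Matrix
open scoped ENNReal NNReal Topology ContDiff
open Crest.GeometryTopology.CoordMetric

noncomputable section
namespace Crest.Agent.R247
universe u

variable {n : ℕ} {M : Type u} [MetricSpace M] [MeasurableSpace M] [BorelSpace M] [ProperSpace M]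
  (h : HS n M)

theorem HS.s2a_Γ {f f' : M → ℝ} (hf : h.S f) (hf' : h.S f') (c : ℝ) :
    h.Γ (fun y => f y + c * f' y) (fun y => f y + c * f' y) =
      fun y => h.Γ f f y + (2 * c * h.Γ f f' y + c ^ 2 * h.Γ f' f' y) := by
  funext y
  simp only [Raw.Γ, h.grad_add hf (h.S_cmul c hf'), h.grad_cmul c hf', add_dotProduct, dotProduct_add,
    smul_dotProduct, dotProduct_smul, smul_eq_mul, dotProduct_comm (h.grad f' y) (h.grad f y)]
  ring

theorem HS.s2a_nice {f f' : M → ℝ} (hf : h.Nice f) (hf' : h.Nice f') (c : ℝ) :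
    h.Nice fun y => f y + c * f' y := by
  obtain ⟨-, B₁, h₁⟩ := hf.Γ_bd hf'
  obtain ⟨B₂, h₂⟩ := hf.2
  obtain ⟨B₃, h₃⟩ := hf'.2
  have hS := h.S_add hf.1.1 (h.S_cmul c hf'.1.1)
  have hle : ∀ y, h.Γ (fun y => f y + c * f' y) (fun y => f y + c * f' y) y ≤
      2 * h.Γ f f y + 2 * c ^ 2 * h.Γ f' f' y := fun y => by
    have a1 := h.Γ_nonneg (fun y => f y + -c * f' y) y
    rw [h.s2a_Γ hf.1.1 hf'.1.1] at a1 ⊢
    nlinarith
  refine ⟨⟨hS, hf.1.2.1.add (hf'.1.2.1.const_mul c), ?_⟩,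
    max (B₂ + |c| * B₃) (2 * B₂ + 2 * c ^ 2 * B₃), fun y => ⟨le_max_of_le_left ?_, le_max_of_le_right ?_⟩⟩
  · refine ((hf.1.2.2.const_mul 2).add (hf'.1.2.2.const_mul (2 * c ^ 2))).mono'
      (h.S_cont (h.S_Γ hS hS)).aestronglyMeasurable (Eventually.of_forall fun y => ?_)
    rw [Real.norm_of_nonneg (h.Γ_nonneg _ y)]
    exact hle y
  · refine (abs_add_le _ _).trans (add_le_add (h₂ y).1 ?_)
    rw [abs_mul]
    exact mul_le_mul_of_nonneg_left (h₃ y).1 (abs_nonneg c)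
  · refine (hle y).trans (add_le_add (by linarith [(h₂ y).2]) ?_)
    exact mul_le_mul_of_nonneg_left (h₃ y).2 (by positivity)

theorem HS.s2a_P3 {t : ℝ} (ht : 0 < t) (x : M) {a b d : M → ℝ} (ha : MemLp a 2 h.m) (hb : MemLp b 2 h.m)
    (hd : MemLp d 2 h.m) (p q : ℝ) :
    h.P t (fun y => a y + (p * b y + q * d y)) x = h.P t a x + (p * h.P t b x + q * h.P t d x) := by
  rw [h.P_add (f' := fun y => p * b y + q * d y) (h.int_L2 ht x ha)
      (h.int_L2 ht x ((hb.const_mul p).add (hd.const_mul q))),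
    h.P_add (h.int_L2 ht x (hb.const_mul p)) (h.int_L2 ht x (hd.const_mul q)), h.P_cmul, h.P_cmul]

theorem HS.s2a_PΓ {t : ℝ} (ht : 0 < t) (x : M) {f f' : M → ℝ} (hf : h.Nice f) (hf' : h.Nice f') (c : ℝ) :
    h.P t (h.Γ (fun y => f y + c * f' y) (fun y => f y + c * f' y)) x =
      h.P t (h.Γ f f) x + (2 * c * h.P t (h.Γ f f') x + c ^ 2 * h.P t (h.Γ f' f') x) := by
  rw [h.s2a_Γ hf.1.1 hf'.1.1, h.s2a_P3 ht x (hf.Γ_bd hf).1 (hf.Γ_bd hf').1 (hf'.Γ_bd hf').1]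

theorem HS.s2a_P {t : ℝ} (ht : 0 < t) {f f' : M → ℝ} (hf : h.Nice f) (hf' : h.Nice f') (c : ℝ) :
    h.P t (fun y => f y + c * f' y) = fun y => h.P t f y + c * h.P t f' y := by
  funext y
  rw [h.P_add (h.int_L2 ht y hf.1.2.1) (h.int_L2 ht y (hf'.1.2.1.const_mul c)), h.P_cmul]

theorem HS.s2a_mul {f f' : M → ℝ} (hf : h.Nice f) (hf' : h.Nice f') : MemLp (fun y => f y * f' y) 2 h.m := by
  obtain ⟨B, hB⟩ := hf.2
  refine (hf'.1.2.1.const_mul B).mono (hf.1.2.1.1.mul hf'.1.2.1.1) (Eventually.of_forall fun y => ?_)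
  rw [norm_mul, norm_mul]
  exact mul_le_mul_of_nonneg_right ((hB y).1.trans (le_abs_self B)) (norm_nonneg _)

theorem HS.s2a_Cov {t : ℝ} (ht : 0 < t) (x : M) {f f' : M → ℝ} (hf : h.Nice f) (hf' : h.Nice f') (c : ℝ) :
    h.Cov t x (fun y => f y + c * f' y) (fun y => f y + c * f' y) =
      h.Cov t x f f + (2 * c * h.Cov t x f f' + c ^ 2 * h.Cov t x f' f') := by
  have e : (fun y => (f y + c * f' y) * (f y + c * f' y)) =
      fun y => f y * f y + (2 * c * (f y * f' y) + c ^ 2 * (f' y * f' y)) := by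
    funext y; ring
  simp only [HS.Cov]
  rw [e, h.s2a_P3 ht x (h.s2a_mul hf hf) (h.s2a_mul hf hf') (h.s2a_mul hf' hf'), h.s2a_P ht hf hf']
  ring

/-- the monotone quantity -/
def HS.s2m (s : ℝ) (x : M) (f f' : M → ℝ) (σ : ℝ) : ℝ :=
  Real.exp (2 * h.k * σ) * h.P σ (h.Γ (h.P (s - σ) f) (h.P (s - σ) f')) x

theorem HS.s2a_up {s σ : ℝ} (h0 : 0 < σ) (h1 : σ < s) (x : M) {f : M → ℝ} (hf : h.Nice f) :
    h.s2m s x f f σ ≤ Real.exp (2 * h.k * s) * h.P s (h.Γ f f) x := by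
  have hΓ := (hf.Γ_bd hf).1
  have hr := sub_pos.2 h1
  have n1 := h.P_nice hf hr
  have a1 := h.P_mono h0 (x := x) (h.int_L2 h0 x (n1.Γ_bd n1).1)
    (h.int_L2 h0 x ((h.P_H1 hr hΓ).1.2.1.const_mul (Real.exp (2 * h.k * (s - σ)))))
    fun y => h.ge2 hf.1 hr y (h.int_L2 hr y hΓ)
  rw [h.P_cmul, h.h2e_PP hΓ h0 h1] at a1
  refine (mul_le_mul_of_nonneg_left a1 (Real.exp_pos _).le).trans (le_of_eq ?_)
  rw [← mul_assoc, ← Real.exp_add]
  congr 2
  ring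

theorem HS.s2a_le {s σ : ℝ} (h0 : 0 < σ) (x : M) (f : M → ℝ) :
    h.P σ (h.Γ (h.P (s - σ) f) (h.P (s - σ) f)) x ≤ h.s2m s x f f σ :=
  le_mul_of_one_le_left (h.P_nonneg h0 x (h.Γ_nonneg _))
    (Real.one_le_exp (mul_nonneg (mul_nonneg zero_le_two h.k_nonneg) h0.le))

theorem HS.s2a_mono {s a b : ℝ} (ha : 0 < a) (hab : a ≤ b) (hb : b < s) (x : M) {f : M → ℝ} (hf : h.Nice f) :
    h.s2m s x f f a ≤ h.s2m s x f f b := by
  have a1 := (h.mono_Γ hf ha hab hb x).2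
  have a2 : 0 ≤ ∫ σ in a..b, Real.exp (2 * h.k * σ) * h.P σ (h.Γ2 (h.P (s - σ) f) (h.P (s - σ) f)) x :=
    intervalIntegral.integral_nonneg hab fun σ hσ => mul_nonneg (Real.exp_pos _).le
      (h.P_nonneg (ha.trans_le hσ.1) x
        (h.Γ2_nonneg (h.P_S (sub_pos.2 (hσ.2.trans_lt hb)) hf.1.2.1)))
  simp only [HS.s2m]
  linarith

theorem HS.s2a_low {s : ℝ} (hs : 0 < s) (x : M) {f : M → ℝ} (hf : h.Nice f) :
    2 * h.Cov s x f f ≤ s * (h.s2m s x f f (s / 4) + 3 * (Real.exp (2 * h.k * s) * h.P s (h.Γ f f) x)) := by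
  obtain ⟨c1, c2⟩ := h.cov hf hf hs x
  have m1 : s / 4 ∈ uIcc 0 s := by
    rw [uIcc_of_le hs.le]
    exact ⟨by linarith, by linarith⟩
  obtain ⟨i1, i2⟩ := (IntervalIntegrable.trans_iff m1).1 c1
  have a1 := intervalIntegral.integral_mono_on_of_le_Ioo (g := fun _ => h.s2m s x f f (s / 4))
    (show 0 ≤ s / 4 by linarith) i1 intervalIntegrable_const fun σ hσ =>
      (h.s2a_le hσ.1 x f).trans (h.s2a_mono hσ.1 hσ.2.le (by linarith) x hf)
  have a2 := intervalIntegral.integral_mono_on_of_le_Ioo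
    (g := fun _ => Real.exp (2 * h.k * s) * h.P s (h.Γ f f) x)
    (show s / 4 ≤ s by linarith) i2 intervalIntegrable_const fun σ hσ =>
      (h.s2a_le (by linarith [hσ.1]) x f).trans (h.s2a_up (by linarith [hσ.1]) hσ.2 x hf)
  rw [intervalIntegral.integral_const, smul_eq_mul] at a1 a2
  rw [← intervalIntegral.integral_add_adjacent_intervals i1 i2] at c2
  simp only [HS.Cov]
  linarith

theorem s2a_exp {k s γ : ℝ} (hk0 : 0 ≤ k) (hs : 0 < s) (hk : k * s ≤ γ) (hγ : γ ≤ 1 / 100) :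
    0 ≤ γ ∧ 1 ≤ Real.exp (2 * k * s) ∧ Real.exp (2 * k * s) ≤ 1 + 2.04 * γ := by
  have h0 : 0 ≤ k * s := mul_nonneg hk0 hs.le
  have h1 := (abs_le.1 (Real.abs_exp_sub_one_sub_id_le (x := 2 * k * s)
    (by rw [abs_of_nonneg (by linarith)]; linarith))).2
  refine ⟨h0.trans hk, Real.one_le_exp (by linarith), ?_⟩
  nlinarith

end Crest.Agent.R247
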