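import Crest.Agent.R247.S1
import Crest.Agent.R247.S2AuxA

/-! # Row 247, S2: the spectral gap -/

set_option autoImplicit false
set_option linter.unusedSectionVars false
set_option linter.unusedVariables false
open MeasureTheory Filter Set Metric Matrix
open scoped ENNReal NNReal Topology ContDiff
open Crest.GeometryTopology.CoordMetric

noncomputable section
namespace Crest.Agent.R247
universe u

variable {n : ℕ}

/-- Recipe: `m σ = e^{2kσ} P σ Γ(P (s-σ) f) x` is monotone (`mono_Γ`), `≤ e^{2ks} P s Γ f x ≤ 1 + 3.1γ` (`ge2`, `P_P`), and `∫₀ˢ m ≥ s(1-γ)` (`cov`). -/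
theorem rigid_diag (X : Sp.{u} n) (x : X.M) {s γ : ℝ} {f : X.M → ℝ} (hs : 0 < s) (hk : X.h.k * s ≤ γ)
    (hγ : γ ≤ 1 / 100) (hf : X.h.Nice f) (h₁ : X.h.P s (X.h.Γ f f) x ≤ 1 + γ)
    (h₂ : 2 * s * (1 - γ) ≤ X.h.Cov s x f f) :
    (∀ σ ∈ Ico (s / 4) s, 1 - 20 * γ ≤ X.h.P σ (X.h.Γ (X.h.P (s - σ) f) (X.h.P (s - σ) f)) x ∧
      X.h.P σ (X.h.Γ (X.h.P (s - σ) f) (X.h.P (s - σ) f)) x ≤ 1 + 4 * γ) ∧
    X.h.STI (s / 4) (3 * s / 4)
      (fun σ y => X.h.H σ x y * X.h.Γ2 (X.h.P (s - σ) f) (X.h.P (s - σ) f) y) ∧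
    ∫ σ in s / 4..3 * s / 4, X.h.P σ (X.h.Γ2 (X.h.P (s - σ) f) (X.h.P (s - σ) f)) x ≤ 20 * γ := by
  obtain ⟨γ0, e1, e2⟩ := s2a_exp X.h.k_nonneg hs hk hγ
  have hU : Real.exp (2 * X.h.k * s) * X.h.P s (X.h.Γ f f) x ≤ 1 + 3.07 * γ :=
    (mul_le_mul e2 h₁ (X.h.P_nonneg hs x (X.h.Γ_nonneg _)) (by positivity)).trans (by nlinarith)
  have hL : 1 - 13.21 * γ ≤ X.h.s2m s x f f (s / 4) := by
    have := X.h.s2a_low hs x hf
    refine le_of_mul_le_mul_left ?_ hs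
    nlinarith
  have h4 : 0 < s / 4 := by positivity
  obtain ⟨b1, b2⟩ := X.h.mono_Γ hf h4 (show s / 4 ≤ 3 * s / 4 by linarith) (show 3 * s / 4 < s by linarith) x
  refine ⟨fun σ hσ => ?_, b1, ?_⟩
  · have σ0 : 0 < σ := h4.trans_le hσ.1
    have a1 := hL.trans (X.h.s2a_mono h4 hσ.1 hσ.2 x hf)
    have a2 := (X.h.s2a_le (s := s) σ0 x f).trans ((X.h.s2a_up σ0 hσ.2 x hf).trans hU)
    have a3 : Real.exp (2 * X.h.k * σ) ≤ 1 + 2.04 * γ := (Real.exp_le_exp.2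
      (mul_le_mul_of_nonneg_left hσ.2.le (mul_nonneg zero_le_two X.h.k_nonneg))).trans e2
    have a4 := X.h.P_nonneg σ0 x (X.h.Γ_nonneg (X.h.P (s - σ) f))
    have a5 := a1.trans (mul_le_mul_of_nonneg_right a3 a4)
    exact ⟨by nlinarith, by linarith⟩
  · have i1 := (b1.slice (show s / 4 ≤ 3 * s / 4 by linarith)).1
    have a1 := intervalIntegral.integral_mono_on (show s / 4 ≤ 3 * s / 4 by linarith) i1
      (i1.continuousOn_mul (g := fun σ => Real.exp (2 * X.h.k * σ)) (by fun_prop)) fun σ hσ =>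
        le_mul_of_one_le_left (X.h.P_nonneg (h4.trans_le hσ.1) x (X.h.Γ2_nonneg
          (X.h.P_S (show 0 < s - σ by linarith [hσ.2]) hf.1.2.1)))
          (Real.one_le_exp (mul_nonneg (mul_nonneg zero_le_two X.h.k_nonneg) (h4.trans_le hσ.1).le))
    have a2 := (X.h.s2a_up (σ := 3 * s / 4) (by linarith) (by linarith) x hf).trans hU
    simp only [HS.s2m] at hL a2
    simp only [HS.P, kerP] at hL a2 b2 ⊢
    linarith

/-- Recipe: the symmetric bilinear forms `e^{2ks} P s Γ(f,f') - Cov(f,f')/(2s)` (`poincare`) and `e^{2ks} P s Γ(f,f') - e^{2kσ} P σ Γ(P f, P f')` (`ge2`) are non-negative on `f ± f'`, with small diagonal. -/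
theorem rigid_off (X : Sp.{u} n) (x : X.M) {s γ : ℝ} {f f' : X.M → ℝ} (hs : 0 < s) (hk : X.h.k * s ≤ γ)
    (hγ : γ ≤ 1 / 100) (hf : X.h.Nice f) (hf' : X.h.Nice f') (h₁ : X.h.P s (X.h.Γ f f) x ≤ 1 + γ)
    (h₁' : X.h.P s (X.h.Γ f' f') x ≤ 1 + γ) (h₂ : 2 * s * (1 - γ) ≤ X.h.Cov s x f f)
    (h₂' : 2 * s * (1 - γ) ≤ X.h.Cov s x f' f') (h₃ : |X.h.Cov s x f f'| ≤ 2 * s * γ) :
    ∀ σ ∈ Ico (s / 4) s, |X.h.P σ (X.h.Γ (X.h.P (s - σ) f) (X.h.P (s - σ) f')) x| ≤ 50 * γ := by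
  obtain ⟨γ0, e1, e2⟩ := s2a_exp X.h.k_nonneg hs hk hγ
  intro σ hσ
  have h4 : 0 < s / 4 := by positivity
  have σ0 : 0 < σ := h4.trans_le hσ.1
  have hr := sub_pos.2 hσ.2
  have hU : ∀ {g : X.M → ℝ}, X.h.P s (X.h.Γ g g) x ≤ 1 + γ →
      Real.exp (2 * X.h.k * s) * X.h.P s (X.h.Γ g g) x ≤ 1 + 3.07 * γ := fun h₁ =>
    (mul_le_mul e2 h₁ (X.h.P_nonneg hs x (X.h.Γ_nonneg _)) (by positivity)).trans (by nlinarith)
  have hL : ∀ {g : X.M → ℝ}, X.h.Nice g → X.h.P s (X.h.Γ g g) x ≤ 1 + γ →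
      2 * s * (1 - γ) ≤ X.h.Cov s x g g → 1 - 13.21 * γ ≤ X.h.s2m s x g g σ := fun hg h₁ h₂ => by
    refine le_trans ?_ (X.h.s2a_mono h4 hσ.1 hσ.2 x hg)
    have := X.h.s2a_low hs x hg
    have := hU h₁
    refine le_of_mul_le_mul_left ?_ hs
    nlinarith
  have u1 := hU h₁
  have u2 := hU h₁'
  have l1 := hL hf h₁ h₂
  have l2 := hL hf' h₁' h₂'
  have k1 : ∀ c : ℝ, c ^ 2 = 1 → 2 * c * X.h.s2m s x f f' σ ≤
      2 * c * (Real.exp (2 * X.h.k * s) * X.h.P s (X.h.Γ f f') x) + 2 * (16.28 * γ) := fun c hc => by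
    have a1 := X.h.s2a_up σ0 hσ.2 x (X.h.s2a_nice hf hf' c)
    simp only [HS.s2m] at a1 l1 l2 ⊢
    rw [X.h.s2a_P hr hf hf', X.h.s2a_PΓ σ0 x (X.h.P_nice hf hr) (X.h.P_nice hf' hr),
      X.h.s2a_PΓ hs x hf hf', hc] at a1
    linarith
  have k2 : ∀ c : ℝ, c ^ 2 = 1 → 2 * c * X.h.Cov s x f f' ≤
      2 * s * (2 * c * (Real.exp (2 * X.h.k * s) * X.h.P s (X.h.Γ f f') x) + 2 * (4.07 * γ)) := fun c hc => by
    have a1 := X.h.s2a_low hs x (X.h.s2a_nice hf hf' c)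
    have a2 := mul_le_mul_of_nonneg_left
      (X.h.s2a_up h4 (show s / 4 < s by linarith) x (X.h.s2a_nice hf hf' c)) hs.le
    rw [X.h.s2a_Cov hs x hf hf', hc] at a1
    rw [X.h.s2a_PΓ hs x hf hf', hc] at a1 a2
    nlinarith [mul_le_mul_of_nonneg_left u1 hs.le, mul_le_mul_of_nonneg_left u2 hs.le]
  obtain ⟨c1, c2⟩ := abs_le.1 h₃
  have a1 := k1 1 (by norm_num)
  have a2 := k1 (-1) (by norm_num)
  have a3 : -(5.07 * γ) ≤ Real.exp (2 * X.h.k * s) * X.h.P s (X.h.Γ f f') x := by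
    have := k2 1 (by norm_num)
    refine le_of_mul_le_mul_left ?_ hs
    nlinarith
  have a4 : Real.exp (2 * X.h.k * s) * X.h.P s (X.h.Γ f f') x ≤ 5.07 * γ := by
    have := k2 (-1) (by norm_num)
    refine le_of_mul_le_mul_left ?_ hs
    nlinarith
  have a5 : |X.h.s2m s x f f' σ| ≤ 50 * γ := abs_le.2 ⟨by linarith, by linarith⟩
  refine le_trans ?_ a5
  rw [HS.s2m, abs_mul, abs_of_pos (Real.exp_pos _)]
  exact le_mul_of_one_le_left (abs_nonneg _)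
    (Real.one_le_exp (mul_nonneg (mul_nonneg zero_le_two X.h.k_nonneg) σ0.le))

lemma s2b_good {a b c : ℝ} (hab : a ≤ b) {q : ℝ → ℝ} {G : ℝ → Prop} (hq : IntervalIntegrable q volume a b)
    (hG : ∀ᵐ σ, σ ∈ Ioc a b → G σ) (h : ∫ σ in a..b, q σ < (b - a) * c) :
    ∃ σ ∈ Ioc a b, G σ ∧ q σ ≤ c := by
  by_contra h0
  push Not at h0
  refine h.not_ge ?_
  rw [← smul_eq_mul, ← intervalIntegral.integral_const, intervalIntegral.integral_of_le hab,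
    intervalIntegral.integral_of_le hab]
  exact setIntegral_mono_on_ae (integrableOn_const (by simp)) hq.1 measurableSet_Ioc
    (hG.mono fun σ h1 h2 => (h0 σ h2 (h1 h2)).le)

lemma s2b_amgm {σ θ p q : ℝ} (hσ : 0 ≤ σ) (hθ : 0 < θ) (hp : 0 ≤ p) (hq : 0 ≤ q) :
    √σ * (√p * √q) ≤ σ / (2 * θ) * p + θ / 2 * q := by
  have h1 : θ * (σ / (2 * θ) * p) = (√σ * √p) ^ 2 / 2 := by
    rw [mul_pow, Real.sq_sqrt hσ, Real.sq_sqrt hp]
    field_simp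
  have h2 := Real.sq_sqrt hq
  refine le_of_mul_le_mul_left ?_ hθ
  rw [mul_add, h1]
  nth_rw 2 [← h2]
  nlinarith [sq_nonneg (√σ * √p - θ * √q)]

lemma s2b_osc (X : Sp.{u} n) (x : X.M) {σ θ c : ℝ} {F F' : X.M → ℝ} (hσ : 0 < σ) (hθ : 0 < θ)
    (hk : X.h.k * σ ≤ 1 / 2) (hF : X.h.Nice F) (hF' : X.h.Nice F') (hΔ : MemLp (X.h.Δ F) 2 X.h.m)
    (hΔ' : MemLp (X.h.Δ F') 2 X.h.m) (hi : Integrable (fun y => X.h.H σ x y * X.h.Γ2 F F y) X.h.m)
    (hi' : Integrable (fun y => X.h.H σ x y * X.h.Γ2 F' F' y) X.h.m)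
    (h1 : X.h.P σ (X.h.Γ F F) x ≤ 2) (h1' : X.h.P σ (X.h.Γ F' F') x ≤ 2)
    (h2 : σ * X.h.P σ (X.h.Γ2 F F) x ≤ c * θ ^ 2) (h2' : σ * X.h.P σ (X.h.Γ2 F' F') x ≤ c * θ ^ 2) :
    X.h.P σ (fun y => |X.h.Γ F F' y - X.h.P σ (X.h.Γ F F') x|) x ≤ 24 * ((c + 2) * θ) := by
  have hS := hF.1.1
  have hS' := hF'.1.1
  have hu := X.h.S_Γ hS hS'
  have hH1 : X.h.H1 (X.h.Γ F F') := by
    obtain ⟨B, hB⟩ := hF.2
    obtain ⟨B', hB'⟩ := hF'.2
    refine ⟨hu, (hF.Γ_bd hF').1, Integrable.mono'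
      (((X.h.Γ2_int hS hF.1.2.2 hΔ).1.const_mul (2 * B')).add
        ((X.h.Γ2_int hS' hF'.1.2.2 hΔ').1.const_mul (2 * B)))
      (X.h.S_cont (X.h.S_Γ hu hu)).aestronglyMeasurable (Eventually.of_forall fun y => ?_)⟩
    rw [Real.norm_of_nonneg (X.h.Γ_nonneg _ _), ← Real.sq_sqrt (X.h.Γ_nonneg (X.h.Γ F F') y)]
    refine (pow_le_pow_left₀ (Real.sqrt_nonneg _) (X.h.sqrt_Γ_Γ_le hS hS' y) 2).trans (add_sq_le.trans ?_)
    rw [mul_pow, mul_pow, Real.sq_sqrt (X.h.Γ_nonneg _ _), Real.sq_sqrt (X.h.Γ_nonneg _ _),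
      Real.sq_sqrt (X.h.Γ2_nonneg hS y), Real.sq_sqrt (X.h.Γ2_nonneg hS' y), Pi.add_apply]
    nlinarith [mul_le_mul_of_nonneg_left (hB' y).2 (X.h.Γ2_nonneg hS y),
      mul_le_mul_of_nonneg_left (hB y).2 (X.h.Γ2_nonneg hS' y)]
  have i1 := X.h.int_L2 hσ x (hF.Γ_bd hF).1
  have i2 := X.h.int_L2 hσ x (hF'.Γ_bd hF').1
  have cm : ∀ {w : X.M → ℝ} (a : ℝ), Integrable (fun y => X.h.H σ x y * w y) X.h.m →
      Integrable (fun y => X.h.H σ x y * (a * w y)) X.h.m := fun a hw => by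
    simpa only [mul_left_comm _ a] using hw.const_mul a
  have ad : ∀ {w w' : X.M → ℝ}, Integrable (fun y => X.h.H σ x y * w y) X.h.m →
      Integrable (fun y => X.h.H σ x y * w' y) X.h.m →
      Integrable (fun y => X.h.H σ x y * (w y + w' y)) X.h.m := fun hw hw' => by
    simpa only [mul_add] using hw.fun_add hw'
  have j1 := ad (cm (σ / (2 * θ)) hi) (cm (θ / 2) i2)
  have j2 := ad (cm (σ / (2 * θ)) hi') (cm (θ / 2) i1)
  have h3 := X.h.abs_P_le_P hσ (f := fun y => √σ * √(X.h.Γ (X.h.Γ F F') (X.h.Γ F F') y)) (ad j1 j2)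
    fun y => by
      rw [abs_of_nonneg (by positivity)]
      refine (mul_le_mul_of_nonneg_left (X.h.sqrt_Γ_Γ_le hS hS' y) (Real.sqrt_nonneg _)).trans ?_
      rw [mul_add]
      exact add_le_add (s2b_amgm hσ.le hθ (X.h.Γ2_nonneg hS y) (X.h.Γ_nonneg _ _))
        (s2b_amgm hσ.le hθ (X.h.Γ2_nonneg hS' y) (X.h.Γ_nonneg _ _))
  rw [X.h.P_add j1 j2, X.h.P_add (cm _ hi) (cm _ i2), X.h.P_add (cm _ hi') (cm _ i1), X.h.P_cmul,
    X.h.P_cmul, X.h.P_cmul, X.h.P_cmul, X.h.P_cmul] at h3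
  have e : ∀ {p : ℝ}, σ * p ≤ c * θ ^ 2 → σ / (2 * θ) * p ≤ c * θ / 2 := fun {p} hp => by
    rw [div_mul_eq_mul_div, div_le_iff₀ (by positivity)]
    linarith
  have h4 : √σ * X.h.P σ (fun y => √(X.h.Γ (X.h.Γ F F') (X.h.Γ F F') y)) x ≤ (c + 2) * θ := by
    refine (le_abs_self _).trans (h3.trans ?_)
    have a1 := e h2
    have a2 := e h2'
    have a3 := mul_le_mul_of_nonneg_left h1 (half_pos hθ).le
    have a4 := mul_le_mul_of_nonneg_left h1' (half_pos hθ).le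
    linarith
  have h5 : Real.exp (2 * X.h.k * σ) ≤ 3 :=
    (Real.exp_le_exp.2 (by linarith)).trans (Real.exp_one_lt_d9.le.trans (by norm_num))
  have h6 : 0 ≤ √σ * X.h.P σ (fun y => √(X.h.Γ (X.h.Γ F F') (X.h.Γ F F') y)) x :=
    mul_nonneg (Real.sqrt_nonneg _) (X.h.P_nonneg hσ x fun _ => Real.sqrt_nonneg _)
  refine (X.h.poincare1 hH1 (hF.Γ_bd hF') hσ x).trans ?_
  nlinarith [mul_le_mul_of_nonneg_right h5 h6]

/-- Recipe: a good `σ ∈ [s/4, 3s/4]` with `s Σ_a P σ Γ2(F a) ≤ 40 (n+1) γ` (and integrable), `F a = P (s-σ) (f a)`; `poincare1` for `Γ(F a, F b)` (`Γ_bd`, `Γ2_int`, `P_H1`, `sqrt_Γ_Γ_le`, `P_cs`);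
`gram_far` gives `1/(n+1) ≤ Σ_{a,b} |Γ(F a, F b) - δ|` pointwise. -/
theorem almost_rigid (n : ℕ) : ∃ γ : ℝ, 0 < γ ∧ ∀ (X : Sp.{u} n) (x : X.M) {s : ℝ}
    (f : Option (Fin n) → X.M → ℝ), 0 < s → X.h.k * s ≤ γ → (∀ a, X.h.Nice (f a)) →
    (∀ a, X.h.P s (X.h.Γ (f a) (f a)) x ≤ 1 + γ) →
    (∀ a b, |X.h.Cov s x (f a) (f b) - if a = b then 2 * s else 0| ≤ 2 * s * γ) → False := by
  obtain ⟨N, hN⟩ : ∃ N : ℝ, N = n + 1 := ⟨_, rfl⟩
  have hN1 : 1 ≤ N := by rw [hN]; exact le_add_of_nonneg_left (Nat.cast_nonneg n)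
  obtain ⟨θ, hθ, hθ1, hθ2⟩ : ∃ θ : ℝ, 0 < θ ∧ θ ≤ 1 / 10 ∧ N ^ 3 * (1920 * N + 98) * θ < 1 :=
    ⟨1 / (N ^ 3 * (1920 * N + 98) + 10), by positivity,
      one_div_le_one_div_of_le (by norm_num) (le_add_of_nonneg_left (by positivity)), by
      rw [mul_one_div, div_lt_one (by positivity)]; linarith⟩
  refine ⟨θ ^ 2, by positivity, fun X x s f hs hk hf h1 h2 => ?_⟩
  have hγ : θ ^ 2 ≤ 1 / 100 := (pow_le_pow_left₀ hθ.le hθ1 2).trans (by norm_num)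
  have h3 : ∀ a, 2 * s * (1 - θ ^ 2) ≤ X.h.Cov s x (f a) (f a) := fun a => by
    have := (abs_le.1 (h2 a a)).1
    rw [if_pos rfl] at this
    linarith
  have hd := fun a => rigid_diag X x hs hk hγ (hf a) (h1 a) (h3 a)
  have hab : s / 4 ≤ 3 * s / 4 := by linarith
  have hsl := fun a => (hd a).2.1.slice hab
  have hcard : (Fintype.card (Option (Fin n)) : ℝ) = N := by simp [hN]
  obtain ⟨σ, hσ, hi, hq⟩ := s2b_good hab (c := 80 * N * θ ^ 2 / s)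
    (q := fun σ => ∑ a, X.h.P σ (X.h.Γ2 (X.h.P (s - σ) (f a)) (X.h.P (s - σ) (f a))) x)
    (G := fun σ => ∀ a, Integrable (fun y => X.h.H σ x y *
      X.h.Γ2 (X.h.P (s - σ) (f a)) (X.h.P (s - σ) (f a)) y) X.h.m)
    (by
      have := IntervalIntegrable.sum Finset.univ fun a (_ : a ∈ Finset.univ) => (hsl a).1
      rw [Finset.sum_fn] at this
      exact this)
    ((ae_all_iff.2 fun a => (hsl a).2).mono fun σ h h' a => h a h') (by
      rw [intervalIntegral.integral_finsetSum fun a _ => by exact (hsl a).1]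
      refine (Finset.sum_le_card_nsmul _ _ _ fun a _ => (hd a).2.2).trans_lt ?_
      rw [nsmul_eq_mul, Finset.card_univ, hcard,
        show (3 * s / 4 - s / 4) * (80 * N * θ ^ 2 / s) = 40 * (N * θ ^ 2) by field_simp; ring]
      have : 0 < N * θ ^ 2 := by positivity
      linarith)
  have hσ0 : 0 < σ := lt_trans (by positivity) hσ.1
  have hσs : σ < s := by linarith [hσ.2]
  have hσI : σ ∈ Ico (s / 4) s := ⟨hσ.1.le, hσs⟩
  set F : Option (Fin n) → X.M → ℝ := fun a => X.h.P (s - σ) (f a) with hF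
  have hFn : ∀ a, X.h.Nice (F a) := fun a => X.h.P_nice (hf a) (sub_pos.2 hσs)
  have hΔ : ∀ a, MemLp (X.h.Δ (F a)) 2 X.h.m := fun a => (X.h.P_H1 (sub_pos.2 hσs) (hf a).1.2.1).2.2.1
  have h4 : ∀ a, X.h.P σ (X.h.Γ (F a) (F a)) x ≤ 2 := fun a => ((hd a).1 σ hσI).2.trans (by linarith)
  have h5 : ∀ a, σ * X.h.P σ (X.h.Γ2 (F a) (F a)) x ≤ 80 * N * θ ^ 2 := fun a => by
    have a0 : ∀ a, 0 ≤ X.h.P σ (X.h.Γ2 (F a) (F a)) x := fun a =>
      X.h.P_nonneg hσ0 x (X.h.Γ2_nonneg (hFn a).1.1)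
    have a1 := (Finset.single_le_sum (fun a _ => a0 a) (Finset.mem_univ a)).trans hq
    rw [le_div_iff₀' hs] at a1
    exact (mul_le_mul_of_nonneg_right hσs.le (a0 a)).trans a1
  have hkσ : X.h.k * σ ≤ 1 / 2 := by
    linarith [mul_le_mul_of_nonneg_left hσs.le X.h.k_nonneg]
  have h6 := fun a b => s2b_osc X x hσ0 hθ hkσ (hFn a) (hFn b) (hΔ a) (hΔ b) (hi a) (hi b) (h4 a) (h4 b)
    (h5 a) (h5 b)
  have h7 : ∀ a b, |X.h.P σ (X.h.Γ (F a) (F b)) x - if a = b then 1 else 0| ≤ 50 * θ ^ 2 := fun a b => by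
    split_ifs with h
    · subst h
      have := (hd a).1 σ hσI
      exact abs_le.2 ⟨by linarith [this.1, sq_nonneg θ], by linarith [this.2, sq_nonneg θ]⟩
    · rw [sub_zero]
      exact rigid_off X x hs hk hγ (hf a) (hf b) (h1 a) (h1 b) (h3 a) (h3 b)
        (by simpa [h] using h2 a b) σ hσI
  have hI : ∀ a b, Integrable (fun y => X.h.H σ x y *
      |X.h.Γ (F a) (F b) y - X.h.P σ (X.h.Γ (F a) (F b)) x|) X.h.m := fun a b => by
    obtain ⟨B, hB⟩ := ((hFn a).Γ_bd (hFn b)).2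
    exact X.h.int_bdd hσ0 x ((X.h.S_cont (X.h.S_Γ (hFn a).1.1 (hFn b).1.1)).sub
      continuous_const).abs.aestronglyMeasurable (B := B + |X.h.P σ (X.h.Γ (F a) (F b)) x|)
      fun y => (abs_abs _).trans_le ((abs_sub _ _).trans (add_le_add_left (hB y) _))
  have h8 := X.h.P_mono hσ0 (x := x) (f := fun _ => 1 / N - 50 * θ ^ 2)
    (f' := fun y => ∑ p : Option (Fin n) × Option (Fin n),
      |X.h.Γ (F p.1) (F p.2) y - X.h.P σ (X.h.Γ (F p.1) (F p.2)) x|)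
    ((X.h.H_int hσ0 x).1.mul_const _)
    (by simpa only [Finset.mul_sum] using integrable_finsetSum Finset.univ fun p _ => hI p.1 p.2)
    fun y => by
      obtain ⟨a, b, hab⟩ := X.h.gram_far F y
      refine le_trans ?_ (Finset.single_le_sum (f := fun p : Option (Fin n) × Option (Fin n) =>
        |X.h.Γ (F p.1) (F p.2) y - X.h.P σ (X.h.Γ (F p.1) (F p.2)) x|) (fun _ _ => abs_nonneg _)
        (Finset.mem_univ (a, b)))
      have := abs_sub_le (X.h.Γ (F a) (F b) y) (X.h.P σ (X.h.Γ (F a) (F b)) x) (if a = b then 1 else 0)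
      rw [← hN] at hab
      linarith [h7 a b]
  rw [X.h.P_const hσ0, X.h.P_sum _ fun p _ => hI p.1 p.2] at h8
  have h9 := h8.trans (Finset.sum_le_card_nsmul _ _ _ fun p _ => h6 p.1 p.2)
  rw [nsmul_eq_mul, Finset.card_univ, Fintype.card_prod, Nat.cast_mul, hcard, sub_le_iff_le_add,
    div_le_iff₀ (by positivity)] at h9
  have h10 : θ ^ 2 * N ≤ θ * N ^ 3 :=
    mul_le_mul (by nlinarith) (le_self_pow₀ hN1 (by norm_num)) (by positivity) hθ.le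
  nlinarith

theorem s2c_approx (X : Sp.{u} n) (x : X.M) {t : ℝ} (ht : 0 < t) {f : X.M → ℝ} (hf : X.h.S f)
    (h₁ : Integrable (fun y => X.h.H t x y * f y ^ 2) X.h.m)
    (h₂ : Integrable (fun y => X.h.H t x y * X.h.Γ f f y) X.h.m) :
    ∃ F : ℕ → X.M → ℝ, (∀ j, X.h.Nice (F j)) ∧
      Tendsto (fun j => X.h.P t (X.h.Γ (F j) (F j)) x) atTop (𝓝 (X.h.P t (X.h.Γ f f) x)) ∧
      Tendsto (fun j => X.h.Cov t x (F j) (F j)) atTop (𝓝 (X.h.Cov t x f f)) ∧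
      ∀ w, X.h.Nice w → Tendsto (fun j => X.h.Cov t x (F j) w) atTop (𝓝 (X.h.Cov t x f w)) := by
  set h := X.h
  obtain ⟨C, hC⟩ := h.cut1 x
  choose χ h1 h2 h3 h4 h5 using fun j : ℕ => hC ((j : ℝ) + 1) (by linarith [(Nat.cast_nonneg j : (0 : ℝ) ≤ j)])
  have nj : ∀ j, h.Nice fun z => χ j z * f z := fun j => h.H1_of_cs (h.S_mul (h1 j) hf) (h2 j).mul_right
  have hm := (h.S_cont hf).aestronglyMeasurable (μ := h.m)
  have l1 := h.h2e_lim h1 h3 h4 (h.P_sq_le ht hm h₁).1 1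
  have l2 := h.h2e_lim h1 h3 h4 h₁ 2
  simp only [pow_one, ← mul_pow] at l1 l2
  simp only [sq] at l2
  refine ⟨_, nj, ?_, l2.sub (l1.mul l1), fun w hw => ?_⟩
  · refine tendsto_integral_of_dominated_convergence
      (fun y => 2 * (h.H t x y * h.Γ f f y) + 2 * |C| * (h.H t x y * f y ^ 2))
      (fun j => (h.int_L2 ht x ((nj j).Γ_bd (nj j)).1).aestronglyMeasurable)
      ((h₂.const_mul _).add (h₁.const_mul _)) (fun j => Eventually.of_forall fun y => ?_)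
      (Eventually.of_forall fun y => ?_)
    · have b0 := h.H_nonneg ht x y
      have b1 := (Real.sqrt_le_iff.1 (h.toGeo.h2b_mul (h1 j) hf (h3 j y).1 (h3 j y).2)).2
      have b2 : h.Γ (χ j) (χ j) y ≤ |C| := (h5 j y).trans ((div_le_div_of_nonneg_right (le_abs_self C)
        (by positivity)).trans (div_le_self (abs_nonneg _)
          (one_le_pow₀ (by linarith [(Nat.cast_nonneg j : (0 : ℝ) ≤ j)]))))
      have b3 := Real.sq_sqrt (h.Γ_nonneg f y)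
      have b4 : (Real.sqrt (h.Γ (χ j) (χ j) y) * |f y|) ^ 2 ≤ |C| * f y ^ 2 := by
        rw [mul_pow, Real.sq_sqrt (h.Γ_nonneg _ y), sq_abs]
        exact mul_le_mul_of_nonneg_right b2 (sq_nonneg _)
      rw [Real.norm_of_nonneg (mul_nonneg b0 (h.Γ_nonneg _ y))]
      have b5 : h.Γ (fun z => χ j z * f z) (fun z => χ j z * f z) y ≤ 2 * h.Γ f f y + 2 * (|C| * f y ^ 2) := by
        nlinarith [sq_nonneg (Real.sqrt (h.Γ f f y) - Real.sqrt (h.Γ (χ j) (χ j) y) * |f y|)]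
      linarith [mul_le_mul_of_nonneg_left b5 b0]
    · refine tendsto_const_nhds.congr' ?_
      filter_upwards [tendsto_natCast_atTop_atTop.eventually_ge_atTop (dist y x)] with j hj
      have : (fun z => χ j z * f z) =ᶠ[𝓝 y] f := by
        filter_upwards [ball_mem_nhds y one_pos] with z hz
        rw [h4 j z (by linarith [dist_triangle z y x, mem_ball.1 hz]), one_mul]
      simp only [Raw.Γ, h.grad_congr this]
  · have l3 := h.h2e_lim h1 h3 h4 (h.P_cs ht hm hw.bd.1.aestronglyMeasurable h₁ (h.h2e_sq hw.bd ht x)).1 1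
    simp only [pow_one, ← mul_assoc] at l3
    exact l3.sub (l1.mul_const _)

/-- Replace `ψ` by `χ j · ψ` (`cut2`, `H1_of_cs`), dominated convergence; `γ` = half of the previous one. -/
theorem almost_rigid' (n : ℕ) : ∃ γ : ℝ, 0 < γ ∧ ∀ (X : Sp.{u} n) (x : X.M) {s : ℝ} (ψ : X.M → ℝ)
    (f : Fin n → X.M → ℝ), 0 < s → X.h.k * s ≤ γ → (∀ i, X.h.Nice (f i)) → X.h.S ψ →
    Integrable (fun y => X.h.H s x y * ψ y ^ 2) X.h.m →
    Integrable (fun y => X.h.H s x y * X.h.Γ ψ ψ y) X.h.m →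
    (∀ i, X.h.P s (X.h.Γ (f i) (f i)) x ≤ 1 + γ) → X.h.P s (X.h.Γ ψ ψ) x ≤ 1 + γ →
    (∀ i j, |X.h.Cov s x (f i) (f j) - if i = j then 2 * s else 0| ≤ 2 * s * γ) →
    (∀ i, |X.h.Cov s x ψ (f i)| ≤ 2 * s * γ) → |X.h.Cov s x ψ ψ - 2 * s| ≤ 2 * s * γ → False := by
  obtain ⟨γ, hγ, H⟩ := almost_rigid.{u} n
  refine ⟨γ / 2, by positivity, fun X x s ψ f hs hk hf hψ h₁ h₂ a1 a2 a3 a4 a5 => ?_⟩
  obtain ⟨F, hF, l1, l2, l3⟩ := s2c_approx X x hs hψ h₁ h₂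
  have hlt : 2 * s * (γ / 2) < 2 * s * γ := by nlinarith
  obtain ⟨j, b1, b2, b3⟩ := ((l1.eventually_le_const (show _ < 1 + γ by linarith)).and
    (((l2.sub_const (2 * s)).abs.eventually_le_const (a5.trans_lt hlt)).and
      (eventually_all.2 fun i => (l3 _ (hf i)).abs.eventually_le_const ((a4 i).trans_lt hlt)))).exists
  refine H X x (fun a => a.elim (F j) f) hs (by linarith) (fun a => ?_) (fun a => ?_) fun a b => ?_
  · cases a
    exacts [hF j, hf _]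
  · cases a
    exacts [b1, (a1 _).trans (by linarith)]
  · rcases a with _ | a <;> rcases b with _ | b
    · simpa using b2
    · simpa using b3 b
    · simpa [HS.Cov, mul_comm] using b3 a
    · simpa using (a3 a b).trans hlt.le

theorem exists_onb {G : Mat n} (hG : G.PosDef) :
    ∃ ξ : Fin n → V n, ∀ i j, bf G (ξ i) (ξ j) = if i = j then 1 else 0 := by
  refine ⟨fun i => (√(hG.1.eigenvalues i))⁻¹ • (hG.1.eigenvectorBasis i).ofLp, fun i j => ?_⟩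
  have h1 := orthonormal_iff_ite.1 hG.1.eigenvectorBasis.orthonormal i j
  rw [EuclideanSpace.inner_eq_star_dotProduct, star_trivial, dotProduct_comm] at h1
  rw [bf, mulVec_smul, hG.1.mulVec_eigenvectorBasis, smul_dotProduct, dotProduct_smul, dotProduct_smul,
    h1]
  split_ifs with h
  · subst h
    have h2 := hG.eigenvalues_pos i
    have h3 := Real.mul_self_sqrt h2.le
    have h4 := (Real.sqrt_pos.2 h2).ne'
    simp only [smul_eq_mul]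
    nth_rw 3 [← h3]
    field_simp
  · simp

/-- Normalise `P s ψ² x = 2s`, `f i = u (ξ i)` with `exists_onb`; `JG` with `ν = γ` and `MC.sandwich`. -/
theorem gap (n : ℕ) : ∃ γ δ e₀ : ℝ, 0 < γ ∧ γ ≤ 1 / 2 ∧ 0 < δ ∧ δ ≤ 1 ∧ 0 < e₀ ∧
    ∀ (X : Sp.{u} n) (c : Crd X) (x : X.M) {s₀ T₁ e : ℝ}, e ≤ e₀ → c.Hyp x s₀ T₁ e →
      c.HG x (s₀ / δ) T₁ e γ := by
  obtain ⟨γ, hγ, H⟩ := almost_rigid'.{u} n
  obtain ⟨δ, e₁, hδ, hδ1, he₁, hJ⟩ := JG.{u} n γ hγ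
  obtain ⟨e₂, he₂, hG⟩ := hyp_small.{u} n
  refine ⟨min γ (1 / 2), δ, min (min e₁ e₂) (min 1 γ), by positivity, min_le_right _ _, hδ, hδ1, by positivity,
    fun X c x s₀ T₁ e he h => ⟨h.mono (le_div_self h.s₀_pos.le hδ hδ1), fun s hs ψ hψ h₁ h₂ h0 ho => ?_⟩⟩
  simp only [le_min_iff] at he
  obtain ⟨⟨e1, e2⟩, e3, e4⟩ := he
  have hγ' := min_le_left γ (1 / 2)
  have hγ0 : 0 < min γ (1 / 2) := by positivity
  generalize min γ (1 / 2) = g at *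
  have hs0 : 0 < s := (div_pos h.s₀_pos hδ).trans_le hs.1
  have hs1 : s₀ ≤ δ * s := (div_le_iff₀' hδ).1 hs.1
  have hs2 : s ≤ 10 ^ 5 * T₁ := by linarith [hs.2, h.T₁_pos]
  have hpd := (hG X c x e2 h s ⟨by nlinarith, hs2⟩).1
  obtain ⟨hJ1, hJ2⟩ := hJ X c x e1 h hs1 hs.2
  obtain ⟨ξ, hξ⟩ := exists_onb hpd
  have hq : ∀ i, qf (c.G s x) (ξ i) = 1 := fun i => by simpa [MC.bf_self] using hξ i i
  by_contra hlt
  rw [not_le] at hlt
  have hΓ := X.h.P_nonneg hs0 x (X.h.Γ_nonneg ψ)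
  set A := X.h.P s (fun y => ψ y ^ 2) x with hA
  have hA0 : 0 < A := pos_of_mul_pos_right ((mul_nonneg (by positivity) hΓ).trans_lt hlt) (by positivity)
  obtain ⟨a, ha⟩ : ∃ a : ℝ, a ^ 2 * A = 2 * s :=
    ⟨√(2 * s / A), by rw [Real.sq_sqrt (by positivity), div_mul_cancel₀ _ hA0.ne']⟩
  have hΓa : X.h.Γ (fun y => a * ψ y) (fun y => a * ψ y) = fun y => a ^ 2 * X.h.Γ ψ ψ y := funext fun y => by
    rw [X.h.Γ_cmul_left a hψ, X.h.Γ_comm, X.h.Γ_cmul_left a hψ]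
    ring
  refine H X x (fun y => a * ψ y) (fun i => c.u (ξ i)) hs0 ?_ (fun i => (c.u_nice _).1) (X.h.S_cmul a hψ)
    ?_ ?_ (fun i => ?_) ?_ (fun i j => ?_) (fun i => ?_) ?_
  · nlinarith [(h.times e3 hs0 hs2).2.2.2, h.e_pos]
  · simpa only [mul_pow, mul_left_comm _ (a ^ 2)] using h₁.const_mul (a ^ 2)
  · simpa only [hΓa, mul_left_comm _ (a ^ 2)] using h₂.const_mul (a ^ 2)
  · rw [← c.qf_G hs0, hq]
    linarith
  · rw [hΓa, X.h.P_cmul]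
    refine le_of_mul_le_mul_right ?_ hA0
    nlinarith
  · have h1 := MC.sandwich (H := c.J s x - (2 * s) • c.G s x) (c := γ * (2 * s))
      (by rw [transpose_sub, transpose_smul, MC.psd_symm hJ1.posSemidef, MC.psd_symm hpd.posSemidef]) hpd.posSemidef
      (by positivity) (fun v => by rw [MC.qf_msub, MC.qf_msmul, mul_assoc γ]; exact hJ2 v) (ξ i) (ξ j)
    have h2 : bf (c.J s x - (2 * s) • c.G s x) (ξ i) (ξ j) =
        bf (c.J s x) (ξ i) (ξ j) - 2 * s * bf (c.G s x) (ξ i) (ξ j) := by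
      simp [bf, sub_mulVec, smul_mulVec]
    rw [h2, hξ, c.bf_J hs0] at h1
    simpa [MC.sn, hq, mul_comm γ] using h1
  · have h1 := ho (ξ i)
    simp only [HS.Cov, mul_assoc a, X.h.P_cmul, h0, mul_zero, zero_mul, sub_zero]
    refine abs_le_of_sq_le_sq' ?_ (by positivity) |> abs_le.2
    rw [hq] at h1
    have h2 : g ^ 2 ≤ γ ^ 2 := pow_le_pow_left₀ hγ0.le hγ' 2
    have h3 := mul_le_mul_of_nonneg_left h1 (sq_nonneg a)
    have h4 : a ^ 2 * (g ^ 2 * s * 1 * A) = 2 * s ^ 2 * g ^ 2 := by linear_combination g ^ 2 * s * ha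
    nlinarith [mul_le_mul_of_nonneg_left h2 (sq_nonneg s), sq_nonneg (s * γ)]
  · have h1 : (fun y => a * ψ y * (a * ψ y)) = fun y => a ^ 2 * ψ y ^ 2 := funext fun y => by ring
    simp only [HS.Cov, h1, X.h.P_cmul, h0, mul_zero, sub_zero, ← hA, ha, sub_self, abs_zero]
    positivity

end Crest.Agent.R247
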