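import Crest.Agent.R247.S5
import Crest.Agent.R247.S2

/-! # Row 247, S6: the bootstrap -/

set_option autoImplicit false
set_option linter.unusedSectionVars false
set_option linter.unusedVariables false
open MeasureTheory Filter Set Metric Matrix
open scoped ENNReal NNReal Topology ContDiff
open Crest.GeometryTopology.CoordMetric

noncomputable section
namespace Crest.Agent.R247
universe u

variable {n : ℕ}

theorem s6a_lin {Q G G' : Mat n} (hQ : Q.PosSemidef) (hG : G.PosDef) (hG' : G'.PosDef) {a ξ : V n}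
    {c L A₁ A₂ A₃ : ℝ} (hc : 0 ≤ c) (hL : 0 ≤ L) (h₁ : ∀ v, |qf (G' - G) v| ≤ c * qf G v)
    (h₂ : ∀ v, qf G v ≤ 2 * qf G' v) (h₃ : ∀ v, qf Q v ≤ L * qf G v) (b₁ : qf Q ξ ≤ A₁)
    (b₂ : qf G'⁻¹ (a + G' *ᵥ ξ) ≤ A₂) (b₃ : qf G'⁻¹ a ≤ A₃) :
    qf Q (G⁻¹ *ᵥ a) ≤ 3 * (A₁ + L * (2 * A₂) + L * (c ^ 2 * (2 * A₃))) := by
  have k : ∀ b, qf G' (G'⁻¹ *ᵥ b) = qf G'⁻¹ b := fun b => by
    rw [← MC.sn_sq hG'.posSemidef, MC.sn_mul_inv hG', MC.sn_sq hG'.inv.posSemidef]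
  have e : G⁻¹ *ᵥ a = G'⁻¹ *ᵥ (a + G' *ᵥ ξ) + G⁻¹ *ᵥ ((G' - G) *ᵥ (G'⁻¹ *ᵥ a)) - ξ := by
    rw [mulVec_add, MC.pd_inv_mul hG', sub_mulVec, mulVec_sub, MC.pd_mul_inv hG', MC.pd_inv_mul hG]
    abel
  have q₂ : qf Q (G'⁻¹ *ᵥ (a + G' *ᵥ ξ)) ≤ L * (2 * A₂) :=
    (h₃ _).trans (mul_le_mul_of_nonneg_left ((h₂ _).trans (by rw [k]; linarith)) hL)
  have q₃ : qf Q (G⁻¹ *ᵥ ((G' - G) *ᵥ (G'⁻¹ *ᵥ a))) ≤ L * (c ^ 2 * (2 * A₃)) := by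
    refine (h₃ _).trans (mul_le_mul_of_nonneg_left ?_ hL)
    have := MC.sandwich_vec hG (H := G' - G) (by
      rw [transpose_sub, MC.psd_symm hG.posSemidef, MC.psd_symm hG'.posSemidef]) hG.posSemidef hc
      zero_le_one h₁ (fun v => (one_mul _).ge) (G'⁻¹ *ᵥ a)
    rw [← MC.sn_mul_inv hG, mul_one] at this
    have := pow_le_pow_left₀ (MC.sn_nonneg _ _) this 2
    rw [mul_pow, MC.sn_sq hG.posSemidef, MC.sn_sq hG.posSemidef] at this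
    exact this.trans (mul_le_mul_of_nonneg_left ((h₂ _).trans (by rw [k]; linarith)) (sq_nonneg c))
  have t := pow_le_pow_left₀ (MC.sn_nonneg _ _) ((MC.sn_sub_le hQ _ ξ).trans
    (add_le_add_left (MC.sn_add_le hQ (G'⁻¹ *ᵥ (a + G' *ᵥ ξ))
      (G⁻¹ *ᵥ ((G' - G) *ᵥ (G'⁻¹ *ᵥ a)))) _)) 2
  rw [← e, MC.sn_sq hQ] at t
  rw [← MC.sn_sq hQ] at b₁ q₂ q₃
  generalize MC.sn Q ξ = p at *
  generalize MC.sn Q (G'⁻¹ *ᵥ (a + G' *ᵥ ξ)) = q at *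
  generalize MC.sn Q (G⁻¹ *ᵥ ((G' - G) *ᵥ (G'⁻¹ *ᵥ a))) = r at *
  nlinarith [sq_nonneg (p - q), sq_nonneg (q - r), sq_nonneg (p - r)]

/-- `Q_le` with a non-negative bound for the difference. -/
theorem s6_Q_le (n : ℕ) : ∃ C : ℝ, 0 < C ∧ ∀ (X : Sp.{u} n) (c : Crd X) {σ : ℝ}, 0 < σ →
    2000 * σ ≤ c.T → ∀ x ξ (D : ℝ), 0 ≤ D → qf (c.G (2000 * σ) x) ξ - qf (c.G (1000 * σ) x) ξ ≤ D →
      σ * qf (c.Q σ x) ξ ≤ C * D + C * (σ / c.T) * (ξ ⬝ᵥ ξ) := by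
  obtain ⟨C, hC, h⟩ := Q_le.{u} n
  refine ⟨C + C ^ 2, by positivity, fun X c σ hσ hT x ξ D hD hD' => (h X c hσ hT x ξ).trans ?_⟩
  have h₁ : 0 ≤ σ / c.T * (ξ ⬝ᵥ ξ) :=
    mul_nonneg (div_nonneg hσ.le c.T_pos.le) (by simpa [qf] using MC.psd_qf PosSemidef.one ξ)
  nlinarith [mul_le_mul_of_nonneg_left hD' hC.le, mul_nonneg (sq_nonneg C) hD, mul_nonneg hC.le h₁]

/-- Recipe: `exists_PH`, `pair_ident`, `pair_Q` (with `δ₂/2`); `Q σ (η) ≤ C G s (η)/σ` (`Q_le`, `hyp_growth`, `hyp_small`); `ξ + g_s a = (ξ + g_t a) + (g_s a - g_t a)`, `|G t - G s| ≤ 20 e G s` (`hyp_growth`),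
`MC.sandwich_vec`, `g_up`, `κ_bounds`. -/
theorem step_pair (n : ℕ) (hn : 1 ≤ n) (γ R : ℝ) (hγ : 0 < γ) (hγ' : γ ≤ 1 / 2) (hR : 0 ≤ R) :
    ∃ δ : ℝ, 0 < δ ∧ δ ≤ 1 ∧ ∀ δ₂ : ℝ, 0 < δ₂ → ∃ C e₀ : ℝ, 0 < C ∧ 0 < e₀ ∧
    ∀ (X : Sp.{u} n) (c : Crd X) (x z : X.M) {s₀ T₁ e s : ℝ}, e ≤ e₀ → c.HG x s₀ T₁ e γ →
      c.HG z s₀ T₁ e γ → s₀ ≤ δ * s → 2 * s ≤ T₁ → dist x z ≤ R * Real.sqrt s →
      ∀ σ, δ₂ * s ≤ σ → 10 ^ 6 * σ ≤ s →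
        qf (c.Q σ x) ((c.G s x)⁻¹ *ᵥ (c.uv z - c.uv x)) ≤ C * (e ^ 2 + (s / T₁) ^ (γ / 16)) := by
  obtain ⟨K, δ, e₁, hK, hδ, hδ1, he₁, hI⟩ := pair_ident.{u} n hn γ R hγ hγ'
  refine ⟨δ, hδ, hδ1, fun δ₂ hδ₂ => ?_⟩
  obtain ⟨C₁, e₂, hC₁, he₂, hQ⟩ := pair_Q.{u} n hn γ R K (δ₂ / 2) hγ hγ' (half_pos hδ₂)
  obtain ⟨C₂, hC₂, hL⟩ := s6_Q_le.{u} n
  obtain ⟨e₃, he₃, he₃', hg⟩ := hyp_growth.{u} n
  obtain ⟨e₄, he₄, hs⟩ := hyp_small.{u} n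
  obtain ⟨C₃, e₅, hC₃, he₅, hu⟩ := g_up.{u} n
  refine ⟨3 * (8 * C₁ + 3 * C₂ / δ₂ * (32 * K) + 3 * C₂ / δ₂ * (800 * (C₃ * R ^ 2 * (1 + R)))),
    min (min e₁ e₂) (min e₃ (min e₄ e₅)), by positivity, by positivity,
    fun X c x z s₀ T₁ e s he hx hz h₀ hT hd σ hσ hσ' => ?_⟩
  simp only [le_min_iff] at he
  obtain ⟨⟨a₁, a₂⟩, a₃, a₄, a₅⟩ := he
  have e0 := hx.e_pos
  have e1 : e ≤ 1 / 1000 := a₃.trans he₃'
  have s0 : 0 < s := (mul_pos_iff_of_pos_left hδ).1 (hx.s₀_pos.trans_le h₀)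
  have s1 : s₀ ≤ s := h₀.trans (mul_le_of_le_one_left s0.le hδ1)
  have σ0 : 0 < σ := (mul_pos hδ₂ s0).trans_le hσ
  have sT : s ≤ 10 ^ 5 * T₁ := by linarith
  obtain ⟨t, ⟨t1, t2⟩, hP⟩ := exists_PH hx hz (by linarith) hγ hγ' s0 hT hR hd
  have tT : t ≤ 10 ^ 5 * T₁ := by linarith
  have t0 : 0 < t := s0.trans_le t1
  obtain ⟨ξ, hξ, b₂⟩ := hI X c x z a₁ hP (h₀.trans (mul_le_mul_of_nonneg_left t1 hδ.le))
  have b₁ := hQ X c x z a₂ hP (s1.trans t1) hξ σ (by nlinarith) (hσ'.trans t1)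
  set W := e ^ 2 + (s / T₁) ^ (γ / 16) with hW
  have kx := hx.toHyp.κ_bounds (by linarith) hγ hγ' s0 (by linarith)
  have kz := hz.toHyp.κ_bounds (by linarith) hγ hγ' s0 (by linarith)
  have κ1 : 4 * (X.h.κ x T₁ γ s + X.h.κ z T₁ γ s) ≤ 8 * W := by
    linarith [kx.2.2.2.2.1, kz.2.2.2.2.1]
  have W1 : e ^ 2 ≤ W := le_add_of_nonneg_right (Real.rpow_nonneg (div_pos s0 hx.T₁_pos).le _)
  have sc := (hx.toHyp.times (by linarith) s0 sT).1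
  have T0 := c.T_pos
  obtain ⟨pS, hsS⟩ := hs X c x a₄ hx.toHyp s ⟨s1, sT⟩
  obtain ⟨pT, -⟩ := hs X c x a₄ hx.toHyp t ⟨s1.trans t1, tT⟩
  have g1 : ∀ v, qf (c.G s x) v ≤ (1 + 10 * e) * qf (c.G t x) v := fun v =>
    (hg X c x a₃ hx.toHyp v).2.1 s t s0 t1 (s1.trans t1) tT
  have g2 : ∀ v, qf (c.G t x) v ≤ (1 + 13 * e) * qf (c.G s x) v := fun v => by
    refine ((hg X c x a₃ hx.toHyp v).1 s t s1 t1 tT).trans
      (mul_le_mul_of_nonneg_right ?_ (MC.psd_qf pS.posSemidef v))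
    have r1 : (t / s) ^ (2 * e) ≤ (1 + 1 : ℝ) ^ (2 * e) :=
      Real.rpow_le_rpow (div_pos t0 s0).le (by rw [div_le_iff₀ s0]; linarith) (by positivity)
    have r2 := r1.trans (rpow_one_add_le_one_add_mul_self (by norm_num) (by positivity) (by linarith))
    nlinarith [mul_le_mul_of_nonneg_left r2 (show 0 ≤ 1 + 10 * e by positivity)]
  have b₃ : qf (c.G t x)⁻¹ (c.uv z - c.uv x) ≤ C₃ * R ^ 2 * (1 + R) * s := by
    refine (hu X c x a₅ hx.toHyp t ⟨s1.trans t1, tT⟩ z).trans ?_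
    have d1 : dist x z ^ 2 ≤ R ^ 2 * s := by
      rw [← Real.sq_sqrt s0.le, ← mul_pow]
      exact pow_le_pow_left₀ dist_nonneg hd 2
    have d2 : dist x z / Real.sqrt t ≤ R := (div_le_iff₀ (Real.sqrt_pos.2 t0)).2 hP.dist_le
    calc _ ≤ C₃ * (R ^ 2 * s) * (1 + R) := by gcongr
      _ = _ := by ring
  have hQL : ∀ v, qf (c.Q σ x) v ≤ 3 * C₂ / (δ₂ * s) * qf (c.G s x) v := fun v => by
    have q0 := MC.psd_qf pS.posSemidef v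
    have q2 := (hg X c x a₃ hx.toHyp v).2.1 (2000 * σ) s (by positivity) (by linarith) s1 sT
    have q3 := MC.psd_qf (c.G_psd (show 0 < 1000 * σ by positivity) x) v
    have q4 : σ / c.T * (v ⬝ᵥ v) ≤ qf (c.G s x) v :=
      (mul_le_mul_of_nonneg_right (div_le_div_of_nonneg_right (by linarith) T0.le)
        (by simpa [qf] using MC.psd_qf PosSemidef.one v)).trans ((hsS v).1.trans
          (mul_le_of_le_one_left q0 (by nlinarith)))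
    have q5 := MC.psd_qf (c.Q_psd (s := σ) ⟨σ0, by linarith⟩ x) v
    have q6 : qf (c.G (2000 * σ) x) v - qf (c.G (1000 * σ) x) v ≤ 2 * qf (c.G s x) v := by
      nlinarith
    have q1 := hL X c σ0 (by linarith) x v _ (by positivity) q6
    rw [div_mul_eq_mul_div, le_div_iff₀ (by positivity)]
    linarith [mul_le_mul_of_nonneg_left q4 hC₂.le, mul_le_mul_of_nonneg_left hσ q5]
  refine (s6a_lin (c.Q_psd ⟨σ0, by linarith⟩ x) pS pT (c := 20 * e) (by positivity) (by positivity)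
    (fun v => ?_) (fun v => (g1 v).trans (mul_le_mul_of_nonneg_right (by linarith)
      (MC.psd_qf pT.posSemidef v))) hQL b₁ b₂ b₃).trans ?_
  · have q0 := MC.psd_qf pS.posSemidef v
    have q1 := mul_le_mul_of_nonneg_left (g2 v) e0.le
    have q2 := mul_nonneg e0.le q0
    rw [MC.qf_msub, abs_le]
    constructor <;> nlinarith [g1 v, g2 v, mul_le_mul_of_nonneg_right e1 q2]
  · have k0 : 0 ≤ 4 * (X.h.κ x T₁ γ s + X.h.κ z T₁ γ s) := by linarith [kx.2.2.2.1, kz.2.2.2.1]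
    have m1 : C₁ * (4 * (X.h.κ x T₁ γ s + X.h.κ z T₁ γ s)) ≤ 8 * C₁ * W := by nlinarith
    have m2 : 3 * C₂ / (δ₂ * s) * (2 * (K * t * (4 * (X.h.κ x T₁ γ s + X.h.κ z T₁ γ s)))) ≤
        3 * C₂ / δ₂ * (32 * K) * W :=
      calc _ ≤ 3 * C₂ / (δ₂ * s) * (2 * (K * (2 * s) * (8 * W))) := by gcongr
        _ = _ := by field_simp; ring
    have m3 : 3 * C₂ / (δ₂ * s) * ((20 * e) ^ 2 * (2 * (C₃ * R ^ 2 * (1 + R) * s))) ≤
        3 * C₂ / δ₂ * (800 * (C₃ * R ^ 2 * (1 + R))) * W :=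
      calc _ = 3 * C₂ / δ₂ * (800 * (C₃ * R ^ 2 * (1 + R))) * e ^ 2 := by field_simp; ring
        _ ≤ _ := by gcongr
    linarith

/-- Linear algebra: a positive semidefinite `Q` is a sum of squares, seen through `G`. -/
theorem psd_sq {Q G : Mat n} (hQ : Q.PosSemidef) (hG : G.PosDef) : ∃ η : Fin n → V n,
    (∀ a, qf Q (G⁻¹ *ᵥ a) = ∑ i, (η i ⬝ᵥ a) ^ 2) ∧ ∀ ζ, qf Q ζ ≤ (∑ i, qf G (η i)) * qf G ζ := by
  obtain ⟨B, hB⟩ : ∃ B : Mat n, Q = Bᵀ * B := by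
    open MatrixOrder in
    obtain ⟨B, hB⟩ := CStarAlgebra.nonneg_iff_eq_star_mul_self.1 hQ.nonneg
    exact ⟨B, by simpa [star_eq_conjTranspose] using hB⟩
  have h : ∀ a, qf Q (G⁻¹ *ᵥ a) = ∑ i, ((G⁻¹ *ᵥ B i) ⬝ᵥ a) ^ 2 := fun a => by
    rw [hB, qf, ← mulVec_mulVec, MC.dot_mulVec, transpose_transpose, dotProduct]
    refine Finset.sum_congr rfl fun i _ => ?_
    rw [← sq, ← MC.psd_symm hG.inv.posSemidef, ← MC.dot_mulVec, MC.psd_symm hG.inv.posSemidef]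
    rfl
  refine ⟨fun i => G⁻¹ *ᵥ B i, h, fun ζ => ?_⟩
  conv_lhs => rw [← MC.pd_inv_mul hG ζ, h]
  rw [Finset.sum_mul]
  refine Finset.sum_le_sum fun i _ => ?_
  rw [← MC.sn_sq hG.posSemidef, ← MC.sn_sq hG.posSemidef, ← mul_pow, ← sq_abs]
  exact pow_le_pow_left₀ (abs_nonneg _) (MC.abs_bf_le hG.posSemidef _ _) 2

/-- Integrate `step_pair` over `z ∈ closedBall x (R₁√s)` against `H s x`; `psd_sq`, `spread` with `c₀ = u (η i) x`. -/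
theorem step_local (n : ℕ) (hn : 1 ≤ n) (γ : ℝ) (hγ : 0 < γ) (hγ' : γ ≤ 1 / 2) :
    ∃ R₁ δ : ℝ, 0 < R₁ ∧ 0 < δ ∧ δ ≤ 1 ∧ ∀ δ₂ : ℝ, 0 < δ₂ → ∃ C e₀ : ℝ, 0 < C ∧ 0 < e₀ ∧
    ∀ (X : Sp.{u} n) (c : Crd X) (x : X.M) {s₀ T₁ e s : ℝ}, e ≤ e₀ →
      (∀ z, dist x z ≤ R₁ * Real.sqrt s → c.HG z s₀ T₁ e γ) → s₀ ≤ δ * s → 2 * s ≤ T₁ →
      ∀ σ, δ₂ * s ≤ σ → 10 ^ 6 * σ ≤ s → ∀ η,
        s * qf (c.Q σ x) η ≤ C * (e ^ 2 + (s / T₁) ^ (γ / 16)) * qf (c.G s x) η := by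
  obtain ⟨R₁, δ₁, e₁, hR, hδ₁, hδ₁', he₁, hsp⟩ := spread.{u} n
  obtain ⟨δ', hδ', -, hst⟩ := step_pair.{u} n hn γ R₁ hγ hγ' hR.le
  obtain ⟨e₄, he₄, hs⟩ := hyp_small.{u} n
  refine ⟨R₁, min δ₁ δ', hR, lt_min hδ₁ hδ', (min_le_left _ _).trans hδ₁', fun δ₂ hδ₂ => ?_⟩
  obtain ⟨C, e₂, hC, he₂, hst⟩ := hst δ₂ hδ₂
  refine ⟨2 * C, min (min e₁ e₂) (min e₄ 1), by positivity, by positivity,
    fun X c x s₀ T₁ e s he hz h₀ hT σ hσ hσ' η => ?_⟩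
  simp only [le_min_iff] at he
  obtain ⟨⟨a₁, a₂⟩, a₄, a₅⟩ := he
  have hx := hz x (by rw [dist_self]; positivity)
  have s0 : 0 < s := (mul_pos_iff_of_pos_left (lt_min hδ₁ hδ')).1 (hx.s₀_pos.trans_le h₀)
  have h₁ : s₀ ≤ δ₁ * s := h₀.trans (mul_le_mul_of_nonneg_right (min_le_left _ _) s0.le)
  have h₂ : s₀ ≤ δ' * s := h₀.trans (mul_le_mul_of_nonneg_right (min_le_right _ _) s0.le)
  have s1 : s₀ ≤ s := h₁.trans (mul_le_of_le_one_left s0.le hδ₁')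
  have σ0 : 0 < σ := (mul_pos hδ₂ s0).trans_le hσ
  have sT : s ≤ 10 ^ 5 * T₁ := by linarith
  have sc := (hx.toHyp.times a₅ s0 sT).1
  have pS := (hs X c x a₄ hx.toHyp s ⟨s1, sT⟩).1
  obtain ⟨ζ, z1, z2⟩ := psd_sq (c.Q_psd (s := σ) ⟨σ0, by linarith⟩ x) pS
  set W := e ^ 2 + (s / T₁) ^ (γ / 16) with hW
  have W0 : 0 ≤ W := add_nonneg (sq_nonneg _) (Real.rpow_nonneg (div_pos s0 hx.T₁_pos).le _)
  have hi : ∀ i, Integrable (fun y => X.h.H s x y * (c.u (ζ i) y - c.u (ζ i) x) ^ 2) X.h.m :=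
    fun i => by
      obtain ⟨B, hB⟩ := (c.u_nice (ζ i)).1.2
      refine X.h.int_bdd s0 x (((X.h.S_cont (c.u_S _)).sub continuous_const).pow 2).aestronglyMeasurable
        (B := (B + B) ^ 2) fun y => ?_
      rw [abs_pow]
      exact pow_le_pow_left₀ (abs_nonneg _) ((abs_sub _ _).trans (add_le_add (hB y).1 (hB x).1)) 2
  have key : ∑ i, s * qf (c.G s x) (ζ i) / 2 ≤ C * W := by
    refine (Finset.sum_le_sum fun i _ => hsp X c x a₁ hx.toHyp h₁ (by linarith) (ζ i)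
      (c.u (ζ i) x)).trans ?_
    rw [← integral_finsetSum _ fun i _ => (hi i).integrableOn]
    have hH := X.h.H_int s0 x
    refine (setIntegral_mono_on (integrable_finsetSum _ fun i _ => (hi i).integrableOn)
      (hH.1.mul_const (C * W)).integrableOn measurableSet_closedBall fun y hy => ?_).trans
      ((setIntegral_le_integral (hH.1.mul_const (C * W)) (Eventually.of_forall fun y =>
        mul_nonneg (X.h.H_nonneg s0 x y) (by positivity))).trans ?_)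
    · have hy' : dist x y ≤ R₁ * Real.sqrt s := by rwa [mem_closedBall, dist_comm] at hy
      rw [← Finset.mul_sum]
      refine mul_le_mul_of_nonneg_left ?_ (X.h.H_nonneg s0 x y)
      simp only [c.u_dot, ← dotProduct_sub, ← z1]
      exact hst X c x y a₂ hx (hz y hy') h₂ hT hy' σ hσ hσ'
    · rw [integral_mul_const]
      exact mul_le_of_le_one_left (by positivity) hH.2
  rw [← Finset.sum_div, ← Finset.mul_sum] at key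
  refine (mul_le_mul_of_nonneg_left (z2 η) s0.le).trans ?_
  rw [← mul_assoc]
  exact mul_le_mul_of_nonneg_right (by linarith) (MC.psd_qf pS.posSemidef η)

/-- One step.  Recipe: `gap` gives `γ, δ_g`; `δ = min (δ_g δ') 10⁻⁶`, `δ₂ = δ/8`, `a = γ/16`.  For `δ s/8 ≤ σ₁ ≤ σ₂ ≤ δ s`: `G σ₂ - G σ₁ ≤ C e² G s` (`G_time`, `qf_IQ`, `step_local`, `hyp_small`);
`G s ≤ (4/3) G (δ s)` for small `e` (`hyp_growth`), so `G σ ≥ G s / 2` on that range and `G σ - G (σ/2) ≤ 2Ce² G σ ≤ e G σ`. -/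
theorem boot_step (n : ℕ) (hn : 1 ≤ n) : ∃ R₁ δ a e₀ : ℝ, 0 < R₁ ∧ 0 < δ ∧ δ ≤ 1 ∧ 0 < a ∧ 0 < e₀ ∧
    ∀ (X : Sp.{u} n) (c : Crd X) (x : X.M) {T₁ e s : ℝ}, e ≤ e₀ →
      (∀ z, dist x z ≤ R₁ * Real.sqrt s → c.Hyp z (δ * s) T₁ e) → 2 * s ≤ T₁ → (s / T₁) ^ a ≤ e ^ 2 →
      c.Hyp x (δ * s / 4) T₁ e := by
  obtain ⟨γ, δg, eg, hγ, hγ', hδg, hδg1, heg, Hg⟩ := gap.{u} n
  obtain ⟨R₁, δl, hR₁, hδl, hδl1, Hl⟩ := step_local.{u} n hn γ hγ hγ'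
  obtain ⟨δ, hδ, hδ1, hδ2⟩ : ∃ δ : ℝ, 0 < δ ∧ δ ≤ δg * δl ∧ δ ≤ 1 / 10 ^ 6 :=
    ⟨min (δg * δl) (1 / 10 ^ 6), by positivity, min_le_left _ _, min_le_right _ _⟩
  obtain ⟨C, el, hC, hel, Hl⟩ := Hl (δ / 8) (by positivity)
  obtain ⟨Ct, hCt, Ht⟩ := G_time.{u} n
  obtain ⟨e₁, he₁, he₁', H₁⟩ := hyp_growth.{u} n
  obtain ⟨e₂, he₂, H₂⟩ := hyp_small.{u} n
  have hδ3 : δ ≤ 1 := hδ2.trans (by norm_num)
  refine ⟨R₁, δ, γ / 16, min (min eg el) (min (min e₁ e₂) (δ / (4 * (4 * C + Ct)))), hR₁, hδ, hδ3,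
    by positivity, by positivity, fun X c x T₁ e s he hz hsT hse => ?_⟩
  simp only [le_min_iff] at he
  obtain ⟨⟨he1, he2⟩, ⟨he3, he4⟩, he5⟩ := he
  have hx : c.Hyp x (δ * s) T₁ e := hz x (by rw [dist_self]; positivity)
  have hs : 0 < s := pos_of_mul_pos_left (by rw [mul_comm]; exact hx.s₀_pos) hδ.le
  have he0 := hx.e_pos
  have hT₁ := hx.T₁_pos
  have hδs : δ * s ≤ s := mul_le_of_le_one_left hs.le hδ3
  have hs5 : s ≤ 10 ^ 5 * T₁ := by linarith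
  have hsT' : s ≤ c.T / 10 := (hx.times (by linarith) hs hs5).1
  have hT := c.T_pos
  have hQ := Hl X c x he2 (fun z h => Hg X c z he1 (hz z h))
    (by rw [div_le_iff₀ hδg]; linarith only [mul_le_mul_of_nonneg_right hδ1 hs.le]) hsT
  have hG0 : ∀ σ, 0 < σ → ∀ ξ, 0 ≤ qf (c.G σ x) ξ := fun σ hσ ξ => MC.psd_qf (c.G_psd hσ x) ξ
  have key : ∀ σ₁ σ₂, δ / 8 * s ≤ σ₁ → σ₁ ≤ σ₂ → σ₂ ≤ δ * s → ∀ ξ,
      qf (c.G σ₂ x) ξ - qf (c.G σ₁ x) ξ ≤ (4 * C + Ct) * e ^ 2 * qf (c.G s x) ξ := by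
    intro σ₁ σ₂ h1 h2 h3 ξ
    have hσ₁ : 0 < σ₁ := lt_of_lt_of_le (by positivity) h1
    have hGs := hG0 s hs ξ
    have a1 := (abs_le.1 (Ht X c hσ₁ h2 (by linarith) x ξ)).2
    obtain ⟨a2, a3⟩ := c.qf_IQ (a := σ₁) (b := σ₂) ⟨hσ₁, by linarith⟩ ⟨by linarith, by linarith⟩ x ξ
    have a4 : ∫ σ in σ₁..σ₂, 2 * qf (c.Q σ x) ξ ≤
        ∫ σ in σ₁..σ₂, 4 * C * e ^ 2 * qf (c.G s x) ξ / s := by
      refine intervalIntegral.integral_mono_on h2 (a2.const_mul 2) intervalIntegrable_const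
        fun σ hσ => ?_
      have b1 := hQ σ (h1.trans hσ.1) 
        (by linarith only [hσ.2, h3, mul_le_mul_of_nonneg_right hδ2 hs.le]) ξ
      have b2 : C * (e ^ 2 + (s / T₁) ^ (γ / 16)) * qf (c.G s x) ξ ≤
          C * (e ^ 2 + e ^ 2) * qf (c.G s x) ξ := by gcongr
      rw [le_div_iff₀ hs]
      linarith only [b1, b2]
    rw [intervalIntegral.integral_const, smul_eq_mul] at a4
    have a5 : (σ₂ - σ₁) * (4 * C * e ^ 2 * qf (c.G s x) ξ / s) ≤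
        s * (4 * C * e ^ 2 * qf (c.G s x) ξ / s) :=
      mul_le_mul_of_nonneg_right (by linarith) (by positivity)
    rw [mul_div_cancel₀ _ hs.ne'] at a5
    have a6 := ((H₂ X c x he4 hx s ⟨hδs, hs5⟩).2 ξ).1
    have a7 : (σ₂ - σ₁) / c.T * (ξ ⬝ᵥ ξ) ≤ s / c.T * (ξ ⬝ᵥ ξ) :=
      mul_le_mul_of_nonneg_right (div_le_div_of_nonneg_right (by linarith) hT.le)
        (Finset.sum_nonneg fun i _ => mul_self_nonneg _)
    have a8 := mul_le_mul_of_nonneg_left (a7.trans a6) hCt.le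
    linarith only [a1, a3, a4, a5, a8]
  refine ⟨by positivity, hT₁, he0, hx.T₁_le, hx.kT, hx.top, fun σ hσ ξ => ?_, hx.ent⟩
  by_cases hσ' : δ * s ≤ σ
  · exact hx.step σ ⟨hσ', hσ.2⟩ ξ
  replace hσ' := (not_le.1 hσ').le
  have hσ1 := hσ.1
  have hσ0 : 0 < σ := lt_of_lt_of_le (by positivity) hσ1
  have g0 := hG0 _ hx.s₀_pos ξ
  have g1 := hG0 _ hσ0 ξ
  have g2 : δ * qf (c.G s x) ξ ≤ 2 * qf (c.G (δ * s) x) ξ := by
    have b1 := (H₁ X c x he3 hx ξ).1 (δ * s) s le_rfl hδs hs5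
    have b2 : s / (δ * s) = 1 / δ := by field_simp
    have b3 : (1 / δ) ^ (2 * e) ≤ 1 / δ := by
      conv_rhs => rw [← Real.rpow_one (1 / δ)]
      exact Real.rpow_le_rpow_of_exponent_le (one_le_one_div hδ hδ3) (by linarith)
    rw [b2] at b1
    have b4 : (1 + 10 * e) * (1 / δ) ^ (2 * e) * qf (c.G (δ * s) x) ξ ≤
        2 * (1 / δ) * qf (c.G (δ * s) x) ξ := by
      gcongr; linarith
    have b5 := mul_le_mul_of_nonneg_left (b1.trans b4) hδ.le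
    have b6 : δ * (2 * (1 / δ) * qf (c.G (δ * s) x) ξ) = 2 * qf (c.G (δ * s) x) ξ := by field_simp
    linarith
  have g3 : (4 * C + Ct) * e ^ 2 * qf (c.G s x) ξ ≤ e / 2 * qf (c.G (δ * s) x) ξ := by
    rw [le_div_iff₀ (by positivity)] at he5
    have b1 := mul_le_mul_of_nonneg_right he5 (mul_pos he0 (by norm_num : (0 : ℝ) < 1 / 4)).le
    have b2 := mul_le_mul_of_nonneg_right b1 (hG0 s hs ξ)
    have b3 := mul_le_mul_of_nonneg_left g2 (mul_pos he0 (by norm_num : (0 : ℝ) < 1 / 4)).le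
    linarith only [b2, b3]
  have g4 := key σ (δ * s) (by linarith only [hσ1, hx.s₀_pos]) hσ' le_rfl ξ
  have g5 := key (σ / 2) σ (by linarith only [hσ1]) (by linarith only [hσ0]) hσ' ξ
  have g6 : qf (c.G (δ * s) x) ξ ≤ 2 * qf (c.G σ x) ξ := by
    have : e / 2 * qf (c.G (δ * s) x) ξ ≤ 1 / 2 * qf (c.G (δ * s) x) ξ := by
      gcongr; linarith
    linarith
  have g7 := mul_le_mul_of_nonneg_left g6 (half_pos he0).le
  linarith only [g3, g5, g7]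

/-- Induction on `j`: `Hyp z (T₀/4^j)` for `d(q,z) ≤ ρ + A √(T₀/4^j)`, `A = 2R₁/√δ`, `θ = δ min (1/2) (e^{2/a})`. -/
theorem boot (n : ℕ) (hn : 1 ≤ n) : ∃ A e₀ : ℝ, 0 < A ∧ 0 < e₀ ∧ ∀ e : ℝ, 0 < e → e ≤ e₀ → ∃ θ : ℝ,
    0 < θ ∧ θ ≤ 1 ∧ ∀ (X : Sp.{u} n) (c : Crd X) (q : X.M) {T₁ ρ : ℝ},
      (∀ z, dist q z ≤ ρ + A * Real.sqrt (θ * T₁) → c.Hyp z (θ * T₁) T₁ e) → 0 < T₁ →
      ∀ x, dist q x ≤ ρ → ∀ s₀, 0 < s₀ → c.Hyp x s₀ T₁ e := by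
  obtain ⟨R₁, δ, a, e₀, hR₁, hδ, hδ1, ha, he₀, H⟩ := boot_step.{u} n hn
  have hsδ : 0 < Real.sqrt δ := Real.sqrt_pos.2 hδ
  refine ⟨2 * R₁ / Real.sqrt δ, e₀, by positivity, he₀, fun e he he' => ?_⟩
  obtain ⟨m, hm, hm1, hm2⟩ : ∃ m : ℝ, 0 < m ∧ m ≤ 1 / 2 ∧ m ≤ e ^ (2 / a) :=
    ⟨min (1 / 2) (e ^ (2 / a)), by positivity, min_le_left _ _, min_le_right _ _⟩
  refine ⟨δ * m, by positivity, by linarith only [mul_le_mul_of_nonneg_right hδ1 hm.le, hm1],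
    fun X c q T₁ ρ h0 hT₁ x hx s₀ hs₀ => ?_⟩
  have key : ∀ j : ℕ, ∀ z, dist q z ≤ ρ + 2 * R₁ / Real.sqrt δ * Real.sqrt (δ * m * T₁ / 4 ^ j) →
      c.Hyp z (δ * m * T₁ / 4 ^ j) T₁ e := by
    intro j
    induction j with
    | zero => simpa using h0
    | succ j ih =>
      intro y hy
      have h4 : (1 : ℝ) ≤ 4 ^ j := one_le_pow₀ (by norm_num)
      have e1 : δ * (m * T₁ / 4 ^ j) = δ * m * T₁ / 4 ^ j := by ring
      have e2 : δ * m * T₁ / 4 ^ (j + 1) = δ * (m * T₁ / 4 ^ j) / 4 := by rw [pow_succ]; field_simp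
      have hs : m * T₁ / 4 ^ j ≤ m * T₁ := div_le_self (by positivity) h4
      have e3 : Real.sqrt (δ * (m * T₁ / 4 ^ j) / 4) =
          Real.sqrt δ * Real.sqrt (m * T₁ / 4 ^ j) / 2 := by
        rw [Real.sqrt_div' _ (by norm_num), Real.sqrt_mul hδ.le,
          show (4 : ℝ) = 2 ^ 2 by norm_num, Real.sqrt_sq (by norm_num)]
      rw [e2] at hy ⊢
      refine H X c y he' (fun z hz => ?_)
        (by linarith only [hs, mul_le_mul_of_nonneg_right hm1 hT₁.le]) ?_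
      · rw [e1]
        refine ih z ((dist_triangle q y z).trans ?_)
        rw [← e1, Real.sqrt_mul hδ.le]
        rw [e3] at hy
        have e4 : 2 * R₁ / Real.sqrt δ * (Real.sqrt δ * Real.sqrt (m * T₁ / 4 ^ j) / 2) =
            R₁ * Real.sqrt (m * T₁ / 4 ^ j) := by field_simp
        have e5 : 2 * R₁ / Real.sqrt δ * (Real.sqrt δ * Real.sqrt (m * T₁ / 4 ^ j)) =
            2 * (R₁ * Real.sqrt (m * T₁ / 4 ^ j)) := by field_simp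
        linarith
      · have b1 : m * T₁ / 4 ^ j / T₁ ≤ e ^ (2 / a) := by
          rw [div_le_iff₀ hT₁]
          exact hs.trans (mul_le_mul_of_nonneg_right hm2 hT₁.le)
        refine (Real.rpow_le_rpow (by positivity) b1 ha.le).trans (le_of_eq ?_)
        rw [← Real.rpow_mul he.le, div_mul_cancel₀ _ ha.ne', Real.rpow_two]
  obtain ⟨j, hj⟩ := pow_unbounded_of_one_lt (δ * m * T₁ / s₀) (show (1 : ℝ) < 4 by norm_num)
  refine (key j x (hx.trans (le_add_of_nonneg_right (by positivity)))).mono ?_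
  rw [div_lt_iff₀ hs₀] at hj
  rw [div_le_iff₀ (by positivity)]
  linarith

end Crest.Agent.R247
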