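import Crest.Agent.R247.T0

/-! # Row 247, T1: almost splitting functions from Gromov-Hausdorff closeness -/

set_option autoImplicit false
set_option linter.unusedSectionVars false
set_option linter.unusedVariables false
open MeasureTheory Filter Set Metric Matrix
open scoped ENNReal NNReal Topology ContDiff
open Crest.GeometryTopology.CoordMetric

noncomputable section
namespace Crest.Agent.R247
universe u

variable {n : ℕ}

theorem Bus.mono {X : Sp.{u} n} {q : X.M} {T A A' ε ε' : ℝ} {ι : X.M → E n} {ξ : E n} {b : X.M → ℝ}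
    (h : Bus X q T A ε ι ξ b) (hA : A' ≤ A) (hε : ε ≤ ε') : Bus X q T A' ε' ι ξ b := by
  have hr := Real.sqrt_nonneg T
  have h1 : A' * Real.sqrt T ≤ A * Real.sqrt T := mul_le_mul_of_nonneg_right hA hr
  have h2 : ε * Real.sqrt T ≤ ε' * Real.sqrt T := mul_le_mul_of_nonneg_right hε hr
  exact ⟨h.lip, h.cpt, h.abs_le, fun y hy => (h.near y (hy.trans h1)).trans h2,
    fun t ht y hy => le_trans (by linarith) (h.low t ht y hy)⟩

theorem t1a_euc {ξ v : E n} (hξ : ‖ξ‖ = 1) {ρ w δ : ℝ} (hv : ‖v‖ ≤ w) (hρ : w ≤ ρ) (hδ : 0 ≤ δ)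
    (h : w ^ 2 ≤ 2 * (ρ - w) * δ) :
    ρ - inner ℝ ξ v ≤ ‖ρ • ξ - v‖ ∧ ‖ρ • ξ - v‖ ≤ ρ - inner ℝ ξ v + δ := by
  have hs : |inner ℝ ξ v| ≤ ‖v‖ := by
    have := abs_real_inner_le_norm ξ v
    rwa [hξ, one_mul] at this
  have hs' := abs_le.1 hs
  have hv0 := norm_nonneg v
  constructor
  · have h1 := real_inner_le_norm ξ (ρ • ξ - v)
    rwa [inner_sub_right, real_inner_smul_right, real_inner_self_eq_norm_sq, hξ, one_pow, mul_one,
      one_mul] at h1
  · have h1 : ‖ρ • ξ - v‖ ^ 2 = ρ ^ 2 - 2 * (ρ * inner ℝ ξ v) + ‖v‖ ^ 2 := by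
      rw [norm_sub_sq_real, real_inner_smul_left, norm_smul, hξ, mul_one, Real.norm_eq_abs, sq_abs]
    refine abs_le_of_sq_le_sq' ?_ (by linarith) |>.2
    have h2 : ‖v‖ ^ 2 ≤ w ^ 2 := by gcongr
    have h3 : (ρ - w) * δ ≤ (ρ - inner ℝ ξ v) * δ := by gcongr; linarith
    nlinarith [sq_nonneg (inner ℝ ξ v), sq_nonneg δ]

theorem t1a_clamp {M : Type u} [MetricSpace M] [ProperSpace M] (p q : M) {s : ℝ} (hs : 0 < s) :
    ∃ b : M → ℝ, (∀ x y, |b x - b y| ≤ dist x y) ∧ HasCompactSupport b ∧ (∀ y, |b y| ≤ dist q y) ∧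
      (∀ y, dist q y ≤ s → b y = dist p q - dist p y) ∧
      ∀ y, dist p q - dist p y - dist q y ^ 2 / s ≤ b y := by
  have hβ : ∀ y, |dist p q - dist p y| ≤ dist q y := fun y => by
    rw [dist_comm p q, dist_comm p y]
    exact abs_dist_sub_le _ _ _
  have heq : ∀ y, dist q y ≤ s → max (-max (2 * s - dist q y) 0)
      (min (dist p q - dist p y) (max (2 * s - dist q y) 0)) = dist p q - dist p y := fun y hy => by
    have h1 := abs_le.1 (hβ y)
    have h2 : 2 * s - dist q y ≤ max (2 * s - dist q y) 0 := le_max_left _ _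
    rw [min_eq_left (by linarith), max_eq_right (by linarith)]
  refine ⟨fun y => max (-max (2 * s - dist q y) 0)
    (min (dist p q - dist p y) (max (2 * s - dist q y) 0)), fun x y => ?_, ?_, fun y => ?_, heq,
    fun y => ?_⟩
  · have h1 : |max (2 * s - dist q x) 0 - max (2 * s - dist q y) 0| ≤ dist x y := by
      refine (abs_max_sub_max_le_abs _ _ _).trans ?_
      rw [show 2 * s - dist q x - (2 * s - dist q y) = -(dist q x - dist q y) by ring, abs_neg,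
        dist_comm q x, dist_comm q y]
      exact abs_dist_sub_le _ _ _
    have h2 : |dist p q - dist p x - (dist p q - dist p y)| ≤ dist x y := by
      rw [show dist p q - dist p x - (dist p q - dist p y) = -(dist p x - dist p y) by ring, abs_neg,
        dist_comm p x, dist_comm p y]
      exact abs_dist_sub_le _ _ _
    refine (abs_max_sub_max_le_max _ _ _ _).trans (max_le ?_
      ((abs_min_sub_min_le_max _ _ _ _).trans (max_le h2 h1)))
    rwa [neg_sub_neg, abs_sub_comm]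
  · refine HasCompactSupport.intro (isCompact_closedBall q (2 * s)) fun y hy => ?_
    rw [mem_closedBall', not_le] at hy
    rw [max_eq_right (show 2 * s - dist q y ≤ 0 by linarith), neg_zero]
    exact max_eq_left (min_le_right _ _)
  · have h1 := abs_le.1 (hβ y)
    have h2 : 0 ≤ max (2 * s - dist q y) 0 := le_max_right _ _
    have h3 : 0 ≤ dist q y := dist_nonneg
    refine abs_le.2 ⟨le_max_of_le_right (le_min h1.1 (by linarith)),
      max_le (by linarith) (min_le_of_left_le h1.2)⟩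
  · have h4 : 0 ≤ dist q y ^ 2 / s := by positivity
    by_cases hy : dist q y ≤ s
    · simp only [heq y hy]
      linarith
    · have h1 := abs_le.1 (hβ y)
      have h2 : 0 ≤ max (2 * s - dist q y) 0 := le_max_right _ _
      have h3 : dist q y ≤ dist q y ^ 2 / s := by
        rw [le_div_iff₀ hs]
        nlinarith [not_le.1 hy]
      exact le_max_of_le_right (le_min (by linarith) (by linarith))

theorem t1a_P (X : Sp.{u} n) (p q y : X.M) {b : X.M → ℝ} {s t L : ℝ} (hs : 0 < s) (ht : 0 < t)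
    (hL : 0 < L) (hi : Integrable (fun z => X.h.H t y z * b z) X.h.m)
    (hb : ∀ z, dist p q - dist p z - dist q z ^ 2 / s ≤ b z) :
    dist p q - L / 2 - Real.exp (2 * X.h.k * t) * (dist p y ^ 2 + 2 * n * t) / (2 * L) -
      Real.exp (2 * X.h.k * t) * (dist q y ^ 2 + 2 * n * t) / s ≤ X.h.P t b y := by
  obtain ⟨i1, m1⟩ := X.h.moment2 ht p y
  obtain ⟨i2, m2⟩ := X.h.moment2 ht q y
  have i0 : Integrable (fun z => X.h.H t y z * (dist p q - L / 2)) X.h.m :=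
    (X.h.H_int ht y).1.mul_const _
  have i1' : Integrable (fun z => X.h.H t y z * ((2 * L)⁻¹ * dist p z ^ 2)) X.h.m :=
    (i1.const_mul (2 * L)⁻¹).congr (Eventually.of_forall fun z => by ring)
  have i2' : Integrable (fun z => X.h.H t y z * (s⁻¹ * dist q z ^ 2)) X.h.m :=
    (i2.const_mul s⁻¹).congr (Eventually.of_forall fun z => by ring)
  have i3 : Integrable (fun z => X.h.H t y z * (dist p q - L / 2 - (2 * L)⁻¹ * dist p z ^ 2)) X.h.m :=
    (i0.sub i1').congr (Eventually.of_forall fun z => by simp only [Pi.sub_apply]; ring)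
  have i4 : Integrable (fun z => X.h.H t y z *
      (dist p q - L / 2 - (2 * L)⁻¹ * dist p z ^ 2 - s⁻¹ * dist q z ^ 2)) X.h.m :=
    (i3.sub i2').congr (Eventually.of_forall fun z => by simp only [Pi.sub_apply]; ring)
  have h1 := X.h.P_mono ht i4 hi fun z => by
    refine le_trans ?_ (hb z)
    have : dist p z ≤ L / 2 + (2 * L)⁻¹ * dist p z ^ 2 := by
      rw [inv_mul_eq_div, ← sub_le_iff_le_add', le_div_iff₀ (by positivity)]
      nlinarith [sq_nonneg (dist p z - L)]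
    rw [div_eq_inv_mul _ s]
    linarith
  rw [X.h.P_sub i3 i2', X.h.P_sub i0 i1', X.h.P_const ht, X.h.P_cmul, X.h.P_cmul] at h1
  refine le_trans ?_ h1
  rw [div_eq_inv_mul _ (2 * L), div_eq_inv_mul _ s]
  gcongr

/-- Recipe (`r = √T`): take `p` with `dist (ι p) ((R/2) r • ξ) ≤ η r`, `β y = d(p,q) - d(p,y)`, `τ y = (2A'r - d(q,y))₊` with `A' ≥ A` large, `b = max (-τ) (min β τ)` (`= β` on `closedBall q (A' r)`).
Euclidean geometry: `0 ≤ ‖ρξ - v‖ - (ρ - ⟪ξ,v⟫) ≤ ‖v‖²/(2(ρ - ‖v‖))`.  `P t |b - β| y ≤ 2 P t (d(q,·)²) y/(A' r)` and `P t (d(p,·)) y ≤ √(P t d²) ≤ e^{kt}(d(p,y) + n t/d(p,y))` (`moment2`, `P_sq_le`).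
Choose `A'`, then `R`, then `η`. -/
theorem exists_bus (n : ℕ) (A ε : ℝ) (hε : 0 < ε) : ∃ R η : ℝ, 3 ≤ R ∧ 0 < η ∧
    ∀ (X : Sp.{u} n) (q : X.M) {T η' : ℝ} (ι : X.M → E n), 0 < T → η' ≤ η → X.h.k * T ≤ η →
      GHm q (Real.sqrt T) R η' ι → ∀ ξ : E n, ‖ξ‖ = 1 → ∃ b, Bus X q T A ε ι ξ b := by
  obtain ⟨a, ha, ha3, haε⟩ : ∃ a : ℝ, A ≤ a ∧ 3 ≤ a ∧ 12 * (9 + 4 * n) ≤ a * ε := by
    have h0 : 0 ≤ 12 * (9 + 4 * (n : ℝ)) / ε := by positivity
    have h1 := le_max_left A 3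
    have h2 := le_max_right A 3
    refine ⟨max A 3 + 12 * (9 + 4 * n) / ε, by linarith, by linarith, ?_⟩
    rw [add_mul, div_mul_cancel₀ _ hε.ne']
    nlinarith
  obtain ⟨ρ, hρ, hρ1, hρ2⟩ : ∃ ρ : ℝ, a + 5 ≤ ρ ∧ (a + 1) ^ 2 ≤ 2 * (ρ - (a + 1)) * (ε / 4) ∧
      24 * n ≤ (ρ - 4) * ε := by
    have h0 : 0 ≤ 2 * (a + 1) ^ 2 / ε := by positivity
    have h1 : 0 ≤ 24 * (n : ℝ) / ε := by positivity
    have h2 : 2 * (a + 1) ^ 2 / ε * ε = 2 * (a + 1) ^ 2 := div_mul_cancel₀ _ hε.ne'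
    have h3 : 24 * (n : ℝ) / ε * ε = 24 * n := div_mul_cancel₀ _ hε.ne'
    refine ⟨a + 5 + 2 * (a + 1) ^ 2 / ε + 24 * n / ε, by linarith, ?_, ?_⟩
    · nlinarith [mul_nonneg h1 hε.le]
    · nlinarith [mul_nonneg h0 hε.le]
  obtain ⟨η, hη, hη1, hη2⟩ : ∃ η : ℝ, 0 < η ∧ η ≤ 1 / 4 ∧ 16 * (ρ + 5) * η ≤ ε := by
    have h0 : 0 < 16 * (ρ + 5) := by linarith
    refine ⟨min (1 / 4) (ε / (16 * (ρ + 5))), lt_min (by norm_num) (by positivity), min_le_left _ _, ?_⟩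
    rw [← le_div_iff₀' h0]
    exact min_le_right _ _
  refine ⟨2 * ρ, η, by linarith, hη, fun X q T η' ι hT hη' hk hG ξ hξ => ?_⟩
  obtain ⟨hq, hd, hsur⟩ := hG
  have hr : 0 < Real.sqrt T := Real.sqrt_pos.2 hT
  have hrr : Real.sqrt T ^ 2 = T := Real.sq_sqrt hT.le
  set r := Real.sqrt T with hrdef
  have hηr : η' * r ≤ η * r := by gcongr
  have hηr' : η * r ≤ r / 4 := by nlinarith
  have hn : ‖(ρ * r) • ξ‖ = ρ * r := by
    rw [norm_smul, hξ, mul_one, Real.norm_of_nonneg (by nlinarith)]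
  obtain ⟨p, hp, hp'⟩ := hsur ((ρ * r) • ξ) (by rw [hn]; nlinarith)
  have hqq : dist q q < 2 * ρ * r := by rw [dist_self]; nlinarith
  have hpq : |dist p q - ρ * r| ≤ 2 * (η * r) := by
    have h1 := abs_le.1 (hd p q hp hqq)
    have h2 := abs_le.1 (abs_norm_sub_norm_le (ι p) ((ρ * r) • ξ))
    rw [hq, dist_zero_right] at h1
    rw [← dist_eq_norm, hn] at h2
    exact abs_le.2 ⟨by linarith, by linarith⟩
  have hβ : ∀ y, dist q y ≤ a * r →
      |dist p q - dist p y - inner ℝ ξ (ι y)| ≤ 4 * (η * r) + ε / 4 * r := fun y hy => by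
    have hy' : dist q y < 2 * ρ * r := by nlinarith
    have h1 := abs_le.1 (hd p y hp hy')
    have h2 := abs_le.1 (hd q y hqq hy')
    rw [hq, dist_zero_left] at h2
    have h3 := abs_le.1 (abs_dist_sub_le (ι p) ((ρ * r) • ξ) (ι y))
    rw [dist_eq_norm ((ρ * r) • ξ)] at h3
    obtain ⟨h4, h5⟩ := t1a_euc (v := ι y) (ρ := ρ * r) (w := (a + 1) * r) (δ := ε / 4 * r) hξ
      (by linarith) (by nlinarith) (by positivity) (by
        have := mul_le_mul_of_nonneg_right hρ1 (sq_nonneg r)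
        nlinarith)
    have h6 := abs_le.1 hpq
    have h7 : 0 ≤ ε / 4 * r := by positivity
    exact abs_le.2 ⟨by linarith, by linarith⟩
  have hs : 0 < a * r := by positivity
  obtain ⟨b, hb1, hb2, hb3, hb4, hb5⟩ := t1a_clamp p q hs
  have hε1 : 16 * (ρ + 5) * η * r ≤ ε * r := by gcongr
  have hηr0 : 0 ≤ η * r := by positivity
  have hρη : 0 ≤ ρ * (η * r) := mul_nonneg (by linarith) hηr0
  refine ⟨b, hb1, hb2, hb3, fun y hy => ?_, fun t ht y hy => ?_⟩
  · have hy' : dist q y ≤ a * r := hy.trans (by gcongr)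
    rw [hb4 y hy']
    refine (hβ y hy').trans ?_
    nlinarith
  · have hy' : dist q y ≤ a * r := hy.trans (by gcongr)
    have h1 := abs_le.1 (hβ y hy')
    have h2 := abs_le.1 hpq
    have h3 := abs_le.1 (abs_dist_sub_le q y p)
    rw [dist_comm q p, dist_comm y p] at h3
    have hL1 : (ρ - 4) * r ≤ dist p y := by linarith
    have hL2 : dist p y ≤ (ρ + 4) * r := by linarith
    have hρ4 : 0 < ρ - 4 := by linarith
    have hL : 0 < dist p y := lt_of_lt_of_le (by positivity) hL1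
    have h4 := t1a_P X p q y hs ht.1 hL (X.h.int_L2 ht.1 y (X.h.lip_P hb1 hb2 ht.1 y).1.1) hb5
    have hk0 := X.h.k_nonneg
    have hkt0 : 0 ≤ 2 * X.h.k * t := by have := ht.1; positivity
    have hkt : 2 * X.h.k * t ≤ 4 * η := by nlinarith [mul_le_mul_of_nonneg_left ht.2 hk0]
    have he : Real.exp (2 * X.h.k * t) ≤ 1 + 8 * η := by
      have := abs_le.1 (Real.abs_exp_sub_one_le (x := 2 * X.h.k * t)
        (by rw [abs_of_nonneg hkt0]; linarith))
      rw [abs_of_nonneg hkt0] at this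
      linarith
    have hn0 : (0 : ℝ) ≤ n := Nat.cast_nonneg n
    have ht2 : 2 * n * t ≤ 4 * n * r ^ 2 := by
      rw [hrr]
      nlinarith [mul_le_mul_of_nonneg_left ht.2 hn0]
    have ht0 : 0 ≤ 2 * n * t := by have := ht.1; positivity
    have h5 : Real.exp (2 * X.h.k * t) * (dist q y ^ 2 + 2 * n * t) / (a * r) ≤ ε / 4 * r := by
      rw [div_le_iff₀ hs]
      have e1 : dist q y ^ 2 ≤ (3 * r) ^ 2 := by gcongr
      have e2 : Real.exp (2 * X.h.k * t) * (dist q y ^ 2 + 2 * n * t) ≤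
          3 * ((3 * r) ^ 2 + 4 * n * r ^ 2) := by
        gcongr
        linarith
      have e3 := mul_le_mul_of_nonneg_right haε (sq_nonneg r)
      nlinarith
    have h6 : Real.exp (2 * X.h.k * t) * (dist p y ^ 2 + 2 * n * t) / (2 * dist p y) ≤
        dist p y / 2 + 4 * η * ((ρ + 4) * r) + ε / 4 * r := by
      rw [div_le_iff₀ (by positivity)]
      have e1 : Real.exp (2 * X.h.k * t) * dist p y ^ 2 ≤ (1 + 8 * η) * dist p y ^ 2 := by gcongr
      have e2 : Real.exp (2 * X.h.k * t) * (2 * n * t) ≤ 3 * (4 * n * r ^ 2) := by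
        gcongr
        linarith
      have e3 := mul_le_mul_of_nonneg_right hρ2 (sq_nonneg r)
      have e4 : η * dist p y * dist p y ≤ η * ((ρ + 4) * r) * dist p y := by gcongr
      have e5 : ε * r * ((ρ - 4) * r) ≤ ε * r * dist p y := by gcongr
      nlinarith
    linarith

/-- `b + b' ≤ 2ε' r` on `closedBall q (A r)` and `≤ 2 d(q,·)² /(A r)` outside; `moment2`. -/
theorem bus_up (n : ℕ) (ε : ℝ) (hε : 0 < ε) : ∃ A ε' : ℝ, 0 < ε' ∧ ∀ (X : Sp.{u} n) (q : X.M) {T : ℝ}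
    (ι : X.M → E n) (ξ : E n) {b b' : X.M → ℝ}, 0 < T → X.h.k * T ≤ 1 → Bus X q T A ε' ι ξ b →
      Bus X q T A ε' ι (-ξ) b' → ∀ t ∈ Ioc 0 (2 * T), ∀ y, dist q y ≤ 3 * Real.sqrt T →
        X.h.P t b y ≤ inner ℝ ξ (ι y) + ε * Real.sqrt T := by
  have hE : 0 < Real.exp 4 * (9 + 4 * n) := by positivity
  refine ⟨8 * (Real.exp 4 * (9 + 4 * n)) / ε, ε / 4, by positivity,
    fun X q T ι ξ b b' hT hk hb hb' t ht y hy => ?_⟩
  set A := 8 * (Real.exp 4 * (9 + 4 * n)) / ε with hA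
  have hA0 : 0 < A := by positivity
  have hr := Real.sqrt_pos.2 hT
  have hrr := Real.mul_self_sqrt hT.le
  set r := Real.sqrt T
  have i1 := X.h.int_L2 ht.1 y (X.h.lip_P hb.lip hb.cpt ht.1 y).1.1
  have i2 := X.h.int_L2 ht.1 y (X.h.lip_P hb'.lip hb'.cpt ht.1 y).1.1
  obtain ⟨i3, m2⟩ := X.h.moment2 ht.1 q y
  have i4 : Integrable (fun z => X.h.H t y z * (ε / 2 * r)) X.h.m := (X.h.H_int ht.1 y).1.mul_const _
  have i5 : Integrable (fun z => X.h.H t y z * (2 / (A * r) * dist q z ^ 2)) X.h.m :=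
    (i3.const_mul (2 / (A * r))).congr (Eventually.of_forall fun z => by simp only; ring)
  have key : X.h.P t (fun z => b z + b' z) y ≤
      X.h.P t (fun z => ε / 2 * r + 2 / (A * r) * dist q z ^ 2) y := by
    refine X.h.P_mono ht.1 ((i1.add i2).congr (Eventually.of_forall fun z => (mul_add _ _ _).symm))
      ((i4.add i5).congr (Eventually.of_forall fun z => (mul_add _ _ _).symm)) fun z => ?_
    have p1 : 0 ≤ 2 / (A * r) * dist q z ^ 2 := by positivity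
    have p2 : 0 ≤ ε / 2 * r := by positivity
    rcases le_total (dist q z) (A * r) with hz | hz
    · have a1 := (abs_le.1 (hb.near z hz)).2
      have a2 := (abs_le.1 (hb'.near z hz)).2
      rw [inner_neg_left] at a2
      linarith
    · have a1 := (abs_le.1 (hb.abs_le z)).2
      have a2 := (abs_le.1 (hb'.abs_le z)).2
      have a3 : 2 * dist q z ≤ 2 / (A * r) * dist q z ^ 2 := by
        rw [div_mul_eq_mul_div, le_div_iff₀ (by positivity)]
        nlinarith [dist_nonneg (x := q) (y := z)]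
      linarith
  rw [X.h.P_add i1 i2, X.h.P_add i4 i5, X.h.P_const ht.1, X.h.P_cmul] at key
  have low := hb'.low t ht y hy
  rw [inner_neg_left] at low
  have e1 : Real.exp (2 * X.h.k * t) ≤ Real.exp 4 :=
    Real.exp_le_exp.2 (by nlinarith [X.h.k_nonneg, ht.2])
  have e2 : dist q y ^ 2 + 2 * n * t ≤ (9 + 4 * n) * (r * r) := by
    have : dist q y ^ 2 ≤ (3 * r) ^ 2 := pow_le_pow_left₀ dist_nonneg hy 2
    have h2 : (n : ℝ) * t ≤ n * (2 * T) := mul_le_mul_of_nonneg_left ht.2 n.cast_nonneg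
    rw [← hrr] at h2
    nlinarith
  have e3 : X.h.P t (fun z => dist q z ^ 2) y ≤ Real.exp 4 * (9 + 4 * n) * (r * r) := by
    rw [mul_assoc]
    exact m2.trans (mul_le_mul e1 e2 (by have := ht.1; positivity) (by positivity))
  have e4 : 2 / (A * r) * (Real.exp 4 * (9 + 4 * n) * (r * r)) = ε / 4 * r := by
    rw [hA]; field_simp; ring
  have e5 := mul_le_mul_of_nonneg_left e3 (by positivity : 0 ≤ 2 / (A * r))
  linarith

set_option maxHeartbeats 1600000 in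
/-- Recipe: `y₂` with `ι y₂ ≈ r ξ`; `P (3T/2) b y₂ - P (3T/2) b q ≥ (1 - small) r`, so (`abs_sub_le_of_Γ`) `Γ(P (3T/2) b) x' ≥ 1 - small` for some `x' ∈ closedBall q (2r)`; `ge2`:
`P (T/2) (Γ (P T b)) x' ≥ e^{-kT}(1 - small)`; `w = e^{2kT} - Γ(P T b) ≥ 0` (`lip_P`), `harnack_P` from `(s,x)` to `(T/2,x')`. -/
theorem bus_grad (n : ℕ) (ε δ : ℝ) (hε : 0 < ε) (hδ : 0 < δ) : ∃ A ε' η : ℝ, 0 < ε' ∧ 0 < η ∧
    ∀ (X : Sp.{u} n) (q : X.M) {T R η' : ℝ} (ι : X.M → E n) (ξ : E n) {b b' : X.M → ℝ}, 0 < T →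
      3 ≤ R → η' ≤ η → X.h.k * T ≤ η → GHm q (Real.sqrt T) R η' ι → ‖ξ‖ = 1 →
      Bus X q T A ε' ι ξ b → Bus X q T A ε' ι (-ξ) b' → ∀ x, dist q x ≤ Real.sqrt T →
      ∀ s ∈ Icc (δ * T) (T / 4), 1 - ε ≤ X.h.P s (X.h.Γ (X.h.P T b) (X.h.P T b)) x ∧
        X.h.P s (X.h.Γ (X.h.P T b) (X.h.P T b)) x ≤ 1 + ε := by
  set K : ℝ := (1 / (2 * δ)) ^ (2 * n) * Real.exp 18 with hK
  have hK0 : 0 < K := by positivity
  set γ : ℝ := min (1 / 6) (ε / (20 * K + 4)) with hγ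
  have hγ0 : 0 < γ := lt_min (by norm_num) (by positivity)
  have hγ1 : γ ≤ 1 / 6 := min_le_left _ _
  have hγ2 : γ * (20 * K + 4) ≤ ε := (le_div_iff₀ (by positivity)).1 (min_le_right _ _)
  obtain ⟨A, ε₁, hε₁, hup⟩ := bus_up.{u} n γ hγ0
  refine ⟨A, min ε₁ γ, γ, lt_min hε₁ hγ0, hγ0,
    fun X q T R η' ι ξ b b' hT hR hη hk hι hξ hb hb' x hx s hs => ?_⟩
  have hr := Real.sqrt_pos.2 hT
  have hrr := Real.mul_self_sqrt hT.le
  set r := Real.sqrt T
  have k0 : 0 ≤ X.h.k * T := mul_nonneg X.h.k_nonneg hT.le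
  have hs0 : 0 < s := (mul_pos hδ hT).trans_le hs.1
  have hT2 : 0 < T / 2 := half_pos hT
  have ex : ∀ a : ℝ, 0 ≤ a → a ≤ 1 → Real.exp a ≤ 1 + 2 * a := fun a h0 h1 => by
    have := (abs_le.1 (Real.abs_exp_sub_one_le (x := a) (by rwa [abs_of_nonneg h0]))).2
    rw [abs_of_nonneg h0] at this
    linarith
  have e1 : Real.exp (2 * X.h.k * T) ≤ 1 + 4 * γ := by
    have := ex (2 * X.h.k * T) (by linarith) (by linarith)
    linarith
  have e1' : 1 ≤ Real.exp (2 * X.h.k * T) := Real.one_le_exp (by linarith)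
  have e2 : Real.exp (2 * X.h.k * (T / 2)) ≤ 1 + 2 * γ := by
    have := ex (2 * X.h.k * (T / 2)) (by linarith) (by linarith)
    linarith
  have bL2 := (X.h.lip_P hb.lip hb.cpt hT q).1.1
  have hH1 := (X.h.P_H1 hT bL2).1
  set G := X.h.Γ (X.h.P T b) (X.h.P T b) with hG
  have Gc : Continuous G := X.h.S_cont (X.h.S_Γ hH1.1 hH1.1)
  have G0 : ∀ y, 0 ≤ G y := X.h.Γ_nonneg _
  have G1 : ∀ y, G y ≤ Real.exp (2 * X.h.k * T) := fun y => (X.h.lip_P hb.lip hb.cpt hT y).2.1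
  have Gb : ∀ y, |G y| ≤ Real.exp (2 * X.h.k * T) := fun y => by rw [abs_of_nonneg (G0 y)]; exact G1 y
  have Gi : ∀ {t : ℝ}, 0 < t → ∀ y, Integrable (fun z => X.h.H t y z * G z) X.h.m := fun ht y =>
    X.h.int_bdd ht y Gc.aestronglyMeasurable Gb
  have GP : ∀ {t : ℝ}, 0 < t → ∀ y, X.h.P t G y ≤ Real.exp (2 * X.h.k * T) := fun ht y =>
    (le_abs_self _).trans (X.h.abs_P_le ht y Gb)
  have Pw : ∀ {t : ℝ}, 0 < t → ∀ y, X.h.P t (fun z => Real.exp (2 * X.h.k * T) - G z) y =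
      Real.exp (2 * X.h.k * T) - X.h.P t G y := fun ht y => by
    rw [X.h.P_sub ((X.h.H_int ht y).1.mul_const _) (Gi ht y), X.h.P_const ht]
  refine ⟨?_, by nlinarith [GP hs0 x]⟩
  -- a point where the gradient is almost one
  have hT3 : T / 2 + T ∈ Ioc 0 (2 * T) := ⟨by linarith, by linarith⟩
  obtain ⟨y₂, hy₂, hy₂'⟩ := hι.2.2 (r • ξ) (by
    rw [norm_smul, hξ, Real.norm_of_nonneg hr.le]; nlinarith)
  have hηr : η' * r ≤ γ * r := mul_le_mul_of_nonneg_right hη hr.le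
  have n1 : ‖ι y₂ - r • ξ‖ ≤ γ * r := by rw [← dist_eq_norm]; exact hy₂'.trans hηr
  have d1 : dist q y₂ ≤ (1 + 2 * γ) * r := by
    have a1 := (abs_le.1 (hι.2.1 q y₂ (by rw [dist_self]; positivity) hy₂)).1
    rw [hι.1, dist_zero_left] at a1
    have a2 := norm_le_norm_sub_add (ι y₂) (r • ξ)
    rw [norm_smul, hξ, Real.norm_of_nonneg hr.le] at a2
    linarith
  have d2 : r - γ * r ≤ inner ℝ ξ (ι y₂) := by
    have a1 := (abs_le.1 (abs_real_inner_le_norm ξ (ι y₂ - r • ξ))).1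
    rw [inner_sub_right, real_inner_smul_right, real_inner_self_eq_norm_sq, hξ] at a1
    linarith
  have l1 := hb.low _ hT3 y₂ (by nlinarith)
  have l2 := hup X q ι ξ hT (by linarith) (hb.mono le_rfl (min_le_left _ _))
    (hb'.mono le_rfl (min_le_left _ _)) _ hT3 q (by rw [dist_self]; positivity)
  rw [hι.1, inner_zero_right] at l2
  have l3 : min ε₁ γ * r ≤ γ * r := mul_le_mul_of_nonneg_right (min_le_right _ _) hr.le
  obtain ⟨x', hx', hΓ⟩ : ∃ x', dist q x' ≤ dist q y₂ ∧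
      (1 - 6 * γ) ^ 2 < X.h.Γ (X.h.P (T / 2 + T) b) (X.h.P (T / 2 + T) b) x' := by
    by_contra hcon
    push Not at hcon
    have a1 := (abs_le.1 (X.h.abs_sub_le_of_Γ (X.h.P_S hT3.1 bL2) (by linarith) hcon)).2
    have a2 := mul_le_mul_of_nonneg_left d1 (by linarith : 0 ≤ 1 - 6 * γ)
    nlinarith [mul_pos hγ0 hr, mul_pos hγ0 (mul_pos hγ0 hr)]
  have ePP : X.h.P (T / 2) (X.h.P T b) = X.h.P (T / 2 + T) b := funext fun z =>
    (X.h.P_P hT2 hT bL2.1 (X.h.int_L2 hT3.1 z bL2)).2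
  have g2 := X.h.ge2 hH1 hT2 x' (Gi hT2 x')
  rw [ePP, ← hG] at g2
  have g3 : 1 - 16 * γ ≤ X.h.P (T / 2) G x' := by
    have a0 := X.h.P_nonneg hT2 x' G0
    have a1 := mul_le_mul_of_nonneg_right e2 a0
    have a2 := GP hT2 x'
    nlinarith
  have har := (X.h.harnack_P hs0 (t := T / 2) (by linarith [hs.2]) (by linarith) x x'
    (f := fun z => Real.exp (2 * X.h.k * T) - G z) (continuous_const.sub Gc).aestronglyMeasurable
    (fun z => sub_nonneg.2 (G1 z)) ((((X.h.H_int hT2 x').1.mul_const _).sub (Gi hT2 x')).congr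
      (Eventually.of_forall fun z => (mul_sub _ _ _).symm))).2
  rw [Pw hs0, Pw hT2] at har
  have c1 : (T / 2 / s) ^ (2 * n) * Real.exp (dist x x' ^ 2 / (2 * (T / 2 - s))) ≤ K := by
    refine mul_le_mul (pow_le_pow_left₀ (by positivity) ?_ _) (Real.exp_le_exp.2 ?_)
      (by positivity) (by positivity)
    · rw [div_le_div_iff₀ hs0 (by positivity)]
      linarith [hs.1]
    · have a1 : dist x x' ≤ 3 * r := by
        have := dist_triangle_left x x' q
        nlinarith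
      have a2 : dist x x' ^ 2 ≤ (3 * r) ^ 2 := pow_le_pow_left₀ dist_nonneg a1 2
      rw [div_le_iff₀ (by linarith [hs.2])]
      nlinarith [hs.2]
  have c2 := mul_le_mul c1 (by linarith : Real.exp (2 * X.h.k * T) - X.h.P (T / 2) G x' ≤ 20 * γ)
    (sub_nonneg.2 (GP hT2 x')) hK0.le
  nlinarith

/-- `rev_poincare`, `P_P`: the left side is `≤ e^{2kT} P (s+T) f² x/(2T)`; `P_tail`. -/
theorem bus_cmp (n : ℕ) (ε : ℝ) (hε : 0 < ε) : ∃ A ε' : ℝ, 0 < ε' ∧ ∀ (X : Sp.{u} n) (q : X.M) {T : ℝ}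
    {f : X.M → ℝ}, 0 < T → X.h.k * T ≤ 1 / 2 → X.h.Bd f → (∀ y, |f y| ≤ 3 * dist q y) →
      (∀ y, dist q y ≤ A * Real.sqrt T → |f y| ≤ ε' * Real.sqrt T) → ∀ x, dist q x ≤ Real.sqrt T →
      ∀ s ∈ Ioc 0 T, X.h.P s (X.h.Γ (X.h.P T f) (X.h.P T f)) x ≤ ε := by
  obtain ⟨C, hC, hgr⟩ := P_gr.{u} n 1
  refine ⟨486 * C / ε, min 1 (ε / 3), lt_min one_pos (by positivity),
    fun X q T f hT hk hf h3 hnear x hx s hs => ?_⟩
  set A := 486 * C / ε with hA
  have hA0 : 0 < A := by positivity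
  have hr := Real.sqrt_pos.2 hT
  have hrr := Real.mul_self_sqrt hT.le
  have hsT : 0 < s + T := add_pos hs.1 hT
  have k0 := X.h.k_nonneg
  have e3 : Real.exp 1 ≤ 3 := by linarith [Real.exp_one_lt_d9]
  obtain ⟨i1, m1⟩ := hgr X (s := s + T) (t := T) (B := 1) hsT (by linarith [hs.2])
    (by nlinarith [hs.2]) q x (f := fun y => Real.exp (dist q y / Real.sqrt T))
    (by fun_prop : Continuous _).aestronglyMeasurable
    (fun y => by simp only [one_mul, abs_of_pos (Real.exp_pos _), le_refl])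
  set r := Real.sqrt T
  have m2 : X.h.P (s + T) (fun y => Real.exp (dist q y / r)) x ≤ 3 * C := by
    refine (le_abs_self _).trans (m1.trans ?_)
    have : Real.exp (|(1 : ℝ)| * dist q x / r) ≤ 3 :=
      (Real.exp_le_exp.2 (by rw [abs_one, one_mul, div_le_one hr]; exact hx)).trans e3
    nlinarith
  obtain ⟨B, hB⟩ := hf.2
  have fm : AEStronglyMeasurable (fun y => f y ^ 2) X.h.m := hf.1.1.pow 2
  have fi : ∀ {t : ℝ}, 0 < t → ∀ y, Integrable (fun z => X.h.H t y z * f z ^ 2) X.h.m := fun ht y =>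
    X.h.int_bdd ht y fm (B := B ^ 2) fun z => by
      rw [abs_pow]; exact pow_le_pow_left₀ (abs_nonneg _) (hB z) 2
  have i4 : Integrable (fun z => X.h.H (s + T) x z * (ε / 3 * T)) X.h.m :=
    (X.h.H_int hsT x).1.mul_const _
  have i5 : Integrable (fun z => X.h.H (s + T) x z * (54 * T / A * Real.exp (dist q z / r))) X.h.m :=
    (i1.const_mul (54 * T / A)).congr (Eventually.of_forall fun z => by simp only; ring)
  have key : X.h.P (s + T) (fun y => f y ^ 2) x ≤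
      X.h.P (s + T) (fun z => ε / 3 * T + 54 * T / A * Real.exp (dist q z / r)) x := by
    refine X.h.P_mono hsT (fi hsT x)
      ((i4.add i5).congr (Eventually.of_forall fun z => (mul_add _ _ _).symm)) fun z => ?_
    have p1 : 0 ≤ 54 * T / A * Real.exp (dist q z / r) := by positivity
    have p2 : 0 ≤ ε / 3 * T := by positivity
    rw [← sq_abs]
    rcases le_total (dist q z) (A * r) with hz | hz
    · have a1 := pow_le_pow_left₀ (abs_nonneg _) (hnear z hz) 2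
      have a2 : min 1 (ε / 3) ^ 2 ≤ ε / 3 := by
        have := mul_le_mul (min_le_left 1 (ε / 3)) (min_le_right 1 (ε / 3))
          (le_min zero_le_one (by positivity)) zero_le_one
        linarith
      rw [mul_pow, sq r, hrr] at a1
      linarith [mul_le_mul_of_nonneg_right a2 hT.le]
    · have a1 := pow_le_pow_left₀ (abs_nonneg _) (h3 z) 2
      have a2 := Real.pow_div_factorial_le_exp (dist q z / r) (by positivity) 3
      have a3 : A ≤ dist q z / r := (le_div_iff₀ hr).2 hz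
      have a4 : dist q z = dist q z / r * r := by field_simp
      generalize dist q z / r = v at a2 a3 a4 p1 ⊢
      have a5 : 9 * T * v ^ 2 ≤ 54 * T / A * Real.exp v := by
        rw [div_mul_eq_mul_div, le_div_iff₀ hA0]
        have a6 : v ^ 2 * A ≤ v ^ 3 := by nlinarith [sq_nonneg v]
        norm_num [Nat.factorial] at a2
        nlinarith
      rw [a4] at a1
      nlinarith
  rw [X.h.P_add i4 i5, X.h.P_const hsT, X.h.P_cmul] at key
  have k2 : 54 * T / A * (3 * C) = ε / 3 * T := by rw [hA]; field_simp; ring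
  have k3 := mul_le_mul_of_nonneg_left m2 (by positivity : 0 ≤ 54 * T / A)
  obtain ⟨i6, ePP⟩ := X.h.P_P hs.1 hT fm (fi hsT x)
  obtain ⟨hH1, B', hB'⟩ := X.h.P_nice_bd hf hT
  have i7 := X.h.int_bdd hs.1 x (X.h.S_cont (X.h.S_Γ hH1.1 hH1.1)).aestronglyMeasurable (B := B')
    fun y => by rw [abs_of_nonneg (X.h.Γ_nonneg _ y)]; exact (hB' y).2
  have k4 := X.h.P_mono hs.1 i7 (f' := fun y => 3 / (2 * T) * X.h.P T (fun y => f y ^ 2) y)
    ((i6.const_mul (3 / (2 * T))).congr (Eventually.of_forall fun z => by simp only; ring))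
    fun y => by
      have a1 := X.h.rev_poincare hf hT y
      have a2 : Real.exp (2 * X.h.k * T) ≤ 3 := (Real.exp_le_exp.2 (by linarith)).trans e3
      have a3 := mul_le_mul_of_nonneg_right a2 (X.h.P_nonneg hT y fun z => sq_nonneg (f z))
      rw [div_mul_eq_mul_div, le_div_iff₀ (by positivity)]
      linarith
  rw [X.h.P_cmul, ePP] at k4
  refine k4.trans ?_
  rw [div_mul_eq_mul_div, div_le_iff₀ (by positivity)]
  linarith

theorem t1c_bd (X : Sp.{u} n) {f : X.M → ℝ} (hf : Continuous f) (hc : HasCompactSupport f) : X.h.Bd f :=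
  have := X.h.fin_cpt
  ⟨hf.memLp_of_hasCompactSupport hc, hf.bounded_above_of_compact_support hc⟩

theorem Bus.t1c_cont {X : Sp.{u} n} {q : X.M} {T A ε : ℝ} {ι : X.M → E n} {ξ : E n} {b : X.M → ℝ}
    (h : Bus X q T A ε ι ξ b) : Continuous b :=
  (LipschitzWith.mk_one h.lip).continuous

theorem t1c_cmp (X : Sp.{u} n) {U w d : X.M → ℝ} (hU : X.h.Nice U) (hw : X.h.Nice w) (hd : X.h.Nice d) {a τ s : ℝ}
    (hs : 0 < s) (h : ∀ y, X.h.grad U y = X.h.grad w y + a • X.h.grad d y) (x : X.M) :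
    τ * X.h.P s (X.h.Γ U U) x ≤ τ * (1 + τ) * X.h.P s (X.h.Γ w w) x + (1 + τ) * a ^ 2 * X.h.P s (X.h.Γ d d) x := by
  have hi : ∀ {f} (c : ℝ), X.h.Nice f → Integrable (fun y => X.h.H s x y * (c * X.h.Γ f f y)) X.h.m := fun c hf =>
    X.h.int_L2 hs x ((hf.Γ_bd hf).1.const_mul c)
  rw [← X.h.P_cmul, ← X.h.P_cmul, ← X.h.P_cmul, ← X.h.P_add (hi _ hw) (hi _ hd)]
  refine X.h.P_mono hs (hi _ hU) (((hi _ hw).add (hi _ hd)).congr (.of_forall fun y => (mul_add _ _ _).symm)) fun y => ?_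
  have h1 : 0 ≤ (τ • X.h.grad w y - a • X.h.grad d y) ⬝ᵥ (τ • X.h.grad w y - a • X.h.grad d y) :=
    Finset.sum_nonneg fun i _ => mul_self_nonneg _
  simp only [Raw.Γ, h, add_dotProduct, dotProduct_add, sub_dotProduct, dotProduct_sub, smul_dotProduct, dotProduct_smul,
    smul_eq_mul] at h1 ⊢
  linarith

/-- Recipe: `b i` from `exists_bus` for `ξ = e i`.  Diagonal entries of `G`: `bus_grad`.  For `i ≠ j`, `ξ = (e i + e j)/√2`, `f = (b i + b j)/√2 - b ξ`, `bus_cmp`, triangle inequality for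
`f ↦ √(P s Γ(f,f) x)`: `(G i i + G j j)/2 + G i j ≈ 1`.  Entries within `η/n` (or `η/(n+1)`) give the quadratic form bound. -/
theorem top_of_gh (n : ℕ) (η δ : ℝ) (hη : 0 < η) (hδ : 0 < δ) : ∃ R η' : ℝ, 3 ≤ R ∧ 0 < η' ∧
    ∀ (X : Sp.{u} n) (q : X.M) {T : ℝ}, 0 < T → X.h.k * T ≤ η' → GHc n q (Real.sqrt T) R η' →
      ∃ c : Crd X, c.T = T ∧ c.Top q η δ := by
  obtain ⟨τ, hτ, hτ1, hτη⟩ : ∃ τ : ℝ, 0 < τ ∧ τ ≤ 1 ∧ 4 * τ ≤ η :=
    ⟨min 1 (η / 4), by positivity, min_le_left _ _, by linarith [min_le_right 1 (η / 4)]⟩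
  obtain ⟨A₁, ε₁, η₁, hε₁, hη₁, h1⟩ := bus_grad.{u} n τ δ hτ hδ
  obtain ⟨A₂, ε₂, hε₂, h2⟩ := bus_cmp.{u} n (τ ^ 2 / ((1 + τ) * (n + 1) ^ 2)) (by positivity)
  obtain ⟨R, η₃, hR, hη₃, h3⟩ := exists_bus.{u} n (max A₁ A₂) (min ε₁ ε₂) (by positivity)
  refine ⟨R, min (min η₁ η₃) (1 / 10 ^ 12), hR, by positivity, fun X q T hT hk ⟨ι, hι⟩ => ?_⟩
  have e1 : min (min η₁ η₃) (1 / 10 ^ 12) ≤ η₁ := (min_le_left _ _).trans (min_le_left _ _)
  have e3 : min (min η₁ η₃) (1 / 10 ^ 12) ≤ η₃ := (min_le_left _ _).trans (min_le_right _ _)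
  have hk' := hk.trans (min_le_right _ _)
  choose b hb using h3 X q ι hT e3 (hk.trans e3) hι
  have he : ∀ i : Fin n, ‖(EuclideanSpace.single i 1 : E n)‖ = 1 := fun i => by simp
  let c : Crd X := ⟨T, fun i => b _ (he i), hT, hk', fun i => (hb _ _).lip, fun i => (hb _ _).cpt⟩
  refine ⟨c, rfl, fun x hx s hs => ?_⟩
  have hs0 : 0 < s := (mul_pos hδ hT).trans_le hs.1
  have key : ∀ ξ : E n, ‖ξ‖ = 1 → |qf (c.G s x) ξ.ofLp - 1| ≤ η := fun ξ hξ => by
    have hξ' : ‖-ξ‖ = 1 := by rwa [norm_neg]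
    have h4 := h1 X q ι ξ hT hR e1 (hk.trans e1) hι hξ ((hb ξ hξ).mono (le_max_left _ _) (min_le_left _ _))
      ((hb _ hξ').mono (le_max_left _ _) (min_le_left _ _)) x hx s hs
    have hn : (0 : ℝ) < n + 1 := by positivity
    have hB : X.h.Bd (b ξ hξ) := t1c_bd X (hb ξ hξ).t1c_cont (hb ξ hξ).cpt
    have hG := (c.b_bd ξ.ofLp).1
    obtain ⟨f, hf⟩ : ∃ f : X.M → ℝ, f = fun y => ((n : ℝ) + 1)⁻¹ * (∑ i, ξ i * c.b i y - b ξ hξ y) := ⟨_, rfl⟩
    have h5 : ∀ y (g : E n → ℝ) (B : ℝ), g ξ = ∑ i, ξ i * g (EuclideanSpace.single i 1) →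
        (∀ ζ hζ, |b ζ hζ y - g ζ| ≤ B) → |f y| ≤ B := fun y g B hg hB => by
      rw [hf, abs_mul, abs_of_pos (inv_pos.2 hn), inv_mul_le_iff₀ hn, show ∑ i, ξ i * c.b i y - b ξ hξ y =
        ∑ i, ξ i * (c.b i y - g (EuclideanSpace.single i 1)) - (b ξ hξ y - g ξ) by
          simp only [mul_sub, Finset.sum_sub_distrib, ← hg]; ring, add_mul, one_mul]
      refine (abs_sub _ _).trans (add_le_add ((Finset.abs_sum_le_sum_abs _ _).trans
        ((Finset.sum_le_card_nsmul _ _ B fun i _ => ?_).trans_eq (by simp))) (hB ξ hξ))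
      rw [abs_mul]
      exact (mul_le_of_le_one_left (abs_nonneg _) ((PiLp.norm_apply_le ξ i).trans hξ.le)).trans (hB _ (he i))
    have hfB : X.h.Bd f := by
      obtain ⟨B, hB'⟩ := hB.2
      obtain ⟨B', hG'⟩ := hG.2
      refine ⟨hf ▸ (hG.1.sub hB.1).const_mul _, ((n : ℝ) + 1)⁻¹ * (B' + B), fun y => ?_⟩
      rw [hf, abs_mul, abs_of_pos (inv_pos.2 hn)]
      exact mul_le_mul_of_nonneg_left ((abs_sub _ _).trans (add_le_add (hG' y) (hB' y))) (inv_pos.2 hn).le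
    have h6 := h2 X q hT (hk'.trans (by norm_num)) hfB (fun y => (h5 y 0 _ (by simp) fun ζ hζ => by
        simpa using (hb ζ hζ).abs_le y).trans (by linarith [dist_nonneg (x := q) (y := y)]))
      (fun y hy => h5 y (fun ζ => inner ℝ ζ (ι y)) _ (by simp [PiLp.inner_apply, mul_comm]) fun ζ hζ =>
        ((hb ζ hζ).mono (le_max_right _ _) (min_le_right _ _)).near y hy) x hx s ⟨hs0, hs.2.trans (by show T / 4 ≤ T; linarith)⟩
    have n1 := (c.u_nice ξ.ofLp).1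
    have n2 := X.h.P_nice_bd hB hT
    have n3 := X.h.P_nice_bd hfB hT
    have h7 : ∀ y, X.h.grad (c.u ξ.ofLp) y = X.h.grad (X.h.P T (b ξ hξ)) y + ((n : ℝ) + 1) • X.h.grad (X.h.P T f) y := fun y => by
      rw [show X.h.P T f = fun z => ((n : ℝ) + 1)⁻¹ * (c.u ξ.ofLp z - X.h.P T (b ξ hξ) z) from funext fun z => by
        rw [hf, X.h.P_cmul, X.h.P_sub (X.h.int_L2 hT z hG.1) (X.h.int_L2 hT z hB.1)]; rfl,
        X.h.grad_cmul _ (X.h.S_sub n1.1.1 n2.1.1), X.h.grad_sub n1.1.1 n2.1.1, smul_inv_smul₀ hn.ne', add_sub_cancel]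
    have h8 := t1c_cmp X n1 n2 n3 (τ := τ) hs0 h7 x
    have h9 := t1c_cmp X n2 n1 n3 (a := -(n + 1)) (τ := τ) hs0 (fun y => by rw [h7, neg_smul, add_neg_cancel_right]) x
    rw [le_div_iff₀' (by positivity)] at h6
    rw [neg_sq] at h9
    rw [c.qf_G hs0, abs_le]
    have h10 := mul_le_mul_of_nonneg_left h4.2 (show 0 ≤ τ * (1 + τ) by positivity)
    have h11 := mul_le_mul_of_nonneg_left h4.1 hτ.le
    refine ⟨?_, ?_⟩
    · have h12 : 1 - 2 * τ ≤ (1 + τ) * X.h.P s (X.h.Γ (c.u ξ.ofLp) (c.u ξ.ofLp)) x :=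
        le_of_mul_le_mul_left (by linarith) hτ
      nlinarith
    · have h12 : X.h.P s (X.h.Γ (c.u ξ.ofLp) (c.u ξ.ofLp)) x ≤ (1 + τ) * (1 + τ) + τ :=
        le_of_mul_le_mul_left (by linarith) hτ
      nlinarith
  intro v
  by_cases hv : (WithLp.toLp 2 v : E n) = 0
  · simp [show v = 0 from congrArg WithLp.ofLp hv, qf]
  have h4 := key _ (norm_smul_inv_norm (𝕜 := ℝ) hv)
  have h5 : v ⬝ᵥ v = ‖(WithLp.toLp 2 v : E n)‖ ^ 2 := by
    rw [EuclideanSpace.real_norm_sq_eq]; simp [dotProduct, sq]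
  have h6 : 0 < v ⬝ᵥ v := h5 ▸ pow_pos (norm_pos_iff.2 hv) 2
  rw [WithLp.ofLp_smul, MC.qf_vsmul, RCLike.ofReal_real_eq_id, id, inv_pow, ← h5] at h4
  rwa [inv_mul_eq_div, div_sub_one h6.ne', abs_div, abs_of_pos h6, div_le_iff₀ h6] at h4

end Crest.Agent.R247
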