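import Crest.Agent.R247.T0
import Crest.Agent.R247.E4

/-! # Row 247, T2: small entropy from the top scales -/

set_option autoImplicit false
set_option linter.unusedSectionVars false
set_option linter.unusedVariables false
open MeasureTheory Filter Set Metric Matrix
open scoped ENNReal NNReal Topology ContDiff
open Crest.GeometryTopology.CoordMetric

noncomputable section
namespace Crest.Agent.R247
universe u

variable {n : ℕ}

lemma HS.t2_var {M : Type u} [MetricSpace M] [MeasurableSpace M] [BorelSpace M] [ProperSpace M] (h : HS n M)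
    {f : M → ℝ} (hf : h.S f) {B s : ℝ} (hB : ∀ y, |f y| ≤ B) (hs : 0 < s) (x : M)
    (hi : Integrable (fun y => h.H s x y * h.Γ f f y) h.m) :
    Integrable (fun y => h.H s x y * |f y - h.P s f x|) h.m ∧
      h.P s (fun y => |f y - h.P s f x|) x ^ 2 ≤ 2 * s * Real.exp (2 * h.k * s) * h.P s (h.Γ f f) x := by
  have hc := h.S_cont hf
  set a := h.P s f x with ha
  have hS : h.S fun y => f y - a := h.S_sub hf (h.S_const a)
  have e : h.Γ (fun y => f y - a) (fun y => f y - a) = h.Γ f f := funext fun y => by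
    simp only [Raw.Γ, h.grad_sub hf (h.S_const a), h.grad_const, sub_zero]
  have i2 : Integrable (fun y => h.H s x y * (f y - a) ^ 2) h.m :=
    h.int_bdd hs x ((hc.sub continuous_const).pow 2).aestronglyMeasurable (B := (B + |a|) ^ 2) fun y => by
      rw [abs_pow]
      exact pow_le_pow_left₀ (abs_nonneg _) ((abs_sub _ _).trans (add_le_add (hB y) le_rfl)) 2
  have h1 := h.poincare hS hs x i2 (e ▸ hi)
  have h0 : h.P s (fun y => f y - a) x = 0 := by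
    rw [h.P_sub (h.int_bdd hs x hc.aestronglyMeasurable hB)
      (h.int_bdd hs x aestronglyMeasurable_const (B := |a|) fun y => le_rfl), h.P_const hs, sub_self]
  obtain ⟨h2, h3⟩ := h.P_sq_le hs (x := x) (f := fun y => |f y - a|) (hc.sub continuous_const).abs.aestronglyMeasurable
    (by simpa only [sq_abs] using i2)
  simp only [sq_abs] at h3
  rw [h0, e] at h1
  exact ⟨h2, by linarith⟩

lemma t2_exp {a : ℝ} (ha : a ≤ 1 / 2) : Real.exp a ≤ 2 :=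
  (Real.le_log_iff_exp_le two_pos).1 (by linarith [Real.log_two_gt_d9])

lemma t2_single (i : Fin n) : (Pi.single i 1 : V n) ⬝ᵥ (Pi.single i 1 : V n) = 1 := by simp

/-- `Q_le` with a non-negative bound for the difference. -/
theorem t2_Q_le (n : ℕ) : ∃ C : ℝ, 0 < C ∧ ∀ (X : Sp.{u} n) (c : Crd X) {σ : ℝ}, 0 < σ →
    2000 * σ ≤ c.T → ∀ x ξ (D : ℝ), 0 ≤ D → qf (c.G (2000 * σ) x) ξ - qf (c.G (1000 * σ) x) ξ ≤ D →
      σ * qf (c.Q σ x) ξ ≤ C * D + C * (σ / c.T) * (ξ ⬝ᵥ ξ) := by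
  obtain ⟨C, hC, h⟩ := Q_le.{u} n
  refine ⟨C + C ^ 2, by positivity, fun X c σ hσ hT x ξ D hD hD' => (h X c hσ hT x ξ).trans ?_⟩
  have h₁ : 0 ≤ σ / c.T * (ξ ⬝ᵥ ξ) :=
    mul_nonneg (div_nonneg hσ.le c.T_pos.le) (by simpa [qf] using MC.psd_qf PosSemidef.one ξ)
  nlinarith [mul_le_mul_of_nonneg_left hD' hC.le, mul_nonneg (sq_nonneg C) hD, mul_nonneg hC.le h₁]

/-- Recipe: `|Γ(u i, u j)| ≤ e^{2kT} ≤ 2` (`ui_Γ`), `U_bounds` (`u_single`), `det_le_of_diag`; `s Q s ≤ C(η' + s/T)` (`Q_le`, `Top` at `1000 s`, `2000 s`);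
`P s |A - P s A| ≤ √Var ≤ C √(s Q s)` (`poincare`, `sqrt_Γ_Γ_le`), entries of `G s x - 1` by polarisation. -/
theorem spl_of_top (n : ℕ) (η : ℝ) (hη : 0 < η) (hη1 : η ≤ 1) : ∃ η₁ : ℝ, 0 < η₁ ∧
    ∀ (X : Sp.{u} n) (c : Crd X) (q x : X.M) {η' δ b : ℝ}, η' ≤ η₁ → c.Top q η' δ →
      X.h.k * c.T ≤ η₁ → 0 < b → δ * c.T ≤ η * b → b ≤ η₁ * c.T → dist q x ≤ Real.sqrt c.T →
      X.h.Spl c.ui x b 2 η := by
  obtain ⟨C₁, hC₁, hU⟩ := U_bounds.{u} n
  obtain ⟨C₂, hC₂, hQ⟩ := t2_Q_le.{u} n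
  have hl : 0 < Real.log (1 + η) := Real.log_pos (by linarith)
  obtain ⟨η₁, h0, h1, h2, h3, h4, h5⟩ : ∃ η₁ : ℝ, 0 < η₁ ∧ η₁ ≤ 1 / 8000 ∧ η₁ ≤ η ^ 2 / C₁ ∧
      η₁ ≤ Real.log (1 + η) / (2 * n + 1) ∧ η₁ ≤ η ^ 2 / (400 * C₂) ∧ η₁ ≤ η / 2 :=
    ⟨min (min (1 / 8000) (η ^ 2 / C₁)) (min (Real.log (1 + η) / (2 * n + 1)) (min (η ^ 2 / (400 * C₂)) (η / 2))),
      by positivity, (min_le_left _ _).trans (min_le_left _ _), (min_le_left _ _).trans (min_le_right _ _),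
      (min_le_right _ _).trans (min_le_left _ _), (min_le_right _ _).trans ((min_le_right _ _).trans (min_le_left _ _)),
      (min_le_right _ _).trans ((min_le_right _ _).trans (min_le_right _ _))⟩
  rw [le_div_iff₀ (by positivity)] at h2 h3 h4
  refine ⟨η₁, h0, fun X c q x η' δ b hη' hT hk hb hδ hbT hx => ?_⟩
  have hT0 := c.T_pos
  have hk0 := X.h.k_nonneg
  have hbT' : 8000 * b ≤ c.T := by nlinarith
  have hΓ : ∀ i y, X.h.Γ (c.ui i) (c.ui i) y ≤ 2 := fun i y =>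
    (c.ui_Γ i y).trans (t2_exp (by nlinarith))
  have hbd : ∀ i j y, |X.h.Γ (c.ui i) (c.ui j) y| ≤ 2 := fun i j y => by
    refine (X.h.abs_Γ_le _ _ y).trans ?_
    rw [← Real.mul_self_sqrt (show (0 : ℝ) ≤ 2 by norm_num)]
    exact mul_le_mul (Real.sqrt_le_sqrt (hΓ i y)) (Real.sqrt_le_sqrt (hΓ j y)) (Real.sqrt_nonneg _) (Real.sqrt_nonneg _)
  have htop : ∀ s, η * b ≤ s → s ≤ 2000 * b → ∀ v, |qf (c.G s x) v - v ⬝ᵥ v| ≤ η₁ * (v ⬝ᵥ v) := fun s hs hs' v =>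
    (hT x hx s ⟨hδ.trans hs, by linarith⟩ v).trans
      (mul_le_mul_of_nonneg_right hη' (by simpa [dotProduct] using Finset.sum_nonneg fun i _ => mul_self_nonneg (v i)))
  have hQ' : ∀ s ∈ Icc (η * b) b, ∀ i, Integrable (fun y => X.h.H s x y * X.h.Γ2 (c.ui i) (c.ui i) y) X.h.m ∧
      s * X.h.P s (X.h.Γ2 (c.ui i) (c.ui i)) x ≤ 3 * (η₁ * C₂) := fun s hs i => by
    have hs0 : 0 < s := (mul_pos hη hb).trans_le hs.1
    have hs2 : s ∈ Ioc 0 (2 * c.T) := ⟨hs0, by linarith [hs.2]⟩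
    have a1 := (c.HΓ2_int hs2 x (Pi.single i 1) (Pi.single i 1) 0).1
    have a3 := abs_le.1 (htop (2000 * s) (by linarith [hs.1]) (by linarith [hs.2]) (Pi.single i 1))
    have a4 := abs_le.1 (htop (1000 * s) (by linarith [hs.1]) (by linarith [hs.2]) (Pi.single i 1))
    have a5 : s / c.T ≤ η₁ := (div_le_iff₀ hT0).2 (hs.2.trans hbT)
    simp only [t2_single, mul_one] at a3 a4
    have a2 := hQ X c hs0 (by linarith [hs.2]) x (Pi.single i 1) (2 * η₁) (by positivity)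
      (by linarith [a3.2, a4.1])
    rw [c.qf_Q hs2, c.u_single, t2_single, mul_one] at a2
    rw [c.u_single] at a1
    refine ⟨a1, a2.trans ?_⟩
    linarith [mul_le_mul_of_nonneg_left a5 hC₂.le]
  refine ⟨c.ok hb (by linarith), hη, hη1, one_le_two, c.ui_S, hbd, fun i y => ?_, fun s hs i j => ?_, fun y => ?_,
    fun i => ?_⟩
  · have a1 := (hU X c c.T ⟨by linarith, by linarith⟩ (Pi.single i 1) y).2.1
    have a2 : c.U c.T (Pi.single i 1) = c.ui i := c.u_single i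
    rw [a2, t2_single, mul_one] at a1
    refine abs_le_of_sq_le_sq' ?_ hη.le |>.2
    rw [mul_pow, Real.sq_sqrt hb.le, sq_abs]
    nlinarith [sq_nonneg (X.h.Δ (c.ui i) y)]
  · have hs0 : 0 < s := (mul_pos hη hb).trans_le hs.1
    have hS := X.h.S_Γ (c.ui_S i) (c.ui_S j)
    obtain ⟨i1, q1⟩ := hQ' s hs i
    obtain ⟨i2, q2⟩ := hQ' s hs j
    have hle : ∀ y, X.h.Γ (X.h.Γ (c.ui i) (c.ui j)) (X.h.Γ (c.ui i) (c.ui j)) y ≤
        4 * X.h.Γ2 (c.ui i) (c.ui i) y + 4 * X.h.Γ2 (c.ui j) (c.ui j) y := fun y => by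
      have b1 := pow_le_pow_left₀ (Real.sqrt_nonneg _) (X.h.sqrt_Γ_Γ_le (c.ui_S i) (c.ui_S j) y) 2
      have b2 := X.h.Γ2_nonneg (c.ui_S i) y
      have b3 := X.h.Γ2_nonneg (c.ui_S j) y
      rw [Real.sq_sqrt (X.h.Γ_nonneg _ y)] at b1
      refine b1.trans ((add_sq_le (a := _) (b := _)).trans ?_)
      rw [mul_pow, mul_pow, Real.sq_sqrt b2, Real.sq_sqrt b3, Real.sq_sqrt (X.h.Γ_nonneg _ y),
        Real.sq_sqrt (X.h.Γ_nonneg _ y)]
      nlinarith [hΓ i y, hΓ j y]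
    have i3 : ∀ k, Integrable (fun y => X.h.H s x y * X.h.Γ2 (c.ui k) (c.ui k) y) X.h.m →
        Integrable (fun y => X.h.H s x y * (4 * X.h.Γ2 (c.ui k) (c.ui k) y)) X.h.m := fun k hk =>
      (hk.const_mul 4).congr (ae_of_all _ fun y => by ring)
    have i4 : Integrable (fun y => X.h.H s x y * (4 * X.h.Γ2 (c.ui i) (c.ui i) y + 4 * X.h.Γ2 (c.ui j) (c.ui j) y))
        X.h.m := ((i3 i i1).add (i3 j i2)).congr (ae_of_all _ fun y => by simp only [Pi.add_apply]; ring)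
    have i5 : Integrable (fun y => X.h.H s x y * X.h.Γ (X.h.Γ (c.ui i) (c.ui j)) (X.h.Γ (c.ui i) (c.ui j)) y) X.h.m :=
      i4.mono' ((X.h.H_cont hs0 x).mul (X.h.S_cont (X.h.S_Γ hS hS))).aestronglyMeasurable (ae_of_all _ fun y => by
        rw [Real.norm_of_nonneg (mul_nonneg (X.h.H_nonneg hs0 x y) (X.h.Γ_nonneg _ y))]
        exact mul_le_mul_of_nonneg_left (hle y) (X.h.H_nonneg hs0 x y))
    obtain ⟨v1, v2⟩ := X.h.t2_var hS (hbd i j) hs0 x i5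
    have v3 := X.h.P_mono hs0 i5 i4 hle
    rw [X.h.P_add (i3 i i1) (i3 j i2), X.h.P_cmul, X.h.P_cmul] at v3
    have v4 : Real.exp (2 * X.h.k * s) ≤ 2 := t2_exp (by nlinarith [hs.2])
    have v5 := X.h.P_nonneg hs0 x (X.h.Γ_nonneg (X.h.Γ (c.ui i) (c.ui j)))
    have v6 : X.h.P s (fun y => |X.h.Γ (c.ui i) (c.ui j) y - X.h.P s (X.h.Γ (c.ui i) (c.ui j)) x|) x ≤ η / 2 := by
      refine abs_le_of_sq_le_sq' (v2.trans ?_) (by positivity) |>.2
      have := mul_le_mul_of_nonneg_left v3 hs0.le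
      nlinarith [mul_nonneg hs0.le v5]
    have v7 : |X.h.P s (X.h.Γ (c.ui i) (c.ui j)) x - (1 : Mat n) i j| ≤ η / 2 := by
      have w := MC.sandwich (H := c.G s x - 1) (by rw [transpose_sub, MC.psd_symm (c.G_psd hs0 x), transpose_one])
        PosSemidef.one h0.le (fun v => by
          rw [MC.qf_msub, MC.qf_one']; exact htop s hs.1 (by linarith [hs.2]) v) (Pi.single i 1) (Pi.single j 1)
      simp only [MC.sn, MC.qf_one', t2_single, Real.sqrt_one, mul_one] at w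
      refine le_trans (le_of_eq ?_) (w.trans h5)
      simp [bf, Crd.G]
    have i6 : Integrable (fun y => X.h.H s x y * (η / 2)) X.h.m := (X.h.H_int hs0 x).1.mul_const _
    refine (X.h.P_mono hs0 (X.h.int_bdd hs0 x ((X.h.S_cont hS).sub continuous_const).abs.aestronglyMeasurable
      (B := 2 + |(1 : Mat n) i j|) fun y => ?_) ((v1.add i6).congr (ae_of_all _ fun y => (mul_add _ _ _).symm))
        fun y => ?_).trans ?_
    · rw [abs_abs]
      exact (abs_sub _ _).trans (add_le_add (hbd i j y) le_rfl)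
    · exact (abs_sub_le _ _ _).trans (add_le_add le_rfl v7)
    · rw [X.h.P_add v1 i6, X.h.P_const hs0]
      linarith
  · refine (det_le_of_diag (X.h.Gm_psd _ y) (Real.exp_pos _).le fun i => c.ui_Γ i y).trans ?_
    rw [← Real.exp_nat_mul, ← Real.le_log_iff_exp_le (by linarith)]
    nlinarith [Nat.cast_nonneg (α := ℝ) n]
  · obtain ⟨i1, q1⟩ := hQ' b ⟨by nlinarith, le_rfl⟩ i
    exact ⟨i1, by nlinarith⟩

/-- `ent_le`, `ren_lower`, `spl_of_top` with `b = 2 T₁`. -/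
theorem ent_small (n : ℕ) (hn : 2 ≤ n) (e : ℝ) (he : 0 < e) : ∃ η₁ : ℝ, 0 < η₁ ∧
    ∀ (X : Sp.{u} n) (c : Crd X) (q x : X.M) {η' δ T₁ : ℝ}, η' ≤ η₁ → c.Top q η' δ →
      X.h.k * c.T ≤ η₁ → 0 < T₁ → δ * c.T ≤ η₁ * T₁ → T₁ ≤ η₁ * c.T → dist q x ≤ Real.sqrt c.T →
      X.h.Ent x T₁ ≤ ENNReal.ofReal (e ^ 2) := by
  obtain ⟨C, hC, hE⟩ := ent_le.{u} n hn
  obtain ⟨η₀, h₀, hR⟩ := ren_lower.{u} n (by omega) 2 (e ^ 2 / (2 * C)) (by positivity)
  obtain ⟨η₁, h₁, hS⟩ := spl_of_top.{u} n (min η₀ 1) (by positivity) (min_le_right _ _)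
  obtain ⟨η, h0, h1, h2, h3⟩ : ∃ η : ℝ, 0 < η ∧ η ≤ min η₀ 1 ∧ η ≤ η₁ / 2 ∧ η ≤ e ^ 2 / (2 * C) / 2 :=
    ⟨min (min η₀ 1) (min (η₁ / 2) (e ^ 2 / (2 * C) / 2)), by positivity, min_le_left _ _,
      (min_le_right _ _).trans (min_le_left _ _), (min_le_right _ _).trans (min_le_right _ _)⟩
  refine ⟨η, h0, fun X c q x η' δ T₁ hη' hT hk hT₁ hδ hT' hx => ?_⟩
  have hT0 := c.T_pos
  have hk0 := X.h.k_nonneg
  have h4 := h1.trans (min_le_right _ _)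
  have hs := hS X c q x (b := 2 * T₁) (by linarith) hT (by linarith) (by positivity) (by nlinarith) (by nlinarith) hx
  refine (hE X hs.ok (by positivity) le_rfl x (hR X _ x (min_le_left _ _) hs)).trans (ENNReal.ofReal_le_ofReal ?_)
  have h5 : X.h.k * (2 * T₁) ≤ e ^ 2 / (2 * C) := by nlinarith [mul_le_mul_of_nonneg_left hT' hk0]
  calc C * (e ^ 2 / (2 * C) + X.h.k * (2 * T₁)) ≤ C * (e ^ 2 / (2 * C) + e ^ 2 / (2 * C)) := by gcongr
    _ = e ^ 2 := by field_simp; ring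

theorem hyp_top {X : Sp.{u} n} (c : Crd X) {q x : X.M} {η δ T₀ T₁ e : ℝ} (hT : c.Top q η δ)
    (hx : dist q x ≤ Real.sqrt c.T) (he : 0 < e) (he1 : e ≤ 1) (hη : η ≤ e / 2) (h₀ : 0 < T₀)
    (h₁ : T₀ ≤ T₁) (hδ : δ * c.T ≤ T₀ / 2) (h₂ : 10 ^ 6 * T₁ ≤ e ^ 2 * c.T) (hk : X.h.k * c.T ≤ e ^ 2)
    (hE : X.h.Ent x T₁ ≤ ENNReal.ofReal (e ^ 2)) : c.Hyp x T₀ T₁ e := by
  have hT0 := c.T_pos
  have h3 : e ^ 2 * c.T ≤ c.T := mul_le_of_le_one_left hT0.le (pow_le_one₀ he.le he1)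
  have hv : ∀ v : V n, 0 ≤ v ⬝ᵥ v := fun v => by
    simpa [dotProduct] using Finset.sum_nonneg fun i _ => mul_self_nonneg (v i)
  refine ⟨h₀, h₀.trans_le h₁, he, h₂, hk, fun σ hσ v => ?_, fun σ hσ v => ?_, hE⟩
  · exact (hT x hx σ ⟨by linarith [hσ.1], by linarith [hσ.2]⟩ v).trans
      (mul_le_mul_of_nonneg_right (by linarith) (hv v))
  · have a1 := (abs_le.1 (hT x hx σ ⟨by linarith [hσ.1], by linarith [hσ.2]⟩ v)).2
    have a2 := (abs_le.1 (hT x hx (σ / 2) ⟨by linarith [hσ.1], by linarith [hσ.2]⟩ v)).1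
    have a3 := mul_le_mul_of_nonneg_right hη (hv v)
    have a4 := mul_le_mul_of_nonneg_left (show qf (c.G σ x) v ≤ (1 + e / 2) * (v ⬝ᵥ v) by linarith) (sub_nonneg.2 he1)
    nlinarith [mul_nonneg (sq_nonneg e) (hv v)]

end Crest.Agent.R247
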