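import Crest.Agent.R247.S8
import Crest.Agent.R247.S6
import Crest.Agent.R247.T1
import Crest.Agent.R247.T2
import Crest.Agent.R247.C

/-! # Row 247: the local theorem -/

set_option autoImplicit false
set_option linter.unusedSectionVars false
set_option linter.unusedVariables false
open MeasureTheory Filter Set Metric Matrix
open scoped ENNReal NNReal Topology ContDiff
open Crest.GeometryTopology.CoordMetric

noncomputable section
namespace Crest.Agent.R247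
universe u

variable {n : ℕ}

theorem main_local (n : ℕ) (hn : 2 ≤ n) : ∃ L η R δ : ℝ, 1 ≤ L ∧ 0 < η ∧ 1 ≤ R ∧ 0 < δ ∧
    ∀ (X : Sp.{u} n) (q : X.M) {T : ℝ}, 0 < T → X.h.k * T ≤ η → GHc n q (Real.sqrt T) R η →
      ∃ F : X.M → E n, BiLip L F (ball q (δ * Real.sqrt T)) := by
  have hn1 : 1 ≤ n := by omega
  obtain ⟨γ, δg, eg, hγ, hγ', hδg, hδg1, heg, hgap⟩ := gap.{u} n
  obtain ⟨Ca, hCa, hcd⟩ := cdata.{u} n hn1 γ hγ hγ'
  obtain ⟨R, L, hR, hL, hC⟩ := thmC.{u} n Ca hCa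
  obtain ⟨C, hC1, hcd⟩ := hcd R hR
  obtain ⟨ε, hε, hC⟩ := hC C hC1
  obtain ⟨θ, ec, hθ, hθ1, hec, hcd⟩ := hcd ε hε
  obtain ⟨A, eb, hA, heb, hboot⟩ := boot.{u} n hn1
  obtain ⟨e, he, he1, heg', hec', heb'⟩ : ∃ e : ℝ, 0 < e ∧ e ≤ 1 ∧ e ≤ eg ∧ e ≤ ec ∧ e ≤ eb :=
    ⟨min (min 1 eg) (min ec eb), by positivity, (min_le_left _ _).trans (min_le_left _ _),
      (min_le_left _ _).trans (min_le_right _ _), (min_le_right _ _).trans (min_le_left _ _),
      (min_le_right _ _).trans (min_le_right _ _)⟩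
  obtain ⟨θ₀, hθ₀, hθ₀1, hboot⟩ := hboot e he heb'
  obtain ⟨η₁, hη₁, hent⟩ := ent_small.{u} n hn e he
  obtain ⟨l, hl, hl₁, hl₂, hl₃⟩ : ∃ l : ℝ, 0 < l ∧ l ≤ η₁ ∧ l ≤ e ^ 2 / 10 ^ 6 ∧ l ≤ 1 / (1 + A) ^ 2 :=
    ⟨min η₁ (min (e ^ 2 / 10 ^ 6) (1 / (1 + A) ^ 2)), by positivity, min_le_left _ _,
      (min_le_right _ _).trans (min_le_left _ _), (min_le_right _ _).trans (min_le_right _ _)⟩
  obtain ⟨R', η', hR', hη', htop⟩ := top_of_gh.{u} n (min η₁ (e / 2)) (min (η₁ * l) (θ₀ * l / 2))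
    (by positivity) (by positivity)
  refine ⟨L, min η' (min η₁ (e ^ 2)), R', Real.sqrt (θ * l) / 2, hL, by positivity, by linarith,
    by positivity, fun X q T hT hk hGH => ?_⟩
  have hsT := Real.sqrt_pos.2 hT
  obtain ⟨c, hcT, hc⟩ := htop X q hT (hk.trans (min_le_left _ _)) (by
    obtain ⟨ι, h₁, h₂, h₃⟩ := hGH
    have h₄ : min η' (min η₁ (e ^ 2)) * Real.sqrt T ≤ η' * Real.sqrt T :=
      mul_le_mul_of_nonneg_right (min_le_left _ _) hsT.le
    refine ⟨ι, h₁, fun x x' hx hx' => (h₂ x x' hx hx').trans h₄, fun y hy => ?_⟩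
    obtain ⟨x, hx, hx'⟩ := h₃ y hy
    exact ⟨x, hx, hx'.trans h₄⟩)
  subst hcT
  have hk₁ : X.h.k * c.T ≤ η₁ := hk.trans ((min_le_right _ _).trans (min_le_left _ _))
  have hk₂ : X.h.k * c.T ≤ e ^ 2 := hk.trans ((min_le_right _ _).trans (min_le_right _ _))
  have hT₁ : 0 < l * c.T := by positivity
  have hsl : Real.sqrt (l * c.T) ≤ Real.sqrt c.T / (1 + A) := by
    rw [Real.sqrt_le_iff]
    refine ⟨by positivity, ?_⟩
    rw [div_pow, Real.sq_sqrt hT.le]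
    calc l * c.T ≤ 1 / (1 + A) ^ 2 * c.T := mul_le_mul_of_nonneg_right hl₃ hT.le
      _ = c.T / (1 + A) ^ 2 := by ring
  have hall : ∀ x, dist q x ≤ Real.sqrt (l * c.T) → ∀ s₀, 0 < s₀ → c.Hyp x s₀ (l * c.T) e := by
    refine hboot X c q (fun z hz => ?_) hT₁
    have h₁ : Real.sqrt (θ₀ * (l * c.T)) ≤ Real.sqrt (l * c.T) :=
      Real.sqrt_le_sqrt (by nlinarith)
    have hz' : dist q z ≤ Real.sqrt c.T := by
      have h₂ : A * Real.sqrt (θ₀ * (l * c.T)) ≤ A * Real.sqrt (l * c.T) :=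
        mul_le_mul_of_nonneg_left h₁ hA.le
      have h₃ : (1 + A) * Real.sqrt (l * c.T) ≤ Real.sqrt c.T := by
        rw [le_div_iff₀ (by positivity)] at hsl
        linarith
      linarith
    refine hyp_top c hc hz' he he1 (min_le_right _ _) (by positivity) (by nlinarith) ?_ ?_ hk₂ ?_
    · calc min (η₁ * l) (θ₀ * l / 2) * c.T ≤ θ₀ * l / 2 * c.T :=
          mul_le_mul_of_nonneg_right (min_le_right _ _) hT.le
        _ = θ₀ * (l * c.T) / 2 := by ring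
    · have := mul_le_mul_of_nonneg_right hl₂ hT.le
      linarith
    · refine hent X c q z (min_le_left _ _) hc hk₁ hT₁ ?_ (mul_le_mul_of_nonneg_right hl₁ hT.le) hz'
      calc min (η₁ * l) (θ₀ * l / 2) * c.T ≤ η₁ * l * c.T :=
          mul_le_mul_of_nonneg_right (min_le_left _ _) hT.le
        _ = η₁ * (l * c.T) := by ring
  have hr : Real.sqrt (θ * l) / 2 * Real.sqrt c.T = Real.sqrt (θ * (l * c.T)) / 2 := by
    rw [← mul_assoc, Real.sqrt_mul (by positivity : 0 ≤ θ * l)]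
    ring
  rw [hr]
  have hr₀ : 0 < Real.sqrt (θ * (l * c.T)) := by positivity
  obtain ⟨D⟩ := hcd X c q hec' hr₀ (Real.sq_sqrt (by positivity)) fun x hx s₀ hs₀ => by
    have h₁ : Real.sqrt (θ * (l * c.T)) ≤ Real.sqrt (l * c.T) := Real.sqrt_le_sqrt (by nlinarith)
    have h₂ := hgap X c x heg' (hall x (by rw [mem_ball'] at hx; linarith) (s₀ * δg) (by positivity))
    rwa [mul_div_cancel_right₀ _ hδg.ne'] at h₂
  exact hC _ D

end Crest.Agent.R247
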