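import Crest.Agent.R247.T0
import Crest.Agent.R247.K1

/-! # Row 247, S1: first consequences of the inductive hypothesis -/

set_option autoImplicit false
set_option linter.unusedSectionVars false
set_option linter.unusedVariables false
open MeasureTheory Filter Set Metric Matrix
open scoped ENNReal NNReal Topology ContDiff
open Crest.GeometryTopology.CoordMetric

noncomputable section
namespace Crest.Agent.R247
universe u

variable {n : ℕ}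

theorem Crd.Hyp.mono {X : Sp.{u} n} {c : Crd X} {x : X.M} {s₀ s₁ T₁ e : ℝ} (h : c.Hyp x s₀ T₁ e)
    (hs : s₀ ≤ s₁) : c.Hyp x s₁ T₁ e := by
  exact ⟨h.s₀_pos.trans_le hs, h.T₁_pos, h.e_pos, h.T₁_le, h.kT, h.top,
    fun σ hσ => h.step σ ⟨hs.trans hσ.1, hσ.2⟩, h.ent⟩

theorem Crd.HG.mono {X : Sp.{u} n} {c : Crd X} {x : X.M} {s₀ s₁ T₁ e γ : ℝ} (h : c.HG x s₀ T₁ e γ)
    (hs : s₀ ≤ s₁) : c.HG x s₁ T₁ e γ := by
  exact ⟨h.toHyp.mono hs, fun s hσ => h.gap s ⟨hs.trans hσ.1, hσ.2⟩⟩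

theorem Crd.Hyp.ent_ne {X : Sp.{u} n} {c : Crd X} {x : X.M} {s₀ T₁ e : ℝ} (h : c.Hyp x s₀ T₁ e) :
    X.h.Ent x T₁ ≠ ⊤ := by
  exact ne_top_of_le_ne_top ENNReal.ofReal_ne_top h.ent

/-- Elementary consequences of the size of the parameters. -/
theorem Crd.Hyp.times {X : Sp.{u} n} {c : Crd X} {x : X.M} {s₀ T₁ e : ℝ} (h : c.Hyp x s₀ T₁ e)
    (he : e ≤ 1) {s : ℝ} (hs : 0 < s) (hT : s ≤ 10 ^ 5 * T₁) :
    s ≤ c.T / 10 ∧ X.h.ok s ∧ X.h.k * s ≤ e ^ 2 * (s / T₁) ∧ X.h.k * s ≤ e ^ 2 := by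
  have hT0 := c.T_pos
  have hT₁ := h.T₁_pos
  have hk := X.h.k_nonneg
  have he2 : e ^ 2 ≤ 1 := pow_le_one₀ h.e_pos.le he
  have h1 : e ^ 2 * c.T ≤ c.T := mul_le_of_le_one_left hT0.le he2
  have h2 := h.T₁_le
  have h3 : s ≤ c.T / 10 := by linarith
  refine ⟨h3, c.ok hs (by linarith), ?_, (mul_le_mul_of_nonneg_left (by linarith) hk).trans h.kT⟩
  have h4 : X.h.k * T₁ ≤ e ^ 2 := (mul_le_mul_of_nonneg_left (by linarith) hk).trans h.kT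
  calc X.h.k * s = X.h.k * T₁ * (s / T₁) := by field_simp
    _ ≤ _ := by gcongr

/-- `√(s/T₁) ≤ (s/T₁)^{1/4} ≤ κ ≤ 2`. -/
theorem Crd.Hyp.κ_bounds {X : Sp.{u} n} {c : Crd X} {x : X.M} {s₀ T₁ e γ : ℝ} (h : c.Hyp x s₀ T₁ e)
    (he : e ≤ 1) (hγ : 0 < γ) (hγ' : γ ≤ 1 / 2) {s : ℝ} (hs : 0 < s) (hT : s ≤ T₁) :
    Real.sqrt (s / T₁) ≤ (s / T₁) ^ (1 / 4 : ℝ) ∧ (s / T₁) ^ (1 / 4 : ℝ) ≤ X.h.κ x T₁ γ s ∧
      X.h.k * s ≤ X.h.κ x T₁ γ s ∧ 0 < X.h.κ x T₁ γ s ∧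
      X.h.κ x T₁ γ s ≤ e ^ 2 + (s / T₁) ^ (γ / 16) ∧ X.h.κ x T₁ γ s ≤ 2 := by
  have hT₁ := h.T₁_pos
  have h0 : 0 < s / T₁ := by positivity
  have h1 : s / T₁ ≤ 1 := (div_le_one hT₁).2 hT
  have he2 : e ^ 2 ≤ 1 := pow_le_one₀ h.e_pos.le he
  obtain ⟨k1, k2⟩ := kap_basic X x (a := γ / 16) hs hT₁ (by positivity) (sq_nonneg e) h.ent
  have r1 : (s / T₁) ^ (1 / 4 : ℝ) ≤ (s / T₁) ^ (γ / 16) :=
    Real.rpow_le_rpow_of_exponent_ge h0 h1 (by linarith)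
  have r2 : s / T₁ ≤ (s / T₁) ^ (γ / 16) := by
    conv_lhs => rw [← Real.rpow_one (s / T₁)]
    exact Real.rpow_le_rpow_of_exponent_ge h0 h1 (by linarith)
  have r3 : (s / T₁) ^ (γ / 16) ≤ 1 := Real.rpow_le_one h0.le h1 (by positivity)
  have r4 := (h.times he hs (by linarith)).2.2.1
  have r5 : e ^ 2 * (s / T₁) ≤ s / T₁ := mul_le_of_le_one_left h0.le he2
  unfold HS.κ
  refine ⟨?_, r1.trans k1, by linarith, by linarith, k2, by linarith⟩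
  rw [Real.sqrt_eq_rpow]
  exact Real.rpow_le_rpow_of_exponent_ge h0 h1 (by norm_num)

theorem s1a_halve {g : ℝ → ℝ} {s₀ T₁ e σ σ' : ℝ} (he : 0 < e) (he' : e ≤ 1 / 2) (hs₀ : 0 < s₀)
    (hg : 0 ≤ g σ') (step : ∀ σ ∈ Icc s₀ T₁, (1 - e) * g σ ≤ g (σ / 2)) (h0 : s₀ ≤ σ) (h1 : σ ≤ σ')
    (h2 : σ' ≤ T₁) : ∃ a, 0 < a ∧ a ≤ σ ∧ (1 - e) * (σ / σ') ^ (2 * e) * g σ' ≤ g a := by
  have hσ : 0 < σ := hs₀.trans_le h0
  have hσ' : 0 < σ' := hσ.trans_le h1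
  obtain ⟨j, j1, j2⟩ := exists_nat_pow_near ((one_le_div hσ).2 h1) (one_lt_two (α := ℝ))
  rw [le_div_iff₀ hσ] at j1
  rw [div_lt_iff₀ hσ] at j2
  have ind : ∀ i, i ≤ j + 1 → (1 - e) ^ i * g σ' ≤ g (σ' / 2 ^ i) := by
    intro i
    induction i with
    | zero => simp
    | succ i ih =>
      intro hi
      have p1 : (2 : ℝ) ^ i ≤ 2 ^ j := pow_le_pow_right₀ one_le_two (by omega)
      have p2 : σ ≤ σ' / 2 ^ i := by
        rw [le_div_iff₀ (by positivity)]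
        nlinarith
      have p3 : σ' / 2 ^ i ≤ σ' := div_le_self hσ'.le (one_le_pow₀ one_le_two)
      have p4 := step _ ⟨h0.trans p2, p3.trans h2⟩
      rw [div_div, ← pow_succ] at p4
      refine le_trans ?_ p4
      rw [pow_succ', mul_assoc]
      exact mul_le_mul_of_nonneg_left (ih (by omega)) (by linarith)
  refine ⟨σ' / 2 ^ (j + 1), by positivity, ?_, le_trans ?_ (ind _ le_rfl)⟩
  · rw [div_le_iff₀ (by positivity)]
    linarith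
  · have q1 : (1 / 2 : ℝ) ^ (2 * e) ≤ 1 - e := by
      have := rpow_one_add_le_one_add_mul_self (s := -1 / 2) (by norm_num) (p := 2 * e) (by positivity)
        (by linarith)
      norm_num at this ⊢
      linarith
    have q2 : σ / σ' ≤ (1 / 2) ^ j := by
      rw [_root_.one_div_pow, div_le_div_iff₀ hσ' (by positivity)]
      linarith
    have q3 : (σ / σ') ^ (2 * e) ≤ (1 - e) ^ j :=
      calc _ ≤ ((1 / 2 : ℝ) ^ j) ^ (2 * e) := Real.rpow_le_rpow (by positivity) q2 (by positivity)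
        _ = ((1 / 2 : ℝ) ^ (2 * e)) ^ j := by
          rw [← Real.rpow_natCast, ← Real.rpow_natCast, ← Real.rpow_mul (by norm_num),
            ← Real.rpow_mul (by norm_num), mul_comm]
        _ ≤ _ := pow_le_pow_left₀ (by positivity) q1 j
    rw [pow_succ']
    gcongr
    linarith

/-- The abstract core: `g σ = qf (G σ x) ξ`, `N = |ξ|²`. -/
theorem s1a_core {g : ℝ → ℝ} {s₀ T₁ T e C N : ℝ} (he : 0 < e) (he' : e ≤ 1 / 10 ^ 6) (hC : 0 < C)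
    (hCe : C * e ≤ 1) (hs₀ : 0 < s₀) (hT₁ : 0 < T₁) (hT : 10 ^ 6 * T₁ ≤ e ^ 2 * T) (hN : 0 ≤ N)
    (hg : ∀ σ, 0 < σ → 0 ≤ g σ) (top : ∀ σ ∈ Icc T₁ (10 ^ 5 * T₁), |g σ - N| ≤ e * N)
    (step : ∀ σ ∈ Icc s₀ T₁, (1 - e) * g σ ≤ g (σ / 2))
    (mono : ∀ a b, 0 < a → a ≤ b → b ≤ 10 ^ 5 * T₁ → g a ≤ g b + C * (b / T * N)) :
    ∀ σ ∈ Icc s₀ (10 ^ 5 * T₁), N ≤ 2 * (T₁ / σ) ^ (2 * e) * g σ ∧ σ / T * N ≤ e ^ 2 * g σ ∧
      (σ ≤ T₁ → σ / T * N ≤ e ^ 2 * Real.sqrt (σ / T₁) * g σ) := by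
  intro σ ⟨h0, h1⟩
  have hσ : 0 < σ := hs₀.trans_le h0
  have hT0 : 0 < T := (mul_pos_iff_of_pos_left (a := e ^ 2) (by positivity)).1 (by linarith)
  have hgσ := hg σ hσ
  have hr : T₁ / T ≤ e ^ 2 / 10 ^ 6 := by rw [div_le_div_iff₀ hT0 (by norm_num)]; linarith
  have hinv : (T₁ / σ) ^ (2 * e) * (σ / T₁) ^ (2 * e) = 1 := by
    rw [← Real.mul_rpow (by positivity) (by positivity), div_mul_div_cancel₀ hσ.ne', div_self hT₁.ne',
      Real.one_rpow]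
  have hp : 0 < (σ / T₁) ^ (2 * e) := by positivity
  have hq : 0 < (T₁ / σ) ^ (2 * e) := by positivity
  have back : (σ / T₁) ^ (2 * e) * N ≤ 2 * g σ → N ≤ 2 * (T₁ / σ) ^ (2 * e) * g σ := fun h => by
    have := mul_le_mul_of_nonneg_left h hq.le
    rw [← mul_assoc, hinv] at this
    linarith
  have hσT : σ / T = T₁ / T * (σ / T₁) := by field_simp
  rcases le_total σ T₁ with h2 | h2
  · have s1 : σ / T₁ ≤ 1 := (div_le_one hT₁).2 h2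
    have s0 : 0 < σ / T₁ := by positivity
    obtain ⟨a, a0, a1, a2⟩ := s1a_halve he (by linarith) hs₀ (hg T₁ hT₁) step h0 h2 le_rfl
    have t1 := (abs_le.1 (top T₁ ⟨le_rfl, by linarith⟩)).1
    have t2 := mono a σ a0 a1 h1
    have t3 : σ / T₁ ≤ (σ / T₁) ^ (2 * e) := by
      conv_lhs => rw [← Real.rpow_one (σ / T₁)]
      exact Real.rpow_le_rpow_of_exponent_ge s0 s1 (by linarith)
    have t4 : C * (σ / T * N) ≤ e * ((σ / T₁) ^ (2 * e) * N) :=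
      calc C * (σ / T * N) = C * (T₁ / T) * (σ / T₁ * N) := by rw [hσT]; ring
        _ ≤ C * (e ^ 2 / 10 ^ 6) * ((σ / T₁) ^ (2 * e) * N) := by gcongr
        _ ≤ _ := by
          gcongr
          nlinarith
    have t5 : (1 - e) * (σ / T₁) ^ (2 * e) * ((1 - e) * N) ≤ (1 - e) * (σ / T₁) ^ (2 * e) * g T₁ :=
      mul_le_mul_of_nonneg_left (by linarith) (mul_nonneg (by linarith) hp.le)
    have t6 : (σ / T₁) ^ (2 * e) * N ≤ 2 * g σ := by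
      have t7 : 0 ≤ (σ / T₁) ^ (2 * e) * N := by positivity
      nlinarith [mul_nonneg t7 (sq_nonneg e), mul_le_mul_of_nonneg_right he' t7]
    have t8 : σ / T * N ≤ e ^ 2 * Real.sqrt (σ / T₁) * g σ := by
      have t9 : σ / T₁ ≤ Real.sqrt (σ / T₁) * (σ / T₁) ^ (2 * e) := by
        rw [Real.sqrt_eq_rpow, ← Real.rpow_add s0]
        conv_lhs => rw [← Real.rpow_one (σ / T₁)]
        exact Real.rpow_le_rpow_of_exponent_ge s0 s1 (by linarith)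
      calc σ / T * N = T₁ / T * (σ / T₁) * N := by rw [hσT]
        _ ≤ e ^ 2 / 10 ^ 6 * (Real.sqrt (σ / T₁) * (σ / T₁) ^ (2 * e)) * N := by gcongr
        _ = e ^ 2 / 10 ^ 6 * Real.sqrt (σ / T₁) * ((σ / T₁) ^ (2 * e) * N) := by ring
        _ ≤ e ^ 2 / 10 ^ 6 * Real.sqrt (σ / T₁) * (2 * g σ) := by gcongr
        _ = 2 / 10 ^ 6 * (e ^ 2 * Real.sqrt (σ / T₁) * g σ) := by ring
        _ ≤ _ := mul_le_of_le_one_left (by positivity) (by norm_num)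
    refine ⟨back t6, t8.trans ?_, fun _ => t8⟩
    have := Real.sqrt_le_one.2 s1
    rw [mul_assoc]
    gcongr
    exact mul_le_of_le_one_left hgσ this
  · have t1 := (abs_le.1 (top σ ⟨h2, h1⟩)).1
    have s1 : 1 ≤ σ / T₁ := (one_le_div hT₁).2 h2
    have s2 : σ / T₁ ≤ 10 ^ 5 := by rw [div_le_iff₀ hT₁]; exact h1
    have t2 : (σ / T₁) ^ (2 * e) ≤ 3 / 2 := by
      have := rpow_one_add_le_one_add_mul_self (s := σ / T₁ - 1) (by linarith) (p := 2 * e) (by positivity)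
        (by linarith)
      rw [add_sub_cancel] at this
      nlinarith
    have t3 : N ≤ 4 / 3 * g σ := by nlinarith
    have t4 : σ / T * N ≤ e ^ 2 / 10 ^ 6 * (σ / T₁) * (4 / 3 * g σ) := by
      rw [hσT]
      gcongr
    have t5 : 0 ≤ e ^ 2 * g σ := by positivity
    have t6 : σ / T * N ≤ e ^ 2 * g σ := t4.trans (by nlinarith)
    refine ⟨back (by nlinarith), t6, fun h3 => ?_⟩
    rwa [show σ / T₁ = 1 by rw [le_antisymm h3 h2, div_self hT₁.ne'], Real.sqrt_one, mul_one]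

theorem s1a_hyp (n : ℕ) : ∃ C e₀ : ℝ, 0 < C ∧ 0 < e₀ ∧ e₀ ≤ 1 / 10 ^ 6 ∧ C * e₀ ≤ 1 ∧
    ∀ (X : Sp.{u} n) (c : Crd X) (x : X.M) {s₀ T₁ e : ℝ}, e ≤ e₀ → c.Hyp x s₀ T₁ e → ∀ ξ,
    (∀ a b, 0 < a → a ≤ b → b ≤ 10 ^ 5 * T₁ →
      qf (c.G a x) ξ + qf (c.IQ a b x) ξ ≤ qf (c.G b x) ξ + C * (b / c.T * (ξ ⬝ᵥ ξ)) ∧
      qf (c.G a x) ξ ≤ qf (c.G b x) ξ + C * (b / c.T * (ξ ⬝ᵥ ξ))) ∧
    ∀ σ ∈ Icc s₀ (10 ^ 5 * T₁), ξ ⬝ᵥ ξ ≤ 2 * (T₁ / σ) ^ (2 * e) * qf (c.G σ x) ξ ∧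
      σ / c.T * (ξ ⬝ᵥ ξ) ≤ e ^ 2 * qf (c.G σ x) ξ ∧
      (σ ≤ T₁ → σ / c.T * (ξ ⬝ᵥ ξ) ≤ e ^ 2 * Real.sqrt (σ / T₁) * qf (c.G σ x) ξ) := by
  obtain ⟨C, hC, hG⟩ := G_time.{u} n
  refine ⟨C, min (1 / 10 ^ 6) C⁻¹, hC, by positivity, min_le_left _ _,
    (mul_le_mul_of_nonneg_left (min_le_right _ _) hC.le).trans_eq (mul_inv_cancel₀ hC.ne'),
    fun X c x s₀ T₁ e he h ξ => ?_⟩
  have he1 := he.trans (min_le_left _ _)
  have he2 : C * e ≤ 1 := (mul_le_mul_of_nonneg_left (he.trans (min_le_right _ _)) hC.le).trans_eq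
    (mul_inv_cancel₀ hC.ne')
  have hN : 0 ≤ ξ ⬝ᵥ ξ := Finset.sum_nonneg fun i _ => mul_self_nonneg _
  have hT := c.T_pos
  have key : ∀ a b, 0 < a → a ≤ b → b ≤ 10 ^ 5 * T₁ →
      qf (c.G a x) ξ + qf (c.IQ a b x) ξ ≤ qf (c.G b x) ξ + C * (b / c.T * (ξ ⬝ᵥ ξ)) ∧
      qf (c.G a x) ξ ≤ qf (c.G b x) ξ + C * (b / c.T * (ξ ⬝ᵥ ξ)) := fun a b ha hab hb => by
    have hb' := (h.times (by linarith) (ha.trans_le hab) hb).1
    have h1 := (abs_le.1 (hG X c ha hab (by linarith) x ξ)).1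
    have h2 := MC.psd_qf (c.IQ_psd ha hab (by linarith) x) ξ
    have h3 : C * ((b - a) / c.T) * (ξ ⬝ᵥ ξ) ≤ C * (b / c.T * (ξ ⬝ᵥ ξ)) := by
      rw [mul_assoc]
      gcongr
      linarith
    constructor <;> linarith
  exact ⟨key, s1a_core (g := fun σ => qf (c.G σ x) ξ) h.e_pos he1 hC he2 h.s₀_pos h.T₁_pos h.T₁_le hN
    (fun σ hσ => MC.psd_qf (c.G_psd hσ x) ξ) (fun σ hσ => h.top σ hσ ξ) (fun σ hσ => h.step σ hσ ξ)
    fun a b ha hab hb => (key a b ha hab hb).2⟩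

/-- Recipe: for `σ ≤ σ' ≤ T₁` halve `σ'` (`step`) `j+1` times, `2^j ≤ σ'/σ < 2^{j+1}`, `(1-e)⁻¹ ≤ 2^{2e}`, and `G (σ'/2^{j+1}) ≤ G σ + C σ/T |ξ|²` (`G_time`, `IQ_psd`).
With `σ' = T₁` and `top` this gives the third claim first (absorb: `σ/T (2T₁/σ)^{2e} ≤ 2T₁/T ≤ 2e²/10⁶`). -/
theorem hyp_growth (n : ℕ) : ∃ e₀ : ℝ, 0 < e₀ ∧ e₀ ≤ 1 / 1000 ∧ ∀ (X : Sp.{u} n) (c : Crd X) (x : X.M)
    {s₀ T₁ e : ℝ}, e ≤ e₀ → c.Hyp x s₀ T₁ e → ∀ ξ,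
    (∀ σ σ', s₀ ≤ σ → σ ≤ σ' → σ' ≤ 10 ^ 5 * T₁ →
      qf (c.G σ' x) ξ ≤ (1 + 10 * e) * (σ' / σ) ^ (2 * e) * qf (c.G σ x) ξ) ∧
    (∀ σ σ', 0 < σ → σ ≤ σ' → s₀ ≤ σ' → σ' ≤ 10 ^ 5 * T₁ →
      qf (c.G σ x) ξ ≤ (1 + 10 * e) * qf (c.G σ' x) ξ) ∧
    (∀ σ ∈ Icc s₀ (10 ^ 5 * T₁), ξ ⬝ᵥ ξ ≤ 2 * (T₁ / σ) ^ (2 * e) * qf (c.G σ x) ξ) := by
  obtain ⟨C, e₀, hC, he₀, he₁, hCe, H⟩ := s1a_hyp.{u} n
  refine ⟨e₀, he₀, by linarith, fun X c x s₀ T₁ e he h ξ => ?_⟩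
  obtain ⟨H1, H2⟩ := H X c x he h ξ
  have e0 := h.e_pos
  have e1 : e ≤ 1 / 10 ^ 6 := he.trans he₁
  have e2 : C * e ≤ 1 := (mul_le_mul_of_nonneg_left he hC.le).trans hCe
  have hT₁ := h.T₁_pos
  have hN : 0 ≤ ξ ⬝ᵥ ξ := Finset.sum_nonneg fun i _ => mul_self_nonneg _
  have hg : ∀ σ, 0 < σ → 0 ≤ qf (c.G σ x) ξ := fun σ hσ => MC.psd_qf (c.G_psd hσ x) ξ
  have up : ∀ σ σ', 0 < σ → σ ≤ σ' → s₀ ≤ σ' → σ' ≤ 10 ^ 5 * T₁ →
      qf (c.G σ x) ξ ≤ (1 + e) * qf (c.G σ' x) ξ := fun σ σ' h0 h1 h2 h3 => by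
    have a1 := (H1 σ σ' h0 h1 h3).2
    have a2 := mul_le_mul_of_nonneg_left (H2 σ' ⟨h2, h3⟩).2.1 hC.le
    have a3 := mul_le_mul_of_nonneg_right e2 (mul_nonneg e0.le (hg σ' (h0.trans_le h1)))
    nlinarith
  have low : ∀ σ σ', s₀ ≤ σ → σ ≤ σ' → σ' ≤ T₁ →
      qf (c.G σ' x) ξ ≤ (1 + 3 * e) * ((σ' / σ) ^ (2 * e) * qf (c.G σ x) ξ) := fun σ σ' h0 h1 h2 => by
    have hσ := h.s₀_pos.trans_le h0
    have hσ' := hσ.trans_le h1
    obtain ⟨a, a0, a1, a2⟩ := s1a_halve (g := fun σ => qf (c.G σ x) ξ) e0 (by linarith) h.s₀_pos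
      (hg σ' hσ') (fun σ hσ => h.step σ hσ ξ) h0 h1 h2
    have a3 := mul_le_mul_of_nonneg_left (a2.trans (up a σ a0 a1 h0 (by linarith)))
      (show 0 ≤ (σ' / σ) ^ (2 * e) by positivity)
    have hinv : (σ' / σ) ^ (2 * e) * (σ / σ') ^ (2 * e) = 1 := by
      rw [← Real.mul_rpow (by positivity) (by positivity), div_mul_div_cancel₀ hσ.ne', div_self hσ'.ne',
        Real.one_rpow]
    have a4 : (1 - e) * qf (c.G σ' x) ξ ≤ (1 + e) * ((σ' / σ) ^ (2 * e) * qf (c.G σ x) ξ) := by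
      calc _ = (σ' / σ) ^ (2 * e) * (σ / σ') ^ (2 * e) * ((1 - e) * qf (c.G σ' x) ξ) := by rw [hinv, one_mul]
        _ ≤ _ := by linarith
    have a5 : 0 ≤ (σ' / σ) ^ (2 * e) * qf (c.G σ x) ξ := mul_nonneg (by positivity) (hg σ hσ)
    refine le_of_mul_le_mul_left (a4.trans ?_) (show 0 < 1 - e by linarith)
    rw [← mul_assoc (1 - e)]
    exact mul_le_mul_of_nonneg_right (by nlinarith) a5
  have hi : ∀ σ σ', T₁ ≤ σ → σ ≤ σ' → σ' ≤ 10 ^ 5 * T₁ →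
      qf (c.G σ' x) ξ ≤ (1 + 3 * e) * qf (c.G σ x) ξ := fun σ σ' h0 h1 h2 => by
    have a1 := (abs_le.1 (h.top σ ⟨h0, h1.trans h2⟩ ξ)).1
    have a2 := (abs_le.1 (h.top σ' ⟨h0.trans h1, h2⟩ ξ)).2
    have a3 : (1 + 3 * e) * ((1 - e) * (ξ ⬝ᵥ ξ)) ≤ (1 + 3 * e) * qf (c.G σ x) ξ :=
      mul_le_mul_of_nonneg_left (by linarith) (by positivity)
    have a4 : (1 + e) * (ξ ⬝ᵥ ξ) ≤ (1 + 3 * e) * (1 - e) * (ξ ⬝ᵥ ξ) :=
      mul_le_mul_of_nonneg_right (by nlinarith) hN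
    linarith
  refine ⟨fun σ σ' h0 h1 h2 => ?_, fun σ σ' h0 h1 h2 h3 => (up σ σ' h0 h1 h2 h3).trans
    (mul_le_mul_of_nonneg_right (by linarith) (hg σ' (h0.trans_le h1))), fun σ hσ => (H2 σ hσ).1⟩
  have hσ := h.s₀_pos.trans_le h0
  have hσ' := hσ.trans_le h1
  have g0 := hg σ hσ
  rw [mul_assoc]
  rcases le_total σ' T₁ with h3 | h3
  · refine (low σ σ' h0 h1 h3).trans ?_
    gcongr
    norm_num
  rcases le_total σ T₁ with h4 | h4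
  · calc _ ≤ (1 + 3 * e) * ((1 + 3 * e) * ((T₁ / σ) ^ (2 * e) * qf (c.G σ x) ξ)) :=
          (hi T₁ σ' le_rfl h3 h2).trans (mul_le_mul_of_nonneg_left (low σ T₁ h0 h4 le_rfl) (by positivity))
      _ = (1 + 3 * e) ^ 2 * ((T₁ / σ) ^ (2 * e) * qf (c.G σ x) ξ) := by ring
      _ ≤ _ := by
        gcongr
        nlinarith
  · refine (hi σ σ' h4 h1 h2).trans ?_
    gcongr
    · norm_num
    · exact le_mul_of_one_le_left g0 (Real.one_le_rpow ((one_le_div hσ).2 h1) (by positivity))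

theorem hyp_small (n : ℕ) : ∃ e₀ : ℝ, 0 < e₀ ∧ ∀ (X : Sp.{u} n) (c : Crd X) (x : X.M)
    {s₀ T₁ e : ℝ}, e ≤ e₀ → c.Hyp x s₀ T₁ e → ∀ σ ∈ Icc s₀ (10 ^ 5 * T₁), (c.G σ x).PosDef ∧ ∀ ξ,
      σ / c.T * (ξ ⬝ᵥ ξ) ≤ e ^ 2 * qf (c.G σ x) ξ ∧
      (σ ≤ T₁ → σ / c.T * (ξ ⬝ᵥ ξ) ≤ e ^ 2 * Real.sqrt (σ / T₁) * qf (c.G σ x) ξ) ∧
      ∀ a, 0 < a → a ≤ σ → qf (c.IQ a σ x) ξ ≤ 2 * qf (c.G σ x) ξ := by
  obtain ⟨C, e₀, hC, he₀, he₁, hCe, H⟩ := s1a_hyp.{u} n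
  refine ⟨e₀, he₀, fun X c x s₀ T₁ e he h σ hσ => ?_⟩
  have e0 := h.e_pos
  have e1 : e ≤ 1 / 10 ^ 6 := he.trans he₁
  have e2 : C * e ≤ 1 := (mul_le_mul_of_nonneg_left he hC.le).trans hCe
  have hσ0 := h.s₀_pos.trans_le hσ.1
  have hT₁ := h.T₁_pos
  refine ⟨PosDef.of_dotProduct_mulVec_pos (c.G_psd hσ0 x).1 fun ξ hξ => ?_, fun ξ =>
    ⟨((H X c x he h ξ).2 σ hσ).2.1, ((H X c x he h ξ).2 σ hσ).2.2, fun a a0 a1 => ?_⟩⟩
  · have h1 := ((H X c x he h ξ).2 σ hσ).1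
    have h2 : 0 < ξ ⬝ᵥ ξ := by simpa using dotProduct_star_self_pos_iff.2 hξ
    exact (mul_pos_iff_of_pos_left (by positivity)).1 (h2.trans_le h1)
  · have a1 := ((H X c x he h ξ).1 a σ a0 a1 hσ.2).1
    have a2 := mul_le_mul_of_nonneg_left ((H X c x he h ξ).2 σ hσ).2.1 hC.le
    have a3 := MC.psd_qf (c.G_psd a0 x) ξ
    have a4 := MC.psd_qf (c.G_psd hσ0 x) ξ
    have a5 := mul_le_mul_of_nonneg_right e2 (mul_nonneg e0.le a4)
    nlinarith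

theorem s1b_pow {a ρ e : ℝ} (ha : 0 ≤ a) (hρ : 0 ≤ ρ) (h : a ≤ (1 + ρ) ^ 2) (he : 0 ≤ e)
    (he' : e ≤ 1 / 4) : a ^ (2 * e) ≤ 1 + ρ := by
  refine (Real.rpow_le_rpow ha h (by positivity)).trans ?_
  rw [← Real.rpow_natCast, ← Real.rpow_mul (by positivity)]
  refine (Real.rpow_le_rpow_of_exponent_le (by linarith) (show _ ≤ (1 : ℝ) by push_cast; linarith)).trans_eq
    (Real.rpow_one _)

theorem s1b_shift {X : Sp.{u} n} (c : Crd X) {C τ s : ℝ} (hs : 0 ≤ s) (hT : s ≤ c.T / 10)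
    (hτ : τ ∈ Icc (c.T - s) (c.T + s)) (hC : 0 < C) (ξ : V n) (y : X.M)
    (h : c.T ^ 2 * X.h.Γ (fun z => c.U c.T ξ z - c.U τ ξ z) (fun z => c.U c.T ξ z - c.U τ ξ z) y ≤
      C * (c.T - τ) ^ 2 * (ξ ⬝ᵥ ξ)) :
    X.h.Γ (c.U τ ξ) (c.U τ ξ) y ≤ 2 * X.h.Γ (c.u ξ) (c.u ξ) y + 2 * C * (s / c.T * (ξ ⬝ᵥ ξ)) := by
  have hT0 := c.T_pos
  have s1 : X.h.S (c.U c.T ξ) := c.u_S ξ
  have s2 : X.h.S (c.U τ ξ) := (c.U_nice (by linarith [hτ.1]) ξ).1.1.1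
  have h1 := X.h.Γ_sub_le s1 (X.h.S_sub s1 s2) y
  simp only [sub_sub_cancel] at h1
  have hN : 0 ≤ ξ ⬝ᵥ ξ := Finset.sum_nonneg fun i _ => mul_self_nonneg _
  have h2 : (c.T - τ) ^ 2 ≤ c.T ^ 2 * (s / c.T) := by
    have : (c.T - τ) ^ 2 ≤ s ^ 2 := sq_le_sq' (by linarith [hτ.2]) (by linarith [hτ.1])
    have e : c.T ^ 2 * (s / c.T) = c.T * s := by field_simp
    nlinarith
  have h3 : X.h.Γ (fun z => c.U c.T ξ z - c.U τ ξ z) (fun z => c.U c.T ξ z - c.U τ ξ z) y ≤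
      C * (s / c.T * (ξ ⬝ᵥ ξ)) := by
    refine le_of_mul_le_mul_left (h.trans ?_) (pow_pos hT0 2)
    calc _ ≤ C * (c.T ^ 2 * (s / c.T)) * (ξ ⬝ᵥ ξ) := by gcongr
      _ = _ := by ring
  exact h1.trans (by change _ ≤ 2 * X.h.Γ (c.U c.T ξ) (c.U c.T ξ) y + _; linarith)

theorem s1b_u (n : ℕ) : ∃ C e₀ : ℝ, 0 < C ∧ 0 < e₀ ∧ e₀ ≤ 1 ∧ ∀ (X : Sp.{u} n) (c : Crd X) (x : X.M)
    {s₀ T₁ e : ℝ}, e ≤ e₀ → c.Hyp x s₀ T₁ e → ∀ s ∈ Icc s₀ (10 ^ 5 * T₁), ∀ ξ y,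
      X.h.Γ (c.u ξ) (c.u ξ) y ≤ C * qf (c.G s x) ξ * (1 + dist x y / Real.sqrt s) := by
  obtain ⟨e₁, he₁, he₁', hg⟩ := hyp_growth.{u} n
  obtain ⟨e₂, he₂, hs⟩ := hyp_small.{u} n
  obtain ⟨C₁, hC₁, hb⟩ := U_bounds.{u} n
  obtain ⟨C₂, hC₂, hsh⟩ := U_shift.{u} n
  refine ⟨2 * C₁ + Real.exp 2 * (2 * (2 ^ (2 * n) * Real.exp 1) + 2 * C₂) * 2, min e₁ e₂, by positivity,
    lt_min he₁ he₂, (min_le_left _ _).trans (by linarith), fun X c x s₀ T₁ e he H s hs' ξ y => ?_⟩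
  have e1 : e ≤ e₁ := he.trans (min_le_left _ _)
  have e2 : e ≤ e₂ := he.trans (min_le_right _ _)
  have e0 := H.e_pos
  have s0 : 0 < s := H.s₀_pos.trans_le hs'.1
  have hT0 := c.T_pos
  have hq : 0 < Real.sqrt s := Real.sqrt_pos.2 s0
  set ρ := dist x y / Real.sqrt s with hρ
  have ρ0 : 0 ≤ ρ := by positivity
  have ρ2 : dist x y ^ 2 / s = ρ ^ 2 := by rw [hρ, div_pow, Real.sq_sqrt s0.le]
  have g0 : 0 ≤ qf (c.G s x) ξ := MC.psd_qf (c.G_psd s0 x) ξ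
  obtain ⟨g1, -, g3⟩ := hg X c x e1 H ξ
  rcases le_or_gt (dist x y ^ 2) (10 ^ 5 * T₁) with hd | hd
  · set s' := max s (dist x y ^ 2) with hs'd
    have s'1 : s ≤ s' := le_max_left _ _
    have s'2 : s' ≤ 10 ^ 5 * T₁ := max_le hs'.2 hd
    have s'0 : 0 < s' := s0.trans_le s'1
    obtain ⟨t1, -, -, t4⟩ := H.times (by linarith) s'0 s'2
    have k0 := X.h.k_nonneg
    have t5 : X.h.k * s' ≤ 1 := t4.trans (by nlinarith)
    have σ0 : 0 < s' / 2 := by positivity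
    have τ0 : 0 < c.T - s' / 2 := by linarith
    have n1 := (c.U_nice τ0 ξ).1
    have n2 := (c.u_nice ξ).1
    have i1 := X.h.int_L2 σ0 y (n1.Γ_bd n1).1
    have i2 := X.h.int_L2 σ0 y (n2.Γ_bd n2).1
    have a1 := X.h.ge2 n1.1 σ0 y i1
    rw [(c.P_U σ0 τ0 ξ).1, add_sub_cancel] at a1
    have a2 := (X.h.harnack_P σ0 (by linarith : s' / 2 < s') t5 y x
      (n2.Γ_bd n2).1.aestronglyMeasurable (X.h.Γ_nonneg _) (X.h.int_L2 s'0 x (n2.Γ_bd n2).1)).2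
    rw [← c.qf_G s'0] at a2
    have g0' : 0 ≤ qf (c.G s' x) ξ := MC.psd_qf (c.G_psd s'0 x) ξ
    have a3 : X.h.P (s' / 2) (X.h.Γ (c.u ξ) (c.u ξ)) y ≤ 2 ^ (2 * n) * Real.exp 1 * qf (c.G s' x) ξ := by
      refine a2.trans ?_
      rw [show s' / (s' / 2) = 2 by field_simp, show 2 * (s' - s' / 2) = s' by ring, dist_comm y x]
      gcongr
      exact (div_le_one s'0).2 (le_max_right _ _)
    have a4 : s' / c.T * (ξ ⬝ᵥ ξ) ≤ qf (c.G s' x) ξ :=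
      ((hs X c x e2 H s' ⟨hs'.1.trans s'1, s'2⟩).2 ξ).1.trans (mul_le_of_le_one_left g0' (by nlinarith))
    have i3 : Integrable (fun z => X.h.H (s' / 2) y z * (2 * X.h.Γ (c.u ξ) (c.u ξ) z)) X.h.m :=
      (i2.const_mul 2).congr (Eventually.of_forall fun z => by simp only; ring)
    have i4 : Integrable (fun z => X.h.H (s' / 2) y z * (2 * C₂ * (s' / c.T * (ξ ⬝ᵥ ξ)))) X.h.m :=
      (X.h.H_int σ0 y).1.mul_const _
    have a5 := X.h.P_mono σ0 i1 ((i3.add i4).congr (Eventually.of_forall fun z => (mul_add _ _ _).symm))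
      fun z => s1b_shift c s'0.le t1 ⟨by linarith, by linarith⟩ hC₂ ξ z
        (hsh X c _ ⟨by linarith, by linarith⟩ _ ⟨by linarith, by linarith⟩ ξ z).2
    rw [X.h.P_add i3 i4, X.h.P_cmul, X.h.P_const σ0] at a5
    have a6 : qf (c.G s' x) ξ ≤ 2 * (1 + ρ) * qf (c.G s x) ξ := by
      refine (g1 s s' hs'.1 s'1 s'2).trans ?_
      have : (s' / s) ^ (2 * e) ≤ 1 + ρ := by
        refine s1b_pow (by positivity) ρ0 ?_ e0.le (by linarith)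
        rw [hs'd, ← max_div_div_right s0.le, div_self s0.ne', ρ2]
        exact max_le (by nlinarith) (by nlinarith)
      gcongr
      linarith
    have a7 : Real.exp (2 * X.h.k * (s' / 2)) ≤ Real.exp 2 := Real.exp_le_exp.2 (by linarith)
    have a8 : X.h.P (s' / 2) (X.h.Γ (c.U (c.T - s' / 2) ξ) (c.U (c.T - s' / 2) ξ)) y ≤
        (2 * (2 ^ (2 * n) * Real.exp 1) + 2 * C₂) * (2 * (1 + ρ) * qf (c.G s x) ξ) := by
      refine le_trans ?_ (mul_le_mul_of_nonneg_left a6 (by positivity))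
      have := mul_le_mul_of_nonneg_left a4 hC₂.le
      linarith
    have a9 := mul_le_mul a7 a8 (X.h.P_nonneg σ0 y (X.h.Γ_nonneg _)) (Real.exp_pos _).le
    have : 0 ≤ 2 * C₁ * qf (c.G s x) ξ * (1 + ρ) := by positivity
    calc _ ≤ _ := a1
      _ ≤ _ := a9
      _ ≤ _ := by linarith
  · have a1 := (hb X c c.T ⟨by linarith, by linarith⟩ ξ y).1
    have a2 : (T₁ / s) ^ (2 * e) ≤ 1 + ρ := by
      have := H.T₁_pos
      refine s1b_pow (by positivity) ρ0 ?_ e0.le (by linarith)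
      have : T₁ / s ≤ dist x y ^ 2 / s := by gcongr; linarith
      nlinarith
    have a3 : ξ ⬝ᵥ ξ ≤ 2 * (1 + ρ) * qf (c.G s x) ξ := (g3 s hs').trans (by gcongr)
    have a4 := mul_le_mul_of_nonneg_left a3 hC₁.le
    have : 0 ≤ Real.exp 2 * (2 * (2 ^ (2 * n) * Real.exp 1) + 2 * C₂) * 2 * qf (c.G s x) ξ * (1 + ρ) := by
      positivity
    calc _ ≤ _ := a1
      _ ≤ _ := a4
      _ ≤ _ := by linarith

/-- Weight lemma.  Recipe: `s' = max s d²`.  If `s' ≤ 10⁵ T₁`: `σ = s'/2`, `u = P σ (U (T-σ))`, `ge2`, `U_shift`, `harnack_P` from `(σ,y)` to `(s',x)`, `hyp_growth`, `(1 + d²/s)^{2e} ≤ 1 + d/√s`.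
Otherwise `U_bounds` and the third part of `hyp_growth`.  Then `U_shift` for general `τ`, `abs_sub_le_of_Γ`. -/
theorem hyp_weight (n : ℕ) : ∃ C e₀ : ℝ, 0 < C ∧ 0 < e₀ ∧ ∀ (X : Sp.{u} n) (c : Crd X) (x : X.M)
    {s₀ T₁ e : ℝ}, e ≤ e₀ → c.Hyp x s₀ T₁ e → ∀ s ∈ Icc s₀ (10 ^ 5 * T₁),
    ∀ τ ∈ Icc (c.T - s) (c.T + s), ∀ ξ y,
      X.h.Γ (c.U τ ξ) (c.U τ ξ) y ≤ C * qf (c.G s x) ξ * (1 + dist x y / Real.sqrt s) ∧
      (c.U τ ξ y - c.U τ ξ x) ^ 2 ≤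
        C * qf (c.G s x) ξ * dist x y ^ 2 * (1 + dist x y / Real.sqrt s) ∧
      s * X.h.Δ (c.U τ ξ) y ^ 2 ≤ C * e ^ 2 * qf (c.G s x) ξ ∧
      (s ≤ T₁ → s * X.h.Δ (c.U τ ξ) y ^ 2 ≤ C * e ^ 2 * Real.sqrt (s / T₁) * qf (c.G s x) ξ) := by
  obtain ⟨C₀, e₁, hC₀, he₁, he₁', hu⟩ := s1b_u.{u} n
  obtain ⟨e₂, he₂, hs⟩ := hyp_small.{u} n
  obtain ⟨C₁, hC₁, hb⟩ := U_bounds.{u} n
  obtain ⟨C₂, hC₂, hsh⟩ := U_shift.{u} n
  refine ⟨2 * C₀ + 2 * C₂ + C₁, min e₁ e₂, by positivity, lt_min he₁ he₂,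
    fun X c x s₀ T₁ e he H s hs' τ hτ ξ => ?_⟩
  have e1 : e ≤ e₁ := he.trans (min_le_left _ _)
  have e2 : e ≤ e₂ := he.trans (min_le_right _ _)
  have e0 := H.e_pos
  have s0 : 0 < s := H.s₀_pos.trans_le hs'.1
  have hT0 := c.T_pos
  have hq : 0 < Real.sqrt s := Real.sqrt_pos.2 s0
  have g0 : 0 ≤ qf (c.G s x) ξ := MC.psd_qf (c.G_psd s0 x) ξ
  obtain ⟨t1, -⟩ := H.times (by linarith) s0 hs'.2
  obtain ⟨m1, m2, -⟩ := (hs X c x e2 H s hs').2 ξ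
  have hτ' : τ ∈ Icc (c.T / 4) (4 * c.T) := ⟨by linarith [hτ.1], by linarith [hτ.2]⟩
  have k1 : ∀ y, X.h.Γ (c.U τ ξ) (c.U τ ξ) y ≤
      (2 * C₀ + 2 * C₂ + C₁) * qf (c.G s x) ξ * (1 + dist x y / Real.sqrt s) := fun y => by
    have a1 := s1b_shift c s0.le t1 hτ hC₂ ξ y (hsh X c _ ⟨by linarith, by linarith⟩ _ hτ' ξ y).2
    have a2 := hu X c x e1 H s hs' ξ y
    have a3 : s / c.T * (ξ ⬝ᵥ ξ) ≤ qf (c.G s x) ξ * (1 + dist x y / Real.sqrt s) :=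
      (m1.trans (mul_le_of_le_one_left g0 (by nlinarith))).trans
        (le_mul_of_one_le_right g0 (le_add_of_nonneg_right (by positivity)))
    have a4 := mul_le_mul_of_nonneg_left a3 hC₂.le
    have : 0 ≤ C₁ * qf (c.G s x) ξ * (1 + dist x y / Real.sqrt s) := by positivity
    linarith
  have k2 : ∀ y, s * X.h.Δ (c.U τ ξ) y ^ 2 ≤ (2 * C₀ + 2 * C₂ + C₁) * (s / c.T * (ξ ⬝ᵥ ξ)) := fun y => by
    have a1 := mul_le_mul_of_nonneg_left (hb X c τ hτ' ξ y).2.1 (div_pos s0 hT0).le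
    rw [← mul_assoc, div_mul_cancel₀ _ hT0.ne'] at a1
    have hN : 0 ≤ ξ ⬝ᵥ ξ := Finset.sum_nonneg fun i _ => mul_self_nonneg _
    have : 0 ≤ (2 * C₀ + 2 * C₂) * (s / c.T * (ξ ⬝ᵥ ξ)) := by positivity
    linarith
  refine fun y => ⟨k1 y, ?_, (k2 y).trans ?_, fun h => (k2 y).trans ?_⟩
  · have hL : 0 ≤ (2 * C₀ + 2 * C₂ + C₁) * qf (c.G s x) ξ * (1 + dist x y / Real.sqrt s) := by
      positivity
    have a1 := X.h.abs_sub_le_of_Γ (c.U_nice (by linarith [hτ.1]) ξ).1.1.1 (x := y) (y := x)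
      (Real.sqrt_nonneg _) fun z hz => (k1 z).trans (le_trans (by gcongr) (Real.sq_sqrt hL).ge)
    have a2 := pow_le_pow_left₀ (abs_nonneg _) a1 2
    rw [sq_abs, mul_pow, Real.sq_sqrt hL] at a2
    exact a2.trans_eq (by ring)
  · rw [mul_assoc]; gcongr
  · rw [mul_assoc, mul_assoc]
    exact mul_le_mul_of_nonneg_left ((m2 h).trans_eq (by ring)) (by positivity)

theorem s1b_exp {ρ a b : ℝ} (hρ : 0 ≤ ρ) (hb : 0 ≤ b) (h : a ^ 2 ≤ b * (1 + ρ) ^ 3) :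
    |a| ≤ Real.sqrt b * Real.exp (2 * ρ) := by
  refine abs_le_of_sq_le_sq' ?_ (by positivity) |> abs_le.2
  rw [mul_pow, Real.sq_sqrt hb]
  refine h.trans (mul_le_mul_of_nonneg_left ?_ hb)
  have h1 : 1 + ρ ≤ Real.exp ρ := by linarith [Real.add_one_le_exp ρ]
  refine (pow_le_pow_left₀ (by positivity) h1 3).trans ?_
  rw [← Real.exp_nat_mul, ← Real.exp_nat_mul]
  exact Real.exp_le_exp.2 (by push_cast; linarith)

/-- Exponential growth bounds for `L U` and for the centred coordinate (`hyp_weight`, `grad_φ`, `P_gr`). -/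
theorem hyp_gr (n : ℕ) : ∃ C e₀ : ℝ, 0 < C ∧ 0 < e₀ ∧ ∀ (X : Sp.{u} n) (c : Crd X) (x : X.M)
    {s₀ T₁ e : ℝ}, e ≤ e₀ → c.Hyp x s₀ T₁ e → ∀ s ∈ Icc s₀ (10 ^ 5 * T₁), ∀ ξ,
      (∀ τ ∈ Icc (c.T - s) (c.T + s),
        Gr x s (C * Real.sqrt (qf (c.G s x) ξ / s)) 2 (X.h.L s x (c.U τ ξ)) ∧
        X.h.P s (fun y => X.h.L s x (c.U τ ξ) y ^ 2) x ≤ C * (qf (c.G s x) ξ / s)) ∧
      Gr x s (C * Real.sqrt (s * qf (c.G s x) ξ)) 2 (fun y => c.u ξ y - X.h.P s (c.u ξ) x) := by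
  obtain ⟨C₀, e₁, hC₀, he₁, hw⟩ := hyp_weight.{u} n
  obtain ⟨C₁, hC₁, hφ⟩ := grad_φ.{u} n
  obtain ⟨C₂, hC₂, h2⟩ := P_gr.{u} n 2
  obtain ⟨C₄, hC₄, h4⟩ := P_gr.{u} n 4
  set A := Real.sqrt (C₀ * C₁) + Real.sqrt C₀ with hA
  have A0 : 0 < A := by positivity
  refine ⟨A + C₄ * A ^ 2 + (1 + C₂) * Real.sqrt C₀, min e₁ 1, by positivity, lt_min he₁ one_pos,
    fun X c x s₀ T₁ e he H s hs' ξ => ?_⟩
  have e1 : e ≤ e₁ := he.trans (min_le_left _ _)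
  have e2 : e ≤ 1 := he.trans (min_le_right _ _)
  have e0 := H.e_pos
  have s0 : 0 < s := H.s₀_pos.trans_le hs'.1
  have hT0 := c.T_pos
  have hq : 0 < Real.sqrt s := Real.sqrt_pos.2 s0
  have g0 : 0 ≤ qf (c.G s x) ξ := MC.psd_qf (c.G_psd s0 x) ξ
  obtain ⟨t1, t2, -⟩ := H.times e2 s0 hs'.2
  have t3 : X.h.k * s ≤ 1 / 200 := t2.2.trans (by norm_num)
  have ρ2 : ∀ y, dist x y ^ 2 / s = (dist x y / Real.sqrt s) ^ 2 := fun y => by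
    rw [div_pow, Real.sq_sqrt s0.le]
  refine ⟨fun τ hτ => ?_, fun y => ?_⟩
  · have sU : X.h.S (c.U τ ξ) := (c.U_nice (by linarith [hτ.1]) ξ).1.1.1
    have k1 : Gr x s (A * Real.sqrt (qf (c.G s x) ξ / s)) 2 (X.h.L s x (c.U τ ξ)) := fun y => by
      obtain ⟨a1, -, a3, -⟩ := hw X c x e1 H s hs' τ hτ ξ y
      have a2 := hφ X s0 t3 x y
      rw [ρ2] at a2
      set ρ := dist x y / Real.sqrt s with hρ
      have ρ0 : 0 ≤ ρ := by positivity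
      have b1 : |X.h.Γ (c.U τ ξ) (X.h.φ s x) y| ≤
          Real.sqrt (C₀ * C₁ * (qf (c.G s x) ξ / s)) * Real.exp (2 * ρ) := by
        refine s1b_exp ρ0 (by positivity) ?_
        have c1 := pow_le_pow_left₀ (abs_nonneg _) (X.h.abs_Γ_le (c.U τ ξ) (X.h.φ s x) y) 2
        rw [sq_abs, mul_pow, Real.sq_sqrt (X.h.Γ_nonneg _ _), Real.sq_sqrt (X.h.Γ_nonneg _ _)] at c1
        have c2 : X.h.Γ (X.h.φ s x) (X.h.φ s x) y ≤ C₁ * (1 + ρ) ^ 2 / s := by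
          rw [le_div_iff₀' s0]
          exact a2.trans (mul_le_mul_of_nonneg_left (by nlinarith) hC₁.le)
        refine c1.trans ((mul_le_mul a1 c2 (X.h.Γ_nonneg _ _) (by positivity)).trans_eq ?_)
        ring
      have b2 : |X.h.Δ (c.U τ ξ) y| ≤ Real.sqrt (C₀ * (qf (c.G s x) ξ / s)) * Real.exp (2 * ρ) := by
        refine s1b_exp ρ0 (by positivity) (le_trans ?_ (le_mul_of_one_le_right (by positivity)
          (one_le_pow₀ (by linarith))))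
        rw [← mul_div_assoc, le_div_iff₀' s0]
        refine a3.trans (mul_le_mul_of_nonneg_right (mul_le_of_le_one_right hC₀.le (by nlinarith)) g0)
      rw [Real.sqrt_mul (by positivity)] at b1 b2
      rw [mul_div_assoc, ← hρ, hA]
      exact (abs_sub _ _).trans (by linarith)
    have k2 : Gr x s ((A * Real.sqrt (qf (c.G s x) ξ / s)) ^ 2) 4
        fun y => X.h.L s x (c.U τ ξ) y ^ 2 := fun y => by
      rw [abs_pow]
      refine (pow_le_pow_left₀ (abs_nonneg _) (k1 y) 2).trans_eq ?_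
      rw [mul_pow _ (Real.exp _), ← Real.exp_nat_mul]
      congr 2
      push_cast
      ring
    have hc : Continuous (X.h.L s x (c.U τ ξ)) :=
      (X.h.S_cont (X.h.S_Γ sU (X.h.φ_S s0 x))).sub (X.h.S_cont (X.h.S_Δ sU))
    have k3 := (h4 X s0 (by linarith) (by linarith) x x (hc.pow 2).aestronglyMeasurable k2).2
    rw [dist_self, mul_zero, zero_div, Real.exp_zero, mul_one, mul_pow,
      Real.sq_sqrt (by positivity)] at k3
    refine ⟨fun y => (k1 y).trans ?_, (le_abs_self _).trans (k3.trans ?_)⟩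
    · gcongr
      rw [add_assoc]
      exact le_add_of_nonneg_right (by positivity)
    · rw [← mul_assoc]
      gcongr
      have : 0 ≤ (1 + C₂) * Real.sqrt C₀ := by positivity
      linarith
  · have k1 : Gr x s (Real.sqrt C₀ * Real.sqrt (s * qf (c.G s x) ξ)) 2
        fun y => c.u ξ y - c.u ξ x := fun y => by
      obtain ⟨-, a1, -⟩ := hw X c x e1 H s hs' c.T ⟨by linarith, by linarith⟩ ξ y
      have a2 := ρ2 y
      rw [div_eq_iff s0.ne'] at a2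
      rw [a2] at a1
      rw [← Real.sqrt_mul hC₀.le, mul_div_assoc]
      set ρ := dist x y / Real.sqrt s with hρ
      have ρ0 : 0 ≤ ρ := by positivity
      refine s1b_exp ρ0 (by positivity) (a1.trans ?_)
      calc _ = C₀ * (s * qf (c.G s x) ξ) * (ρ ^ 2 * (1 + ρ)) := by ring
        _ ≤ C₀ * (s * qf (c.G s x) ξ) * ((1 + ρ) ^ 2 * (1 + ρ)) := by gcongr; linarith
        _ = _ := by ring
    have hc : Continuous fun y => c.u ξ y - c.u ξ x := (X.h.S_cont (c.u_S ξ)).sub continuous_const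
    have k3 := (h2 X s0 (by linarith) (by linarith) x x hc.aestronglyMeasurable k1).2
    rw [dist_self, mul_zero, zero_div, Real.exp_zero, mul_one,
      X.h.P_sub (X.h.int_L2 s0 x (c.u_nice ξ).1.1.2.1) ((X.h.H_int s0 x).1.mul_const _),
      X.h.P_const s0] at k3
    have k4 := k1 y
    have k5 : 1 ≤ Real.exp (2 * dist x y / Real.sqrt s) := Real.one_le_exp (by positivity)
    have k6 := k3.trans (le_mul_of_one_le_right (by positivity) k5)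
    have k7 : 0 ≤ (A + C₄ * A ^ 2) * Real.sqrt (s * qf (c.G s x) ξ) *
      Real.exp (2 * dist x y / Real.sqrt s) := by positivity
    have k8 := abs_sub (c.u ξ y - c.u ξ x) (X.h.P s (c.u ξ) x - c.u ξ x)
    rw [sub_sub_sub_cancel_right] at k8
    simp only at k4 ⊢
    linarith

theorem G_cmp (n : ℕ) (R : ℝ) : ∃ C e₀ : ℝ, 1 ≤ C ∧ 0 < e₀ ∧ ∀ (X : Sp.{u} n) (c : Crd X) (x : X.M)
    {s₀ T₁ e : ℝ}, e ≤ e₀ → c.Hyp x s₀ T₁ e → ∀ s ∈ Icc s₀ (10 ^ 5 * T₁), ∀ z,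
      dist x z ≤ R * Real.sqrt s → ∀ ξ, qf (c.G s z) ξ ≤ C * qf (c.G s x) ξ := by
  obtain ⟨C₀, e₁, hC₀, he₁, he₁', hu⟩ := s1b_u.{u} n
  obtain ⟨C₁, hC₁, h1⟩ := P_gr.{u} n 1
  refine ⟨max 1 (C₁ * C₀ * Real.exp R), e₁, le_max_left _ _, he₁,
    fun X c x s₀ T₁ e he H s hs' z hz ξ => ?_⟩
  have s0 : 0 < s := H.s₀_pos.trans_le hs'.1
  have hq : 0 < Real.sqrt s := Real.sqrt_pos.2 s0
  have g0 : 0 ≤ qf (c.G s x) ξ := MC.psd_qf (c.G_psd s0 x) ξ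
  obtain ⟨-, t2, -⟩ := H.times (he.trans he₁') s0 hs'.2
  have k1 : Gr x s (C₀ * qf (c.G s x) ξ) 1 (X.h.Γ (c.u ξ) (c.u ξ)) := fun y => by
    rw [abs_of_nonneg (X.h.Γ_nonneg _ _), one_mul]
    refine (hu X c x he H s hs' ξ y).trans (mul_le_mul_of_nonneg_left ?_ (by positivity))
    linarith [Real.add_one_le_exp (dist x y / Real.sqrt s)]
  have k2 := (h1 X s0 (by linarith) (t2.2.trans (by norm_num)) x z
    (X.h.S_cont (X.h.S_Γ (c.u_S ξ) (c.u_S ξ))).aestronglyMeasurable k1).2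
  rw [c.qf_G s0 z]
  refine (le_abs_self _).trans (k2.trans ?_)
  have k3 : Real.exp (|1| * dist x z / Real.sqrt s) ≤ Real.exp R :=
    Real.exp_le_exp.2 (by rw [abs_one, one_mul, div_le_iff₀ hq]; exact hz)
  calc _ ≤ C₁ * (C₀ * qf (c.G s x) ξ) * Real.exp R := by gcongr
    _ = C₁ * C₀ * Real.exp R * qf (c.G s x) ξ := by ring
    _ ≤ _ := mul_le_mul_of_nonneg_right (le_max_right _ _) g0

/-- `hyp_weight` with `τ = T`, `u_dot`, `MC.sn_inv_le_of_dual`. -/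
theorem g_up (n : ℕ) : ∃ C e₀ : ℝ, 1 ≤ C ∧ 0 < e₀ ∧ ∀ (X : Sp.{u} n) (c : Crd X) (x : X.M)
    {s₀ T₁ e : ℝ}, e ≤ e₀ → c.Hyp x s₀ T₁ e → ∀ s ∈ Icc s₀ (10 ^ 5 * T₁), ∀ z,
      qf (c.G s x)⁻¹ (c.uv z - c.uv x) ≤ C * dist x z ^ 2 * (1 + dist x z / Real.sqrt s) := by
  obtain ⟨C₀, e₁, hC₀, he₁, hw⟩ := hyp_weight.{u} n
  obtain ⟨e₂, he₂, hs⟩ := hyp_small.{u} n
  refine ⟨max 1 C₀, min e₁ e₂, le_max_left _ _, lt_min he₁ he₂, fun X c x s₀ T₁ e he H s hs' z => ?_⟩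
  have s0 : 0 < s := H.s₀_pos.trans_le hs'.1
  have hG := (hs X c x (he.trans (min_le_right _ _)) H s hs').1
  have hL : 0 ≤ C₀ * dist x z ^ 2 * (1 + dist x z / Real.sqrt s) := by positivity
  have k1 := MC.sn_inv_le_of_dual hG (Real.sqrt_nonneg _) (a := c.uv z - c.uv x)
    (c := Real.sqrt (C₀ * dist x z ^ 2 * (1 + dist x z / Real.sqrt s))) fun ζ => by
      have a1 := (hw X c x (he.trans (min_le_left _ _)) H s hs' c.T ⟨by linarith, by linarith⟩ ζ z).2.1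
      rw [dotProduct_sub, ← c.u_dot, ← c.u_dot, MC.sn, ← Real.sqrt_mul hL]
      exact (le_abs_self _).trans (Real.abs_le_sqrt (a1.trans_eq (by ring)))
  have k2 := (Real.sqrt_le_iff.1 k1).2
  rw [Real.sq_sqrt hL] at k2
  exact k2.trans (by gcongr; exact le_max_right _ _)

theorem s1c_dot (a b : V n) {μ : ℝ} (hμ : 0 < μ) :
    (1 - μ) * (b ⬝ᵥ b) - μ⁻¹ * ((a - b) ⬝ᵥ (a - b)) ≤ a ⬝ᵥ a := by
  simp only [dotProduct, Finset.mul_sum, ← Finset.sum_sub_distrib, Pi.sub_apply]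
  refine Finset.sum_le_sum fun i _ => ?_
  have h1 : μ⁻¹ * (μ * b i + (a i - b i)) ^ 2 =
      μ * b i ^ 2 + 2 * (b i * (a i - b i)) + μ⁻¹ * (a i - b i) ^ 2 := by
    field_simp
    ring
  have h2 : 0 ≤ μ⁻¹ * (μ * b i + (a i - b i)) ^ 2 := by positivity
  nlinarith [sq_nonneg (a i - b i)]

theorem s1c_small (C : ℝ) {ν μ : ℝ} (hν : 0 < ν) (hμ : 0 < μ) : ∃ e₁ : ℝ, 0 < e₁ ∧ ∀ e, 0 < e → e ≤ e₁ →
    (1 + 10 * e) * μ⁻¹ ^ (2 * e) ≤ 1 + μ ∧ Real.exp (2 * e ^ 2) ≤ 1 + ν ∧ C * e ^ 2 ≤ μ ^ 2 := by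
  have h1 : ∀ᶠ e in 𝓝 (0 : ℝ), (1 + 10 * e) * μ⁻¹ ^ (2 * e) < 1 + μ := by
    refine ContinuousAt.eventually_lt ?_ continuousAt_const (by simpa using hμ)
    exact (by fun_prop : ContinuousAt (fun e : ℝ => 1 + 10 * e) 0).mul
      (continuousAt_const.rpow (by fun_prop) (Or.inl (inv_pos.2 hμ).ne'))
  have h2 : ∀ᶠ e in 𝓝 (0 : ℝ), Real.exp (2 * e ^ 2) < 1 + ν :=
    ContinuousAt.eventually_lt (by fun_prop) continuousAt_const (by simpa using hν)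
  have h3 : ∀ᶠ e in 𝓝 (0 : ℝ), C * e ^ 2 < μ ^ 2 :=
    ContinuousAt.eventually_lt (by fun_prop) continuousAt_const (by simpa using pow_pos hμ 2)
  obtain ⟨ε, hε, h⟩ := Metric.eventually_nhds_iff.1 (h1.and (h2.and h3))
  refine ⟨ε / 2, half_pos hε, fun e he he' => ?_⟩
  have := h (y := e) (by rw [Real.dist_eq, sub_zero, abs_of_pos he]; linarith)
  exact ⟨this.1.le, this.2.1.le, this.2.2.le⟩

theorem s1c_low {X : Sp.{u} n} (c : Crd X) (x : X.M) (ξ : V n) {σ τ μ K : ℝ} (hσ : 0 < σ) (hτ : 0 < τ)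
    (hμ : 0 < μ) (hK : ∀ y, X.h.Γ (fun z => c.U τ ξ z - c.u ξ z) (fun z => c.U τ ξ z - c.u ξ z) y ≤ K) :
    (1 - μ) * qf (c.G σ x) ξ - μ⁻¹ * K ≤ X.h.P σ (X.h.Γ (c.U τ ξ) (c.U τ ξ)) x := by
  have hu := (c.u_nice ξ).1
  have hv := (c.U_nice hτ ξ).1
  have i1 := X.h.int_L2 hσ x (hu.Γ_bd hu).1
  have i2 := X.h.int_L2 hσ x (hv.Γ_bd hv).1
  have i3 : Integrable (fun y => X.h.H σ x y * ((1 - μ) * X.h.Γ (c.u ξ) (c.u ξ) y)) X.h.m :=
    (i1.const_mul (1 - μ)).congr (Eventually.of_forall fun y => by ring)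
  have i4 : Integrable (fun y => X.h.H σ x y * (μ⁻¹ * K)) X.h.m := (X.h.H_int hσ x).1.mul_const _
  rw [c.qf_G hσ, ← X.h.P_cmul, ← X.h.P_const hσ (μ⁻¹ * K) x, ← X.h.P_sub i3 i4]
  refine X.h.P_mono hσ ((i3.sub i4).congr (Eventually.of_forall fun y => by simp [mul_sub])) i2 fun y => ?_
  have h1 := s1c_dot (X.h.grad (c.U τ ξ) y) (X.h.grad (c.u ξ) y) hμ
  have h2 := hK y
  rw [Raw.Γ, X.h.grad_sub hv.1.1 hu.1.1] at h2
  have h3 := mul_le_mul_of_nonneg_left h2 (inv_pos.2 hμ).le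
  simp only [Raw.Γ]
  linarith

/-- Recipe: upper bound `J_le`.  Lower bound: `cov`, `P (s-σ) u = U (s-σ+T)`, `Γ(U) ≥ (1-ν')Γ(u) - ν'⁻¹ Γ(U - u)`, `U_shift`, `hyp_small`, and `G σ ≥ G s δ^{2e}/(1+10e)` on `[δ s, s]`. -/
theorem JG (n : ℕ) (ν : ℝ) (hν : 0 < ν) : ∃ δ e₀ : ℝ, 0 < δ ∧ δ ≤ 1 ∧ 0 < e₀ ∧
    ∀ (X : Sp.{u} n) (c : Crd X) (x : X.M) {s₀ T₁ e s : ℝ}, e ≤ e₀ → c.Hyp x s₀ T₁ e → s₀ ≤ δ * s →
      s ≤ T₁ → (c.J s x).PosDef ∧ ∀ ξ,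
        |qf (c.J s x) ξ - 2 * s * qf (c.G s x) ξ| ≤ ν * (2 * s * qf (c.G s x) ξ) := by
  obtain ⟨C, hC, hsh⟩ := U_shift.{u} n
  obtain ⟨e₁, he₁, he₁', hgr⟩ := hyp_growth.{u} n
  obtain ⟨e₂, he₂, hsm⟩ := hyp_small.{u} n
  set μ : ℝ := min ν 1 / 8 with hμ
  have hμ0 : 0 < μ := by have := lt_min hν one_pos; positivity
  have hμν : μ ≤ ν / 8 := by have := min_le_left ν 1; linarith
  have hμ1 : μ ≤ 1 / 8 := by have := min_le_right ν 1; linarith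
  obtain ⟨e₃, he₃, hsmall⟩ := s1c_small C hν hμ0
  refine ⟨μ, min e₁ (min e₂ e₃), hμ0, by linarith, lt_min he₁ (lt_min he₂ he₃), ?_⟩
  intro X c x s₀ T₁ e s he h hs₀ hsT
  have h1 : e ≤ e₁ := he.trans (min_le_left _ _)
  have h2 : e ≤ e₂ := he.trans ((min_le_right _ _).trans (min_le_left _ _))
  have h3 : e ≤ e₃ := he.trans ((min_le_right _ _).trans (min_le_right _ _))
  obtain ⟨a1, a2, a3⟩ := hsmall e h.e_pos h3
  have hT₁ := h.T₁_pos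
  have hT := c.T_pos
  have hμs : 0 < μ * s := h.s₀_pos.trans_le hs₀
  have hs : 0 < s := (mul_pos_iff_of_pos_left hμ0).1 hμs
  have hμs' : μ * s ≤ s := by nlinarith
  have hs5 : s ≤ 10 ^ 5 * T₁ := by linarith
  obtain ⟨t1, -, -, t4⟩ := h.times (by linarith) hs hs5
  obtain ⟨hpd, hsm'⟩ := hsm X c x h2 h s ⟨hs₀.trans hμs', hs5⟩
  have key : ∀ ξ, (1 - 4 * μ) * (2 * s * qf (c.G s x) ξ) ≤ qf (c.J s x) ξ := by
    intro ξ
    have hu := (c.u_nice ξ).1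
    have hg0 : 0 ≤ qf (c.G s x) ξ := MC.psd_qf hpd.posSemidef ξ
    obtain ⟨hint, hcov⟩ := X.h.cov hu hu hs x
    have hJ : qf (c.J s x) ξ =
        2 * ∫ σ in (0 : ℝ)..s, X.h.P σ (X.h.Γ (X.h.P (s - σ) (c.u ξ)) (X.h.P (s - σ) (c.u ξ))) x := by
      rw [← hcov, ← MC.bf_self, c.bf_J hs]
      rfl
    have hi1 := hint.mono_set (c := 0) (d := μ * s) (by
      rw [uIcc_of_le hμs.le, uIcc_of_le hs.le]; exact Icc_subset_Icc_right hμs')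
    have hi2 := hint.mono_set (c := μ * s) (d := s) (by
      rw [uIcc_of_le hμs', uIcc_of_le hs.le]; exact Icc_subset_Icc_left hμs.le)
    have hA := intervalIntegral.integral_mono_on_of_le_Ioo hμs.le (intervalIntegrable_const (c := (0 : ℝ))) hi1
      fun σ hσ => X.h.P_nonneg hσ.1 x fun y => X.h.Γ_nonneg _ y
    have hB := intervalIntegral.integral_mono_on_of_le_Ioo hμs'
      (intervalIntegrable_const (c := ((1 - μ) ^ 2 - μ) * qf (c.G s x) ξ)) hi2 fun σ hσ => by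
        have hσ0 : 0 < σ := hμs.trans hσ.1
        have hd : 0 < s - σ := sub_pos.2 hσ.2
        have hP : X.h.P (s - σ) (c.u ξ) = c.U (s - σ + c.T) ξ := (c.P_U hd hT ξ).1
        rw [hP]
        have hK : ∀ y, X.h.Γ (fun z => c.U (s - σ + c.T) ξ z - c.u ξ z)
            (fun z => c.U (s - σ + c.T) ξ z - c.u ξ z) y ≤ μ ^ 2 * qf (c.G s x) ξ := fun y => by
          have b1 := (hsh X c (s - σ + c.T) ⟨by linarith, by linarith⟩ c.T ⟨by linarith, by linarith⟩ ξ y).2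
          have b2 := (hsm' ξ).1
          have hξ : 0 ≤ ξ ⬝ᵥ ξ := Finset.sum_nonneg fun i _ => mul_self_nonneg _
          rw [div_mul_eq_mul_div, div_le_iff₀ hT] at b2
          refine le_of_mul_le_mul_left (b1.trans ?_) (pow_pos hT 2)
          rw [add_sub_cancel_right]
          calc C * (s - σ) ^ 2 * (ξ ⬝ᵥ ξ) ≤ C * (c.T * s) * (ξ ⬝ᵥ ξ) := by
                gcongr
                nlinarith
            _ = C * c.T * (s * (ξ ⬝ᵥ ξ)) := by ring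
            _ ≤ C * c.T * (e ^ 2 * qf (c.G s x) ξ * c.T) := by gcongr
            _ = c.T ^ 2 * ((C * e ^ 2) * qf (c.G s x) ξ) := by ring
            _ ≤ c.T ^ 2 * (μ ^ 2 * qf (c.G s x) ξ) := by gcongr
        refine le_trans ?_ (s1c_low c x ξ hσ0 (by linarith) hμ0 hK)
        have hgσ : 0 ≤ qf (c.G σ x) ξ := MC.psd_qf (c.G_psd hσ0 x) ξ
        have b3 := (hgr X c x h1 h ξ).1 σ s (hs₀.trans hσ.1.le) hσ.2.le hs5
        have b4 : (s / σ) ^ (2 * e) ≤ μ⁻¹ ^ (2 * e) := by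
          refine Real.rpow_le_rpow (by positivity) ?_ (by have := h.e_pos; positivity)
          rw [div_le_iff₀ hσ0, ← div_eq_inv_mul, le_div_iff₀ hμ0, mul_comm]
          exact hσ.1.le
        have b5 : qf (c.G s x) ξ ≤ (1 + μ) * qf (c.G σ x) ξ := by
          refine b3.trans (mul_le_mul_of_nonneg_right (le_trans ?_ a1) hgσ)
          have := h.e_pos
          gcongr
        have b6 : (1 - μ) * qf (c.G s x) ξ ≤ qf (c.G σ x) ξ := by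
          have := mul_le_mul_of_nonneg_left b5 (by linarith : 0 ≤ 1 - μ)
          nlinarith [mul_nonneg (sq_nonneg μ) hgσ]
        have b7 : μ⁻¹ * (μ ^ 2 * qf (c.G s x) ξ) = μ * qf (c.G s x) ξ := by field_simp
        have b8 := mul_le_mul_of_nonneg_left b6 (by linarith : 0 ≤ 1 - μ)
        rw [b7]
        nlinarith
    rw [hJ, ← intervalIntegral.integral_add_adjacent_intervals hi1 hi2]
    simp only [intervalIntegral.integral_const, smul_eq_mul, mul_zero] at hA hB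
    have hsg : 0 ≤ s * qf (c.G s x) ξ := by positivity
    have b9 : 1 - 4 * μ ≤ (1 - μ) * ((1 - μ) ^ 2 - μ) := by nlinarith [mul_pos hμ0 hμ0]
    have b10 := mul_le_mul_of_nonneg_right b9 hsg
    nlinarith
  refine ⟨PosDef.of_dotProduct_mulVec_pos (c.J_psd hs x).1 fun ξ hξ => ?_, fun ξ => ?_⟩
  · have b1 : 0 < qf (c.G s x) ξ := by simpa [qf] using hpd.dotProduct_mulVec_pos hξ
    have b2 : 0 < qf (c.J s x) ξ := lt_of_lt_of_le (mul_pos (by linarith) (by positivity)) (key ξ)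
    simpa [qf] using b2
  · have hg0 : 0 ≤ 2 * s * qf (c.G s x) ξ := by
      have := MC.psd_qf hpd.posSemidef ξ
      positivity
    have b1 := c.J_le hs x ξ
    have b2 : Real.exp (2 * X.h.k * s) ≤ 1 + ν := le_trans (Real.exp_le_exp.2 (by linarith)) a2
    have b3 := mul_le_mul_of_nonneg_right b2 hg0
    have b4 := key ξ
    have b5 := mul_le_mul_of_nonneg_right (by linarith : 4 * μ ≤ ν) hg0
    rw [abs_le]
    constructor <;> nlinarith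

/-- Recipe: `f = u η`, `m = P s f x`: `∫_B (f-c₀)² H ≥ Var + (m-c₀)² - 2∫_{Bᶜ}(f-m)²H - 2(m-c₀)² H(Bᶜ)`; `JG` with `ν = 1/2`, `hyp_gr`, `P_tail`. -/
theorem spread (n : ℕ) : ∃ R₁ δ e₀ : ℝ, 0 < R₁ ∧ 0 < δ ∧ δ ≤ 1 ∧ 0 < e₀ ∧
    ∀ (X : Sp.{u} n) (c : Crd X) (x : X.M) {s₀ T₁ e s : ℝ}, e ≤ e₀ → c.Hyp x s₀ T₁ e → s₀ ≤ δ * s →
      s ≤ T₁ → ∀ η c₀, s * qf (c.G s x) η / 2 ≤
        ∫ y in closedBall x (R₁ * Real.sqrt s), X.h.H s x y * (c.u η y - c₀) ^ 2 ∂X.h.m := by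
  obtain ⟨δ, e₁, hδ, hδ1, he₁, hJG⟩ := JG.{u} n (1 / 2) (by norm_num)
  obtain ⟨C, e₂, hC, he₂, hgr⟩ := hyp_gr.{u} n
  set ε : ℝ := min (1 / 2) (1 / (4 * C ^ 2)) with hε
  have hε0 : 0 < ε := lt_min (by norm_num) (by positivity)
  have hε1 : ε ≤ 1 / 2 := min_le_left _ _
  have hε2 : C ^ 2 * ε ≤ 1 / 4 := by
    have : ε ≤ 1 / (4 * C ^ 2) := min_le_right _ _
    rw [le_div_iff₀ (by positivity)] at this
    linarith
  obtain ⟨A, hA, htail⟩ := P_tail.{u} n 4 ε hε0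
  obtain ⟨C', -, hPgr⟩ := P_gr.{u} n 4
  refine ⟨A, δ, min 1 (min e₁ e₂), hA, hδ, hδ1, lt_min one_pos (lt_min he₁ he₂), ?_⟩
  intro X c x s₀ T₁ e s he h hs₀ hsT η c₀
  have h0 : e ≤ 1 := he.trans (min_le_left _ _)
  have h1 : e ≤ e₁ := he.trans ((min_le_right _ _).trans (min_le_left _ _))
  have h2 : e ≤ e₂ := he.trans ((min_le_right _ _).trans (min_le_right _ _))
  have hT₁ := h.T₁_pos
  have hδs : 0 < δ * s := h.s₀_pos.trans_le hs₀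
  have hs : 0 < s := (mul_pos_iff_of_pos_left hδ).1 hδs
  have hδs' : δ * s ≤ s := by nlinarith
  have hs5 : s ≤ 10 ^ 5 * T₁ := by linarith
  obtain ⟨-, t2, -, -⟩ := h.times h0 hs hs5
  have hk : X.h.k * s ≤ 1 := by linarith [t2.2]
  have hu := (c.u_nice η).1
  have hg0 : 0 ≤ s * qf (c.G s x) η := mul_nonneg hs.le (MC.psd_qf (c.G_psd hs x) η)
  have hJ := (abs_le.1 ((hJG X c x h1 h hs₀ hsT).2 η)).1
  have hJ' : qf (c.J s x) η = X.h.P s (fun y => c.u η y * c.u η y) x - X.h.P s (c.u η) x * X.h.P s (c.u η) x := by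
    rw [← MC.bf_self, c.bf_J hs]
    rfl
  have hG := (hgr X c x h2 h s ⟨hs₀.trans hδs', hs5⟩ η).2
  set m := X.h.P s (c.u η) x with hm
  set w : X.M → ℝ := {y | A * Real.sqrt s ≤ dist x y}.indicator
    fun y => Real.exp (4 * dist x y / Real.sqrt s) with hw
  have hw0 : ∀ y, 0 ≤ w y := fun y => indicator_nonneg (fun _ _ => (Real.exp_pos _).le) y
  have iw : Integrable (fun y => X.h.H s x y * w y) X.h.m := by
    refine (hPgr X (t := s) (B := 1) hs (by linarith) hk x x ?_ fun y => ?_).1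
    · refine (Measurable.indicator (by fun_prop) ?_).aestronglyMeasurable
      exact (isClosed_le continuous_const (by fun_prop)).measurableSet
    · rw [abs_of_nonneg (hw0 y), one_mul]
      exact indicator_le_self' (fun _ _ => (Real.exp_pos _).le) y
  have hwε : X.h.P s w x ≤ ε := htail X hs le_rfl hk x
  have i0 := (X.h.H_int hs x).1
  have i1 := X.h.int_L2 hs x hu.bd.1
  have i2 : Integrable (fun y => X.h.H s x y * (c.u η y * c.u η y)) X.h.m := by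
    simpa only [sq] using X.h.h2e_sq hu.bd hs x
  have i3 : Integrable (fun y => X.h.H s x y * (c.u η y * c.u η y) - 2 * c₀ * (X.h.H s x y * c.u η y)) X.h.m :=
    i2.sub (i1.const_mul _)
  have i4 : Integrable (fun y => X.h.H s x y * (c.u η y * c.u η y) - 2 * c₀ * (X.h.H s x y * c.u η y) +
      c₀ ^ 2 * X.h.H s x y) X.h.m := i3.add (i0.const_mul _)
  have e4 : ∀ y, X.h.H s x y * (c.u η y - c₀) ^ 2 = X.h.H s x y * (c.u η y * c.u η y) -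
      2 * c₀ * (X.h.H s x y * c.u η y) + c₀ ^ 2 * X.h.H s x y := fun y => by ring
  have i5 : Integrable (fun y => X.h.H s x y * (c.u η y - c₀) ^ 2) X.h.m := by simpa only [e4] using i4
  have v5 : ∫ y, X.h.H s x y * (c.u η y - c₀) ^ 2 ∂X.h.m = qf (c.J s x) η + (m - c₀) ^ 2 := by
    simp only [e4]
    rw [integral_add i3 (i0.const_mul _), integral_sub i2 (i1.const_mul _), integral_const_mul, integral_const_mul,
      X.h.int_H hs, hJ']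
    change X.h.P s (fun y => c.u η y * c.u η y) x - 2 * c₀ * m + _ = _
    ring
  set L : ℝ := 2 * C ^ 2 * (s * qf (c.G s x) η) + 2 * (m - c₀) ^ 2 with hL
  have hL0 : 0 ≤ L := by positivity
  have hpt : ∀ y, X.h.H s x y * (c.u η y - c₀) ^ 2 - L * (X.h.H s x y * w y) ≤
      (closedBall x (A * Real.sqrt s)).indicator (fun y => X.h.H s x y * (c.u η y - c₀) ^ 2) y := fun y => by
    have hH := X.h.H_nonneg hs x y
    by_cases hy : y ∈ closedBall x (A * Real.sqrt s)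
    · rw [indicator_of_mem hy]
      have := mul_nonneg hL0 (mul_nonneg hH (hw0 y))
      linarith
    · rw [indicator_of_notMem hy]
      have hy' : y ∈ {y | A * Real.sqrt s ≤ dist x y} := by
        rw [mem_closedBall, dist_comm, not_le] at hy
        exact hy.le
      have b0 : w y = Real.exp (2 * dist x y / Real.sqrt s) ^ 2 := by
        rw [hw, indicator_of_mem hy', ← Real.exp_nat_mul]
        congr 1
        push_cast
        ring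
      have b1 : 1 ≤ w y := by
        rw [b0]
        exact one_le_pow₀ (Real.one_le_exp (by positivity))
      have b2 : (c.u η y - m) ^ 2 ≤ C ^ 2 * (s * qf (c.G s x) η) * w y := by
        have := pow_le_pow_left₀ (abs_nonneg _) (hG y) 2
        rwa [sq_abs, mul_pow, mul_pow, Real.sq_sqrt hg0, ← b0] at this
      have b3 : (c.u η y - c₀) ^ 2 ≤ L * w y := by
        have := mul_le_mul_of_nonneg_left b1 (sq_nonneg (m - c₀))
        rw [hL]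
        nlinarith [sq_nonneg (c.u η y - m - (m - c₀))]
      have := mul_le_mul_of_nonneg_left b3 hH
      nlinarith
  have hI := integral_mono (i5.sub (iw.const_mul L)) (i5.indicator measurableSet_closedBall) hpt
  simp only [Pi.sub_apply] at hI
  rw [integral_sub i5 (iw.const_mul L), integral_const_mul, v5, integral_indicator measurableSet_closedBall] at hI
  refine le_trans ?_ hI
  have b4 : L * ∫ y, X.h.H s x y * w y ∂X.h.m ≤ L * ε := mul_le_mul_of_nonneg_left hwε hL0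
  have b5 := mul_le_mul_of_nonneg_right hε2 hg0
  have b6 := mul_le_mul_of_nonneg_right hε1 (sq_nonneg (m - c₀))
  rw [hL] at b4 ⊢
  nlinarith

end Crest.Agent.R247
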