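import Crest.Agent.R247.S1

/-! # Row 247, S3: the forward flow `ρ s = P (s-t) (ψ H t)`, its energy and decay -/

set_option autoImplicit false
set_option linter.unusedSectionVars false
set_option linter.unusedVariables false
open MeasureTheory Filter Set Metric Matrix
open scoped ENNReal NNReal Topology ContDiff
open Crest.GeometryTopology.CoordMetric

noncomputable section
namespace Crest.Agent.R247
universe u

variable {n : ℕ} {X : Sp.{u} n} {x : X.M} {t : ℝ} {ψ : X.M → ℝ}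

section a

lemma s3a_mono {B R R' : ℝ} {f : X.M → ℝ} (h : Gr x t B R f) (hR : R ≤ R') : Gr x t |B| R' f := by
  intro y
  refine (h y).trans (mul_le_mul (le_abs_self B) (Real.exp_le_exp.2 ?_) (Real.exp_pos _).le
    (abs_nonneg B))
  exact div_le_div_of_nonneg_right (mul_le_mul_of_nonneg_right hR dist_nonneg) (Real.sqrt_nonneg t)

lemma s3a_mul {B R B' R' : ℝ} {f f' : X.M → ℝ} (h : Gr x t B R f) (h' : Gr x t B' R' f') :
    Gr x t (B * B') (R + R') fun y => f y * f' y := by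
  intro y
  have e : B * B' * Real.exp ((R + R') * dist x y / Real.sqrt t) =
      B * Real.exp (R * dist x y / Real.sqrt t) * (B' * Real.exp (R' * dist x y / Real.sqrt t)) := by
    rw [add_mul, add_div, Real.exp_add]; ring
  rw [e, abs_mul]
  exact mul_le_mul (h y) (h' y) (abs_nonneg _) ((abs_nonneg _).trans (h y))

lemma s3a_scale {B R s : ℝ} {f : X.M → ℝ} (h : Gr x t B R f) (hs : 0 < s) :
    Gr x s B (R * Real.sqrt s / Real.sqrt t) f := by
  intro y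
  have h1 : Real.sqrt s ≠ 0 := (Real.sqrt_pos.2 hs).ne'
  have e : R * Real.sqrt s / Real.sqrt t * dist x y / Real.sqrt s = R * dist x y / Real.sqrt t := by
    field_simp
  rw [e]
  exact h y

lemma s3a_int {B R s : ℝ} {f : X.M → ℝ} (hs : 0 < s) (hst : s ≤ t) (hk : X.h.k * s ≤ 1)
    (hm : AEStronglyMeasurable f X.h.m) (h : Gr x t B R f) :
    (∀ z, Integrable (fun y => X.h.H s z y * f y) X.h.m) ∧ ∃ B' R', Gr x t B' R' (X.h.P s f) := by
  obtain ⟨C, -, hC⟩ := P_gr.{u} n R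
  have h1 : s ≤ 10 ^ 5 * t := by nlinarith
  exact ⟨fun z => (hC X hs h1 hk x z hm h).1, C * B, |R|, fun z => (hC X hs h1 hk x z hm h).2⟩

lemma s3a_meas {s : ℝ} (hs : 0 < s) {f : X.M → ℝ} (hm : AEStronglyMeasurable f X.h.m) :
    AEStronglyMeasurable (X.h.P s f) X.h.m := by
  have := X.h.fin_cpt
  have hm2 : AEStronglyMeasurable (fun p : X.M × X.M => X.h.H s p.1 p.2 * f p.2)
      (X.h.m.prod X.h.m) := (X.h.H_meas hs).aestronglyMeasurable.mul hm.comp_snd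
  exact hm2.integral_prod_right'

lemma s3a_k (ht : X.h.ok t) : X.h.k * t ≤ 1 := ht.2.trans (by norm_num)

lemma s3a_ok {s : ℝ} (hs : X.h.ok s) (ht : 0 < t) (hts : t ≤ s) : X.h.ok t :=
  ⟨ht, (mul_le_mul_of_nonneg_left hts X.h.k_nonneg).trans hs.2⟩

lemma s3a_bdd (ht : X.h.ok t) (h : CG x t ψ) : ∃ K, ∀ z, |ψ z * X.h.H t x z| ≤ K := by
  obtain ⟨C, hC0, hC⟩ := gauss_up.{u} n
  obtain ⟨-, B, R, hB⟩ := h
  have hθ := (X.h.th_pos ht.1 x).le
  refine ⟨|B| * (C * X.h.th t x) * Real.exp (R ^ 2 / (4 * (1 / 100))), fun z => ?_⟩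
  have h1 := hC X ht.1 (ht.2.trans (by norm_num)) x z
  have h2 := s3a_mono hB le_rfl z
  have h3 := h5b_quad ht.1 (c := 1 / 100) (by norm_num) (dist x z) R
  have h4 : Real.exp (R * dist x z / Real.sqrt t) * Real.exp (-dist x z ^ 2 / (100 * t)) ≤
      Real.exp (R ^ 2 / (4 * (1 / 100))) := by
    rw [← Real.exp_add]
    refine Real.exp_le_exp.2 ?_
    have : -dist x z ^ 2 / (100 * t) = -(1 / 100 * (dist x z ^ 2 / t)) := by
      have := ht.1.ne'
      field_simp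
    linarith
  rw [abs_mul, abs_of_nonneg (X.h.H_nonneg ht.1 x z)]
  calc |ψ z| * X.h.H t x z ≤ |B| * Real.exp (R * dist x z / Real.sqrt t) *
        (C * X.h.th t x * Real.exp (-dist x z ^ 2 / (100 * t))) :=
        mul_le_mul h2 h1 (X.h.H_nonneg ht.1 x z) (by positivity)
    _ = |B| * (C * X.h.th t x) * (Real.exp (R * dist x z / Real.sqrt t) *
        Real.exp (-dist x z ^ 2 / (100 * t))) := by ring
    _ ≤ _ := mul_le_mul_of_nonneg_left h4 (by positivity)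

/-- `gauss_up`, `P_gr`. -/
theorem CG.bd (ht : X.h.ok t) (h : CG x t ψ) : X.h.Bd (fun z => ψ z * X.h.H t x z) ∧
    Integrable (fun z => X.h.H t x z * ψ z) X.h.m ∧ Integrable (fun z => X.h.H t x z * ψ z ^ 2) X.h.m := by
  obtain ⟨K, hK⟩ := s3a_bdd ht h
  obtain ⟨hc, B, R, hB⟩ := h
  have i1 := (s3a_int ht.1 le_rfl (s3a_k ht) hc.aestronglyMeasurable hB).1 x
  have i2 := (s3a_int ht.1 le_rfl (s3a_k ht) (hc.mul hc).aestronglyMeasurable (s3a_mul hB hB)).1 x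
  have hm : AEStronglyMeasurable (fun z => ψ z * X.h.H t x z) X.h.m :=
    (hc.mul (X.h.H_cont ht.1 x)).aestronglyMeasurable
  refine ⟨⟨?_, K, hK⟩, i1, i2.congr (Eventually.of_forall fun z => by simp only [Pi.mul_apply, sq])⟩
  rw [memLp_two_iff_integrable_sq hm]
  refine (i1.norm.const_mul K).mono' (hm.pow 2) (Eventually.of_forall fun z => ?_)
  rw [Real.norm_eq_abs, Real.norm_eq_abs, abs_pow, sq, mul_comm (X.h.H t x z)]
  exact mul_le_mul_of_nonneg_right (hK z) (abs_nonneg _)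

theorem CG.add {f f' : X.M → ℝ} (h : CG x t f) (h' : CG x t f') : CG x t fun y => f y + f' y := by
  obtain ⟨hc, B, R, hB⟩ := h
  obtain ⟨hc', B', R', hB'⟩ := h'
  refine ⟨hc.add hc', |B| + |B'|, max R R', fun y => ?_⟩
  rw [add_mul]
  exact (abs_add_le _ _).trans
    (add_le_add (s3a_mono hB (le_max_left _ _) y) (s3a_mono hB' (le_max_right _ _) y))

theorem CG.mul {f f' : X.M → ℝ} (h : CG x t f) (h' : CG x t f') : CG x t fun y => f y * f' y := by
  obtain ⟨hc, B, R, hB⟩ := h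
  obtain ⟨hc', B', R', hB'⟩ := h'
  exact ⟨hc.mul hc', _, _, s3a_mul hB hB'⟩

theorem CG.of_bdd {f : X.M → ℝ} (hf : Continuous f) {B : ℝ} (hB : ∀ y, |f y| ≤ B) : CG x t f := ⟨hf, B, 0, fun y => by simpa using hB y⟩

theorem CG.sub {f f' : X.M → ℝ} (h : CG x t f) (h' : CG x t f') : CG x t fun y => f y - f' y := by
  obtain ⟨hc, B, R, hB⟩ := h
  obtain ⟨hc', B', R', hB'⟩ := h'
  refine ⟨hc.sub hc', |B| + |B'|, max R R', fun y => ?_⟩
  rw [add_mul]
  exact (abs_sub _ _).trans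
    (add_le_add (s3a_mono hB (le_max_left _ _) y) (s3a_mono hB' (le_max_right _ _) y))

theorem CG.of_poly {f : X.M → ℝ} (ht : 0 < t) (hf : Continuous f) {B : ℝ} {j : ℕ}
    (hB : ∀ y, |f y| ≤ B * (1 + dist x y ^ 2 / t) ^ j) : CG x t f := by
  refine ⟨hf, |B|, j * 2, fun y => (hB y).trans ?_⟩
  have hs : 0 < Real.sqrt t := Real.sqrt_pos.2 ht
  have hu : 0 ≤ dist x y / Real.sqrt t := div_nonneg dist_nonneg hs.le
  have e1 : dist x y ^ 2 / t = (dist x y / Real.sqrt t) ^ 2 := by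
    rw [div_pow, Real.sq_sqrt ht.le]
  have e2 : (j : ℝ) * 2 * dist x y / Real.sqrt t = j * (2 * (dist x y / Real.sqrt t)) := by ring
  rw [e1, e2, Real.exp_nat_mul]
  refine mul_le_mul (le_abs_self B) (pow_le_pow_left₀ (by positivity) ?_ j) (by positivity)
    (abs_nonneg B)
  have h1 := Real.add_one_le_exp (dist x y / Real.sqrt t)
  rw [two_mul, Real.exp_add]
  nlinarith

theorem ρ_Sm (ht : X.h.ok t) (h : CG x t ψ) : X.h.Sm (Ioi t) (X.h.ρ x t ψ) ∧
    X.h.Sm (Ioi t) (X.h.ψs x t ψ) ∧ (∀ s, t < s → ∀ y, dt (X.h.ρ x t ψ) s y = X.h.Δ (X.h.ρ x t ψ s) y) ∧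
    ∀ s, t < s → ∀ y, X.h.ρ x t ψ s y = X.h.H s x y * X.h.ψs x t ψ s y := by
  have hb := (CG.bd ht h).1.1
  obtain ⟨h1, h2⟩ := X.h.Sm_shift (X.h.P_Sm hb) t
  have hH : X.h.Sm (Ioi t) fun s => X.h.H s x :=
    X.h.Sm_mono (X.h.H_Sm x) fun s hs => ht.1.trans hs
  refine ⟨h1, X.h.Sm_div h1 hH fun s hs y => X.h.H_pos (ht.1.trans hs) x y, fun s hs y => ?_,
    fun s hs y => ?_⟩
  · exact (h2 s hs y).trans (X.h.P_heat hb (sub_pos.2 hs) y)
  · have := (X.h.H_pos (ht.1.trans hs) x y).ne'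
    unfold HS.ψs
    field_simp

/-- `ρ² ≤ P (s-t)(ψ² H t) · H s` (Cauchy-Schwarz, `P_H`), and `∫ P g = ∫ g`. -/
theorem Jρ_le (ht : X.h.ok t) (h : CG x t ψ) {s : ℝ} (hs : t < s) :
    Integrable (fun y => X.h.H s x y * X.h.ψs x t ψ s y ^ 2) X.h.m ∧
      X.h.Jρ x t ψ s ≤ X.h.P t (fun y => ψ y ^ 2) x ∧ 0 ≤ X.h.Jρ x t ψ s := by
  have hs0 : 0 < s := ht.1.trans hs
  have hr : 0 < s - t := sub_pos.2 hs
  obtain ⟨⟨-, K, hK⟩, i2, -⟩ := CG.bd ht (h.mul h)
  have hH := X.h.H_cont ht.1 x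
  have hH0 := X.h.H_nonneg ht.1 x
  have hgc : Continuous fun z => ψ z * ψ z * X.h.H t x z := (h.1.mul h.1).mul hH
  have ig : Integrable (fun z => ψ z * ψ z * X.h.H t x z) X.h.m :=
    i2.congr (Eventually.of_forall fun z => mul_comm _ _)
  have e1 : (fun z => (ψ z * Real.sqrt (X.h.H t x z)) ^ 2) = fun z => ψ z * ψ z * X.h.H t x z := by
    funext z
    rw [mul_pow, Real.sq_sqrt (hH0 z), sq]
  have e2 : (fun z => Real.sqrt (X.h.H t x z) ^ 2) = X.h.H t x := by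
    funext z
    rw [Real.sq_sqrt (hH0 z)]
  have e3 : (fun z => ψ z * Real.sqrt (X.h.H t x z) * Real.sqrt (X.h.H t x z)) =
      fun z => ψ z * X.h.H t x z := by
    funext z
    rw [mul_assoc, Real.mul_self_sqrt (hH0 z)]
  have key : ∀ y, X.h.H s x y * X.h.ψs x t ψ s y ^ 2 ≤
      X.h.P (s - t) (fun z => ψ z * ψ z * X.h.H t x z) y := fun y => by
    have hp := X.h.H_pos hs0 x y
    have j1 : Integrable (fun z => X.h.H (s - t) y z * (ψ z * Real.sqrt (X.h.H t x z)) ^ 2) X.h.m := by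
      have := X.h.int_bdd hr y hgc.aestronglyMeasurable hK
      refine this.congr (Eventually.of_forall fun z => ?_)
      simp only
      rw [congrFun e1 z]
    have j2 : Integrable (fun z => X.h.H (s - t) y z * Real.sqrt (X.h.H t x z) ^ 2) X.h.m := by
      have := X.h.int_L2 hr y (X.h.H_L2 ht.1 x)
      refine this.congr (Eventually.of_forall fun z => ?_)
      simp only
      rw [congrFun e2 z]
    have c := (X.h.P_cs hr (f := fun z => ψ z * Real.sqrt (X.h.H t x z))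
      (f' := fun z => Real.sqrt (X.h.H t x z)) (h.1.mul hH.sqrt).aestronglyMeasurable hH.sqrt.aestronglyMeasurable j1 j2).2
    rw [e1, e2, e3, X.h.P_H hr ht.1, sub_add_cancel] at c
    have g0 : 0 ≤ X.h.P (s - t) (fun z => ψ z * ψ z * X.h.H t x z) y :=
      X.h.P_nonneg hr y fun z => mul_nonneg (mul_self_nonneg _) (hH0 z)
    have c2 := pow_le_pow_left₀ (abs_nonneg _) c 2
    rw [sq_abs, mul_pow, Real.sq_sqrt g0, Real.sq_sqrt hp.le] at c2
    have e4 : X.h.H s x y * X.h.ψs x t ψ s y ^ 2 = X.h.ρ x t ψ s y ^ 2 / X.h.H s x y := by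
      unfold HS.ψs
      field_simp
    rw [e4, div_le_iff₀ hp]
    exact c2
  obtain ⟨-, k2, k3⟩ := X.h.P_symm hr (f := fun z => ψ z * ψ z * X.h.H t x z) (f' := fun _ => 1)
    hgc.aestronglyMeasurable aestronglyMeasurable_const
    (fun y => (X.h.H_int hr y).1.mul_const 1)
    (by simpa only [abs_one, X.h.P_const hr, mul_one] using ig)
  simp only [X.h.P_const hr, mul_one, one_mul] at k2 k3
  have h0 : ∀ y, 0 ≤ X.h.H s x y * X.h.ψs x t ψ s y ^ 2 := fun y =>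
    mul_nonneg (X.h.H_nonneg hs0 x y) (sq_nonneg _)
  have hψ : Continuous (X.h.ψs x t ψ s) := X.h.S_cont (X.h.Sm_slice (ρ_Sm ht h).2.1 hs)
  have i : Integrable (fun y => X.h.H s x y * X.h.ψs x t ψ s y ^ 2) X.h.m :=
    k2.mono' ((X.h.H_cont hs0 x).mul (hψ.pow 2)).aestronglyMeasurable
      (Eventually.of_forall fun y => by rw [Real.norm_of_nonneg (h0 y)]; exact key y)
  refine ⟨i, ?_, X.h.P_nonneg hs0 x fun y => sq_nonneg _⟩
  calc X.h.Jρ x t ψ s ≤ ∫ y, X.h.P (s - t) (fun z => ψ z * ψ z * X.h.H t x z) y ∂X.h.m :=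
        integral_mono i k2 key
    _ = ∫ z, ψ z * ψ z * X.h.H t x z ∂X.h.m := k3.symm
    _ = _ := integral_congr_ae (Eventually.of_forall fun z => by simp only; ring)

/-- `(∂ₛ - Δ)(H ψ²) = -2 H Γ(ψ,ψ)` when `H` and `Hψ` solve the heat equation; `duh2` with `e = -H ψs²`, `F = 1`. -/
theorem Jρ_energy (ht : X.h.ok t) (h : CG x t ψ) {a b : ℝ} (ha : t < a) (hab : a ≤ b) :
    X.h.STI a b (fun s y => X.h.H s x y * X.h.Γ (X.h.ψs x t ψ s) (X.h.ψs x t ψ s) y) ∧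
    X.h.Jρ x t ψ a - X.h.Jρ x t ψ b =
      2 * ∫ s in a..b, X.h.P s (X.h.Γ (X.h.ψs x t ψ s) (X.h.ψs x t ψ s)) x := by
  obtain ⟨hρ, hu, hρh, hρe⟩ := ρ_Sm ht h
  have hH : X.h.Sm (Ioi t) fun s => X.h.H s x :=
    X.h.Sm_mono (X.h.H_Sm x) fun s hs => ht.1.trans hs
  have hsub : Icc a b ⊆ Ioi t := fun s hs => ha.trans_le hs.1
  have hw := X.h.Sm_mul hH hu
  have he := X.h.Sm_mul hw hu
  have ee : ∀ s y, X.h.H s x y * X.h.ψs x t ψ s y * X.h.ψs x t ψ s y =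
      X.h.H s x y * X.h.ψs x t ψ s y ^ 2 := fun s y => by ring
  have hi : ∀ s, t < s → Integrable (fun y => X.h.H s x y * X.h.ψs x t ψ s y * X.h.ψs x t ψ s y)
      X.h.m := fun s hs => by simpa only [ee] using (Jρ_le ht h hs).1
  have h0 : ∀ s, t < s → ∀ y, 0 ≤ X.h.H s x y * X.h.ψs x t ψ s y * X.h.ψs x t ψ s y := fun s hs y => by
    rw [ee]
    exact mul_nonneg (X.h.H_nonneg (ht.1.trans hs) x y) (sq_nonneg _)
  have st : X.h.STI a b fun s y => X.h.H s x y * X.h.ψs x t ψ s y * X.h.ψs x t ψ s y := by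
    refine X.h.STI_of_bound (B := X.h.P t (fun y => ψ y ^ 2) x) hsub (X.h.Sm_cont he) fun s hs =>
      ⟨hi s (hsub hs), ?_⟩
    refine le_of_eq_of_le ?_ (Jρ_le ht h (hsub hs)).2.1
    refine integral_congr_ae (Eventually.of_forall fun y => ?_)
    simp only
    rw [abs_of_nonneg (h0 s (hsub hs) y), ee]
  have d := X.h.duh2 (I := Ioi t)
    (e := fun s y => X.h.H s x y * X.h.ψs x t ψ s y * X.h.ψs x t ψ s y) (F := fun _ _ => -1 / 2)
    (Q := fun s y => X.h.H s x y * X.h.Γ (X.h.ψs x t ψ s) (X.h.ψs x t ψ s) y) (G := fun _ _ => 0)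
    isOpen_Ioi he (X.h.Sm_const _ _) hab hsub ((hi a ha).mul_const _)
    ((hi b (ha.trans_le hab)).mul_const _) ?_ continuousOn_const (integrable_zero _ _ _) ?_ ?_
  · refine ⟨d.1, ?_⟩
    have d2 := d.2
    simp only [integral_mul_const, integral_zero, intervalIntegral.integral_zero, add_zero, ee] at d2
    have ea : X.h.Jρ x t ψ a = ∫ y, X.h.H a x y * X.h.ψs x t ψ a y ^ 2 ∂X.h.m := rfl
    have eb : X.h.Jρ x t ψ b = ∫ y, X.h.H b x y * X.h.ψs x t ψ b y ^ 2 ∂X.h.m := rfl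
    have ec : ∫ s in a..b, X.h.P s (X.h.Γ (X.h.ψs x t ψ s) (X.h.ψs x t ψ s)) x =
      ∫ s in a..b, ∫ y, X.h.H s x y * X.h.Γ (X.h.ψs x t ψ s) (X.h.ψs x t ψ s) y ∂X.h.m := rfl
    rw [ea, eb, ec]
    linarith
  · simp only [X.h.Γ_const_left, Real.sqrt_zero, add_zero]
    exact Integrable.mul_const st.abs _
  · intro s hs y
    have hs0 : 0 < s := ht.1.trans hs
    have SH := X.h.H_S hs0 x
    have Su := X.h.Sm_slice hu hs
    have Sw := X.h.S_mul SH Su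
    have a1 : dt (fun s y => X.h.H s x y * X.h.ψs x t ψ s y) s y = dt (X.h.ρ x t ψ) s y := by
      refine Filter.EventuallyEq.deriv_eq ?_
      filter_upwards [Ioi_mem_nhds hs] with r hr
      exact (hρe r hr y).symm
    have a2 : X.h.ρ x t ψ s = fun y => X.h.H s x y * X.h.ψs x t ψ s y := funext (hρe s hs)
    have a3 := hρh s hs y
    rw [← a1, a2] at a3
    have b1 := X.h.dt_mul isOpen_Ioi hH hu hs y
    have b2 := X.h.Δ_mul SH Su y
    have b3 := X.h.H_heat hs0 x y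
    have c1 := X.h.dt_mul isOpen_Ioi hw hu hs y
    have c2 := X.h.Δ_mul Sw Su y
    have c3 := X.h.Γ_mul_left SH Su (X.h.ψs x t ψ s) y
    have c4 : dt (fun _ _ => (-1 / 2 : ℝ) : ℝ → X.M → ℝ) s y = 0 := deriv_const _ _
    simp only [X.h.Δ_const]
    rw [c1, c2, c3, c4, a3]
    rw [b1, b2, b3] at a3
    linear_combination (-1 / 2 * X.h.ψs x t ψ s y) * a3
  · intro s hs y
    exact mul_nonneg (X.h.H_nonneg (ht.1.trans (hsub hs)) x y) (X.h.Γ_nonneg _ y)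

/-- Symmetry: `∫ ρ_s f = ∫ ψ H_t P (s-t) f` for `f` of exponential growth (`P_symm`, `P_gr`). -/
theorem ρ_symm (h : CG x t ψ) {s : ℝ} (ht : 0 < t) (hts : t < s) (hs : X.h.ok s) {f : X.M → ℝ}
    (hf : CG x t f) : Integrable (fun y => X.h.ρ x t ψ s y * f y) X.h.m ∧
      ∫ y, X.h.ρ x t ψ s y * f y ∂X.h.m = X.h.P t (fun y => ψ y * X.h.P (s - t) f y) x := by
  have hr : 0 < s - t := sub_pos.2 hts
  have hs0 : 0 < s := hs.1
  have okt := s3a_ok hs ht hts.le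
  have okr := s3a_ok hs hr (sub_le_self s ht.le)
  obtain ⟨hc, B, R, hB⟩ := h
  obtain ⟨hc', B', R', hB'⟩ := hf
  have g1 := s3a_scale hB hs0
  have g2 := s3a_scale hB' hs0
  have g3 : Gr x s B' (R' * Real.sqrt s / Real.sqrt t) fun z => |f z| := fun y => by
    simpa only [abs_abs] using g2 y
  have i1 := (s3a_int hr (sub_le_self s ht.le) (s3a_k okr) hc'.aestronglyMeasurable g2).1
  obtain ⟨B₂, R₂, g4⟩ := (s3a_int hr (sub_le_self s ht.le) (s3a_k okr) hc'.abs.aestronglyMeasurable g3).2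
  have i2 := (s3a_int ht hts.le (s3a_k okt) (hc.aestronglyMeasurable.mul
    (s3a_meas hr hc'.abs.aestronglyMeasurable)) (s3a_mul g1 g4)).1 x
  obtain ⟨-, k2, k3⟩ := X.h.P_symm hr (f := fun z => ψ z * X.h.H t x z) (f' := f)
    (hc.mul (X.h.H_cont ht x)).aestronglyMeasurable hc'.aestronglyMeasurable i1
    (i2.congr (Eventually.of_forall fun y => by simp only [Pi.mul_apply]; ring))
  refine ⟨k2.congr (Eventually.of_forall fun y => mul_comm _ _), ?_⟩
  calc ∫ y, X.h.ρ x t ψ s y * f y ∂X.h.m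
      = ∫ z, f z * X.h.P (s - t) (fun z => ψ z * X.h.H t x z) z ∂X.h.m :=
        integral_congr_ae (Eventually.of_forall fun y => mul_comm _ _)
    _ = ∫ y, ψ y * X.h.H t x y * X.h.P (s - t) f y ∂X.h.m := k3.symm
    _ = _ := integral_congr_ae (Eventually.of_forall fun y => by simp only; ring)

end a

section b

/-- `∫ ρ_s = 0`, `∫ ρ_s U (T+t-s) η = P t (ψ u η) x = 0` (`ρ_symm`, `P_U`), `U_shift`, `∫ |ρ_s| ≤ √(Jρ s)`. -/
theorem ρ_orth (n : ℕ) : ∃ C : ℝ, 0 < C ∧ ∀ (X : Sp.{u} n) (c : Crd X) (x : X.M) {t s : ℝ}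
    {ψ : X.M → ℝ}, 0 < t → t < s → s ≤ c.T / 2 → CG x t ψ → c.Orth x t ψ →
      X.h.P s (X.h.ψs x t ψ s) x = 0 ∧ ∀ η, X.h.P s (fun y => X.h.ψs x t ψ s y * c.u η y) x ^ 2 ≤
        C * (s ^ 2 / c.T) * (η ⬝ᵥ η) * X.h.Jρ x t ψ s := by
  obtain ⟨C, hC, HC⟩ := U_shift.{u} n
  refine ⟨C, hC, fun X c x t s ψ ht hts hs h ho => ?_⟩
  have hT := c.T_pos
  have hs0 : 0 < s := ht.trans hts
  have okt : X.h.ok t := c.ok ht (by linarith)
  have oks : X.h.ok s := c.ok hs0 (by linarith)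
  obtain ⟨-, hSm, -, hρ⟩ := ρ_Sm okt h
  have hP : ∀ f : X.M → ℝ, (fun y => X.h.H s x y * (X.h.ψs x t ψ s y * f y)) =
      fun y => X.h.ρ x t ψ s y * f y := fun f => funext fun y => by rw [hρ s hts y]; ring
  have hP' : ∀ f : X.M → ℝ, X.h.P s (fun y => X.h.ψs x t ψ s y * f y) x =
      ∫ y, X.h.ρ x t ψ s y * f y ∂X.h.m := fun f => by
    rw [← hP f]; rfl
  have hU : ∀ {τ : ℝ}, 0 < τ → ∀ η, CG x t (c.U τ η) := fun {τ} hτ η => by
    obtain ⟨h1, B, hB⟩ := (c.U_nice hτ η).1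
    exact CG.of_bdd (X.h.S_cont h1.1) fun y => (hB y).1
  refine ⟨?_, fun η => ?_⟩
  · have h1 := (ρ_symm h ht hts oks (f := fun _ => 1)
      (CG.of_bdd continuous_const (B := 1) fun y => by simp)).2
    have h2 := hP' fun _ => 1
    simp only [mul_one] at h2
    simp only [X.h.P_const (sub_pos.2 hts), mul_one] at h1
    rw [h2, h1]
    exact ho.1
  · have hτ : 0 < c.T + t - s := by linarith
    obtain ⟨i1, e1⟩ := ρ_symm h ht hts oks (hU hτ η)
    obtain ⟨i2, -⟩ := ρ_symm h ht hts oks (hU hT η)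
    rw [(c.P_U (sub_pos.2 hts) hτ η).1, show s - t + (c.T + t - s) = c.T by ring] at e1
    have e2 : ∫ y, X.h.ρ x t ψ s y * c.U (c.T + t - s) η y ∂X.h.m = 0 := e1.trans (ho.2 η)
    have e3 : X.h.P s (fun y => X.h.ψs x t ψ s y * c.u η y) x =
        X.h.P s (fun y => X.h.ψs x t ψ s y * (c.U c.T η y - c.U (c.T + t - s) η y)) x := by
      rw [hP', hP' fun y => c.U c.T η y - c.U (c.T + t - s) η y]
      simp only [mul_sub]
      rw [integral_sub i2 i1, e2, sub_zero]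
      rfl
    have hg : ∀ y, |(c.U c.T η y - c.U (c.T + t - s) η y) ^ 2| ≤ C * (s ^ 2 / c.T) * (η ⬝ᵥ η) := by
      intro y
      have h1 := (HC X c c.T ⟨by linarith, by linarith⟩ (c.T + t - s) ⟨by linarith, by linarith⟩ η y).1
      have hη : 0 ≤ η ⬝ᵥ η := Finset.sum_nonneg fun i _ => mul_self_nonneg _
      have h2 : (c.T - (c.T + t - s)) ^ 2 ≤ s ^ 2 := by nlinarith
      have h3 : C * (c.T - (c.T + t - s)) ^ 2 * (η ⬝ᵥ η) ≤ C * s ^ 2 * (η ⬝ᵥ η) := by gcongr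
      rw [abs_of_nonneg (sq_nonneg _),
        show C * (s ^ 2 / c.T) * (η ⬝ᵥ η) = C * s ^ 2 * (η ⬝ᵥ η) / c.T by ring, le_div_iff₀ hT]
      linarith
    have hc : Continuous fun y => c.U c.T η y - c.U (c.T + t - s) η y := (hU hT η).1.sub (hU hτ η).1
    obtain ⟨i3, -, J0⟩ := Jρ_le okt h hts
    have hcs := (X.h.P_cs hs0 (x := x) (X.h.S_cont (X.h.Sm_slice hSm hts)).aestronglyMeasurable
      hc.aestronglyMeasurable i3 (X.h.int_bdd hs0 x (hc.pow 2).aestronglyMeasurable hg)).2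
    have hb := (le_abs_self _).trans (X.h.abs_P_le hs0 x hg)
    have hb0 : 0 ≤ X.h.P s (fun y => (c.U c.T η y - c.U (c.T + t - s) η y) ^ 2) x :=
      X.h.P_nonneg hs0 x fun y => sq_nonneg _
    rw [e3, ← sq_abs]
    refine (pow_le_pow_left₀ (abs_nonneg _) hcs 2).trans ?_
    have J1 : 0 ≤ X.h.P s (fun y => X.h.ψs x t ψ s y ^ 2) x := J0
    rw [mul_pow, Real.sq_sqrt hb0, Real.sq_sqrt J1, mul_comm]
    exact mul_le_mul_of_nonneg_right hb J0

/-- Subdivide `[a,s]` geometrically into `N` pieces: `J b (1 + l log (b/a)) ≤ J a`; `N → ∞`, `a → t`. -/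
theorem decay_real {J : ℝ → ℝ} {t T J₀ l : ℝ} (ht : 0 < t) (hl : 0 ≤ l)
    (h₀ : ∀ s ∈ Ioc t T, 0 ≤ J s ∧ J s ≤ J₀)
    (h : ∀ a b, t < a → a ≤ b → b ≤ T → J b * (1 + l * Real.log (b / a)) ≤ J a) :
    ∀ s ∈ Ioc t T, J s ≤ J₀ * (t / s) ^ l := by
  intro s hs
  have hs0 : 0 < s := ht.trans hs.1
  have key : ∀ a, t < a → a ≤ s → J s * Real.exp (l * Real.log (s / a)) ≤ J₀ := by
    intro a ha has
    have ha0 : 0 < a := ht.trans ha
    have hL : 0 ≤ Real.log (s / a) := Real.log_nonneg ((one_le_div ha0).2 has)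
    have hN : ∀ N : ℕ, 0 < N → J s * (1 + l * Real.log (s / a) / N) ^ N ≤ J₀ := by
      intro N hN
      have hN' : (0 : ℝ) < N := by exact_mod_cast hN
      set q : ℝ := Real.log (s / a) / N with hq
      have hq0 : 0 ≤ q := by positivity
      have hstep : ∀ i : ℕ, i ≤ N → J (a * Real.exp (i * q)) * (1 + l * q) ^ i ≤ J a := by
        intro i
        induction i with
        | zero => intro _; simp
        | succ i ih =>
          intro hi
          have h1 := ih (Nat.le_of_succ_le hi)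
          have h2 : a ≤ a * Real.exp (i * q) :=
            le_mul_of_one_le_right ha0.le (Real.one_le_exp (by positivity))
          have h3 : a * Real.exp (i * q) ≤ a * Real.exp (((i + 1 : ℕ) : ℝ) * q) := by
            gcongr
            exact Nat.le_succ i
          have h4 : a * Real.exp (((i + 1 : ℕ) : ℝ) * q) ≤ T := by
            refine le_trans ?_ hs.2
            have h5 : ((i + 1 : ℕ) : ℝ) * q ≤ Real.log (s / a) := by
              have : ((i + 1 : ℕ) : ℝ) ≤ N := by exact_mod_cast hi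
              calc ((i + 1 : ℕ) : ℝ) * q ≤ N * q := by gcongr
                _ = Real.log (s / a) := by rw [hq]; field_simp
            calc a * Real.exp (((i + 1 : ℕ) : ℝ) * q) ≤ a * Real.exp (Real.log (s / a)) := by gcongr
              _ = s := by rw [Real.exp_log (by positivity)]; field_simp
          have h6 := h _ _ (ha.trans_le h2) h3 h4
          have h7 : Real.log (a * Real.exp (((i + 1 : ℕ) : ℝ) * q) / (a * Real.exp (i * q))) = q := by
            rw [mul_div_mul_left _ _ ha0.ne', ← Real.exp_sub, Real.log_exp]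
            push_cast
            ring
          rw [h7] at h6
          calc J (a * Real.exp (((i + 1 : ℕ) : ℝ) * q)) * (1 + l * q) ^ (i + 1)
              = J (a * Real.exp (((i + 1 : ℕ) : ℝ) * q)) * (1 + l * q) * (1 + l * q) ^ i := by ring
            _ ≤ J (a * Real.exp (i * q)) * (1 + l * q) ^ i :=
                mul_le_mul_of_nonneg_right h6 (by positivity)
            _ ≤ J a := h1
      have h8 := hstep N le_rfl
      have h9 : a * Real.exp (N * q) = s := by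
        rw [hq, mul_div_cancel₀ _ hN'.ne', Real.exp_log (by positivity)]
        field_simp
      rw [h9] at h8
      rw [mul_div_assoc]
      exact h8.trans (h₀ a ⟨ha, has.trans hs.2⟩).2
    have hlim := (Real.tendsto_one_add_div_pow_exp (l * Real.log (s / a))).const_mul (J s)
    exact le_of_tendsto hlim (eventually_atTop.2 ⟨1, fun N hN' => hN N hN'⟩)
  have hcont : ContinuousAt (fun a => J s * Real.exp (l * Real.log (s / a))) t := by
    have h1 : ContinuousAt (fun a => s / a) t := continuousAt_const.div continuousAt_id ht.ne'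
    exact continuousAt_const.mul (Real.continuous_exp.continuousAt.comp
      (continuousAt_const.mul (h1.log (by positivity))))
  have h2 : J s * Real.exp (l * Real.log (s / t)) ≤ J₀ := by
    refine le_of_tendsto (hcont.tendsto.mono_left (nhdsWithin_le_nhds (s := Ioi t))) ?_
    filter_upwards [Ioc_mem_nhdsGT hs.1] with a ha
    exact key a ha.1 ha.2
  have h3 : (t / s) ^ l = (Real.exp (l * Real.log (s / t)))⁻¹ := by
    rw [Real.rpow_def_of_pos (by positivity), ← Real.exp_neg, ← inv_div s t, Real.log_inv]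
    congr 1
    ring
  rw [h3, ← div_eq_mul_inv, le_div_iff₀ (Real.exp_pos _)]
  exact h2

/-- `Jρ` is antitone (`Jρ_energy`); for a.e. `σ` the gap applies to `ψs σ` (`STI.slice`, `ρ_orth`, `hyp_small`), so `2 P σ Γ ≥ (1+γ) Jρ σ/σ ≥ (1+γ) Jρ b/σ`. -/
theorem Jρ_decay (n : ℕ) (γ : ℝ) (hγ : 0 < γ) : ∃ e₀ : ℝ, 0 < e₀ ∧ ∀ (X : Sp.{u} n) (c : Crd X)
    (x : X.M) {s₀ T₁ e t : ℝ} {ψ : X.M → ℝ}, e ≤ e₀ → c.HG x s₀ T₁ e γ → s₀ ≤ t → CG x t ψ →
      c.Orth x t ψ → ∀ s ∈ Ioc t T₁,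
        X.h.Jρ x t ψ s ≤ X.h.P t (fun y => ψ y ^ 2) x * (t / s) ^ (1 + γ) := by
  obtain ⟨C, hC, HC⟩ := ρ_orth.{u} n
  obtain ⟨e₁, he₁, H₁⟩ := hyp_small.{u} n
  refine ⟨min e₁ (min 1 (γ ^ 2 / C)), by positivity, fun X c x s₀ T₁ e t ψ he hg hst h ho => ?_⟩
  have he1 : e ≤ e₁ := he.trans (min_le_left _ _)
  have he2 : e ≤ 1 := he.trans ((min_le_right _ _).trans (min_le_left _ _))
  have he3 : e ≤ γ ^ 2 / C := he.trans ((min_le_right _ _).trans (min_le_right _ _))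
  have he0 := hg.e_pos
  have hT₁ := hg.T₁_pos
  have ht : 0 < t := hg.s₀_pos.trans_le hst
  have hCe : C * e ^ 2 ≤ γ ^ 2 := by
    rw [le_div_iff₀ hC] at he3
    nlinarith [mul_pos hC he0]
  have okt : t ≤ T₁ → X.h.ok t := fun h' => (hg.toHyp.times he2 ht (by linarith)).2.1
  refine decay_real ht (by linarith) (fun s hs => ?_) fun a b ha hab hb => ?_
  · have := Jρ_le (okt (hs.1.le.trans hs.2)) h hs.1
    exact ⟨this.2.2, this.2.1⟩
  have ok := okt (ha.le.trans (hab.trans hb))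
  have ha0 : 0 < a := ht.trans ha
  obtain ⟨-, hSm, -, -⟩ := ρ_Sm ok h
  obtain ⟨hi, hE⟩ := Jρ_energy ok h ha hab
  obtain ⟨hI, hae⟩ := hi.slice hab
  have hanti : ∀ σ, t < σ → σ ≤ b → X.h.Jρ x t ψ b ≤ X.h.Jρ x t ψ σ := fun σ h1 h2 => by
    have h3 := (Jρ_energy ok h h1 h2).2
    have h4 : 0 ≤ ∫ s in σ..b, X.h.P s (X.h.Γ (X.h.ψs x t ψ s) (X.h.ψs x t ψ s)) x :=
      intervalIntegral.integral_nonneg h2 fun s hs =>
        X.h.P_nonneg (ht.trans (h1.trans_le hs.1)) x fun y => X.h.Γ_nonneg _ y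
    linarith
  have hI' : IntervalIntegrable
      (fun s => X.h.P s (X.h.Γ (X.h.ψs x t ψ s) (X.h.ψs x t ψ s)) x) volume a b := hI
  have hinv : IntervalIntegrable (fun σ : ℝ => (1 + γ) * X.h.Jρ x t ψ b / 2 * σ⁻¹) volume a b := by
    refine (ContinuousOn.intervalIntegrable ?_).const_mul _
    refine continuousOn_inv₀.mono fun σ hσ => ?_
    rw [uIcc_of_le hab] at hσ
    exact (ha0.trans_le hσ.1).ne'
  have hle : ∫ σ in a..b, (1 + γ) * X.h.Jρ x t ψ b / 2 * σ⁻¹ ≤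
      ∫ s in a..b, X.h.P s (X.h.Γ (X.h.ψs x t ψ s) (X.h.ψs x t ψ s)) x := by
    rw [intervalIntegral.integral_of_le hab, intervalIntegral.integral_of_le hab]
    refine setIntegral_mono_on_ae hinv.1 hI'.1 measurableSet_Ioc ?_
    filter_upwards [hae] with σ hσ hm
    have h1 : t < σ := ha.trans hm.1
    have h0 : 0 < σ := ht.trans h1
    have h2 : σ ≤ T₁ := hm.2.trans hb
    have h3 := (hg.toHyp.times he2 h0 (by linarith)).1
    have hT := c.T_pos
    obtain ⟨o1, o2⟩ := HC X c x ht h1 (by linarith) h ho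
    obtain ⟨i1, -, J0⟩ := Jρ_le ok h h1
    obtain ⟨hpd, hsm⟩ := H₁ X c x he1 hg.toHyp σ ⟨hst.trans h1.le, by linarith⟩
    have hgap := hg.gap σ ⟨hst.trans h1.le, h2⟩ _ (X.h.Sm_slice hSm h1) i1 (hσ hm) o1 fun ξ => by
      refine (o2 ξ).trans (mul_le_mul_of_nonneg_right ?_ J0)
      have h4 := (hsm ξ).1
      have h5 : 0 ≤ qf (c.G σ x) ξ := by
        rw [c.qf_G h0]
        exact X.h.P_nonneg h0 x fun y => X.h.Γ_nonneg _ y
      calc C * (σ ^ 2 / c.T) * (ξ ⬝ᵥ ξ) = C * σ * (σ / c.T * (ξ ⬝ᵥ ξ)) := by ring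
        _ ≤ C * σ * (e ^ 2 * qf (c.G σ x) ξ) := by gcongr
        _ = C * e ^ 2 * (σ * qf (c.G σ x) ξ) := by ring
        _ ≤ γ ^ 2 * (σ * qf (c.G σ x) ξ) := by gcongr
        _ = γ ^ 2 * σ * qf (c.G σ x) ξ := by ring
    have h6 := mul_le_mul_of_nonneg_left (hanti σ h1 hm.2) (show 0 ≤ 1 + γ by linarith)
    have h7 : (1 + γ) * X.h.Jρ x t ψ σ ≤
      2 * σ * X.h.P σ (X.h.Γ (X.h.ψs x t ψ σ) (X.h.ψs x t ψ σ)) x := hgap
    rw [← div_eq_mul_inv, div_le_iff₀ h0]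
    linarith
  rw [intervalIntegral.integral_const_mul, integral_inv_of_pos ha0 (ha0.trans_le hab)] at hle
  linarith

/-- Integration by parts against `H t x` (`ibp_L1` with weight `ψ H`, `Γ_H`). -/
theorem ibp_H (X : Sp.{u} n) (x : X.M) {t : ℝ} (ht : 0 < t) {f ψ : X.M → ℝ} (hf : X.h.S f)
    (hψ : X.h.S ψ) (h₁ : Integrable (fun y => X.h.H t x y * ψ y ^ 2) X.h.m)
    (h₂ : Integrable (fun y => X.h.H t x y * X.h.Γ ψ ψ y) X.h.m)
    (h₃ : Integrable (fun y => X.h.H t x y * X.h.Γ f f y) X.h.m)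
    (h₄ : Integrable (fun y => X.h.H t x y * X.h.Δ f y ^ 2) X.h.m)
    (h₅ : Integrable (fun y => X.h.H t x y * X.h.Γ f (X.h.φ t x) y ^ 2) X.h.m) :
    X.h.P t (X.h.Γ f ψ) x = X.h.P t (fun y => ψ y * X.h.L t x f y) x := by
  have cf : Continuous fun y => Real.sqrt (X.h.Γ f f y) := (X.h.S_cont (X.h.S_Γ hf hf)).sqrt
  have cψ : Continuous fun y => Real.sqrt (X.h.Γ ψ ψ y) := (X.h.S_cont (X.h.S_Γ hψ hψ)).sqrt
  have mψ := (X.h.S_cont hψ).aestronglyMeasurable (μ := X.h.m)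
  have hH := X.h.H_S ht x
  have hφ := X.h.φ_S ht x
  have h₂' : Integrable (fun y => X.h.H t x y * Real.sqrt (X.h.Γ ψ ψ y) ^ 2) X.h.m := by
    simpa only [Real.sq_sqrt (X.h.Γ_nonneg ψ _)] using h₂
  have h₃' : Integrable (fun y => X.h.H t x y * Real.sqrt (X.h.Γ f f y) ^ 2) X.h.m := by
    simpa only [Real.sq_sqrt (X.h.Γ_nonneg f _)] using h₃
  have i1 := (X.h.P_cs ht mψ (X.h.S_cont (X.h.S_Δ hf)).aestronglyMeasurable h₁ h₄).1
  have i2 := (X.h.P_cs ht mψ (X.h.S_cont (X.h.S_Γ hf hφ)).aestronglyMeasurable h₁ h₅).1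
  have i3 : Integrable (fun y => X.h.H t x y * X.h.Γ f ψ y) X.h.m := by
    refine (X.h.P_cs ht cf.aestronglyMeasurable cψ.aestronglyMeasurable h₃' h₂').1.mono'
      ((X.h.S_cont hH).mul (X.h.S_cont (X.h.S_Γ hf hψ))).aestronglyMeasurable
      (Eventually.of_forall fun y => ?_)
    rw [norm_mul, Real.norm_of_nonneg (X.h.H_nonneg ht x y), Real.norm_eq_abs]
    exact mul_le_mul_of_nonneg_left (X.h.abs_Γ_le f ψ y) (X.h.H_nonneg ht x y)
  have i4 := (X.h.P_cs ht mψ cf.aestronglyMeasurable h₁ h₃').1.abs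
  have e1 : X.h.Γ f (fun y => ψ y * X.h.H t x y) = fun y => X.h.H t x y * X.h.Γ f ψ y -
      X.h.H t x y * (ψ y * X.h.Γ f (X.h.φ t x) y) := by
    funext y
    rw [X.h.Γ_comm f, X.h.Γ_mul_left hψ hH, X.h.Γ_H ht, X.h.Γ_comm f, X.h.Γ_comm f]
    ring
  have key := X.h.ibp_L1 hf (X.h.S_mul hψ hH) (i1.congr (Eventually.of_forall fun y => by ring))
    (by rw [e1]; exact i3.sub i2) (i4.congr (Eventually.of_forall fun y => by
      simp only [abs_mul, abs_of_nonneg (Real.sqrt_nonneg (X.h.Γ f f y))]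
      ring))
  rw [e1, integral_sub i3 i2] at key
  have e2 : (fun y => ψ y * X.h.L t x f y) =
      fun y => ψ y * X.h.Γ f (X.h.φ t x) y - ψ y * X.h.Δ f y := by
    funext y
    rw [HS.L, mul_sub]
  have e3 : ∫ y, ψ y * X.h.H t x y * X.h.Δ f y ∂X.h.m = X.h.P t (fun y => ψ y * X.h.Δ f y) x :=
    integral_congr_ae (Eventually.of_forall fun y => by ring)
  rw [e2, X.h.P_sub i2 i1, ← e3, key]
  simp only [HS.P, kerP]
  ring

/-- For nice `f` with nice Laplacian, `L f` is smooth of exponential growth (`grad_φ`). -/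
theorem L_CG (X : Sp.{u} n) (x : X.M) {t : ℝ} (ht : X.h.ok t) {f : X.M → ℝ} (hf : X.h.Nice f)
    (hΔ : X.h.Nice (X.h.Δ f)) : X.h.S (X.h.L t x f) ∧ CG x t (X.h.L t x f) ∧
      CG x t (X.h.Γ f (X.h.φ t x)) ∧ X.h.P t (X.h.L t x f) x = 0 ∧
      ∀ f', X.h.Nice f' → X.h.P t (fun y => f' y * X.h.L t x f y) x = X.h.P t (X.h.Γ f f') x := by
  have ht0 := ht.1
  have hφ := X.h.φ_S ht0 x
  have hS := hf.1.1
  obtain ⟨C, hC, hg⟩ := grad_φ.{u} n
  obtain ⟨B, hB⟩ := hf.2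
  obtain ⟨B', hB'⟩ := hΔ.2
  have c1 : CG x t (X.h.Γ f (X.h.φ t x)) := by
    refine CG.of_poly (B := B + C / t) (j := 1) ht0 (X.h.S_cont (X.h.S_Γ hS hφ)) fun y => ?_
    have a1 := X.h.abs_Γ_le f (X.h.φ t x) y
    have a2 := Real.sq_sqrt (X.h.Γ_nonneg f y)
    have a3 := Real.sq_sqrt (X.h.Γ_nonneg (X.h.φ t x) y)
    have a4 : X.h.Γ (X.h.φ t x) (X.h.φ t x) y ≤ C / t * (1 + dist x y ^ 2 / t) := by
      rw [div_mul_eq_mul_div, le_div_iff₀ ht0, mul_comm]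
      exact hg X ht0 (ht.2.trans (by norm_num)) x y
    have a5 := (hB y).2
    have a6 : 0 ≤ B * (dist x y ^ 2 / t) :=
      mul_nonneg ((abs_nonneg _).trans (hB y).1) (by positivity)
    have a7 := mul_nonneg (Real.sqrt_nonneg (X.h.Γ f f y))
      (Real.sqrt_nonneg (X.h.Γ (X.h.φ t x) (X.h.φ t x) y))
    rw [pow_one]
    nlinarith [sq_nonneg (Real.sqrt (X.h.Γ f f y) - Real.sqrt (X.h.Γ (X.h.φ t x) (X.h.φ t x) y))]
  have c2 : CG x t (X.h.Δ f) := CG.of_bdd (X.h.S_cont hΔ.1.1) fun y => (hB' y).1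
  have h₃ := X.h.h2g_int hf ht0 x
  have h₄ := X.h.h2e_sq hΔ.bd ht0 x
  have h₅ := (c1.bd ht).2.2
  refine ⟨X.h.S_sub (X.h.S_Γ hS hφ) hΔ.1.1, c1.sub c2, c1, ?_, fun f' hf' =>
    (ibp_H X x ht0 hS hf'.1.1 (X.h.h2e_sq hf'.bd ht0 x) (X.h.h2g_int hf' ht0 x) h₃ h₄ h₅).symm⟩
  have e : X.h.Γ f (fun _ => 1) = fun _ => 0 := funext fun y => by
    rw [X.h.Γ_comm, X.h.Γ_const_left]
  have key := ibp_H X x ht0 hS (X.h.S_const 1) (by simpa using (X.h.H_int ht0 x).1)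
    (by simp [X.h.Γ_const_left]) h₃ h₄ h₅
  rw [e, X.h.P_const ht0] at key
  simpa only [one_mul] using key.symm

/-- Orthogonal projection on the constants and the coordinates: `μ = J⁻¹ (Cov(ψ, ui j))_j`. -/
theorem exists_proj {X : Sp.{u} n} (c : Crd X) (x : X.M) {t : ℝ} (ht : X.h.ok t)
    (hJ : (c.J t x).PosDef) {ψ : X.M → ℝ} (h : CG x t ψ) : ∃ (c₀ : ℝ) (μ : V n),
      CG x t (fun y => ψ y - c₀ - c.u μ y) ∧ c.Orth x t (fun y => ψ y - c₀ - c.u μ y) ∧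
      (∀ η, X.h.Cov t x ψ (c.u η) = bf (c.J t x) μ η) ∧
      X.h.P t (fun y => (ψ y - c₀ - c.u μ y) ^ 2) x + qf (c.J t x) μ = X.h.Cov t x ψ ψ ∧
      X.h.Cov t x ψ ψ ≤ X.h.P t (fun y => ψ y ^ 2) x := by
  have ht0 := ht.1
  have cu : ∀ η, CG x t (c.u η) := fun η => by
    obtain ⟨B, hB⟩ := (c.u_nice η).1.2
    exact CG.of_bdd (X.h.S_cont (c.u_S η)) fun y => (hB y).1
  have cc : ∀ a : ℝ, CG x t fun _ : X.M => a := fun a =>
    CG.of_bdd continuous_const (B := |a|) fun _ => le_rfl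
  have ci : ∀ i, CG x t (c.ui i) := fun i => c.u_single i ▸ cu _
  have hi : ∀ {f : X.M → ℝ}, CG x t f → Integrable (fun y => X.h.H t x y * f y) X.h.m :=
    fun hf => (hf.bd ht).2.1
  set μ : V n := (c.J t x)⁻¹ *ᵥ fun j => X.h.Cov t x ψ (c.ui j) with hμ
  have e1 : ∀ η, X.h.Cov t x ψ (c.u η) = bf (c.J t x) μ η := fun η => by
    have a1 : (fun y => ψ y * c.u η y) = fun y => ∑ i, η i * (ψ y * c.ui i y) := by
      funext y
      rw [c.u_eq, Finset.mul_sum]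
      exact Finset.sum_congr rfl fun i _ => by ring
    rw [hμ, g2a_inv hJ, HS.Cov, a1, X.h.P_sum _ fun i _ => hi ((cc (η i)).mul (h.mul (ci i))), c.u_eq,
      X.h.P_sum _ fun i _ => hi ((cc (η i)).mul (ci i)), Finset.mul_sum, ← Finset.sum_sub_distrib]
    refine Finset.sum_congr rfl fun i _ => ?_
    simp only [X.h.P_cmul, HS.Cov]
    ring
  have e2 : ∀ (a : ℝ) {f : X.M → ℝ}, CG x t f → X.h.P t (fun y => (ψ y - a - c.u μ y) * f y) x =
      X.h.P t (fun y => ψ y * f y) x - a * X.h.P t f x - X.h.P t (fun y => c.u μ y * f y) x := by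
    intro a f hf
    simp only [sub_mul]
    rw [X.h.P_sub (hi ((h.mul hf).sub ((cc a).mul hf))) (hi ((cu μ).mul hf)),
      X.h.P_sub (hi (h.mul hf)) (hi ((cc a).mul hf)), X.h.P_cmul]
  have c0 : ∀ a : ℝ, CG x t fun y => ψ y - a - c.u μ y := fun a => (h.sub (cc a)).sub (cu μ)
  have o1 : X.h.P t (fun y => ψ y - (X.h.P t ψ x - X.h.P t (c.u μ) x) - c.u μ y) x = 0 := by
    rw [X.h.P_sub (hi (h.sub (cc _))) (hi (cu μ)), X.h.P_sub (hi h) (hi (cc _)), X.h.P_const ht0]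
    ring
  have o2 : ∀ η, X.h.P t (fun y => (ψ y - (X.h.P t ψ x - X.h.P t (c.u μ) x) - c.u μ y) * c.u η y) x = 0 := by
    intro η
    have a1 := e1 η
    rw [c.bf_J ht0, HS.Cov, HS.Cov] at a1
    rw [e2 _ (cu η)]
    linarith
  refine ⟨X.h.P t ψ x - X.h.P t (c.u μ) x, μ, c0 _, ⟨o1, o2⟩, e1, ?_, ?_⟩
  · have a1 := e2 (X.h.P t ψ x - X.h.P t (c.u μ) x) (c0 (X.h.P t ψ x - X.h.P t (c.u μ) x))
    have a2 := e2 (X.h.P t ψ x - X.h.P t (c.u μ) x) h
    have a3 := o2 μ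
    have a4 := e1 μ
    simp only [mul_comm _ (_ - _ - c.u μ _)] at a1
    rw [o1, a3, a2] at a1
    simp only [mul_comm (c.u μ _) (ψ _)] at a1
    rw [HS.Cov] at a4 ⊢
    simp only [sq]
    rw [a1, ← MC.bf_self, ← a4]
    ring
  · simp only [HS.Cov, sq]
    linarith [mul_self_nonneg (X.h.P t ψ x)]

end b

end Crest.Agent.R247
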