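import Crest.Agent.R247.S3bAuxB

/-! # Row 247, S3b: the quantity `β` and the estimate BETA -/

set_option autoImplicit false
set_option linter.unusedSectionVars false
set_option linter.unusedVariables false
open MeasureTheory Filter Set Metric Matrix
open scoped ENNReal NNReal Topology ContDiff
open Crest.GeometryTopology.CoordMetric

noncomputable section
namespace Crest.Agent.R247
universe u

variable {n : ℕ}

/-- `(∂ₛ + Δ)(L_s v_s) = 2 (Γ2(v,φ) - kΓ(v,φ) + Γ(v,Δφ)) - 2 Hs φ φ v` for a backward solution `v` (`bw_Γ`, `dt_φ`, `dt_Δ`, `Γ_Γ_left`). -/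
theorem back_L (X : Sp.{u} n) (x : X.M) {I : Set ℝ} (hI : IsOpen I) (hI0 : I ⊆ Ioi 0) {v : ℝ → X.M → ℝ}
    (hv : X.h.Sm I v) (hb : ∀ s ∈ I, ∀ y, dt v s y + X.h.Δ (v s) y = 0) :
    X.h.Sm I (fun s => X.h.L s x (v s)) ∧ ∀ s ∈ I, ∀ y,
      dt (fun s => X.h.L s x (v s)) s y + X.h.Δ (X.h.L s x (v s)) y =
        2 * (X.h.Γ2 (v s) (X.h.φ s x) y - X.h.k * X.h.Γ (v s) (X.h.φ s x) y +
          X.h.Γ (v s) (X.h.Δ (X.h.φ s x)) y) - 2 * X.h.Hs (X.h.φ s x) (X.h.φ s x) (v s) y := by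
  have hφ := X.h.Sm_mono (X.h.φ_Sm x) hI0
  have hΓ := X.h.Sm_Γ hI hv hφ
  have hΔ := X.h.Sm_Δ hI hv
  refine ⟨X.h.Sm_sub hΓ hΔ, fun s hs y => ?_⟩
  have s0 : 0 < s := hI0 hs
  have sv := X.h.Sm_slice hv hs
  have sφ := X.h.φ_S s0 x
  have e0 : (fun y => dt v s y + X.h.Δ (v s) y) = fun _ => 0 := funext (hb s hs)
  have e1 : (fun y => dt (fun s => X.h.φ s x) s y + X.h.Δ (X.h.φ s x) y) =
      fun y => 2 * X.h.Δ (X.h.φ s x) y - X.h.Γ (X.h.φ s x) (X.h.φ s x) y := funext fun y => by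
    rw [X.h.dt_φ s0]; ring
  have e2 := X.h.bw_Γ hI hv hφ hs y
  rw [e0, e1, X.h.Γ_const_left, X.h.Γ_comm (v s) fun y => _ - _,
    X.h.Γ_sub_left (X.h.S_cmul 2 (X.h.S_Δ sφ)) (X.h.S_Γ sφ sφ), X.h.Γ_cmul_left 2 (X.h.S_Δ sφ),
    X.h.Γ_Γ_left sφ sφ sv, X.h.Γ_comm (X.h.Δ _) (v s)] at e2
  have e3 := X.h.Δ_add (X.h.Sm_slice (X.h.Sm_dt hI hv) hs) (X.h.S_Δ sv) y
  rw [e0, X.h.Δ_const] at e3
  have e4 : dt (fun s => X.h.L s x (v s)) s y = _ := X.h.dt_sub hI hΓ hΔ hs y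
  have e5 : X.h.Δ (X.h.L s x (v s)) y = _ := X.h.Δ_sub (X.h.S_Γ sv sφ) (X.h.S_Δ sv) y
  rw [e4, e5, X.h.dt_Δ hI hv hs]
  linarith

/-- The fixed-time identity with a cut-off: `weak_hs` with `w = χ H ψ`, `Hs φ v (χHψ) = χ H Hs φ v ψ - χ H ψ Hs φ v φ + Hψ Hs φ v χ` (`Hs_eq`, `grad_mul`, `grad_H`), and
`∫ χ ψ H L v = ∫ H Γ(v, χψ)` (`ibp`). -/
theorem β_cut (X : Sp.{u} n) (x : X.M) {s : ℝ} (hs : 0 < s) {v ψ χ : X.M → ℝ} (hv : X.h.S v)
    (hψ : X.h.S ψ) (hχ : X.h.S χ) (hc : HasCompactSupport χ) :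
    ∫ y, χ y * (X.h.H s x y * ψ y * (2 * X.h.L s x v y + 2 * s *
        (2 * (X.h.Γ2 v (X.h.φ s x) y - X.h.k * X.h.Γ v (X.h.φ s x) y + X.h.Γ v (X.h.Δ (X.h.φ s x)) y) -
          2 * X.h.Hs (X.h.φ s x) (X.h.φ s x) v y))) ∂X.h.m =
      (∫ y, χ y * (-(4 * s) * X.h.H s x y * (X.h.Hs (X.h.φ s x) v ψ y - 1 / (2 * s) * X.h.Γ v ψ y)) ∂X.h.m) +
      ∫ y, -(4 * s) * X.h.H s x y * ψ y * (X.h.Hs (X.h.φ s x) v χ y - 1 / (2 * s) * X.h.Γ v χ y) ∂X.h.m := by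
  have hH := X.h.H_S hs x
  have hφ := X.h.φ_S hs x
  have hu := X.h.S_mul hH hψ
  have hw := X.h.S_mul hχ hu
  have cw : HasCompactSupport fun y => χ y * (X.h.H s x y * ψ y) := hc.mul_right
  have e₁ := X.h.weak_hs hw cw hv hφ
  have e₂ := X.h.ibp hw hv cw
  have i₁ := X.h.int_cs (X.h.S_cont (X.h.S_mul hw (X.h.S_add (X.h.S_sub (X.h.S_Γ2 hv hφ)
    (X.h.S_cmul X.h.k (X.h.S_Γ hv hφ))) (X.h.S_Γ hv (X.h.S_Δ hφ))))) cw.mul_right
  have c₂ : HasCompactSupport (X.h.Hs (X.h.φ s x) v fun y => χ y * (X.h.H s x y * ψ y)) := by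
    refine cw.mono' fun y hy => by_contra fun hy' => hy ?_
    rw [X.h.Hs_eq hφ hv hw, (X.h.grad_eq_zero hy').1]
    simp [bf]
  have i₂ := X.h.int_cs (X.h.S_cont (X.h.S_Hs hφ hv hw)) c₂
  have i₃ := X.h.int_cs (X.h.S_cont (X.h.S_Γ hw hv)) (X.h.cs_Γ cw v)
  have i₄ := X.h.int_cs (X.h.S_cont (X.h.S_mul hw (X.h.S_Δ hv))) cw.mul_right
  have i₅ := X.h.int_cs (X.h.S_cont (X.h.S_mul hχ (X.h.S_mul (X.h.S_cmul (-(4 * s)) hH)
    (X.h.S_sub (X.h.S_Hs hφ hv hψ) (X.h.S_cmul (1 / (2 * s)) (X.h.S_Γ hv hψ)))))) hc.mul_right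
  have c₆ : HasCompactSupport fun y => X.h.Hs (X.h.φ s x) v χ y - 1 / (2 * s) * X.h.Γ v χ y := by
    refine hc.mono' fun y hy => by_contra fun hy' => hy ?_
    beta_reduce
    rw [X.h.Hs_eq hφ hv hχ, Raw.Γ, (X.h.grad_eq_zero hy').1]
    simp [bf]
  have i₆ := X.h.int_cs (X.h.S_cont (X.h.S_mul (X.h.S_mul (X.h.S_cmul (-(4 * s)) hH) hψ)
    (X.h.S_sub (X.h.S_Hs hφ hv hχ) (X.h.S_cmul (1 / (2 * s)) (X.h.S_Γ hv hχ))))) c₆.mul_left
  have a₁ := integral_add i₁ i₂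
  have a₂ := integral_add i₃ i₄
  rw [e₁, neg_add_cancel] at a₁
  rw [e₂, neg_add_cancel] at a₂
  have a₃ := integral_sub ((i₁.add i₂).const_mul (4 * s)) ((i₃.add i₄).const_mul 2)
  simp only [Pi.add_apply] at a₃
  rw [integral_const_mul, integral_const_mul, a₁, a₂, mul_zero, mul_zero, sub_zero] at a₃
  have a₄ := integral_add (i₅.add i₆) (((i₁.add i₂).const_mul (4 * s)).sub ((i₃.add i₄).const_mul 2))
  simp only [Pi.add_apply, Pi.sub_apply] at a₄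
  rw [a₃, add_zero, integral_add i₅ i₆] at a₄
  refine Eq.trans (integral_congr_ae (.of_forall fun y => ?_)) a₄
  have sy := g1c_symm (X.h.hess_symm hφ y) (X.h.grad v y) (X.h.grad (X.h.φ s x) y)
  simp only [HS.L]
  rw [X.h.Hs_eq hφ hv hw, X.h.Hs_eq hφ hv hχ, X.h.Hs_eq hφ hv hψ, X.h.Hs_eq hφ hφ hv, X.h.Γ_mul_left hχ hu,
    X.h.Γ_mul_left hH hψ, X.h.Γ_H hs, X.h.grad_mul hχ hu, X.h.grad_mul hH hψ, X.h.grad_H hs, X.h.Γ_comm ψ v,
    X.h.Γ_comm χ v, X.h.Γ_comm (X.h.φ s x) v]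
  simp only [bf, mulVec_add, mulVec_smul, dotProduct_add, dotProduct_smul, smul_eq_mul, sy]
  field_simp
  ring

/-- Recipe: `cut'` with `e = ρ = H ψs`, `F s = 2 s L_s v_s`, `χ j` from `cut2`, `back_L`, `β_cut`; every term is dominated: `abs_Hs_sub_le` with `a = 1/(2s)` (`s² D = Dφ`), `Γ v ≤ C|ξ|²` (`U_bounds`),
`|L v| ≤ C (1 + d²/s)`, `√Γρ ≤ H √Γψ + H |ψ| √Γφ`; space-time Cauchy-Schwarz (`STI_mul`) with `Jρ_le`, `Jρ_energy`, `KK_STI`.  For `H |ψs| · poly` use `H ψs²` and `H poly²`.  `cut_limit` with `Q = 0`. -/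
theorem β_id (hn : 1 ≤ n) {X : Sp.{u} n} (c : Crd X) (x : X.M) {t a b T₁ : ℝ} {ψ : X.M → ℝ} (ht : 0 < t)
    (ha : t < a) (hab : a ≤ b) (hb : b ≤ T₁) (hT : T₁ ≤ c.T / 2) (hE : X.h.Ent x T₁ ≠ ⊤)
    (h : CG x t ψ) (ξ : V n) :
    X.h.STI a b (fun s y => -(4 * s) * X.h.H s x y *
      (X.h.Hs (X.h.φ s x) (c.U (c.T + t - s) ξ) (X.h.ψs x t ψ s) y -
        1 / (2 * s) * X.h.Γ (c.U (c.T + t - s) ξ) (X.h.ψs x t ψ s) y)) ∧
    c.β x t ψ ξ b - c.β x t ψ ξ a = ∫ s in a..b, ∫ y, -(4 * s) * X.h.H s x y *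
      (X.h.Hs (X.h.φ s x) (c.U (c.T + t - s) ξ) (X.h.ψs x t ψ s) y -
        1 / (2 * s) * X.h.Γ (c.U (c.T + t - s) ξ) (X.h.ψs x t ψ s) y) ∂X.h.m := by
  have hT0 := c.T_pos
  have ha0 : 0 < a := ht.trans ha
  have hokb : X.h.ok b := c.ok (by linarith) (by linarith)
  have hokt : X.h.ok t := c.ok ht (by linarith)
  have hI : IsOpen (Ioo t c.T) := isOpen_Ioo
  have hI0 : Ioo t c.T ⊆ Ioi 0 := fun s hs => ht.trans hs.1
  have hIt : Ioo t c.T ⊆ Ioi t := fun s hs => hs.1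
  have hsub : Icc a b ⊆ Ioo t c.T := fun s hs => ⟨ha.trans_le hs.1, by linarith [hs.2]⟩
  obtain ⟨hv, hvb⟩ := c.U_back (c.T + t) ξ
  have hv := X.h.Sm_mono hv (J := Ioo t c.T) fun s hs => by simp only [mem_Iio]; linarith [hs.2]
  obtain ⟨hL, hLb⟩ := back_L X x hI hI0 hv fun s hs => hvb s (by linarith [hs.2])
  obtain ⟨hρ, hψ, hρh, hρe⟩ := ρ_Sm hokt h
  have hρ := X.h.Sm_mono hρ hIt
  have hψ := X.h.Sm_mono hψ hIt
  have hH := X.h.Sm_mono (X.h.H_Sm x) hI0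
  have hφ := X.h.Sm_mono (X.h.φ_Sm x) hI0
  have hid : X.h.Sm (Ioo t c.T) fun s _ => s := X.h.Sm_time contDiffOn_id
  have hinv : ContDiffOn ℝ ∞ (fun s : ℝ => 1 / (2 * s)) (Ioo t c.T) :=
    contDiffOn_const.div (contDiffOn_const.mul contDiffOn_id) fun s hs =>
      (mul_pos two_pos (hI0 hs)).ne'
  have h4 : X.h.Sm (Ioo t c.T) fun s _ => -(4 * s) :=
    X.h.Sm_time (contDiffOn_const.mul contDiffOn_id).neg
  have h2 : X.h.Sm (Ioo t c.T) fun s _ => 2 * s := X.h.Sm_time (contDiffOn_const.mul contDiffOn_id)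
  have hF := X.h.Sm_mul h2 hL
  obtain ⟨C, hC, hU⟩ := U_bounds.{u} n
  obtain ⟨B, hB0, hB⟩ : ∃ B : ℝ, 0 ≤ B ∧ ∀ s ∈ Icc a b, ∀ y,
      Real.sqrt (X.h.Γ (c.U (c.T + t - s) ξ) (c.U (c.T + t - s) ξ) y) ≤ B ∧
        |X.h.Δ (c.U (c.T + t - s) ξ) y| ≤ B := by
    refine ⟨Real.sqrt (C * (ξ ⬝ᵥ ξ)) + Real.sqrt (C * (ξ ⬝ᵥ ξ) / c.T), by positivity, fun s hs y => ?_⟩
    obtain ⟨h₁, h₂, -⟩ := hU X c (c.T + t - s) ⟨by linarith [hs.2], by linarith [hs.1]⟩ ξ y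
    refine ⟨(Real.sqrt_le_sqrt h₁).trans (le_add_of_nonneg_right (Real.sqrt_nonneg _)),
      (Real.abs_le_sqrt ?_).trans (le_add_of_nonneg_left (Real.sqrt_nonneg _))⟩
    rw [le_div_iff₀ hT0]
    linarith
  have hDφ : X.h.Sm (Ioo t c.T) fun s y => X.h.Dφ s x y :=
    X.h.Sm_mul (X.h.Sm_time (contDiffOn_id.pow 2)) (X.h.Sm_D hI hφ hinv)
  have hDφ0 : ∀ s ∈ Icc a b, ∀ y, 0 ≤ X.h.Dφ s x y := fun s hs y =>
    mul_nonneg (sq_nonneg _) (X.h.D_nonneg (X.h.φ_S (hI0 (hsub hs)) x) _ y)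
  have hH0 : ∀ s ∈ Icc a b, ∀ y, 0 ≤ X.h.H s x y := fun s hs y => X.h.H_nonneg (hI0 (hsub hs)) x y
  have i₁ : X.h.STI a b fun s y => X.h.H s x y * X.h.Dφ s x y := by
    obtain ⟨_, -, hK⟩ := KK_STI.{u} n hn 0
    simpa using (hK X ha0 hab hb hokb x hE).1
  have i₂ := (Jρ_energy hokt h ha hab).1
  have i₃ : X.h.STI a b fun s y => X.h.H s x y * X.h.ψs x t ψ s y ^ 2 := by
    refine X.h.STI_of_bound (B := X.h.P t (fun y => ψ y ^ 2) x) hsub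
      (X.h.Sm_cont (X.h.Sm_mul hH (X.h.Sm_comp' hψ (contDiff_id.pow 2)))) fun s hs => ?_
    obtain ⟨h₁, h₂, -⟩ := Jρ_le hokt h (hsub hs).1
    refine ⟨h₁, le_trans (le_of_eq ?_) h₂⟩
    exact integral_congr_ae (.of_forall fun y => abs_of_nonneg (mul_nonneg (hH0 s hs y) (sq_nonneg _)))
  obtain ⟨Bw, hw⟩ := βid_wt X x ha0 hokb
  have i₄ : X.h.STI a b fun s y => X.h.H s x y * (1 + X.h.Γ (X.h.φ s x) (X.h.φ s x) y) ^ 2 := by
    refine X.h.STI_of_bound (B := Bw) hsub (X.h.Sm_cont (X.h.Sm_mul hH (X.h.Sm_comp' (X.h.Sm_Γ hI hφ hφ)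
      ((contDiff_const.add contDiff_id).pow 2)))) fun s hs => ⟨(hw s hs).1, le_trans (le_of_eq ?_) (hw s hs).2⟩
    exact integral_congr_ae (.of_forall fun y => abs_of_nonneg (mul_nonneg (hH0 s hs y) (sq_nonneg _)))
  have hGc := X.h.Sm_cont (X.h.Sm_mul (X.h.Sm_mul h4 hH)
    (X.h.Sm_sub (X.h.Sm_Hs hI hφ hv hψ) (X.h.Sm_mul (X.h.Sm_time hinv) (X.h.Sm_Γ hI hv hψ))))
  have hGi : X.h.STI a b (fun s y => -(4 * s) * X.h.H s x y *
      (X.h.Hs (X.h.φ s x) (c.U (c.T + t - s) ξ) (X.h.ψs x t ψ s) y -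
        1 / (2 * s) * X.h.Γ (c.U (c.T + t - s) ξ) (X.h.ψs x t ψ s) y)) := by
    refine X.h.STI_of_le hsub hGc (βid_cmul (βid_add i₁ i₂) (2 * B)) fun s hs y => ?_
    have h₁ := βid_Hs X x (hI0 (hsub hs)) (X.h.Sm_slice hv (hsub hs)) (X.h.Sm_slice hψ (hsub hs)) y
      (hB s hs y).1
    have h₂ := βid_am _ _ (hDφ0 s hs y) (X.h.Γ_nonneg (X.h.ψs x t ψ s) y)
    rw [neg_mul, neg_mul, abs_neg, mul_comm (4 * s), mul_assoc, abs_mul, abs_of_nonneg (hH0 s hs y)]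
    calc _ ≤ X.h.H s x y * (4 * B * ((X.h.Dφ s x y + X.h.Γ (X.h.ψs x t ψ s) (X.h.ψs x t ψ s) y) / 2)) :=
          mul_le_mul_of_nonneg_left (h₁.trans (by gcongr)) (hH0 s hs y)
      _ = _ := by ring
  refine ⟨hGi, ?_⟩
  have hend : ∀ s ∈ Icc a b, Integrable
      (fun y => X.h.ρ x t ψ s y * (2 * s * X.h.L s x (c.U (c.T + t - s) ξ) y)) X.h.m := fun s hs => by
    refine (((Jρ_le hokt h (hsub hs).1).1.add ((hw s hs).1.const_mul 2)).const_mul (s * B)).mono'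
      (X.h.S_cont (X.h.Sm_slice (X.h.Sm_mul hρ hF) (hsub hs))).aestronglyMeasurable
      (.of_forall fun y => ?_)
    have hs0 : 0 < s := hI0 (hsub hs)
    have h₁ := βid_L X x (s := s) y (hB s hs y).1 (hB s hs y).2
    have h₂ := Real.sq_sqrt (X.h.Γ_nonneg (X.h.φ s x) y)
    have h₃ := X.h.Γ_nonneg (X.h.φ s x) y
    rw [Real.norm_eq_abs, hρe s (hsub hs).1, abs_mul, abs_mul, abs_mul, abs_of_nonneg (hH0 s hs y),
      abs_of_pos (by positivity : 0 < 2 * s)]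
    have h₄ := hH0 s hs y
    generalize Real.sqrt (X.h.Γ (X.h.φ s x) (X.h.φ s x) y) = g at *
    have h₅ : 2 * (|X.h.ψs x t ψ s y| * (1 + g)) ≤
        X.h.ψs x t ψ s y ^ 2 + 2 * (1 + X.h.Γ (X.h.φ s x) (X.h.φ s x) y) ^ 2 := by
      nlinarith [sq_nonneg (|X.h.ψs x t ψ s y| - (1 + g)), sq_abs (X.h.ψs x t ψ s y), sq_nonneg (1 - g)]
    calc _ ≤ X.h.H s x y * |X.h.ψs x t ψ s y| * (2 * s * (B * (1 + g))) := by gcongr
      _ = s * B * X.h.H s x y * (2 * (|X.h.ψs x t ψ s y| * (1 + g))) := by ring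
      _ ≤ s * B * X.h.H s x y *
          (X.h.ψs x t ψ s y ^ 2 + 2 * (1 + X.h.Γ (X.h.φ s x) (X.h.φ s x) y) ^ 2) := by gcongr
      _ = _ := by simp only [Pi.add_apply]; ring
  have hβ : ∀ s, c.β x t ψ ξ s =
      ∫ y, X.h.ρ x t ψ s y * (2 * s * X.h.L s x (c.U (c.T + t - s) ξ) y) ∂X.h.m := fun s => by
    rw [Crd.β, ← integral_const_mul]
    exact integral_congr_ae (.of_forall fun y => by ring)
  rw [hβ, hβ]
  refine βid_limit X x hab hsub (hend a (left_mem_Icc.2 hab)) (hend b (right_mem_Icc.2 hab)) hGc hGi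
    (βid_cmul (βid_add (βid_add (βid_add i₁ i₂) i₃) i₄) (2 * B + 12 * b * B))
    fun χ ε hχ hc hε => ?_
  have hχ' := Geo.S.Sm hχ (Ioo t c.T)
  have r₁ := X.h.Sm_mul (X.h.Sm_mul (X.h.Sm_mul h4 hH) hψ)
    (X.h.Sm_sub (X.h.Sm_Hs hI hφ hv hχ') (X.h.Sm_mul (X.h.Sm_time hinv) (X.h.Sm_Γ hI hv hχ')))
  have r₂ := X.h.Sm_mul hF (X.h.Sm_add (X.h.Sm_mul hρ (X.h.Sm_Δ hI hχ'))
    (X.h.Sm_mul (X.h.Sm_const _ 2) (X.h.Sm_Γ hI hρ hχ')))
  refine ⟨_, X.h.Sm_cont (X.h.Sm_sub r₁ r₂), fun s hs y => ?_, ?_⟩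
  · have hs0 : 0 < s := hI0 (hsub hs)
    have hε0 : 0 ≤ ε := (abs_nonneg _).trans (hε y).2
    have h₁ := (βid_Hs X x hs0 (X.h.Sm_slice hv (hsub hs)) hχ y (hB s hs y).1).trans
      (mul_le_mul_of_nonneg_left (mul_le_mul_of_nonneg_left (hε y).1 (Real.sqrt_nonneg _)) (by positivity))
    have h₂ := βid_alg (p := X.h.ψs x t ψ s y) (hH0 s hs y) (Real.sqrt_nonneg _) (Real.sqrt_nonneg _)
      (Real.sqrt_nonneg _) hB0 hs0.le hs.2 hε0 h₁ (βid_L X x (s := s) y (hB s hs y).1 (hB s hs y).2)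
      (hε y).2 ((X.h.abs_Γ_le (X.h.ψs x t ψ s) χ y).trans
        (mul_le_mul_of_nonneg_left (hε y).1 (Real.sqrt_nonneg _)))
      ((X.h.abs_Γ_le (X.h.φ s x) χ y).trans (mul_le_mul_of_nonneg_left (hε y).1 (Real.sqrt_nonneg _)))
    rw [Real.sq_sqrt (hDφ0 s hs y), Real.sq_sqrt (X.h.Γ_nonneg _ _), Real.sq_sqrt (X.h.Γ_nonneg _ _)] at h₂
    have h₃ : X.h.ρ x t ψ s = fun y => X.h.H s x y * X.h.ψs x t ψ s y := funext (hρe s (hsub hs).1)
    refine le_of_eq_of_le (congrArg _ ?_) h₂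
    rw [h₃, X.h.Γ_mul_left (X.h.H_S hs0 x) (X.h.Sm_slice hψ (hsub hs)), X.h.Γ_H hs0]
    ring
  · rw [X.h.cut' hI hρ hF hab hsub hχ hc]
    refine intervalIntegral.integral_congr fun s hs => ?_
    rw [uIcc_of_le hab] at hs
    have hs' := hsub hs
    have hs0 : 0 < s := hI0 hs'
    have e₁ := β_cut X x hs0 (X.h.Sm_slice hv hs') (X.h.Sm_slice hψ hs') hχ hc
    have c₁ : HasCompactSupport fun y => X.h.Hs (X.h.φ s x) (c.U (c.T + t - s) ξ) χ y -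
        1 / (2 * s) * X.h.Γ (c.U (c.T + t - s) ξ) χ y := by
      refine hc.mono' fun y hy => by_contra fun hy' => hy ?_
      beta_reduce
      rw [X.h.Hs_eq (X.h.φ_S hs0 x) (X.h.Sm_slice hv hs') hχ, Raw.Γ, (X.h.grad_eq_zero hy').1]
      simp [bf]
    have c₂ : HasCompactSupport fun y => X.h.ρ x t ψ s y * X.h.Δ χ y + 2 * X.h.Γ (X.h.ρ x t ψ s) χ y := by
      refine hc.mono' fun y hy => by_contra fun hy' => hy ?_
      beta_reduce
      rw [Raw.Γ, Raw.Δ, (X.h.grad_eq_zero hy').1, (X.h.grad_eq_zero hy').2]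
      simp
    rw [integral_sub (X.h.int_cs (X.h.S_cont (X.h.Sm_slice r₁ hs')) c₁.mul_left)
      (X.h.int_cs (X.h.S_cont (X.h.Sm_slice r₂ hs')) c₂.mul_left), ← add_sub_assoc, ← e₁]
    congr 1
    refine integral_congr_ae (.of_forall fun y => ?_)
    have e₂ : dt (fun s _ => 2 * s : ℝ → X.M → ℝ) s y = 2 :=
      Geo.dt_eq (by simpa using (hasDerivAt_id s).const_mul 2)
    simp only
    rw [hρh s hs'.1, X.h.dt_mul hI h2 hL hs', X.h.Δ_cmul _ (X.h.Sm_slice hL hs'), e₂, ← hLb s hs',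
      hρe s hs'.1]
    ring

theorem βst_real {x p q : ℝ} (hx : 0 ≤ x) (hp : 0 ≤ p) (hq : 0 ≤ q) (h : ∀ l : ℝ, 0 < l → 2 * x ≤ l * p + q / l) :
    x ^ 2 ≤ p * q := by
  by_contra! hc
  have hx0 : 0 < x := by
    rcases hx.eq_or_lt with h0 | h0
    · rw [← h0] at hc
      nlinarith [mul_nonneg hp hq]
    · exact h0
  rcases hp.eq_or_lt with h0 | h0
  · have := h ((q + 1) / x) (by positivity)
    rw [← h0, mul_zero, zero_add, div_div_eq_mul_div, le_div_iff₀ (by positivity)] at this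
    nlinarith
  · have := h (x / p) (by positivity)
    rw [div_mul_cancel₀ _ h0.ne', div_div_eq_mul_div, ← sub_le_iff_le_add', le_div_iff₀ hx0] at this
    nlinarith

/-- Space-time Cauchy-Schwarz without continuity assumptions. -/
theorem βst_cs {X : Sp.{u} n} {a b K : ℝ} (hab : a ≤ b) {G A B : ℝ → X.M → ℝ} (hG : X.h.STI a b G)
    (hA : X.h.STI a b A) (hB : X.h.STI a b B) (hK : 0 ≤ K) (hA0 : ∀ s ∈ Icc a b, ∀ y, 0 ≤ A s y)
    (hB0 : ∀ s ∈ Icc a b, ∀ y, 0 ≤ B s y) (h : ∀ s ∈ Icc a b, ∀ y, G s y ^ 2 ≤ K * (A s y * B s y)) :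
    (∫ s in a..b, ∫ y, G s y ∂X.h.m) ^ 2 ≤
      K * ((∫ s in a..b, ∫ y, A s y ∂X.h.m) * ∫ s in a..b, ∫ y, B s y ∂X.h.m) := by
  rw [X.h.h1b2_int hab hG, X.h.h1b2_int hab hA, X.h.h1b2_int hab hB, ← sq_abs, ← mul_assoc]
  have hae := X.h.h1b2_ae a b
  refine βst_real (abs_nonneg _) (mul_nonneg hK (integral_nonneg_of_ae (hae.mono fun p hp => hA0 _ hp _)))
    (integral_nonneg_of_ae (hae.mono fun p hp => hB0 _ hp _)) fun l hl => ?_
  rw [← mul_assoc, ← integral_const_mul, ← integral_div,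
    ← integral_add (Integrable.const_mul hA _) (Integrable.div_const hB _), ← abs_two, ← abs_mul,
    ← integral_const_mul, ← Real.norm_eq_abs]
  refine norm_integral_le_of_norm_le ((Integrable.const_mul hA _).add (Integrable.div_const hB _))
    (hae.mono fun p hp => ?_)
  have h₁ := h _ hp p.2
  have h₂ := mul_nonneg (mul_nonneg hl.le hK) (hA0 _ hp p.2)
  have h₃ := div_nonneg (hB0 _ hp p.2) hl.le
  have h₄ : l * K * A p.1 p.2 * (B p.1 p.2 / l) = K * (A p.1 p.2 * B p.1 p.2) := by field_simp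
  rw [Real.norm_eq_abs]
  refine abs_le.2 (abs_le_of_sq_le_sq' ?_ (by positivity))
  nlinarith [sq_nonneg (l * K * A p.1 p.2 - B p.1 p.2 / l)]

/-- `β_id`, `abs_Hs_sub_le`, `hyp_weight`, `hyp_growth`, `STI_mul`, `KK_STI`, `Jρ_energy`. -/
theorem β_step (n : ℕ) (hn : 1 ≤ n) : ∃ C e₀ : ℝ, 0 < C ∧ 0 < e₀ ∧ ∀ (X : Sp.{u} n) (c : Crd X)
    (x : X.M) {s₀ T₁ e t a b : ℝ} {ψ : X.M → ℝ}, e ≤ e₀ → c.Hyp x s₀ T₁ e → s₀ ≤ t → t < a → a ≤ b →
      b ≤ 2 * a → b ≤ T₁ → CG x t ψ → ∀ ξ, (c.β x t ψ ξ b - c.β x t ψ ξ a) ^ 2 ≤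
        C * (a * qf (c.G a x) ξ * X.h.Jρ x t ψ a) * ∫ σ in a..b, (X.h.KK x σ).toReal / σ := by
  obtain ⟨C₁, e₁, hC₁, he₁, hW⟩ := hyp_weight.{u} n
  obtain ⟨e₂, he₂, he₂', hG⟩ := hyp_growth.{u} n
  obtain ⟨C₃, hC₃, hK⟩ := KK_STI.{u} n hn 1
  refine ⟨64 * C₁ * C₃, min e₁ e₂, by positivity, by positivity, ?_⟩
  intro X c x s₀ T₁ e t a b ψ he hy hs₀ hta hab hb2 hbT h ξ
  have he1 := he.trans (min_le_left _ _)
  have he2 := he.trans (min_le_right _ _)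
  have ht : 0 < t := hy.s₀_pos.trans_le hs₀
  have ha : 0 < a := ht.trans hta
  have hT₁ := hy.T₁_pos
  have hT0 := c.T_pos
  have he0 := hy.e_pos
  have hT := (hy.times (by linarith) hT₁ (by linarith)).1
  have hokb : X.h.ok b := c.ok (by linarith) (by linarith)
  have hokt : X.h.ok t := c.ok ht (by linarith)
  obtain ⟨hGi, hid⟩ := β_id hn c x ht hta hab hbT (by linarith) hy.ent_ne h ξ
  obtain ⟨hA, hA'⟩ := hK X ha hab hbT hokb x hy.ent_ne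
  obtain ⟨hB, hB'⟩ := Jρ_energy hokt h hta hab
  obtain ⟨i₁, i₂, -⟩ := kap_block X x (a := 0) (s := a) (A := 2) ha le_rfl ha hab hbT hy.ent_ne hb2 (by linarith)
  have hg : 0 ≤ qf (c.G a x) ξ := MC.psd_qf (c.G_psd ha x) ξ
  have hI : ∫ s in a..b, (X.h.KK x s).toReal ≤ 2 * a * ∫ σ in a..b, (X.h.KK x σ).toReal / σ := by
    rw [← intervalIntegral.integral_const_mul]
    refine intervalIntegral.integral_mono_on hab i₂ (i₁.const_mul _) fun σ hσ => ?_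
    have hσ0 : 0 < σ := ha.trans_le hσ.1
    rw [mul_div_assoc', le_div_iff₀ hσ0, mul_comm]
    exact mul_le_mul_of_nonneg_right (by linarith [hσ.2]) ENNReal.toReal_nonneg
  have hJa := (Jρ_le hokt h hta).2.2
  have hJb := (Jρ_le hokt h (hta.trans_le hab)).2.2
  have hH0 : ∀ s ∈ Icc a b, ∀ y, 0 ≤ X.h.H s x y := fun s hs y => X.h.H_nonneg (ha.trans_le hs.1) x y
  have hD0 : ∀ s ∈ Icc a b, ∀ y, 0 ≤ X.h.Dφ s x y := fun s hs y =>
    mul_nonneg (sq_nonneg _) (X.h.D_nonneg (X.h.φ_S (ha.trans_le hs.1) x) _ y)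
  have key := βst_cs hab hGi hA hB (K := 64 * C₁ * qf (c.G a x) ξ) (by positivity)
    (fun s hs y => mul_nonneg (hH0 s hs y) (mul_nonneg (hD0 s hs y) (Real.exp_pos _).le))
    (fun s hs y => mul_nonneg (hH0 s hs y) (X.h.Γ_nonneg _ _)) fun s hs y => by
      have hs0 : 0 < s := ha.trans_le hs.1
      have hts : t < s := hta.trans_le hs.1
      have h₁ := (hW X c x he1 hy s ⟨by linarith, by linarith [hs.2]⟩ (c.T + t - s)
        ⟨by linarith, by linarith⟩ ξ y).1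
      have h₂ := (hG X c x he2 hy ξ).1 a s (by linarith) hs.1 (by linarith [hs.2])
      have h₃ : (s / a) ^ (2 * e) ≤ 2 := by
        have h₄ : s / a ≤ 2 := by rw [div_le_iff₀ ha]; linarith [hs.2]
        calc (s / a) ^ (2 * e) ≤ (2 : ℝ) ^ (2 * e) := Real.rpow_le_rpow (by positivity) h₄ (by positivity)
          _ ≤ 2 ^ (1 : ℝ) := Real.rpow_le_rpow_of_exponent_le (by norm_num) (by linarith)
          _ = 2 := Real.rpow_one 2
      have h₄ : qf (c.G s x) ξ ≤ 4 * qf (c.G a x) ξ :=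
        h₂.trans (mul_le_mul_of_nonneg_right (by
          calc (1 + 10 * e) * (s / a) ^ (2 * e) ≤ 2 * 2 := by gcongr; linarith
            _ = 4 := by norm_num) hg)
      have h₅ : 1 + dist x y / Real.sqrt s ≤ Real.exp (1 * dist x y / Real.sqrt s) := by
        rw [one_mul, add_comm]; exact Real.add_one_le_exp _
      have h₆ : X.h.Γ (c.U (c.T + t - s) ξ) (c.U (c.T + t - s) ξ) y ≤
          C₁ * (4 * qf (c.G a x) ξ) * Real.exp (1 * dist x y / Real.sqrt s) := h₁.trans (by gcongr)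
      have h₇ := βid_Hs X x hs0 (c.U_nice (τ := c.T + t - s) (by linarith [hs.2]) ξ).1.1.1
        (X.h.Sm_slice (ρ_Sm hokt h).2.1 hts) y le_rfl
      have h₈ := pow_le_pow_left₀ (abs_nonneg _) h₇ 2
      rw [sq_abs, mul_pow (4 * Real.sqrt _), mul_pow 4, mul_pow (Real.sqrt _), Real.sq_sqrt (X.h.Γ_nonneg _ _),
        Real.sq_sqrt (X.h.Γ_nonneg _ _), Real.sq_sqrt (hD0 s hs y)] at h₈
      have h₉ := hD0 s hs y
      have h₁₀ := X.h.Γ_nonneg (X.h.ψs x t ψ s) y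
      calc _ = X.h.H s x y ^ 2 * (4 * s * (X.h.Hs (X.h.φ s x) (c.U (c.T + t - s) ξ) (X.h.ψs x t ψ s) y -
            1 / (2 * s) * X.h.Γ (c.U (c.T + t - s) ξ) (X.h.ψs x t ψ s) y)) ^ 2 := by ring
        _ ≤ X.h.H s x y ^ 2 * (4 ^ 2 * (C₁ * (4 * qf (c.G a x) ξ) * Real.exp (1 * dist x y / Real.sqrt s)) *
            (X.h.Dφ s x y * X.h.Γ (X.h.ψs x t ψ s) (X.h.ψs x t ψ s) y)) :=
          mul_le_mul_of_nonneg_left (h₈.trans (by gcongr)) (sq_nonneg _)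
        _ = _ := by ring
  have hI0 : 0 ≤ ∫ σ in a..b, (X.h.KK x σ).toReal / σ :=
    intervalIntegral.integral_nonneg hab fun σ hσ => div_nonneg ENNReal.toReal_nonneg (by linarith [hσ.1])
  have hB0 : 0 ≤ ∫ s in a..b, ∫ y, X.h.H s x y * X.h.Γ (X.h.ψs x t ψ s) (X.h.ψs x t ψ s) y ∂X.h.m :=
    intervalIntegral.integral_nonneg hab fun s hs =>
      integral_nonneg fun y => mul_nonneg (hH0 s hs y) (X.h.Γ_nonneg _ _)
  rw [hid]
  refine key.trans ?_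
  calc _ ≤ 64 * C₁ * qf (c.G a x) ξ * ((C₃ * (2 * a * ∫ σ in a..b, (X.h.KK x σ).toReal / σ)) *
        (X.h.Jρ x t ψ a / 2)) := by
        refine mul_le_mul_of_nonneg_left (mul_le_mul (hA'.trans (by gcongr)) ?_ hB0 (by positivity))
          (by positivity)
        change ∫ s in a..b, X.h.P s (X.h.Γ (X.h.ψs x t ψ s) (X.h.ψs x t ψ s)) x ≤ _
        linarith
    _ = _ := by ring

/-- `β s = 2 s P s (ψs · L v) x`, Cauchy-Schwarz, `hyp_gr`. -/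
theorem β_top (n : ℕ) : ∃ C e₀ : ℝ, 0 < C ∧ 0 < e₀ ∧ ∀ (X : Sp.{u} n) (c : Crd X)
    (x : X.M) {s₀ T₁ e t s : ℝ} {ψ : X.M → ℝ}, e ≤ e₀ → c.Hyp x s₀ T₁ e → s₀ ≤ t → t < s → s ≤ T₁ →
      CG x t ψ → ∀ ξ, c.β x t ψ ξ s ^ 2 ≤ C * (s * qf (c.G s x) ξ * X.h.Jρ x t ψ s) := by
  obtain ⟨C, e₀, hC, he₀, hgr⟩ := hyp_gr.{u} n
  refine ⟨4 * C, min e₀ 1, by positivity, by positivity, ?_⟩
  intro X c x s₀ T₁ e t s ψ he hy hs₀ hts hsT h ξ
  have ht : 0 < t := hy.s₀_pos.trans_le hs₀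
  have hs : 0 < s := ht.trans hts
  have hT₁ := hy.T₁_pos
  have hT0 := c.T_pos
  obtain ⟨hT, hok, -⟩ := hy.times (he.trans (min_le_right _ _)) hs (by linarith)
  have hokt : X.h.ok t := c.ok ht (by linarith)
  obtain ⟨-, hψ, -, hρ⟩ := ρ_Sm hokt h
  obtain ⟨hv, hv'⟩ := c.U_nice (τ := c.T + t - s) (by linarith) ξ
  obtain ⟨hL, hL', -⟩ := L_CG X x hok hv hv'
  obtain ⟨j₁, -, j₂⟩ := Jρ_le hokt h hts
  have h₁ := (X.h.P_cs hs (X.h.S_cont (X.h.Sm_slice hψ hts)).aestronglyMeasurable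
    hL'.1.aestronglyMeasurable j₁ (hL'.bd hok).2.2).2
  have h₂ := ((hgr X c x (he.trans (min_le_left _ _)) hy s ⟨by linarith, by linarith⟩ ξ).1 (c.T + t - s)
    ⟨by linarith, by linarith⟩).2
  have h₃ : c.β x t ψ ξ s =
      2 * s * X.h.P s (fun y => X.h.ψs x t ψ s y * X.h.L s x (c.U (c.T + t - s) ξ) y) x := by
    simp only [Crd.β, hρ s hts, mul_assoc]
    rfl
  have h₄ := pow_le_pow_left₀ (abs_nonneg _) h₁ 2
  rw [sq_abs, mul_pow, Real.sq_sqrt (X.h.P_nonneg hs x fun y => sq_nonneg _),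
    Real.sq_sqrt (X.h.P_nonneg hs x fun y => sq_nonneg _)] at h₄
  rw [h₃, mul_pow]
  calc _ ≤ (2 * s) ^ 2 * (X.h.Jρ x t ψ s * (C * (qf (c.G s x) ξ / s))) :=
        mul_le_mul_of_nonneg_left (h₄.trans (mul_le_mul_of_nonneg_left h₂ j₂)) (sq_nonneg _)
    _ = _ := by field_simp; ring

/-- `ρ_symm`, `P_tendsto_gr` at each point (`L_s v_s` is jointly continuous, of uniform exponential growth), dominated convergence (`P_gr`). -/
theorem β_lim {X : Sp.{u} n} (c : Crd X) (x : X.M) {t : ℝ} {ψ : X.M → ℝ} (ht : 0 < t)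
    (hT : t ≤ c.T / 2) (h : CG x t ψ) (ξ : V n) : Tendsto (c.β x t ψ ξ) (𝓝[>] t)
      (𝓝 (2 * t * X.h.P t (fun y => ψ y * X.h.L t x (c.u ξ) y) x)) := by
  have hT0 := c.T_pos
  have hokt : X.h.ok t := c.ok ht (by linarith)
  have hI0 : Ioo 0 (c.T + t) ⊆ Ioi 0 := Ioo_subset_Ioi_self
  obtain ⟨hv, hvb⟩ := c.U_back (c.T + t) ξ
  obtain ⟨hL, -⟩ := back_L X x isOpen_Ioo hI0 (X.h.Sm_mono hv Ioo_subset_Iio_self) fun s hs => hvb s hs.2
  set f : ℝ → X.M → ℝ := fun s => X.h.L s x (c.U (c.T + t - s) ξ) with hf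
  obtain ⟨C, hC, hU⟩ := U_bounds.{u} n
  obtain ⟨C₁, hC₁, hφ⟩ := grad_φ.{u} n
  obtain ⟨C₂, hC₂, hP⟩ := P_gr.{u} n 1
  have sub : Ioo t (2 * t) ⊆ Ioo 0 (c.T + t) := fun s hs => ⟨ht.trans hs.1, by linarith [hs.2]⟩
  have ok : ∀ s ∈ Ioo t (2 * t), X.h.ok s := fun s hs => c.ok (ht.trans hs.1) (by linarith [hs.2])
  have cf : ∀ s ∈ Ioo t (2 * t), Continuous (f s) := fun s hs => X.h.S_cont (X.h.Sm_slice hL (sub hs))
  obtain ⟨B, hB⟩ : ∃ B : ℝ, ∀ s ∈ Ioo t (2 * t), Gr x t B 1 (f s) := by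
    set B := Real.sqrt (C * (ξ ⬝ᵥ ξ)) + Real.sqrt (C * (ξ ⬝ᵥ ξ) / c.T) with hB
    refine ⟨B * (1 + Real.sqrt (C₁ / t)), fun s hs y => ?_⟩
    obtain ⟨h₁, h₂, -⟩ := hU X c (c.T + t - s) ⟨by linarith [hs.2], by linarith [hs.1]⟩ ξ y
    refine (βid_L X x (s := s) (B := B) y ((Real.sqrt_le_sqrt h₁).trans (le_add_of_nonneg_right (Real.sqrt_nonneg _)))
      ((Real.abs_le_sqrt (by rw [le_div_iff₀ hT0]; linarith)).trans
        (le_add_of_nonneg_left (Real.sqrt_nonneg _)))).trans ?_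
    rw [mul_assoc, one_mul]
    refine mul_le_mul_of_nonneg_left ?_ (by positivity)
    have h₃ := hφ X (ht.trans hs.1) ((ok s hs).2.trans (by norm_num)) x y
    have h₄ : 1 ≤ Real.exp (dist x y / Real.sqrt t) := Real.one_le_exp (by positivity)
    have h₅ : 1 + dist x y ^ 2 / s ≤ Real.exp (dist x y / Real.sqrt t) ^ 2 := by
      have h₆ := Real.quadratic_le_exp_of_nonneg (by positivity : 0 ≤ 2 * (dist x y / Real.sqrt t))
      have h₇ : dist x y ^ 2 / s ≤ (dist x y / Real.sqrt t) ^ 2 := by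
        rw [div_pow, Real.sq_sqrt ht.le]
        exact div_le_div_of_nonneg_left (sq_nonneg _) ht hs.1.le
      have h₈ : 0 ≤ dist x y / Real.sqrt t := by positivity
      rw [← Real.exp_nat_mul, Nat.cast_ofNat]
      nlinarith
    have h₆ : Real.sqrt (X.h.Γ (X.h.φ s x) (X.h.φ s x) y) ≤
        Real.sqrt (C₁ / t) * Real.exp (dist x y / Real.sqrt t) := by
      refine Real.sqrt_le_iff.2 ⟨by positivity, ?_⟩
      rw [mul_pow, Real.sq_sqrt (by positivity), div_mul_eq_mul_div, le_div_iff₀ ht]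
      have := mul_le_mul_of_nonneg_left hs.1.le (X.h.Γ_nonneg (X.h.φ s x) y)
      have := mul_le_mul_of_nonneg_left h₅ hC₁.le
      linarith
    linarith
  have lim : ∀ y, Tendsto (fun s => X.h.P (s - t) (f s) y) (𝓝[>] t) (𝓝 (f t y)) := fun y => by
    have mem : ∀ σ ∈ Ioo 0 t, t + σ ∈ Ioo t (2 * t) := fun σ hσ => ⟨by linarith [hσ.1], by linarith [hσ.2]⟩
    have c₁ : ContinuousAt (fun p : ℝ × X.M => f p.1 p.2) (t + 0, y) :=
      (X.h.Sm_cont hL).continuousAt ((isOpen_Ioo.prod isOpen_univ).mem_nhds ⟨⟨by linarith, by linarith⟩, trivial⟩)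
    have c₂ : Tendsto (fun p : ℝ × X.M => (t + p.1, p.2)) (𝓝[>] 0 ×ˢ 𝓝 y) (𝓝 (t + 0, y)) :=
      ((tendsto_fst.mono_right nhdsWithin_le_nhds).const_add t).prodMk_nhds tendsto_snd
    have c₅ : Tendsto (fun p : ℝ × X.M => f (t + p.1) p.2) (𝓝[>] 0 ×ˢ 𝓝 y) (𝓝 (f t y)) := by
      simpa only [Function.comp_def, add_zero] using c₁.tendsto.comp c₂
    have c₃ := X.h.P_tendsto_gr (F := fun σ => f (t + σ)) (o := x) (B := B) (R := 1 / Real.sqrt t) ht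
      (fun σ hσ => cf _ (mem σ hσ)) (fun σ hσ z => by
        simpa only [div_mul_eq_mul_div] using hB _ (mem σ hσ) z) c₅
    have c₄ : Tendsto (fun s => s - t) (𝓝[>] t) (𝓝[>] 0) :=
      tendsto_nhdsWithin_iff.2 ⟨by
        simpa using ((continuous_sub_right t).tendsto t).mono_left nhdsWithin_le_nhds,
        eventually_mem_nhdsWithin.mono fun s hs => mem_Ioi.2 (sub_pos.2 (mem_Ioi.1 hs))⟩
    simpa only [Function.comp_def, add_sub_cancel, add_zero] using c₃.comp c₄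
  have ev : Ioo t (2 * t) ∈ 𝓝[>] t := Ioo_mem_nhdsGT (by linarith)
  have hE : CG x t fun y => C₂ * B * Real.exp (|1| * dist x y / Real.sqrt t) :=
    ⟨by fun_prop, |C₂ * B|, |1|, fun y => by rw [abs_mul, Real.abs_exp]⟩
  have dom : Tendsto (fun s => X.h.P t (fun y => ψ y * X.h.P (s - t) (f s) y) x) (𝓝[>] t)
      (𝓝 (X.h.P t (fun y => ψ y * f t y) x)) := by
    refine tendsto_integral_filter_of_dominated_convergence
      (F := fun s y => X.h.H t x y * (ψ y * X.h.P (s - t) (f s) y)) (f := fun y => X.h.H t x y * (ψ y * f t y))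
      (fun y => ‖X.h.H t x y * (ψ y * (C₂ * B * Real.exp (|1| * dist x y / Real.sqrt t)))‖) ?_ ?_
      ((h.mul hE).bd hokt).2.1.norm (.of_forall fun y => ((lim y).const_mul (ψ y)).const_mul (X.h.H t x y))
    · filter_upwards [ev] with s hs
      have i₁ := (hP X (ht.trans hs.1) (by linarith [hs.2]) ((ok s hs).2.trans (by norm_num)) x x
        (cf s hs).aestronglyMeasurable (hB s hs)).1
      have i₂ := (X.h.P_P ht (sub_pos.2 hs.1) (cf s hs).aestronglyMeasurable (x := x)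
        (by rwa [add_sub_cancel])).1
      exact (h.1.aestronglyMeasurable.mul i₂.1).congr (.of_forall fun y => mul_left_comm _ _ _)
    · filter_upwards [ev] with s hs
      refine .of_forall fun y => ?_
      have k₁ : X.h.k * (s - t) ≤ 1 :=
        (mul_le_mul_of_nonneg_left (by linarith [hs.2]) X.h.k_nonneg).trans (hokt.2.trans (by norm_num))
      have := (hP X (sub_pos.2 hs.1) (by linarith [hs.2]) k₁ x y (cf s hs).aestronglyMeasurable (hB s hs)).2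
      simp only [norm_mul _ (_ * _), norm_mul (ψ y)]
      gcongr
      exact this.trans (le_abs_self _)
  have e : f t = X.h.L t x (c.u ξ) := by simp only [hf, add_sub_cancel_right, Crd.u]
  rw [e] at dom
  refine ((((continuous_const.mul continuous_id).tendsto t).mono_left nhdsWithin_le_nhds).mul dom).congr' ?_
  filter_upwards [ev] with s hs
  rw [Crd.β, (ρ_symm h ht hs.1 (ok s hs) ⟨cf s hs, B, 1, hB s hs⟩).2]
  rfl

theorem s3bd_geo {β : ℝ → ℝ} {t T K p : ℝ} (ht : 0 < t) (hK : 0 ≤ K) (hp : 0 < p)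
    (h : ∀ a b, t < a → a ≤ b → b ≤ 2 * a → b ≤ T → |β b - β a| ≤ K * (t / a) ^ p) {a : ℝ} (ha : t < a)
    (haT : a ≤ T) : |β T - β a| ≤ K * (1 - (2⁻¹ : ℝ) ^ p)⁻¹ := by
  have hq : (2⁻¹ : ℝ) ^ p < 1 := Real.rpow_lt_one (by norm_num) (by norm_num) hp
  have hq0 : 0 < (2⁻¹ : ℝ) ^ p := by positivity
  set r := (1 - (2⁻¹ : ℝ) ^ p)⁻¹ with hr
  have hr1 : r * 2⁻¹ ^ p + 1 = r := by
    have : r * (1 - 2⁻¹ ^ p) = 1 := inv_mul_cancel₀ (by linarith)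
    linarith
  have hr0 : 0 < r := inv_pos.2 (by linarith)
  have key : ∀ j : ℕ, ∀ a, t < a → a ≤ T → T ≤ 2 ^ j * a → |β T - β a| ≤ K * r * (t / a) ^ p := by
    intro j
    induction j with
    | zero =>
      intro a ha h₁ h₂
      have h0 := ht.trans ha
      rw [le_antisymm h₁ (by simpa using h₂), sub_self, abs_zero]
      have := h0.trans_le h₁
      positivity
    | succ j ih =>
      intro a ha h₁ h₂
      have h0 := ht.trans ha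
      have h₃ : 0 ≤ K * (t / a) ^ p := by positivity
      rcases le_total T (2 * a) with h₄ | h₄
      · refine (h a T ha h₁ h₄ le_rfl).trans ?_
        nlinarith [mul_nonneg h₃ (mul_pos hr0 hq0).le]
      · have h₅ := ih (2 * a) (by linarith) h₄ (by rw [pow_succ] at h₂; linarith)
        have h₆ := h a (2 * a) ha (by linarith) le_rfl h₄
        rw [show t / (2 * a) = 2⁻¹ * (t / a) by ring, Real.mul_rpow (by norm_num) (by positivity)] at h₅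
        have h₇ := abs_sub_le (β T) (β (2 * a)) (β a)
        calc _ ≤ K * (t / a) ^ p * (r * 2⁻¹ ^ p + 1) := by linarith
          _ = _ := by rw [hr1]; ring
  obtain ⟨j, hj⟩ := pow_unbounded_of_one_lt (T / a) (one_lt_two (α := ℝ))
  have h0 := ht.trans ha
  refine (key j a ha haT ((div_le_iff₀ h0).1 hj.le)).trans (mul_le_of_le_one_right (by positivity) ?_)
  exact Real.rpow_le_one (by positivity) ((div_le_one h0).2 ha.le) hp.le

/-- BETA.  Recipe: for `t < a`, `a_j = min (2^j a) T₁`; `a_j G(a_j) Jρ(a_j) ≤ 2 t G(t) J₀ (t/a_j)^{γ - 2e}` (`hyp_growth`, `Jρ_decay`), `∫ KK/σ ≤ (2a_j/t)^{γ/16} κ` (`kap_block`); geometric sum (`2e ≤ γ/2`);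
`β_top` at `T₁` with `(t/T₁)^{γ/16} ≤ κ`; `β_lim`.  For `t = T₁`: Cauchy-Schwarz and `hyp_gr` (`κ ≥ 1`). -/
theorem beta (n : ℕ) (hn : 1 ≤ n) (γ : ℝ) (hγ : 0 < γ) (hγ' : γ ≤ 1 / 2) : ∃ C e₀ : ℝ, 0 < C ∧ 0 < e₀ ∧
    ∀ (X : Sp.{u} n) (c : Crd X) (x : X.M) {s₀ T₁ e t : ℝ} {ψ : X.M → ℝ}, e ≤ e₀ → c.HG x s₀ T₁ e γ →
      t ∈ Icc s₀ T₁ → CG x t ψ → c.Orth x t ψ → ∀ ξ,
      (2 * t * X.h.P t (fun y => ψ y * X.h.L t x (c.u ξ) y) x) ^ 2 ≤
        C * (t * qf (c.G t x) ξ * X.h.κ x T₁ γ t) * X.h.P t (fun y => ψ y ^ 2) x := by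
  obtain ⟨C₁, e₁, hC₁, he₁, h₁⟩ := β_step.{u} n hn
  obtain ⟨C₂, e₂, hC₂, he₂, h₂⟩ := β_top.{u} n
  obtain ⟨e₃, he₃, he₃', h₃⟩ := hyp_growth.{u} n
  obtain ⟨e₄, he₄, h₄⟩ := Jρ_decay.{u} n γ hγ
  obtain ⟨C₅, e₅, hC₅, he₅, h₅⟩ := hyp_gr.{u} n
  set r := (1 - (2⁻¹ : ℝ) ^ (γ / 8))⁻¹ with hr
  refine ⟨4 * C₂ + 8 * C₁ * r ^ 2 + 4 * C₅, min (min (min e₁ e₂) (min e₃ e₄)) (min e₅ (γ / 4)),
    by positivity, by positivity, ?_⟩
  intro X c x s₀ T₁ e t ψ he hG ht hψ ho ξ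
  simp only [le_min_iff] at he
  obtain ⟨⟨⟨a₁, a₂⟩, a₃, a₄⟩, a₅, a₆⟩ := he
  have hH := hG.toHyp
  have ht0 : 0 < t := hH.s₀_pos.trans_le ht.1
  have hT0 := hH.T₁_pos
  have he0 := hH.e_pos
  have htT : t ≤ 10 ^ 5 * T₁ := by linarith [ht.2]
  obtain ⟨hc, hok, -⟩ := hH.times (by linarith) ht0 htT
  have hκ := (kap_basic X x (a := γ / 16) ht0 hT0 (by positivity) (sq_nonneg e) hH.ent).1
  change _ ≤ X.h.κ x T₁ γ t at hκ
  have hκ0 : 0 ≤ X.h.κ x T₁ γ t := le_trans (by positivity) hκ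
  have hg0 : 0 ≤ qf (c.G t x) ξ := MC.psd_qf (c.G_psd ht0 x) ξ
  have hJ0 : 0 ≤ X.h.P t (fun y => ψ y ^ 2) x := X.h.P_nonneg ht0 x fun _ => sq_nonneg _
  set g := qf (c.G t x) ξ
  set J := X.h.P t (fun y => ψ y ^ 2) x
  set κ := X.h.κ x T₁ γ t with hκd
  have hW : 0 ≤ t * g * κ * J := by positivity
  rcases ht.2.eq_or_lt with rfl | htT'
  · rw [div_self ht0.ne', Real.one_rpow] at hκ
    obtain ⟨hS, hL, -⟩ := L_CG X x hok (c.u_nice ξ).1 (c.u_nice ξ).2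
    have b₁ := (X.h.P_cs ht0 hψ.1.aestronglyMeasurable hL.1.aestronglyMeasurable (hψ.bd hok).2.2
      (hL.bd hok).2.2).2
    have b₂ := ((h₅ X c x a₅ hH t ⟨ht.1, htT⟩ ξ).1 c.T ⟨by linarith, by linarith⟩).2
    change X.h.P t (fun y => X.h.L t x (c.u ξ) y ^ 2) x ≤ _ at b₂
    have b₃ := pow_le_pow_left₀ (abs_nonneg _) b₁ 2
    rw [sq_abs, mul_pow, Real.sq_sqrt hJ0, Real.sq_sqrt (X.h.P_nonneg ht0 x fun _ => sq_nonneg _)] at b₃
    calc _ = 4 * t ^ 2 * X.h.P t (fun y => ψ y * X.h.L t x (c.u ξ) y) x ^ 2 := by ring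
      _ ≤ 4 * t ^ 2 * (J * (C₅ * (g / t))) :=
          mul_le_mul_of_nonneg_left (b₃.trans (mul_le_mul_of_nonneg_left b₂ hJ0)) (by positivity)
      _ = 4 * C₅ * (t * g * 1 * J) := by field_simp
      _ ≤ 4 * C₅ * (t * g * κ * J) := by gcongr
      _ ≤ _ := by nlinarith [mul_nonneg hC₂.le hW, mul_nonneg (mul_nonneg hC₁.le (sq_nonneg r)) hW]
  have hw : ∀ s ∈ Ioc t T₁, s * qf (c.G s x) ξ * X.h.Jρ x t ψ s ≤ 2 * (t * g * J) * (t / s) ^ (γ / 2) :=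
    fun s hs => by
      have hs0 := ht0.trans hs.1
      have b₁ := (h₃ X c x a₃ hH ξ).1 t s ht.1 hs.1.le (by linarith [hs.2])
      have b₂ := h₄ X c x a₄ hG ht.1 hψ ho s hs
      have b₃ : (s / t) ^ (2 * e) ≤ (s / t) ^ (γ / 2) :=
        Real.rpow_le_rpow_of_exponent_le ((one_le_div ht0).2 hs.1.le) (by linarith)
      have b₄ : (t / s) ^ (1 + γ) = t / s * ((t / s) ^ (γ / 2) * (t / s) ^ (γ / 2)) := by
        rw [← Real.rpow_add (by positivity), add_halves, Real.rpow_add (by positivity), Real.rpow_one]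
      have b₅ : (s / t) ^ (γ / 2) * (t / s) ^ (γ / 2) = 1 := by
        rw [← Real.mul_rpow (by positivity) (by positivity), show s / t * (t / s) = 1 by field_simp,
          Real.one_rpow]
      calc _ ≤ s * (2 * (s / t) ^ (γ / 2) * g) * (J * (t / s) ^ (1 + γ)) := by
            refine mul_le_mul (mul_le_mul_of_nonneg_left (b₁.trans ?_) hs0.le) b₂ (Jρ_le hok hψ hs.1).2.2
              (by positivity)
            gcongr
            linarith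
        _ = 2 * (t * g * J) * (t / s) ^ (γ / 2) * ((s / t) ^ (γ / 2) * (t / s) ^ (γ / 2)) := by
            rw [b₄]; field_simp
        _ = _ := by rw [b₅, mul_one]
  have hstep : ∀ a b, t < a → a ≤ b → b ≤ 2 * a → b ≤ T₁ → |c.β x t ψ ξ b - c.β x t ψ ξ a| ≤
      Real.sqrt (4 * C₁ * (t * g * κ * J)) * (t / a) ^ (γ / 8) := fun a b ha hab hb hbT => by
    have ha0 := ht0.trans ha
    have b₁ := h₁ X c x a₁ hH ht.1 ha hab hb hbT hψ ξ
    have b₂ := (kap_block X x (a := γ / 16) (A := 2 * (a / t)) ht0 (by positivity) ha0 hab hbT hH.ent_ne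
      (by rw [mul_assoc, div_mul_cancel₀ _ ht0.ne']; exact hb)
      (by nlinarith [(one_le_div ht0).2 ha.le])).2.2
    change _ ≤ _ * κ at b₂
    have b₃ : (2 * (a / t)) ^ (γ / 16) ≤ 2 * (a / t) ^ (γ / 4) := by
      rw [Real.mul_rpow (by norm_num) (by positivity)]
      refine mul_le_mul ?_ (Real.rpow_le_rpow_of_exponent_le ((one_le_div ht0).2 ha.le) (by linarith))
        (by positivity) (by norm_num)
      exact (Real.rpow_le_rpow_of_exponent_le one_le_two (by linarith : γ / 16 ≤ 1)).trans_eq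
        (Real.rpow_one 2)
    have b₄ : (t / a) ^ (γ / 2) * (a / t) ^ (γ / 4) = ((t / a) ^ (γ / 8)) ^ 2 := by
      rw [← inv_div t a, Real.inv_rpow (by positivity), ← Real.rpow_neg (by positivity),
        ← Real.rpow_add (by positivity), ← Real.rpow_natCast, ← Real.rpow_mul (by positivity)]
      congr 1; push_cast; ring
    have b₅ := hw a ⟨ha, hab.trans hbT⟩
    have b₆ : 0 ≤ a * qf (c.G a x) ξ * X.h.Jρ x t ψ a :=
      mul_nonneg (mul_nonneg ha0.le (MC.psd_qf (c.G_psd ha0 x) ξ)) (Jρ_le hok hψ ha).2.2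
    refine abs_le_of_sq_le_sq' ?_ (by positivity) |> abs_le.2
    rw [mul_pow, Real.sq_sqrt (by positivity), ← b₄]
    calc _ ≤ C₁ * (a * qf (c.G a x) ξ * X.h.Jρ x t ψ a) * (2 * (a / t) ^ (γ / 4) * κ) :=
          b₁.trans (mul_le_mul_of_nonneg_left (b₂.trans (mul_le_mul_of_nonneg_right b₃ hκ0))
            (mul_nonneg hC₁.le b₆))
      _ ≤ C₁ * (2 * (t * g * J) * (t / a) ^ (γ / 2)) * (2 * (a / t) ^ (γ / 4) * κ) := by gcongr
      _ = _ := by ring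
  have htop : c.β x t ψ ξ T₁ ^ 2 ≤ 2 * C₂ * (t * g * κ * J) := by
    have b₁ : (t / T₁) ^ (γ / 2) ≤ κ := (Real.rpow_le_rpow_of_exponent_ge (by positivity)
      ((div_le_one hT0).2 ht.2) (by linarith)).trans hκ
    calc _ ≤ C₂ * (2 * (t * g * J) * κ) := (h₂ X c x a₂ hH ht.1 htT' le_rfl hψ ξ).trans
          (mul_le_mul_of_nonneg_left ((hw T₁ ⟨htT', le_rfl⟩).trans (by gcongr)) hC₂.le)
      _ = _ := by ring
  have hlim := ((β_lim c x ht0 (by linarith [c.T_pos]) hψ ξ).const_sub (c.β x t ψ ξ T₁)).abs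
  have hle := le_of_tendsto hlim (by
    filter_upwards [Ioc_mem_nhdsGT htT'] with a ha
    exact s3bd_geo ht0 (Real.sqrt_nonneg _) (by positivity) hstep ha.1 ha.2)
  have b₁ := pow_le_pow_left₀ (abs_nonneg _) hle 2
  rw [sq_abs, mul_pow, Real.sq_sqrt (by positivity), ← hr] at b₁
  generalize 2 * t * X.h.P t (fun y => ψ y * X.h.L t x (c.u ξ) y) x = L at b₁ ⊢
  nlinarith [sq_nonneg (2 * c.β x t ψ ξ T₁ - L), mul_nonneg hC₅.le hW]

/-- `exists_proj`, `L_CG`, `beta`. -/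
theorem beta_cor (n : ℕ) (hn : 1 ≤ n) (γ : ℝ) (hγ : 0 < γ) (hγ' : γ ≤ 1 / 2) : ∃ C e₀ : ℝ, 0 < C ∧
    0 < e₀ ∧ ∀ (X : Sp.{u} n) (c : Crd X) (x : X.M) {s₀ T₁ e t : ℝ} {ψ : X.M → ℝ}, e ≤ e₀ →
      c.HG x s₀ T₁ e γ → t ∈ Icc s₀ T₁ → (c.J t x).PosDef → CG x t ψ → ∀ η ζ,
      c.J t x *ᵥ ζ = (2 * t) • c.G t x *ᵥ η →
      (2 * t * X.h.P t (fun y => ψ y * X.h.L t x (c.u η) y) x - X.h.Cov t x ψ (c.u ζ)) ^ 2 ≤
        C * (t * qf (c.G t x) η * X.h.κ x T₁ γ t) * X.h.P t (fun y => ψ y ^ 2) x := by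
  obtain ⟨C, e₀, hC, he₀, hb⟩ := beta.{u} n hn γ hγ hγ'
  refine ⟨C, min e₀ 1, hC, by positivity, ?_⟩
  intro X c x s₀ T₁ e t ψ he hy ht hJ h η ζ hζ
  have ht0 : 0 < t := hy.s₀_pos.trans_le ht.1
  have hT₁ := hy.T₁_pos
  have he1 := he.trans (min_le_right _ _)
  obtain ⟨-, hok, -⟩ := hy.toHyp.times he1 ht0 (by linarith [ht.2])
  obtain ⟨c₀, μ, h₁, h₂, h₃, h₄, h₅⟩ := exists_proj c x hok hJ h
  obtain ⟨-, hL, -, hL0, hL1⟩ := L_CG X x hok (c.u_nice η).1 (c.u_nice η).2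
  have hu : CG x t (c.u μ) := by
    obtain ⟨B, hB⟩ := (c.u_nice μ).1.2
    exact CG.of_bdd (X.h.S_cont (c.u_S μ)) fun y => (hB y).1
  have i₁ := ((h₁.mul hL).bd hok).2.1
  have i₂ := ((hu.mul hL).bd hok).2.1
  have i₃ := (((CG.of_bdd (x := x) (t := t) (continuous_const (y := c₀)) fun _ => le_rfl).mul hL).bd hok).2.1
  have e₁ : X.h.P t (fun y => ψ y * X.h.L t x (c.u η) y) x =
      X.h.P t (fun y => (ψ y - c₀ - c.u μ y) * X.h.L t x (c.u η) y) x + bf (c.G t x) μ η := by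
    have : (fun y => ψ y * X.h.L t x (c.u η) y) = fun y => (ψ y - c₀ - c.u μ y) * X.h.L t x (c.u η) y +
        (c.u μ y * X.h.L t x (c.u η) y + c₀ * X.h.L t x (c.u η) y) := by
      ext y; ring
    rw [this, X.h.P_add i₁ (by simp only [mul_add]; exact i₂.add i₃), X.h.P_add i₂ i₃, X.h.P_cmul, hL0,
      hL1 _ (c.u_nice μ).1, c.bf_G ht0, funext (X.h.Γ_comm (c.u η) (c.u μ)), mul_zero, add_zero]
  have e₂ : X.h.Cov t x ψ (c.u ζ) = 2 * t * bf (c.G t x) μ η := by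
    rw [h₃, bf, hζ, dotProduct_smul, smul_eq_mul, bf]
  rw [e₁, e₂, mul_add, add_sub_cancel_right]
  refine (hb X c x (he.trans (min_le_left _ _)) hy ht h₁ h₂ η).trans (mul_le_mul_of_nonneg_left ?_ ?_)
  · linarith [MC.psd_qf hJ.posSemidef μ]
  · have := (hy.toHyp.κ_bounds he1 hγ hγ' ht0 ht.2).2.2.2.1
    have := MC.psd_qf (c.G_psd ht0 x) η
    positivity

end Crest.Agent.R247
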