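import Crest.Agent.R247.S3

/-! # Row 247: auxiliary lemmas for `β_id` (weights, limits of cut-off identities) -/

set_option autoImplicit false
set_option linter.unusedSectionVars false
set_option linter.unusedVariables false
open MeasureTheory Filter Set Metric Matrix
open scoped ENNReal NNReal Topology ContDiff
open Crest.GeometryTopology.CoordMetric

noncomputable section
namespace Crest.Agent.R247
universe u

variable {n : ℕ}

theorem βid_poly (r : ℝ) (hr : 0 ≤ r) : (1 + r ^ 2) ^ 2 ≤ Real.exp (4 * r) := by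
  have h₁ : 1 + r ^ 2 ≤ Real.exp (2 * r) := by
    have := Real.quadratic_le_exp_of_nonneg (by linarith : 0 ≤ 2 * r)
    nlinarith
  calc (1 + r ^ 2) ^ 2 ≤ Real.exp (2 * r) ^ 2 := by gcongr
    _ = Real.exp (4 * r) := by rw [← Real.exp_nat_mul]; ring_nf

/-- The weight `H (1 + Γφ)²` is integrable, locally uniformly in time. -/
theorem βid_wt (X : Sp.{u} n) (x : X.M) {a b : ℝ} (ha : 0 < a) (hb : X.h.ok b) : ∃ B : ℝ,
    ∀ s ∈ Icc a b, Integrable (fun y => X.h.H s x y * (1 + X.h.Γ (X.h.φ s x) (X.h.φ s x) y) ^ 2) X.h.m ∧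
      ∫ y, X.h.H s x y * (1 + X.h.Γ (X.h.φ s x) (X.h.φ s x) y) ^ 2 ∂X.h.m ≤ B := by
  obtain ⟨C, hC, hφ⟩ := grad_φ.{u} n
  obtain ⟨C', hC', hP⟩ := P_gr.{u} n 4
  refine ⟨C' * (1 + C / a) ^ 2, fun s hs => ?_⟩
  have hs0 : 0 < s := ha.trans_le hs.1
  have hk : X.h.k * s ≤ 1 / 10 ^ 6 := (mul_le_mul_of_nonneg_left hs.2 X.h.k_nonneg).trans hb.2
  have hS := X.h.S_Γ (X.h.φ_S hs0 x) (X.h.φ_S hs0 x)
  have hg : Gr x s ((1 + C / a) ^ 2) 4 fun y => (1 + X.h.Γ (X.h.φ s x) (X.h.φ s x) y) ^ 2 := fun y => by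
    have h₀ := X.h.Γ_nonneg (X.h.φ s x) y
    have h₁ := hφ X hs0 (hk.trans (by norm_num)) x y
    have h₂ : dist x y ^ 2 / s = (dist x y / Real.sqrt s) ^ 2 := by rw [div_pow, Real.sq_sqrt hs0.le]
    rw [h₂] at h₁
    have h₃ : X.h.Γ (X.h.φ s x) (X.h.φ s x) y ≤ C / a * (1 + (dist x y / Real.sqrt s) ^ 2) := by
      rw [div_mul_eq_mul_div, le_div_iff₀ ha]
      nlinarith [mul_le_mul_of_nonneg_left hs.1 h₀]
    have h₄ := βid_poly (dist x y / Real.sqrt s) (by positivity)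
    rw [abs_of_nonneg (sq_nonneg _), mul_div_assoc]
    calc (1 + X.h.Γ (X.h.φ s x) (X.h.φ s x) y) ^ 2
        ≤ ((1 + C / a) * (1 + (dist x y / Real.sqrt s) ^ 2)) ^ 2 := by
          gcongr
          nlinarith [sq_nonneg (dist x y / Real.sqrt s)]
      _ ≤ _ := by rw [mul_pow]; gcongr
  obtain ⟨h₁, h₂⟩ := hP X hs0 (by linarith) (hk.trans (by norm_num)) x x
    (((continuous_const.add (X.h.S_cont hS)).pow 2).aestronglyMeasurable) hg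
  refine ⟨h₁, (le_abs_self _).trans (h₂.trans_eq ?_)⟩
  simp

theorem βid_add {X : Sp.{u} n} {a b : ℝ} {Q Q' : ℝ → X.M → ℝ} (h : X.h.STI a b Q) (h' : X.h.STI a b Q') :
    X.h.STI a b fun s y => Q s y + Q' s y := Integrable.add h h'

theorem βid_cmul {X : Sp.{u} n} {a b : ℝ} {Q : ℝ → X.M → ℝ} (h : X.h.STI a b Q) (c : ℝ) :
    X.h.STI a b fun s y => c * Q s y := Integrable.const_mul h c

/-- Limit of a cut-off identity whose remainder is dominated. -/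
theorem βid_limit (X : Sp.{u} n) (o : X.M) {I : Set ℝ} {a b : ℝ} (hab : a ≤ b) (hs : Icc a b ⊆ I)
    {Ψa Ψb : X.M → ℝ} (ha : Integrable Ψa X.h.m) (hb : Integrable Ψb X.h.m) {G D : ℝ → X.M → ℝ}
    (hG : ContinuousOn (fun p : ℝ × X.M => G p.1 p.2) (I ×ˢ univ)) (hGi : X.h.STI a b G)
    (hD : X.h.STI a b D)
    (hid : ∀ (χ : X.M → ℝ) (ε : ℝ), X.h.S χ → HasCompactSupport χ →
      (∀ y, Real.sqrt (X.h.Γ χ χ y) ≤ ε ∧ |X.h.Δ χ y| ≤ ε) → ∃ R : ℝ → X.M → ℝ,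
      ContinuousOn (fun p : ℝ × X.M => R p.1 p.2) (I ×ˢ univ) ∧
      (∀ s ∈ Icc a b, ∀ y, |R s y| ≤ ε * D s y) ∧
      ∫ y, χ y * Ψb y ∂X.h.m - ∫ y, χ y * Ψa y ∂X.h.m =
        ∫ s in a..b, ((∫ y, χ y * G s y ∂X.h.m) + ∫ y, R s y ∂X.h.m)) :
    ∫ y, Ψb y ∂X.h.m - ∫ y, Ψa y ∂X.h.m = ∫ s in a..b, ∫ y, G s y ∂X.h.m := by
  obtain ⟨C, χ, hχ, hχ1⟩ := X.h.cut2 o
  choose R hRc hRD hR using fun j : ℕ => hid (χ j) (C / (j + 1)) (hχ j).1 (hχ j).2.1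
    fun y => ((hχ j).2.2 y).2
  have hRi : ∀ j, X.h.STI a b (R j) := fun j =>
    X.h.STI_of_le hs (hRc j) (βid_cmul hD _) (hRD j)
  have hβ : Tendsto (fun j => ∫ s in a..b, ∫ y, R j s y ∂X.h.m) atTop (𝓝 0) := by
    have h₁ : Tendsto (fun j : ℕ => C / (j + 1) * ∫ s in a..b, ∫ y, D s y ∂X.h.m) atTop (𝓝 0) := by
      have := (tendsto_const_div_atTop_nhds_zero_nat C).comp (tendsto_add_atTop_nat 1)
      simpa [Function.comp_def] using this.mul_const (∫ s in a..b, ∫ y, D s y ∂X.h.m)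
    refine squeeze_zero_norm (fun j => ?_) h₁
    rw [← intervalIntegral.integral_const_mul]
    refine intervalIntegral.norm_integral_le_of_norm_le hab ?_ ((hD.slice hab).1.const_mul _)
    filter_upwards [(hD.slice hab).2] with s hs' hs''
    rw [← integral_const_mul]
    exact norm_integral_le_of_norm_le ((hs' hs'').const_mul _)
      (.of_forall fun y => hRD j s (Ioc_subset_Icc_self hs'') y)
  have := (X.h.cut_limit hab hs (Q := fun _ _ => 0)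
    (fun j => ⟨X.h.S_cont (hχ j).1, (hχ j).2.1, fun y => ((hχ j).2.2 y).1⟩) hχ1 ha hb
    continuousOn_const hG (fun _ _ _ => le_rfl) hGi hβ fun j => by
      rw [hR j, intervalIntegral.integral_add _ ((hRi j).slice hab).1]
      · simp only [zero_add]
      · refine ContinuousOn.intervalIntegrable ?_
        rw [uIcc_of_le hab]
        exact (X.h.cont_int hG (X.h.S_cont (hχ j).1) (hχ j).2.1).mono hs).2
  simpa using this

theorem βid_am (p q : ℝ) (hp : 0 ≤ p) (hq : 0 ≤ q) : Real.sqrt p * Real.sqrt q ≤ (p + q) / 2 := by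
  nlinarith [Real.sq_sqrt hp, Real.sq_sqrt hq, sq_nonneg (Real.sqrt p - Real.sqrt q)]

/-- Pointwise bound for the deficit term. -/
theorem βid_Hs (X : Sp.{u} n) (x : X.M) {s B : ℝ} (hs : 0 < s) {v w : X.M → ℝ} (hv : X.h.S v)
    (hw : X.h.S w) (y : X.M) (hB : Real.sqrt (X.h.Γ v v y) ≤ B) :
    |4 * s * (X.h.Hs (X.h.φ s x) v w y - 1 / (2 * s) * X.h.Γ v w y)| ≤
      4 * B * (Real.sqrt (X.h.Dφ s x y) * Real.sqrt (X.h.Γ w w y)) := by
  have h₁ := X.h.abs_Hs_sub_le (X.h.φ_S hs x) hv hw (1 / (2 * s)) y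
  have h₂ : Real.sqrt (X.h.Dφ s x y) = s * Real.sqrt (X.h.D (X.h.φ s x) (1 / (2 * s)) y) := by
    rw [HS.Dφ, Real.sqrt_mul (sq_nonneg s), Real.sqrt_sq hs.le]
  rw [abs_mul, abs_of_pos (by positivity : 0 < 4 * s), h₂]
  calc 4 * s * |X.h.Hs (X.h.φ s x) v w y - 1 / (2 * s) * X.h.Γ v w y|
      ≤ 4 * s * (Real.sqrt (X.h.D (X.h.φ s x) (1 / (2 * s)) y) * B * Real.sqrt (X.h.Γ w w y)) := by
        refine mul_le_mul_of_nonneg_left (h₁.trans ?_) (by positivity)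
        gcongr
    _ = _ := by ring

theorem βid_L (X : Sp.{u} n) (x : X.M) {s B : ℝ} {v : X.M → ℝ} (y : X.M)
    (hB : Real.sqrt (X.h.Γ v v y) ≤ B) (hB' : |X.h.Δ v y| ≤ B) :
    |X.h.L s x v y| ≤ B * (1 + Real.sqrt (X.h.Γ (X.h.φ s x) (X.h.φ s x) y)) := by
  have h₁ := X.h.abs_Γ_le v (X.h.φ s x) y
  have h₂ := mul_le_mul_of_nonneg_right hB (Real.sqrt_nonneg (X.h.Γ (X.h.φ s x) (X.h.φ s x) y))
  have h₃ := abs_sub (X.h.Γ v (X.h.φ s x) y) (X.h.Δ v y)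
  unfold HS.L
  linarith

theorem βid_alg {H p q d g B b s ε r₁ L l₁ l₂ l₃ : ℝ} (hH : 0 ≤ H) (hq : 0 ≤ q) (hd : 0 ≤ d) (hg : 0 ≤ g)
    (hB : 0 ≤ B) (hs : 0 ≤ s) (hsb : s ≤ b) (hε : 0 ≤ ε) (h₁ : |r₁| ≤ 4 * B * (d * ε))
    (hL : |L| ≤ B * (1 + g)) (h₂ : |l₁| ≤ ε) (h₃ : |l₂| ≤ q * ε) (h₄ : |l₃| ≤ g * ε) :
    |-(H * p * r₁) - 2 * s * L * (H * p * l₁ + 2 * (H * l₂ + p * -(H * l₃)))| ≤
      ε * ((2 * B + 12 * b * B) * (H * d ^ 2 + H * q ^ 2 + H * p ^ 2 + H * (1 + g ^ 2) ^ 2)) := by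
  have hp := abs_nonneg p
  have hb : 0 ≤ b := hs.trans hsb
  have e₁ : |H * p * r₁| ≤ H * |p| * (4 * B * (d * ε)) := by
    rw [abs_mul, abs_mul, abs_of_nonneg hH]; gcongr
  have e₂ : |H * p * l₁ + 2 * (H * l₂ + p * -(H * l₃))| ≤ H * ε * (|p| * (1 + 2 * g) + 2 * q) := by
    have a₁ : |H * p * l₁| ≤ H * |p| * ε := by rw [abs_mul, abs_mul, abs_of_nonneg hH]; gcongr
    have a₂ : |H * l₂| ≤ H * (q * ε) := by rw [abs_mul, abs_of_nonneg hH]; gcongr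
    have a₃ : |p * -(H * l₃)| ≤ |p| * (H * (g * ε)) := by
      rw [abs_mul, abs_neg, abs_mul, abs_of_nonneg hH]; gcongr
    have := abs_add_le (H * p * l₁) (2 * (H * l₂ + p * -(H * l₃)))
    have := abs_add_le (H * l₂) (p * -(H * l₃))
    rw [abs_mul 2, abs_two] at *
    nlinarith
  have e₃ : |2 * s * L * (H * p * l₁ + 2 * (H * l₂ + p * -(H * l₃)))| ≤
      2 * b * (B * (1 + g)) * (H * ε * (|p| * (1 + 2 * g) + 2 * q)) := by
    rw [abs_mul, abs_mul, abs_of_nonneg (by positivity : 0 ≤ 2 * s)]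
    gcongr
  have e₄ : (1 + g) * (|p| * (1 + 2 * g) + 2 * q) ≤ p ^ 2 + q ^ 2 + 6 * (1 + g ^ 2) ^ 2 := by
    have a₁ : (1 + g) ^ 2 ≤ 2 * (1 + g ^ 2) := by nlinarith [sq_nonneg (1 - g)]
    have a₂ : ((1 + g) ^ 2) ^ 2 ≤ (2 * (1 + g ^ 2)) ^ 2 := by gcongr
    have a₃ : 1 + g ^ 2 ≤ (1 + g ^ 2) ^ 2 := by nlinarith [sq_nonneg g]
    have a₄ : (1 + g) * (|p| * (1 + 2 * g)) ≤ 2 * ((1 + g) ^ 2 * |p|) := by
      nlinarith [mul_nonneg hp hg]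
    nlinarith [sq_nonneg ((1 + g) ^ 2 - |p|), sq_nonneg (1 + g - q), sq_abs p]
  have e₅ : |p| * d ≤ (p ^ 2 + d ^ 2) / 2 := by nlinarith [sq_nonneg (|p| - d), sq_abs p]
  have e₆ : H * |p| * (4 * B * (d * ε)) ≤ ε * (2 * B * (H * d ^ 2 + H * p ^ 2)) := by
    calc _ = 4 * B * ε * H * (|p| * d) := by ring
      _ ≤ 4 * B * ε * H * ((p ^ 2 + d ^ 2) / 2) := by gcongr
      _ = _ := by ring
  have e₇ : 2 * b * (B * (1 + g)) * (H * ε * (|p| * (1 + 2 * g) + 2 * q)) ≤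
      ε * (2 * b * B * (H * p ^ 2 + H * q ^ 2 + 6 * (H * (1 + g ^ 2) ^ 2))) := by
    calc _ = 2 * b * B * ε * H * ((1 + g) * (|p| * (1 + 2 * g) + 2 * q)) := by ring
      _ ≤ 2 * b * B * ε * H * (p ^ 2 + q ^ 2 + 6 * (1 + g ^ 2) ^ 2) := by gcongr
      _ = _ := by ring
  refine (abs_sub _ _).trans ?_
  rw [abs_neg]
  refine (add_le_add (e₁.trans e₆) (e₃.trans e₇)).trans ?_
  rw [← mul_add]
  refine mul_le_mul_of_nonneg_left ?_ hε
  have := mul_nonneg hb hB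
  nlinarith [mul_nonneg hB (mul_nonneg hH (sq_nonneg q)), mul_nonneg hB (mul_nonneg hH (sq_nonneg (1 + g ^ 2))),
    mul_nonneg this (mul_nonneg hH (sq_nonneg q)), mul_nonneg this (mul_nonneg hH (sq_nonneg d)),
    mul_nonneg this (mul_nonneg hH (sq_nonneg p))]

end Crest.Agent.R247
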