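import Crest.Agent.R247.S3b

/-! # Row 247: fixed-time cut-off identities (auxiliary lemmas for `BH`) -/

set_option autoImplicit false
set_option linter.unusedSectionVars false
set_option linter.unusedVariables false
open MeasureTheory Filter Set Metric Matrix
open scoped ENNReal NNReal Topology ContDiff
open Crest.GeometryTopology.CoordMetric

noncomputable section
namespace Crest.Agent.R247
universe u

variable {n : ℕ} {X : Sp.{u} n}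

/-- Integrable with integral zero. -/
def IZ (X : Sp.{u} n) (E : X.M → ℝ) : Prop := Integrable E X.h.m ∧ ∫ y, E y ∂X.h.m = 0

theorem IZ.add {E E' : X.M → ℝ} (h : IZ X E) (h' : IZ X E') : IZ X fun y => E y + E' y :=
  ⟨h.1.add h'.1, by rw [integral_add h.1 h'.1, h.2, h'.2, add_zero]⟩

theorem IZ.cmul {E : X.M → ℝ} (h : IZ X E) (c : ℝ) : IZ X fun y => c * E y :=
  ⟨h.1.const_mul c, by rw [integral_const_mul, h.2, mul_zero]⟩

theorem IZ.congr {E E' : X.M → ℝ} (h : IZ X E) (h' : ∀ y, E' y = E y) : IZ X E' := by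
  rwa [funext h']

theorem IZ.limit (o : X.M) {G D : X.M → ℝ} (hG : Integrable G X.h.m) (hD : Integrable D X.h.m)
    (h : ∀ (χ : X.M → ℝ) (ε : ℝ), X.h.S χ → HasCompactSupport χ →
      (∀ y, Real.sqrt (X.h.Γ χ χ y) ≤ ε ∧ |X.h.Δ χ y| ≤ ε) →
      ∃ R : X.M → ℝ, IZ X (fun y => χ y * G y - R y) ∧ ∀ y, |R y| ≤ ε * D y) :
    ∫ y, G y ∂X.h.m = 0 := by
  obtain ⟨C, χ, hχ, hχ1⟩ := X.h.cut2 o
  have hm : ∀ j, AEStronglyMeasurable (fun y => χ j y * G y) X.h.m := fun j =>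
    (X.h.S_cont (hχ j).1).aestronglyMeasurable.mul hG.1
  have hb : ∀ j, ∀ᵐ y ∂X.h.m, ‖χ j y * G y‖ ≤ ‖G y‖ := fun j => .of_forall fun y => by
    obtain ⟨h₁, h₂⟩ := ((hχ j).2.2 y).1
    rw [norm_mul, Real.norm_of_nonneg h₁]
    exact mul_le_of_le_one_left (norm_nonneg _) h₂
  have h₁ : Tendsto (fun j => ∫ y, χ j y * G y ∂X.h.m) atTop (𝓝 (∫ y, G y ∂X.h.m)) :=
    tendsto_integral_of_dominated_convergence _ hm hG.norm hb (.of_forall fun y =>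
      tendsto_const_nhds.congr' ((hχ1 y).mono fun j hj => by simp only [hj, one_mul]))
  refine tendsto_nhds_unique h₁ (squeeze_zero_norm (a := fun j : ℕ => C / (j + 1) * ∫ y, D y ∂X.h.m)
    (fun j => ?_) ?_)
  · obtain ⟨R, hR, hRD⟩ := h (χ j) _ (hχ j).1 (hχ j).2.1 fun y => ((hχ j).2.2 y).2
    have hi : Integrable (fun y => χ j y * G y) X.h.m := hG.norm.mono' (hm j) (hb j)
    have hRi : Integrable R X.h.m := (hi.sub hR.1).congr (.of_forall fun y => by simp)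
    have := hR.2
    rw [integral_sub hi hRi, sub_eq_zero] at this
    rw [this, ← integral_const_mul]
    exact norm_integral_le_of_norm_le (hD.const_mul _) (.of_forall hRD)
  · have := (tendsto_const_div_atTop_nhds_zero_nat C).comp (tendsto_add_atTop_nat 1)
    simpa [Function.comp_def] using this.mul_const (∫ y, D y ∂X.h.m)

/-- Integration by parts against `χ H`. -/
theorem IZ.ibp (x : X.M) {s : ℝ} (hs : 0 < s) {χ a b : X.M → ℝ} (hχ : X.h.S χ)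
    (hc : HasCompactSupport χ) (ha : X.h.S a) (hb : X.h.S b) : IZ X fun y =>
      χ y * X.h.H s x y * X.h.Γ a b y - χ y * X.h.H s x y * (b y * X.h.L s x a y) +
        X.h.H s x y * b y * X.h.Γ a χ y := by
  have hH := X.h.H_S hs x
  have hw := X.h.S_mul hb hH
  have e := X.h.ibp_cut hχ hc ha hw
  have i₁ := X.h.int_cs (X.h.S_cont (X.h.S_mul (X.h.S_mul hχ hw) (X.h.S_Δ ha))) hc.mul_right.mul_right
  have i₂ := X.h.int_cs (X.h.S_cont (X.h.S_mul hχ (X.h.S_Γ ha hw))) hc.mul_right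
  have c₃ : HasCompactSupport (X.h.Γ a χ) := by
    rw [show X.h.Γ a χ = X.h.Γ χ a from funext (X.h.Γ_comm a χ)]
    exact X.h.cs_Γ hc a
  have i₃ := X.h.int_cs (X.h.S_cont (X.h.S_mul hw (X.h.S_Γ ha hχ))) c₃.mul_left
  refine IZ.congr (E := fun y => χ y * (b y * X.h.H s x y) * X.h.Δ a y +
    χ y * X.h.Γ a (fun y => b y * X.h.H s x y) y + b y * X.h.H s x y * X.h.Γ a χ y)
    ⟨(i₁.add i₂).add i₃, ?_⟩ fun y => ?_
  · refine (integral_add (i₁.add i₂) i₃).trans ?_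
    rw [integral_add' i₁ i₂, e]
    ring
  · rw [X.h.Γ_comm a (fun y => b y * X.h.H s x y), X.h.Γ_mul_left hb hH, X.h.Γ_H hs, HS.L,
      X.h.Γ_comm b a, X.h.Γ_comm (X.h.φ s x) a]
    ring

theorem IZ.hs (x : X.M) {s : ℝ} (hs : 0 < s) {χ v w : X.M → ℝ} (hχ : X.h.S χ)
    (hc : HasCompactSupport χ) (hv : X.h.S v) (hw : X.h.S w) : IZ X fun y =>
      χ y * X.h.H s x y * (X.h.Γ2 v w y - X.h.k * X.h.Γ v w y + X.h.Γ v (X.h.Δ w) y) -
        χ y * X.h.H s x y * X.h.Hs w v (X.h.φ s x) y + X.h.H s x y * X.h.Hs w v χ y := by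
  have hH := X.h.H_S hs x
  have hu := X.h.S_mul hχ hH
  have e := X.h.weak_hs hu hc.mul_right hv hw
  have i₁ := X.h.int_cs (X.h.S_cont (X.h.S_mul hu (X.h.S_add (X.h.S_sub (X.h.S_Γ2 hv hw)
    (X.h.S_cmul X.h.k (X.h.S_Γ hv hw))) (X.h.S_Γ hv (X.h.S_Δ hw))))) hc.mul_right.mul_right
  have c₂ : HasCompactSupport (X.h.Hs w v fun y => χ y * X.h.H s x y) := by
    refine (hc.mul_right (f' := X.h.H s x)).mono' fun y hy => by_contra fun hy' => hy ?_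
    rw [X.h.Hs_eq hw hv hu, show X.h.grad (fun y => χ y * X.h.H s x y) y = 0 from
      (X.h.grad_eq_zero hy').1]
    simp [bf]
  have i₂ := X.h.int_cs (X.h.S_cont (X.h.S_Hs hw hv hu)) c₂
  refine IZ.congr (E := fun y => χ y * X.h.H s x y *
    (X.h.Γ2 v w y - X.h.k * X.h.Γ v w y + X.h.Γ v (X.h.Δ w) y) +
      X.h.Hs w v (fun y => χ y * X.h.H s x y) y) ⟨i₁.add i₂, ?_⟩ fun y => ?_
  · rw [integral_add i₁ i₂, e]
    ring
  · rw [X.h.Hs_eq hw hv hu, X.h.Hs_eq hw hv hχ, X.h.Hs_eq hw hv (X.h.φ_S hs x), X.h.grad_mul hχ hH,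
      X.h.grad_H hs]
    simp only [bf, mulVec_add, mulVec_smul, dotProduct_add, dotProduct_smul, smul_eq_mul]
    ring

theorem CG.cmul {x : X.M} {t : ℝ} {f : X.M → ℝ} (h : CG x t f) (c : ℝ) : CG x t fun y => c * f y :=
  (CG.of_bdd continuous_const fun _ => le_refl |c|).mul h

theorem CG.const (x : X.M) (t c : ℝ) : CG x t fun _ => c :=
  CG.of_bdd continuous_const fun _ => le_refl |c|

theorem CG.of_le {x : X.M} {t : ℝ} {f f' : X.M → ℝ} (h : CG x t f') (hf : Continuous f)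
    (hle : ∀ y, |f y| ≤ |f' y|) : CG x t f := by
  obtain ⟨-, B, R, hB⟩ := h
  exact ⟨hf, B, R, fun y => (hle y).trans (hB y)⟩

theorem CG_Γφ (x : X.M) {s : ℝ} (hs : X.h.ok s) : CG x s (X.h.Γ (X.h.φ s x) (X.h.φ s x)) := by
  obtain ⟨C, hC, hφ⟩ := grad_φ.{u} n
  refine CG.of_poly hs.1 (X.h.S_cont (X.h.S_Γ (X.h.φ_S hs.1 x) (X.h.φ_S hs.1 x))) (B := C / s) (j := 1)
    fun y => ?_
  rw [abs_of_nonneg (X.h.Γ_nonneg _ _), pow_one, div_mul_eq_mul_div, le_div_iff₀ hs.1, mul_comm]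
  exact hφ X hs.1 (hs.2.trans (by norm_num)) x y

theorem CG_φ (x : X.M) {s : ℝ} (hs : X.h.ok s) : CG x s (X.h.φ s x) := by
  obtain ⟨C, hC, hφ⟩ := abs_φ.{u} n
  have h₁ := CG.of_poly (x := x) hs.1 ((X.h.S_cont (X.h.φ_S hs.1 x)).add continuous_const) (B := C) (j := 1)
    fun y => by simpa using hφ X hs.1 (hs.2.trans (by norm_num)) x y
  simpa using h₁.sub (CG.const x s (Real.log (X.h.th s x)))

/-- `H` is bounded. -/
theorem H_mul_int (x : X.M) {s : ℝ} (hs : X.h.ok s) {f : X.M → ℝ} (hf : Integrable f X.h.m) :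
    Integrable (fun y => X.h.H s x y * f y) X.h.m := by
  obtain ⟨-, B, hB⟩ := H_nice X hs.1 (hs.2.trans (by norm_num)) x
  exact hf.bdd_mul (X.h.H_cont hs.1 x).aestronglyMeasurable (.of_forall fun y => (hB y).1)

theorem HD_int (hn : 1 ≤ n) (x : X.M) {s : ℝ} (hs : X.h.ok s) (hK : X.h.KK x s ≠ ⊤) :
    Integrable (fun y => X.h.H s x y * X.h.D (X.h.φ s x) (1 / (2 * s)) y) X.h.m := by
  obtain ⟨_, -, h⟩ := KK_int.{u} n hn 0
  refine (((h X hs x hK).1).const_mul (1 / s ^ 2)).congr (.of_forall fun y => ?_)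
  have := hs.1.ne'
  simp only [HS.Dφ, zero_mul, zero_div, Real.exp_zero]
  field_simp

/-- The function `π = (f - c₀)²/2`. -/
theorem half_sq {f : X.M → ℝ} (hf : X.h.S f) (c₀ : ℝ) {π : X.M → ℝ} (hπ : π = fun y => (f y - c₀) ^ 2 / 2) :
    X.h.S π ∧ ∀ y, X.h.grad π y = (f y - c₀) • X.h.grad f y ∧
      X.h.Δ π y = (f y - c₀) * X.h.Δ f y + X.h.Γ f f y ∧
      X.h.Γ2 π π y ≤ 2 * X.h.Γ f f y ^ 2 + 2 * (f y - c₀) ^ 2 * X.h.Γ2 f f y := by
  have hv := X.h.S_sub hf (X.h.S_const c₀)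
  have e : π = fun y => 1 / 2 * ((f y - c₀) * (f y - c₀)) := by rw [hπ]; funext y; ring
  have hS : X.h.S π := e ▸ X.h.S_cmul _ (X.h.S_mul hv hv)
  have g₁ : ∀ y, X.h.grad (fun y => f y - c₀) y = X.h.grad f y := fun y => by
    rw [X.h.grad_sub hf (X.h.S_const c₀), X.h.grad_const, sub_zero]
  have g₂ : ∀ y, X.h.hess (fun y => f y - c₀) y = X.h.hess f y := fun y => by
    rw [X.h.hess_sub hf (X.h.S_const c₀), X.h.hess_const, sub_zero]
  have g₃ : ∀ y, X.h.Γ (fun y => f y - c₀) (fun y => f y - c₀) y = X.h.Γ f f y := fun y => by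
    rw [Raw.Γ, g₁, Raw.Γ]
  refine ⟨hS, fun y => ⟨?_, ?_, ?_⟩⟩
  · rw [e, X.h.grad_cmul _ (X.h.S_mul hv hv), X.h.grad_mul hv hv, g₁, ← add_smul, smul_smul]
    congr 1
    ring
  · rw [e, X.h.Δ_cmul _ (X.h.S_mul hv hv), X.h.Δ_mul hv hv, g₃, Raw.Δ, g₂, ← Raw.Δ]
    ring
  · have h₁ := X.h.abs_Γ2_half_sq hS hv 0 y
    have h₂ := X.h.abs_Hs_sub_le hS hv hv 0 y
    have g₄ : X.h.Γ2 (fun y => f y - c₀) (fun y => f y - c₀) y = X.h.Γ2 f f y := by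
      rw [X.h.Γ2_eq hv hv, X.h.Γ2_eq hf hf, g₁, g₂]
    rw [← hπ, g₄] at h₁
    rw [mul_assoc, Real.mul_self_sqrt (X.h.Γ_nonneg _ _)] at h₂
    simp only [zero_mul, sub_zero, X.h.D_zero, g₃] at h₁ h₂
    have h₃ := Real.sq_sqrt (X.h.Γ2_nonneg hS y)
    have h₄ := Real.sq_sqrt (X.h.Γ2_nonneg hf y)
    have h₅ := (abs_le.1 h₁).2
    have h₆ := (abs_le.1 h₂).2
    rw [← h₄, ← sq_abs (f y - c₀)]
    generalize Real.sqrt (X.h.Γ2 π π y) = p at *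
    nlinarith [sq_nonneg (p - X.h.Γ f f y - |f y - c₀| * Real.sqrt (X.h.Γ2 f f y)),
      sq_nonneg (X.h.Γ f f y - |f y - c₀| * Real.sqrt (X.h.Γ2 f f y))]

theorem Hζ_int (hn : 1 ≤ n) (x : X.M) {s : ℝ} (hs : X.h.ok s) {p : X.M → ℝ} (hp : CG x s p) :
    Integrable (fun y => X.h.H s x y * (p y * X.h.ζ s x y)) X.h.m := by
  obtain ⟨hc, B, R, hB⟩ := hp
  obtain ⟨C, hC, hW⟩ := W_bounds.{u} n hn R
  obtain ⟨C', hC', hW'⟩ := W_bounds.{u} n hn 0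
  obtain ⟨_, -, hζ⟩ := ζ_W.{u} n hn
  have hB0 : 0 ≤ B := by simpa using (abs_nonneg _).trans (hB x)
  refine ((hζ X hs x).1.const_mul (B * C * C')).mono' ((X.h.H_cont hs.1 x).mul (hc.mul
    (continuous_const.sub (continuous_const.mul (X.h.S_cont (X.h.S_Δ (X.h.φ_S hs.1 x))))))).aestronglyMeasurable
    (.of_forall fun y => ?_)
  have h₀ := X.h.H_nonneg hs.1 x y
  have h₁ := (hW X hs x).1 y
  have h₂ := (hW' X hs x).2.1 y
  simp only [zero_mul, zero_div, Real.exp_zero, mul_one] at h₂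
  rw [Real.norm_eq_abs, abs_mul, abs_mul, abs_of_nonneg h₀]
  calc _ ≤ X.h.H s x y * (B * Real.exp (R * dist x y / Real.sqrt s) * |X.h.ζ s x y|) := by
        gcongr
        exact hB y
    _ = B * |X.h.ζ s x y| * (X.h.H s x y * Real.exp (R * dist x y / Real.sqrt s)) := by ring
    _ ≤ B * |X.h.ζ s x y| * (C * (C' * X.h.W (p2 n) s x y)) :=
        mul_le_mul_of_nonneg_left (h₁.trans (mul_le_mul_of_nonneg_left h₂ hC.le)) (by positivity)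
    _ = _ := by ring

theorem HvW_int (hn : 1 ≤ n) (x : X.M) {s : ℝ} (hs : X.h.ok s) {p : X.M → ℝ} (hp : CG x s p) :
    Integrable (fun y => X.h.H s x y * (p y * X.h.vW s x y)) X.h.m := by
  have h₁ := (CG.bd hs (hp.mul (((CG_φ x hs).sub ((CG_Γφ x hs).cmul s)).add
    (CG.const x s (n - n / 2 * Real.log s))))).2.1
  refine (h₁.sub ((Hζ_int hn x hs hp).const_mul 2)).congr (.of_forall fun y => ?_)
  simp only [Pi.sub_apply, HS.vW, HS.ζ]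
  ring

theorem BH_alg {H P g B ε s a c r₁ p r₂ r₃ : ℝ} (hH : 0 ≤ H) (hP : 0 ≤ P) (hg : 0 ≤ g) (hB : 0 ≤ B)
    (hε : 0 ≤ ε) (hs : 0 ≤ s) (h₁ : |r₁| ≤ P * g * ε) (hp : |p| ≤ B * (1 + g)) (h₂ : |r₂| ≤ g * ε)
    (h₃ : |r₃| ≤ B * ε) :
    |-(2 * s) * (H * r₁) - 2 * s * (H * p * r₂) + (s * g ^ 2 + a + c) * (H * r₃)| ≤
      ε * (s * (H * P ^ 2) + (s + 5 * s * B) * (H * (1 + g ^ 2)) + B * |H * a| + B * |c| * H) := by
  have e₁ : |-(2 * s) * (H * r₁)| ≤ 2 * s * (H * (P * g * ε)) := by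
    rw [abs_mul, abs_neg, abs_mul H, abs_of_nonneg hH, abs_of_nonneg (by positivity : 0 ≤ 2 * s)]
    gcongr
  have e₂ : |2 * s * (H * p * r₂)| ≤ 2 * s * (H * (B * (1 + g)) * (g * ε)) := by
    rw [abs_mul, abs_mul (H * p), abs_mul H, abs_of_nonneg hH, abs_of_nonneg (by positivity : 0 ≤ 2 * s)]
    gcongr
  have e₃ : |(s * g ^ 2 + a + c) * (H * r₃)| ≤ (s * g ^ 2 + |a| + |c|) * (H * (B * ε)) := by
    rw [abs_mul, abs_mul H, abs_of_nonneg hH]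
    gcongr
    refine (abs_add_three _ _ _).trans ?_
    rw [abs_of_nonneg (by positivity : 0 ≤ s * g ^ 2)]
  have e₄ : 2 * (P * g) ≤ P ^ 2 + (1 + g ^ 2) := by nlinarith [sq_nonneg (P - g)]
  have e₅ : (1 + g) * g ≤ 2 * (1 + g ^ 2) := by nlinarith [sq_nonneg (1 - g)]
  have e₆ := mul_le_mul_of_nonneg_left e₄ (by positivity : 0 ≤ s * H * ε)
  have e₇ := mul_le_mul_of_nonneg_left e₅ (by positivity : 0 ≤ 2 * s * H * B * ε)
  have e₈ : 0 ≤ s * H * B * ε := by positivity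
  rw [abs_mul H a, abs_of_nonneg hH]
  refine (abs_add_le _ _).trans ((add_le_add ((abs_sub _ _).trans (add_le_add e₁ e₂)) e₃).trans ?_)
  nlinarith

theorem BH' (hn : 1 ≤ n) (X : Sp.{u} n) (x : X.M) {s : ℝ} (hs : X.h.ok s) (hK : X.h.KK x s ≠ ⊤)
    {f : X.M → ℝ} (hf : X.h.Nice f) (hΔ : X.h.Nice (X.h.Δ f)) (c₀ : ℝ) {π : X.M → ℝ}
    (hπ : π = fun y => (f y - c₀) ^ 2 / 2) :
    Integrable (fun y => X.h.H s x y * (X.h.Γ2 (X.h.φ s x) π y - 1 / (2 * s) * X.h.Δ π y)) X.h.m ∧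
    X.h.P s (X.h.L s x π) x = 0 ∧
    2 * s * X.h.P s (fun y => X.h.Γ2 (X.h.φ s x) π y - 1 / (2 * s) * X.h.Δ π y) x =
      -X.h.P s (fun y => X.h.L s x π y * X.h.vW s x y) x + 2 * s * X.h.k * X.h.P s (X.h.Γ π (X.h.φ s x)) x := by
  have hs0 := hs.1
  have hφ := X.h.φ_S hs0 x
  obtain ⟨hS, hπ'⟩ := half_sq hf.1.1 c₀ hπ
  obtain ⟨B₁, hB₁⟩ := hf.2
  obtain ⟨B₂, hB₂⟩ := hΔ.2
  have hv : ∀ y, |f y - c₀| ≤ B₁ + |c₀| := fun y => (abs_sub _ _).trans (by linarith [(hB₁ y).1])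
  have hB₁0 : 0 ≤ B₁ := (abs_nonneg _).trans (hB₁ x).1
  have hB₂0 : 0 ≤ B₂ := (abs_nonneg _).trans (hB₂ x).1
  obtain ⟨B, hB0, hB⟩ : ∃ B : ℝ, 0 ≤ B ∧ ∀ y, Real.sqrt (X.h.Γ π π y) ≤ B ∧ |X.h.Δ π y| ≤ B := by
    refine ⟨(B₁ + |c₀|) * (Real.sqrt B₁ + B₂) + B₁, by positivity, fun y => ⟨?_, ?_⟩⟩
    · have : X.h.Γ π π y = (f y - c₀) ^ 2 * X.h.Γ f f y := by
        rw [Raw.Γ, (hπ' y).1, Raw.Γ, smul_dotProduct, dotProduct_smul, smul_eq_mul, smul_eq_mul]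
        ring
      rw [this, Real.sqrt_mul (sq_nonneg _), Real.sqrt_sq_eq_abs]
      have := mul_le_mul (hv y) (Real.sqrt_le_sqrt (hB₁ y).2) (Real.sqrt_nonneg _) (by positivity)
      nlinarith [abs_nonneg c₀]
    · rw [(hπ' y).2.1]
      refine (abs_add_le _ _).trans ?_
      rw [abs_mul, abs_of_nonneg (X.h.Γ_nonneg f y)]
      have := mul_le_mul (hv y) (hB₂ y).1 (abs_nonneg _) (by positivity)
      nlinarith [abs_nonneg c₀, (hB₁ y).2, Real.sqrt_nonneg B₁]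
  have hLS : X.h.S (X.h.L s x π) := X.h.S_sub (X.h.S_Γ hS hφ) (X.h.S_Δ hS)
  have w₁ := (CG.const x s 1).add (CG_Γφ x hs)
  have hg : ∀ y, 1 + Real.sqrt (X.h.Γ (X.h.φ s x) (X.h.φ s x) y) ≤
      2 * (1 + X.h.Γ (X.h.φ s x) (X.h.φ s x) y) := fun y => by
    nlinarith [Real.sq_sqrt (X.h.Γ_nonneg (X.h.φ s x) y),
      sq_nonneg (1 - Real.sqrt (X.h.Γ (X.h.φ s x) (X.h.φ s x) y))]
  have hLG : CG x s (X.h.L s x π) := (w₁.cmul (B * 2)).of_le (X.h.S_cont hLS) fun y =>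
    (βid_L X x y (hB y).1 (hB y).2).trans (le_trans (by nlinarith [hg y]) (le_abs_self _))
  have hΔG : CG x s (X.h.Δ π) := CG.of_bdd (X.h.S_cont (X.h.S_Δ hS)) fun y => (hB y).2
  have hΓG : CG x s (X.h.Γ π (X.h.φ s x)) := by simpa [HS.L] using hLG.add hΔG
  have hΓπ : CG x s (X.h.Γ π π) := CG.of_bdd (B := B ^ 2) (X.h.S_cont (X.h.S_Γ hS hS)) fun y => by
    rw [abs_of_nonneg (X.h.Γ_nonneg _ _), ← Real.sq_sqrt (X.h.Γ_nonneg π y)]
    exact pow_le_pow_left₀ (Real.sqrt_nonneg _) (hB y).1 2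
  have iΓ2 : Integrable (fun y => X.h.H s x y * X.h.Γ2 π π y) X.h.m := by
    refine (((X.h.H_int hs0 x).1.const_mul (2 * B₁ ^ 2)).add ((H_mul_int x hs
      (X.h.Γ2_int hf.1.1 hf.1.2.2 hΔ.1.2.1).1).const_mul (2 * (B₁ + |c₀|) ^ 2))).mono'
      ((X.h.H_cont hs0 x).mul (X.h.S_cont (X.h.S_Γ2 hS hS))).aestronglyMeasurable (.of_forall fun y => ?_)
    have h₀ := X.h.H_nonneg hs0 x y
    have h₁ := X.h.Γ2_nonneg hf.1.1 y
    have h₂ : X.h.Γ f f y ^ 2 ≤ B₁ ^ 2 := pow_le_pow_left₀ (X.h.Γ_nonneg _ _) (hB₁ y).2 2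
    have h₃ : (f y - c₀) ^ 2 ≤ (B₁ + |c₀|) ^ 2 := by
      rw [← sq_abs]
      exact pow_le_pow_left₀ (abs_nonneg _) (hv y) 2
    rw [Real.norm_of_nonneg (mul_nonneg h₀ (X.h.Γ2_nonneg hS y))]
    calc _ ≤ X.h.H s x y * (2 * B₁ ^ 2 + 2 * (B₁ + |c₀|) ^ 2 * X.h.Γ2 f f y) :=
          mul_le_mul_of_nonneg_left ((hπ' y).2.2.trans (by gcongr)) h₀
      _ = _ := by simp only [Pi.add_apply]; ring
  have i₁ : Integrable
      (fun y => X.h.H s x y * (X.h.Γ2 (X.h.φ s x) π y - 1 / (2 * s) * X.h.Δ π y)) X.h.m := by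
    refine ((HD_int hn x hs hK).add iΓ2).mono' ((X.h.H_cont hs0 x).mul ((X.h.S_cont (X.h.S_Γ2 hφ hS)).sub
      (continuous_const.mul (X.h.S_cont (X.h.S_Δ hS))))).aestronglyMeasurable (.of_forall fun y => ?_)
    have h₀ := X.h.H_nonneg hs0 x y
    have h₁ := X.h.D_nonneg hφ (1 / (2 * s)) y
    have h₂ := X.h.Γ2_nonneg hS y
    have h₃ := (X.h.abs_Γ2_sub_le hφ hS (1 / (2 * s)) y).trans (βid_am _ _ h₁ h₂)
    rw [Real.norm_eq_abs, abs_mul, abs_of_nonneg h₀, Pi.add_apply, ← mul_add]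
    exact mul_le_mul_of_nonneg_left (by linarith) h₀
  have i₂ := HvW_int hn x hs hLG
  have i₃ := (CG.bd hs hΓG).2.1
  refine ⟨i₁, ?_, ?_⟩
  · have := ibp_H X x hs0 hS (X.h.S_const 1) (CG.bd hs (CG.const x s 1)).2.2
      (by simp [X.h.Γ_const_left]) (CG.bd hs hΓπ).2.1 (CG.bd hs hΔG).2.2 (CG.bd hs hΓG).2.2
    simp only [one_mul] at this
    rw [show X.h.L s x π = fun y => X.h.L s x π y from rfl, ← this]
    simp [HS.P, kerP, X.h.Γ_comm π, X.h.Γ_const_left]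
  have key := IZ.limit x (((i₁.const_mul (2 * s)).add i₂).sub (i₃.const_mul (2 * s * X.h.k)))
    ((((iΓ2.const_mul s).add ((CG.bd hs w₁).2.1.const_mul (s + 5 * s * B))).add
      ((CG.bd hs (CG_φ x hs)).2.1.abs.const_mul B)).add
      ((X.h.H_int hs0 x).1.const_mul (B * |1 - n / 2 * Real.log s|))) fun χ ε hχ hc hε => by
    refine ⟨fun y => -(2 * s) * (X.h.H s x y * X.h.Hs π (X.h.φ s x) χ y) -
      2 * s * (X.h.H s x y * X.h.L s x π y * X.h.Γ (X.h.φ s x) χ y) +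
      (s * Real.sqrt (X.h.Γ (X.h.φ s x) (X.h.φ s x) y) ^ 2 + X.h.φ s x y + (1 - n / 2 * Real.log s)) *
        (X.h.H s x y * X.h.Γ π χ y), ?_, fun y => ?_⟩
    · refine ((((((IZ.hs x hs0 hχ hc hφ hS).cmul (2 * s)).add
        ((IZ.ibp x hs0 hχ hc hφ hLS).cmul (2 * s))).add
        ((IZ.ibp x hs0 hχ hc hS (X.h.S_Γ hφ hφ)).cmul (-s))).add
        ((IZ.ibp x hs0 hχ hc hS hφ).cmul (-1))).add
        ((IZ.ibp x hs0 hχ hc hS (X.h.S_const 1)).cmul (-(1 - n / 2 * Real.log s)))).congr fun y => ?_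
      have e₁ : X.h.Γ (X.h.φ s x) (X.h.L s x π) y =
          X.h.Γ (X.h.φ s x) (X.h.Γ π (X.h.φ s x)) y - X.h.Γ (X.h.φ s x) (X.h.Δ π) y := by
        rw [X.h.Γ_comm, X.h.Γ_comm _ (X.h.Γ π _), X.h.Γ_comm _ (X.h.Δ π)]
        exact X.h.Γ_sub_left (X.h.S_Γ hS hφ) (X.h.S_Δ hS) _ y
      have e₂ : X.h.Γ π (fun _ => 1) y = 0 := by rw [X.h.Γ_comm, X.h.Γ_const_left]
      have := hs0.ne'
      simp only [Pi.add_apply, Pi.sub_apply]
      rw [Real.sq_sqrt (X.h.Γ_nonneg _ _), e₁, e₂, X.h.Γ_comm (X.h.φ s x) π]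
      simp only [HS.L, HS.vW, Raw.Hs]
      field_simp
      ring
    · have hε0 : 0 ≤ ε := (abs_nonneg _).trans (hε y).2
      have h₁ := X.h.abs_Hs_sub_le hS hφ hχ 0 y
      simp only [zero_mul, sub_zero, X.h.D_zero] at h₁
      have h₂ := BH_alg (a := X.h.φ s x y) (c := 1 - n / 2 * Real.log s) (X.h.H_nonneg hs0 x y)
        (Real.sqrt_nonneg _) (Real.sqrt_nonneg _) hB0 hε0 hs0.le
        (h₁.trans (mul_le_mul_of_nonneg_left (hε y).1 (by positivity))) (βid_L X x y (hB y).1 (hB y).2)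
        ((X.h.abs_Γ_le _ χ y).trans (mul_le_mul_of_nonneg_left (hε y).1 (Real.sqrt_nonneg _)))
        ((X.h.abs_Γ_le π χ y).trans (mul_le_mul (hB y).1 (hε y).1 (Real.sqrt_nonneg _) hB0))
      refine h₂.trans_eq ?_
      rw [Real.sq_sqrt (X.h.Γ2_nonneg hS y), Real.sq_sqrt (X.h.Γ_nonneg _ _)]
      rfl
  rw [integral_sub' ((i₁.const_mul (2 * s)).add i₂) (i₃.const_mul _), integral_add' (i₁.const_mul _) i₂,
    integral_const_mul, integral_const_mul] at key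
  simp only [HS.P, kerP]
  linarith

end Crest.Agent.R247
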