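import Crest.Agent.R247.S3b
import Crest.Agent.R247.S7AuxB

/-! # Row 247, S4: the function `wp = 2t(φ_z - φ_x)` is almost linear -/

set_option autoImplicit false
set_option linter.unusedSectionVars false
set_option linter.unusedVariables false
open MeasureTheory Filter Set Metric Matrix
open scoped ENNReal NNReal Topology ContDiff
open Crest.GeometryTopology.CoordMetric

noncomputable section
namespace Crest.Agent.R247
universe u

variable {n : ℕ}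

theorem Crd.PH.symm {X : Sp.{u} n} {c : Crd X} {x z : X.M} {s₀ T₁ e γ R t κ : ℝ}
    (h : c.PH x z s₀ T₁ e γ R t κ) : c.PH z x s₀ T₁ e γ R t κ := by
  exact ⟨h.hz, h.hx, h.t_le, by rw [dist_comm]; exact h.dist_le, h.κz, h.κx, h.Kz, h.Kx, h.κ_le⟩

theorem Crd.Pair.mono {X : Sp.{u} n} {c : Crd X} {x z : X.M} {t K K' κ : ℝ} {ξ : V n}
    (h : c.Pair x z t K κ ξ) (ht : 0 < t) (hκ : 0 ≤ κ) (hK : K ≤ K') : c.Pair x z t K' κ ξ := by
  refine ⟨h.grad.trans (by gcongr), ?_, h.size.trans (by gcongr), fun η => (h.eig η).trans ?_⟩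
  · obtain ⟨c₀, h₀⟩ := h.val
    exact ⟨c₀, h₀.trans (by gcongr)⟩
  · have h0 : 0 ≤ qf (c.G t x) η := by
      rw [c.qf_G ht]
      exact X.h.P_nonneg ht x fun y => X.h.Γ_nonneg _ _
    gcongr

theorem s4a_div {t : ℝ} (ht : 0 < t) (d : ℝ) : d ^ 2 / t = (d / Real.sqrt t) ^ 2 := by
  rw [div_pow, Real.sq_sqrt ht.le]

theorem s4a_D (X : Sp.{u} n) {t : ℝ} (ht : 0 < t) (x y : X.M) :
    X.h.D (fun y => 2 * t * X.h.φ t x y) 1 y = 4 * X.h.Dφ t x y := by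
  have h := X.h.D_cmul (X.h.φ_S ht x) (2 * t) (1 / (2 * t)) y
  rw [mul_one_div_cancel (by positivity)] at h
  rw [h, HS.Dφ]
  ring

theorem s4a_Dφ (X : Sp.{u} n) {t : ℝ} (ht : 0 < t) (x y : X.M) : 0 ≤ X.h.Dφ t x y :=
  mul_nonneg (sq_nonneg _) (X.h.D_nonneg (X.h.φ_S ht x) _ _)

theorem s4a_Γc (X : Sp.{u} n) {f : X.M → ℝ} (hf : X.h.S f) (a : ℝ) (y : X.M) :
    X.h.Γ (fun y => a * f y) (fun y => a * f y) y = a ^ 2 * X.h.Γ f f y := by
  rw [X.h.Γ_cmul_left a hf, X.h.Γ_comm, X.h.Γ_cmul_left a hf]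
  ring

/-- `H_ratio`, `grad_φ`, `Γ2_sub_le`, `D_cmul`. -/
theorem wp_bounds (n : ℕ) (R : ℝ) : ∃ C : ℝ, 0 < C ∧ ∀ (X : Sp.{u} n) {t : ℝ}, X.h.ok t → ∀ x z,
    dist x z ≤ R * Real.sqrt t → X.h.S (X.h.wp t x z) ∧ CG x t (X.h.wp t x z) ∧
      CG x t (X.h.Γ (X.h.wp t x z) (X.h.wp t x z)) ∧ ∀ y,
      |X.h.wp t x z y| ≤ C * t * (1 + dist x y / Real.sqrt t) ∧
      X.h.Γ (X.h.wp t x z) (X.h.wp t x z) y ≤ C * t * (1 + dist x y ^ 2 / t) ∧
      X.h.Γ2 (X.h.wp t x z) (X.h.wp t x z) y ≤ 8 * X.h.Dφ t z y + 8 * X.h.Dφ t x y ∧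
      X.h.H t x y = X.h.H t z y * Real.exp (X.h.wp t x z y / (2 * t)) ∧
      X.h.H t x y ≤ C * Real.exp (C * dist z y / Real.sqrt t) * X.h.H t z y := by
  obtain ⟨C₁, hC₁, h₁⟩ := H_ratio.{u} n R
  obtain ⟨C₂, hC₂, h₂⟩ := grad_φ.{u} n
  have hR := abs_nonneg R
  have hE : C₁ * |R| ≤ Real.exp (C₁ * |R|) := by linarith [Real.add_one_le_exp (C₁ * |R|)]
  have hE0 := Real.exp_pos (C₁ * |R|)
  have ha : 0 ≤ 2 * (C₁ * |R|) := by positivity
  have hb : 0 ≤ 8 * (C₂ * (3 + 2 * R ^ 2)) := by positivity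
  obtain ⟨C, hC⟩ : ∃ C, C = 2 * (C₁ * |R|) + 8 * (C₂ * (3 + 2 * R ^ 2)) + Real.exp (C₁ * |R|) :=
    ⟨_, rfl⟩
  have hC0 : 0 < C := by rw [hC]; positivity
  refine ⟨C, hC0, fun X t ht x z hd => ?_⟩
  have ht0 := ht.1
  have hk : X.h.k * t ≤ 1 / 200 := ht.2.trans (by norm_num)
  have hs := Real.sqrt_pos.2 ht0
  have hd' : dist x z / Real.sqrt t ≤ |R| := by
    rw [div_le_iff₀ hs]
    exact hd.trans (by gcongr; exact le_abs_self R)
  have e : X.h.wp t x z = fun y => 2 * t * X.h.φ t z y - 2 * t * X.h.φ t x y := by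
    funext y; rw [HS.wp]; ring
  have Sx := X.h.S_cmul (2 * t) (X.h.φ_S ht0 x)
  have Sz := X.h.S_cmul (2 * t) (X.h.φ_S ht0 z)
  have hS : X.h.S (X.h.wp t x z) := by rw [e]; exact X.h.S_sub Sz Sx
  have b₁ : ∀ y, |X.h.wp t x z y| ≤ C * t * (1 + dist x y / Real.sqrt t) := fun y => by
    have h := h₁ X ht0 hk x z y hd
    have hu : 0 ≤ dist x y / Real.sqrt t := by positivity
    rw [HS.wp, abs_mul, abs_of_pos (by positivity : 0 < 2 * t), abs_sub_comm]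
    calc 2 * t * |X.h.φ t x y - X.h.φ t z y| ≤ 2 * t * (C₁ * |R| * (1 + dist x y / Real.sqrt t)) := by
          gcongr
          exact h.trans (by gcongr)
      _ = 2 * (C₁ * |R|) * t * (1 + dist x y / Real.sqrt t) := by ring
      _ ≤ _ := by gcongr; linarith
  have b₂ : ∀ y, X.h.Γ (X.h.wp t x z) (X.h.wp t x z) y ≤ C * t * (1 + dist x y ^ 2 / t) := fun y => by
    have h := X.h.Γ_sub_le Sz Sx y
    rw [← e, s4a_Γc X (X.h.φ_S ht0 x), s4a_Γc X (X.h.φ_S ht0 z)] at h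
    have hx := h₂ X ht0 hk x y
    have hz := h₂ X ht0 hk z y
    have hu : 0 ≤ dist x y / Real.sqrt t := by positivity
    have hv : dist z y / Real.sqrt t ≤ |R| + dist x y / Real.sqrt t := by
      calc dist z y / Real.sqrt t ≤ (dist x z + dist x y) / Real.sqrt t := by
            gcongr
            rw [dist_comm x z]
            exact dist_triangle _ _ _
        _ ≤ _ := by rw [add_div]; linarith
    rw [s4a_div ht0] at hx hz ⊢
    have hv0 : 0 ≤ dist z y / Real.sqrt t := by positivity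
    have hv2 : (dist z y / Real.sqrt t) ^ 2 ≤ 2 * R ^ 2 + 2 * (dist x y / Real.sqrt t) ^ 2 := by
      have := pow_le_pow_left₀ hv0 hv 2
      nlinarith [sq_abs R, sq_nonneg (|R| - dist x y / Real.sqrt t)]
    generalize dist z y / Real.sqrt t = v at *
    generalize dist x y / Real.sqrt t = w at *
    calc _ ≤ 8 * t * (t * X.h.Γ (X.h.φ t z) (X.h.φ t z) y + t * X.h.Γ (X.h.φ t x) (X.h.φ t x) y) := by
          linarith
      _ ≤ 8 * t * (C₂ * (1 + (2 * R ^ 2 + 2 * w ^ 2)) + C₂ * (1 + w ^ 2)) :=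
          mul_le_mul_of_nonneg_left (add_le_add (hz.trans (by gcongr)) hx) (by positivity)
      _ = 8 * t * C₂ * (2 + 2 * R ^ 2 + 3 * w ^ 2) := by ring
      _ ≤ 8 * t * C₂ * ((3 + 2 * R ^ 2) * (1 + w ^ 2)) := by
          gcongr
          nlinarith [mul_nonneg (sq_nonneg R) (sq_nonneg w)]
      _ = 8 * (C₂ * (3 + 2 * R ^ 2)) * t * (1 + w ^ 2) := by ring
      _ ≤ _ := by gcongr; linarith
  have b₄ : ∀ y, X.h.H t x y = X.h.H t z y * Real.exp (X.h.wp t x z y / (2 * t)) := fun y => by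
    rw [HS.wp, mul_div_cancel_left₀ _ (by positivity), ← X.h.h4c_exp ht0 x y, ← X.h.h4c_exp ht0 z y,
      ← Real.exp_add]
    congr 1
    ring
  refine ⟨hS, CG.of_poly ht0 (X.h.S_cont hS) (B := 2 * C * t) (j := 1) fun y => (b₁ y).trans ?_,
    CG.of_poly ht0 (X.h.S_cont (X.h.S_Γ hS hS)) (B := C * t) (j := 1) fun y => ?_,
    fun y => ⟨b₁ y, b₂ y, ?_, b₄ y, ?_⟩⟩
  · rw [s4a_div ht0, pow_one]
    have : 0 < C * t := by positivity
    nlinarith [mul_nonneg this.le (sq_nonneg (dist x y / Real.sqrt t - 1)),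
      mul_nonneg this.le (sq_nonneg (dist x y / Real.sqrt t))]
  · rw [abs_of_nonneg (X.h.Γ_nonneg _ _), pow_one]
    exact b₂ y
  · have h := X.h.Γ2_sub_le Sz Sx 1 y
    rw [← e, s4a_D X ht0, s4a_D X ht0] at h
    linarith
  · have h := h₁ X ht0 hk z x y (by rwa [dist_comm])
    rw [dist_comm z x] at h
    have hu : 0 ≤ dist z y / Real.sqrt t := by positivity
    have hH := X.h.H_pos ht0 z y
    rw [b₄ y, mul_comm, HS.wp, mul_div_cancel_left₀ _ (by positivity)]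
    gcongr
    calc Real.exp (X.h.φ t z y - X.h.φ t x y)
        ≤ Real.exp (C₁ * |R| + C₁ * |R| * (dist z y / Real.sqrt t)) := by
          gcongr
          calc _ ≤ _ := le_abs_self _
            _ ≤ _ := h
            _ ≤ C₁ * |R| * (1 + dist z y / Real.sqrt t) := by gcongr
            _ = _ := by ring
      _ ≤ _ := by
          rw [Real.exp_add, mul_div_assoc]
          gcongr <;> linarith

/-- `KK_int` at `x` and at `z`. -/
theorem wp_Γ2 (n : ℕ) (hn : 1 ≤ n) (R R' : ℝ) : ∃ C : ℝ, 0 < C ∧ ∀ (X : Sp.{u} n) {t κ : ℝ}, X.h.ok t →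
    0 ≤ κ → ∀ x z, dist x z ≤ R * Real.sqrt t → X.h.KK x t ≤ ENNReal.ofReal κ →
    X.h.KK z t ≤ ENNReal.ofReal κ →
      Integrable (fun y => X.h.H t x y * (X.h.Γ2 (X.h.wp t x z) (X.h.wp t x z) y *
        Real.exp (R' * dist x y / Real.sqrt t))) X.h.m ∧
      X.h.P t (fun y => X.h.Γ2 (X.h.wp t x z) (X.h.wp t x z) y *
        Real.exp (R' * dist x y / Real.sqrt t)) x ≤ C * κ := by
  obtain ⟨C, hC, hw⟩ := wp_bounds.{u} n R
  obtain ⟨Ca, hCa, ha⟩ := KK_int.{u} n hn R'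
  obtain ⟨Cb, hCb, hb⟩ := KK_int.{u} n hn (C + |R'|)
  refine ⟨8 * Ca + 8 * (C * Real.exp (|R'| * |R|)) * Cb, by positivity,
    fun X t κ ht hκ x z hd Kx Kz => ?_⟩
  have ht0 := ht.1
  have hs := Real.sqrt_pos.2 ht0
  obtain ⟨hS, -, -, hw⟩ := hw X ht x z hd
  obtain ⟨ia, pa⟩ := ha X ht x (ne_top_of_le_ne_top ENNReal.ofReal_ne_top Kx)
  obtain ⟨ib, pb⟩ := hb X ht z (ne_top_of_le_ne_top ENNReal.ofReal_ne_top Kz)
  have kx := ENNReal.toReal_le_of_le_ofReal hκ Kx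
  have kz := ENNReal.toReal_le_of_le_ofReal hκ Kz
  have ig := (ia.const_mul 8).add (ib.const_mul (8 * (C * Real.exp (|R'| * |R|))))
  have h0 : ∀ y, 0 ≤ X.h.H t x y * (X.h.Γ2 (X.h.wp t x z) (X.h.wp t x z) y *
      Real.exp (R' * dist x y / Real.sqrt t)) := fun y =>
    mul_nonneg (X.h.H_pos ht0 x y).le (mul_nonneg (X.h.Γ2_nonneg hS y) (Real.exp_pos _).le)
  have hle : ∀ y, X.h.H t x y * (X.h.Γ2 (X.h.wp t x z) (X.h.wp t x z) y *
      Real.exp (R' * dist x y / Real.sqrt t)) ≤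
      8 * (X.h.H t x y * (X.h.Dφ t x y * Real.exp (R' * dist x y / Real.sqrt t))) +
        8 * (C * Real.exp (|R'| * |R|)) *
          (X.h.H t z y * (X.h.Dφ t z y * Real.exp ((C + |R'|) * dist z y / Real.sqrt t))) := fun y => by
    obtain ⟨-, -, h₃, -, h₅⟩ := hw y
    have hx := (X.h.H_pos ht0 x y).le
    have hz := (X.h.H_pos ht0 z y).le
    have Dx := s4a_Dφ X ht0 x y
    have Dz := s4a_Dφ X ht0 z y
    have he : Real.exp (R' * dist x y / Real.sqrt t) ≤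
        Real.exp (|R'| * |R|) * Real.exp (|R'| * dist z y / Real.sqrt t) := by
      rw [← Real.exp_add, Real.exp_le_exp, div_le_iff₀ hs, add_mul, div_mul_cancel₀ _ hs.ne']
      calc R' * dist x y ≤ |R'| * (dist x z + dist z y) := by
            gcongr
            · exact le_abs_self _
            · exact dist_triangle _ _ _
        _ ≤ |R'| * (|R| * Real.sqrt t + dist z y) := by
            gcongr
            exact hd.trans (by gcongr; exact le_abs_self R)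
        _ = _ := by ring
    have h₆ : X.h.H t x y * (X.h.Dφ t z y * Real.exp (R' * dist x y / Real.sqrt t)) ≤
        C * Real.exp (|R'| * |R|) *
          (X.h.H t z y * (X.h.Dφ t z y * Real.exp ((C + |R'|) * dist z y / Real.sqrt t))) := by
      calc _ ≤ C * Real.exp (C * dist z y / Real.sqrt t) * X.h.H t z y * (X.h.Dφ t z y *
            (Real.exp (|R'| * |R|) * Real.exp (|R'| * dist z y / Real.sqrt t))) := by gcongr
        _ = _ := by rw [add_mul, add_div, Real.exp_add]; ring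
    calc _ ≤ X.h.H t x y * ((8 * X.h.Dφ t z y + 8 * X.h.Dφ t x y) *
          Real.exp (R' * dist x y / Real.sqrt t)) := by gcongr
      _ ≤ _ := by linarith
  have hc : Continuous fun y => X.h.H t x y * (X.h.Γ2 (X.h.wp t x z) (X.h.wp t x z) y *
      Real.exp (R' * dist x y / Real.sqrt t)) :=
    (X.h.H_cont ht0 x).mul ((X.h.S_cont (X.h.S_Γ2 hS hS)).mul (by fun_prop))
  have hi := ig.mono' hc.aestronglyMeasurable (.of_forall fun y => by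
    rw [Real.norm_of_nonneg (h0 y)]; exact hle y)
  refine ⟨hi, (integral_mono hi ig hle).trans ?_⟩
  simp only [Pi.add_apply]
  rw [integral_add (ia.const_mul 8) (ib.const_mul _), integral_const_mul, integral_const_mul]
  calc _ ≤ 8 * (Ca * κ) + 8 * (C * Real.exp (|R'| * |R|)) * (Cb * κ) := by
        gcongr
        · exact pa.trans (by gcongr)
        · exact pb.trans (by gcongr)
    _ = _ := by ring

/-- Continuous and square integrable for `H t x`. -/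
def s4aL (X : Sp.{u} n) (t : ℝ) (x : X.M) (f : X.M → ℝ) : Prop :=
  Continuous f ∧ Integrable (fun y => X.h.H t x y * f y ^ 2) X.h.m

section
variable {X : Sp.{u} n} {t : ℝ} {x : X.M} {f g : X.M → ℝ}

theorem s4aL.cs (ht : 0 < t) (hf : s4aL X t x f) (hg : s4aL X t x g) :
    Integrable (fun y => X.h.H t x y * (f y * g y)) X.h.m ∧ X.h.P t (fun y => f y * g y) x ^ 2 ≤
      X.h.P t (fun y => f y ^ 2) x * X.h.P t (fun y => g y ^ 2) x := by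
  obtain ⟨h₁, h₂⟩ := X.h.P_cs ht hf.1.aestronglyMeasurable hg.1.aestronglyMeasurable hf.2 hg.2
  refine ⟨h₁, ?_⟩
  have := pow_le_pow_left₀ (abs_nonneg _) h₂ 2
  rwa [sq_abs, mul_pow, Real.sq_sqrt (X.h.P_nonneg ht x fun y => sq_nonneg _),
    Real.sq_sqrt (X.h.P_nonneg ht x fun y => sq_nonneg _)] at this

theorem s4aL.int (ht : 0 < t) (hf : s4aL X t x f) : Integrable (fun y => X.h.H t x y * f y) X.h.m :=
  (X.h.P_sq_le ht hf.1.aestronglyMeasurable hf.2).1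

theorem s4aL.const (ht : 0 < t) (c : ℝ) : s4aL X t x fun _ => c :=
  ⟨continuous_const, (X.h.H_int ht x).1.mul_const _⟩

theorem s4aL.sub (ht : 0 < t) (hf : s4aL X t x f) (hg : s4aL X t x g) :
    s4aL X t x fun y => f y - g y :=
  ⟨hf.1.sub hg.1, ((hf.2.sub ((hf.cs ht hg).1.const_mul 2)).add hg.2).congr (.of_forall fun y => by
    simp only [Pi.add_apply, Pi.sub_apply]; ring)⟩

theorem s4aL.cmul (hf : s4aL X t x f) (c : ℝ) : s4aL X t x fun y => c * f y :=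
  ⟨continuous_const.mul hf.1, (hf.2.const_mul (c ^ 2)).congr (.of_forall fun y => by
    simp only; ring)⟩

theorem s4aL.cov (ht : 0 < t) (hf : s4aL X t x f) (hg : s4aL X t x g) :
    X.h.P t (fun y => (g y - X.h.P t g x) * f y) x = X.h.Cov t x f g := by
  have e : (fun y => (g y - X.h.P t g x) * f y) = fun y => f y * g y - X.h.P t g x * f y := by
    funext y; ring
  rw [e, X.h.P_sub (hf.cs ht hg).1 ((hf.cmul _).int ht), X.h.P_cmul, HS.Cov, mul_comm]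

theorem s4aL.cen (ht : 0 < t) (hf : s4aL X t x f) : X.h.P t (fun y => f y - X.h.P t f x) x = 0 := by
  rw [X.h.P_sub (hf.int ht) ((s4aL.const ht _).int ht), X.h.P_const ht, sub_self]

theorem s4aL.var (ht : 0 < t) (hf : s4aL X t x f) :
    X.h.P t (fun y => (f y - X.h.P t f x) ^ 2) x = X.h.Cov t x f f := by
  have h₀ := hf.sub ht (s4aL.const ht (X.h.P t f x))
  have e : (fun y => (f y - X.h.P t f x) ^ 2) =
      fun y => (f y - X.h.P t f x) * f y - X.h.P t f x * (f y - X.h.P t f x) := by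
    funext y; ring
  rw [e, X.h.P_sub (h₀.cs ht hf).1 ((h₀.cmul _).int ht), X.h.P_cmul, hf.cen ht, hf.cov ht hf,
    mul_zero, sub_zero]

theorem s4aL.key (ht : 0 < t) {ψ θ δ w : X.M → ℝ} (hψ : s4aL X t x ψ) (hθ : s4aL X t x θ)
    (hδ : s4aL X t x δ) (hw : s4aL X t x w) :
    (X.h.P t (fun y => (ψ y - X.h.P t ψ x) * (θ y + w y - δ y)) x - X.h.Cov t x w ψ) ^ 2 ≤
      (2 * X.h.Cov t x θ θ + 2 * X.h.P t (fun y => δ y ^ 2) x) * X.h.Cov t x ψ ψ := by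
  have h₀ := hψ.sub ht (s4aL.const ht (X.h.P t ψ x))
  have h₁ := hθ.sub ht (s4aL.const ht (X.h.P t θ x))
  have h₂ := h₁.sub ht hδ
  have e : (fun y => (ψ y - X.h.P t ψ x) * (θ y + w y - δ y)) =
      fun y => (ψ y - X.h.P t ψ x) * (θ y - X.h.P t θ x - δ y) +
        (ψ y - X.h.P t ψ x) * (w y - -X.h.P t θ x) := by
    funext y; ring
  have e' : (fun y => (ψ y - X.h.P t ψ x) * (w y - -X.h.P t θ x)) =
      fun y => (ψ y - X.h.P t ψ x) * w y + X.h.P t θ x * (ψ y - X.h.P t ψ x) := by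
    funext y; ring
  rw [e, X.h.P_add (h₀.cs ht h₂).1 (h₀.cs ht (hw.sub ht (s4aL.const ht _))).1, e',
    X.h.P_add (h₀.cs ht hw).1 ((h₀.cmul _).int ht), X.h.P_cmul, hψ.cen ht, hw.cov ht hψ, mul_zero,
    add_zero, add_sub_cancel_right, ← hψ.var ht, ← hθ.var ht, mul_comm]
  refine (h₀.cs ht h₂).2.trans ?_
  gcongr
  · exact X.h.P_nonneg ht x fun y => sq_nonneg _
  · have i₁ : Integrable (fun y => X.h.H t x y * (2 * (θ y - X.h.P t θ x) ^ 2)) X.h.m :=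
      (h₁.2.const_mul 2).congr (.of_forall fun y => by simp only; ring)
    have i₂ : Integrable (fun y => X.h.H t x y * (2 * δ y ^ 2)) X.h.m :=
      (hδ.2.const_mul 2).congr (.of_forall fun y => by simp only; ring)
    rw [← X.h.P_cmul, ← X.h.P_cmul, ← X.h.P_add i₁ i₂]
    refine X.h.P_mono ht h₂.2 ((i₁.add i₂).congr (.of_forall fun y => by
      simp only [Pi.add_apply]; ring)) fun y => ?_
    nlinarith [sq_nonneg (θ y - X.h.P t θ x + δ y)]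

end

theorem s4a_poly {t d : ℝ} (ht : 0 < t) (hd : 0 ≤ d) :
    1 + d ^ 2 / t ≤ 2 * Real.exp (1 * d / Real.sqrt t) := by
  have hu : 0 ≤ d / Real.sqrt t := by positivity
  rw [s4a_div ht, one_mul]
  linarith [Real.quadratic_le_exp_of_nonneg hu]

theorem s4a_sq {g a b c d : ℝ} (hg : 0 ≤ g) (ha : 0 ≤ a) (hb : 0 ≤ b) (hc : 0 ≤ c) (hd : 0 ≤ d)
    (h : Real.sqrt g ≤ Real.sqrt a * Real.sqrt b + Real.sqrt c * Real.sqrt d) :
    g ≤ 2 * (a * b) + 2 * (c * d) := by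
  have h₁ := pow_le_pow_left₀ (Real.sqrt_nonneg _) h 2
  rw [Real.sq_sqrt hg, ← Real.sqrt_mul ha, ← Real.sqrt_mul hc] at h₁
  nlinarith [Real.sq_sqrt (mul_nonneg ha hb), Real.sq_sqrt (mul_nonneg hc hd),
    sq_nonneg (Real.sqrt (a * b) - Real.sqrt (c * d))]

/-- `wp` is an approximate eigenfunction.  Recipe: `w = wp`, `f = 2tφ_x`, `θ = Γ(f,w) - w`; `ibp_H`: `2t P Γ(w,ψ) = P(ψθ) + P(ψ w) - P(ψ 2tΔw)`, also for `ψ = 1`; `√Γθ ≤ √D(f,1) √Γw + √Γ2(w) √Γf`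
(`sqrt_Γ_Γ_sub_le`, `D(f,1) = 4Dφ`), `poincare` for `θ`, `(Δw)² ≤ n Γ2 w`. -/
theorem wp_eig (n : ℕ) (hn : 1 ≤ n) (R : ℝ) : ∃ C : ℝ, 0 < C ∧ ∀ (X : Sp.{u} n) {t κ : ℝ}, X.h.ok t →
    0 ≤ κ → ∀ x z, dist x z ≤ R * Real.sqrt t → X.h.KK x t ≤ ENNReal.ofReal κ →
    X.h.KK z t ≤ ENNReal.ofReal κ → ∀ ψ : X.M → ℝ, X.h.S ψ →
      Integrable (fun y => X.h.H t x y * ψ y ^ 2) X.h.m →
      Integrable (fun y => X.h.H t x y * X.h.Γ ψ ψ y) X.h.m →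
      (2 * t * X.h.P t (X.h.Γ (X.h.wp t x z) ψ) x - X.h.Cov t x (X.h.wp t x z) ψ) ^ 2 ≤
        C * t ^ 2 * κ * X.h.Cov t x ψ ψ := by
  obtain ⟨C, hC, hw⟩ := wp_bounds.{u} n R
  obtain ⟨C₂, hC₂, h₂⟩ := grad_φ.{u} n
  obtain ⟨Ca, hCa, ha⟩ := KK_int.{u} n hn 1
  obtain ⟨Cb, hCb, hb⟩ := wp_Γ2.{u} n hn R 1
  refine ⟨2 * (6 * (16 * C * Ca + 16 * C₂ * Cb)) + 8 * (n * Cb), by positivity,
    fun X t κ ht hκ x z hd Kx Kz ψ hψ iψ iΓ => ?_⟩
  have ht0 := ht.1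
  have hk : X.h.k * t ≤ 1 / 200 := ht.2.trans (by norm_num)
  obtain ⟨hS, cw, cΓ, hw⟩ := hw X ht x z hd
  obtain ⟨ia, pa⟩ := ha X ht x (ne_top_of_le_ne_top ENNReal.ofReal_ne_top Kx)
  obtain ⟨ib, pb⟩ := hb X ht hκ x z hd Kx Kz
  have kx := ENNReal.toReal_le_of_le_ofReal hκ Kx
  generalize X.h.wp t x z = w at *
  have Sφ := X.h.φ_S ht0 x
  have Sf := X.h.S_cmul (2 * t) Sφ
  have Sθ := X.h.S_sub (X.h.S_Γ Sf hS) (X.h.S_cmul 1 hS)
  have Lψ : s4aL X t x ψ := ⟨X.h.S_cont hψ, iψ⟩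
  have Lw : s4aL X t x w := ⟨cw.1, (cw.bd ht).2.2⟩
  have cφ : CG x t (X.h.Γ w (X.h.φ t x)) := by
    refine (cΓ.add (CG_Γφ x ht)).of_le (X.h.S_cont (X.h.S_Γ hS Sφ)) fun y => ?_
    have g₁ := X.h.Γ_nonneg w y
    have g₂ := X.h.Γ_nonneg (X.h.φ t x) y
    rw [abs_of_nonneg (add_nonneg g₁ g₂)]
    refine (X.h.abs_Γ_le _ _ y).trans ?_
    nlinarith [Real.sq_sqrt g₁, Real.sq_sqrt g₂, sq_nonneg (Real.sqrt (X.h.Γ w w y) -
      Real.sqrt (X.h.Γ (X.h.φ t x) (X.h.φ t x) y)), Real.sqrt_nonneg (X.h.Γ w w y),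
      Real.sqrt_nonneg (X.h.Γ (X.h.φ t x) (X.h.φ t x) y)]
  have eΓ : X.h.Γ (fun y => 2 * t * X.h.φ t x y) w = fun y => 2 * t * X.h.Γ w (X.h.φ t x) y := by
    funext y; rw [X.h.Γ_cmul_left _ Sφ, X.h.Γ_comm]
  have Lθ : s4aL X t x fun y => X.h.Γ (fun y => 2 * t * X.h.φ t x y) w y - 1 * w y := by
    refine s4aL.sub ht0 ?_ (Lw.cmul 1)
    rw [eΓ]
    exact s4aL.cmul ⟨cφ.1, (cφ.bd ht).2.2⟩ _
  -- the Laplacian
  have e1 : ∀ y, 1 ≤ Real.exp (1 * dist x y / Real.sqrt t) := fun y =>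
    Real.one_le_exp (by positivity)
  have ib' : Integrable (fun y => X.h.H t x y * (n * (X.h.Γ2 w w y *
      Real.exp (1 * dist x y / Real.sqrt t)))) X.h.m :=
    (ib.const_mul n).congr (.of_forall fun y => by simp only; ring)
  obtain ⟨iΔ, pΔ⟩ := X.h.h3e_dom ht0 x (f := fun y => X.h.Δ w y ^ 2)
    ((X.h.S_cont (X.h.S_Δ hS)).pow 2).aestronglyMeasurable (fun y => by
      have h := X.h.Δ_sub_sq_le hS 0 y
      rw [mul_zero, sub_zero, X.h.D_zero] at h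
      rw [abs_of_nonneg (sq_nonneg _)]
      refine h.trans ?_
      gcongr
      exact le_mul_of_one_le_right (X.h.Γ2_nonneg hS y) (e1 y)) ib'
  rw [X.h.P_cmul] at pΔ
  have Lδ : s4aL X t x fun y => 2 * t * X.h.Δ w y :=
    s4aL.cmul ⟨X.h.S_cont (X.h.S_Δ hS), iΔ⟩ _
  have pδ : X.h.P t (fun y => (2 * t * X.h.Δ w y) ^ 2) x ≤ 4 * t ^ 2 * (n * (Cb * κ)) := by
    simp only [mul_pow]
    rw [X.h.P_cmul]
    calc _ ≤ 2 ^ 2 * t ^ 2 * (n * (Cb * κ)) := by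
          gcongr
          exact (le_abs_self _).trans (pΔ.trans (by gcongr))
      _ = _ := by ring
  -- the gradient of `θ`
  have i₁ : Integrable (fun y => X.h.H t x y * (16 * C * t * (X.h.Dφ t x y *
      Real.exp (1 * dist x y / Real.sqrt t)))) X.h.m :=
    (ia.const_mul (16 * C * t)).congr (.of_forall fun y => by simp only; ring)
  have i₂ : Integrable (fun y => X.h.H t x y * (16 * C₂ * t * (X.h.Γ2 w w y *
      Real.exp (1 * dist x y / Real.sqrt t)))) X.h.m :=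
    (ib.const_mul (16 * C₂ * t)).congr (.of_forall fun y => by simp only; ring)
  obtain ⟨iθ, pθ⟩ := X.h.h3e_dom ht0 x (g := fun y => 16 * C * t * (X.h.Dφ t x y *
      Real.exp (1 * dist x y / Real.sqrt t)) + 16 * C₂ * t * (X.h.Γ2 w w y *
      Real.exp (1 * dist x y / Real.sqrt t)))
    (X.h.S_cont (X.h.S_Γ Sθ Sθ)).aestronglyMeasurable (fun y => by
      have h := s4a_sq (X.h.Γ_nonneg _ _) (X.h.D_nonneg Sf 1 y) (X.h.Γ_nonneg _ _)
        (X.h.Γ2_nonneg hS y) (X.h.Γ_nonneg _ _) (X.h.sqrt_Γ_Γ_sub_le Sf hS 1 y)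
      rw [s4a_D X ht0, s4a_Γc X Sφ] at h
      rw [abs_of_nonneg (X.h.Γ_nonneg _ _)]
      have hp := s4a_poly ht0 (dist_nonneg (x := x) (y := y))
      have D0 := s4a_Dφ X ht0 x y
      have G0 := X.h.Γ2_nonneg hS y
      have g₁ : X.h.Γ w w y ≤ C * t * (2 * Real.exp (1 * dist x y / Real.sqrt t)) :=
        (hw y).2.1.trans (by gcongr)
      have g₂ : t * X.h.Γ (X.h.φ t x) (X.h.φ t x) y ≤
          C₂ * (2 * Real.exp (1 * dist x y / Real.sqrt t)) := (h₂ X ht0 hk x y).trans (by gcongr)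
      calc _ ≤ _ := h
        _ = 8 * X.h.Dφ t x y * X.h.Γ w w y +
            8 * t * X.h.Γ2 w w y * (t * X.h.Γ (X.h.φ t x) (X.h.φ t x) y) := by ring
        _ ≤ 8 * X.h.Dφ t x y * (C * t * (2 * Real.exp (1 * dist x y / Real.sqrt t))) +
            8 * t * X.h.Γ2 w w y * (C₂ * (2 * Real.exp (1 * dist x y / Real.sqrt t))) := by gcongr
        _ = _ := by ring)
    ((i₁.add i₂).congr (.of_forall fun y => by simp only [Pi.add_apply]; ring))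
  rw [X.h.P_add i₁ i₂, X.h.P_cmul, X.h.P_cmul] at pθ
  have vθ := X.h.poincare Sθ ht0 x Lθ.2 iθ
  have he : Real.exp (2 * X.h.k * t) ≤ 3 := by
    refine le_trans ?_ Real.exp_one_lt_three.le
    gcongr
    linarith
  -- integration by parts
  have h₀ := Lψ.sub ht0 (s4aL.const ht0 (X.h.P t ψ x))
  have S₀ := X.h.S_sub hψ (X.h.S_const (X.h.P t ψ x))
  have e₀ : ∀ v y, X.h.Γ v (fun y => ψ y - X.h.P t ψ x) y = X.h.Γ v ψ y := fun v y => by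
    rw [X.h.Γ_comm, X.h.Γ_sub_left hψ (X.h.S_const _), X.h.Γ_const_left, sub_zero, X.h.Γ_comm]
  have hI := ibp_H X x ht0 hS S₀ h₀.2 (by
    simp only [e₀, X.h.Γ_comm _ ψ]
    exact iΓ) (cΓ.bd ht).2.1 iΔ (cφ.bd ht).2.2
  rw [funext (e₀ w)] at hI
  have hK := s4aL.key ht0 Lψ Lθ Lδ Lw
  have e₁ : (fun y => (ψ y - X.h.P t ψ x) * (X.h.Γ (fun y => 2 * t * X.h.φ t x y) w y - 1 * w y + w y -
      2 * t * X.h.Δ w y)) = fun y => 2 * t * ((ψ y - X.h.P t ψ x) * X.h.L t x w y) := by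
    funext y; rw [eΓ, HS.L]; ring
  rw [e₁, X.h.P_cmul, ← hI] at hK
  refine hK.trans ?_
  have c₀ : 0 ≤ X.h.Cov t x ψ ψ := by
    rw [← Lψ.var ht0]
    exact X.h.P_nonneg ht0 x fun y => sq_nonneg _
  gcongr
  have v₁ : X.h.Cov t x (fun y => X.h.Γ (fun y => 2 * t * X.h.φ t x y) w y - 1 * w y)
      (fun y => X.h.Γ (fun y => 2 * t * X.h.φ t x y) w y - 1 * w y) ≤
      2 * t * 3 * (16 * C * t * (Ca * κ) + 16 * C₂ * t * (Cb * κ)) := by
    simp only [HS.Cov, ← sq]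
    refine vθ.trans ?_
    gcongr
    · exact X.h.P_nonneg ht0 x fun y => X.h.Γ_nonneg _ _
    · refine (le_abs_self _).trans (pθ.trans ?_)
      gcongr
      exact pa.trans (by gcongr)
  linarith

theorem s4b_real {A₁ A₂ A₃ γ : ℝ} (h₁ : 0 < A₁) (h₂ : 0 < A₂) (h₃ : 0 < A₃) (hγ : 0 < γ) :
    ∃ K : ℝ, 1 ≤ K ∧ A₁ ≤ K ∧ 6 * A₂ + 2 * (A₃ * A₁) ≤ K ∧ ∀ t κ N E g a b : ℝ, 0 < t → 0 < κ → 0 ≤ N →
      g ≤ A₁ * t → a ^ 2 ≤ A₂ * t ^ 2 * κ * N → b ^ 2 ≤ A₃ * (t * g * κ) * N →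
      2 * t * E = N + a - b → (1 + γ) * N ≤ 2 * t * E → N ≤ K * t ^ 2 * κ ∧ E ≤ K * t * κ := by
  obtain ⟨D, hD⟩ : ∃ D, D = A₂ + A₃ * A₁ := ⟨_, rfl⟩
  have hD0 : 0 < D := by rw [hD]; positivity
  obtain ⟨B, hB⟩ : ∃ B, B = 4 * D / γ ^ 2 := ⟨_, rfl⟩
  have hB0 : 0 < B := by rw [hB]; positivity
  have hDB : 0 < D * B := mul_pos hD0 hB0
  have h31 : 0 < A₃ * A₁ := mul_pos h₃ h₁
  refine ⟨1 + A₁ + 6 * D + B + D * B, by linarith, by linarith, by linarith,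
    fun t κ N E g a b ht hκ hN hg ha hb hE hgap => ?_⟩
  obtain ⟨s, hs⟩ : ∃ s, s = t ^ 2 * κ := ⟨_, rfl⟩
  have hs0 : 0 < s := by rw [hs]; positivity
  have hsN : 0 ≤ s * N := mul_nonneg hs0.le hN
  have ha' : a ^ 2 ≤ D * (s * N) := by
    refine ha.trans ?_
    have : A₂ * t ^ 2 * κ * N = A₂ * (s * N) := by rw [hs]; ring
    rw [this]
    exact mul_le_mul_of_nonneg_right (by linarith) hsN
  have hb' : b ^ 2 ≤ D * (s * N) := by
    refine hb.trans ?_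
    calc A₃ * (t * g * κ) * N ≤ A₃ * (t * (A₁ * t) * κ) * N := by gcongr
      _ = A₃ * A₁ * (s * N) := by rw [hs]; ring
      _ ≤ D * (s * N) := mul_le_mul_of_nonneg_right (by linarith) hsN
  have hNB : N ≤ B * s := by
    rcases hN.eq_or_lt with h0 | h0
    · rw [← h0]; positivity
    · have e₁ : γ * N ≤ a - b := by linarith
      have e₂ : (γ * N) ^ 2 ≤ (a - b) ^ 2 := pow_le_pow_left₀ (by positivity) e₁ 2
      have e₃ : γ ^ 2 * N * N ≤ 4 * D * s * N := by nlinarith [sq_nonneg (a + b)]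
      have e₄ : γ ^ 2 * N ≤ 4 * D * s := le_of_mul_le_mul_right e₃ h0
      rw [hB, div_mul_eq_mul_div, le_div_iff₀ (by positivity)]
      linarith
  have key : ∀ r : ℝ, r ^ 2 ≤ D * (s * N) → |r| ≤ (1 + D * B) * s := fun r hr => by
    refine abs_le_of_sq_le_sq' ?_ (by positivity) |> abs_le.2
    calc r ^ 2 ≤ D * (s * (B * s)) := hr.trans (by gcongr)
      _ = D * B * s ^ 2 := by ring
      _ ≤ (1 + D * B) ^ 2 * s ^ 2 := by gcongr; nlinarith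
      _ = ((1 + D * B) * s) ^ 2 := by ring
  have ka := (abs_le.1 (key a ha')).2
  have kb := (abs_le.1 (key b hb')).1
  refine ⟨?_, ?_⟩
  · rw [mul_assoc, ← hs]
    exact hNB.trans (mul_le_mul_of_nonneg_right (by linarith) hs0.le)
  · refine le_of_mul_le_mul_left ?_ (by positivity : 0 < 2 * t)
    have : 2 * t * ((1 + A₁ + 6 * D + B + D * B) * t * κ) = 2 * (1 + A₁ + 6 * D + B + D * B) * s := by
      rw [hs]; ring
    rw [this, hE]
    nlinarith [mul_pos h₁ hs0, mul_pos hD0 hs0, mul_pos hB0 hs0]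

theorem s4b_int (X : Sp.{u} n) (x : X.M) {t : ℝ} (ht : 0 < t) {f f' : X.M → ℝ} (hf : X.h.S f)
    (hf' : X.h.S f') (h₁ : Integrable (fun y => X.h.H t x y * X.h.Γ f f y) X.h.m)
    (h₂ : Integrable (fun y => X.h.H t x y * X.h.Γ f' f' y) X.h.m) :
    Integrable (fun y => X.h.H t x y * X.h.Γ f f' y) X.h.m := by
  refine (X.h.h3e_dom ht x (g := fun y => X.h.Γ f f y + X.h.Γ f' f' y)
    (X.h.S_cont (X.h.S_Γ hf hf')).aestronglyMeasurable (fun y => ?_) ?_).1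
  · have := (X.h.abs_Γ_le f f' y).trans (βid_am _ _ (X.h.Γ_nonneg f y) (X.h.Γ_nonneg f' y))
    linarith [X.h.Γ_nonneg f y, X.h.Γ_nonneg f' y]
  · exact (h₁.add h₂).congr (.of_forall fun y => by simp only [Pi.add_apply]; ring)

theorem s4b_core {A₁ A₂ A₃ γ : ℝ} (h₁ : 0 < A₁) (h₂ : 0 < A₂) (h₃ : 0 < A₃) (hγ : 0 < γ) :
    ∃ K : ℝ, 1 ≤ K ∧ ∀ (X : Sp.{u} n) (c : Crd X) (x z : X.M) {t κ : ℝ}, X.h.ok t → 0 < κ →
      X.h.S (X.h.wp t x z) → CG x t (X.h.wp t x z) → CG x t (X.h.Γ (X.h.wp t x z) (X.h.wp t x z)) →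
      X.h.P t (fun y => X.h.wp t x z y ^ 2) x ≤ A₁ * t ^ 2 → (c.J t x).PosDef →
      (∀ ξ, |qf (c.J t x) ξ - 2 * t * qf (c.G t x) ξ| ≤ 1 / 2 * (2 * t * qf (c.G t x) ξ)) →
      (∀ ψ : X.M → ℝ, X.h.S ψ → Integrable (fun y => X.h.H t x y * ψ y ^ 2) X.h.m →
        Integrable (fun y => X.h.H t x y * X.h.Γ ψ ψ y) X.h.m →
        (2 * t * X.h.P t (X.h.Γ (X.h.wp t x z) ψ) x - X.h.Cov t x (X.h.wp t x z) ψ) ^ 2 ≤
          A₂ * t ^ 2 * κ * X.h.Cov t x ψ ψ) →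
      (∀ ψ : X.M → ℝ, CG x t ψ → c.Orth x t ψ → ∀ ξ,
        (2 * t * X.h.P t (fun y => ψ y * X.h.L t x (c.u ξ) y) x) ^ 2 ≤
          A₃ * (t * qf (c.G t x) ξ * κ) * X.h.P t (fun y => ψ y ^ 2) x) →
      c.GapAt x t γ → ∃ ξ, c.Pair x z t K κ ξ := by
  obtain ⟨K, hK1, hK2, hK3, hK⟩ := s4b_real h₁ h₂ h₃ hγ
  refine ⟨K, hK1, fun X c x z t κ ht hκ hw hC hΓ hV hJ hJG heig hβ hgap => ?_⟩
  have ht0 := ht.1
  obtain ⟨c₀, ξ, hC', hO, hcov, hsum, hvar⟩ := exists_proj c x ht hJ hC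
  generalize hwd : X.h.wp t x z = w at *
  obtain ⟨w', hw'⟩ : ∃ w' : X.M → ℝ, w' = fun y => w y - c₀ - c.u ξ y := ⟨_, rfl⟩
  have hw'e : ∀ y, w y - c₀ - c.u ξ y = w' y := fun y => by rw [hw']
  simp only [hw'e] at hC' hO hsum
  have hS' : X.h.S w' := by
    rw [hw']; exact X.h.S_sub (X.h.S_sub hw (X.h.S_const c₀)) (c.u_S ξ)
  have hgr : ∀ y, X.h.grad w' y = X.h.grad w y - X.h.grad (c.u ξ) y := fun y => by
    rw [hw', X.h.grad_sub (X.h.S_sub hw (X.h.S_const c₀)) (c.u_S ξ),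
      X.h.grad_sub hw (X.h.S_const c₀), X.h.grad_const, sub_zero]
  have hΓl : ∀ v, X.h.Γ w' v = fun y => X.h.Γ w v y - X.h.Γ (c.u ξ) v y := fun v => funext fun y => by
    simp only [Raw.Γ, hgr, sub_dotProduct]
  have hΓe : X.h.Γ (fun y => w y - c.u ξ y) (fun y => w y - c.u ξ y) = X.h.Γ w' w' := funext fun y => by
    simp only [Raw.Γ, hgr, X.h.grad_sub hw (c.u_S ξ)]
  have iw : Integrable (fun y => X.h.H t x y * X.h.Γ w w y) X.h.m := (hΓ.bd ht).2.1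
  have iu : ∀ η, Integrable (fun y => X.h.H t x y * X.h.Γ (c.u η) (c.u η) y) X.h.m := fun η =>
    X.h.h2g_int (c.u_nice η).1 ht0 x
  have iw' : Integrable (fun y => X.h.H t x y * X.h.Γ w' w' y) X.h.m := by
    refine (X.h.h3e_dom ht0 x (g := fun y => 2 * X.h.Γ w w y + 2 * X.h.Γ (c.u ξ) (c.u ξ) y)
      (X.h.S_cont (X.h.S_Γ hS' hS')).aestronglyMeasurable (fun y => ?_) ?_).1
    · rw [abs_of_nonneg (X.h.Γ_nonneg _ _), ← hΓe]
      exact X.h.Γ_sub_le hw (c.u_S ξ) y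
    · exact ((iw.const_mul 2).add ((iu ξ).const_mul 2)).congr
        (.of_forall fun y => by simp only [Pi.add_apply]; ring)
  have i2 := (hC'.bd ht).2.2
  have i1 := (hC'.bd ht).2.1
  have hibp : ∀ η, X.h.P t (X.h.Γ (c.u η) w') x = X.h.P t (fun y => w' y * X.h.L t x (c.u η) y) x :=
    fun η => ibp_H X x ht0 (c.u_S η) hS' i2 iw' (iu η) (X.h.h2e_sq (c.u_nice η).2.bd ht0 x)
      ((L_CG X x ht (c.u_nice η).1 (c.u_nice η).2).2.2.1.bd ht).2.2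
  have hP : ∀ v, X.h.S v → Integrable (fun y => X.h.H t x y * X.h.Γ v v y) X.h.m →
      X.h.P t (X.h.Γ w' v) x = X.h.P t (X.h.Γ w v) x - X.h.P t (X.h.Γ (c.u ξ) v) x := fun v hv iv => by
    rw [hΓl, X.h.P_sub (s4b_int X x ht0 hw hv iw iv) (s4b_int X x ht0 (c.u_S ξ) hv (iu ξ) iv)]
  obtain ⟨N, hN⟩ : ∃ N, N = X.h.P t (fun y => w' y ^ 2) x := ⟨_, rfl⟩
  have hN0 : 0 ≤ N := by rw [hN]; exact X.h.P_nonneg ht0 x fun y => sq_nonneg _
  have c₁ : X.h.Cov t x w' w' = N := by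
    rw [HS.Cov, hO.1, hN]; simp only [mul_zero, sub_zero, sq]
  have c₂ : X.h.Cov t x w w' = N := by
    obtain ⟨B, hB⟩ := (c.u_nice ξ).1.2
    have i3 := ((hC'.mul (CG.of_bdd (X.h.S_cont (c.u_S ξ)) fun y => (hB y).1)).bd ht).2.1
    have i4 : Integrable (fun y => X.h.H t x y * (c₀ * w' y)) X.h.m :=
      (i1.const_mul c₀).congr (.of_forall fun y => by ring)
    have i5 : Integrable (fun y => X.h.H t x y * (c₀ * w' y + w' y * c.u ξ y)) X.h.m :=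
      (i4.add i3).congr (.of_forall fun y => by simp only [Pi.add_apply]; ring)
    have e : (fun y => w y * w' y) = fun y => w' y ^ 2 + (c₀ * w' y + w' y * c.u ξ y) :=
      funext fun y => by rw [← hw'e y]; ring
    rw [HS.Cov, hO.1, e, X.h.P_add i2 i5, X.h.P_add i4 i3, X.h.P_cmul, hO.1, hO.2, hN]
    ring
  have hG0 : ∀ η, 0 ≤ qf (c.G t x) η := fun η => by
    rw [c.qf_G ht0]; exact X.h.P_nonneg ht0 x fun y => X.h.Γ_nonneg _ y
  rw [← hN] at hsum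
  have hj := (abs_le.1 (hJG ξ)).1
  have hg : qf (c.G t x) ξ ≤ A₁ * t := by
    refine le_of_mul_le_mul_left ?_ ht0
    nlinarith
  have hNA : N ≤ A₁ * t ^ 2 := by nlinarith [mul_nonneg ht0.le (hG0 ξ)]
  have e₁ := heig w' hS' i2 iw'
  rw [c₁, c₂] at e₁
  have e₂ := hβ w' hC' hO ξ
  rw [← hN, ← hibp] at e₂
  have e₃ := hgap w' hS' i2 iw' hO.1 fun η => by
    rw [hO.2, ← hN]
    have := hG0 η
    simp only [ne_eq, OfNat.ofNat_ne_zero, not_false_eq_true, zero_pow]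
    positivity
  rw [← hN] at e₃
  obtain ⟨r₁, r₂⟩ := hK t κ N (X.h.P t (X.h.Γ w' w') x) _ _ _ ht0 hκ hN0 hg e₁ e₂
    (by rw [hP w' hS' iw']; ring) e₃
  refine ⟨ξ, ?_, ⟨c₀, ?_⟩, hg.trans (mul_le_mul_of_nonneg_right hK2 ht0.le), fun η => ?_⟩
  · rw [hwd, hΓe]; exact r₂
  · rw [hwd]; simp only [hw'e]; rw [← hN]; exact r₁
  · have f₁ := heig (c.u η) (c.u_S η) (X.h.h2e_sq (c.u_nice η).1.bd ht0 x) (iu η)
    rw [hcov, ← c.bf_J ht0] at f₁
    have f₂ := hβ w' hC' hO η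
    have f₃ : X.h.Γ (c.u η) w' = X.h.Γ w' (c.u η) := funext fun y => X.h.Γ_comm _ _ y
    rw [← hN, ← hibp, f₃, hP _ (c.u_S η) (iu η), ← c.bf_G ht0] at f₂
    have f₄ : bf (c.J t x) η η ≤ 3 * (t * qf (c.G t x) η) := by
      have := (abs_le.1 (hJG η)).2
      change qf (c.J t x) η ≤ _
      linarith
    obtain ⟨q, hq⟩ : ∃ q, q = t ^ 3 * κ * qf (c.G t x) η := ⟨_, rfl⟩
    have hq0 : 0 ≤ q := by rw [hq]; have := hG0 η; positivity
    have f₅ : A₂ * t ^ 2 * κ * bf (c.J t x) η η ≤ 3 * A₂ * q :=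
      calc _ ≤ A₂ * t ^ 2 * κ * (3 * (t * qf (c.G t x) η)) := by gcongr
        _ = _ := by rw [hq]; ring
    have f₆ : A₃ * (t * qf (c.G t x) η * κ) * N ≤ A₃ * A₁ * q :=
      calc _ ≤ A₃ * (t * qf (c.G t x) η * κ) * (A₁ * t ^ 2) := by have := hG0 η; gcongr
        _ = _ := by rw [hq]; ring
    have f₇ : K * t ^ 3 * κ * qf (c.G t x) η = K * q := by rw [hq]; ring
    rw [f₇]
    have f₈ := mul_le_mul_of_nonneg_right hK3 hq0
    generalize X.h.P t (X.h.Γ w (c.u η)) x = p at f₁ f₂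
    nlinarith [sq_nonneg ((2 * t * p - bf (c.J t x) ξ η) + 2 * t * (p - bf (c.G t x) ξ η))]

/-- Recipe: `exists_proj`: `w = c₀ + u ξ + w'`; `t G(ξ) ≤ J(ξ) ≤ Var w ≤ C t²` (`JG`, `poincare`); `wp_eig` with `ψ = w'` and `beta` (`ibp_H`: `P Γ(u ξ, w') = P(w' L u ξ)`) give
`2t PΓ(w') = P w'² + O(t √κ ‖w'‖)`; the gap gives `γ ‖w'‖² ≤ C t √κ ‖w'‖`.  `eig`: `wp_eig` with `ψ = u η`. -/
theorem pair_exists (n : ℕ) (hn : 1 ≤ n) (γ R : ℝ) (hγ : 0 < γ) (hγ' : γ ≤ 1 / 2) : ∃ K δ e₀ : ℝ,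
    1 ≤ K ∧ 0 < δ ∧ δ ≤ 1 ∧ 0 < e₀ ∧ ∀ (X : Sp.{u} n) (c : Crd X) (x z : X.M) {s₀ T₁ e t κ : ℝ},
      e ≤ e₀ → c.PH x z s₀ T₁ e γ R t κ → s₀ ≤ δ * t → ∃ ξ, c.Pair x z t K κ ξ := by
  obtain ⟨δ, e₁, hδ, hδ1, he₁, hJG⟩ := JG.{u} n (1 / 2) (by norm_num)
  obtain ⟨C₁, hC₁, hwp⟩ := wp_bounds.{u} n R
  obtain ⟨C₂, hC₂, hgr⟩ := P_gr.{u} n 2
  obtain ⟨A₂, hA₂, heig⟩ := wp_eig.{u} n hn R
  obtain ⟨A₃, e₂, hA₃, he₂, hβ⟩ := beta.{u} n hn γ hγ hγ'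
  obtain ⟨K, hK, hcore⟩ := s4b_core.{u} (n := n) (A₁ := C₂ * C₁ ^ 2) (by positivity) hA₂ hA₃ hγ
  refine ⟨K, δ, min 1 (min e₁ e₂), hK, hδ, hδ1, by positivity, fun X c x z s₀ T₁ e t κ he h hs => ?_⟩
  have he0 : e ≤ 1 := he.trans (min_le_left _ _)
  have he1 : e ≤ e₁ := he.trans ((min_le_right _ _).trans (min_le_left _ _))
  have he2 : e ≤ e₂ := he.trans ((min_le_right _ _).trans (min_le_right _ _))
  have hH := h.hx.toHyp
  have ht : 0 < t := (mul_pos_iff_of_pos_left hδ).1 (hH.s₀_pos.trans_le hs)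
  have hst : s₀ ≤ t := hs.trans (mul_le_of_le_one_left ht.le hδ1)
  have hok : X.h.ok t := (hH.times he0 ht (by nlinarith [h.t_le, hH.T₁_pos])).2.1
  have hκ : 0 < κ := (hH.κ_bounds he0 hγ hγ' ht h.t_le).2.2.2.1.trans_le h.κx
  obtain ⟨w₁, w₂, w₃, w₄⟩ := hwp X hok x z h.dist_le
  obtain ⟨j₁, j₂⟩ := hJG X c x he1 hH hs h.t_le
  refine hcore X c x z hok hκ w₁ w₂ w₃ ?_ j₁ j₂ (heig X hok hκ.le x z h.dist_le h.Kx h.Kz)
    (fun ψ hψ hO ξ => (hβ X c x he2 h.hx ⟨hst, h.t_le⟩ hψ hO ξ).trans ?_) (h.hx.gap t ⟨hst, h.t_le⟩)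
  · have hg : Gr x t (C₁ ^ 2 * t ^ 2) 2 fun y => X.h.wp t x z y ^ 2 := fun y => by
      have h₁ := (w₄ y).1
      have h₂ := Real.add_one_le_exp (dist x y / Real.sqrt t)
      have h₃ : 0 ≤ dist x y / Real.sqrt t := by positivity
      calc |X.h.wp t x z y ^ 2| = |X.h.wp t x z y| ^ 2 := abs_pow _ _
        _ ≤ (C₁ * t * Real.exp (dist x y / Real.sqrt t)) ^ 2 := by
          gcongr
          exact h₁.trans (by gcongr; linarith)
        _ = _ := by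
          rw [mul_pow, ← Real.exp_nat_mul, mul_div_assoc]
          push_cast
          ring
    have := (hgr X ht (by nlinarith) (hok.2.trans (by norm_num)) x x
      (w₂.1.pow 2).aestronglyMeasurable hg).2
    rw [dist_self, mul_zero, zero_div, Real.exp_zero, mul_one] at this
    exact ((le_abs_self _).trans this).trans_eq (by ring)
  · have h₁ : 0 ≤ qf (c.G t x) ξ := by
      rw [c.qf_G ht]; exact X.h.P_nonneg ht x fun y => X.h.Γ_nonneg _ y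
    have h₂ : 0 ≤ X.h.P t (fun y => ψ y ^ 2) x := X.h.P_nonneg ht x fun y => sq_nonneg _
    have h₃ := h.κx
    gcongr

theorem s4c_alg {H Ht σ g a D χ ε l lχ p q r k A B : ℝ} (hH : 0 ≤ H) (hσ : 0 < σ) (hg : 0 ≤ g) (ha : 0 ≤ a)
    (hχ : 0 ≤ χ ∧ χ ≤ 1) (hε : 0 ≤ ε) (h₁ : σ * |l| ≤ B * Ht) (h₂ : |lχ| ≤ ε) (h₃ : |p| ≤ ε * g)
    (h₄ : |q| ≤ g * a) (h₅ : |r| ≤ ε * a) (h₆ : H * (1 + σ * g ^ 2) ≤ A * Ht) (h₇ : σ * ε ≤ 1)
    (h₈ : σ * ε ^ 2 ≤ 1) (h₉ : 0 ≤ k) (h₁₀ : k * σ ≤ 1) :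
    σ * (a ^ 2 * (χ * l + H * lχ + 2 * -(H * p)) / 2 + χ * H * D ^ 2 + D * (χ * -(H * q) + H * r) +
      k * (χ * H) * a ^ 2) ≤ (B + 5 * A) * (Ht * a ^ 2) + 2 * A * σ * (Ht * D ^ 2) := by
  have a1 : σ * (χ * l) ≤ B * Ht := by
    refine le_trans (mul_le_mul_of_nonneg_left ?_ hσ.le) h₁
    nlinarith [le_abs_self l, abs_nonneg l, hχ.1, hχ.2]
  have a2 : σ * lχ ≤ 1 := (mul_le_mul_of_nonneg_left ((le_abs_self _).trans h₂) hσ.le).trans h₇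
  have a3 : σ * (2 * -p) ≤ 1 + σ * g ^ 2 := by
    have := mul_le_mul_of_nonneg_left ((neg_le_abs p).trans h₃) hσ.le
    nlinarith [mul_nonneg hσ.le (sq_nonneg (ε - g))]
  have a4 : σ * (D * (χ * -q)) ≤ (σ ^ 2 * g ^ 2 * D ^ 2 + a ^ 2) / 2 := by
    have b1 : D * (χ * -q) ≤ |D| * (g * a) := by
      refine (le_abs_self _).trans ?_
      rw [abs_mul, abs_mul, abs_neg, abs_of_nonneg hχ.1]
      exact mul_le_mul_of_nonneg_left ((mul_le_of_le_one_left (abs_nonneg _) hχ.2).trans h₄) (abs_nonneg _)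
    have := mul_le_mul_of_nonneg_left b1 hσ.le
    have e : (σ * g * |D|) ^ 2 = σ ^ 2 * g ^ 2 * D ^ 2 := by rw [mul_pow, mul_pow, sq_abs]
    nlinarith [sq_nonneg (σ * g * |D| - a)]
  have a5 : σ * (D * r) ≤ (σ * D ^ 2 + a ^ 2) / 2 := by
    have b1 : D * r ≤ |D| * (ε * a) := by
      refine (le_abs_self _).trans ?_
      rw [abs_mul]
      exact mul_le_mul_of_nonneg_left h₅ (abs_nonneg _)
    have := mul_le_mul_of_nonneg_left b1 hσ.le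
    nlinarith [mul_nonneg hσ.le (sq_nonneg (|D| - ε * a)), sq_abs D,
      mul_le_mul_of_nonneg_right h₈ (sq_nonneg a)]
  have a6 : σ * (k * χ) ≤ 1 := by nlinarith [mul_nonneg h₉ hσ.le, hχ.1, hχ.2]
  have hg' : 0 ≤ H * (σ * g ^ 2) := by positivity
  have c0 : H ≤ A * Ht := by nlinarith
  have hB : 0 ≤ B * Ht := le_trans (by positivity) h₁
  have c1 := mul_le_mul_of_nonneg_left a1 (sq_nonneg a)
  have c2 := mul_le_mul_of_nonneg_left a2 (mul_nonneg hH (sq_nonneg a))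
  have c3 := mul_le_mul_of_nonneg_left a3 (mul_nonneg hH (sq_nonneg a))
  have c4 := mul_le_mul_of_nonneg_left a4 hH
  have c5 := mul_le_mul_of_nonneg_left a5 hH
  have c6 := mul_le_mul_of_nonneg_left a6 (mul_nonneg hH (sq_nonneg a))
  have c7 := mul_le_mul_of_nonneg_left hχ.2 (mul_nonneg (mul_nonneg hσ.le hH) (sq_nonneg D))
  have d1 := mul_le_mul_of_nonneg_left c0 (sq_nonneg a)
  have d2 := mul_le_mul_of_nonneg_left h₆ (sq_nonneg a)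
  have d3 := mul_le_mul_of_nonneg_left c0 (mul_nonneg hσ.le (sq_nonneg D))
  have d4 := mul_le_mul_of_nonneg_left h₆ (mul_nonneg hσ.le (sq_nonneg D))
  have d5 := mul_nonneg hB (sq_nonneg a)
  have d6 := mul_nonneg hH (sq_nonneg a)
  have d7 := mul_nonneg (mul_nonneg hσ.le hH) (sq_nonneg D)
  linarith

/-- Recipe: `weak_bochner` with `w = χ j · H σ x` (`cut2`), `|ΔH σ| ≤ C H (1000σ)/σ` (`H_lap`), `grad_φ`, `H_dom`, Fatou (`Γ2_nonneg`). -/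
theorem Γ2_avg (n : ℕ) (δ : ℝ) (hδ : 0 < δ) : ∃ C : ℝ, 0 < C ∧ ∀ (X : Sp.{u} n) (x : X.M) {σ t : ℝ}
    {f : X.M → ℝ}, X.h.ok t → δ * t ≤ σ → 10 ^ 6 * σ ≤ t → X.h.S f →
      Integrable (fun y => X.h.H t x y * X.h.Γ f f y) X.h.m →
      Integrable (fun y => X.h.H t x y * X.h.Δ f y ^ 2) X.h.m →
      Integrable (fun y => X.h.H σ x y * X.h.Γ2 f f y) X.h.m ∧
      X.h.P σ (X.h.Γ2 f f) x ≤
        C * (X.h.P t (X.h.Γ f f) x / t + X.h.P t (fun y => X.h.Δ f y ^ 2) x) := by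
  obtain ⟨C₁, hC₁, h₁⟩ := H_lap.{u} n
  obtain ⟨C₂, hC₂, h₂⟩ := H_dom.{u} n 0 δ hδ
  obtain ⟨C₃, hC₃, h₃⟩ := grad_φ.{u} n
  obtain ⟨C₄, hC₄, h₄⟩ := H_dom.{u} n 2 δ hδ
  set A := (1 + C₃) * C₄ with hA
  set B := C₁ * C₂ with hB
  refine ⟨(B + 5 * A) / δ + 2 * A, by positivity, fun X x σ t f ht hδσ hσt hf i₁ i₂ => ?_⟩
  have hσ : 0 < σ := lt_of_lt_of_le (mul_pos hδ ht.1) hδσ
  have hk : X.h.k * σ ≤ 1 / 10 ^ 6 :=
    (mul_le_mul_of_nonneg_left (by linarith) X.h.k_nonneg).trans ht.2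
  obtain ⟨C, χ, hχ, hχ1⟩ := X.h.cut2 x
  obtain ⟨j₀, hj₀⟩ := exists_nat_ge (C * (1 + σ))
  have hH := X.h.H_S hσ x
  have hPΓ := X.h.P_nonneg ht.1 x (X.h.Γ_nonneg f)
  have hPΔ := X.h.P_nonneg ht.1 x (f := fun y => X.h.Δ f y ^ 2) fun y => sq_nonneg _
  refine h3d_fatou (f := fun j y => χ (j + j₀) y * X.h.H σ x y * X.h.Γ2 f f y) (fun j => ?_) (fun j y => ?_)
    (fun y => ?_) fun j => ?_
  · exact X.h.g5a_int (X.h.S_mul (hχ _).1 hH) (hχ _).2.1.mul_right (X.h.S_Γ2 hf hf)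
  · exact mul_nonneg (mul_nonneg ((hχ _).2.2 y).1.1 (X.h.H_nonneg hσ x y)) (X.h.Γ2_nonneg hf y)
  · refine tendsto_const_nhds.congr' ?_
    filter_upwards [(tendsto_add_atTop_nat j₀).eventually (hχ1 y)] with j hj
    rw [hj, one_mul]
  obtain ⟨s₁, s₂, s₃⟩ := hχ (j + j₀)
  set ε := C / ((j + j₀ : ℕ) + 1) with hε
  have ε0 : 0 ≤ ε := (Real.sqrt_nonneg _).trans (s₃ x).2.1
  have ε1 : ε * (1 + σ) ≤ 1 := by
    rw [hε, div_mul_eq_mul_div, div_le_one (by positivity)]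
    push_cast
    linarith [j.cast_nonneg (α := ℝ)]
  have hw := X.h.S_mul s₁ hH
  have hc : HasCompactSupport fun y => χ (j + j₀) y * X.h.H σ x y := s₂.mul_right
  rw [X.h.weak_bochner hw hc hf]
  have i₃ : Integrable (fun y => X.h.Γ f f y * X.h.Δ (fun y => χ (j + j₀) y * X.h.H σ x y) y / 2 +
      χ (j + j₀) y * X.h.H σ x y * X.h.Δ f y ^ 2 +
      X.h.Δ f y * X.h.Γ f (fun y => χ (j + j₀) y * X.h.H σ x y) y +
      X.h.k * (χ (j + j₀) y * X.h.H σ x y) * X.h.Γ f f y) X.h.m :=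
    ((((X.h.g5a_int' (X.h.S_Γ hf hf) (X.h.S_Δ hw) (X.h.cs_Δ hc)).div_const 2).add
      (X.h.g5a_int hw hc (X.h.g1b_sq (X.h.S_Δ hf) x).1)).add
      (X.h.g5a_int' (X.h.S_Δ hf) (X.h.S_Γ hf hw) (X.h.g5a_cs f hc))).add
      (X.h.g5a_int (X.h.S_cmul _ hw) hc.mul_left (X.h.S_Γ hf hf))
  have key := integral_mono (i₃.const_mul σ) ((i₁.const_mul (B + 5 * A)).add (i₂.const_mul (2 * A * σ))) fun y => by
    have b₁ := h₁ X (t := σ) ⟨hσ, hk⟩ x y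
    have b₂ := h₂ X (s := 1000 * σ) ht (by linarith) (by linarith) x y
    have b₃ := h₃ X hσ (by linarith) x y
    have b₄ := h₄ X (s := σ) ht hδσ (by linarith) x y
    have b₅ := e1b_exp hσ (dist_nonneg (x := x) (y := y))
    have b₆ := X.h.H_nonneg hσ x y
    rw [zero_mul, zero_div, Real.exp_zero, mul_one] at b₂
    have := s4c_alg (H := X.h.H σ x y) (Ht := X.h.H t x y) (D := X.h.Δ f y) (A := A) (B := B)
      (l := X.h.Δ (X.h.H σ x) y) (lχ := X.h.Δ (χ (j + j₀)) y) (p := X.h.Γ (χ (j + j₀)) (X.h.φ σ x) y)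
      (q := X.h.Γ (X.h.φ σ x) f y) (r := X.h.Γ (χ (j + j₀)) f y) b₆ hσ
      (Real.sqrt_nonneg (X.h.Γ (X.h.φ σ x) (X.h.φ σ x) y)) (Real.sqrt_nonneg (X.h.Γ f f y)) (s₃ y).1 ε0
      (b₁.trans (by rw [hB, mul_assoc]; exact mul_le_mul_of_nonneg_left b₂ hC₁.le)) (s₃ y).2.2
      ((X.h.abs_Γ_le _ _ y).trans (mul_le_mul_of_nonneg_right (s₃ y).2.1 (Real.sqrt_nonneg _)))
      (X.h.abs_Γ_le _ _ y)
      ((X.h.abs_Γ_le _ _ y).trans (mul_le_mul_of_nonneg_right (s₃ y).2.1 (Real.sqrt_nonneg _)))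
      (by
        rw [Real.sq_sqrt (X.h.Γ_nonneg _ y), hA, mul_assoc]
        refine le_trans ?_ (mul_le_mul_of_nonneg_left b₄ (by positivity))
        rw [mul_left_comm]
        refine mul_le_mul_of_nonneg_left ?_ b₆
        have : 1 ≤ 1 + dist x y ^ 2 / σ := le_add_of_nonneg_right (by positivity)
        nlinarith)
      (by nlinarith) (by nlinarith [mul_nonneg ε0 hσ.le]) X.h.k_nonneg (by linarith)
    rw [Real.sq_sqrt (X.h.Γ_nonneg _ y)] at this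
    simp only [Pi.add_apply]
    rw [X.h.Δ_mul s₁ hH, X.h.Γ_comm f (fun y => χ (j + j₀) y * X.h.H σ x y), X.h.Γ_mul_left s₁ hH,
      X.h.Γ_comm (χ (j + j₀)) (X.h.H σ x), X.h.Γ_H hσ, X.h.Γ_H hσ, X.h.Γ_comm (X.h.φ σ x) (χ (j + j₀))]
    exact this
  rw [integral_const_mul] at key
  refine le_of_mul_le_mul_left (key.trans ?_) hσ
  simp only [Pi.add_apply]
  rw [integral_add (i₁.const_mul _) (i₂.const_mul _), integral_const_mul, integral_const_mul]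
  change (B + 5 * A) * X.h.P t (X.h.Γ f f) x + 2 * A * σ * X.h.P t (fun y => X.h.Δ f y ^ 2) x ≤ _
  have e : X.h.P t (X.h.Γ f f) x = δ * t * (X.h.P t (X.h.Γ f f) x / t) / δ := by
    have := ht.1.ne'
    field_simp
  have hq := div_nonneg hPΓ ht.1.le
  rw [e]
  generalize X.h.P t (X.h.Γ f f) x / t = p at hq ⊢
  rw [show δ * t * p / δ / t = p by have := ht.1.ne'; field_simp]
  have k₁ := mul_le_mul_of_nonneg_right hδσ (mul_nonneg hq (show 0 ≤ (B + 5 * A) / δ by positivity))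
  have k₂ := mul_nonneg (mul_nonneg hσ.le hPΔ) (show 0 ≤ (B + 5 * A) / δ by positivity)
  have k₃ := mul_nonneg (mul_nonneg hσ.le hq) (show 0 ≤ A by positivity)
  have k₄ : (B + 5 * A) * (δ * t * p / δ) = δ * t * (p * ((B + 5 * A) / δ)) := by ring
  rw [k₄]
  linarith

/-- `Γ2(u ξ) ≤ 2Γ2(w) + 2Γ2(w - u ξ)`, `H_dom`, `wp_Γ2`, `Γ2_avg`, `hyp_weight` and `κ_bounds` for `Δ u ξ`. -/
theorem pair_Q (n : ℕ) (hn : 1 ≤ n) (γ R K δ₂ : ℝ) (hγ : 0 < γ) (hγ' : γ ≤ 1 / 2) (hδ : 0 < δ₂) :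
    ∃ C e₀ : ℝ, 0 < C ∧ 0 < e₀ ∧ ∀ (X : Sp.{u} n) (c : Crd X) (x z : X.M) {s₀ T₁ e t κ : ℝ} {ξ : V n},
      e ≤ e₀ → c.PH x z s₀ T₁ e γ R t κ → s₀ ≤ t → c.Pair x z t K κ ξ →
      ∀ σ, δ₂ * t ≤ σ → 10 ^ 6 * σ ≤ t → qf (c.Q σ x) ξ ≤ C * κ := by
  obtain ⟨Cd, hCd, hd⟩ := H_dom.{u} n 0 δ₂ hδ
  obtain ⟨Cw, hCw, hw⟩ := wp_Γ2.{u} n hn R 0
  obtain ⟨Ca, hCa, ha⟩ := Γ2_avg.{u} n δ₂ hδ
  obtain ⟨Ch, e₁, hCh, he₁, hh⟩ := hyp_weight.{u} n
  obtain ⟨Cb, hCb, hb⟩ := wp_bounds.{u} n R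
  refine ⟨2 * (Cd * Cw) + 2 * (Ca * (|K| + (2 * n * Cw + 2 * (Ch * |K|)))), min e₁ 1, by positivity, by positivity,
    fun X c x z s₀ T₁ e t κ ξ he h hs hp σ hδσ hσt => ?_⟩
  have hx := h.hx.toHyp
  have he1 : e ≤ 1 := he.trans (min_le_right _ _)
  have ht : 0 < t := hx.s₀_pos.trans_le hs
  have hT : t ≤ 10 ^ 5 * T₁ := by linarith [h.t_le, hx.T₁_pos]
  obtain ⟨t1, ok, -⟩ := hx.times he1 ht hT
  obtain ⟨k1, k2, -, k3, -⟩ := hx.κ_bounds he1 hγ hγ' ht h.t_le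
  have hκ : 0 ≤ κ := k3.le.trans h.κx
  have hσ : 0 < σ := lt_of_lt_of_le (mul_pos hδ ht) hδσ
  have hσT : σ ∈ Ioc 0 (2 * c.T) := ⟨hσ, by linarith [c.T_pos]⟩
  obtain ⟨w1, -, w2, -⟩ := hb X ok x z h.dist_le
  obtain ⟨w3, w4⟩ := hw X ok hκ x z h.dist_le h.Kx h.Kz
  simp only [zero_mul, zero_div, Real.exp_zero, mul_one] at w3 w4
  have hu := c.u_S ξ
  have hf := X.h.S_sub w1 hu
  have hH := X.h.H_cont ht x
  have H0 := X.h.H_nonneg ht x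
  have hΔ : ∀ y, X.h.Δ (fun y => X.h.wp t x z y - c.u ξ y) y ^ 2 ≤
      2 * n * X.h.Γ2 (X.h.wp t x z) (X.h.wp t x z) y + 2 * (Ch * |K| * κ) := fun y => by
    have a1 := X.h.Δ_sub_sq_le w1 0 y
    rw [X.h.D_zero, mul_zero, sub_zero] at a1
    have a2 : t * X.h.Δ (c.u ξ) y ^ 2 ≤ _ := (hh X c x (he.trans (min_le_left _ _)) hx t ⟨hs, hT⟩ c.T
      ⟨by linarith, by linarith⟩ ξ y).2.2.2 h.t_le
    have a3 : Ch * e ^ 2 * Real.sqrt (t / T₁) * qf (c.G t x) ξ ≤ Ch * 1 * κ * (|K| * t) := by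
      have a4 : 0 ≤ qf (c.G t x) ξ := by
        rw [c.qf_G ht]; exact X.h.P_nonneg ht x (X.h.Γ_nonneg _)
      gcongr
      · exact pow_le_one₀ hx.e_pos.le he1
      · exact (k1.trans k2).trans h.κx
      · exact hp.size.trans (mul_le_mul_of_nonneg_right (le_abs_self K) ht.le)
    have a4 : X.h.Δ (c.u ξ) y ^ 2 ≤ Ch * |K| * κ :=
      le_of_mul_le_mul_left ((a2.trans a3).trans_eq (by ring)) ht
    rw [X.h.Δ_sub w1 hu]
    nlinarith [sq_nonneg (X.h.Δ (X.h.wp t x z) y + X.h.Δ (c.u ξ) y)]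
  have j₁ : Integrable (fun y => X.h.H t x y * (2 * n * X.h.Γ2 (X.h.wp t x z) (X.h.wp t x z) y)) X.h.m :=
    (w3.const_mul (2 * n)).congr (Eventually.of_forall fun y => by ring)
  have j₂ := (X.h.H_int ht x).1.mul_const (2 * (Ch * |K| * κ))
  have j₃ : Integrable (fun y => X.h.H t x y * (2 * n * X.h.Γ2 (X.h.wp t x z) (X.h.wp t x z) y +
      2 * (Ch * |K| * κ))) X.h.m := (j₁.add j₂).congr (Eventually.of_forall fun y => by simp only [Pi.add_apply]; ring)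
  have i₂ : Integrable (fun y => X.h.H t x y * X.h.Δ (fun y => X.h.wp t x z y - c.u ξ y) y ^ 2) X.h.m :=
    j₃.mono' (hH.mul ((X.h.S_cont (X.h.S_Δ hf)).pow 2)).aestronglyMeasurable (Eventually.of_forall fun y => by
      rw [Real.norm_of_nonneg (mul_nonneg (H0 y) (sq_nonneg _))]
      exact mul_le_mul_of_nonneg_left (hΔ y) (H0 y))
  have i₁ : Integrable (fun y => X.h.H t x y * X.h.Γ (fun y => X.h.wp t x z y - c.u ξ y)
      (fun y => X.h.wp t x z y - c.u ξ y) y) X.h.m := by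
    refine (((w2.bd ok).2.1.const_mul 2).add ((X.h.int_L2 ht x ((c.u_nice ξ).1.Γ_bd (c.u_nice ξ).1).1).const_mul
      2)).mono' (hH.mul (X.h.S_cont (X.h.S_Γ hf hf))).aestronglyMeasurable (Eventually.of_forall fun y => ?_)
    rw [Real.norm_of_nonneg (mul_nonneg (H0 y) (X.h.Γ_nonneg _ y))]
    exact (mul_le_mul_of_nonneg_left (X.h.Γ_sub_le w1 hu y) (H0 y)).trans_eq (by simp only [Pi.add_apply]; ring)
  obtain ⟨i₃, b₁⟩ := ha X x ok hδσ hσt hf i₁ i₂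
  have b₂ := X.h.P_mono ht i₂ j₃ hΔ
  rw [X.h.P_add j₁ j₂, X.h.P_cmul, X.h.P_const ht] at b₂
  have b₃ : X.h.P t (X.h.Γ (fun y => X.h.wp t x z y - c.u ξ y) fun y => X.h.wp t x z y - c.u ξ y) x / t ≤
      |K| * κ := by
    rw [div_le_iff₀ ht]
    nlinarith [hp.grad, mul_le_mul_of_nonneg_right (le_abs_self K) (mul_nonneg ht.le hκ)]
  rw [c.qf_Q hσT]
  have b₄ : X.h.P σ (X.h.Γ2 (c.u ξ) (c.u ξ)) x ≤ ∫ y, (2 * Cd * (X.h.H t x y *
      X.h.Γ2 (X.h.wp t x z) (X.h.wp t x z) y) + 2 * (X.h.H σ x y * X.h.Γ2 (fun y => X.h.wp t x z y - c.u ξ y)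
        (fun y => X.h.wp t x z y - c.u ξ y) y)) ∂X.h.m := by
    refine integral_mono (c.HΓ2_int hσT x ξ ξ 0).1 ((w3.const_mul _).add (i₃.const_mul _)) fun y => ?_
    have a1 := X.h.Γ2_sub_le w1 hf 0 y
    simp only [X.h.D_zero, sub_sub_cancel] at a1
    have a2 := hd X (s := σ) ok hδσ (by linarith) x y
    rw [zero_mul, zero_div, Real.exp_zero, mul_one] at a2
    have a3 := mul_le_mul_of_nonneg_left a1 (X.h.H_nonneg hσ x y)
    have a4 := mul_le_mul_of_nonneg_right a2 (X.h.Γ2_nonneg w1 y)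
    simp only
    linarith
  rw [integral_add (w3.const_mul _) (i₃.const_mul _), integral_const_mul, integral_const_mul] at b₄
  have b₅ := mul_le_mul_of_nonneg_left w4 (show 0 ≤ 2 * Cd by positivity)
  have b₆ := mul_le_mul_of_nonneg_left w4 (show (0 : ℝ) ≤ 2 * n by positivity)
  have b₇ := b₁.trans (mul_le_mul_of_nonneg_left (add_le_add b₃ (b₂.trans (add_le_add b₆ le_rfl))) hCa.le)
  refine (b₄.trans (add_le_add b₅ (mul_le_mul_of_nonneg_left b₇ zero_le_two))).trans_eq (by ring)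

end Crest.Agent.R247
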