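import Crest.Agent.R247.S4
import Crest.Agent.R247.S7AuxB

/-! # Row 247, S5: identification of the linear part, lower bound -/

set_option autoImplicit false
set_option linter.unusedSectionVars false
set_option linter.unusedVariables false
open MeasureTheory Filter Set Metric Matrix
open scoped ENNReal NNReal Topology ContDiff
open Crest.GeometryTopology.CoordMetric

noncomputable section
namespace Crest.Agent.R247
universe u

variable {n : ℕ}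

lemma s5a_move {X : Sp.{u} n} {x : X.M} {t : ℝ} {f : X.M → ℝ} (h : CG x t f) (z : X.M) : CG z t f := by
  obtain ⟨hc, B, R, hG⟩ := h
  refine ⟨hc, B * Real.exp (|R| * dist x z / Real.sqrt t), |R|, fun y => (hG y).trans ?_⟩
  have hB : 0 ≤ B := by
    have := (abs_nonneg _).trans (hG y)
    exact nonneg_of_mul_nonneg_left this (Real.exp_pos _)
  rw [mul_assoc, ← Real.exp_add, ← add_div, ← mul_add]
  refine mul_le_mul_of_nonneg_left (Real.exp_le_exp.2 (div_le_div_of_nonneg_right ?_ (Real.sqrt_nonneg _))) hB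
  exact (mul_le_mul_of_nonneg_right (le_abs_self R) dist_nonneg).trans
    (mul_le_mul_of_nonneg_left (dist_triangle x z y) (abs_nonneg R))

lemma s5a_cs {X : Sp.{u} n} {x : X.M} {t : ℝ} (ht : 0 < t) {f g : X.M → ℝ} (hf : X.h.S f) (hg : X.h.S g)
    (if' : Integrable (fun y => X.h.H t x y * X.h.Γ f f y) X.h.m)
    (ig : Integrable (fun y => X.h.H t x y * X.h.Γ g g y) X.h.m) :
    Integrable (fun y => X.h.H t x y * X.h.Γ f g y) X.h.m ∧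
      X.h.P t (X.h.Γ f g) x ^ 2 ≤ X.h.P t (X.h.Γ f f) x * X.h.P t (X.h.Γ g g) x := by
  have cf := X.h.S_cont (X.h.S_Γ hf hf)
  have cg := X.h.S_cont (X.h.S_Γ hg hg)
  have e1 : (fun y => Real.sqrt (X.h.Γ f f y) ^ 2) = X.h.Γ f f :=
    funext fun y => Real.sq_sqrt (X.h.Γ_nonneg f y)
  have e2 : (fun y => Real.sqrt (X.h.Γ g g y) ^ 2) = X.h.Γ g g :=
    funext fun y => Real.sq_sqrt (X.h.Γ_nonneg g y)
  obtain ⟨i, h⟩ := X.h.P_cs ht (x := x) cf.sqrt.aestronglyMeasurable cg.sqrt.aestronglyMeasurable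
    (by simpa only [Real.sq_sqrt (X.h.Γ_nonneg f _)] using if')
    (by simpa only [Real.sq_sqrt (X.h.Γ_nonneg g _)] using ig)
  rw [e1, e2] at h
  refine ⟨i.mono' ((X.h.H_cont ht x).mul (X.h.S_cont (X.h.S_Γ hf hg))).aestronglyMeasurable
    (Eventually.of_forall fun y => ?_), ?_⟩
  · rw [Real.norm_eq_abs, abs_mul, abs_of_nonneg (X.h.H_nonneg ht x y)]
    exact mul_le_mul_of_nonneg_left (X.h.abs_Γ_le f g y) (X.h.H_nonneg ht x y)
  · have h2 := (X.h.abs_P_le_P ht i (f := X.h.Γ f g) fun y => X.h.abs_Γ_le f g y).trans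
      ((le_abs_self _).trans h)
    have p1 := X.h.P_nonneg ht x (X.h.Γ_nonneg f)
    have p2 := X.h.P_nonneg ht x (X.h.Γ_nonneg g)
    calc _ = |X.h.P t (X.h.Γ f g) x| ^ 2 := (sq_abs _).symm
      _ ≤ (Real.sqrt (X.h.P t (X.h.Γ f f) x) * Real.sqrt (X.h.P t (X.h.Γ g g) x)) ^ 2 :=
        pow_le_pow_left₀ (abs_nonneg _) h2 2
      _ = _ := by rw [mul_pow, Real.sq_sqrt p1, Real.sq_sqrt p2]

lemma s5a_lin {G J : Mat n} (hG : G.PosSemidef) {t : ℝ} (ht : 0 < t) {η ζ : V n}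
    (h : J *ᵥ ζ = (2 * t) • G *ᵥ η) (hJ : |qf J ζ - 2 * t * qf G ζ| ≤ 1 / 2 * (2 * t * qf G ζ)) :
    qf G ζ ≤ 4 * qf G η := by
  have e : qf J ζ = 2 * t * bf G ζ η := by
    rw [qf, h, dotProduct_smul, smul_eq_mul, bf]
  have h1 := (abs_le.1 hJ).1
  have h2 := (le_abs_self _).trans (MC.abs_bf_le hG ζ η)
  rw [e] at h1
  have h3 : qf G ζ ≤ 2 * bf G ζ η := by
    by_contra hc
    have := mul_pos ht (sub_pos.2 (not_le.1 hc))
    nlinarith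
  rw [← MC.sn_sq hG, ← MC.sn_sq hG] at *
  nlinarith [sq_nonneg (MC.sn G ζ - 2 * MC.sn G η)]

lemma s5a_uCG {X : Sp.{u} n} (c : Crd X) (x : X.M) (t : ℝ) (ξ : V n) : CG x t (c.u ξ) := by
  obtain ⟨B, hB⟩ := (c.u_nice ξ).1.2
  exact CG.of_bdd (X.h.S_cont (c.u_S ξ)) fun y => (hB y).1

lemma s5a_ΓuCG {X : Sp.{u} n} (c : Crd X) (x : X.M) (t : ℝ) (ξ : V n) :
    CG x t (X.h.Γ (c.u ξ) (c.u ξ)) := by
  obtain ⟨B, hB⟩ := (c.u_nice ξ).1.2
  exact CG.of_bdd (X.h.S_cont (X.h.S_Γ (c.u_S ξ) (c.u_S ξ))) (B := B) fun y => by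
    rw [abs_of_nonneg (X.h.Γ_nonneg _ y)]; exact (hB y).2

/-- The density `F = H_x / H_z` and the integration by parts. -/
lemma s5a_F {X : Sp.{u} n} (c : Crd X) {x z : X.M} {t C : ℝ} (ht : X.h.ok t) {w : X.M → ℝ}
    (hS : X.h.S w) (hΓ : CG x t (X.h.Γ w w))
    (hH : ∀ y, X.h.H t x y = X.h.H t z y * Real.exp (w y / (2 * t)))
    (hle : ∀ y, X.h.H t x y ≤ C * Real.exp (C * dist z y / Real.sqrt t) * X.h.H t z y)
    {F : X.M → ℝ} (hF : F = fun y => Real.exp (w y / (2 * t))) :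
    CG z t F ∧ Gr z t (C ^ 2) (2 * C) (fun y => F y ^ 2) ∧
      (∀ η, 2 * t * X.h.P t (fun y => F y * X.h.L t z (c.u η) y) z = X.h.P t (X.h.Γ (c.u η) w) x) ∧
      ∀ ζ, X.h.Cov t z F (c.u ζ) = c.U (t + c.T) ζ x - c.U (t + c.T) ζ z := by
  have t0 := ht.1
  have hφ : ContDiffOn ℝ ∞ (fun r : ℝ => Real.exp (r / (2 * t))) univ :=
    (Real.contDiff_exp.comp (contDiff_id.div_const _)).contDiffOn
  have hd : ∀ r : ℝ, deriv (fun r : ℝ => Real.exp (r / (2 * t))) r = Real.exp (r / (2 * t)) / (2 * t) :=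
    fun r => by
      simp [div_eq_mul_inv]
  have FS : X.h.S F := by
    rw [hF]
    exact X.h.S_comp (φ := fun r : ℝ => Real.exp (r / (2 * t))) hS isOpen_univ hφ fun _ => trivial
  have FΓ : ∀ (g : X.M → ℝ) y, X.h.Γ F g y = F y / (2 * t) * X.h.Γ w g y := fun g y => by
    rw [hF, X.h.Γ_comp_left hS isOpen_univ hφ (fun _ => trivial), hd]
  have F0 : ∀ y, 0 < F y := fun y => hF ▸ Real.exp_pos _
  have hHF : ∀ y, X.h.H t z y * F y = X.h.H t x y := fun y => by rw [hH y, hF]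
  have Fle : ∀ y, F y ≤ C * Real.exp (C * dist z y / Real.sqrt t) := fun y => by
    have := hle y
    rw [← hHF y, mul_comm] at this
    exact le_of_mul_le_mul_right this (X.h.H_pos t0 z y)
  have FCG : CG z t F := ⟨X.h.S_cont FS, C, C, fun y => by rw [abs_of_pos (F0 y)]; exact Fle y⟩
  refine ⟨FCG, fun y => ?_, fun η => ?_, fun ζ => ?_⟩
  · rw [abs_of_nonneg (sq_nonneg _)]
    refine (pow_le_pow_left₀ (F0 y).le (Fle y) 2).trans (le_of_eq ?_)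
    rw [mul_pow, ← Real.exp_nat_mul]
    congr 2
    push_cast
    ring
  · have hL := L_CG X z ht (c.u_nice η).1 (c.u_nice η).2
    have h₂ : CG z t (X.h.Γ F F) := by
      have e : X.h.Γ F F = fun y => (1 / (2 * t)) ^ 2 * ((F y * F y) * X.h.Γ w w y) := funext fun y => by
        rw [FΓ, X.h.Γ_comm, FΓ]; ring
      rw [e]
      exact ((FCG.mul FCG).mul (s5a_move hΓ z)).cmul _
    have h₄ : CG z t (X.h.Δ (c.u η)) := by
      obtain ⟨B, hB⟩ := (c.u_nice η).2.2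
      exact CG.of_bdd (X.h.S_cont (X.h.S_Δ (c.u_S η))) fun y => (hB y).1
    rw [← ibp_H X z t0 (c.u_S η) FS (FCG.bd ht).2.2 (h₂.bd ht).2.1 ((s5a_ΓuCG c z t η).bd ht).2.1
      (h₄.bd ht).2.2 (hL.2.2.1.bd ht).2.2]
    simp only [HS.P, kerP]
    rw [← integral_const_mul]
    refine integral_congr_ae (Eventually.of_forall fun y => ?_)
    simp only
    rw [X.h.Γ_comm, FΓ, X.h.Γ_comm, ← hHF]
    field_simp
  · have e1 : X.h.P t F z = 1 := by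
      simp only [HS.P, kerP, hHF]
      exact X.h.int_H t0 x
    have e2 : X.h.P t (fun y => F y * c.u ζ y) z = X.h.P t (c.u ζ) x := by
      simp only [HS.P, kerP, ← mul_assoc, hHF]
    rw [HS.Cov, e1, e2, one_mul, Crd.u, (c.P_U t0 c.T_pos ζ).1]

lemma s5a_times {X : Sp.{u} n} {c : Crd X} {x z : X.M} {s₀ T₁ e γ R t κ δ : ℝ}
    (h : c.PH x z s₀ T₁ e γ R t κ) (hγ : 0 < γ) (hγ' : γ ≤ 1 / 2) (he : e ≤ 1) (hδ : 0 < δ) (hδ1 : δ ≤ 1)
    (hs : s₀ ≤ δ * t) : 0 < t ∧ s₀ ≤ t ∧ t ≤ 10 ^ 5 * T₁ ∧ t ≤ c.T / 10 ∧ X.h.ok t ∧ 0 < κ ∧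
      Real.sqrt (t / T₁) ≤ κ := by
  have s0 := h.hx.s₀_pos
  have T0 := h.hx.T₁_pos
  have t0 : 0 < t := pos_of_mul_pos_left (s0.trans_le (hs.trans_eq (mul_comm _ _))) hδ.le
  have tT : t ≤ 10 ^ 5 * T₁ := by linarith [h.t_le]
  obtain ⟨a1, a2, -⟩ := h.hx.toHyp.times he t0 tT
  obtain ⟨b1, b2, -, b3, -⟩ := h.hx.toHyp.κ_bounds he hγ hγ' t0 h.t_le
  exact ⟨t0, by nlinarith, tT, a1, a2, b3.trans_le h.κx, b1.trans (b2.trans h.κx)⟩

/-- Recipe: `F = exp(wp/2t) = H_x/H_z`; `2t P^z(F L_z u η) = 2t P^z Γ(u η, F) = P^x Γ(u η, wp) = G_x(η,ξ) + O` (`ibp_H`, `Pair.grad`); `beta_cor` at `z`;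
`Cov^z(F, u ζ) = U (t+T) ζ x - U (t+T) ζ z = -ζ·a + O` (`P_U`, `U_shift`, `hyp_small`), `G_z(ζ) ≤ 4 G_z(η)` (`JG`, `ν = 1/2`), `G_cmp`. -/
theorem ident_half (n : ℕ) (hn : 1 ≤ n) (γ R K : ℝ) (hγ : 0 < γ) (hγ' : γ ≤ 1 / 2) : ∃ C δ e₀ : ℝ,
    0 < C ∧ 0 < δ ∧ δ ≤ 1 ∧ 0 < e₀ ∧ ∀ (X : Sp.{u} n) (c : Crd X) (x z : X.M) {s₀ T₁ e t κ : ℝ}
      {ξ : V n}, e ≤ e₀ → c.PH x z s₀ T₁ e γ R t κ → s₀ ≤ δ * t → c.Pair x z t K κ ξ → ∀ η ζ,
      c.J t z *ᵥ ζ = (2 * t) • c.G t z *ᵥ η →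
      (bf (c.G t x) η ξ + ζ ⬝ᵥ (c.uv z - c.uv x)) ^ 2 ≤ C * t * κ * qf (c.G t x) η := by
  obtain ⟨C₁, hC₁, hw⟩ := wp_bounds.{u} n R
  obtain ⟨C₂, hC₂, hgr⟩ := P_gr.{u} n (2 * C₁)
  obtain ⟨C₃, e₃, hC₃, he₃, hbeta⟩ := beta_cor.{u} n hn γ hγ hγ'
  obtain ⟨C₄, e₄, hC₄, he₄, hcmp⟩ := G_cmp.{u} n R
  obtain ⟨C₅, hC₅, hsh⟩ := U_shift.{u} n
  obtain ⟨δ, e₆, hδ, hδ1, he₆, hJG⟩ := JG.{u} n (1 / 2) (by norm_num)
  obtain ⟨e₇, he₇, hsm⟩ := hyp_small.{u} n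
  refine ⟨4 * (|K| + C₃ * (C₂ * C₁ ^ 2) * C₄ + 8 * C₅ * C₄), δ, min (min e₃ e₄) (min (min e₆ e₇) 1),
    by positivity, hδ, hδ1, by positivity, fun X c x z s₀ T₁ e t κ ξ he h hs hP η ζ hζ => ?_⟩
  simp only [le_min_iff] at he
  obtain ⟨⟨l3, l4⟩, ⟨l6, l7⟩, l1⟩ := he
  obtain ⟨t0, st, tT, tT', ok, κ0, κs⟩ := s5a_times h hγ hγ' l1 hδ hδ1 hs
  have T0 := c.T_pos
  have e0 := h.hx.e_pos
  obtain ⟨wS, -, wΓ, wb⟩ := hw X ok x z h.dist_le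
  obtain ⟨FCG, FG, F1, F2⟩ := s5a_F c ok wS wΓ (fun y => (wb y).2.2.2.1) (fun y => (wb y).2.2.2.2) rfl
  set F : X.M → ℝ := fun y => Real.exp (X.h.wp t x z y / (2 * t)) with hF
  set w := X.h.wp t x z
  obtain ⟨Jpd, hJ⟩ := hJG X c z l6 h.hz.toHyp hs h.t_le
  have gx := MC.psd_qf (c.G_psd t0 x) η
  have gz := MC.psd_qf (c.G_psd t0 z) η
  have cmp := hcmp X c x l4 h.hx.toHyp t ⟨st, tT⟩ z h.dist_le η
  have lin := s5a_lin (c.G_psd t0 z) t0 hζ (hJ ζ)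
  -- first error
  have vS := X.h.S_sub wS (c.u_S ξ)
  have vCG : CG x t (X.h.Γ (fun y => w y - c.u ξ y) (fun y => w y - c.u ξ y)) :=
    ((wΓ.cmul 2).add ((s5a_ΓuCG c x t ξ).cmul 2)).of_le (X.h.S_cont (X.h.S_Γ vS vS)) fun y => by
      rw [abs_of_nonneg (X.h.Γ_nonneg _ y)]
      exact (X.h.Γ_sub_le wS (c.u_S ξ) y).trans (le_abs_self _)
  have iη := ((s5a_ΓuCG c x t η).bd ok).2.1
  obtain ⟨-, E1⟩ := s5a_cs t0 (c.u_S η) vS iη (vCG.bd ok).2.1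
  have d1 : X.h.P t (X.h.Γ (c.u η) fun y => w y - c.u ξ y) x =
      X.h.P t (X.h.Γ (c.u η) w) x - bf (c.G t x) η ξ := by
    rw [c.bf_G t0, ← X.h.P_sub (s5a_cs t0 (c.u_S η) wS iη (wΓ.bd ok).2.1).1
      (s5a_cs t0 (c.u_S η) (c.u_S ξ) iη ((s5a_ΓuCG c x t ξ).bd ok).2.1).1]
    congr 1
    funext y
    rw [X.h.Γ_comm, X.h.Γ_sub_left wS (c.u_S ξ), X.h.Γ_comm w, X.h.Γ_comm (c.u ξ)]
  rw [d1, ← c.qf_G t0] at E1
  have E1' : (X.h.P t (X.h.Γ (c.u η) w) x - bf (c.G t x) η ξ) ^ 2 ≤ |K| * (t * κ * qf (c.G t x) η) := by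
    refine E1.trans ((mul_le_mul_of_nonneg_left hP.grad gx).trans ?_)
    have := mul_le_mul_of_nonneg_right (le_abs_self K) (by positivity : 0 ≤ t * κ * qf (c.G t x) η)
    linarith
  -- second error
  have E2 := hbeta X c z l3 h.hz ⟨st, h.t_le⟩ Jpd FCG η ζ hζ
  rw [F1, F2] at E2
  have P2 := (le_abs_self _).trans (hgr X t0 (by linarith) (by linarith [ok.2]) z z
    (f := fun y => F y ^ 2) (FCG.1.pow 2).aestronglyMeasurable FG).2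
  simp only [dist_self, mul_zero, zero_div, Real.exp_zero, mul_one] at P2
  have κz0 := (h.hz.toHyp.κ_bounds l1 hγ hγ' t0 h.t_le).2.2.2.1
  have E2' : (X.h.P t (X.h.Γ (c.u η) w) x - (c.U (t + c.T) ζ x - c.U (t + c.T) ζ z)) ^ 2 ≤
      C₃ * (C₂ * C₁ ^ 2) * C₄ * (t * κ * qf (c.G t x) η) := by
    refine E2.trans ?_
    calc _ ≤ C₃ * (t * (C₄ * qf (c.G t x) η) * κ) * (C₂ * C₁ ^ 2) := by
          have := h.κz
          gcongr
          exact X.h.P_nonneg t0 z fun y => sq_nonneg _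
      _ = _ := by ring
  -- third error
  have E3 : ∀ y, (c.U (t + c.T) ζ y - c.u ζ y) ^ 2 ≤ 4 * C₅ * C₄ * (t * κ * qf (c.G t x) η) := fun y => by
    have a := (hsh X c (t + c.T) ⟨by linarith, by linarith⟩ c.T ⟨by linarith, by linarith⟩ ζ y).1
    have b := ((hsm X c z l7 h.hz.toHyp t ⟨st, tT⟩).2 ζ).2.1 h.t_le
    have gζ := MC.psd_qf (c.G_psd t0 z) ζ
    have b' : t / c.T * (ζ ⬝ᵥ ζ) ≤ 1 * κ * (4 * (C₄ * qf (c.G t x) η)) := by
      refine b.trans ?_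
      have : e ^ 2 ≤ 1 := by nlinarith
      have : qf (c.G t z) ζ ≤ 4 * (C₄ * qf (c.G t x) η) := by linarith
      gcongr
    rw [add_sub_cancel_right] at a
    have a' : (c.U (t + c.T) ζ y - c.u ζ y) ^ 2 ≤ C₅ * t * (t / c.T * (ζ ⬝ᵥ ζ)) := by
      refine le_of_mul_le_mul_left ?_ T0
      refine a.trans (le_of_eq ?_)
      field_simp
    refine a'.trans ((mul_le_mul_of_nonneg_left b' (by positivity)).trans (le_of_eq ?_))
    ring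
  have E3x := E3 x
  have E3z := E3 z
  rw [dotProduct_sub, ← c.u_dot, ← c.u_dot]
  generalize X.h.P t (X.h.Γ (c.u η) w) x = p at *
  generalize c.U (t + c.T) ζ x = a at *
  generalize c.U (t + c.T) ζ z = b at *
  generalize c.u ζ x = a' at *
  generalize c.u ζ z = b' at *
  generalize bf (c.G t x) η ξ = g at *
  have key : ∀ u₁ u₂ u₃ u₄ : ℝ, (-u₁ + u₂ + u₃ - u₄) ^ 2 ≤ 4 * (u₁ ^ 2 + u₂ ^ 2 + u₃ ^ 2 + u₄ ^ 2) := by
    intro u₁ u₂ u₃ u₄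
    nlinarith [sq_nonneg (u₁ + u₂), sq_nonneg (u₁ + u₃), sq_nonneg (u₁ - u₄), sq_nonneg (u₂ - u₃),
      sq_nonneg (u₂ + u₄), sq_nonneg (u₃ + u₄)]
  have := key (p - g) (p - (a - b)) (a - a') (b - b')
  calc _ = (-(p - g) + (p - (a - b)) + (a - a') - (b - b')) ^ 2 := by ring
    _ ≤ _ := by linarith

/-- `wp t z x = -wp t x z`; `spread` for `η = ξ + ξ'`; on the ball `H_x ≤ C H_z` (`wp_bounds`). -/
theorem xi_match (n : ℕ) (γ R K : ℝ) (hγ : 0 < γ) (hγ' : γ ≤ 1 / 2) : ∃ C δ e₀ : ℝ,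
    0 < C ∧ 0 < δ ∧ δ ≤ 1 ∧ 0 < e₀ ∧ ∀ (X : Sp.{u} n) (c : Crd X) (x z : X.M) {s₀ T₁ e t κ : ℝ}
      {ξ ξ' : V n}, e ≤ e₀ → c.PH x z s₀ T₁ e γ R t κ → s₀ ≤ δ * t → c.Pair x z t K κ ξ →
      c.Pair z x t K κ ξ' → qf (c.G t x) (ξ + ξ') ≤ C * t * κ := by
  obtain ⟨R₁, δ, e₀, hR₁, hδ, hδ1, he₀, hsp⟩ := spread.{u} n
  obtain ⟨C, hC, hw⟩ := wp_bounds.{u} n R
  obtain ⟨A, hA⟩ : ∃ A, A = C * Real.exp (C * (|R| + R₁)) := ⟨_, rfl⟩
  have A0 : 0 < A := by rw [hA]; positivity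
  refine ⟨4 * (|K| + 1) * (1 + A), δ, min e₀ 1, by positivity, hδ, hδ1, by positivity,
    fun X c x z s₀ T₁ e t κ ξ ξ' he h hs hP hP' => ?_⟩
  obtain ⟨l0, l1⟩ := le_min_iff.1 he
  obtain ⟨t0, st, tT, tT', ok, κ0, -⟩ := s5a_times h hγ hγ' l1 hδ hδ1 hs
  obtain ⟨c₀, h₀⟩ := hP.val
  obtain ⟨c₁, h₁⟩ := hP'.val
  obtain ⟨-, wC, -, wb⟩ := hw X ok x z h.dist_le
  obtain ⟨-, wC', -, -⟩ := hw X ok z x h.symm.dist_le
  have i₀ := (((wC.sub (CG.const x t c₀)).sub (s5a_uCG c x t ξ)).bd ok).2.2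
  have i₁ := (((wC'.sub (CG.const z t c₁)).sub (s5a_uCG c z t ξ')).bd ok).2.2
  have sp := hsp X c x l0 h.hx.toHyp hs h.t_le (ξ + ξ') (-(c₀ + c₁))
  have st0 := Real.sqrt_pos.2 t0
  have iD := (i₀.const_mul 2).add (i₁.const_mul (2 * A))
  have m1 : ∫ y in closedBall x (R₁ * Real.sqrt t), X.h.H t x y * (c.u (ξ + ξ') y - -(c₀ + c₁)) ^ 2 ∂X.h.m ≤
      ∫ y in closedBall x (R₁ * Real.sqrt t), (2 * (X.h.H t x y * (X.h.wp t x z y - c₀ - c.u ξ y) ^ 2) +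
        2 * A * (X.h.H t z y * (X.h.wp t z x y - c₁ - c.u ξ' y) ^ 2)) ∂X.h.m := by
    refine integral_mono_of_nonneg
      (Eventually.of_forall fun y => mul_nonneg (X.h.H_nonneg t0 x y) (sq_nonneg _)) iD.integrableOn
      (ae_restrict_of_forall_mem measurableSet_closedBall fun y hy => ?_)
    have Hz := X.h.H_nonneg t0 z y
    have Hx := X.h.H_nonneg t0 x y
    have hH : X.h.H t x y ≤ A * X.h.H t z y := by
      refine (wb y).2.2.2.2.trans ?_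
      rw [hA]
      gcongr
      rw [div_le_iff₀ st0, mul_assoc]
      refine mul_le_mul_of_nonneg_left ?_ hC.le
      have d1 := dist_triangle z x y
      have d2 := h.symm.dist_le
      have d3 : dist x y ≤ R₁ * Real.sqrt t := by rw [dist_comm]; exact mem_closedBall.1 hy
      have d4 := mul_le_mul_of_nonneg_right (le_abs_self R) st0.le
      linarith
    have e1 : X.h.wp t z x y = -X.h.wp t x z y := by simp only [HS.wp]; ring
    simp only [c.u_add, e1]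
    have k1 := mul_le_mul_of_nonneg_right hH (sq_nonneg (-X.h.wp t x z y - c₁ - c.u ξ' y))
    have k2 : (c.u ξ y + c.u ξ' y - -(c₀ + c₁)) ^ 2 ≤
        2 * (X.h.wp t x z y - c₀ - c.u ξ y) ^ 2 + 2 * (-X.h.wp t x z y - c₁ - c.u ξ' y) ^ 2 := by
      nlinarith [sq_nonneg ((X.h.wp t x z y - c₀ - c.u ξ y) - (-X.h.wp t x z y - c₁ - c.u ξ' y))]
    have k3 := mul_le_mul_of_nonneg_left k2 Hx
    linarith
  have m2 := setIntegral_le_integral (s := closedBall x (R₁ * Real.sqrt t)) iD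
    (Eventually.of_forall fun y => add_nonneg
      (mul_nonneg zero_le_two (mul_nonneg (X.h.H_nonneg t0 x y) (sq_nonneg _)))
      (mul_nonneg (by positivity) (mul_nonneg (X.h.H_nonneg t0 z y) (sq_nonneg _))))
  simp only [Pi.add_apply] at m2
  rw [integral_add (i₀.const_mul 2) (i₁.const_mul (2 * A)), integral_const_mul, integral_const_mul] at m2
  simp only [HS.P, kerP] at h₀ h₁
  have k := mul_le_mul_of_nonneg_left h₁ A0.le
  have kK : K * t ^ 2 * κ ≤ (|K| + 1) * t ^ 2 * κ := by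
    have := le_abs_self K
    gcongr
    linarith
  have k' := mul_le_mul_of_nonneg_left kK A0.le
  refine le_of_mul_le_mul_left ?_ t0
  nlinarith

theorem s5b_dual {n : ℕ} {G : Mat n} (hG : G.PosDef) {W : ℝ} (hW : 0 ≤ W) {v : V n}
    (h : ∀ η, (η ⬝ᵥ v) ^ 2 ≤ W * qf G η) : MC.sn G⁻¹ v ≤ √W :=
  MC.sn_inv_le_of_dual hG (Real.sqrt_nonneg _) fun η => by
    rw [MC.sn, ← Real.sqrt_mul hW]
    exact Real.le_sqrt_of_sq_le (h η)

theorem s5b_dot {n : ℕ} {G J : Mat n} (hG : G.PosDef) (hJ : J.PosDef) (t : ℝ) (η a : V n) :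
    (J⁻¹ *ᵥ ((2 * t) • G *ᵥ η)) ⬝ᵥ a = η ⬝ᵥ ((2 * t) • G *ᵥ J⁻¹ *ᵥ a) := by
  have h1 := MC.dot_mulVec J⁻¹ ((2 * t) • G *ᵥ η) a
  have h2 := MC.dot_mulVec G η (J⁻¹ *ᵥ a)
  rw [MC.psd_symm hJ.inv.posSemidef] at h1
  rw [MC.psd_symm hG.posSemidef] at h2
  rw [← h1, dotProduct_smul, smul_dotProduct, h2]

theorem s5b_inv {n : ℕ} {G J : Mat n} (hG : G.PosDef) (hJ : J.PosDef) {t ν : ℝ} (ht : 0 < t) (hν : ν ≤ 1 / 2)
    (h : ∀ η, |qf J η - 2 * t * qf G η| ≤ ν * (2 * t * qf G η)) (v : V n) :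
    t * MC.sn G (J⁻¹ *ᵥ v) ≤ MC.sn G⁻¹ v := by
  have hc : 0 ≤ √t⁻¹ := Real.sqrt_nonneg _
  have h1 : ∀ ζ, MC.sn G ζ ≤ √t⁻¹ * MC.sn J ζ := fun ζ => by
    refine MC.sn_le_mul hJ.posSemidef hc ?_
    have a1 := (abs_le.1 (h ζ)).1
    have a2 := mul_nonneg ht.le (MC.psd_qf hG.posSemidef ζ)
    rw [Real.sq_sqrt (by positivity), ← div_eq_inv_mul, le_div_iff₀ ht]
    nlinarith
  have h2 := h1 (J⁻¹ *ᵥ v)
  rw [MC.sn_mul_inv hJ] at h2
  have h3 := mul_le_mul_of_nonneg_left (MC.sn_inv_mono hJ hG hc h1 v) hc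
  rw [← mul_assoc, Real.mul_self_sqrt (by positivity)] at h3
  have h4 := mul_le_mul_of_nonneg_left (h2.trans h3) ht.le
  rwa [← mul_assoc, mul_inv_cancel₀ ht.ne', one_mul] at h4

theorem s5b_small {n : ℕ} {G J : Mat n} (hG : G.PosDef) (hJ : J.PosDef) {t ν : ℝ} (ht : 0 < t) (hν0 : 0 ≤ ν)
    (hν : ν ≤ 1 / 2) (h : ∀ η, |qf J η - 2 * t * qf G η| ≤ ν * (2 * t * qf G η)) (v : V n) :
    MC.sn G⁻¹ (v - (2 * t) • G *ᵥ J⁻¹ *ᵥ v) ≤ 2 * ν * MC.sn G⁻¹ v := by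
  have h1 : v - (2 * t) • G *ᵥ J⁻¹ *ᵥ v = (J - (2 * t) • G) *ᵥ J⁻¹ *ᵥ v := by
    rw [sub_mulVec, smul_mulVec, MC.pd_mul_inv hJ]
  have h2 := MC.sandwich_vec (H := J - (2 * t) • G) (c := ν * (2 * t)) (μ := 1) hG
    (by rw [transpose_sub, transpose_smul, MC.psd_symm hG.posSemidef, MC.psd_symm hJ.posSemidef])
    hG.posSemidef (by positivity) zero_le_one
    (fun v => by rw [MC.qf_msub, MC.qf_msmul, mul_assoc ν]; exact h v) (fun v => by rw [one_mul]) (J⁻¹ *ᵥ v)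
  have h3 := mul_le_mul_of_nonneg_left (s5b_inv hG hJ ht hν h v) hν0
  rw [h1]
  linarith

theorem s5b_eig {n : ℕ} {G J : Mat n} (hG : G.PosDef) (hJ : J.PosDef) {t ν W : ℝ} (ht : 0 < t) (hW : 0 ≤ W)
    (hν : ν ≤ 1 / 2) (h : ∀ η, |qf J η - 2 * t * qf G η| ≤ ν * (2 * t * qf G η)) {ξ : V n}
    (he : ∀ η, (2 * t * bf G ξ η - bf J ξ η) ^ 2 ≤ t ^ 2 * W * qf G η) :
    MC.sn G⁻¹ (G *ᵥ ξ - (2 * t) • G *ᵥ J⁻¹ *ᵥ G *ᵥ ξ) ≤ √W := by
  have h1 : G *ᵥ ξ - (2 * t) • G *ᵥ J⁻¹ *ᵥ G *ᵥ ξ = G *ᵥ J⁻¹ *ᵥ (J *ᵥ ξ - (2 * t) • G *ᵥ ξ) := by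
    rw [mulVec_sub, mulVec_sub, MC.pd_inv_mul hJ, mulVec_smul, mulVec_smul]
  have h2 : MC.sn G⁻¹ (J *ᵥ ξ - (2 * t) • G *ᵥ ξ) ≤ √(t ^ 2 * W) :=
    s5b_dual hG (by positivity) fun η => by
      have := he η
      rw [MC.bf_comm' (MC.psd_symm hG.posSemidef), MC.bf_comm' (MC.psd_symm hJ.posSemidef)] at this
      rw [dotProduct_sub, dotProduct_smul, smul_eq_mul, ← neg_sub, neg_sq]
      exact this
  rw [Real.sqrt_mul (sq_nonneg _), Real.sqrt_sq ht.le] at h2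
  rw [h1, MC.sn_inv_mul hG]
  exact le_of_mul_le_mul_left ((s5b_inv hG hJ ht hν h _).trans h2) ht

/-- Linear algebra.  `N = 2t G J⁻¹`, `N' = 2t G' J'⁻¹`, `b = Gξ`, `b' = G'ξ`, `‖·‖ = MC.sn G⁻¹`: `b + N'a = O`, `b' + N a = O`, `N b = b + O`, `N' b' = b' + O`; with `E = a + b`, `E' = a + b'`:
`(1-N)E = E' + O`, `(1-N')E' = E + O`, `‖(1-N)E‖ ≤ 2ν‖E‖` (`MC.sandwich_vec`, `MC.sn_inv_mono`). -/
theorem e_trick (Λ : ℝ) (hΛ : 1 ≤ Λ) : ∃ C ν : ℝ, 0 < C ∧ 0 < ν ∧ ∀ {n : ℕ} {G G' J J' : Mat n}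
    {t W : ℝ} {ξ ξ' a : V n}, G.PosDef → G'.PosDef → J.PosDef → J'.PosDef → 0 < t → 0 ≤ W →
    (∀ η, qf G η ≤ Λ * qf G' η) → (∀ η, qf G' η ≤ Λ * qf G η) →
    (∀ η, |qf J η - 2 * t * qf G η| ≤ ν * (2 * t * qf G η)) →
    (∀ η, |qf J' η - 2 * t * qf G' η| ≤ ν * (2 * t * qf G' η)) →
    (∀ η ζ, J' *ᵥ ζ = (2 * t) • G' *ᵥ η → (bf G η ξ + ζ ⬝ᵥ a) ^ 2 ≤ W * qf G η) →
    (∀ η ζ, J *ᵥ ζ = (2 * t) • G *ᵥ η → (bf G' η ξ' - ζ ⬝ᵥ a) ^ 2 ≤ W * qf G' η) →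
    (∀ η, (2 * t * bf G ξ η - bf J ξ η) ^ 2 ≤ t ^ 2 * W * qf G η) →
    (∀ η, (2 * t * bf G' ξ' η - bf J' ξ' η) ^ 2 ≤ t ^ 2 * W * qf G' η) →
    qf G (ξ + ξ') ≤ W → qf G⁻¹ (a + G *ᵥ ξ) ≤ C * W := by
  have hL : 1 ≤ √Λ := Real.one_le_sqrt.2 hΛ
  set L := √Λ with hLd
  have hL0 : 0 < L := by linarith
  refine ⟨(2 * (1 + L)) ^ 2, 1 / (4 * L), by positivity, by positivity, ?_⟩
  intro n G G' J J' t W ξ ξ' a hG hG' hJ hJ' ht hW h1 h2 h3 h4 h5 h6 h7 h8 _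
  have hν0 : 0 ≤ 1 / (4 * L) := by positivity
  have hν : 1 / (4 * L) ≤ 1 / 2 := one_div_le_one_div_of_le (by norm_num) (by linarith)
  have hLL : L ^ 2 = Λ := Real.sq_sqrt (by linarith)
  have c1 : ∀ v, MC.sn G⁻¹ v ≤ L * MC.sn G'⁻¹ v := MC.sn_inv_mono hG hG' hL0.le fun ζ =>
    MC.sn_le_mul hG.posSemidef hL0.le (by rw [hLL]; exact h2 ζ)
  have c2 : ∀ v, MC.sn G'⁻¹ v ≤ L * MC.sn G⁻¹ v := MC.sn_inv_mono hG' hG hL0.le fun ζ =>
    MC.sn_le_mul hG'.posSemidef hL0.le (by rw [hLL]; exact h1 ζ)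
  have d1 : MC.sn G⁻¹ (G *ᵥ ξ + (2 * t) • G' *ᵥ J'⁻¹ *ᵥ a) ≤ √W := s5b_dual hG hW fun η => by
    have := h5 η _ (MC.pd_mul_inv hJ' _)
    rwa [s5b_dot hG' hJ', bf, ← dotProduct_add] at this
  have d2 : MC.sn G'⁻¹ (G' *ᵥ ξ' - (2 * t) • G *ᵥ J⁻¹ *ᵥ a) ≤ √W := s5b_dual hG' hW fun η => by
    have := h6 η _ (MC.pd_mul_inv hJ _)
    rwa [s5b_dot hG hJ, bf, ← dotProduct_sub] at this
  have e1 := s5b_eig hG hJ ht hW hν h3 h7
  have e2 := s5b_eig hG' hJ' ht hW hν h4 h8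
  have f1 := s5b_small hG hJ ht hν0 hν h3 (a + G *ᵥ ξ)
  have f2 := s5b_small hG' hJ' ht hν0 hν h4 (a - G' *ᵥ ξ')
  have g1 : a - G' *ᵥ ξ' = ((a + G *ᵥ ξ) - (2 * t) • G *ᵥ J⁻¹ *ᵥ (a + G *ᵥ ξ)) -
      (G' *ᵥ ξ' - (2 * t) • G *ᵥ J⁻¹ *ᵥ a) - (G *ᵥ ξ - (2 * t) • G *ᵥ J⁻¹ *ᵥ G *ᵥ ξ) := by
    rw [mulVec_add, mulVec_add, smul_add]; abel
  have g2 : a + G *ᵥ ξ = ((a - G' *ᵥ ξ') - (2 * t) • G' *ᵥ J'⁻¹ *ᵥ (a - G' *ᵥ ξ')) +
      (G *ᵥ ξ + (2 * t) • G' *ᵥ J'⁻¹ *ᵥ a) + (G' *ᵥ ξ' - (2 * t) • G' *ᵥ J'⁻¹ *ᵥ G' *ᵥ ξ') := by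
    rw [mulVec_sub, mulVec_sub, smul_sub]; abel
  have hi := hG.inv.posSemidef
  have hi' := hG'.inv.posSemidef
  have hhalf : L * (2 * (1 / (4 * L))) = 1 / 2 := by field_simp; norm_num
  have k1 : MC.sn G'⁻¹ (a - G' *ᵥ ξ') ≤ 1 / 2 * MC.sn G⁻¹ (a + G *ᵥ ξ) + √W + L * √W := by
    conv_lhs => rw [g1]
    refine (MC.sn_sub_le hi' _ _).trans (add_le_add ((MC.sn_sub_le hi' _ _).trans (add_le_add ?_ d2))
      ((c2 _).trans (mul_le_mul_of_nonneg_left e1 hL0.le)))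
    refine (c2 _).trans ((mul_le_mul_of_nonneg_left f1 hL0.le).trans (le_of_eq ?_))
    rw [← mul_assoc, hhalf]
  have k2 : MC.sn G⁻¹ (a + G *ᵥ ξ) ≤ 1 / 2 * MC.sn G'⁻¹ (a - G' *ᵥ ξ') + √W + L * √W := by
    conv_lhs => rw [g2]
    refine (MC.sn_add_le hi _ _).trans (add_le_add ((MC.sn_add_le hi _ _).trans (add_le_add ?_ d1))
      ((c1 _).trans (mul_le_mul_of_nonneg_left e2 hL0.le)))
    refine (c1 _).trans ((mul_le_mul_of_nonneg_left f2 hL0.le).trans (le_of_eq ?_))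
    rw [← mul_assoc, hhalf]
  have k3 : MC.sn G⁻¹ (a + G *ᵥ ξ) ≤ 2 * (1 + L) * √W := by linarith
  have k4 := pow_le_pow_left₀ (MC.sn_nonneg _ _) k3 2
  rwa [MC.sn_sq hi, mul_pow, Real.sq_sqrt hW] at k4

/-- IDENT: `pair_exists` for `(x,z)` and `(z,x)`, `ident_half` twice, `xi_match`, `G_cmp`, `JG`, `e_trick`. -/
theorem pair_ident (n : ℕ) (hn : 1 ≤ n) (γ R : ℝ) (hγ : 0 < γ) (hγ' : γ ≤ 1 / 2) : ∃ K δ e₀ : ℝ,
    1 ≤ K ∧ 0 < δ ∧ δ ≤ 1 ∧ 0 < e₀ ∧ ∀ (X : Sp.{u} n) (c : Crd X) (x z : X.M) {s₀ T₁ e t κ : ℝ},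
      e ≤ e₀ → c.PH x z s₀ T₁ e γ R t κ → s₀ ≤ δ * t → ∃ ξ, c.Pair x z t K κ ξ ∧
        qf (c.G t x)⁻¹ (c.uv z - c.uv x + c.G t x *ᵥ ξ) ≤ K * t * κ := by
  obtain ⟨K₀, δ₁, e₁, hK₀, hδ₁, hδ₁', he₁, H₁⟩ := pair_exists.{u} n hn γ R hγ hγ'
  obtain ⟨C₁, δ₂, e₂, hC₁, hδ₂, -, he₂, H₂⟩ := ident_half.{u} n hn γ R K₀ hγ hγ'
  obtain ⟨C₂, δ₃, e₃, hC₂, hδ₃, -, he₃, H₃⟩ := xi_match.{u} n γ R K₀ hγ hγ'
  obtain ⟨Λ, e₄, hΛ, he₄, H₄⟩ := G_cmp.{u} n R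
  obtain ⟨C, ν, hC, hν, H₅⟩ := e_trick Λ hΛ
  obtain ⟨δ₆, e₆, hδ₆, -, he₆, H₆⟩ := JG.{u} n ν hν
  obtain ⟨e₇, he₇, H₇⟩ := hyp_small.{u} n
  have hK₁ : 0 < C₁ + K₀ + C₂ := by linarith
  refine ⟨K₀ + C * (C₁ + K₀ + C₂), min (min δ₁ δ₂) (min δ₃ δ₆), min (min (min e₁ e₂) (min e₃ e₄))
    (min (min e₆ e₇) 1), by nlinarith [mul_pos hC hK₁], by positivity,
    ((min_le_left _ _).trans (min_le_left _ _)).trans hδ₁', by positivity, ?_⟩
  intro X c x z s₀ T₁ e t κ he hP hs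
  simp only [le_min_iff] at he
  obtain ⟨⟨⟨q₁, q₂⟩, q₃, q₄⟩, ⟨q₆, q₇⟩, q₈⟩ := he
  have hs₀ := hP.hx.s₀_pos
  have ht : 0 < t := by
    by_contra h
    have : min (min δ₁ δ₂) (min δ₃ δ₆) * t ≤ 0 :=
      mul_nonpos_of_nonneg_of_nonpos (by positivity) (not_lt.1 h)
    linarith
  have hδ : ∀ {δ : ℝ}, min (min δ₁ δ₂) (min δ₃ δ₆) ≤ δ → s₀ ≤ δ * t := fun h =>
    hs.trans (mul_le_mul_of_nonneg_right h ht.le)
  have p₁ := hδ ((min_le_left _ _).trans (min_le_left _ _))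
  have p₂ := hδ ((min_le_left _ _).trans (min_le_right _ _))
  have p₃ := hδ ((min_le_right _ _).trans (min_le_left _ _))
  have p₆ := hδ ((min_le_right _ _).trans (min_le_right _ _))
  have hT := hP.hx.T₁_pos
  have htI : t ∈ Icc s₀ (10 ^ 5 * T₁) := ⟨by nlinarith, by linarith [hP.t_le]⟩
  have hκ : 0 < κ := (hP.hx.toHyp.κ_bounds q₈ hγ hγ' ht hP.t_le).2.2.2.1.trans_le hP.κx
  obtain ⟨ξ, hξ⟩ := H₁ X c x z q₁ hP p₁
  obtain ⟨ξ', hξ'⟩ := H₁ X c z x q₁ hP.symm p₁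
  have gx := (H₇ X c x q₇ hP.hx.toHyp t htI).1
  have gz := (H₇ X c z q₇ hP.hz.toHyp t htI).1
  obtain ⟨jx, jx'⟩ := H₆ X c x q₆ hP.hx.toHyp p₆ hP.t_le
  obtain ⟨jz, jz'⟩ := H₆ X c z q₆ hP.hz.toHyp p₆ hP.t_le
  have htκ : 0 < t * κ := mul_pos ht hκ
  have w : ∀ {A q : ℝ}, A ≤ C₁ + K₀ + C₂ → 0 ≤ q → A * t * κ * q ≤ (C₁ + K₀ + C₂) * t * κ * q := fun h hq => by
    rw [mul_assoc _ t, mul_assoc _ t]; gcongr
  have key := H₅ (W := (C₁ + K₀ + C₂) * t * κ) (ξ := ξ) (ξ' := ξ') (a := c.uv z - c.uv x) gx gz jx jz ht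
    (by positivity) (H₄ X c z q₄ hP.hz.toHyp t htI x hP.symm.dist_le)
    (H₄ X c x q₄ hP.hx.toHyp t htI z hP.dist_le) jx' jz'
    (fun η ζ h => (H₂ X c x z q₂ hP p₂ hξ η ζ h).trans (w (by linarith) (MC.psd_qf gx.posSemidef η)))
    (fun η ζ h => by
      have h1 := (H₂ X c z x q₂ hP.symm p₂ hξ' η ζ h).trans (w (by linarith) (MC.psd_qf gz.posSemidef η))
      rwa [← neg_sub (c.uv z), dotProduct_neg, ← sub_eq_add_neg] at h1)
    (fun η => (hξ.eig η).trans (by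
      have h1 := mul_le_mul_of_nonneg_left (w (A := K₀) (by linarith) (MC.psd_qf gx.posSemidef η)) (sq_nonneg t)
      linarith))
    (fun η => (hξ'.eig η).trans (by
      have h1 := mul_le_mul_of_nonneg_left (w (A := K₀) (by linarith) (MC.psd_qf gz.posSemidef η)) (sq_nonneg t)
      linarith))
    ((H₃ X c x z q₃ hP p₃ hξ hξ').trans (by
      have h1 := w (A := C₂) (by linarith) zero_le_one
      linarith))
  refine ⟨ξ, hξ.mono ht hκ.le (by nlinarith [mul_pos hC hK₁]), key.trans ?_⟩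
  nlinarith

/-- Good times give `PH` (`good_time`, `kap_cmp`, `κ_bounds`). -/
theorem exists_PH {X : Sp.{u} n} {c : Crd X} {x z : X.M} {s₀ T₁ e γ R s : ℝ} (hx : c.HG x s₀ T₁ e γ)
    (hz : c.HG z s₀ T₁ e γ) (he : e ≤ 1) (hγ : 0 < γ) (hγ' : γ ≤ 1 / 2) (hs : 0 < s) (hT : 2 * s ≤ T₁)
    (hR : 0 ≤ R) (hd : dist x z ≤ R * Real.sqrt s) : ∃ t ∈ Icc s (2 * s),
      c.PH x z s₀ T₁ e γ R t (4 * (X.h.κ x T₁ γ s + X.h.κ z T₁ γ s)) := by
  have ha : 0 ≤ γ / 16 := by positivity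
  obtain ⟨t, ht, h1, h2⟩ := good_time X x z hs ha (by linarith) hT hx.toHyp.ent_ne hz.toHyp.ent_ne
  have ht0 : 0 < t := hs.trans_le ht.1
  have bx := hx.toHyp.κ_bounds he hγ hγ' hs (by linarith)
  have bz := hz.toHyp.κ_bounds he hγ hγ' hs (by linarith)
  have h2a : (2 : ℝ) ^ (γ / 16) ≤ 2 := by
    simpa using Real.rpow_le_rpow_of_exponent_le (x := 2) (y := γ / 16) (z := 1) (by norm_num) (by linarith)
  have cx : X.h.κ x T₁ γ t ≤ 2 * X.h.κ x T₁ γ s :=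
    (kap_cmp X x hs ht0 hx.T₁_pos ha hx.toHyp.ent_ne ht.2 (by linarith [ht.1])).trans
      (mul_le_mul_of_nonneg_right h2a bx.2.2.2.1.le)
  have cz : X.h.κ z T₁ γ t ≤ 2 * X.h.κ z T₁ γ s :=
    (kap_cmp X z hs ht0 hz.T₁_pos ha hz.toHyp.ent_ne ht.2 (by linarith [ht.1])).trans
      (mul_le_mul_of_nonneg_right h2a bz.2.2.2.1.le)
  exact ⟨t, ht, hx, hz, ht.2.trans hT, hd.trans (mul_le_mul_of_nonneg_left (Real.sqrt_le_sqrt ht.1) hR),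
    by linarith [bx.2.2.2.1, bz.2.2.2.1], by linarith [bx.2.2.2.1, bz.2.2.2.1], h1, h2,
    by linarith [bx.2.2.2.2.2, bz.2.2.2.2.2]⟩

theorem s5c_var (X : Sp.{u} n) {t : ℝ} (ht : X.h.ok t) {x : X.M} {f : X.M → ℝ} (hf : CG x t f) (a : ℝ) :
    X.h.P t (fun y => (f y - a) ^ 2) x = X.h.Cov t x f f + (X.h.P t f x - a) ^ 2 := by
  obtain ⟨-, h1, h2⟩ := hf.bd ht
  have h3 : Integrable (fun y => X.h.H t x y * (f y * f y)) X.h.m := by simpa only [sq] using h2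
  have h4 : Integrable (fun y => X.h.H t x y * (-(2 * a) * f y)) X.h.m := by
    simpa only [mul_left_comm] using h1.const_mul (-(2 * a))
  have h5 : Integrable (fun y => X.h.H t x y * a ^ 2) X.h.m := (X.h.H_int ht.1 x).1.mul_const _
  have h6 : Integrable (fun y => X.h.H t x y * (f y * f y + -(2 * a) * f y)) X.h.m := by
    simp only [mul_add]
    exact h3.add h4
  have e : (fun y => (f y - a) ^ 2) = fun y => (f y * f y + -(2 * a) * f y) + a ^ 2 := by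
    ext y
    ring
  rw [e, X.h.P_add h6 h5, X.h.P_add h3 h4, X.h.P_cmul, X.h.P_const ht.1, HS.Cov]
  ring

/-- Recipe: `A` with `H_x(ball x (A√t)) ≥ 1/2`, the same for `z` (`P_tail`); on the first ball `wp ≥ 2t(d²/(400t) - C + log(θx/θz))`, on the second `wp ≤ -2t(d²/(400 t) - C - log(θx/θz))`
(`gauss_lo`, `gauss_up`, `R₂ ≥ 2A` large); `H_z ≤ C H_x` on the second ball (`wp_bounds`); `Var = ∫ H (w - m)²`. -/
theorem wp_var (n : ℕ) : ∃ R₂ c₀ : ℝ, 1 ≤ R₂ ∧ 0 < c₀ ∧ ∀ (X : Sp.{u} n) {t : ℝ}, X.h.ok t → ∀ x z,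
    R₂ * Real.sqrt t ≤ dist x z → dist x z ≤ 2 * R₂ * Real.sqrt t →
      c₀ * t ^ 2 ≤ X.h.Cov t x (X.h.wp t x z) (X.h.wp t x z) := by
  obtain ⟨A, hA, hT⟩ := P_tail.{u} n 0 (1 / 100) (by norm_num)
  obtain ⟨C, hC, hW⟩ := wp_bounds.{u} n (2 * (2 * A + 1))
  set C' : ℝ := C * Real.exp (C * (2 * (2 * A + 1) + A)) with hC'
  have hC'0 : 0 < C' := by positivity
  refine ⟨2 * A + 1, min 2 (2 / C'), by linarith, by positivity, fun X t ht x z h1 h2 => ?_⟩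
  have ht0 := ht.1
  have hs : 0 < Real.sqrt t := Real.sqrt_pos.2 ht0
  have hk : X.h.k * t ≤ 1 := ht.2.trans (by norm_num)
  obtain ⟨-, hw, -, hw'⟩ := hW X ht x z h2
  obtain ⟨-, -, -, hw''⟩ := hW X ht z x (by rwa [dist_comm])
  set w := X.h.wp t x z with hwd
  set m := X.h.P t w x with hm
  set I : X.M → X.M → ℝ := fun p => {y | A * Real.sqrt t ≤ dist p y}.indicator
    fun y => Real.exp (0 * dist p y / Real.sqrt t) with hI
  have hI1 : ∀ p y, A * Real.sqrt t ≤ dist p y → I p y = 1 := fun p y h => by simp [hI, h]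
  have hI0 : ∀ p y, 0 ≤ I p y := fun p y => indicator_nonneg (fun _ _ => (Real.exp_pos _).le) y
  have hIi : ∀ p, Integrable (fun y => X.h.H t p y * I p y) X.h.m := fun p => by
    refine X.h.int_bdd ht0 p (B := 1) (AEStronglyMeasurable.indicator ?_ ?_) fun y => ?_
    · exact Continuous.aestronglyMeasurable (by fun_prop)
    · exact (isClosed_le continuous_const (by fun_prop)).measurableSet
    · rw [abs_of_nonneg (hI0 p y)]
      by_cases h : A * Real.sqrt t ≤ dist p y <;> simp [hI, h]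
  have hIP : ∀ p, ∫ y, X.h.H t p y * I p y ∂X.h.m ≤ 1 / 100 := fun p => hT X ht0 le_rfl hk p
  have hVi : Integrable (fun y => X.h.H t x y * ((w y - m) / (2 * t)) ^ 2) X.h.m := by
    have h3 := ((hw.sub (CG.of_bdd continuous_const (B := |m|) fun _ => le_rfl)).bd ht).2.2
    simpa only [div_pow, mul_div_assoc] using h3.div_const ((2 * t) ^ 2)
  have hV : ∫ y, X.h.H t x y * ((w y - m) / (2 * t)) ^ 2 ∂X.h.m = X.h.Cov t x w w / (2 * t) ^ 2 := by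
    have h3 := s5c_var X ht hw m
    rw [← hm, sub_self, zero_pow two_ne_zero, add_zero] at h3
    rw [← h3]
    simp only [div_pow, ← mul_div_assoc]
    exact integral_div _ _
  have hH := fun p y => X.h.H_nonneg ht0 p y
  have hHi := fun p => (X.h.H_int ht0 p).1
  have e1 : 1 ≤ 1 / 100 + X.h.Cov t x w w / (2 * t) ^ 2 + Real.exp (m / (2 * t) + 1) * (1 / 100) := by
    have h3 := integral_mono (hHi x) (((hIi x).add hVi).add ((hIi z).const_mul (Real.exp (m / (2 * t) + 1))))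
      fun y => by
        have a1 := mul_nonneg (hH x y) (hI0 x y)
        have a2 := mul_nonneg (hH x y) (sq_nonneg ((w y - m) / (2 * t)))
        have a3 := mul_nonneg (Real.exp_pos (m / (2 * t) + 1)).le (mul_nonneg (hH z y) (hI0 z y))
        simp only [Pi.add_apply]
        rcases le_or_gt (A * Real.sqrt t) (dist x y) with h | h
        · rw [hI1 x y h] at a1 ⊢
          linarith
        rcases le_or_gt ((w y - m) / (2 * t)) 1 with h' | h'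
        · have a4 : A * Real.sqrt t ≤ dist z y := by
            have := dist_triangle_right x z y
            nlinarith
          have a5 : w y / (2 * t) ≤ m / (2 * t) + 1 := by
            rw [sub_div] at h'
            linarith
          have a6 := mul_le_mul_of_nonneg_left (Real.exp_le_exp.2 a5) (hH z y)
          rw [← (hw' y).2.2.2.1] at a6
          rw [hI1 z y a4]
          linarith
        · nlinarith [mul_le_mul_of_nonneg_left (one_le_pow₀ (n := 2) h'.le) (hH x y)]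
    rw [integral_add' ((hIi x).add hVi) ((hIi z).const_mul _), integral_add' (hIi x) hVi, integral_const_mul,
      hV, X.h.int_H ht0] at h3
    have := mul_le_mul_of_nonneg_left (hIP z) (Real.exp_pos (m / (2 * t) + 1)).le
    linarith [hIP x]
  have e2 : 1 ≤ 1 / 100 + C' * (X.h.Cov t x w w / (2 * t) ^ 2) + Real.exp (1 - m / (2 * t)) := by
    have h3 := integral_mono (hHi z) (((hIi z).add (hVi.const_mul C')).add
      ((hHi x).const_mul (Real.exp (1 - m / (2 * t))))) fun y => by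
        have a1 := mul_nonneg (hH z y) (hI0 z y)
        have a2 := mul_nonneg hC'0.le (mul_nonneg (hH x y) (sq_nonneg ((w y - m) / (2 * t))))
        have a3 := mul_nonneg (Real.exp_pos (1 - m / (2 * t))).le (hH x y)
        simp only [Pi.add_apply]
        rcases le_or_gt (A * Real.sqrt t) (dist z y) with h | h
        · rw [hI1 z y h] at a1 ⊢
          linarith
        rcases le_or_gt (-1) ((w y - m) / (2 * t)) with h' | h'
        · have a5 : 0 ≤ (1 - m / (2 * t)) + w y / (2 * t) := by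
            rw [sub_div] at h'
            linarith
          have a6 := mul_le_mul_of_nonneg_left (Real.one_le_exp a5) (hH z y)
          rw [Real.exp_add, mul_left_comm, ← (hw' y).2.2.2.1] at a6
          linarith
        · have a4 : C * dist x y / Real.sqrt t ≤ C * (2 * (2 * A + 1) + A) := by
            have := dist_triangle x z y
            rw [mul_div_assoc]
            refine mul_le_mul_of_nonneg_left ?_ hC.le
            rw [div_le_iff₀ hs]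
            linarith
          have a5 : X.h.H t z y ≤ C' * X.h.H t x y := (hw'' y).2.2.2.2.trans
            (mul_le_mul_of_nonneg_right (mul_le_mul_of_nonneg_left (Real.exp_le_exp.2 a4) hC.le) (hH x y))
          have a6 : 1 ≤ ((w y - m) / (2 * t)) ^ 2 := by nlinarith
          nlinarith [mul_le_mul_of_nonneg_left a6 (mul_nonneg hC'0.le (hH x y))]
    rw [integral_add' ((hIi z).add (hVi.const_mul _)) ((hHi x).const_mul _), integral_add' (hIi z) (hVi.const_mul _),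
      integral_const_mul, integral_const_mul, hV, X.h.int_H ht0, X.h.int_H ht0] at h3
    linarith [hIP z]
  have e3 : Real.exp (m / (2 * t) + 1) * Real.exp (1 - m / (2 * t)) ≤ 9 := by
    rw [← Real.exp_add, show m / (2 * t) + 1 + (1 - m / (2 * t)) = 1 + 1 by ring, Real.exp_add]
    nlinarith [Real.exp_one_lt_d9, Real.exp_pos 1]
  have e4 : min 2 (2 / C') / 4 ≤ X.h.Cov t x w w / (2 * t) ^ 2 := by
    rcases le_or_gt (1 / 2) (X.h.Cov t x w w / (2 * t) ^ 2) with h | h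
    · linarith [min_le_left 2 (2 / C')]
    · have a1 : Real.exp (1 - m / (2 * t)) ≤ 1 / 5 := by nlinarith [Real.exp_pos (1 - m / (2 * t))]
      have a2 : 2 / C' / 4 ≤ X.h.Cov t x w w / (2 * t) ^ 2 := by
        rw [div_div, div_le_iff₀ (by positivity)]
        linarith
      linarith [min_le_right 2 (2 / C')]
  rw [le_div_iff₀ (by positivity)] at e4
  linarith

/-- LOW.  Recipe: `s = d²/(4R₂²)`, `exists_PH` with `R = 2R₂`, `pair_ident`; `Var w ≤ P (w - c₀ - P u ξ)² ≤ 2Kt²κ + 2J(ξ)`, `J ≤ 3tG`, `G(ξ) = g(Gξ) ≤ 2 g(a) + 2Ktκ`; `κ` small by `κ_bounds`;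
finally `g_t ≤ C g_σ` from `hyp_growth` (`MC.sn_inv_mono`). -/
theorem low_pair (n : ℕ) (hn : 1 ≤ n) (γ : ℝ) (hγ : 0 < γ) (hγ' : γ ≤ 1 / 2) : ∃ C δ θ e₀ : ℝ,
    1 ≤ C ∧ 0 < δ ∧ 0 < θ ∧ 0 < e₀ ∧ ∀ (X : Sp.{u} n) (c : Crd X) (x z : X.M) {s₀ T₁ e σ : ℝ},
      e ≤ e₀ → c.HG x s₀ T₁ e γ → c.HG z s₀ T₁ e γ → s₀ ≤ δ * σ → σ ≤ θ * T₁ →
      σ ≤ 16 * dist x z ^ 2 → dist x z ^ 2 ≤ σ →
        dist x z ^ 2 ≤ C * qf (c.G σ x)⁻¹ (c.uv z - c.uv x) := by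
  obtain ⟨R, c₀, hR, hc₀, hV⟩ := wp_var.{u} n
  obtain ⟨K, δ₁, e₁, hK, hδ₁, hδ₁', he₁, hP⟩ := pair_ident.{u} n hn γ (2 * R) hγ hγ'
  obtain ⟨e₂, he₂, he₂', hG⟩ := hyp_growth.{u} n
  obtain ⟨e₃, he₃, hS⟩ := hyp_small.{u} n
  obtain ⟨C₁, -, hW⟩ := wp_bounds.{u} n (2 * R)
  set ε : ℝ := c₀ / (448 * K) with hε
  have hε0 : 0 < ε := by positivity
  refine ⟨max 1 (4 * R ^ 2 * (24 / c₀) * (12 * R) ^ 2), δ₁ / (64 * R ^ 2), min 1 (ε ^ (16 / γ)),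
    min (min e₁ e₂) (min e₃ ε), le_max_left _ _, by positivity, by positivity, by positivity,
    fun X c x z s₀ T₁ e σ he hx hz h₀ hθ h₁ h₂ => ?_⟩
  simp only [le_min_iff] at he
  obtain ⟨⟨he1, he2⟩, he3, he4⟩ := he
  have hs₀ := hx.s₀_pos
  have hT := hx.T₁_pos
  have he0 := hx.e_pos
  have he5 : e ≤ 1 := by linarith
  have hR2 : 1 ≤ R ^ 2 := one_le_pow₀ hR
  have hσ : 0 < σ := (pos_iff_pos_of_mul_pos (hs₀.trans_le h₀)).1 (by positivity)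
  have hσT : σ ≤ T₁ := hθ.trans (mul_le_of_le_one_left hT.le (min_le_left _ _))
  have hd : 0 < dist x z ^ 2 := by linarith
  set s : ℝ := dist x z ^ 2 / (4 * R ^ 2) with hs
  have hs0 : 0 < s := by positivity
  have hds : dist x z ^ 2 = 4 * R ^ 2 * s := by rw [hs]; field_simp
  have hsσ : 2 * s ≤ σ := by linarith [mul_le_mul_of_nonneg_right hR2 hs0.le]
  obtain ⟨t, ⟨ht1, ht2⟩, hPH⟩ := exists_PH (R := 2 * R) hx hz he5 hγ hγ' hs0 (hsσ.trans hσT) (by positivity)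
    (le_of_sq_le_sq (by rw [mul_pow, Real.sq_sqrt hs0.le, hds]; linarith) (by positivity))
  set κ := 4 * (X.h.κ x T₁ γ s + X.h.κ z T₁ γ s) with hκ
  have ht0 : 0 < t := hs0.trans_le ht1
  have hσt : σ ≤ 64 * R ^ 2 * t := by linarith [mul_le_mul_of_nonneg_left ht1 (sq_nonneg R)]
  have h₀' : s₀ ≤ δ₁ * t := by
    refine h₀.trans ?_
    rw [div_mul_eq_mul_div, div_le_iff₀ (by positivity)]
    linarith [mul_le_mul_of_nonneg_left hσt hδ₁.le]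
  have h₀t : s₀ ≤ t := h₀'.trans (mul_le_of_le_one_left ht0.le hδ₁')
  have htσ : t ≤ σ := ht2.trans hsσ
  have hT5 : T₁ ≤ 10 ^ 5 * T₁ := by linarith
  have hok : X.h.ok t := (hx.toHyp.times he5 ht0 ((htσ.trans hσT).trans hT5)).2.1
  obtain ⟨ξ, hξ, hid⟩ := hP X c x z he1 hPH h₀'
  have hκε : κ ≤ 16 * ε := by
    have a1 : (s / T₁) ^ (γ / 16) ≤ ε := by
      have a2 : s / T₁ ≤ ε ^ (16 / γ) := by
        rw [div_le_iff₀ hT]
        have := mul_le_mul_of_nonneg_right (min_le_right 1 (ε ^ (16 / γ))) hT.le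
        linarith
      refine (Real.rpow_le_rpow (by positivity) a2 (by positivity)).trans_eq ?_
      rw [← Real.rpow_mul hε0.le, show 16 / γ * (γ / 16) = 1 by field_simp, Real.rpow_one]
    have a2 := (hx.toHyp.κ_bounds he5 hγ hγ' hs0 (by linarith)).2.2.2.2.1
    have a3 := (hz.toHyp.κ_bounds he5 hγ hγ' hs0 (by linarith)).2.2.2.2.1
    linarith [mul_le_mul_of_nonneg_left he5 he0.le]
  have hKκ : 14 * (K * κ) ≤ c₀ / 2 := by
    have : K * (16 * ε) = c₀ / 28 := by rw [hε]; field_simp; ring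
    linarith [mul_le_mul_of_nonneg_left hκε (show 0 ≤ K by linarith)]
  have hGt := (hS X c x he3 hx.toHyp t ⟨h₀t, (htσ.trans hσT).trans hT5⟩).1
  have hGσ := (hS X c x he3 hx.toHyp σ ⟨h₀t.trans htσ, hσT.trans hT5⟩).1
  set a := c.uv z - c.uv x with ha
  have hv := hV X hok x z (le_of_sq_le_sq (by
    rw [mul_pow, Real.sq_sqrt ht0.le, hds]
    linarith [mul_le_mul_of_nonneg_left ht2 (sq_nonneg R), mul_nonneg (sq_nonneg R) hs0.le]) dist_nonneg)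
    hPH.dist_le
  have hw := (hW X hok x z hPH.dist_le).2.1
  have hu : CG x t (c.u ξ) := by
    obtain ⟨B, hB⟩ := (c.u_nice ξ).1.2
    exact CG.of_bdd (X.h.S_cont (c.u_S ξ)) fun y => (hB y).1
  have hc : ∀ b : ℝ, CG x t fun _ => b := fun b => CG.of_bdd continuous_const (B := |b|) fun _ => le_rfl
  obtain ⟨c₁, hc₁⟩ := hξ.val
  have h3 : X.h.Cov t x (X.h.wp t x z) (X.h.wp t x z) ≤ 2 * (K * t ^ 2 * κ) + 2 * qf (c.J t x) ξ := by
    have i1 := (((hw.sub (hc c₁)).sub hu).bd hok).2.2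
    have i2 := ((hu.sub (hc (X.h.P t (c.u ξ) x))).bd hok).2.2
    have j1 : Integrable (fun y => X.h.H t x y * (2 * (X.h.wp t x z y - c₁ - c.u ξ y) ^ 2)) X.h.m := by
      simpa only [mul_left_comm] using i1.const_mul 2
    have j2 : Integrable (fun y => X.h.H t x y * (2 * (c.u ξ y - X.h.P t (c.u ξ) x) ^ 2)) X.h.m := by
      simpa only [mul_left_comm] using i2.const_mul 2
    have a1 := X.h.P_mono ht0 ((hw.sub (hc (c₁ + X.h.P t (c.u ξ) x))).bd hok).2.2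
      (f' := fun y => 2 * (X.h.wp t x z y - c₁ - c.u ξ y) ^ 2 + 2 * (c.u ξ y - X.h.P t (c.u ξ) x) ^ 2)
      (by simp only [mul_add]; exact j1.add j2) fun y => by
        linarith [sq_nonneg (X.h.wp t x z y - c₁ - c.u ξ y - (c.u ξ y - X.h.P t (c.u ξ) x))]
    rw [X.h.P_add j1 j2, X.h.P_cmul, X.h.P_cmul, s5c_var X hok hw, s5c_var X hok hu, ← c.bf_J ht0,
      MC.bf_self] at a1
    linarith [sq_nonneg (X.h.P t (X.h.wp t x z) x - (c₁ + X.h.P t (c.u ξ) x))]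
  have hq0 := MC.psd_qf hGt.posSemidef ξ
  have h4 : qf (c.J t x) ξ ≤ 3 * t * qf (c.G t x) ξ := by
    refine (c.J_le ht0 x ξ).trans (mul_le_mul_of_nonneg_right ?_ hq0)
    have a1 : Real.exp (2 * X.h.k * t) ≤ 5 / 4 := h3e_exp_le (by linarith [hok.2])
    linarith [mul_le_mul_of_nonneg_left a1 ht0.le]
  have h5 : qf (c.G t x) ξ ≤ 2 * (K * t * κ) + 2 * qf (c.G t x)⁻¹ a := by
    have a1 := MC.sn_sub_le hGt.inv.posSemidef (a + c.G t x *ᵥ ξ) a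
    rw [add_sub_cancel_left, MC.sn_inv_mul hGt] at a1
    have a2 := pow_le_pow_left₀ (MC.sn_nonneg _ _) a1 2
    rw [MC.sn_sq hGt.posSemidef] at a2
    linarith [MC.sn_sq hGt.inv.posSemidef (a + c.G t x *ᵥ ξ), MC.sn_sq hGt.inv.posSemidef a,
      sq_nonneg (MC.sn (c.G t x)⁻¹ (a + c.G t x *ᵥ ξ) - MC.sn (c.G t x)⁻¹ a)]
  have h6 : t ≤ 24 / c₀ * qf (c.G t x)⁻¹ a := by
    rw [div_mul_eq_mul_div, le_div_iff₀ hc₀]
    refine le_of_mul_le_mul_left ?_ ht0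
    linarith [mul_le_mul_of_nonneg_left h5 ht0.le, mul_le_mul_of_nonneg_left hKκ (sq_nonneg t)]
  have h7 : qf (c.G t x)⁻¹ a ≤ (12 * R) ^ 2 * qf (c.G σ x)⁻¹ a := by
    have a1 := MC.sn_inv_mono hGt hGσ (c := 12 * R) (by positivity) (fun ζ => by
      refine MC.sn_le_mul hGt.posSemidef (by positivity)
        (((hG X c x he2 hx.toHyp ζ).1 t σ h₀t htσ (hσT.trans hT5)).trans
          (mul_le_mul_of_nonneg_right ?_ (MC.psd_qf hGt.posSemidef ζ)))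
      have b1 : 1 ≤ σ / t := (one_le_div ht0).2 htσ
      have b2 : (σ / t) ^ (2 * e) ≤ σ / t :=
        (Real.rpow_le_rpow_of_exponent_le b1 (show 2 * e ≤ 1 by linarith)).trans_eq (Real.rpow_one _)
      have b3 : σ / t ≤ 64 * R ^ 2 := (div_le_iff₀ ht0).2 hσt
      have b4 : 0 ≤ (σ / t) ^ (2 * e) := by positivity
      linarith [mul_le_mul_of_nonneg_right (show 1 + 10 * e ≤ 2 by linarith) b4]) a
    have a2 := pow_le_pow_left₀ (MC.sn_nonneg _ _) a1 2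
    rwa [mul_pow, MC.sn_sq hGt.inv.posSemidef, MC.sn_sq hGσ.inv.posSemidef] at a2
  calc dist x z ^ 2 ≤ 4 * R ^ 2 * t := by rw [hds]; gcongr
    _ ≤ 4 * R ^ 2 * (24 / c₀ * ((12 * R) ^ 2 * qf (c.G σ x)⁻¹ a)) :=
        mul_le_mul_of_nonneg_left (h6.trans (mul_le_mul_of_nonneg_left h7 (by positivity))) (by positivity)
    _ = 4 * R ^ 2 * (24 / c₀) * (12 * R) ^ 2 * qf (c.G σ x)⁻¹ a := by ring
    _ ≤ _ := mul_le_mul_of_nonneg_right (le_max_right _ _) (MC.psd_qf hGσ.inv.posSemidef a)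

end Crest.Agent.R247
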