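import Crest.Agent.R247.S7AuxC
import Crest.Agent.R247.S7AuxB

/-! # Row 247, S7: Rellich identity and the pointwise inequalities for the Poincaré defect -/

set_option autoImplicit false
set_option linter.unusedSectionVars false
set_option linter.unusedVariables false
open MeasureTheory Filter Set Metric Matrix
open scoped ENNReal NNReal Topology ContDiff
open Crest.GeometryTopology.CoordMetric

noncomputable section
namespace Crest.Agent.R247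
universe u

variable {n : ℕ}

/-- Recipe: `ibp_H` for `(f, ψ = L f)`: `P (Lf)² = P Γ(f, Γ(f,φ)) - P Γ(f,Δf)`, `Γ(f,Γ(f,φ)) = Hs f φ f + Hs φ f f` (`Γ_Γ_left`); `ibp_L1` for `(Γ f f, w = H)`: `P ΔΓ(f,f) = P Γ(Γ f f, φ) = 2 P Hs f f φ`;
expand `Γ2` by definition.  Integrability from `Γ2_int`, `gauss_up` (`H · poly` is bounded), `grad_φ`, `KK_int` (`Γ2 φ ≤ 2D(φ,a) + 2na²`), `sqrt_Γ_Γ_le`, `abs_Hs_sub_le`. -/
theorem rellich (hn : 1 ≤ n) (X : Sp.{u} n) (x : X.M) {s : ℝ} (hs : X.h.ok s) (hK : X.h.KK x s ≠ ⊤)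
    {f : X.M → ℝ} (hf : X.h.Nice f) (hΔ : X.h.Nice (X.h.Δ f)) :
    Integrable (fun y => X.h.H s x y * X.h.Hs (X.h.φ s x) f f y) X.h.m ∧
    X.h.P s (fun y => X.h.L s x f y ^ 2) x = X.h.P s (X.h.Γ2 f f) x - X.h.k * X.h.P s (X.h.Γ f f) x +
      X.h.P s (X.h.Hs (X.h.φ s x) f f) x := by
  have hs0 := hs.1
  have hφ := X.h.φ_S hs0 x
  have hS := hf.1.1
  obtain ⟨hLS, hLG, -, -, -⟩ := L_CG X x hs hf hΔ
  have iL := (CG.bd hs hLG).2.2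
  have iΓ := X.h.h2g_int hf hs0 x
  have iΓ2 := H_mul_int x hs (X.h.Γ2_int hS hf.1.2.2 hΔ.1.2.1).1
  obtain ⟨B, hB⟩ := hf.2
  have iH : Integrable (fun y => X.h.H s x y * X.h.Hs (X.h.φ s x) f f y) X.h.m := by
    have i₁ : Integrable (fun y => X.h.H s x y *
        (X.h.Hs (X.h.φ s x) f f y - 1 / (2 * s) * X.h.Γ f f y)) X.h.m := by
      refine ((HD_int hn x hs hK).add ((X.h.H_int hs0 x).1.mul_const (B ^ 2))).mono'
        ((X.h.H_cont hs0 x).mul ((X.h.S_cont (X.h.S_Hs hφ hS hS)).sub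
        (continuous_const.mul (X.h.S_cont (X.h.S_Γ hS hS))))).aestronglyMeasurable (.of_forall fun y => ?_)
      have h₀ := X.h.H_nonneg hs0 x y
      have h₁ := X.h.abs_Hs_sub_le hφ hS hS (1 / (2 * s)) y
      rw [mul_assoc, Real.mul_self_sqrt (X.h.Γ_nonneg _ _)] at h₁
      have h₂ := Real.sq_sqrt (X.h.D_nonneg hφ (1 / (2 * s)) y)
      have h₃ := mul_le_mul_of_nonneg_left (hB y).2 (Real.sqrt_nonneg (X.h.D (X.h.φ s x) (1 / (2 * s)) y))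
      rw [Real.norm_eq_abs, abs_mul, abs_of_nonneg h₀, Pi.add_apply, ← mul_add]
      refine mul_le_mul_of_nonneg_left (h₁.trans (h₃.trans ?_)) h₀
      nlinarith [sq_nonneg (Real.sqrt (X.h.D (X.h.φ s x) (1 / (2 * s)) y) - B), sq_nonneg B,
        X.h.D_nonneg hφ (1 / (2 * s)) y]
    refine (i₁.add (iΓ.const_mul (1 / (2 * s)))).congr (.of_forall fun y => ?_)
    simp only [Pi.add_apply]
    ring
  refine ⟨iH, ?_⟩
  have key := IZ.limit x (((iL.sub iΓ2).add (iΓ.const_mul X.h.k)).sub iH)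
    ((iL.add iΓ2).add iΓ) fun χ ε hχ hc hε => by
    refine ⟨fun y => X.h.H s x y * X.h.L s x f y * X.h.Γ f χ y + X.h.H s x y * X.h.Hs f f χ y, ?_,
      fun y => ?_⟩
    · refine (((IZ.ibp x hs0 hχ hc hS hLS).add (IZ.hs x hs0 hχ hc hS hS)).cmul (-1)).congr fun y => ?_
      have e₁ : X.h.Γ f (X.h.L s x f) y =
          X.h.Γ f (X.h.Γ f (X.h.φ s x)) y - X.h.Γ f (X.h.Δ f) y := by
        rw [X.h.Γ_comm, X.h.Γ_comm _ (X.h.Γ f _), X.h.Γ_comm _ (X.h.Δ f)]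
        exact X.h.Γ_sub_left (X.h.S_Γ hS hφ) (X.h.S_Δ hS) _ y
      have e₂ : X.h.Γ (X.h.φ s x) f = X.h.Γ f (X.h.φ s x) := funext (X.h.Γ_comm _ _)
      have e₃ : X.h.Hs (X.h.φ s x) f f y + X.h.Hs f f (X.h.φ s x) y =
          X.h.Γ f (X.h.Γ f (X.h.φ s x)) y := by
        simp only [Raw.Hs, e₂]
        ring
      simp only [Pi.add_apply, Pi.sub_apply]
      rw [e₁, ← e₃]
      ring
    · have hε0 : 0 ≤ ε := (abs_nonneg _).trans (hε y).2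
      have h₀ := X.h.H_nonneg hs0 x y
      have h₁ := X.h.abs_Hs_sub_le hS hS hχ 0 y
      simp only [zero_mul, sub_zero, X.h.D_zero] at h₁
      have h₂ := h₁.trans (mul_le_mul (βid_am _ _ (X.h.Γ2_nonneg hS y) (X.h.Γ_nonneg f y)) (hε y).1
        (Real.sqrt_nonneg _) (by linarith [X.h.Γ2_nonneg hS y, X.h.Γ_nonneg f y]))
      have h₃ := (X.h.abs_Γ_le f χ y).trans (mul_le_mul_of_nonneg_left (hε y).1 (Real.sqrt_nonneg _))
      have h₄ : |X.h.L s x f y| * Real.sqrt (X.h.Γ f f y) ≤ (X.h.L s x f y ^ 2 + X.h.Γ f f y) / 2 := by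
        nlinarith [sq_nonneg (|X.h.L s x f y| - Real.sqrt (X.h.Γ f f y)), sq_abs (X.h.L s x f y),
          Real.sq_sqrt (X.h.Γ_nonneg f y)]
      have h₅ : |X.h.L s x f y * X.h.Γ f χ y| ≤ (X.h.L s x f y ^ 2 + X.h.Γ f f y) / 2 * ε := by
        rw [abs_mul]
        exact (mul_le_mul_of_nonneg_left h₃ (abs_nonneg _)).trans
          (by rw [← mul_assoc]; exact mul_le_mul_of_nonneg_right h₄ hε0)
      have h₆ := (abs_add_le _ _).trans (add_le_add h₅ h₂)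
      have h₇ := mul_nonneg hε0 (add_nonneg (sq_nonneg (X.h.L s x f y)) (X.h.Γ2_nonneg hS y))
      simp only [Pi.add_apply]
      rw [mul_assoc, ← mul_add, abs_mul, abs_of_nonneg h₀]
      calc _ ≤ X.h.H s x y * (ε * (X.h.L s x f y ^ 2 + X.h.Γ2 f f y + X.h.Γ f f y)) :=
            mul_le_mul_of_nonneg_left (h₆.trans (by nlinarith)) h₀
        _ = _ := by ring
  rw [integral_sub' ((iL.sub iΓ2).add (iΓ.const_mul _)) iH, integral_add' (iL.sub iΓ2) (iΓ.const_mul _),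
    integral_sub' iL iΓ2, integral_const_mul] at key
  simp only [HS.P, kerP]
  linarith

/-- Recipe (`π = (f - c₀)²/2`, `p = L π`): `weak_hs` (`v := φ`, `φ := π`, `w = χ j H`): `∫ H Γ2(φ,π) = k∫HΓ(φ,π) + ∫ HΓ(φ,p) - ½∫ HΓ(π,Γφ)` with `Hs π φ φ = Γ(φ,Γ(π,φ)) - ½Γ(π,Γφ)`; move all derivatives off `p` and `Γφ`
with the cut-off in place (`ibp`): `∫χHΓ(φ,p) = ∫ p (χH(Γφ - Δφ) - HΓ(χ,φ))`, `∫χHΓ(π,Γφ) = ∫ Γφ (χ H p - HΓ(π,χ))`; `∫ HΔπ = ∫ HΓ(π,φ) = ∫ H φ p`, `∫ H p = 0`.  Integrability: `ζ_W`, `W_bounds`, `abs_φ`, `grad_φ`, `KK_int`,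
`abs_Γ2_sub_le`, `Γ2 π ≤ 2 (Γf)² + 2 (f-c₀)² Γ2 f`. -/
theorem BH (hn : 1 ≤ n) (X : Sp.{u} n) (x : X.M) {s : ℝ} (hs : X.h.ok s) (hK : X.h.KK x s ≠ ⊤)
    {f : X.M → ℝ} (hf : X.h.Nice f) (hΔ : X.h.Nice (X.h.Δ f)) (c₀ : ℝ) {π : X.M → ℝ}
    (hπ : π = fun y => (f y - c₀) ^ 2 / 2) :
    Integrable (fun y => X.h.H s x y * (X.h.Γ2 (X.h.φ s x) π y - 1 / (2 * s) * X.h.Δ π y)) X.h.m ∧
    X.h.P s (X.h.L s x π) x = 0 ∧
    2 * s * X.h.P s (fun y => X.h.Γ2 (X.h.φ s x) π y - 1 / (2 * s) * X.h.Δ π y) x =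
      -X.h.P s (fun y => X.h.L s x π y * X.h.vW s x y) x + 2 * s * X.h.k * X.h.P s (X.h.Γ π (X.h.φ s x)) x :=
  BH' hn X x hs hK hf hΔ c₀ hπ

/-- `|vW| ≤ n + 2|ζ| + tΓφ + |φ + log θ| + |log (θ t^{n/2})|`; `ζ_W`, `W_bounds`, `grad_φ`, `abs_φ`. -/
theorem vW_int (n : ℕ) (hn : 1 ≤ n) (R : ℝ) : ∃ C : ℝ, 0 < C ∧ ∀ (X : Sp.{u} n) {t : ℝ}, X.h.ok t → ∀ x,
    Integrable (fun y => X.h.H t x y * (|X.h.vW t x y| * Real.exp (R * dist x y / Real.sqrt t))) X.h.m ∧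
    X.h.P t (fun y => |X.h.vW t x y| * Real.exp (R * dist x y / Real.sqrt t)) x ≤
      C * (1 + |Real.log (X.h.th t x)| + |Real.log t|) :=
  vW_int' n hn R

/-- `θ a ≤ (s/a)^{2n} θ s` (`harnack` with `x = y = z`), `θ s ≤ θ a`. -/
theorem log_th_lim (X : Sp.{u} n) (x : X.M) :
    Tendsto (fun a => Real.sqrt a * (1 + |Real.log (X.h.th a x)| + |Real.log a|)) (𝓝[>] 0) (𝓝 0) :=
  log_th_lim' X x

/-- Recipe: `dual` on `[a,s]` with `e σ = vW σ · H σ` (`heat_vW`), `w = χ j p`; `j → ∞` by dominated convergence (`P_gr`, `vW_int`, `KK_STI`); `P_modulus` bounds `P (s-σ) p`; `KK_int`, `kap_low`, `grad_φ` for the `k`-term;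
`a → 0` by `vW_int`, `log_th_lim`. -/
theorem vW_dual (n : ℕ) (hn : 1 ≤ n) (R : ℝ) : ∃ C : ℝ, 0 < C ∧ ∀ (X : Sp.{u} n) (x : X.M)
    {s T₁ a B : ℝ} {p : X.M → ℝ}, X.h.ok s → s ≤ T₁ → X.h.Ent x T₁ ≠ ⊤ → 0 ≤ a → a ≤ 1 / 2 → X.h.S p →
      Gr x s B R p → X.h.P s p x = 0 →
      |X.h.P s (fun y => p y * X.h.vW s x y) x| ≤ C * B * (X.h.kap x T₁ a s + X.h.k * s) :=
  vW_dual' n hn R

/-- Recipe: `v = u ξ - P s u ξ x`, `π = v²/2`, `L π = v L u - Γ u` has growth `C g` (`hyp_gr`, `hyp_weight`); `abs_Γ2_half_sq` with `a = 1/2s`, `BH`, `vW_dual`;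
`4s ∫ H |v| √D √Γ2 ≤ C √(g KK · s q)` (`P_cs`, `KK_int`). -/
theorem e_bound (n : ℕ) (hn : 1 ≤ n) (γ ν : ℝ) (hγ : 0 < γ) (hγ' : γ ≤ 1 / 2) (hν : 0 < ν) :
    ∃ C e₀ : ℝ, 0 < C ∧ 0 < e₀ ∧ ∀ (X : Sp.{u} n) (c : Crd X) (x : X.M) {s₀ T₁ e s : ℝ}, e ≤ e₀ →
      c.Hyp x s₀ T₁ e → s ∈ Icc s₀ T₁ → X.h.KK x s ≠ ⊤ → ∀ ξ,
      |4 * s * X.h.P s (X.h.Hs (X.h.φ s x) (c.u ξ) (c.u ξ)) x - 2 * qf (c.G s x) ξ| ≤
        ν * (s * qf (c.Q s x) ξ) + C * qf (c.G s x) ξ * (X.h.κ x T₁ γ s + (X.h.KK x s).toReal) := by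
  obtain ⟨C₁, e₁, hC₁, he₁, hgr⟩ := hyp_gr.{u} n
  obtain ⟨C₂, e₂, hC₂, he₂, hw⟩ := hyp_weight.{u} n
  obtain ⟨C₃, hC₃, hvW⟩ := vW_dual.{u} n hn 4
  obtain ⟨C₄, hC₄, hP⟩ := P_gr.{u} n 4
  obtain ⟨C₅, hC₅, hKK⟩ := KK_int.{u} n hn 4
  refine ⟨4 * C₃ * (C₁ ^ 2 + C₂) + 4 * C₄ * (C₁ ^ 2 + C₁ * √C₂) + 4 / ν * C₁ ^ 2 * C₅, min 1 (min e₁ e₂),
    by positivity, by positivity, fun X c x s₀ T₁ e s he h hs hK ξ => ?_⟩
  simp only [le_min_iff] at he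
  have hs0 : 0 < s := h.s₀_pos.trans_le hs.1
  have hsT : s ≤ 10 ^ 5 * T₁ := by linarith [hs.2, h.T₁_pos]
  obtain ⟨t₁, ok, -, -⟩ := h.times he.1 hs0 hsT
  obtain ⟨-, -, k₁, k₂, -, -⟩ := h.κ_bounds he.1 hγ hγ' hs0 hs.2
  have hτ : c.T ∈ Icc (c.T - s) (c.T + s) := ⟨by linarith, by linarith⟩
  obtain ⟨g₁, g₂⟩ := hgr X c x he.2.1 h s ⟨hs.1, hsT⟩ ξ
  replace g₁ : Gr x s _ 2 (X.h.L s x (c.u ξ)) := (g₁ c.T hτ).1
  have g₃ : ∀ y, X.h.Γ (c.u ξ) (c.u ξ) y ≤ _ ∧ _ ∧ s * X.h.Δ (c.u ξ) y ^ 2 ≤ _ ∧ _ :=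
    hw X c x he.2.2 h s ⟨hs.1, hsT⟩ c.T hτ ξ
  have hQ := c.qf_Q (s := s) ⟨hs0, by linarith [c.T_pos]⟩ x ξ
  have iQ := (c.HΓ2_int (s := s) ⟨hs0, by linarith [c.T_pos]⟩ x ξ ξ 0).1
  have hG := c.qf_G hs0 x ξ
  have hg := MC.psd_qf (c.G_psd hs0 x) ξ
  obtain ⟨n₁, n₂⟩ := c.u_nice ξ
  generalize qf (c.G s x) ξ = g at *
  generalize qf (c.Q s x) ξ = q at *
  generalize c.u ξ = f at *
  have hf := n₁.1.1
  have hφ := X.h.φ_S hs0 x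
  generalize X.h.P s f x = m at g₂
  obtain ⟨π, hπ⟩ : ∃ π : X.M → ℝ, π = fun y => (f y - m) ^ 2 / 2 := ⟨_, rfl⟩
  obtain ⟨hS, hh⟩ := half_sq hf m hπ
  obtain ⟨iA, b₁, b₂⟩ := BH hn X x ok hK n₁ n₂ m hπ
  have iB := (rellich hn X x ok hK n₁ n₂).1
  have iΓ := X.h.h2g_int n₁ hs0 x
  obtain ⟨iD, bD⟩ := hKK X ok x hK
  have a₁ : √(s * g) * √(g / s) = g := by
    rw [← Real.sqrt_mul (by positivity), show s * g * (g / s) = g ^ 2 by field_simp, Real.sqrt_sq hg]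
  have a₂ : ∀ y, Real.exp (4 * dist x y / √s) = Real.exp (2 * dist x y / √s) ^ 2 := fun y => by
    rw [← Real.exp_nat_mul]; congr 1; push_cast; ring
  have a₃ : ∀ y, 1 + dist x y / √s ≤ Real.exp (2 * dist x y / √s) := fun y => by
    have := Real.add_one_le_exp (2 * dist x y / √s)
    have : 0 ≤ dist x y / √s := by positivity
    rw [mul_div_assoc] at *
    linarith
  have a₄ : ∀ y, 1 ≤ Real.exp (2 * dist x y / √s) := fun y => Real.one_le_exp (by positivity)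
  have a₅ : ∀ y, |(f y - m) * X.h.L s x f y| ≤ C₁ ^ 2 * g * Real.exp (4 * dist x y / √s) := fun y => by
    rw [abs_mul, a₂]
    refine (mul_le_mul (g₂ y) (g₁ y) (abs_nonneg _) (by positivity)).trans_eq ?_
    linear_combination (C₁ ^ 2 * Real.exp (2 * dist x y / √s) ^ 2) * a₁
  have a₆ : ∀ y, X.h.Γ π (X.h.φ s x) y = (f y - m) * X.h.Γ f (X.h.φ s x) y := fun y => by
    rw [Raw.Γ, (hh y).1, smul_dotProduct, smul_eq_mul, Raw.Γ]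
  have p₁ : Gr x s ((C₁ ^ 2 + C₂) * g) 4 (X.h.L s x π) := fun y => by
    have e₁ : X.h.L s x π y = (f y - m) * X.h.L s x f y - X.h.Γ f f y := by
      rw [HS.L, HS.L, a₆, (hh y).2.1]; ring
    have e₂ : X.h.Γ f f y ≤ C₂ * g * Real.exp (4 * dist x y / √s) := (g₃ y).1.trans (by
      rw [a₂]
      exact mul_le_mul_of_nonneg_left ((a₃ y).trans (by nlinarith [a₄ y])) (by positivity))
    have := abs_le.1 (a₅ y)
    have := X.h.Γ_nonneg f y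
    rw [e₁, abs_le]
    constructor <;> nlinarith
  have p₂ : Gr x s ((C₁ ^ 2 + C₁ * √C₂) * g) 4 (X.h.Γ π (X.h.φ s x)) := fun y => by
    have e₁ : X.h.Γ π (X.h.φ s x) y = (f y - m) * X.h.L s x f y + (f y - m) * X.h.Δ f y := by
      rw [HS.L, a₆]; ring
    have e₂ : |X.h.Δ f y| ≤ √C₂ * √(g / s) := by
      rw [← Real.sqrt_mul hC₂.le]
      refine Real.abs_le_sqrt ?_
      rw [← mul_div_assoc, le_div_iff₀ hs0, mul_comm]
      refine (g₃ y).2.2.1.trans (mul_le_mul_of_nonneg_right (mul_le_of_le_one_right hC₂.le ?_) hg)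
      exact pow_le_one₀ h.e_pos.le he.1
    have e₃ : |(f y - m) * X.h.Δ f y| ≤ C₁ * √C₂ * g * Real.exp (4 * dist x y / √s) := by
      rw [abs_mul, a₂]
      refine (mul_le_mul (g₂ y) e₂ (abs_nonneg _) (by positivity)).trans ?_
      rw [show C₁ * √(s * g) * Real.exp (2 * dist x y / √s) * (√C₂ * √(g / s)) =
        C₁ * √C₂ * (√(s * g) * √(g / s)) * Real.exp (2 * dist x y / √s) by ring, a₁]
      exact mul_le_mul_of_nonneg_left (by nlinarith [a₄ y]) (by positivity)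
    rw [e₁]
    refine (abs_add_le _ _).trans ?_
    linarith [a₅ y]
  have q₁ := hvW X x ok hs.2 h.ent_ne (a := γ / 16) (p := X.h.L s x π) (by positivity) (by linarith)
    (X.h.S_sub (X.h.S_Γ hS hφ) (X.h.S_Δ hS)) p₁ b₁
  have q₂ := (hP X hs0 (by linarith) (ok.2.trans (by norm_num)) x x
    (X.h.S_cont (X.h.S_Γ hS hφ)).aestronglyMeasurable p₂).2
  simp only [dist_self, mul_zero, zero_div, Real.exp_zero, mul_one] at q₂
  have q₃ := X.h.abs_P_le_P hs0 (x := x) (f := fun y => 4 * s * (X.h.Γ2 (X.h.φ s x) π y - 1 / (2 * s) * X.h.Δ π y -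
      (X.h.Hs (X.h.φ s x) f f y - 1 / (2 * s) * X.h.Γ f f y)))
    (f' := fun y => ν * s * X.h.Γ2 f f y + 4 / ν * C₁ ^ 2 * g * (X.h.Dφ s x y * Real.exp (4 * dist x y / √s)))
    (((iQ.const_mul (ν * s)).add (iD.const_mul (4 / ν * C₁ ^ 2 * g))).congr (.of_forall fun y => by
      simp only [Pi.add_apply]; ring)) fun y => by
      have hv := X.h.S_sub hf (X.h.S_const m)
      have r₁ : X.h.grad (fun y => f y - m) y = X.h.grad f y := by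
        rw [X.h.grad_sub hf (X.h.S_const m), X.h.grad_const, sub_zero]
      have r₂ : X.h.hess (fun y => f y - m) y = X.h.hess f y := by
        rw [X.h.hess_sub hf (X.h.S_const m), X.h.hess_const, sub_zero]
      have r₃ := X.h.abs_Γ2_half_sq hφ hv (1 / (2 * s)) y
      rw [← hπ, X.h.Γ2_eq hv hv, X.h.Hs_eq hφ hv hv, Raw.Γ, r₁, r₂, ← X.h.Γ2_eq hf hf, ← X.h.Hs_eq hφ hf hf,
        ← Raw.Γ] at r₃
      have r₄ := Real.sq_sqrt (X.h.Γ2_nonneg hf y)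
      have r₅ := Real.sq_sqrt (X.h.D_nonneg hφ (1 / (2 * s)) y)
      have r₆ := pow_le_pow_left₀ (abs_nonneg _) (g₂ y) 2
      rw [mul_pow, mul_pow, Real.sq_sqrt (by positivity), ← a₂] at r₆
      have r₇ := mul_le_mul_of_nonneg_left r₆ (by positivity :
        0 ≤ 4 / ν * s * √(X.h.D (X.h.φ s x) (1 / (2 * s)) y) ^ 2)
      have r₈ : 0 ≤ s / ν * (ν * √(X.h.Γ2 f f y) - 2 * (|f y - m| * √(X.h.D (X.h.φ s x) (1 / (2 * s)) y))) ^ 2 := by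
        positivity
      rw [abs_mul, abs_of_pos (by positivity : 0 < 4 * s), HS.Dφ]
      refine (mul_le_mul_of_nonneg_left r₃ (by positivity)).trans ?_
      rw [← r₄, ← r₅, Real.sqrt_sq (Real.sqrt_nonneg _), Real.sqrt_sq (Real.sqrt_nonneg _)]
      generalize √(X.h.Γ2 f f y) = A at *
      generalize √(X.h.D (X.h.φ s x) (1 / (2 * s)) y) = B at *
      have r₉ : s / ν * (ν * A - 2 * (|f y - m| * B)) ^ 2 =
          ν * s * A ^ 2 - 4 * s * (|f y - m| * B * A) + 4 / ν * s * B ^ 2 * |f y - m| ^ 2 := by field_simp; ring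
      nlinarith
  have iC : Integrable (fun y => X.h.H s x y * (1 / (2 * s) * X.h.Γ f f y)) X.h.m :=
    (iΓ.const_mul (1 / (2 * s))).congr (.of_forall fun y => by ring)
  have iE : Integrable (fun y => X.h.H s x y * (X.h.Hs (X.h.φ s x) f f y - 1 / (2 * s) * X.h.Γ f f y)) X.h.m :=
    (iB.sub iC).congr (.of_forall fun y => by simp only [Pi.sub_apply]; ring)
  rw [X.h.P_cmul, X.h.P_sub iA iE, X.h.P_sub iB iC, X.h.P_cmul,
    X.h.P_add ((iQ.const_mul (ν * s)).congr (.of_forall fun y => by ring))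
      ((iD.const_mul (4 / ν * C₁ ^ 2 * g)).congr (.of_forall fun y => by ring)), X.h.P_cmul, X.h.P_cmul] at q₃
  have q₄ := mul_le_mul_of_nonneg_left bD (by positivity : 0 ≤ 4 / ν * C₁ ^ 2 * g)
  have q₅ : 4 * s * (1 / (2 * s) * g) = 2 * g := by field_simp; ring
  have q₆ : |4 * (X.h.k * s) * X.h.P s (X.h.Γ π (X.h.φ s x)) x| ≤
      4 * X.h.κ x T₁ γ s * (C₄ * ((C₁ ^ 2 + C₁ * √C₂) * g)) := by
    have := mul_nonneg X.h.k_nonneg hs0.le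
    rw [abs_mul, abs_of_nonneg (by positivity)]
    exact mul_le_mul (by linarith) q₂ (abs_nonneg _) (by positivity)
  have q₇ := q₁.trans (mul_le_mul_of_nonneg_left (add_le_add_right k₁ _) (by positivity))
  erw [← hG, ← hQ] at q₃
  have K0 : 0 ≤ (X.h.KK x s).toReal := ENNReal.toReal_nonneg
  have q₈ : 0 ≤ (4 * C₃ * (C₁ ^ 2 + C₂) + 4 * C₄ * (C₁ ^ 2 + C₁ * √C₂)) * g * (X.h.KK x s).toReal := by positivity
  have q₉ : 0 ≤ 4 / ν * C₁ ^ 2 * C₅ * g * X.h.κ x T₁ γ s := by positivity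
  rw [show X.h.kap x T₁ (γ / 16) s = X.h.κ x T₁ γ s from rfl] at q₇
  rw [abs_le] at q₃ q₆ q₇ ⊢
  constructor <;> linarith [q₃.1, q₃.2, q₆.1, q₆.2, q₇.1, q₇.2]

/-- Linear algebra: `N' = 2 s m G - J ≥ 0` and `N' ≤ 4ν J`. -/
theorem theta_alg {G J : Mat n} (hG : G.PosDef) (hJ : J.PosDef) {s m ν : ℝ} (hs : 0 < s) (hm : 1 ≤ m)
    (hν : ν ≤ 1 / 4) (hmν : m - 1 ≤ ν) (h₁ : ∀ η, qf J η ≤ 2 * s * m * qf G η)
    (h₂ : ∀ η, |qf J η - 2 * s * qf G η| ≤ ν * (2 * s * qf G η)) {ξ ζ : V n}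
    (h : J *ᵥ ζ = (2 * s) • G *ᵥ ξ) :
    qf J (ζ - ξ) ≤ 8 * ν * max (2 * s * qf G ξ - qf J ξ) 0 + 20 * (m - 1) * s * qf G ξ := by
  have s₁ := MC.psd_symm hG.posSemidef
  have s₂ := MC.psd_symm hJ.posSemidef
  have e₁ : ∀ η, qf ((2 * s * m) • G - J) η = 2 * s * m * qf G η - qf J η := fun η => by
    rw [MC.qf_msub, MC.qf_msmul]
  have hN : ((2 * s * m) • G - J).PosSemidef := by
    refine PosSemidef.of_dotProduct_mulVec_nonneg ?_ fun η => ?_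
    · rw [IsHermitian, conjTranspose_eq_transpose_of_trivial, transpose_sub, transpose_smul, s₁, s₂]
    · have := e₁ η
      rw [star_trivial]
      exact (sub_nonneg.2 (h₁ η)).trans_eq this.symm
  have hν0 : 0 ≤ ν := by linarith
  set w := ζ - ξ with hw
  have e₂ : qf J w = bf ((2 * s * m) • G - J) w ξ - 2 * s * (m - 1) * bf G w ξ := by
    rw [qf, hw, mulVec_sub, h]
    simp only [bf, sub_mulVec, smul_mulVec, dotProduct_sub, dotProduct_smul, smul_eq_mul]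
    ring
  have g₁ := MC.psd_qf hG.posSemidef w
  have g₂ := MC.psd_qf hG.posSemidef ξ
  have j₁ := MC.psd_qf hJ.posSemidef w
  have a₁ := (abs_le.1 (h₂ w)).1
  have a₂ : s * qf G w ≤ 2 / 3 * qf J w := by nlinarith [mul_nonneg hs.le g₁]
  have a₃ : qf ((2 * s * m) • G - J) w ≤ 8 / 3 * ν * qf J w := by
    rw [e₁]
    nlinarith [mul_nonneg hs.le g₁, mul_le_mul_of_nonneg_left a₂ hν0]
  have a₄ := MC.psd_qf hN ξ
  have a₅ : bf ((2 * s * m) • G - J) w ξ ≤ qf J w / 6 + 4 * ν * qf ((2 * s * m) • G - J) ξ := by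
    refine (abs_le_of_sq_le_sq' ?_ (by positivity)).2
    have := pow_le_pow_left₀ (abs_nonneg _) (MC.abs_bf_le hN w ξ) 2
    rw [mul_pow, MC.sn_sq hN, MC.sn_sq hN, sq_abs] at this
    nlinarith [mul_le_mul_of_nonneg_right a₃ a₄, sq_nonneg (qf J w / 6 - 4 * ν * qf ((2 * s * m) • G - J) ξ)]
  have a₆ := MC.psd_qf hG.posSemidef (w + ξ)
  rw [MC.qf_vadd s₁] at a₆
  have a₇ := mul_nonneg (mul_nonneg hs.le (sub_nonneg.2 hm)) a₆
  have a₈ := mul_le_mul (hmν.trans hν) a₂ (mul_nonneg hs.le g₁) (by norm_num)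
  have a₉ := mul_le_mul_of_nonneg_left (le_max_left (2 * s * qf G ξ - qf J ξ) 0) hν0
  have b₁ := mul_nonneg hν0 (le_max_right (2 * s * qf G ξ - qf J ξ) 0)
  have b₂ := mul_nonneg (mul_nonneg hs.le (sub_nonneg.2 hm)) g₂
  have b₃ := mul_le_mul_of_nonneg_right hν b₂
  rw [e₁] at a₅
  nlinarith

/-- Recipe: `exists_proj` for `ψ = 2 s L u ξ`: `J ζ = 2 s G ξ` (`L_CG`), the remainder `r` has `P r² = P (r · 2sLu) ≤ √(C s g κ P r²)` (`beta`); `ϑ = (u (ζ-ξ) - mean) + r`, `theta_alg` with `m = e^{2ks}`. -/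
theorem theta (n : ℕ) (hn : 1 ≤ n) (γ ν : ℝ) (hγ : 0 < γ) (hγ' : γ ≤ 1 / 2) (hν : 0 < ν) :
    ∃ C δ e₀ : ℝ, 0 < C ∧ 0 < δ ∧ δ ≤ 1 ∧ 0 < e₀ ∧ ∀ (X : Sp.{u} n) (c : Crd X) (x : X.M)
      {s₀ T₁ e s : ℝ}, e ≤ e₀ → c.HG x s₀ T₁ e γ → s₀ ≤ δ * s → s ≤ T₁ → ∀ ξ,
      X.h.P s (fun y => (2 * s * X.h.L s x (c.u ξ) y - (c.u ξ y - X.h.P s (c.u ξ) x)) ^ 2) x ≤
        ν * s * max (c.dl x ξ s) 0 + C * s * qf (c.G s x) ξ * X.h.κ x T₁ γ s := by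
  obtain ⟨C, e₁, hC, he₁, hβ⟩ := beta_cor.{u} n hn γ hγ hγ'
  have hν' : 0 < min (ν / 16) (1 / 4) := by positivity
  obtain ⟨δ, e₂, hδ, hδ', he₂, hJG⟩ := JG.{u} n _ hν'
  obtain ⟨e₃, he₃, hsm⟩ := hyp_small.{u} n
  refine ⟨2 * C + 160, δ, min (min e₁ e₂) (min e₃ (min (ν / 16) (1 / 4) / 4)), by positivity, hδ, hδ', by positivity,
    fun X c x s₀ T₁ e s he h hs hT ξ => ?_⟩
  simp only [le_min_iff] at he
  have hν₁ := min_le_left (ν / 16) (1 / 4)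
  have hν₂ := min_le_right (ν / 16) (1 / 4)
  generalize min (ν / 16) (1 / 4) = ν' at *
  have hs0 : 0 < s := (mul_pos_iff_of_pos_left hδ).1 (h.s₀_pos.trans_le hs)
  have hs1 : s₀ ≤ s := hs.trans (mul_le_of_le_one_left hs0.le hδ')
  have he1 : e ≤ 1 := by linarith [he.2.2]
  have hsT : s ≤ 10 ^ 5 * T₁ := by linarith [h.T₁_pos]
  obtain ⟨-, ok, -, t₁⟩ := h.toHyp.times he1 hs0 hsT
  obtain ⟨-, -, k₁, k₂, -, -⟩ := h.toHyp.κ_bounds he1 hγ hγ' hs0 hT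
  obtain ⟨hJ, h₂⟩ := hJG X c x he.1.2 h.toHyp hs hT
  have hG := (hsm X c x he.2.1 h.toHyp s ⟨hs1, hsT⟩).1
  obtain ⟨ζ, hζ⟩ : ∃ ζ, c.J s x *ᵥ ζ = (2 * s) • c.G s x *ᵥ ξ := ⟨_, MC.pd_mul_inv hJ _⟩
  have k₀ := mul_nonneg X.h.k_nonneg hs0.le
  have k₃ : X.h.k * s ≤ e := t₁.trans (by nlinarith [h.e_pos])
  have k₄ : Real.exp (2 * X.h.k * s) - 1 ≤ 4 * (X.h.k * s) := by
    have := (abs_le.1 (Real.abs_exp_sub_one_le (x := 2 * X.h.k * s)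
      (by rw [abs_of_nonneg (by linarith)]; linarith [he.2.2]))).2
    rw [abs_of_nonneg (by linarith)] at this
    linarith
  have a₁ := theta_alg hG hJ hs0 (Real.one_le_exp (by linarith)) hν₂ (by linarith [he.2.2]) (c.J_le hs0 x) h₂ hζ
  have cu : ∀ η, CG x s (c.u η) := fun η => by
    obtain ⟨⟨h, B, hB⟩, -⟩ := c.u_nice η
    exact CG.of_bdd (X.h.S_cont h.1) fun y => (hB y).1
  have cL := (L_CG X x ok (c.u_nice ξ).1 (c.u_nice ξ).2).2.1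
  have cr := (cL.cmul (2 * s)).sub ((cu ζ).sub (CG.const x s (X.h.P s (c.u ζ) x)))
  have b₁ := hβ X c x he.1.1 h ⟨hs1, hT⟩ hJ cr ξ ζ hζ
  obtain ⟨r, hr⟩ : ∃ r : X.M → ℝ, r = fun y => 2 * s * X.h.L s x (c.u ξ) y - (c.u ζ y - X.h.P s (c.u ζ) x) := ⟨_, rfl⟩
  simp only [← congrFun hr] at b₁ cr
  have I : ∀ {f}, CG x s f → Integrable (fun y => X.h.H s x y * f y) X.h.m := fun h => (CG.bd ok h).2.1
  have b₂ : X.h.P s (fun y => r y ^ 2) x =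
      2 * s * X.h.P s (fun y => r y * X.h.L s x (c.u ξ) y) x - X.h.Cov s x r (c.u ζ) := by
    rw [HS.Cov, mul_comm (X.h.P s r x), ← X.h.P_cmul, ← X.h.P_cmul, ← X.h.P_sub (I (cr.mul (cu ζ))) (I (cr.cmul _)),
      ← X.h.P_sub (I ((cr.mul cL).cmul _)) (I ((cr.mul (cu ζ)).sub (cr.cmul _)))]
    congr 1; funext y
    rw [sq]; nth_rw 2 [hr]; ring
  have g₀ := MC.psd_qf hG.posSemidef ξ
  have b₃ : X.h.P s (fun y => r y ^ 2) x ≤ C * (s * qf (c.G s x) ξ * X.h.κ x T₁ γ s) := by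
    erw [← b₂] at b₁
    by_contra hc
    have : 0 ≤ C * (s * qf (c.G s x) ξ * X.h.κ x T₁ γ s) := by positivity
    nlinarith
  have cw := cu (ζ - ξ)
  have b₄ : X.h.P s (fun y => (c.u (ζ - ξ) y - X.h.P s (c.u (ζ - ξ)) x) ^ 2) x = qf (c.J s x) (ζ - ξ) := by
    rw [← MC.bf_self, c.bf_J hs0, HS.Cov]
    generalize c.u (ζ - ξ) = w at *
    have : (fun y => (w y - X.h.P s w x) ^ 2) = fun y => w y * w y - (2 * X.h.P s w x * w y - X.h.P s w x ^ 2) := by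
      funext y; ring
    rw [this, X.h.P_sub (I (cw.mul cw)) (I ((cw.cmul _).sub (CG.const x s _))),
      X.h.P_sub (I (cw.cmul _)) (I (CG.const x s _)), X.h.P_cmul, X.h.P_const hs0]
    ring
  have b₅ : X.h.P s (c.u (ζ - ξ)) x = X.h.P s (c.u ζ) x - X.h.P s (c.u ξ) x := by
    rw [c.u_sub, X.h.P_sub (I (cu ζ)) (I (cu ξ))]
  have i₁ := (CG.bd ok cr).2.2
  have i₂ := (CG.bd ok (cw.sub (CG.const x s (X.h.P s (c.u (ζ - ξ)) x)))).2.2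
  have b₆ := X.h.P_mono hs0 (CG.bd ok ((cL.cmul (2 * s)).sub ((cu ξ).sub (CG.const x s (X.h.P s (c.u ξ) x))))).2.2
    (f' := fun y => 2 * (r y ^ 2 + (c.u (ζ - ξ) y - X.h.P s (c.u (ζ - ξ)) x) ^ 2))
    (((i₁.add i₂).const_mul 2).congr (.of_forall fun y => by simp only [Pi.add_apply]; ring)) fun y => by
      have : 2 * s * X.h.L s x (c.u ξ) y - (c.u ξ y - X.h.P s (c.u ξ) x) =
          r y + (c.u (ζ - ξ) y - X.h.P s (c.u (ζ - ξ)) x) := by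
        rw [b₅, c.u_sub, hr]; ring
      rw [this]
      nlinarith [sq_nonneg (r y - (c.u (ζ - ξ) y - X.h.P s (c.u (ζ - ξ)) x))]
  rw [X.h.P_cmul, X.h.P_add i₁ i₂, b₄] at b₆
  have b₇ : max (2 * s * qf (c.G s x) ξ - qf (c.J s x) ξ) 0 = s * max (c.dl x ξ s) 0 := by
    rw [mul_max_of_nonneg _ _ hs0.le, mul_zero, Crd.dl]
    congr 1; field_simp
  rw [b₇] at a₁
  have b₈ := mul_le_mul_of_nonneg_right hν₁ (mul_nonneg hs0.le (le_max_right (c.dl x ξ s) 0))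
  have b₉ := mul_le_mul_of_nonneg_right (k₄.trans (mul_le_mul_of_nonneg_left k₁ (by norm_num))) (mul_nonneg hs0.le g₀)
  nlinarith

theorem s7a_theta_eq (hn : 1 ≤ n) {X : Sp.{u} n} (c : Crd X) (x : X.M) {s : ℝ} (hs : X.h.ok s)
    (hsI : s ∈ Ioc 0 (2 * c.T)) (hK : X.h.KK x s ≠ ⊤) (ξ : V n) :
    X.h.P s (fun y => (2 * s * X.h.L s x (c.u ξ) y - (c.u ξ y - X.h.P s (c.u ξ) x)) ^ 2) x =
      s * (4 * s * qf (c.Q s x) ξ - c.dl x ξ s +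
        (4 * s * X.h.P s (X.h.Hs (X.h.φ s x) (c.u ξ) (c.u ξ)) x - 2 * qf (c.G s x) ξ) -
        4 * (X.h.k * s) * qf (c.G s x) ξ) := by
  have hs0 := hs.1
  obtain ⟨hf, hΔ⟩ := c.u_nice ξ
  obtain ⟨-, hR⟩ := rellich hn X x hs hK hf hΔ
  obtain ⟨hLS, hLG, -, hL0, hLf⟩ := L_CG X x hs hf hΔ
  have hL1 := hLf _ hf
  obtain ⟨B, hB⟩ := hf.2
  have hu : CG x s (c.u ξ) := CG.of_bdd (X.h.S_cont hf.1.1) fun y => (hB y).1
  have hJ : qf (c.J s x) ξ = X.h.Cov s x (c.u ξ) (c.u ξ) := c.bf_J hs0 x ξ ξ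
  rw [Crd.dl, hJ, c.qf_G hs0, c.qf_Q hsI, HS.Cov]
  set m := X.h.P s (c.u ξ) x with hm
  have i₁ := (CG.bd hs hLG).2.2
  have i₂ := (CG.bd hs (hu.mul hLG)).2.1
  have i₃ := (CG.bd hs hLG).2.1
  have i₄ := (CG.bd hs (hu.mul hu)).2.1
  have i₅ := (CG.bd hs hu).2.1
  have i₆ := (X.h.H_int hs0 x).1
  have e : X.h.P s (fun y => (2 * s * X.h.L s x (c.u ξ) y - (c.u ξ y - m)) ^ 2) x =
      ∫ y, (4 * s ^ 2 * (X.h.H s x y * X.h.L s x (c.u ξ) y ^ 2) -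
        4 * s * (X.h.H s x y * (c.u ξ y * X.h.L s x (c.u ξ) y)) +
        4 * s * m * (X.h.H s x y * X.h.L s x (c.u ξ) y) + X.h.H s x y * (c.u ξ y * c.u ξ y) -
        2 * m * (X.h.H s x y * c.u ξ y) + m ^ 2 * X.h.H s x y) ∂X.h.m := by
    simp only [HS.P, kerP]
    exact integral_congr_ae (.of_forall fun y => by ring)
  have j₁ := (i₁.const_mul (4 * s ^ 2)).sub (i₂.const_mul (4 * s))
  have j₂ := j₁.add (i₃.const_mul (4 * s * m))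
  have j₃ := j₂.add i₄
  have j₄ := j₃.sub (i₅.const_mul (2 * m))
  rw [e, integral_add (by exact j₄) (i₆.const_mul _), integral_sub (by exact j₃) (i₅.const_mul _),
    integral_add (by exact j₂) i₄, integral_add (by exact j₁) (i₃.const_mul _),
    integral_sub (i₁.const_mul _) (i₂.const_mul _)]
  simp only [integral_const_mul, X.h.int_H hs0]
  simp only [HS.P, kerP] at hR hL0 hL1 hm ⊢
  rw [hR, hL0, hL1, ← hm]
  field_simp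
  ring

/-- `P ϑ²/s = 4 s q - dl + (4s P Hs - 2g) - 4 s k g` (`rellich`, `L_CG`); `e_bound`, `theta` with `ν = 1/32`. -/
theorem dl_point (n : ℕ) (hn : 1 ≤ n) (γ : ℝ) (hγ : 0 < γ) (hγ' : γ ≤ 1 / 2) :
    ∃ C δ e₀ : ℝ, 0 < C ∧ 0 < δ ∧ δ ≤ 1 ∧ 0 < e₀ ∧ ∀ (X : Sp.{u} n) (c : Crd X) (x : X.M)
      {s₀ T₁ e s : ℝ}, e ≤ e₀ → c.HG x s₀ T₁ e γ → s₀ ≤ δ * s → s ≤ T₁ → X.h.KK x s ≠ ⊤ → ∀ ξ,
      c.dl x ξ s ≤ 5 * s * qf (c.Q s x) ξ +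
        C * qf (c.G s x) ξ * (X.h.κ x T₁ γ s + (X.h.KK x s).toReal) ∧
      4 * s * qf (c.Q s x) ξ ≤ 17 / 16 * max (c.dl x ξ s) 0 +
        C * qf (c.G s x) ξ * (X.h.κ x T₁ γ s + (X.h.KK x s).toReal) := by
  obtain ⟨C₁, e₁, hC₁, he₁, h₁⟩ := e_bound.{u} n hn γ (1 / 32) hγ hγ' (by norm_num)
  obtain ⟨C₂, δ, e₂, hC₂, hδ, hδ1, he₂, h₂⟩ := theta.{u} n hn γ (1 / 32) hγ hγ' (by norm_num)
  refine ⟨2 * (C₁ + C₂ + 4), δ, min (min e₁ e₂) 1, by positivity, hδ, hδ1, by positivity, ?_⟩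
  intro X c x s₀ T₁ e s he hH hs₀ hT hK ξ
  simp only [le_min_iff] at he
  have hs0 : 0 < s := (mul_pos_iff_of_pos_left hδ).1 (hH.s₀_pos.trans_le hs₀)
  have hs₁ : s₀ ≤ s := hs₀.trans (mul_le_of_le_one_left hs0.le hδ1)
  obtain ⟨hsT, hok, -, -⟩ := hH.toHyp.times he.2 hs0 (hT.trans (by nlinarith [hH.T₁_pos]))
  obtain ⟨-, -, hkκ, hκ, -, -⟩ := hH.toHyp.κ_bounds he.2 hγ hγ' hs0 hT
  have hsI : s ∈ Ioc 0 (2 * c.T) := ⟨hs0, hsT.trans (by linarith [c.T_pos])⟩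
  have E := abs_le.1 (h₁ X c x he.1.1 hH.toHyp ⟨hs₁, hT⟩ hK ξ)
  have Θ := h₂ X c x he.1.2 hH hs₀ hT ξ
  have Θ0 := X.h.P_nonneg hs0 x (f := fun y =>
    (2 * s * X.h.L s x (c.u ξ) y - (c.u ξ y - X.h.P s (c.u ξ) x)) ^ 2) fun y => sq_nonneg _
  rw [s7a_theta_eq hn c x hok hsI hK ξ] at Θ Θ0
  have hg := MC.psd_qf (c.G_psd hs0 x) ξ
  have hq := MC.psd_qf (c.Q_psd hsI x) ξ
  have hK0 : 0 ≤ (X.h.KK x s).toReal := ENNReal.toReal_nonneg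
  have hk := X.h.k_nonneg
  have hm₁ := le_max_left (c.dl x ξ s) 0
  have hm₂ := le_max_right (c.dl x ξ s) 0
  generalize max (c.dl x ξ s) 0 = m at *
  generalize c.dl x ξ s = d at *
  generalize X.h.P s (X.h.Hs (X.h.φ s x) (c.u ξ) (c.u ξ)) x = h at *
  generalize qf (c.G s x) ξ = g at *
  generalize qf (c.Q s x) ξ = q at *
  generalize (X.h.KK x s).toReal = K at *
  generalize X.h.κ x T₁ γ s = κ at *
  generalize X.h.k = k at *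
  replace Θ0 := (mul_nonneg_iff_of_pos_left hs0).1 Θ0
  replace Θ : 4 * s * q - d + (4 * s * h - 2 * g) - 4 * (k * s) * g ≤ 1 / 32 * m + C₂ * g * κ :=
    le_of_mul_le_mul_left (Θ.trans_eq (by ring)) hs0
  have a₁ := mul_nonneg (mul_nonneg hk hs0.le) hg
  have a₂ := mul_le_mul_of_nonneg_right hkκ hg
  have a₃ := mul_nonneg hs0.le hq
  have a₄ := mul_nonneg hg hκ.le
  have a₅ := mul_nonneg hg hK0
  have a₆ := mul_nonneg hC₁.le a₄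
  have a₇ := mul_nonneg hC₁.le a₅
  have a₈ := mul_nonneg hC₂.le a₄
  have a₉ := mul_nonneg hC₂.le a₅
  constructor <;> nlinarith [E.1, E.2]

end Crest.Agent.R247
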