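import Crest.Agent.R247.S7AuxB

/-! # Row 247: the pointwise entropy tested against a mean-zero function -/

set_option autoImplicit false
set_option linter.unusedSectionVars false
set_option linter.unusedVariables false
open MeasureTheory Filter Set Metric Matrix
open scoped ENNReal NNReal Topology ContDiff
open Crest.GeometryTopology.CoordMetric

noncomputable section
namespace Crest.Agent.R247
universe u

variable {n : ℕ}

/-- `∫ H (1 + d²/t) exp (R d/√t) ≤ C`. -/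
theorem P_polyexp (n : ℕ) (R : ℝ) : ∃ C : ℝ, 0 < C ∧ ∀ (X : Sp.{u} n) {t : ℝ}, X.h.ok t → ∀ x,
    Integrable (fun y => X.h.H t x y *
      ((1 + dist x y ^ 2 / t) * Real.exp (R * dist x y / Real.sqrt t))) X.h.m ∧
    ∫ y, X.h.H t x y * ((1 + dist x y ^ 2 / t) * Real.exp (R * dist x y / Real.sqrt t)) ∂X.h.m ≤ C := by
  obtain ⟨C, hC, hP⟩ := P_gr.{u} n (R + 2)
  refine ⟨C, hC, fun X t ht x => ?_⟩
  have ht0 := ht.1
  obtain ⟨h₁, h₂⟩ := hP X (B := 1) ht0 (by linarith) (ht.2.trans (by norm_num)) x x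
    (f := fun y => (1 + dist x y ^ 2 / t) * Real.exp (R * dist x y / Real.sqrt t))
    (Continuous.aestronglyMeasurable (by fun_prop)) fun y => by
      have h₂ : dist x y ^ 2 / t = (dist x y / Real.sqrt t) ^ 2 := by rw [div_pow, Real.sq_sqrt ht0.le]
      have h₃ := Real.quadratic_le_exp_of_nonneg (by positivity : 0 ≤ 2 * (dist x y / Real.sqrt t))
      have h₄ : 0 ≤ dist x y / Real.sqrt t := by positivity
      beta_reduce
      rw [abs_of_nonneg (by positivity), h₂, one_mul, add_mul R, add_div, Real.exp_add, mul_comm,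
        mul_div_assoc 2]
      exact mul_le_mul_of_nonneg_left (by nlinarith) (Real.exp_pos _).le
  exact ⟨h₁, (le_abs_self _).trans (h₂.trans_eq (by simp))⟩

theorem vW_int' (n : ℕ) (hn : 1 ≤ n) (R : ℝ) : ∃ C : ℝ, 0 < C ∧ ∀ (X : Sp.{u} n) {t : ℝ}, X.h.ok t → ∀ x,
    Integrable (fun y => X.h.H t x y * (|X.h.vW t x y| * Real.exp (R * dist x y / Real.sqrt t))) X.h.m ∧
    X.h.P t (fun y => |X.h.vW t x y| * Real.exp (R * dist x y / Real.sqrt t)) x ≤
      C * (1 + |Real.log (X.h.th t x)| + |Real.log t|) := by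
  obtain ⟨C₁, hC₁, hP⟩ := P_polyexp.{u} n R
  obtain ⟨C₂, hC₂, hφ⟩ := grad_φ.{u} n
  obtain ⟨C₃, hC₃, hφ'⟩ := abs_φ.{u} n
  obtain ⟨C₄, hC₄, hW⟩ := W_bounds.{u} n hn R
  obtain ⟨C₅, hC₅, hW'⟩ := W_bounds.{u} n hn 0
  obtain ⟨C₆, hC₆, hζ⟩ := ζ_W.{u} n hn
  refine ⟨(2 * n + C₂ + C₃ + 1) * C₁ + 2 * C₄ * C₅ * (C₆ * (n / 2 + C₆)), by positivity,
    fun X t ht x => ?_⟩
  have ht0 := ht.1
  have hk : X.h.k * t ≤ 1 / 200 := ht.2.trans (by norm_num)
  obtain ⟨i₁, b₁⟩ := hP X ht x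
  obtain ⟨i₂, b₂, -, b₃⟩ := hζ X ht x
  set Λ := 1 + |Real.log (X.h.th t x)| + |Real.log t| with hΛ
  have hΛ1 : 1 ≤ Λ := by
    have := abs_nonneg (Real.log (X.h.th t x))
    have := abs_nonneg (Real.log t)
    linarith
  have hle : ∀ y, X.h.H t x y * (|X.h.vW t x y| * Real.exp (R * dist x y / Real.sqrt t)) ≤
      (2 * n + C₂ + C₃ + 1) * Λ *
        (X.h.H t x y * ((1 + dist x y ^ 2 / t) * Real.exp (R * dist x y / Real.sqrt t))) +
      2 * C₄ * C₅ * (|X.h.ζ t x y| * X.h.W (p2 n) t x y) := fun y => by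
    have h₀ := X.h.H_nonneg ht0 x y
    have h₁ := (hW X ht x).1 y
    have h₂ := (hW' X ht x).2.1 y
    simp only [zero_mul, zero_div, Real.exp_zero, mul_one] at h₂
    have h₃ := h₁.trans (mul_le_mul_of_nonneg_left h₂ hC₄.le)
    have h₄ := hφ X ht0 hk x y
    have h₅ := abs_le.1 (hφ' X ht0 hk x y)
    have h₆ := mul_nonneg ht0.le (X.h.Γ_nonneg (X.h.φ t x) y)
    have hq : 1 ≤ 1 + dist x y ^ 2 / t := le_add_of_nonneg_right (by positivity)
    generalize 1 + dist x y ^ 2 / t = q at *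
    have e : X.h.vW t x y = n - 2 * X.h.ζ t x y - t * X.h.Γ (X.h.φ t x) (X.h.φ t x) y +
        (X.h.φ t x y + Real.log (X.h.th t x)) - Real.log (X.h.th t x) - n / 2 * Real.log t := by
      simp only [HS.vW, HS.ζ]
      ring
    have hn0 : (0 : ℝ) ≤ n := n.cast_nonneg
    have h₇ : |X.h.vW t x y| ≤ (2 * n + C₂ + C₃ + 1) * Λ * q + 2 * |X.h.ζ t x y| := by
      have a₁ := abs_le.1 (le_refl |X.h.ζ t x y|)
      have a₂ := abs_le.1 (le_refl |Real.log (X.h.th t x)|)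
      have a₃ := abs_le.1 (le_refl |Real.log t|)
      have a₄ := mul_le_mul_of_nonneg_left a₃.1 hn0
      have a₅ := mul_le_mul_of_nonneg_left a₃.2 hn0
      have hΛq : Λ ≤ Λ * q := le_mul_of_one_le_right (by linarith) hq
      have hq' : q ≤ Λ * q := le_mul_of_one_le_left (by linarith) hΛ1
      have a₆ := mul_le_mul_of_nonneg_left hq' hC₂.le
      have a₇ := mul_le_mul_of_nonneg_left hq' hC₃.le
      have a₈ : n * (1 + |Real.log t|) ≤ n * (Λ * q) :=
        mul_le_mul_of_nonneg_left (by linarith [abs_nonneg (Real.log (X.h.th t x))]) hn0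
      have a₉ := mul_nonneg hn0 (abs_nonneg (Real.log t))
      rw [e, abs_le]
      constructor <;> nlinarith [abs_nonneg (Real.log t)]
    have hE := (Real.exp_pos (R * dist x y / Real.sqrt t)).le
    calc _ ≤ X.h.H t x y * (((2 * n + C₂ + C₃ + 1) * Λ * q + 2 * |X.h.ζ t x y|) *
          Real.exp (R * dist x y / Real.sqrt t)) := by gcongr
      _ = (2 * n + C₂ + C₃ + 1) * Λ * (X.h.H t x y * (q * Real.exp (R * dist x y / Real.sqrt t))) +
          2 * |X.h.ζ t x y| * (X.h.H t x y * Real.exp (R * dist x y / Real.sqrt t)) := by ring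
      _ ≤ _ := by
        refine add_le_add le_rfl ((mul_le_mul_of_nonneg_left h₃ (by positivity)).trans_eq ?_)
        ring
  have hφS := X.h.φ_S ht0 x
  have hc : Continuous (X.h.vW t x) := X.h.S_cont (X.h.S_sub (X.h.S_add (X.h.S_cmul t
    (X.h.S_sub (X.h.S_cmul 2 (X.h.S_Δ hφS)) (X.h.S_Γ hφS hφS))) hφS) (X.h.S_const _))
  have i₃ := (i₁.const_mul ((2 * n + C₂ + C₃ + 1) * Λ)).add (i₂.const_mul (2 * C₄ * C₅))
  have i₄ : Integrable
      (fun y => X.h.H t x y * (|X.h.vW t x y| * Real.exp (R * dist x y / Real.sqrt t))) X.h.m :=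
    i₃.mono' ((X.h.H_cont ht0 x).mul (hc.abs.mul (by fun_prop))).aestronglyMeasurable
      (.of_forall fun y => by
        rw [Real.norm_of_nonneg (mul_nonneg (X.h.H_nonneg ht0 x y) (by positivity))]
        exact hle y)
  refine ⟨i₄, (integral_mono i₄ i₃ hle).trans ?_⟩
  rw [integral_add' (i₁.const_mul _) (i₂.const_mul _), integral_const_mul, integral_const_mul]
  have b₄ : ∫ y, |X.h.ζ t x y| * X.h.W (p2 n) t x y ∂X.h.m ≤ C₆ * (n / 2 + C₆) * Λ := by
    refine (b₂.trans ?_).trans (le_mul_of_one_le_right (by positivity) hΛ1)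
    have := mul_le_mul_of_nonneg_left (hk.trans (by norm_num : (1 / 200 : ℝ) ≤ 1)) hC₆.le
    gcongr
    linarith
  calc _ ≤ (2 * n + C₂ + C₃ + 1) * Λ * C₁ + 2 * C₄ * C₅ * (C₆ * (n / 2 + C₆) * Λ) := by gcongr
    _ = _ := by ring

theorem log_th_lim' (X : Sp.{u} n) (x : X.M) :
    Tendsto (fun a => Real.sqrt a * (1 + |Real.log (X.h.th a x)| + |Real.log a|)) (𝓝[>] 0) (𝓝 0) := by
  have hk := X.h.k_nonneg
  have hs : 0 < 1 / (X.h.k + 1) := by positivity
  have hks : X.h.k * (1 / (X.h.k + 1)) ≤ 1 := by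
    rw [mul_one_div, div_le_one (by positivity)]
    linarith
  generalize 1 / (X.h.k + 1) = s at *
  have h₁ : Tendsto (fun a : ℝ => Real.sqrt a) (𝓝[>] 0) (𝓝 0) := by
    simpa using (Real.continuous_sqrt.tendsto 0).mono_left nhdsWithin_le_nhds
  have h₂ : Tendsto (fun a : ℝ => Real.sqrt a * |Real.log a|) (𝓝[>] 0) (𝓝 0) := by
    have := (tendsto_log_mul_rpow_nhdsGT_zero (by norm_num : (0 : ℝ) < 1 / 2)).abs
    rw [abs_zero] at this
    refine this.congr fun a => ?_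
    rw [abs_mul, ← Real.sqrt_eq_rpow, abs_of_nonneg (Real.sqrt_nonneg a), mul_comm]
  have h₃ := (h₁.mul_const (1 + |Real.log (X.h.th s x)| + 2 * n * |Real.log s|)).add
    (h₂.const_mul (2 * (n : ℝ) + 1))
  simp only [zero_mul, mul_zero, add_zero] at h₃
  refine squeeze_zero' (.of_forall fun a => by positivity) ?_ h₃
  filter_upwards [Ioo_mem_nhdsGT hs] with a ha
  have e₁ := Real.log_le_log (X.h.th_pos hs x) (X.h.th_anti ha.1 ha.2.le x)
  have e₂ := Real.log_le_log (X.h.th_pos ha.1 x) (X.h.harnack ha.1 ha.2 hks x x x)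
  have hth : 0 < X.h.H s x x := X.h.th_pos hs x
  have ha1 := ha.1
  rw [dist_self, zero_pow two_ne_zero, zero_div, Real.exp_zero, mul_one,
    Real.log_mul (by positivity) hth.ne', Real.log_pow, Real.log_div hs.ne' ha.1.ne'] at e₂
  have hn0 : (0 : ℝ) ≤ n := n.cast_nonneg
  have e₃ : |Real.log (X.h.th a x)| ≤
      |Real.log (X.h.th s x)| + 2 * n * |Real.log s| + 2 * n * |Real.log a| := by
    have a₁ := mul_le_mul_of_nonneg_left (le_abs_self (Real.log s)) hn0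
    have a₂ := mul_le_mul_of_nonneg_left (neg_abs_le (Real.log a)) hn0
    have a₃ := mul_nonneg hn0 (abs_nonneg (Real.log s))
    have a₄ := mul_nonneg hn0 (abs_nonneg (Real.log a))
    push_cast at e₂
    rw [abs_le]
    constructor
    · linarith [neg_abs_le (Real.log (X.h.th s x))]
    · have := le_abs_self (Real.log (X.h.th s x))
      simp only [HS.th] at *
      linarith
  nlinarith [mul_le_mul_of_nonneg_left e₃ (Real.sqrt_nonneg a)]

theorem vW_Sm (X : Sp.{u} n) (x : X.M) : X.h.Sm (Ioi 0) fun s y => X.h.vW s x y * X.h.H s x y := by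
  have hφ := X.h.φ_Sm x
  have h₁ : ContDiffOn ℝ ∞ (fun s : ℝ => n / 2 * Real.log s) (Ioi 0) :=
    contDiffOn_const.mul (Real.contDiffOn_log.mono fun s hs => ne_of_gt hs)
  exact X.h.Sm_mul (X.h.Sm_sub (X.h.Sm_add (X.h.Sm_mul (X.h.Sm_time contDiffOn_id) (X.h.Sm_sub
    (X.h.Sm_mul (X.h.Sm_const _ 2) (X.h.Sm_Δ isOpen_Ioi hφ)) (X.h.Sm_Γ isOpen_Ioi hφ hφ))) hφ)
    (X.h.Sm_time h₁)) (X.h.H_Sm x)

/-- The source of the entropy formula against an exponential weight. -/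
theorem vW_src (n : ℕ) (hn : 1 ≤ n) (R : ℝ) : ∃ C : ℝ, 0 < C ∧ ∀ (X : Sp.{u} n) {t : ℝ}, X.h.ok t → ∀ x,
    X.h.KK x t ≠ ⊤ → ∀ {w : X.M → ℝ} {B : ℝ}, Gr x t B R w →
    |∫ y, -(2 / t) * (X.h.Dφ t x y - X.h.k * t ^ 2 * X.h.Γ (X.h.φ t x) (X.h.φ t x) y) * X.h.H t x y * w y
      ∂X.h.m| ≤ C * B * ((X.h.KK x t).toReal / t + X.h.k) := by
  obtain ⟨C₁, hC₁, hP⟩ := P_polyexp.{u} n R
  obtain ⟨C₂, hC₂, hφ⟩ := grad_φ.{u} n
  obtain ⟨C₃, hC₃, hK⟩ := KK_int.{u} n hn R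
  refine ⟨2 * C₃ + 2 * C₂ * C₁, by positivity, fun X t ht x hKK w B hw => ?_⟩
  have ht0 := ht.1
  have hk := X.h.k_nonneg
  have hB : 0 ≤ B := by simpa using (abs_nonneg _).trans (hw x)
  obtain ⟨i₁, b₁⟩ := hP X ht x
  obtain ⟨i₂, b₂⟩ := hK X ht x hKK
  rw [← Real.norm_eq_abs]
  refine (norm_integral_le_of_norm_le ((i₂.const_mul (2 / t * B)).add
    (i₁.const_mul (2 * X.h.k * C₂ * B))) (.of_forall fun y => ?_)).trans ?_
  · have h₀ := X.h.H_nonneg ht0 x y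
    have h₁ : 0 ≤ X.h.Dφ t x y := mul_nonneg (sq_nonneg _) (X.h.D_nonneg (X.h.φ_S ht0 x) _ y)
    have h₂ := hφ X ht0 (ht.2.trans (by norm_num)) x y
    have h₃ := X.h.Γ_nonneg (X.h.φ t x) y
    have h₄ : |X.h.Dφ t x y - X.h.k * t ^ 2 * X.h.Γ (X.h.φ t x) (X.h.φ t x) y| ≤
        X.h.Dφ t x y + X.h.k * t * (C₂ * (1 + dist x y ^ 2 / t)) := by
      refine (abs_sub _ _).trans ?_
      rw [abs_of_nonneg h₁, abs_of_nonneg (by positivity)]
      nlinarith [mul_le_mul_of_nonneg_left h₂ (mul_nonneg hk ht0.le)]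
    rw [Real.norm_eq_abs, abs_mul, abs_mul, abs_mul, abs_neg, abs_of_nonneg h₀,
      abs_of_pos (by positivity : 0 < 2 / t)]
    calc _ ≤ 2 / t * (X.h.Dφ t x y + X.h.k * t * (C₂ * (1 + dist x y ^ 2 / t))) * X.h.H t x y *
          (B * Real.exp (R * dist x y / Real.sqrt t)) := by
          gcongr
          exact hw y
      _ = _ := by
        simp only [Pi.add_apply]
        field_simp
  · rw [integral_add' (i₂.const_mul _) (i₁.const_mul _), integral_const_mul, integral_const_mul]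
    have h₁ : 0 ≤ (X.h.KK x t).toReal / t := by positivity
    calc _ ≤ 2 / t * B * (C₃ * (X.h.KK x t).toReal) + 2 * X.h.k * C₂ * B * C₁ := by gcongr; exact b₂
      _ = B * (2 * C₃ * ((X.h.KK x t).toReal / t) + 2 * C₂ * C₁ * X.h.k) := by ring
      _ ≤ B * ((2 * C₃ + 2 * C₂ * C₁) * ((X.h.KK x t).toReal / t + X.h.k)) := by
        gcongr
        nlinarith [mul_nonneg hC₃.le hk, mul_nonneg (mul_nonneg hC₂.le hC₁.le) h₁]
      _ = _ := by ring

theorem vW_STI (hn : 1 ≤ n) (X : Sp.{u} n) (x : X.M) {a s T₁ : ℝ} (ha : 0 < a) (has : a ≤ s)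
    (hs : X.h.ok s) (hT : s ≤ T₁) (hE : X.h.Ent x T₁ ≠ ⊤) :
    X.h.STI a s (fun σ y => X.h.vW σ x y * X.h.H σ x y) ∧
    X.h.STI a s fun σ y => dt (fun σ y => X.h.vW σ x y * X.h.H σ x y) σ y -
      X.h.Δ (fun y => X.h.vW σ x y * X.h.H σ x y) y := by
  have hsub : Icc a s ⊆ Ioi 0 := fun σ hσ => ha.trans_le hσ.1
  have hok : ∀ σ ∈ Icc a s, X.h.ok σ := fun σ hσ =>
    ⟨hsub hσ, (mul_le_mul_of_nonneg_left hσ.2 X.h.k_nonneg).trans hs.2⟩
  have hφ := X.h.φ_Sm x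
  constructor
  · obtain ⟨C, hC, h⟩ := vW_int'.{u} n hn 0
    refine X.h.STI_of_bound (B := C * (1 + (|Real.log (X.h.th a x)| + |Real.log (X.h.th s x)|) +
      (|Real.log a| + |Real.log s|))) hsub (X.h.Sm_cont (vW_Sm X x)) fun σ hσ => ?_
    obtain ⟨h₁, h₂⟩ := h X (hok σ hσ) x
    simp only [zero_mul, zero_div, Real.exp_zero, mul_one] at h₁ h₂
    have e : ∀ y, |X.h.vW σ x y * X.h.H σ x y| = X.h.H σ x y * |X.h.vW σ x y| := fun y => by
      rw [abs_mul, abs_of_nonneg (X.h.H_nonneg (hsub hσ) x y), mul_comm]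
    refine ⟨h₁.mono' (X.h.S_cont (X.h.Sm_slice (vW_Sm X x) (hsub hσ))).aestronglyMeasurable
      (.of_forall fun y => (e y).le), ?_⟩
    simp only [e]
    refine h₂.trans ?_
    gcongr
    · exact abs_le_max_abs_abs (Real.log_le_log (X.h.th_pos hs.1 x) (X.h.th_anti (hsub hσ) hσ.2 x))
        (Real.log_le_log (X.h.th_pos (hsub hσ) x) (X.h.th_anti ha hσ.1 x)) |>.trans
        (max_le (le_add_of_nonneg_left (abs_nonneg _)) (le_add_of_nonneg_right (abs_nonneg _)))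
    · exact abs_le_max_abs_abs (Real.log_le_log ha hσ.1) (Real.log_le_log (hsub hσ) hσ.2) |>.trans
        (max_le (le_add_of_nonneg_right (abs_nonneg _)) (le_add_of_nonneg_left (abs_nonneg _)))
  · have i₁ : X.h.STI a s fun s y => X.h.H s x y * X.h.Dφ s x y := by
      obtain ⟨_, -, hK⟩ := KK_STI.{u} n hn 0
      simpa using (hK X ha has hT hs x hE).1
    obtain ⟨Bw, hw⟩ := βid_wt X x ha hs
    have i₄ : X.h.STI a s fun s y => X.h.H s x y * (1 + X.h.Γ (X.h.φ s x) (X.h.φ s x) y) ^ 2 := by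
      refine X.h.STI_of_bound (B := Bw) hsub (X.h.Sm_cont (X.h.Sm_mul (X.h.H_Sm x) (X.h.Sm_comp'
        (X.h.Sm_Γ isOpen_Ioi hφ hφ) ((contDiff_const.add contDiff_id).pow 2))))
        fun σ hσ => ⟨(hw σ hσ).1, le_trans (le_of_eq ?_) (hw σ hσ).2⟩
      exact integral_congr_ae (.of_forall fun y =>
        abs_of_nonneg (mul_nonneg (X.h.H_nonneg (hsub hσ) x y) (sq_nonneg _)))
    refine X.h.STI_of_le hsub (X.h.Sm_cont (X.h.Sm_sub (X.h.Sm_dt isOpen_Ioi (vW_Sm X x))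
      (X.h.Sm_Δ isOpen_Ioi (vW_Sm X x)))) (βid_add (βid_cmul i₁ (2 / a)) (βid_cmul i₄ (2 * X.h.k * s)))
      fun σ hσ y => ?_
    have hσ0 : 0 < σ := hsub hσ
    have h₀ := X.h.H_nonneg hσ0 x y
    have h₁ : 0 ≤ X.h.Dφ σ x y := mul_nonneg (sq_nonneg _) (X.h.D_nonneg (X.h.φ_S hσ0 x) _ y)
    have h₃ := X.h.Γ_nonneg (X.h.φ σ x) y
    have hk := X.h.k_nonneg
    refine (congrArg abs (X.h.heat_vW hσ0 x y)).trans_le ?_
    rw [abs_mul, abs_mul, abs_neg, abs_of_nonneg h₀, abs_of_pos (by positivity : 0 < 2 / σ)]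
    calc _ ≤ 2 / σ * (X.h.Dφ σ x y + X.h.k * σ ^ 2 * X.h.Γ (X.h.φ σ x) (X.h.φ σ x) y) * X.h.H σ x y := by
          gcongr
          refine (abs_sub _ _).trans ?_
          rw [abs_of_nonneg h₁, abs_of_nonneg (by positivity)]
      _ = 2 / σ * (X.h.H σ x y * X.h.Dφ σ x y) +
          2 * X.h.k * σ * (X.h.H σ x y * X.h.Γ (X.h.φ σ x) (X.h.φ σ x) y) := by field_simp
      _ ≤ _ := by
        have h₅ := hσ.1
        have h₆ := hσ.2
        have h₇ := hs.1.le
        gcongr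
        nlinarith

theorem vW_dual' (n : ℕ) (hn : 1 ≤ n) (R : ℝ) : ∃ C : ℝ, 0 < C ∧ ∀ (X : Sp.{u} n) (x : X.M)
    {s T₁ a B : ℝ} {p : X.M → ℝ}, X.h.ok s → s ≤ T₁ → X.h.Ent x T₁ ≠ ⊤ → 0 ≤ a → a ≤ 1 / 2 → X.h.S p →
      Gr x s B R p → X.h.P s p x = 0 →
      |X.h.P s (fun y => p y * X.h.vW s x y) x| ≤ C * B * (X.h.kap x T₁ a s + X.h.k * s) := by
  obtain ⟨C₁, hC₁, hM⟩ := P_modulus.{u} n R
  obtain ⟨C₂, hC₂, hP⟩ := P_gr.{u} n (|R| + 1)
  obtain ⟨C₃, hC₃, hS⟩ := vW_src.{u} n hn (|R| + 1)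
  obtain ⟨C₄, hC₄, hV⟩ := vW_int'.{u} n hn (|R| + 1)
  refine ⟨C₃ * C₁, by positivity, fun X x s T₁ α B p hs hT hE hα hα' hp hg h0 => ?_⟩
  have hs0 := hs.1
  have hk := X.h.k_nonneg
  have hB : 0 ≤ B := by simpa using (abs_nonneg _).trans (hg x)
  have hpc := X.h.S_cont hp
  have hR : 0 ≤ |R| + 1 := by positivity
  have hg' : Gr x s B (|R| + 1) p := fun y => (hg y).trans (by
    gcongr
    linarith [le_abs_self R])
  have hok : ∀ σ, 0 < σ → σ ≤ s → X.h.ok σ := fun σ h₁ h₂ =>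
    ⟨h₁, (mul_le_mul_of_nonneg_left h₂ hk).trans hs.2⟩
  have hend : ∀ σ, 0 < σ → σ ≤ s → ∀ (w : X.M → ℝ) (B' : ℝ), Gr x σ B' (|R| + 1) w →
      |∫ y, X.h.vW σ x y * X.h.H σ x y * w y ∂X.h.m| ≤
        B' * (C₄ * (1 + |Real.log (X.h.th σ x)| + |Real.log σ|)) := fun σ h₁ h₂ w B' hw => by
    obtain ⟨i₁, b₁⟩ := hV X (hok σ h₁ h₂) x
    have hB' : 0 ≤ B' := by simpa using (abs_nonneg _).trans (hw x)
    rw [← Real.norm_eq_abs]
    refine (norm_integral_le_of_norm_le (i₁.const_mul B') (.of_forall fun y => ?_)).trans ?_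
    · have h₀ := X.h.H_nonneg h₁ x y
      rw [Real.norm_eq_abs, abs_mul, abs_mul, abs_of_nonneg h₀]
      exact (mul_le_mul_of_nonneg_left (hw y) (by positivity)).trans_eq (by ring)
    · rw [integral_const_mul]
      exact mul_le_mul_of_nonneg_left b₁ hB'
  have key : ∀ a ∈ Ioo 0 s, ∀ ρ : ℝ, 0 < ρ → |X.h.P s (fun y => p y * X.h.vW s x y) x| ≤
      C₃ * C₁ * B * (X.h.kap x T₁ α s + X.h.k * s) +
      C₁ * B * Real.sqrt (a / s) * (C₄ * (1 + |Real.log (X.h.th a x)| + |Real.log a|)) +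
      Real.exp (-ρ) * (B * (C₄ * (1 + |Real.log (X.h.th s x)| + |Real.log s|)) +
        C₂ * B * (C₄ * (1 + |Real.log (X.h.th a x)| + |Real.log a|)) +
        C₃ * (C₂ * B) * ((∫ σ in a..s, (X.h.KK x σ).toReal / σ) + X.h.k * s)) := fun a ha ρ hρ => by
    have hss := Real.sqrt_pos.2 hs0
    obtain ⟨χ, hχ, hc, hχ₁, hχ₂, -⟩ := X.h.bump x (r := 2 * (ρ * Real.sqrt s)) (by positivity)
    have hq : Gr x s (Real.exp (-ρ) * B) (|R| + 1) fun y => p y - χ y * p y := fun y => by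
      by_cases hy : dist y x ≤ 2 * (ρ * Real.sqrt s) / 2
      · simp only [hχ₂ y hy, one_mul, sub_self, abs_zero]
        positivity
      · have h₁ : ρ ≤ dist x y / Real.sqrt s := by
          rw [le_div_iff₀ hss, dist_comm]
          linarith
        have h₂ : |p y - χ y * p y| ≤ |p y| := by
          rw [← one_sub_mul, abs_mul, abs_of_nonneg (sub_nonneg.2 (hχ₁ y).2)]
          exact mul_le_of_le_one_left (abs_nonneg _) (by linarith [(hχ₁ y).1])
        refine h₂.trans ((hg y).trans ?_)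
        rw [mul_comm (Real.exp _) B, mul_assoc, ← Real.exp_add]
        gcongr
        rw [add_mul, add_div, one_mul, mul_div_assoc, mul_div_assoc]
        nlinarith [mul_le_mul_of_nonneg_right (le_abs_self R) (by positivity : 0 ≤ dist x y / Real.sqrt s)]
    have hwS := X.h.S_mul hχ hp
    have hqc : Continuous fun y => p y - χ y * p y := hpc.sub (X.h.S_cont hwS)
    have hw : ∀ σ ∈ Ioo 0 s, Gr x σ (C₁ * B * Real.sqrt (σ / s) + Real.exp (-ρ) * (C₂ * B)) (|R| + 1)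
        (X.h.P (s - σ) fun y => χ y * p y) := fun σ hσ y => by
      have h₁ : 0 < s - σ := sub_pos.2 hσ.2
      have h₂ : X.h.k * (s - σ) ≤ 1 := (hok _ h₁ (by linarith [hσ.1])).2.trans (by norm_num)
      obtain ⟨i₁, -⟩ := hP X h₁ (by linarith [hσ.1]) h₂ x y hpc.aestronglyMeasurable hg'
      obtain ⟨i₂, b₂⟩ := hP X h₁ (by linarith [hσ.1]) h₂ x y hqc.aestronglyMeasurable hq
      have e := X.h.P_sub i₁ i₂
      simp only [sub_sub_cancel] at e
      rw [e, add_mul]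
      refine (abs_sub _ _).trans (add_le_add (hM X hs hσ.1 hσ.2 x hpc hg h0 y) (b₂.trans ?_))
      rw [abs_of_nonneg hR, mul_left_comm]
      have := Real.sqrt_pos.2 hσ.1
      gcongr
      exact hσ.2.le
    obtain ⟨t₁, t₂⟩ := vW_STI hn X x ha.1 ha.2.le hs hT hE
    have hea : Integrable (fun y => X.h.vW a x y * X.h.H a x y) X.h.m := by
      simpa [mul_comm] using HvW_int hn x (hok a ha.1 ha.2.le) (CG.const x a 1)
    have hd := X.h.dual isOpen_Ioi (vW_Sm X x) ha.2 (fun σ hσ => ha.1.trans_le hσ.1) t₁ t₂ hea hwS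
      hc.mul_right
    obtain ⟨j₁, -, -⟩ := kap_block X x (a := α) (A := s / a) hs0 hα ha.1 ha.2.le hT hE
      (le_mul_of_one_le_left hs0.le ((one_le_div ha.1).2 ha.2.le)) (by rw [div_mul_cancel₀ _ ha.1.ne'])
    have j₂ : IntervalIntegrable (fun σ => Real.sqrt (σ / s) * ((X.h.KK x σ).toReal / σ)) volume a s :=
      j₁.continuousOn_mul (by fun_prop)
    have b₃ : ‖∫ σ in a..s, ∫ y, (dt (fun σ y => X.h.vW σ x y * X.h.H σ x y) σ y -
        X.h.Δ (fun y => X.h.vW σ x y * X.h.H σ x y) y) * X.h.P (s - σ) (fun y => χ y * p y) y ∂X.h.m‖ ≤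
        ∫ σ in a..s, (C₃ * C₁ * B * (Real.sqrt (σ / s) * ((X.h.KK x σ).toReal / σ) + X.h.k) +
          Real.exp (-ρ) * (C₃ * (C₂ * B) * ((X.h.KK x σ).toReal / σ + X.h.k))) := by
      refine intervalIntegral.norm_integral_le_of_norm_le ha.2.le ?_
        (((j₂.add intervalIntegrable_const).const_mul _).add
          (((j₁.add intervalIntegrable_const).const_mul _).const_mul _))
      filter_upwards [KK_ae X x hE, Measure.ae_ne volume s] with σ h₁ h₂ hσ
      have hσ0 : 0 < σ := ha.1.trans hσ.1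
      have h₃ := hS X (hok σ hσ0 hσ.2) x (h₁ ⟨hσ0, hσ.2.trans hT⟩) (hw σ ⟨hσ0, hσ.2.lt_of_ne h₂⟩)
      refine le_of_eq_of_le (congrArg abs (integral_congr_ae (.of_forall fun y =>
        congrArg (· * _) (X.h.heat_vW hσ0 x y)))) (h₃.trans ?_)
      have h₄ : Real.sqrt (σ / s) ≤ 1 := Real.sqrt_le_one.2 ((div_le_one hs0).2 hσ.2)
      nlinarith [mul_le_mul_of_nonneg_left h₄ (by positivity : 0 ≤ C₃ * C₁ * B * X.h.k)]
    rw [intervalIntegral.integral_add ((j₂.add intervalIntegrable_const).const_mul _)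
      (((j₁.add intervalIntegrable_const).const_mul _).const_mul _), intervalIntegral.integral_const_mul,
      intervalIntegral.integral_const_mul, intervalIntegral.integral_const_mul,
      intervalIntegral.integral_add j₂ intervalIntegrable_const,
      intervalIntegral.integral_add j₁ intervalIntegrable_const, intervalIntegral.integral_const,
      ← hd, Real.norm_eq_abs, smul_eq_mul] at b₃
    have b₄ := kap_low X x hα hα' ha.1 ha.2.le hT hE
    have b₅ : (s - a) * X.h.k ≤ X.h.k * s := by nlinarith [ha.1]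
    have b₆ := hend a ha.1 ha.2.le _ _ (hw a ha)
    have b₇ := hend s hs0 le_rfl _ _ hq
    have i₁ := HvW_int hn x hs ⟨hqc, _, _, hq⟩
    have i₂ := HvW_int hn x hs ⟨hpc, _, _, hg⟩
    have e₁ : X.h.P s (fun y => p y * X.h.vW s x y) x =
        ∫ y, X.h.vW s x y * X.h.H s x y * (χ y * p y) ∂X.h.m +
          ∫ y, X.h.vW s x y * X.h.H s x y * (p y - χ y * p y) ∂X.h.m := by
      rw [← integral_add ((i₂.sub i₁).congr (.of_forall fun y => by simp only [Pi.sub_apply]; ring))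
        (i₁.congr (.of_forall fun y => by ring))]
      exact integral_congr_ae (.of_forall fun y => by ring)
    have b₈ := mul_le_mul_of_nonneg_left (add_le_add b₄ b₅) (by positivity : 0 ≤ C₃ * C₁ * B)
    have b₉ := mul_le_mul_of_nonneg_left b₅ (by positivity : 0 ≤ Real.exp (-ρ) * (C₃ * (C₂ * B)))
    rw [e₁, abs_le]
    rw [abs_le] at b₃ b₆ b₇
    constructor <;> linarith [b₃.1, b₃.2, b₆.1, b₆.2, b₇.1, b₇.2]
  have key₂ : ∀ a ∈ Ioo 0 s, |X.h.P s (fun y => p y * X.h.vW s x y) x| ≤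
      C₃ * C₁ * B * (X.h.kap x T₁ α s + X.h.k * s) + C₁ * B * C₄ / Real.sqrt s *
        (Real.sqrt a * (1 + |Real.log (X.h.th a x)| + |Real.log a|)) := fun a ha => by
    have h₁ := ((Real.tendsto_exp_neg_atTop_nhds_zero.mul_const (B * (C₄ * (1 + |Real.log (X.h.th s x)| +
      |Real.log s|)) + C₂ * B * (C₄ * (1 + |Real.log (X.h.th a x)| + |Real.log a|)) +
        C₃ * (C₂ * B) * ((∫ σ in a..s, (X.h.KK x σ).toReal / σ) + X.h.k * s))).const_add
      (C₃ * C₁ * B * (X.h.kap x T₁ α s + X.h.k * s) +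
        C₁ * B * Real.sqrt (a / s) * (C₄ * (1 + |Real.log (X.h.th a x)| + |Real.log a|))))
    refine (ge_of_tendsto h₁ ((eventually_gt_atTop 0).mono (key a ha))).trans_eq ?_
    rw [Real.sqrt_div ha.1.le]
    ring
  have h₁ := ((log_th_lim' X x).const_mul (C₁ * B * C₄ / Real.sqrt s)).const_add
    (C₃ * C₁ * B * (X.h.kap x T₁ α s + X.h.k * s))
  simpa using ge_of_tendsto h₁ (mem_of_superset (Ioo_mem_nhdsGT hs0) key₂)

end Crest.Agent.R247
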