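import Crest.Agent.R247.S7
import Crest.Agent.R247.S5

/-! # Row 247, S7b: propagation to larger scales -/

set_option autoImplicit false
set_option linter.unusedSectionVars false
set_option linter.unusedVariables false
open MeasureTheory Filter Set Metric Matrix
open scoped ENNReal NNReal Topology ContDiff
open Crest.GeometryTopology.CoordMetric

noncomputable section
namespace Crest.Agent.R247
universe u

variable {n : ℕ}

theorem s7ba_cov (X : Sp.{u} n) (x : X.M) {t B B' : ℝ} (ht : 0 < t) {f f' : X.M → ℝ} (hf : Continuous f)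
    (hf' : Continuous f') (hB : ∀ y, |f y| ≤ B) (hB' : ∀ y, f' y ^ 2 ≤ B') :
    X.h.Cov t x f f' ^ 2 ≤ X.h.Cov t x f f * B' := by
  set m := X.h.P t f x with hm
  have b' : ∀ y, |f' y| ≤ √B' := fun y => Real.abs_le_sqrt (hB' y)
  have B0 : 0 ≤ B := (abs_nonneg _).trans (hB x)
  have i1 := X.h.int_bdd ht x hf.aestronglyMeasurable hB
  have i2 := X.h.int_bdd ht x hf'.aestronglyMeasurable b'
  have i11 := X.h.int_bdd ht x (f := fun y => f y * f y) (hf.mul hf).aestronglyMeasurable (B := B * B)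
    fun y => by rw [abs_mul]; exact mul_le_mul (hB y) (hB y) (abs_nonneg _) B0
  have i12 := X.h.int_bdd ht x (f := fun y => f y * f' y) (hf.mul hf').aestronglyMeasurable (B := B * √B')
    fun y => by rw [abs_mul]; exact mul_le_mul (hB y) (b' y) (abs_nonneg _) B0
  have i22 := X.h.int_bdd ht x (f := fun y => f' y ^ 2) (hf'.pow 2).aestronglyMeasurable (B := B')
    fun y => by rw [abs_of_nonneg (sq_nonneg _)]; exact hB' y
  have i0 := X.h.int_bdd ht x (f := fun y => (f y - m) ^ 2) ((hf.sub continuous_const).pow 2).aestronglyMeasurable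
    (B := (B + |m|) ^ 2) fun y => by
      rw [abs_pow]
      exact pow_le_pow_left₀ (abs_nonneg _) ((abs_sub _ _).trans (add_le_add_left (hB y) _)) 2
  have cm : ∀ {g : X.M → ℝ} (c : ℝ), Integrable (fun y => X.h.H t x y * g y) X.h.m →
      Integrable (fun y => X.h.H t x y * (c * g y)) X.h.m := fun c h => by
    simpa only [mul_left_comm c] using h.const_mul c
  have e1 : X.h.P t (fun y => (f y - m) * f' y) x = X.h.Cov t x f f' := by
    simp only [sub_mul]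
    rw [X.h.P_sub i12 (cm m i2), X.h.P_cmul]
    rfl
  have e2 : X.h.P t (fun y => (f y - m) ^ 2) x = X.h.Cov t x f f := by
    have : (fun y => (f y - m) ^ 2) = fun y => (f y * f y - 2 * m * f y) + m ^ 2 := by funext y; ring
    rw [this, X.h.P_add (by simp only [mul_sub]; exact i11.sub (cm (2 * m) i1))
      ((X.h.H_int ht x).1.mul_const _), X.h.P_sub i11 (cm _ i1), X.h.P_cmul, X.h.P_const ht, HS.Cov, ← hm]
    ring
  have h1 := (X.h.P_cs ht (f := fun y => f y - m) (hf.sub continuous_const).aestronglyMeasurable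
    hf'.aestronglyMeasurable i0 i22).2
  have h2 : X.h.P t (fun y => f' y ^ 2) x ≤ B' := (le_abs_self _).trans (X.h.abs_P_le ht x fun y => by
    rw [abs_of_nonneg (sq_nonneg _)]; exact hB' y)
  have h3 : 0 ≤ X.h.Cov t x f f := e2 ▸ X.h.P_nonneg ht x fun y => sq_nonneg _
  have h4 := pow_le_pow_left₀ (abs_nonneg _) h1 2
  rw [e1, e2, sq_abs, mul_pow, Real.sq_sqrt h3, Real.sq_sqrt (X.h.P_nonneg ht x fun y => sq_nonneg _)] at h4
  exact h4.trans (mul_le_mul_of_nonneg_left h2 h3)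

/-- `(s dl)' = 4 s q + 2 s P er - 2 Cov(u, Δu)` (`G_deriv`, `J_deriv`); `er_le`, `hyp_small`, `hyp_weight`, `J_le`, `hyp_growth`. -/
theorem dl_ode (n : ℕ) : ∃ C e₀ : ℝ, 0 < C ∧ 0 < e₀ ∧ ∀ (X : Sp.{u} n) (c : Crd X) (x : X.M)
    {s₀ T₁ e : ℝ}, e ≤ e₀ → c.Hyp x s₀ T₁ e → ∀ ξ, ContinuousOn (c.dl x ξ) (Icc s₀ T₁) ∧
      ∀ a b, s₀ ≤ a → a ≤ b → b ≤ T₁ →
        |b * c.dl x ξ b - a * c.dl x ξ a - ∫ σ in a..b, 4 * σ * qf (c.Q σ x) ξ| ≤
          C * (b - a) * (b / T₁) ^ (1 / 4 : ℝ) * qf (c.G b x) ξ := by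
  obtain ⟨C₁, p1, h1⟩ := er_le.{u} n
  obtain ⟨e₂, p2, h2⟩ := hyp_small.{u} n
  obtain ⟨C₃, e₃, p3, p3', h3⟩ := hyp_weight.{u} n
  obtain ⟨e₄, p4, p4', h4⟩ := hyp_growth.{u} n
  refine ⟨2 * C₁ + 2 * √(12 * C₃), min e₂ (min e₃ e₄), by positivity, by positivity,
    fun X c x s₀ T₁ e he h ξ => ?_⟩
  have e2 := he.trans (min_le_left _ _)
  have e3 := he.trans ((min_le_right _ _).trans (min_le_left _ _))
  have e4 := he.trans ((min_le_right _ _).trans (min_le_right _ _))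
  have e0 := h.e_pos
  have e1 : e ≤ 1 := by linarith
  have T0 := c.T_pos
  have T1 := h.T₁_pos
  have pos : ∀ s ∈ Icc s₀ T₁, 0 < s := fun s hs => h.s₀_pos.trans_le hs.1
  have tm := fun s hs => h.times e1 (pos s hs) (hs.2.trans (by linarith))
  have io : ∀ s ∈ Icc s₀ T₁, s ∈ Ioo 0 (2 * c.T) := fun s hs => ⟨pos s hs, by linarith [(tm s hs).1]⟩
  set r : ℝ → ℝ := fun s => 2 * s * X.h.P s (c.er ξ) x - 2 * X.h.Cov s x (c.u ξ) (X.h.Δ (c.u ξ)) with hr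
  have hd : ∀ s ∈ Icc s₀ T₁, HasDerivAt (fun s => 2 * s * qf (c.G s x) ξ - qf (c.J s x) ξ)
      (4 * s * qf (c.Q s x) ξ + r s) s := fun s hs =>
    ((((hasDerivAt_id s).const_mul 2).mul (c.G_deriv (io s hs) x ξ)).sub
      (c.J_deriv (pos s hs) x ξ).1).congr_deriv (by simp only [hr, id]; ring)
  refine ⟨fun s hs => ((continuousAt_const.mul (c.G_deriv (io s hs) x ξ).continuousAt).sub
    ((c.J_deriv (pos s hs) x ξ).1.continuousAt.div continuousAt_id (pos s hs).ne')).continuousWithinAt,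
    fun a b ha hab hb => ?_⟩
  have sub : Icc a b ⊆ Icc s₀ T₁ := Icc_subset_Icc ha hb
  have hb' : b ∈ Icc s₀ T₁ := sub (right_mem_Icc.2 hab)
  have hb5 : b ∈ Icc s₀ (10 ^ 5 * T₁) := ⟨hb'.1, by linarith⟩
  have b0 := pos b hb'
  have cq : ContinuousOn (fun s => 4 * s * qf (c.Q s x) ξ) (Icc a b) :=
    (continuousOn_const.mul continuousOn_id).mul (((c.Q_cont x).2 ξ).mono fun s hs =>
      Ioo_subset_Ioc_self (io s (sub hs)))
  have cr : ContinuousOn r (Icc a b) :=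
    ((continuousOn_const.mul continuousOn_id).mul ((c.er_cont x ξ).mono fun s hs => pos s (sub hs))).sub
      (continuousOn_const.mul fun s hs => (c.J_deriv (pos s (sub hs)) x ξ).2.continuousWithinAt)
  have ft := intervalIntegral.integral_eq_sub_of_hasDerivAt (fun s hs => hd s (sub (uIcc_of_le hab ▸ hs)))
    ((cq.add cr).intervalIntegrable_of_Icc hab)
  rw [intervalIntegral.integral_add (cq.intervalIntegrable_of_Icc hab) (cr.intervalIntegrable_of_Icc hab)] at ft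
  have ed : ∀ s ∈ Icc s₀ T₁, s * c.dl x ξ s = 2 * s * qf (c.G s x) ξ - qf (c.J s x) ξ := fun s hs => by
    have := (pos s hs).ne'
    rw [Crd.dl]
    field_simp
  set w := (b / T₁) ^ (1 / 4 : ℝ) with hw
  set g := qf (c.G b x) ξ with hg
  have g0 : 0 ≤ g := MC.psd_qf (c.G_psd b0 x) ξ
  have w0 : 0 ≤ w := by positivity
  have w1 : √(b / T₁) ≤ w := (h.κ_bounds e1 (γ := 1 / 2) (by norm_num) le_rfl b0 hb).1
  have w2 : w ^ 2 = √(b / T₁) := by
    rw [hw, ← Real.rpow_natCast, ← Real.rpow_mul (by positivity), Real.sqrt_eq_rpow]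
    norm_num
  have ee : e ^ 2 ≤ 1 := pow_le_one₀ e0.le e1
  have sg : e ^ 2 * √(b / T₁) * g ≤ √(b / T₁) * g :=
    mul_le_mul_of_nonneg_right (mul_le_of_le_one_left (Real.sqrt_nonneg _) ee) g0
  have bd : ∀ s ∈ uIoc a b, ‖r s‖ ≤ (2 * C₁ + 2 * √(12 * C₃)) * w * g := fun s hs => by
    have hs' : s ∈ Icc a b := Ioc_subset_Icc_self (uIoc_of_le hab ▸ hs)
    have s0 := pos s (sub hs')
    have a1 : |X.h.P s (c.er ξ) x| ≤ C₁ * (ξ ⬝ᵥ ξ) / c.T := X.h.abs_P_le s0 x fun y => by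
      rw [le_div_iff₀' T0]; exact (h1 X c ξ).2.2 y
    have a2 := ((h2 X c x e2 h b hb5).2 ξ).2.1 hb
    have a3 : |2 * s * X.h.P s (c.er ξ) x| ≤ 2 * C₁ * w * g := by
      rw [abs_mul, abs_of_pos (by positivity : 0 < 2 * s)]
      calc _ ≤ 2 * b * (C₁ * (ξ ⬝ᵥ ξ) / c.T) :=
            mul_le_mul (by linarith [hs'.2]) a1 (abs_nonneg _) (by positivity)
        _ = 2 * C₁ * (b / c.T * (ξ ⬝ᵥ ξ)) := by ring
        _ ≤ 2 * C₁ * (w * g) := mul_le_mul_of_nonneg_left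
            (a2.trans (sg.trans (mul_le_mul_of_nonneg_right w1 g0))) (by positivity)
        _ = _ := by ring
    obtain ⟨B, hB⟩ := (c.u_nice ξ).1.2
    have a4 := s7ba_cov X x s0 (X.h.S_cont (c.u_S ξ)) (X.h.S_cont (X.h.S_Δ (c.u_S ξ))) (fun y => (hB y).1)
      (B' := C₃ * (√(b / T₁) * g) / b) fun y => by
        rw [le_div_iff₀' b0]
        have := (h3 X c x e3 h b hb5 c.T ⟨by linarith, by linarith⟩ ξ y).2.2.2 hb
        refine this.trans ?_
        rw [mul_assoc, mul_assoc, ← mul_assoc (e ^ 2)]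
        exact mul_le_mul_of_nonneg_left sg p3.le
    have a5 : X.h.Cov s x (c.u ξ) (c.u ξ) ≤ 12 * b * g := by
      rw [← c.bf_J s0]
      refine (c.J_le s0 x ξ).trans ?_
      have b1 := (h4 X c x e4 h ξ).2.1 s b s0 hs'.2 hb'.1 hb5.2
      have b2 : Real.exp (2 * X.h.k * s) ≤ 3 := by
        refine (Real.exp_le_exp.2 (show _ ≤ 1 by linarith [(tm s (sub hs')).2.1.2])).trans ?_
        linarith [Real.exp_one_lt_d9]
      have b3 : qf (c.G s x) ξ ≤ 2 * g := b1.trans (mul_le_mul_of_nonneg_right (by linarith) g0)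
      calc _ ≤ 2 * b * 3 * (2 * g) := mul_le_mul (mul_le_mul (by linarith [hs'.2]) b2 (Real.exp_pos _).le
            (by positivity)) b3 (MC.psd_qf (c.G_psd s0 x) ξ) (by positivity)
        _ = _ := by ring
    have a6 : |X.h.Cov s x (c.u ξ) (X.h.Δ (c.u ξ))| ≤ √(12 * C₃) * w * g := by
      refine abs_le_of_sq_le_sq' ?_ (by positivity) |> abs_le.2
      refine (a4.trans (mul_le_mul_of_nonneg_right a5 (by positivity))).trans_eq ?_
      rw [mul_pow, mul_pow, w2, Real.sq_sqrt (by positivity)]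
      field_simp
    refine (abs_sub _ _).trans ?_
    rw [abs_mul 2 (X.h.Cov _ _ _ _), abs_two]
    linarith
  have := intervalIntegral.norm_integral_le_of_norm_le_const bd
  rw [ed b hb', ed a (sub (left_mem_Icc.2 hab)), ← ft, add_sub_cancel_left]
  rw [abs_of_nonneg (sub_nonneg.2 hab)] at this
  exact this.trans_eq (by ring)

/-- Gronwall.  `W s = ∫ₐˢ λ max (y σ) 0/σ` is `C¹`, `max (y s) 0 ≤ y₀ + W s + Φ s (s/a)^μ`, `y₀ = max (y a) 0`; `(W s^{-λ})' ≤ λ s^{-λ-1}(y₀ + Φ s (s/a)^μ)`, `λ = 17/16`, `μ = 3/64`. -/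
theorem gronwall_real {y : ℝ → ℝ} {a S Φ : ℝ} (ha : 0 < a) (hΦ : 0 ≤ Φ) (hy : ContinuousOn y (Icc a S))
    (h : ∀ s ∈ Icc a S, y s ≤ y a + (∫ σ in a..s, 17 / 16 * max (y σ) 0 / σ) +
      Φ * s * (s / a) ^ (3 / 64 : ℝ)) :
    ∀ s ∈ Icc a S, y s ≤ (s / a) ^ (17 / 16 : ℝ) * (max (y a) 0 + 100 * Φ * a) := by
  intro s hs
  have aS : a ≤ S := hs.1.trans hs.2
  have pos : ∀ r ∈ Icc a S, 0 < r := fun r hr => ha.trans_le hr.1
  have cf : ContinuousOn (fun σ => 17 / 16 * max (y σ) 0 / σ) (Icc a S) :=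
    (continuousOn_const.mul (fun r hr => (hy r hr).max continuousWithinAt_const)).div continuousOn_id fun r hr => (pos r hr).ne'
  set W : ℝ → ℝ := fun r => ∫ σ in a..r, 17 / 16 * max (y σ) 0 / σ with hW
  have cW : ContinuousOn W (Icc a S) := by
    have := intervalIntegral.continuousOn_primitive_interval (a := a) (b := S) (μ := volume)
      (f := fun σ => 17 / 16 * max (y σ) 0 / σ) (by rw [uIcc_of_le aS]; exact cf.integrableOn_Icc)
    rwa [uIcc_of_le aS] at this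
  have W0 : ∀ r ∈ Icc a S, 0 ≤ W r := fun r hr => intervalIntegral.integral_nonneg hr.1 fun σ hσ => by
    have := ha.trans_le hσ.1
    positivity
  have dp : ∀ p : ℝ, ∀ r ∈ Icc a S, HasDerivAt (fun r => (r / a) ^ p) (p * (r / a) ^ p / r) r := fun p r hr => by
    have r0 := pos r hr
    refine (((hasDerivAt_id r).div_const a).rpow_const (p := p) (Or.inl (by simp only [id]; positivity))).congr_deriv ?_
    simp only [id]
    rw [Real.rpow_sub_one (by positivity)]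
    field_simp
  have key : AntitoneOn (fun r => (W r + max (y a) 0 + 68 * Φ * r * (r / a) ^ (3 / 64 : ℝ)) *
      (r / a) ^ (-(17 / 16) : ℝ)) (Icc a S) := by
    have hd : ∀ r ∈ interior (Icc a S), ∃ d, d ≤ 0 ∧ HasDerivAt (fun r => (W r + max (y a) 0 +
        68 * Φ * r * (r / a) ^ (3 / 64 : ℝ)) * (r / a) ^ (-(17 / 16) : ℝ)) d r := fun r hr => by
      rw [interior_Icc] at hr
      have hr' := Ioo_subset_Icc_self hr
      have r0 := pos r hr'
      have d1 : HasDerivAt W (17 / 16 * max (y r) 0 / r) r := intervalIntegral.integral_hasDerivAt_right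
        ((cf.mono (Icc_subset_Icc_right hr.2.le)).intervalIntegrable_of_Icc hr.1.le)
        ((cf.mono Ioo_subset_Icc_self).stronglyMeasurableAtFilter isOpen_Ioo r hr)
        (cf.continuousAt (Icc_mem_nhds hr.1 hr.2))
      refine ⟨_, ?_, ((d1.add_const (max (y a) 0)).add (((hasDerivAt_id r).const_mul (68 * Φ)).mul
        (dp (3 / 64) r hr'))).mul (dp (-(17 / 16)) r hr')⟩
      have q0 : 0 ≤ Φ * r * (r / a) ^ (3 / 64 : ℝ) := by positivity
      have h1 : max (y r) 0 ≤ max (y a) 0 + W r + Φ * r * (r / a) ^ (3 / 64 : ℝ) :=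
        max_le ((h r hr').trans (by linarith [le_max_left (y a) 0])) (by linarith [le_max_right (y a) 0, W0 r hr'])
      have q1 : 0 < (r / a) ^ (-(17 / 16) : ℝ) / r := by positivity
      refine le_of_eq_of_le ?_ (mul_nonpos_of_nonneg_of_nonpos q1.le (show 17 / 16 * (max (y r) 0 -
        (max (y a) 0 + W r + Φ * r * (r / a) ^ (3 / 64 : ℝ))) ≤ 0 by linarith))
      simp only [id, Pi.add_apply, Pi.mul_apply]
      field_simp
      ring
    refine antitoneOn_of_deriv_nonpos (convex_Icc a S) (((cW.add continuousOn_const).add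
      ((continuousOn_const.mul continuousOn_id).mul fun r hr => (dp _ r hr).continuousAt.continuousWithinAt)).mul
      fun r hr => (dp _ r hr).continuousAt.continuousWithinAt) (fun r hr => ?_) fun r hr => ?_
    · obtain ⟨d, -, h2⟩ := hd r hr
      exact h2.differentiableAt.differentiableWithinAt
    · obtain ⟨d, h1, h2⟩ := hd r hr
      rwa [h2.deriv]
  have k := key (left_mem_Icc.2 aS) hs hs.1
  have s0 := pos s hs
  have q2 : 0 < (s / a) ^ (17 / 16 : ℝ) := by positivity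
  simp only [hW, intervalIntegral.integral_same, div_self ha.ne', Real.one_rpow, mul_one, zero_add,
    Real.rpow_neg (show 0 ≤ s / a by positivity), ← div_eq_mul_inv, div_le_iff₀ q2] at k
  have q0 : 0 ≤ Φ * s * (s / a) ^ (3 / 64 : ℝ) := by positivity
  have q3 : 0 ≤ (s / a) ^ (17 / 16 : ℝ) * (Φ * a) := by positivity
  nlinarith [h s hs, le_max_left (y a) 0]

/-- A point, outside a null set, where an integrable function is at most its mean. -/
theorem up_mean {f : ℝ → ℝ} {a b m : ℝ} (hab : a < b) (hf : IntervalIntegrable f volume a b)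
    {P : ℝ → Prop} (hP : ∀ᵐ σ, σ ∈ Ioc a b → P σ) (hm : ∫ σ in a..b, f σ ≤ (b - a) * m) :
    ∃ σ ∈ Ioc a b, P σ ∧ f σ ≤ m := by
  have hN : (volume.restrict (Ioc a b)) {σ | ¬(σ ∈ Ioc a b ∧ P σ)} = 0 := by
    rw [← ae_iff, ae_restrict_iff' measurableSet_Ioc]
    exact hP.mono fun σ h h' => ⟨h', h h'⟩
  obtain ⟨σ, h₁, h₂⟩ := exists_notMem_null_le_average (μ := volume.restrict (Ioc a b))
    (by simp [hab]) hf.1 hN
  simp only [mem_ofPred_eq, not_not] at h₁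
  refine ⟨σ, h₁.1, h₁.2, h₂.trans ?_⟩
  rw [average_eq, ← intervalIntegral.integral_of_le hab.le, smul_eq_mul, measureReal_restrict_apply_univ,
    Real.volume_real_Ioc_of_le hab.le, inv_mul_le_iff₀ (sub_pos.2 hab)]
  exact hm

theorem up_pow {r r' a b : ℝ} (hr : 1 ≤ r) (h : r ≤ 4 * r') (ha : 0 ≤ a) (ha' : a ≤ 1 / 2) (hab : a ≤ b)
    (hr' : 1 ≤ r') : r ^ a ≤ 2 * r' ^ b := by
  calc r ^ a ≤ (4 * r') ^ a := Real.rpow_le_rpow (by linarith) h ha
    _ = 4 ^ a * r' ^ a := Real.mul_rpow (by norm_num) (by linarith)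
    _ ≤ 4 ^ (1 / 2 : ℝ) * r' ^ b := by
        gcongr
        norm_num
    _ = 2 * r' ^ b := by
        rw [← Real.sqrt_eq_rpow, show (4 : ℝ) = 2 ^ 2 by norm_num, Real.sqrt_sq zero_le_two]

/-- UP.  Recipe: `W = qf (IQ (t/16) t) ξ`, `g = qf (G t) ξ`, `κ = κ t`.  Choose `a ∈ [t/2, t]` with `KK a ≠ ⊤` and `a q(a) + g KK(a) ≤ C (W + gκ)` (averaging, `KK_ae`, `kap_block`); `dl_point` gives `dl a ≤ C(W + gκ)`.
`y s = s dl s` satisfies the hypothesis of `gronwall_real` with `Φ = C g κ` (`dl_ode`, `dl_point` a.e., `G σ ≤ 2(σ/a)^{2e} G a`, `kap_cmp`, `kap_block`; `2e + γ/16 ≤ 3/64`; `(s/T₁)^{1/4} ≤ κ s`).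
Then integrate `2q ≤ (17/32) dl⁺/σ + C G (κ + KK)/σ` over `[max (s/16) t, s]`. -/
theorem up (n : ℕ) (hn : 1 ≤ n) (γ : ℝ) (hγ : 0 < γ) (hγ' : γ ≤ 1 / 2) :
    ∃ C δ e₀ : ℝ, 0 < C ∧ 0 < δ ∧ δ ≤ 1 ∧ 0 < e₀ ∧ ∀ (X : Sp.{u} n) (c : Crd X) (x : X.M)
      {s₀ T₁ e t : ℝ}, e ≤ e₀ → c.HG x s₀ T₁ e γ → s₀ ≤ δ * t → ∀ s ∈ Icc t T₁, ∀ ξ,
      qf (c.IQ (s / 16) s x) ξ ≤ C * (s / t) ^ (1 / 8 : ℝ) *
        (qf (c.IQ (t / 16) t x) ξ + X.h.κ x T₁ γ t * qf (c.G t x) ξ) := by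
  obtain ⟨C₁, δ₁, e₁, hC₁, hδ₁, hδ₁', he₁, hp⟩ := dl_point.{u} n hn γ hγ hγ'
  obtain ⟨C₂, e₂, hC₂, he₂, ho⟩ := dl_ode.{u} n
  obtain ⟨e₃, he₃, he₃', hg⟩ := hyp_growth.{u} n
  refine ⟨1 + 30 * (5 + 12 * C₁ + 100 * (8 * C₁ + 4 * C₂)) + 32 * C₁, δ₁ / 2, min e₁ (min e₂ e₃),
    by positivity, by positivity, by linarith, by positivity,
    fun X c x s₀ T₁ e t he hH hs₀ s hs ξ => ?_⟩
  have he₁' : e ≤ e₁ := he.trans (min_le_left _ _)
  have he₂' : e ≤ e₂ := he.trans ((min_le_right _ _).trans (min_le_left _ _))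
  have he₃'' : e ≤ e₃ := he.trans ((min_le_right _ _).trans (min_le_right _ _))
  have he0 := hH.e_pos
  have he1 : e ≤ 1 / 1000 := he₃''.trans he₃'
  have hs₀0 := hH.s₀_pos
  have ht : 0 < t := by nlinarith
  have hT₁ := hH.T₁_pos
  have htT : t ≤ T₁ := hs.1.trans hs.2
  have hs₀t : s₀ ≤ t / 2 := by nlinarith
  have hTT : T₁ ≤ c.T / 10 := (hH.toHyp.times (by linarith) hT₁ (by linarith)).1
  have hE := hH.toHyp.ent_ne
  have hI : ∀ σ, 0 < σ → σ ≤ T₁ → σ ∈ Ioc 0 (2 * c.T) := fun σ h₁ h₂ => ⟨h₁, by linarith⟩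
  obtain ⟨g₁, g₂, -⟩ := hg X c x he₃'' hH.toHyp ξ
  obtain ⟨hdc, hode⟩ := ho X c x he₂' hH.toHyp ξ
  have hκ := fun σ h₁ h₂ => hH.toHyp.κ_bounds (s := σ) (by linarith) hγ hγ' h₁ h₂
  set W := qf (c.IQ (t / 16) t x) ξ with hW
  set g := qf (c.G t x) ξ with hg'
  set κ := X.h.κ x T₁ γ t with hκ'
  have hW0 : 0 ≤ W := MC.psd_qf (c.IQ_psd (by positivity) (by linarith) (by linarith) x) ξ
  have hg0 : 0 ≤ g := MC.psd_qf (c.G_psd ht x) ξ
  have hκ0 : 0 < κ := (hκ t ht htT).2.2.2.1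
  have hgκ : 0 ≤ κ * g := by positivity
  have hq0 : ∀ σ, 0 < σ → σ ≤ T₁ → 0 ≤ qf (c.Q σ x) ξ := fun σ h₁ h₂ =>
    MC.psd_qf (c.Q_psd (hI σ h₁ h₂) x) ξ
  have hA : ∀ b, t / 2 ≤ b → 2 ≤ 4 * b / t := fun b hb => by rw [le_div_iff₀ ht]; linarith
  have hA' : ∀ b σ, σ ∈ Icc (t / 2) b → t ≤ 4 * b / t * σ := fun b σ hσ => by
    have h₁ := hA b (hσ.1.trans hσ.2)
    linarith [mul_le_mul h₁ hσ.1 (by linarith) (by linarith)]
  have hG : ∀ b ≤ T₁, ∀ σ ∈ Icc (t / 2) b, qf (c.G σ x) ξ ≤ 2 * (4 * b / t) ^ (2 * e) * g :=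
    fun b hb σ hσ => by
      have h₁ := hA b (hσ.1.trans hσ.2)
      rcases le_total σ t with h | h
      · refine (g₂ σ t (by linarith [hσ.1]) h (by linarith) (by linarith)).trans ?_
        have := Real.one_le_rpow (by linarith : 1 ≤ 4 * b / t) (by linarith : 0 ≤ 2 * e)
        exact mul_le_mul_of_nonneg_right (by linarith) hg0
      · refine (g₁ t σ (by linarith) h (by linarith [hσ.2])).trans ?_
        have h₂ := hσ.2
        have h₃ : 0 < σ := ht.trans_le h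
        gcongr
        · linarith
        · linarith
  have hK : ∀ b ≤ T₁, ∀ σ ∈ Icc (t / 2) b, X.h.κ x T₁ γ σ ≤ (4 * b / t) ^ (γ / 16) * κ :=
    fun b hb σ hσ => kap_cmp X x ht (by linarith [hσ.1]) hT₁ (by positivity) hE
      (by rw [div_mul_cancel₀ _ ht.ne']; linarith [hσ.1, hσ.2])
      (hA' b σ hσ)
  have hB := fun b (hb : b ≤ T₁) b' (hb' : b' ∈ Icc (t / 2) b) =>
    kap_block X x (a := γ / 16) (A := 4 * b / t) ht (by positivity) (by linarith [hb'.1]) hb'.2 hb hE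
      (by rw [div_mul_cancel₀ _ ht.ne']; linarith [hb'.1, hb'.2])
      (hA' b b' hb')
  have hB' : ∀ b ≤ T₁, ∀ b' ∈ Icc (t / 2) b,
      ∫ σ in b'..b, (X.h.KK x σ).toReal ≤ b * ((4 * b / t) ^ (γ / 16) * κ) := fun b hb b' hb' => by
    obtain ⟨i₁, i₂, h₁⟩ := hB b hb b' hb'
    refine le_trans ?_ (mul_le_mul_of_nonneg_left h₁ (by linarith [hb'.1, hb'.2]))
    rw [← intervalIntegral.integral_const_mul]
    refine intervalIntegral.integral_mono_on hb'.2 i₂ (i₁.const_mul _) fun σ hσ => ?_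
    have h₀ : 0 < σ := by linarith [hb'.1, hσ.1]
    rw [mul_div_assoc', le_div_iff₀ h₀, mul_comm]
    exact mul_le_mul_of_nonneg_right hσ.2 ENNReal.toReal_nonneg
  have hM : ∀ b r β : ℝ, t / 2 ≤ b → 4 * b / t ≤ 4 * r → 1 ≤ r → 3 / 64 ≤ β →
      (4 * b / t) ^ (2 * e) * (4 * b / t) ^ (γ / 16) ≤ 2 * r ^ β := fun b r β h₁ h₂ h₃ h₄ => by
    rw [← Real.rpow_add (by linarith [hA b h₁])]
    exact up_pow (by linarith [hA b h₁]) h₂ (by positivity) (by linarith) (by linarith) h₃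
  have hpt : ∀ b ≤ T₁, ∀ σ ∈ Icc (t / 2) b, X.h.KK x σ ≠ ⊤ →
      c.dl x ξ σ ≤ 5 * σ * qf (c.Q σ x) ξ + C₁ * (2 * (4 * b / t) ^ (2 * e) * g) *
        ((4 * b / t) ^ (γ / 16) * κ + (X.h.KK x σ).toReal) ∧
      4 * σ * qf (c.Q σ x) ξ ≤ 17 / 16 * max (c.dl x ξ σ) 0 + C₁ * (2 * (4 * b / t) ^ (2 * e) * g) *
        ((4 * b / t) ^ (γ / 16) * κ + (X.h.KK x σ).toReal) := fun b hb σ hσ hKK => by
    obtain ⟨h₁, h₂⟩ := hp X c x he₁' hH (by linarith [mul_le_mul_of_nonneg_left hσ.1 hδ₁.le]) (hσ.2.trans hb) hKK ξ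
    have h₃ : C₁ * qf (c.G σ x) ξ * (X.h.κ x T₁ γ σ + (X.h.KK x σ).toReal) ≤
        C₁ * (2 * (4 * b / t) ^ (2 * e) * g) * ((4 * b / t) ^ (γ / 16) * κ + (X.h.KK x σ).toReal) := by
      have := (hκ σ (by linarith [hσ.1]) (hσ.2.trans hb)).2.2.2.1
      have := hA b (hσ.1.trans hσ.2)
      gcongr
      · exact hG b hb σ hσ
      · exact hK b hb σ hσ
    exact ⟨by linarith, by linarith⟩
  have hae := KK_ae X x hE
  clear hp ho hg g₁ g₂
  -- a good starting time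
  obtain ⟨a, ha, -, hda⟩ : ∃ a ∈ Ioc (t / 2) t, X.h.KK x a ≠ ⊤ ∧ c.dl x ξ a ≤ (5 + 12 * C₁) * (W + κ * g) := by
    have m₁ := hM t 1 1 (by linarith) (by rw [mul_div_assoc, div_self ht.ne']) le_rfl (by norm_num)
    rw [Real.one_rpow] at m₁
    obtain ⟨i₁, e₁⟩ := c.qf_IQ (hI (t / 2) (by positivity) (by linarith)) (hI t ht htT) x ξ
    obtain ⟨-, i₂, -⟩ := hB t htT (t / 2) ⟨le_rfl, by linarith⟩
    have b₁ := hB' t htT (t / 2) ⟨le_rfl, by linarith⟩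
    have b₂ := c.IQ_mono (by positivity : 0 < t / 16) (by linarith : t / 16 ≤ t / 2) (by linarith : t / 2 ≤ t)
      le_rfl (by linarith) x ξ
    rw [e₁, intervalIntegral.integral_const_mul] at b₂
    have hP := Real.rpow_nonneg (by positivity : 0 ≤ 4 * t / t) (2 * e)
    obtain ⟨a, ha, h₁, h₂⟩ := up_mean (by linarith : t / 2 < t) ((i₁.const_mul (5 * t)).add
      (i₂.const_mul (C₁ * (2 * (4 * t / t) ^ (2 * e) * g)))) (P := fun σ => X.h.KK x σ ≠ ⊤)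
      (hae.mono fun σ h h' => h ⟨by linarith [h'.1], h'.2.trans htT⟩) (m := 5 * W + 8 * C₁ * (κ * g)) (by
        rw [intervalIntegral.integral_add (i₁.const_mul _) (i₂.const_mul _),
          intervalIntegral.integral_const_mul, intervalIntegral.integral_const_mul]
        have h₁ := mul_le_mul_of_nonneg_left b₁ (by positivity : 0 ≤ C₁ * (2 * (4 * t / t) ^ (2 * e) * g))
        have h₂ := mul_le_mul_of_nonneg_left m₁ (by positivity : 0 ≤ 2 * C₁ * t * (κ * g))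
        have h₃ := mul_le_mul_of_nonneg_left b₂ ht.le
        linarith)
    refine ⟨a, ha, h₁, ?_⟩
    have h₃ := (hpt t htT a ⟨ha.1.le, ha.2⟩ h₁).1
    have h₄ := mul_le_mul_of_nonneg_right ha.2 (hq0 a (by linarith [ha.1]) (ha.2.trans htT))
    have h₅ := mul_le_mul_of_nonneg_left m₁ (by positivity : 0 ≤ 2 * C₁ * (κ * g))
    linarith [mul_nonneg hC₁.le hW0, hgκ]
  have ha0 : 0 < a := by linarith [ha.1]
  have hyc : ContinuousOn (fun σ => σ * c.dl x ξ σ) (Icc a T₁) :=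
    continuousOn_id.mul (hdc.mono (Icc_subset_Icc_left (by linarith [ha.1])))
  have hgr := gronwall_real (Φ := (8 * C₁ + 4 * C₂) * (κ * g)) ha0 (by positivity) hyc fun b hb => by
    have hb0 : 0 < b := ha0.trans_le hb.1
    have hab : a ∈ Icc (t / 2) b := ⟨ha.1.le, hb.1⟩
    have m₁ := hM b (b / a) (3 / 64) (hab.1.trans hab.2)
      (by rw [mul_div_assoc]; gcongr; exact ha.2) ((one_le_div ha0).2 hb.1) le_rfl
    have h₁ := (abs_le.1 (hode a b (by linarith [ha.1]) hb.1 hb.2)).2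
    obtain ⟨-, i₂, -⟩ := hB b hb.2 a hab
    have hsub : Icc a b ⊆ Icc a T₁ := Icc_subset_Icc_right hb.2
    have i₁ : IntervalIntegrable (fun σ => 4 * σ * qf (c.Q σ x) ξ) volume a b :=
      (c.qf_IQ (hI a ha0 (hb.1.trans hb.2)) (hI b hb0 hb.2) x ξ).1.continuousOn_mul (by fun_prop)
    have i₃ : IntervalIntegrable (fun σ => 17 / 16 * max (σ * c.dl x ξ σ) 0 / σ) volume a b := by
      refine ContinuousOn.intervalIntegrable ?_
      rw [uIcc_of_le hb.1]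
      exact (continuousOn_const.mul ((hyc.mono hsub).sup continuousOn_const)).div continuousOn_id
        fun σ hσ => (ha0.trans_le hσ.1).ne'
    have h₂ := intervalIntegral.integral_mono_ae_restrict hb.1 i₁ (i₃.add ((intervalIntegrable_const.add i₂).const_mul
      (C₁ * (2 * (4 * b / t) ^ (2 * e) * g)))) (by
        rw [EventuallyLE, ae_restrict_iff' measurableSet_Icc]
        filter_upwards [hae] with σ h hσ
        have hσ0 : 0 < σ := ha0.trans_le hσ.1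
        have := (hpt b hb.2 σ ⟨ha.1.le.trans hσ.1, hσ.2⟩ (h ⟨hσ0, hσ.2.trans hb.2⟩)).2
        rw [mul_div_assoc, ← max_div_div_right hσ0.le, zero_div, mul_div_cancel_left₀ _ hσ0.ne']
        exact this)
    rw [intervalIntegral.integral_add i₃ ((intervalIntegrable_const.add i₂).const_mul _),
      intervalIntegral.integral_const_mul, intervalIntegral.integral_add intervalIntegrable_const i₂,
      intervalIntegral.integral_const, smul_eq_mul] at h₂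
    have hP := Real.rpow_nonneg (by positivity : 0 ≤ 4 * b / t) (2 * e)
    have hP' := Real.rpow_nonneg (by positivity : 0 ≤ 4 * b / t) (γ / 16)
    have h₃ := mul_le_mul_of_nonneg_left (hB' b hb.2 a hab)
      (by positivity : 0 ≤ C₁ * (2 * (4 * b / t) ^ (2 * e) * g))
    have h₄ : C₂ * (b - a) * (b / T₁) ^ (1 / 4 : ℝ) * qf (c.G b x) ξ ≤
        C₂ * b * ((4 * b / t) ^ (γ / 16) * κ) * (2 * (4 * b / t) ^ (2 * e) * g) := by
      have := MC.psd_qf (c.G_psd hb0 x) ξ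
      have := sub_nonneg.2 hb.1
      gcongr
      · linarith
      · exact (hκ b hb0 hb.2).2.1.trans (hK b hb.2 b ⟨hab.1.trans hab.2, le_rfl⟩)
      · exact hG b hb.2 b ⟨hab.1.trans hab.2, le_rfl⟩
    have h₅ := mul_le_mul_of_nonneg_left m₁ (by positivity : 0 ≤ (4 * C₁ + 2 * C₂) * b * (κ * g))
    have h₆ : 0 ≤ a * (C₁ * (2 * (4 * b / t) ^ (2 * e) * g) * ((4 * b / t) ^ (γ / 16) * κ)) := by positivity
    linarith
  have hs0 : 0 < s := ht.trans_le hs.1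
  have hr : 1 ≤ s / t := (one_le_div ht).2 hs.1
  have hr' := Real.one_le_rpow hr (by norm_num : (0 : ℝ) ≤ 1 / 8)
  set L := 5 + 12 * C₁ + 100 * (8 * C₁ + 4 * C₂) with hL
  have hD : ∀ σ ∈ Icc t s, max (c.dl x ξ σ) 0 ≤ 2 * (s / t) ^ (1 / 8 : ℝ) * (L * (W + κ * g)) :=
    fun σ hσ => by
      have hσ0 : 0 < σ := ht.trans_le hσ.1
      refine max_le (le_of_mul_le_mul_left ?_ hσ0) (by positivity)
      refine (hgr σ ⟨ha.2.trans hσ.1, hσ.2.trans hs.2⟩).trans ?_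
      have h₁ : max (a * c.dl x ξ a) 0 ≤ a * ((5 + 12 * C₁) * (W + κ * g)) :=
        max_le (mul_le_mul_of_nonneg_left hda ha0.le) (by positivity)
      have h₂ : (σ / a) ^ (1 / 16 : ℝ) ≤ 2 * (s / t) ^ (1 / 8 : ℝ) :=
        up_pow ((one_le_div ha0).2 (ha.2.trans hσ.1)) (by
          rw [div_le_iff₀ ha0, ← mul_div_assoc, div_mul_eq_mul_div, le_div_iff₀ ht]
          linarith [mul_le_mul_of_nonneg_right hσ.2 ht.le, mul_le_mul_of_nonneg_left ha.1.le hs0.le,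
            mul_nonneg hs0.le ha0.le]) (by norm_num) (by norm_num) (by norm_num) hr
      rw [show (17 / 16 : ℝ) = 1 + 1 / 16 by norm_num, Real.rpow_add (by positivity), Real.rpow_one]
      calc _ ≤ σ / a * (2 * (s / t) ^ (1 / 8 : ℝ)) * (a * (L * (W + κ * g))) := by
            gcongr
            linarith [mul_nonneg (mul_nonneg ha0.le (by positivity : 0 ≤ 8 * C₁ + 4 * C₂)) hW0]
        _ = _ := by field_simp
  have hb₁ : t ≤ max (s / 16) t := le_max_right _ _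
  have hb₂ : s / 16 ≤ max (s / 16) t := le_max_left _ _
  have hb₃ : max (s / 16) t ≤ s := max_le (by linarith) hs.1
  have f₁ : qf (c.IQ (s / 16) (max (s / 16) t) x) ξ ≤ W := by
    rcases le_total (s / 16) t with h | h
    · rw [max_eq_right h]
      exact c.IQ_mono (by positivity) (by linarith [hs.1]) h le_rfl (by linarith) x ξ
    · rw [max_eq_left h, (c.qf_IQ (hI _ (by positivity) (by linarith [hs.2]))
        (hI _ (by positivity) (by linarith [hs.2])) x ξ).2, intervalIntegral.integral_same]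
      exact hW0
  generalize max (s / 16) t = b at *
  have hb0 : 0 < b := ht.trans_le hb₁
  have hbs : b ∈ Icc (t / 2) s := ⟨by linarith, hb₃⟩
  rw [← c.IQ_add (hI _ (by positivity) (by linarith [hs.2])) (hI b hb0 (hb₃.trans hs.2)) (hI s hs0 hs.2),
    MC.qf_madd]
  obtain ⟨i₁, e₁⟩ := c.qf_IQ (hI b hb0 (hb₃.trans hs.2)) (hI s hs0 hs.2) x ξ
  obtain ⟨i₂, -, b₂⟩ := hB s hs.2 b hbs
  have m₁ := hM s (s / t) (1 / 8) (by linarith [hs.1]) (by rw [mul_div_assoc]) hr (by norm_num)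
  have hP := Real.rpow_nonneg (by positivity : 0 ≤ 4 * s / t) (2 * e)
  have hP' := Real.rpow_nonneg (by positivity : 0 ≤ 4 * s / t) (γ / 16)
  have h₂ := intervalIntegral.integral_mono_ae_restrict hb₃ (i₁.const_mul 2)
    ((intervalIntegrable_const (c := (2 * (s / t) ^ (1 / 8 : ℝ) * (L * (W + κ * g)) +
      C₁ * ((4 * s / t) ^ (2 * e) * g) * ((4 * s / t) ^ (γ / 16) * κ)) / b)).add
      (i₂.const_mul (C₁ * ((4 * s / t) ^ (2 * e) * g)))) (by
      rw [EventuallyLE, ae_restrict_iff' measurableSet_Icc]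
      filter_upwards [hae] with σ h hσ
      have hσ0 : 0 < σ := hb0.trans_le hσ.1
      have h₁ := (hpt s hs.2 σ ⟨by linarith [hσ.1], hσ.2⟩ (h ⟨hσ0, hσ.2.trans hs.2⟩)).2
      have h₂ := hD σ ⟨hb₁.trans hσ.1, hσ.2⟩
      refine le_trans ?_ (add_le_add (div_le_div_of_nonneg_left (by positivity) hb0 hσ.1) le_rfl)
      rw [mul_div_assoc', ← add_div, le_div_iff₀ hσ0]
      linarith [le_max_right (c.dl x ξ σ) 0])
  rw [← e₁, intervalIntegral.integral_add intervalIntegrable_const (i₂.const_mul _),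
    intervalIntegral.integral_const_mul, intervalIntegral.integral_const, smul_eq_mul, mul_div_assoc',
    mul_comm (s - b), mul_div_assoc] at h₂
  have h₃ : (s - b) / b ≤ 15 := by rw [div_le_iff₀ hb0]; linarith
  have h₄ := mul_le_mul_of_nonneg_left h₃ (by positivity : 0 ≤ 2 * (s / t) ^ (1 / 8 : ℝ) * (L * (W + κ * g)) +
    C₁ * ((4 * s / t) ^ (2 * e) * g) * ((4 * s / t) ^ (γ / 16) * κ))
  have h₅ := mul_le_mul_of_nonneg_left b₂ (by positivity : 0 ≤ C₁ * ((4 * s / t) ^ (2 * e) * g))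
  have h₆ := mul_le_mul_of_nonneg_left m₁ (by positivity : 0 ≤ 16 * C₁ * (κ * g))
  have h₇ := mul_le_mul_of_nonneg_right hr' (add_nonneg hW0 hgκ)
  have h₈ : 0 ≤ C₁ * (s / t) ^ (1 / 8 : ℝ) * W := by positivity
  change _ ≤ _ * ((4 * s / t) ^ (γ / 16) * κ) at h₅
  linarith

open MC in
lemma s7c_alg {Gs Gt I I' : Mat n} {ξ a : V n} {W c p : ℝ} (hGs : Gs.PosDef) (hGt : Gt.PosDef)
    (hI : I.PosSemidef) (hI' : I'.PosSemidef) (hW : 0 ≤ W) (hc : 0 ≤ c) (hp : 0 ≤ p)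
    (h1 : ∀ v, qf Gt v ≤ 4 * qf Gs v) (h2 : ∀ v, qf I v ≤ 8 * qf Gs v)
    (h3 : ∀ v, |qf (Gt - Gs - I) v| ≤ c * qf Gs v) (h4 : qf Gt⁻¹ (a + Gt *ᵥ ξ) ≤ W)
    (h5 : qf I ξ ≤ W) (h6 : c ^ 2 * qf Gs ξ ≤ W) (h7 : ∀ v, qf I' v ≤ 4 * p * qf Gs v)
    (h8 : qf I' ξ ≤ p * W) : qf I' (Gs⁻¹ *ᵥ a) ≤ 169 * (p * W) := by
  have hs := hGs.posSemidef
  obtain ⟨w, hw, rfl⟩ : ∃ w, 0 ≤ w ∧ W = w ^ 2 := ⟨√W, Real.sqrt_nonneg _, (Real.sq_sqrt hW).symm⟩
  obtain ⟨r, hr, rfl⟩ : ∃ r, 0 ≤ r ∧ p = r ^ 2 := ⟨√p, Real.sqrt_nonneg _, (Real.sq_sqrt hp).symm⟩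
  have a1 : sn Gs⁻¹ (a + Gt *ᵥ ξ) ≤ 2 * w :=
    (sn_inv_mono hGs hGt zero_le_two (fun ζ => sn_le_mul hs zero_le_two (by linarith [h1 ζ])) _).trans
      (by linarith [sn_le_of_sq hw h4])
  have a2 : sn Gs⁻¹ (I *ᵥ ξ) ≤ 3 * w :=
    (psd_vec hGs hI (μ := 3) (by norm_num)
      (fun v => sn_le_mul hs (by norm_num) (by linarith [h2 v, psd_qf hs v])) _).trans
      (by linarith [sn_le_of_sq hw h5])
  have a3 : sn Gs⁻¹ ((Gt - Gs - I) *ᵥ ξ) ≤ w := by
    refine (sandwich_vec hGs (by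
      rw [transpose_sub, transpose_sub, psd_symm hs, psd_symm hGt.posSemidef, psd_symm hI]) hs hc
      zero_le_one h3 (fun v => by rw [one_mul]) _).trans ?_
    refine (abs_le_of_sq_le_sq' ?_ hw).2
    rw [mul_one, mul_pow, sn_sq hs]
    exact h6
  have a4 : sn Gs (ξ + Gs⁻¹ *ᵥ a) ≤ 6 * w := by
    have e : Gs *ᵥ (ξ + Gs⁻¹ *ᵥ a) = (a + Gt *ᵥ ξ) - I *ᵥ ξ - (Gt - Gs - I) *ᵥ ξ := by
      rw [mulVec_add, pd_mul_inv hGs, sub_mulVec, sub_mulVec]; abel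
    rw [← sn_inv_mul hGs, e]
    have hi := hGs.inv.posSemidef
    linarith [sn_sub_le hi (a + Gt *ᵥ ξ - I *ᵥ ξ) ((Gt - Gs - I) *ᵥ ξ),
      sn_sub_le hi (a + Gt *ᵥ ξ) (I *ᵥ ξ)]
  have a5 : sn I' (ξ + Gs⁻¹ *ᵥ a) ≤ 2 * r * (6 * w) :=
    (sn_le_mul hs (c := 2 * r) (by positivity) (by linarith [h7 (ξ + Gs⁻¹ *ᵥ a)])).trans
      (mul_le_mul_of_nonneg_left a4 (by positivity))
  have a6 : sn I' ξ ≤ r * w := sn_le_of_sq (by positivity) (by linarith)
  have a7 := sn_sub_le hI' (ξ + Gs⁻¹ *ᵥ a) ξ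
  rw [add_sub_cancel_left] at a7
  rw [← sn_sq hI']
  calc _ ≤ (13 * (r * w)) ^ 2 := pow_le_pow_left₀ (sn_nonneg _ _) (by linarith) 2
    _ = _ := by ring

/-- Recipe: `exists_PH`, `pair_ident` (time `t ∈ [s,2s]`, vector `ξ`), `pair_Q` on `[t'/16, t']`, `t' = s/10⁶`, `up` from `t'`: `IQ (s'/16) s' (ξ) ≤ C (s'/s)^{1/8} s κ`, in particular for `IQ s t ≤ IQ s (16 s)`.
With `ξ' = -g_t a`: `G t (ξ - ξ') ≤ K t κ`; `g_s a - g_t a = g_s (G t - G s) g_t a`, `G t - G s = IQ s t + err` (`G_time`, `hyp_small`, `κ_bounds`, `MC.psd_vec`, `MC.sandwich_vec`), so `G s (ξ + g_s a) ≤ C s κ`;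
finally `IQ (s'/16) s' ≤ 2 G s' ≤ 4 (s'/s)^{2e} G s`. -/
theorem pair_up (n : ℕ) (hn : 1 ≤ n) (γ R : ℝ) (hγ : 0 < γ) (hγ' : γ ≤ 1 / 2) (hR : 0 ≤ R) :
    ∃ C δ e₀ : ℝ, 0 < C ∧ 0 < δ ∧ 0 < e₀ ∧ ∀ (X : Sp.{u} n) (c : Crd X) (x z : X.M)
      {s₀ T₁ e s : ℝ}, e ≤ e₀ → c.HG x s₀ T₁ e γ → c.HG z s₀ T₁ e γ → s₀ ≤ δ * s → 16 * s ≤ T₁ →
      dist x z ≤ R * Real.sqrt s → ∀ s' ∈ Icc s T₁,
      qf (c.IQ (s' / 16) s' x) ((c.G s x)⁻¹ *ᵥ (c.uv z - c.uv x)) ≤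
        C * (s' / s) ^ (1 / 8 : ℝ) * s * (X.h.κ x T₁ γ s + X.h.κ z T₁ γ s) := by
  obtain ⟨K, δ₁, e₁, hK, hδ₁, hδ₁', he₁, H1⟩ := pair_ident.{u} n hn γ R hγ hγ'
  obtain ⟨CQ, e₂, hCQ, he₂, H2⟩ := pair_Q.{u} n hn γ R K (1 / (32 * 10 ^ 6)) hγ hγ' (by norm_num)
  obtain ⟨CU, δ₃, e₃, hCU, hδ₃, hδ₃', he₃, H3⟩ := up.{u} n hn γ hγ hγ'
  obtain ⟨e₄, he₄, he₄', H4⟩ := hyp_growth.{u} n
  obtain ⟨e₅, he₅, H5⟩ := hyp_small.{u} n
  obtain ⟨CG, hCG, H6⟩ := G_time.{u} n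
  obtain ⟨C₁, hC₁⟩ : ∃ C₁, C₁ = CU * 10 ^ 6 * (8 * CQ + 4 * 10 ^ 6 * K) := ⟨_, rfl⟩
  have hC₁0 : 0 < C₁ := by rw [hC₁]; positivity
  refine ⟨169 * (8 * K + 16 * C₁ + 8 * K * CG ^ 2), min δ₁ (δ₃ / 10 ^ 6),
    min (min e₁ e₂) (min e₃ (min e₄ e₅)), by positivity, by positivity, by positivity,
    fun X c x z s₀ T₁ e s he hx hz hs₀ hT hd s' hs' => ?_⟩
  simp only [le_min_iff] at he
  obtain ⟨⟨k₁, k₂⟩, k₃, k₄, k₅⟩ := he
  have he0 := hx.e_pos
  have he1 : e ≤ 1 := by linarith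
  have hs : 0 < s := (mul_pos_iff_of_pos_left (by positivity)).1 (hx.s₀_pos.trans_le hs₀)
  have b1 : s₀ ≤ δ₁ * s := hs₀.trans (mul_le_mul_of_nonneg_right (min_le_left _ _) hs.le)
  have b2 : s₀ ≤ δ₃ * (s / 10 ^ 6) :=
    hs₀.trans ((mul_le_mul_of_nonneg_right (min_le_right _ _) hs.le).trans_eq (by ring))
  have b3 : s₀ ≤ s := b1.trans (mul_le_of_le_one_left hs.le hδ₁')
  have hT0 := hx.T₁_pos
  have hTT : 10 ^ 5 * T₁ ≤ c.T / 10 := (hx.toHyp.times he1 (by positivity) le_rfl).1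
  obtain ⟨t, ⟨t1, t2⟩, hPH⟩ := exists_PH hx hz he1 hγ hγ' hs (by linarith) hR hd
  obtain ⟨ξ, hP, hid⟩ := H1 X c x z k₁ hPH (b1.trans (mul_le_mul_of_nonneg_left t1 hδ₁.le))
  obtain ⟨κ1, κ2, -, κ3, -, κ4⟩ := hx.toHyp.κ_bounds he1 hγ hγ' hs (by linarith)
  have κ5 := (hz.toHyp.κ_bounds he1 hγ hγ' hs (by linarith)).2.2.2.1
  set κx := X.h.κ x T₁ γ s with hκx
  set κz := X.h.κ z T₁ γ s with hκz
  have hsκ : 0 < s * (κx + κz) := by positivity
  -- sizes of `ξ`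
  have g2 : ∀ σ, 0 < σ → σ ≤ t → qf (c.G σ x) ξ ≤ 4 * K * s := fun σ h0 h1 => by
    have := (H4 X c x k₄ hx.toHyp ξ).2.1 σ t h0 h1 (by linarith) (by linarith)
    have h2 := MC.psd_qf (c.G_psd (hs.trans_le t1) x) ξ
    nlinarith [hP.size, mul_le_mul_of_nonneg_left t2 (zero_le_one.trans hK)]
  have g1 : ∀ σ ∈ Icc s T₁, ∀ v, qf (c.G σ x) v ≤ 2 * (σ / s) ^ (1 / 8 : ℝ) * qf (c.G s x) v :=
    fun σ hσ v => ((H4 X c x k₄ hx.toHyp v).1 s σ b3 hσ.1 (by linarith [hσ.2])).trans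
      (mul_le_mul_of_nonneg_right (mul_le_mul (by linarith)
        (Real.rpow_le_rpow_of_exponent_le ((one_le_div hs).2 hσ.1) (by linarith))
        (Real.rpow_nonneg (div_nonneg (hs.le.trans hσ.1) hs.le) _) zero_le_two)
        (MC.psd_qf (c.G_psd hs x) v))
  have g3 : ∀ r : ℝ, 1 ≤ r → r ^ (1 / 8 : ℝ) ≤ r := fun r hr => by
    simpa using Real.rpow_le_rpow_of_exponent_le hr (show (1 / 8 : ℝ) ≤ 1 by norm_num)
  -- the block at the small scale
  have q1 : qf (c.IQ (s / 10 ^ 6 / 16) (s / 10 ^ 6) x) ξ ≤ 8 * CQ * (s * (κx + κz)) := by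
    obtain ⟨i1, i2⟩ := c.qf_IQ (a := s / 10 ^ 6 / 16) (b := s / 10 ^ 6) ⟨by positivity, by linarith⟩
      ⟨by positivity, by linarith⟩ x ξ
    rw [i2]
    refine (intervalIntegral.integral_mono_on (g := fun _ => 2 * (CQ * (4 * (κx + κz)))) (by linarith)
      (i1.const_mul 2) intervalIntegrable_const fun σ hσ => ?_).trans ?_
    · have := H2 X c x z k₂ hPH (by linarith) hP σ (by linarith [hσ.1]) (by linarith [hσ.2])
      linarith
    · rw [intervalIntegral.integral_const, smul_eq_mul]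
      nlinarith [mul_pos hCQ hsκ]
  have q2 : X.h.κ x T₁ γ (s / 10 ^ 6) ≤ 10 ^ 6 * κx := by
    refine (kap_cmp X x (A := 10 ^ 6) hs (by positivity) hT0 (by positivity) hx.toHyp.ent_ne
      (by linarith) (by linarith)).trans (mul_le_mul_of_nonneg_right ?_ κ3.le)
    simpa using Real.rpow_le_rpow_of_exponent_le (show (1 : ℝ) ≤ 10 ^ 6 by norm_num)
      (show γ / 16 ≤ 1 by linarith)
  have q3 : ∀ σ ∈ Icc s T₁, qf (c.IQ (σ / 16) σ x) ξ ≤
      (σ / s) ^ (1 / 8 : ℝ) * (C₁ * (s * (κx + κz))) := fun σ hσ => by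
    have hσ0 : 0 ≤ σ / s := div_nonneg (hs.le.trans hσ.1) hs.le
    refine (H3 X c x k₃ hx b2 σ ⟨by linarith [hσ.1], hσ.2⟩ ξ).trans ?_
    have e1 : (σ / (s / 10 ^ 6)) ^ (1 / 8 : ℝ) ≤ 10 ^ 6 * (σ / s) ^ (1 / 8 : ℝ) := by
      rw [show σ / (s / 10 ^ 6) = 10 ^ 6 * (σ / s) by field_simp, Real.mul_rpow (by positivity) hσ0]
      exact mul_le_mul_of_nonneg_right (g3 _ (by norm_num)) (by positivity)
    have e2 : X.h.κ x T₁ γ (s / 10 ^ 6) * qf (c.G (s / 10 ^ 6) x) ξ ≤ 10 ^ 6 * (κx + κz) * (4 * K * s) :=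
      mul_le_mul (by linarith) (g2 _ (by positivity) (by linarith))
        (MC.psd_qf (c.G_psd (by positivity) x) ξ) (by positivity)
    have e3 := MC.psd_qf (c.IQ_psd (a := s / 10 ^ 6 / 16) (b := s / 10 ^ 6) (by positivity)
      (by linarith) (by linarith) x) ξ
    have e4 := mul_nonneg (hx.toHyp.κ_bounds he1 hγ hγ' (s := s / 10 ^ 6) (by positivity)
      (by linarith)).2.2.2.1.le (MC.psd_qf (c.G_psd (s := s / 10 ^ 6) (by positivity) x) ξ)
    calc _ ≤ CU * (10 ^ 6 * (σ / s) ^ (1 / 8 : ℝ)) *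
          (8 * CQ * (s * (κx + κz)) + 10 ^ 6 * (κx + κz) * (4 * K * s)) :=
          mul_le_mul (mul_le_mul_of_nonneg_left e1 hCU.le) (add_le_add q1 e2) (add_nonneg e3 e4)
            (by positivity)
      _ = _ := by rw [hC₁]; ring
  have hSs := H5 X c x k₅ hx.toHyp s ⟨b3, by linarith⟩
  have hSt := H5 X c x k₅ hx.toHyp t ⟨by linarith, by linarith⟩
  have hS' := H5 X c x k₅ hx.toHyp s' ⟨by linarith [hs'.1], by linarith [hs'.2]⟩
  have hts : ∀ v, qf (c.G t x) v ≤ 4 * qf (c.G s x) v := fun v =>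
    (g1 t ⟨t1, by linarith⟩ v).trans (mul_le_mul_of_nonneg_right (by
      linarith [g3 _ ((one_le_div hs).2 t1), (div_le_iff₀ hs).2 t2]) (MC.psd_qf (c.G_psd hs x) v))
  have hs'0 : 0 < s' := hs.trans_le hs'.1
  have hp : 0 ≤ (s' / s) ^ (1 / 8 : ℝ) := by positivity
  have w1 : 0 < K * (s * (κx + κz)) := by positivity
  have w2 : 0 < C₁ * (s * (κx + κz)) := by positivity
  have w3 : 0 < K * CG ^ 2 * (s * (κx + κz)) := by positivity
  refine (s7c_alg (ξ := ξ) (I := c.IQ s t x) (c := CG * κx) (p := (s' / s) ^ (1 / 8 : ℝ))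
    (W := (8 * K + 16 * C₁ + 8 * K * CG ^ 2) * (s * (κx + κz))) hSs.1 hSt.1
    (c.IQ_psd hs t1 (by linarith) x)
    (c.IQ_psd (by positivity) (by linarith) (by linarith [hs'.2]) x) (by positivity) (by positivity) hp
    hts (fun v => ?_) (fun v => ?_) ?_ ?_ ?_ (fun v => ?_) ?_).trans_eq (by ring)
  · linarith [(hSt.2 v).2.2 s hs t1, hts v]
  · rw [MC.qf_msub, MC.qf_msub]
    refine (H6 X c hs t1 (by linarith) x v).trans ?_
    rw [mul_assoc, mul_assoc]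
    refine mul_le_mul_of_nonneg_left ?_ hCG.le
    have v0 : 0 ≤ v ⬝ᵥ v := by simpa [MC.qf_one'] using MC.psd_qf (PosSemidef.one (n := Fin n) (R := ℝ)) v
    refine (mul_le_mul_of_nonneg_right (div_le_div_of_nonneg_right (show t - s ≤ s by linarith)
      c.T_pos.le) v0).trans (((hSs.2 v).2.1 (by linarith)).trans ?_)
    refine mul_le_mul_of_nonneg_right ?_ (MC.psd_qf (c.G_psd hs x) v)
    exact (mul_le_of_le_one_left (Real.sqrt_nonneg _) (pow_le_one₀ he0.le he1)).trans (κ1.trans κ2)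
  · have : K * t * (4 * (κx + κz)) ≤ K * (2 * s) * (4 * (κx + κz)) := by gcongr
    linarith
  · have h1 := q3 (16 * s) ⟨by linarith, hT⟩
    rw [mul_div_cancel_left₀ s (by norm_num), mul_div_cancel_right₀ _ hs.ne'] at h1
    have h2 := c.IQ_mono hs le_rfl t1 (show t ≤ 16 * s by linarith) (by linarith) x ξ
    have h3 := mul_le_mul_of_nonneg_right (g3 16 (by norm_num)) w2.le
    linarith
  · have h1 : κx ^ 2 ≤ 2 * (κx + κz) := by nlinarith
    have h2 : CG ^ 2 * (κx ^ 2 * qf (c.G s x) ξ) ≤ CG ^ 2 * (2 * (κx + κz) * (4 * K * s)) :=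
      mul_le_mul_of_nonneg_left (mul_le_mul h1 (g2 s hs t1) (MC.psd_qf (c.G_psd hs x) ξ)
        (by positivity)) (sq_nonneg _)
    linarith
  · linarith [(hS'.2 v).2.2 (s' / 16) (by positivity) (by linarith), g1 s' hs' v]
  · exact (q3 s' hs').trans (mul_le_mul_of_nonneg_left (by linarith) hp)

end Crest.Agent.R247
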