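import Crest.Agent.R247.S7b

/-! # Row 247, S8: the data of Theorem C -/

set_option autoImplicit false
set_option linter.unusedSectionVars false
set_option linter.unusedVariables false
open MeasureTheory Filter Set Metric Matrix
open scoped ENNReal NNReal Topology ContDiff
open Crest.GeometryTopology.CoordMetric

noncomputable section
namespace Crest.Agent.R247
universe u

variable {n : ℕ}

/-- Accumulated drops. -/
def Crd.Ak {X : Sp.{u} n} (c : Crd X) (r₀ : ℝ) : ℕ → X.M → Mat n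
  | 0, x => c.IQ (r₀ ^ 2) (10 ^ 4 * r₀ ^ 2) x
  | k + 1, x => (1 / 2 : ℝ) • c.Ak r₀ k x + c.IQ (rk r₀ (k + 1) ^ 2) (rk r₀ k ^ 2) x

/-- All scales. -/
def Crd.All {X : Sp.{u} n} (c : Crd X) (x : X.M) (T₁ e γ : ℝ) : Prop :=
  ∀ s₀, 0 < s₀ → c.HG x s₀ T₁ e γ

theorem rk_sq (r₀ : ℝ) (k : ℕ) : rk r₀ k ^ 2 = r₀ ^ 2 / 16 ^ k ∧ rk r₀ k ^ 2 = 16 * rk r₀ (k + 1) ^ 2 := by

  have h : ∀ k : ℕ, rk r₀ k ^ 2 = r₀ ^ 2 / 16 ^ k := fun k => by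
    rw [rk, div_pow, ← pow_mul, mul_comm k 2, pow_mul]; norm_num
  refine ⟨h k, ?_⟩
  rw [h, h, pow_succ (16 : ℝ)]
  field_simp

theorem s8_rk_pos {r₀ : ℝ} (hr : 0 < r₀) (k : ℕ) : 0 < rk r₀ k := by
  unfold rk; positivity

theorem s8_rk_zero (r₀ : ℝ) : rk r₀ 0 = r₀ := by simp [rk]

theorem s8_rk_anti {r₀ : ℝ} {j k : ℕ} (h : j ≤ k) : rk r₀ k ^ 2 ≤ rk r₀ j ^ 2 := by
  rw [(rk_sq r₀ k).1, (rk_sq r₀ j).1]
  exact div_le_div_of_nonneg_left (sq_nonneg _) (by positivity) (pow_le_pow_right₀ (by norm_num) h)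

theorem s8_rk_le (r₀ : ℝ) (k : ℕ) : rk r₀ k ^ 2 ≤ r₀ ^ 2 := by
  simpa [s8_rk_zero] using s8_rk_anti (r₀ := r₀) (Nat.zero_le k)

theorem s8_sqrt_rk {r₀ : ℝ} (hr : 0 < r₀) (k : ℕ) : Real.sqrt (rk r₀ k ^ 2) = rk r₀ k :=
  Real.sqrt_sq (s8_rk_pos hr k).le

theorem s8_Dp_psd {X : Sp.{u} n} (c : Crd X) {r₀ : ℝ} (hr : 0 < r₀) (hT : 10 ^ 4 * r₀ ^ 2 ≤ c.T)
    (k : ℕ) (x : X.M) : (c.IQ (rk r₀ (k + 1) ^ 2) (rk r₀ k ^ 2) x).PosSemidef :=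
  c.IQ_psd (pow_pos (s8_rk_pos hr _) 2) (s8_rk_anti (Nat.le_succ k))
    (by nlinarith [s8_rk_le r₀ k, c.T_pos, sq_nonneg r₀]) x

theorem s8_Ak_succ {X : Sp.{u} n} (c : Crd X) (r₀ : ℝ) (k : ℕ) (x : X.M) (ξ : V n) :
    qf (c.Ak r₀ (k + 1) x) ξ =
      1 / 2 * qf (c.Ak r₀ k x) ξ + qf (c.IQ (rk r₀ (k + 1) ^ 2) (rk r₀ k ^ 2) x) ξ := by
  rw [← MC.qf_msmul, ← MC.qf_madd]; rfl

theorem s8_rp8 {x a : ℝ} (hx : 0 ≤ x) (ha : 0 ≤ a) (h : x ≤ a ^ 8) : x ^ (1 / 8 : ℝ) ≤ a := by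
  calc x ^ (1 / 8 : ℝ) ≤ (a ^ 8) ^ (1 / 8 : ℝ) := Real.rpow_le_rpow hx h (by norm_num)
    _ = a := by
      rw [show (1 / 8 : ℝ) = ((8 : ℕ) : ℝ)⁻¹ by norm_num]
      exact Real.pow_rpow_inv_natCast ha (by norm_num)

theorem Ak_psd {X : Sp.{u} n} (c : Crd X) {r₀ : ℝ} (hr : 0 < r₀) (hT : 10 ^ 4 * r₀ ^ 2 ≤ c.T) (k : ℕ)
    (x : X.M) : (c.Ak r₀ k x).PosSemidef ∧
      ∀ i ≤ k, ∀ ξ, qf (c.Ak r₀ i x) ξ ≤ 2 ^ (k - i) * qf (c.Ak r₀ k x) ξ := by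

  have hp : ∀ k, (c.Ak r₀ k x).PosSemidef := fun k => by
    induction k with
    | zero => exact c.IQ_psd (by positivity) (by nlinarith) (by linarith [c.T_pos]) x
    | succ k ih => exact (ih.smul (by norm_num : (0 : ℝ) ≤ 1 / 2)).add (s8_Dp_psd c hr hT k x)
  refine ⟨hp k, fun i hi ξ => ?_⟩
  induction k, hi using Nat.le_induction with
  | base => simp
  | succ k hi ih =>
    have h1 : qf (c.Ak r₀ (k + 1) x) ξ =
        1 / 2 * qf (c.Ak r₀ k x) ξ + qf (c.IQ (rk r₀ (k + 1) ^ 2) (rk r₀ k ^ 2) x) ξ := by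
      rw [← MC.qf_msmul, ← MC.qf_madd]; rfl
    have h2 := MC.psd_qf (s8_Dp_psd c hr hT k x) ξ
    have h3 : (0 : ℝ) < 2 ^ (k - i) := by positivity
    rw [Nat.succ_sub hi, pow_succ]
    nlinarith

/-- Induction: `qf (Ak j) ξ ≤ 16 (t_j/t_k)^{1/8} Φ` for `j ≤ k` (`16^{1/8} = √2`; `IQ_add`, `IQ_mono`, four blocks for `j = 0`). -/
theorem Ak_le {X : Sp.{u} n} (c : Crd X) {r₀ T₁ Φ : ℝ} (hr : 0 < r₀) (h₁ : 16 ^ 4 * r₀ ^ 2 ≤ T₁)
    (hT : T₁ ≤ c.T) (k : ℕ) (x : X.M) (ξ : V n) (h : ∀ s ∈ Icc (rk r₀ k ^ 2) T₁,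
      qf (c.IQ (s / 16) s x) ξ ≤ (s / rk r₀ k ^ 2) ^ (1 / 8 : ℝ) * Φ) :
    qf (c.Ak r₀ k x) ξ ≤ 16 * Φ := by

  have hk : 0 < rk r₀ k ^ 2 := pow_pos (s8_rk_pos hr k) 2
  have hr2 : 0 < r₀ ^ 2 := by positivity
  have hT0 := c.T_pos
  have hΦ : 0 ≤ Φ := by
    have h1 := h (rk r₀ k ^ 2) ⟨le_rfl, by nlinarith [s8_rk_le r₀ k]⟩
    rw [div_self hk.ne', Real.one_rpow, one_mul] at h1
    exact (MC.psd_qf (c.IQ_psd (by positivity) (by linarith) (by nlinarith [s8_rk_le r₀ k]) x) ξ).trans h1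
  have key : ∀ j ≤ k, qf (c.Ak r₀ j x) ξ ≤ 16 * ((rk r₀ j ^ 2 / rk r₀ k ^ 2) ^ (1 / 8 : ℝ) * Φ) := by
    intro j hj
    induction j with
    | zero =>
      rw [s8_rk_zero]
      have hb : ∀ s, r₀ ^ 2 ≤ s → s ≤ 16 ^ 4 * r₀ ^ 2 →
          qf (c.IQ (s / 16) s x) ξ ≤ 4 * ((r₀ ^ 2 / rk r₀ k ^ 2) ^ (1 / 8 : ℝ) * Φ) := fun s h1 h2 => by
        refine (h s ⟨(s8_rk_le r₀ k).trans h1, h2.trans h₁⟩).trans ?_
        rw [← mul_assoc]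
        refine mul_le_mul_of_nonneg_right ?_ hΦ
        calc (s / rk r₀ k ^ 2) ^ (1 / 8 : ℝ) ≤ (16 ^ 4 * (r₀ ^ 2 / rk r₀ k ^ 2)) ^ (1 / 8 : ℝ) := by
              refine Real.rpow_le_rpow (div_nonneg (by linarith) hk.le) ?_ (by norm_num)
              rw [← mul_div_assoc]
              exact div_le_div_of_nonneg_right h2 hk.le
          _ = (16 ^ 4 : ℝ) ^ (1 / 8 : ℝ) * (r₀ ^ 2 / rk r₀ k ^ 2) ^ (1 / 8 : ℝ) :=
              Real.mul_rpow (by norm_num) (by positivity)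
          _ ≤ 4 * (r₀ ^ 2 / rk r₀ k ^ 2) ^ (1 / 8 : ℝ) :=
              mul_le_mul_of_nonneg_right (s8_rp8 (by norm_num) (by norm_num) (by norm_num)) (by positivity)
      have m : ∀ a : ℝ, 0 < a → a ≤ 16 ^ 4 → a * r₀ ^ 2 ∈ Ioc 0 (2 * c.T) := fun a h1 h2 =>
        ⟨by positivity, by nlinarith⟩
      have e1 := c.IQ_add (m 1 (by norm_num) (by norm_num)) (m 16 (by norm_num) (by norm_num))
        (m (16 ^ 2) (by norm_num) (by norm_num)) x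
      have e2 := c.IQ_add (m 1 (by norm_num) (by norm_num)) (m (16 ^ 2) (by norm_num) (by norm_num))
        (m (16 ^ 3) (by norm_num) (by norm_num)) x
      have e3 := c.IQ_add (m 1 (by norm_num) (by norm_num)) (m (16 ^ 3) (by norm_num) (by norm_num))
        (m (16 ^ 4) (by norm_num) (by norm_num)) x
      have b1 := hb (16 * r₀ ^ 2) (by linarith) (by linarith)
      have b2 := hb (16 ^ 2 * r₀ ^ 2) (by linarith) (by linarith)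
      have b3 := hb (16 ^ 3 * r₀ ^ 2) (by linarith) (by linarith)
      have b4 := hb (16 ^ 4 * r₀ ^ 2) (by linarith) (by linarith)
      rw [show 16 * r₀ ^ 2 / 16 = 1 * r₀ ^ 2 by ring] at b1
      rw [show 16 ^ 2 * r₀ ^ 2 / 16 = 16 * r₀ ^ 2 by ring] at b2
      rw [show 16 ^ 3 * r₀ ^ 2 / 16 = 16 ^ 2 * r₀ ^ 2 by ring] at b3
      rw [show 16 ^ 4 * r₀ ^ 2 / 16 = 16 ^ 3 * r₀ ^ 2 by ring] at b4
      have b5 := c.IQ_mono (a := r₀ ^ 2) (b := 10 ^ 4 * r₀ ^ 2) (a' := 1 * r₀ ^ 2) (b' := 16 ^ 4 * r₀ ^ 2)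
        (by positivity) (by linarith) (by linarith) (by linarith) (by linarith) x ξ
      rw [← e3, ← e2, ← e1, MC.qf_madd, MC.qf_madd, MC.qf_madd] at b5
      exact b5.trans ((add_le_add (add_le_add (add_le_add b1 b2) b3) b4).trans_eq (by ring))
    | succ j ih =>
      have ih := ih (by omega)
      have h1 := h (rk r₀ j ^ 2) ⟨s8_rk_anti (by omega), by nlinarith [s8_rk_le r₀ j]⟩
      have e := (rk_sq r₀ j).2
      rw [show rk r₀ j ^ 2 / 16 = rk r₀ (j + 1) ^ 2 by rw [e]; ring] at h1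
      have h2 : (rk r₀ j ^ 2 / rk r₀ k ^ 2) ^ (1 / 8 : ℝ) ≤
          3 / 2 * (rk r₀ (j + 1) ^ 2 / rk r₀ k ^ 2) ^ (1 / 8 : ℝ) := by
        rw [e, mul_div_assoc, Real.mul_rpow (by norm_num) (by positivity)]
        exact mul_le_mul_of_nonneg_right (s8_rp8 (by norm_num) (by norm_num) (by norm_num))
          (by positivity)
      have h3 := mul_le_mul_of_nonneg_right h2 hΦ
      have h4 : 0 ≤ (rk r₀ (j + 1) ^ 2 / rk r₀ k ^ 2) ^ (1 / 8 : ℝ) * Φ := by positivity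
      rw [s8_Ak_succ]
      nlinarith
  have h1 := key k le_rfl
  rwa [div_self hk.ne', Real.one_rpow, one_mul] at h1

/-- Induction: `∫_{t_k}^{10⁴ t₀} √(t_k/σ) q(σ) dσ ≤ ½ qf (Ak k) ξ`; substitute `σ ↦ 1000σ`. -/
theorem int_le_Ak {X : Sp.{u} n} (c : Crd X) {r₀ : ℝ} (hr : 0 < r₀) (hT : 10 ^ 4 * r₀ ^ 2 ≤ c.T)
    (k : ℕ) (x : X.M) (ξ : V n) :
    ∫ σ in rk r₀ k ^ 2..r₀ ^ 2, Real.sqrt (rk r₀ k ^ 2 / σ) * qf (c.Q (1000 * σ) x) ξ ≤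
      qf (c.Ak r₀ k x) ξ := by

  have hr2 : 0 < r₀ ^ 2 := by positivity
  have hT0 := c.T_pos
  set q : ℝ → ℝ := fun s => qf (c.Q s x) ξ with hq
  have q0 : ∀ s ∈ Ioc 0 (2 * c.T), 0 ≤ q s := fun s hs => MC.psd_qf (c.Q_psd hs x) ξ
  have mk : ∀ k, rk r₀ k ^ 2 ∈ Ioc 0 (2 * c.T) := fun k =>
    ⟨pow_pos (s8_rk_pos hr k) 2, by nlinarith [s8_rk_le r₀ k]⟩
  have mT : 10 ^ 4 * r₀ ^ 2 ∈ Ioc 0 (2 * c.T) := ⟨by positivity, by linarith⟩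
  have fi : ∀ t, ∀ a ∈ Ioc 0 (2 * c.T), ∀ b ∈ Ioc 0 (2 * c.T),
      IntervalIntegrable (fun σ => Real.sqrt (t / σ) * q σ) volume a b := fun t a ha b hb => by
    refine ContinuousOn.intervalIntegrable (ContinuousOn.mono ?_ (ordConnected_Ioc.uIcc_subset ha hb))
    exact (Real.continuous_sqrt.comp_continuousOn
      (continuousOn_const.div continuousOn_id fun s hs => hs.1.ne')).mul ((c.Q_cont x).2 ξ)
  have blk : ∀ a ∈ Ioc 0 (2 * c.T), ∀ b ∈ Ioc 0 (2 * c.T), a ≤ b →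
      ∫ σ in a..b, Real.sqrt (a / σ) * q σ ≤ 1 / 2 * qf (c.IQ a b x) ξ := fun a ha b hb hab => by
    rw [(c.qf_IQ ha hb x ξ).2, intervalIntegral.integral_const_mul, ← mul_assoc]
    norm_num
    refine intervalIntegral.integral_mono_on hab (by simpa using fi a a ha b hb) (c.qf_IQ ha hb x ξ).1
      fun s hs => ?_
    have hs0 : 0 < s := ha.1.trans_le hs.1
    have h1 : Real.sqrt (a / s) ≤ 1 := Real.sqrt_le_one.2 ((div_le_one hs0).2 hs.1)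
    have h2 := q0 s ⟨hs0, hs.2.trans hb.2⟩
    exact mul_le_of_le_one_left h2 h1
  have key : ∀ k, ∫ σ in rk r₀ k ^ 2..10 ^ 4 * r₀ ^ 2, Real.sqrt (rk r₀ k ^ 2 / σ) * q σ ≤
      1 / 2 * qf (c.Ak r₀ k x) ξ := fun k => by
    induction k with
    | zero =>
      have := blk _ (mk 0) _ mT (by rw [s8_rk_zero]; linarith)
      rw [s8_rk_zero] at this ⊢
      exact this
    | succ k ih =>
      rw [← intervalIntegral.integral_add_adjacent_intervals (fi _ _ (mk (k + 1)) _ (mk k))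
        (fi _ _ (mk k) _ mT), s8_Ak_succ]
      have h1 := blk _ (mk (k + 1)) _ (mk k) (s8_rk_anti (Nat.le_succ k))
      have h2 : ∫ σ in rk r₀ k ^ 2..10 ^ 4 * r₀ ^ 2, Real.sqrt (rk r₀ (k + 1) ^ 2 / σ) * q σ =
          1 / 4 * ∫ σ in rk r₀ k ^ 2..10 ^ 4 * r₀ ^ 2, Real.sqrt (rk r₀ k ^ 2 / σ) * q σ := by
        rw [← intervalIntegral.integral_const_mul]
        refine intervalIntegral.integral_congr fun s _ => ?_
        rw [(rk_sq r₀ k).2, mul_div_assoc, Real.sqrt_mul (by norm_num),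
          show (16 : ℝ) = 4 ^ 2 by norm_num, Real.sqrt_sq (by norm_num)]
        ring
      have h3 := MC.psd_qf (Ak_psd c hr hT k x).1 ξ
      linarith
  have h1 : ∫ σ in rk r₀ k ^ 2..r₀ ^ 2, Real.sqrt (rk r₀ k ^ 2 / σ) * qf (c.Q (1000 * σ) x) ξ =
      Real.sqrt 1000 * ∫ σ in rk r₀ k ^ 2..r₀ ^ 2,
        (fun τ => Real.sqrt (rk r₀ k ^ 2 / τ) * q τ) (1000 * σ) := by
    rw [← intervalIntegral.integral_const_mul]
    refine intervalIntegral.integral_congr fun s _ => ?_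
    have : rk r₀ k ^ 2 / s = 1000 * (rk r₀ k ^ 2 / (1000 * s)) := by
      rw [mul_comm 1000 s, ← div_div, mul_div_cancel₀ _ (by norm_num)]
    simp only [hq]
    rw [← mul_assoc, ← Real.sqrt_mul (by norm_num), ← this]
  rw [h1, intervalIntegral.integral_comp_mul_left (fun τ => Real.sqrt (rk r₀ k ^ 2 / τ) * q τ)
    (by norm_num : (1000 : ℝ) ≠ 0), smul_eq_mul]
  have h2 : ∫ τ in 1000 * rk r₀ k ^ 2..1000 * r₀ ^ 2, Real.sqrt (rk r₀ k ^ 2 / τ) * q τ ≤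
      ∫ σ in rk r₀ k ^ 2..10 ^ 4 * r₀ ^ 2, Real.sqrt (rk r₀ k ^ 2 / σ) * q σ := by
    refine intervalIntegral.integral_mono_interval (by linarith [(mk k).1]) (by linarith [s8_rk_le r₀ k])
      (by linarith) ?_ (fi _ _ (mk k) _ mT)
    refine (ae_restrict_iff' measurableSet_Ioc).2 (Eventually.of_forall fun s hs => ?_)
    exact mul_nonneg (Real.sqrt_nonneg _) (q0 s ⟨(mk k).1.trans hs.1, hs.2.trans mT.2⟩)
  have h3 : Real.sqrt 1000 ≤ 1000 := Real.sqrt_le_iff.2 ⟨by norm_num, by norm_num⟩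
  have h4 := MC.psd_qf (Ak_psd c hr hT k x).1 ξ
  have h5 := key k
  have h6 := Real.sqrt_nonneg 1000
  nlinarith

theorem s8_P_lip (n : ℕ) (R : ℝ) : ∃ C : ℝ, 0 < C ∧ ∀ (X : Sp.{u} n) {t s : ℝ}, 0 < t → t ≤ s →
    X.h.ok s → ∀ x x', dist x x' ≤ R * Real.sqrt t →
      (∀ {f f' : X.M → ℝ}, (∀ y, |f y| ≤ f' y) → Integrable (fun y => X.h.H s x y * f y) X.h.m →
        Integrable (fun y => X.h.H s x' y * f y) X.h.m →
        Integrable (fun y => X.h.H (1000 * s) x y * f' y) X.h.m →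
        |X.h.P s f x' - X.h.P s f x| ≤ C * Real.sqrt (t / s) * X.h.P (1000 * s) f' x) ∧
      ∀ {f : X.M → ℝ} {B : ℝ}, AEStronglyMeasurable f X.h.m → (∀ y, |f y| ≤ B) →
        |X.h.P s f x' - X.h.P s f x| ≤ C * Real.sqrt (t / s) * B := by
  obtain ⟨C, hC, H⟩ := H_lip.{u} n |R|
  refine ⟨C * (|R| + 1), by positivity, fun X t s ht hts hs x x' hd => ?_⟩
  have hs0 : 0 < s := hs.1
  have hd1 : dist x x' ≤ |R| * Real.sqrt t :=
    hd.trans (mul_le_mul_of_nonneg_right (le_abs_self R) (Real.sqrt_nonneg _))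
  have hd2 : dist x x' ≤ |R| * Real.sqrt s :=
    hd1.trans (mul_le_mul_of_nonneg_left (Real.sqrt_le_sqrt hts) (abs_nonneg _))
  have hd3 : C * (dist x x' / Real.sqrt s) ≤ C * (|R| + 1) * Real.sqrt (t / s) := by
    rw [Real.sqrt_div ht.le, mul_assoc, ← mul_div_assoc (|R| + 1)]
    refine mul_le_mul_of_nonneg_left (div_le_div_of_nonneg_right ?_ (Real.sqrt_nonneg _)) hC.le
    nlinarith [Real.sqrt_nonneg t]
  have key : ∀ {f f' : X.M → ℝ}, (∀ y, |f y| ≤ f' y) → Integrable (fun y => X.h.H s x y * f y) X.h.m →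
      Integrable (fun y => X.h.H s x' y * f y) X.h.m →
      Integrable (fun y => X.h.H (1000 * s) x y * f' y) X.h.m →
      |X.h.P s f x' - X.h.P s f x| ≤ C * (|R| + 1) * Real.sqrt (t / s) * X.h.P (1000 * s) f' x := by
    intro f f' hf i1 i2 i3
    unfold HS.P kerP
    rw [← integral_sub i2 i1, ← integral_const_mul, ← Real.norm_eq_abs]
    refine norm_integral_le_of_norm_le (i3.const_mul _) (Eventually.of_forall fun y => ?_)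
    rw [← sub_mul, Real.norm_eq_abs, abs_mul, ← mul_assoc]
    have h0 := X.h.H_nonneg (t := 1000 * s) (by linarith) x y
    exact mul_le_mul ((H X hs x x' y hd2).trans (mul_le_mul_of_nonneg_right hd3 h0)) (hf y)
      (abs_nonneg _) (by positivity)
  refine ⟨key, fun {f B} hm hB => ?_⟩
  have hB0 : 0 ≤ B := (abs_nonneg _).trans (hB x)
  refine (key (f' := fun _ => B) hB (X.h.int_bdd hs0 x hm hB) (X.h.int_bdd hs0 x' hm hB)
    (X.h.int_bdd (B := B) (by linarith) x aestronglyMeasurable_const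
      fun _ => (abs_of_nonneg hB0).le)).trans (mul_le_mul_of_nonneg_left ?_ (by positivity))
  exact (le_abs_self _).trans (X.h.abs_P_le (by linarith) x fun _ => (abs_of_nonneg hB0).le)

theorem s8_int_sqrt {t t₀ : ℝ} (ht : 0 < t) (htt : t ≤ t₀) :
    ∫ s in t..t₀, Real.sqrt (t / s) ≤ 2 * (Real.sqrt (t / t₀) * t₀) := by
  have ht₀ : 0 < t₀ := ht.trans_le htt
  have sub : uIcc t t₀ ⊆ Ioi 0 := ordConnected_Ioi.uIcc_subset ht ht₀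
  have cs : ContinuousOn (fun s => Real.sqrt (t / s)) (uIcc t t₀) :=
    Real.continuous_sqrt.comp_continuousOn (continuousOn_const.div continuousOn_id fun s hs => (sub hs).ne')
  rw [intervalIntegral.integral_eq_sub_of_hasDerivAt (f := fun s => 2 * Real.sqrt t * Real.sqrt s)
    (fun s hs => ?_) cs.intervalIntegrable]
  · have h1 : Real.sqrt (t / t₀) * t₀ = Real.sqrt t * Real.sqrt t₀ := by
      rw [Real.sqrt_div ht.le, div_mul_eq_mul_div, mul_div_assoc, Real.div_sqrt]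
    rw [h1]
    nlinarith [Real.sqrt_nonneg t]
  · have hs0 : 0 < s := sub hs
    refine ((Real.hasDerivAt_sqrt hs0.ne').const_mul (2 * Real.sqrt t)).congr_deriv ?_
    rw [Real.sqrt_div ht.le]
    field_simp

theorem s8_ev {p : ℝ → Prop} (h : ∀ᶠ e in 𝓝 (0 : ℝ), p e) :
    ∃ e₀ : ℝ, 0 < e₀ ∧ ∀ e, 0 < e → e ≤ e₀ → p e := by
  obtain ⟨ε, hε, H⟩ := Metric.eventually_nhds_iff.1 h
  refine ⟨ε / 2, by positivity, fun e h0 h1 => H ?_⟩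
  rw [Real.dist_eq, sub_zero, abs_of_pos h0]; linarith

theorem s8_rp_cont {a : ℝ} (ha : 0 < a) : Continuous fun e : ℝ => a ^ (2 * e) :=
  continuous_const.rpow (by fun_prop) fun _ => Or.inl ha.ne'

/-- `G_int` at `x` and `x'`, `H_lip` (`d ≤ R√t ≤ R√σ`), `er_le`, `U_bounds`. -/
theorem G_lip (n : ℕ) (R : ℝ) : ∃ C : ℝ, 0 < C ∧ ∀ (X : Sp.{u} n) (c : Crd X) {t t₀ : ℝ}, 0 < t →
    t ≤ t₀ → 1000 * t₀ ≤ c.T → ∀ x x', dist x x' ≤ R * Real.sqrt t → ∀ ξ,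
      |qf (c.G t x') ξ - qf (c.G t x) ξ - (qf (c.G t₀ x') ξ - qf (c.G t₀ x) ξ)| ≤
        C * (∫ σ in t..t₀, Real.sqrt (t / σ) * qf (c.Q (1000 * σ) x) ξ) +
          C * (Real.sqrt (t / t₀) * (t₀ / c.T)) * (ξ ⬝ᵥ ξ) ∧
      |qf (c.G t₀ x') ξ - qf (c.G t₀ x) ξ| ≤ C * Real.sqrt (t / t₀) * (ξ ⬝ᵥ ξ) := by

  obtain ⟨C₁, hC₁, H₁⟩ := s8_P_lip.{u} n R
  obtain ⟨C₂, hC₂, H₂⟩ := er_le.{u} n
  obtain ⟨C₃, hC₃, H₃⟩ := U_bounds.{u} n
  refine ⟨2 * C₁ + 2 * C₁ * C₂ + C₁ * C₃, by positivity, fun X c t t₀ ht htt hT x x' hd ξ => ?_⟩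
  have hT0 := c.T_pos
  have ht₀ : 0 < t₀ := ht.trans_le htt
  have hξ : 0 ≤ ξ ⬝ᵥ ξ := dotProduct_self_star_nonneg ξ
  have hs0 := Real.sqrt_nonneg (t / t₀)
  constructor
  · have mt : t ∈ Ioc 0 (2 * c.T) := ⟨ht, by linarith⟩
    have mt₀ : t₀ ∈ Ioc 0 (2 * c.T) := ⟨ht₀, by linarith⟩
    have sub : uIcc t t₀ ⊆ Ioi 0 := ordConnected_Ioi.uIcc_subset ht ht₀
    have e1 := c.G_int ht htt (by linarith) x ξ
    have e2 := c.G_int ht htt (by linarith) x' ξ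
    rw [(c.qf_IQ mt mt₀ x ξ).2] at e1
    rw [(c.qf_IQ mt mt₀ x' ξ).2] at e2
    have i1 := (c.qf_IQ mt mt₀ x ξ).1.const_mul 2
    have i2 := (c.qf_IQ mt mt₀ x' ξ).1.const_mul 2
    have i3 : IntervalIntegrable (fun s => X.h.P s (c.er ξ) x) volume t t₀ :=
      ((c.er_cont x ξ).mono sub).intervalIntegrable
    have i4 : IntervalIntegrable (fun s => X.h.P s (c.er ξ) x') volume t t₀ :=
      ((c.er_cont x' ξ).mono sub).intervalIntegrable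
    have cs : ContinuousOn (fun s => Real.sqrt (t / s)) (uIcc t t₀) :=
      Real.continuous_sqrt.comp_continuousOn (continuousOn_const.div continuousOn_id fun s hs => (sub hs).ne')
    have i5 : IntervalIntegrable (fun s => Real.sqrt (t / s) * qf (c.Q (1000 * s) x) ξ) volume t t₀ := by
      refine (cs.mul (((c.Q_cont x).2 ξ).comp (f := fun s : ℝ => 1000 * s) (by fun_prop)
        fun s hs => ?_)).intervalIntegrable
      rw [uIcc_of_le htt] at hs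
      exact ⟨by linarith [hs.1], by linarith [hs.2]⟩
    have i6 := cs.intervalIntegrable (μ := volume)
    have e3 : qf (c.G t x') ξ - qf (c.G t x) ξ - (qf (c.G t₀ x') ξ - qf (c.G t₀ x) ξ) =
        ∫ s in t..t₀, (2 * qf (c.Q s x) ξ + X.h.P s (c.er ξ) x -
          (2 * qf (c.Q s x') ξ + X.h.P s (c.er ξ) x')) := by
      rw [intervalIntegral.integral_sub (i1.add i3) (i2.add i4), intervalIntegral.integral_add i1 i3,
        intervalIntegral.integral_add i2 i4]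
      linarith
    have hB : ∀ y, |c.er ξ y| ≤ C₂ * (ξ ⬝ᵥ ξ) / c.T := fun y => by
      rw [le_div_iff₀ hT0, mul_comm]; exact (H₂ X c ξ).2.2 y
    have b1 := intervalIntegral.norm_integral_le_of_norm_le (μ := volume) htt
      (f := fun s => 2 * qf (c.Q s x) ξ + X.h.P s (c.er ξ) x -
          (2 * qf (c.Q s x') ξ + X.h.P s (c.er ξ) x'))
      (g := fun s => 2 * C₁ * (Real.sqrt (t / s) * qf (c.Q (1000 * s) x) ξ) +
        C₁ * (C₂ * (ξ ⬝ᵥ ξ) / c.T) * Real.sqrt (t / s))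
      (Eventually.of_forall fun s hs => by
        have hs0 : 0 < s := ht.trans hs.1
        have ms : s ∈ Ioc 0 (2 * c.T) := ⟨hs0, by linarith [hs.2]⟩
        have ms' : 1000 * s ∈ Ioc 0 (2 * c.T) := ⟨by linarith, by linarith [hs.2]⟩
        obtain ⟨a1, a2⟩ := H₁ X ht hs.1.le (c.ok hs0 (by linarith [hs.2])) x x' hd
        have a3 := a1 (f := X.h.Γ2 (c.u ξ) (c.u ξ)) (f' := X.h.Γ2 (c.u ξ) (c.u ξ))
          (fun y => (abs_of_nonneg (X.h.toGeo.Γ2_nonneg (c.u_S ξ) y)).le)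
          (c.HΓ2_int ms x ξ ξ 0).1 (c.HΓ2_int ms x' ξ ξ 0).1 (c.HΓ2_int ms' x ξ ξ 0).1
        have a4 := a2 (H₂ X c ξ).1.aestronglyMeasurable hB
        rw [← c.qf_Q ms, ← c.qf_Q ms, ← c.qf_Q ms'] at a3
        rw [Real.norm_eq_abs, abs_le]
        constructor <;> linarith [abs_le.1 a3, abs_le.1 a4])
      ((i5.const_mul _).add (i6.const_mul _))
    rw [intervalIntegral.integral_add (i5.const_mul _) (i6.const_mul _),
      intervalIntegral.integral_const_mul, intervalIntegral.integral_const_mul, Real.norm_eq_abs] at b1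
    have b2 := s8_int_sqrt ht htt
    have b3 : 0 ≤ ∫ s in t..t₀, Real.sqrt (t / s) * qf (c.Q (1000 * s) x) ξ :=
      intervalIntegral.integral_nonneg htt fun s hs => mul_nonneg (Real.sqrt_nonneg _)
        (MC.psd_qf (c.Q_psd ⟨by linarith [hs.1], by linarith [hs.2]⟩ x) ξ)
    rw [e3]
    refine b1.trans (add_le_add (mul_le_mul_of_nonneg_right (by nlinarith [mul_pos hC₁ hC₂, mul_pos hC₁ hC₃]) b3) ?_)
    refine (mul_le_mul_of_nonneg_left b2 (by positivity)).trans ?_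
    have b4 : 0 ≤ Real.sqrt (t / t₀) * (t₀ / c.T) * (ξ ⬝ᵥ ξ) := by positivity
    calc C₁ * (C₂ * (ξ ⬝ᵥ ξ) / c.T) * (2 * (Real.sqrt (t / t₀) * t₀))
        = 2 * C₁ * C₂ * (Real.sqrt (t / t₀) * (t₀ / c.T) * (ξ ⬝ᵥ ξ)) := by ring
      _ ≤ (2 * C₁ + 2 * C₁ * C₂ + C₁ * C₃) * (Real.sqrt (t / t₀) * (t₀ / c.T) * (ξ ⬝ᵥ ξ)) :=
        mul_le_mul_of_nonneg_right (by nlinarith [mul_pos hC₁ hC₃]) b4
      _ = _ := by ring
  · obtain ⟨-, a2⟩ := H₁ X ht htt (c.ok ht₀ (by linarith)) x x' hd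
    have a3 := a2 (f := X.h.Γ (c.u ξ) (c.u ξ)) (B := C₃ * (ξ ⬝ᵥ ξ))
      ((c.u_nice ξ).1.Γ_bd (c.u_nice ξ).1).1.1 fun y => by
        rw [abs_of_nonneg (X.h.toGeo.Γ_nonneg _ y)]
        exact (H₃ X c c.T ⟨by linarith, by linarith⟩ ξ y).1
    rw [← c.qf_G ht₀, ← c.qf_G ht₀] at a3
    refine a3.trans ?_
    have b4 : 0 ≤ Real.sqrt (t / t₀) * (ξ ⬝ᵥ ξ) := by positivity
    calc C₁ * Real.sqrt (t / t₀) * (C₃ * (ξ ⬝ᵥ ξ)) = C₁ * C₃ * (Real.sqrt (t / t₀) * (ξ ⬝ᵥ ξ)) := by ring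
      _ ≤ (2 * C₁ + 2 * C₁ * C₂ + C₁ * C₃) * (Real.sqrt (t / t₀) * (ξ ⬝ᵥ ξ)) :=
        mul_le_mul_of_nonneg_right (by nlinarith [mul_pos hC₁ hC₂]) b4
      _ = _ := by ring

/-- Closeness to the identity at a fixed distance below `T₁` (`hyp_growth`, `top`; `θ^{-2e} → 1`). -/
theorem G_near_one (n : ℕ) (θ η : ℝ) (hθ : 0 < θ) (hη : 0 < η) : ∃ e₀ : ℝ, 0 < e₀ ∧
    ∀ (X : Sp.{u} n) (c : Crd X) (x : X.M) {s₀ T₁ e : ℝ}, e ≤ e₀ → c.Hyp x s₀ T₁ e →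
      ∀ s ∈ Icc s₀ T₁, θ * T₁ ≤ s → ∀ ξ, |qf (c.G s x) ξ - ξ ⬝ᵥ ξ| ≤ η * (ξ ⬝ᵥ ξ) := by

  obtain ⟨e₁, he₁, -, H⟩ := hyp_growth.{u} n
  have c1 : Continuous fun e : ℝ => (1 + 10 * e) * (1 + e) := by fun_prop
  have c2 : Continuous fun e : ℝ => (1 - η) * ((1 + 10 * e) * (1 / θ) ^ (2 * e)) :=
    continuous_const.mul ((by fun_prop : Continuous fun e : ℝ => 1 + 10 * e).mul
      (s8_rp_cont (by positivity)))
  have c3 : Continuous fun e : ℝ => 1 - e := by fun_prop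
  obtain ⟨e₂, he₂, H₂⟩ := s8_ev ((c1.continuousAt.eventually_lt (g := fun _ => 1 + η) continuousAt_const
    (by simpa using hη)).and (c2.continuousAt.eventually_lt c3.continuousAt (by simpa using hη)))
  refine ⟨min e₁ e₂, by positivity, fun X c x s₀ T₁ e he h s hs hθs ξ => ?_⟩
  obtain ⟨g1, g2, -⟩ := H X c x (he.trans (min_le_left _ _)) h ξ
  obtain ⟨a1, a2⟩ := H₂ e h.e_pos (he.trans (min_le_right _ _))
  have hT := h.T₁_pos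
  have he0 := h.e_pos
  have hs0 : 0 < s := h.s₀_pos.trans_le hs.1
  have hξ : 0 ≤ ξ ⬝ᵥ ξ := dotProduct_self_star_nonneg ξ
  have t1 := abs_le.1 (h.top T₁ ⟨le_rfl, by linarith⟩ ξ)
  have b1 := g1 s T₁ hs.1 hs.2 (by linarith)
  have b2 := g2 s T₁ hs0 hs.2 (hs.1.trans hs.2) (by linarith)
  have p0 := MC.psd_qf (c.G_psd hs0 x) ξ
  rw [abs_le]
  constructor
  · have b3 : (T₁ / s) ^ (2 * e) ≤ (1 / θ) ^ (2 * e) :=
      Real.rpow_le_rpow (by positivity) (by rw [div_le_div_iff₀ hs0 hθ]; linarith) (by positivity)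
    set Λ := (1 + 10 * e) * (1 / θ) ^ (2 * e) with hΛ
    have hΛ0 : 0 < Λ := by positivity
    have b4 : qf (c.G T₁ x) ξ ≤ Λ * qf (c.G s x) ξ :=
      b1.trans (mul_le_mul_of_nonneg_right (mul_le_mul_of_nonneg_left b3 (by positivity)) p0)
    have b5 : Λ * ((1 - η) * (ξ ⬝ᵥ ξ)) ≤ Λ * qf (c.G s x) ξ := by
      nlinarith [mul_le_mul_of_nonneg_right a2.le hξ]
    linarith [le_of_mul_le_mul_left b5 hΛ0]
  · have b3 : (1 + 10 * e) * qf (c.G T₁ x) ξ ≤ (1 + 10 * e) * ((1 + e) * (ξ ⬝ᵥ ξ)) :=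
      mul_le_mul_of_nonneg_left (by linarith) (by positivity)
    nlinarith [mul_le_mul_of_nonneg_right a1.le hξ]

/-- The fields with `ε`: `kap_sum`, `G_near_one`, `G_time`, `hyp_small`, `hyp_growth`, `κ_bounds`. -/
theorem cd_small (n : ℕ) (γ ε : ℝ) (hγ : 0 < γ) (hγ' : γ ≤ 1 / 2) (hε : 0 < ε) : ∃ θ₀ : ℝ, 0 < θ₀ ∧
    ∀ θ : ℝ, 0 < θ → θ ≤ θ₀ → ∃ e₀ : ℝ, 0 < e₀ ∧ ∀ (X : Sp.{u} n) (c : Crd X) (x : X.M)
      {T₁ e r₀ : ℝ}, e ≤ e₀ → 0 < r₀ → r₀ ^ 2 = θ * T₁ → c.All x T₁ e γ →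
      (∀ N, ∑ k ∈ Finset.range N, X.h.κ x T₁ γ (rk r₀ k ^ 2) ≤ ε) ∧
      (∀ v, |qf (c.G (r₀ ^ 2) x) v - v ⬝ᵥ v| ≤ ε * (v ⬝ᵥ v)) ∧
      (∀ k v, |qf (c.G (rk r₀ k ^ 2) x - c.G (rk r₀ (k + 1) ^ 2) x -
        c.IQ (rk r₀ (k + 1) ^ 2) (rk r₀ k ^ 2) x) v| ≤
          X.h.κ x T₁ γ (rk r₀ k ^ 2) * qf (c.G (rk r₀ k ^ 2) x) v) ∧
      (∀ v, qf (c.Ak r₀ 0 x) v ≤ ε * qf (c.G (r₀ ^ 2) x) v) ∧
      ∀ k v, qf (c.IQ (rk r₀ (k + 1) ^ 2) (rk r₀ k ^ 2) x) v ≤ ε * qf (c.G (rk r₀ k ^ 2) x) v := by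

  have ha : 0 < γ / 16 := by positivity
  obtain ⟨C₁, hC₁, H₁⟩ := kap_sum.{u} (γ / 16) ha
  obtain ⟨C₂, hC₂, H₂⟩ := G_time.{u} n
  obtain ⟨e₁, he₁, he₁', H₃⟩ := hyp_growth.{u} n
  obtain ⟨e₂, he₂, H₄⟩ := hyp_small.{u} n
  obtain ⟨θ₁, hθ₁, Hθ⟩ := s8_ev (((Real.continuousAt_rpow_const 0 (γ / 16) (Or.inr ha.le)).const_mul
    C₁).eventually_lt (g := fun _ => ε / 2) continuousAt_const (by simpa [Real.zero_rpow ha.ne'] using hε))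
  refine ⟨min θ₁ (1 / 10 ^ 4), by positivity, fun θ hθ hθ' => ?_⟩
  obtain ⟨η, hη, hη1, hη2⟩ : ∃ η : ℝ, 0 < η ∧ η ≤ ε / 8 ∧ η ≤ 1 / 2 :=
    ⟨min (ε / 8) (1 / 2), by positivity, min_le_left _ _, min_le_right _ _⟩
  obtain ⟨e₃, he₃, H₅⟩ := G_near_one.{u} n θ η hθ hη
  have c1 : Continuous fun e : ℝ => C₁ * e ^ 2 := by fun_prop
  have c2 : Continuous fun e : ℝ => C₂ * e ^ 2 := by fun_prop
  have c3 : Continuous fun e : ℝ => (1 + 10 * e) * (16 : ℝ) ^ (2 * e) :=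
    (by fun_prop : Continuous fun e : ℝ => 1 + 10 * e).mul (s8_rp_cont (by norm_num))
  obtain ⟨e₄, he₄, H₆⟩ := s8_ev
    ((c1.continuousAt.eventually_lt (g := fun _ => ε / 2) continuousAt_const (by simpa using hε)).and
    ((c2.continuousAt.eventually_lt (g := fun _ => η) continuousAt_const (by simpa using hη)).and
    (c3.continuousAt.eventually_lt (g := fun _ => 1 + η) continuousAt_const (by simpa using hη))))
  refine ⟨min (min e₁ e₂) (min e₃ e₄), by positivity, fun X c x T₁ e r₀ he hr hrθ hx => ?_⟩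
  have l1 : e ≤ e₁ := he.trans ((min_le_left _ _).trans (min_le_left _ _))
  have l2 : e ≤ e₂ := he.trans ((min_le_left _ _).trans (min_le_right _ _))
  have l3 : e ≤ e₃ := he.trans ((min_le_right _ _).trans (min_le_left _ _))
  have l4 : e ≤ e₄ := he.trans ((min_le_right _ _).trans (min_le_right _ _))
  have hk : ∀ k, 0 < rk r₀ k ^ 2 := fun k => pow_pos (s8_rk_pos hr k) 2
  have hk' := s8_rk_le r₀
  have hr2 : 0 < r₀ ^ 2 := by positivity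
  have h := (hx _ hr2).toHyp
  have he0 := h.e_pos
  have hT₁ := h.T₁_pos
  have hT0 := c.T_pos
  have hrT : 10 ^ 4 * r₀ ^ 2 ≤ T₁ := by
    have := mul_le_mul_of_nonneg_right (hθ'.trans (min_le_right _ _)) hT₁.le
    linarith
  have hT : 10 ^ 6 * T₁ ≤ c.T := h.T₁_le.trans (mul_le_of_le_one_left hT0.le (by nlinarith))
  obtain ⟨a1, a2, a3⟩ := H₆ e he0 l4
  have hξ : ∀ v : V n, 0 ≤ v ⬝ᵥ v := fun v => dotProduct_self_star_nonneg v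
  have gt : ∀ k v, |qf (c.G (rk r₀ k ^ 2) x) v - qf (c.G (rk r₀ (k + 1) ^ 2) x) v -
      qf (c.IQ (rk r₀ (k + 1) ^ 2) (rk r₀ k ^ 2) x) v| ≤
      η * Real.sqrt (rk r₀ k ^ 2 / T₁) * qf (c.G (rk r₀ k ^ 2) x) v := fun k v => by
    refine (H₂ X c (hk _) (s8_rk_anti (Nat.le_succ k)) (by linarith [hk' k]) x v).trans ?_
    have b1 := ((H₄ X c x l2 (hx _ (hk k)).toHyp _ ⟨le_rfl, by linarith [hk' k]⟩).2 v).2.1
      (by linarith [hk' k])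
    have b2 : (rk r₀ k ^ 2 - rk r₀ (k + 1) ^ 2) / c.T ≤ rk r₀ k ^ 2 / c.T :=
      div_le_div_of_nonneg_right (by linarith [hk (k + 1)]) hT0.le
    have p0 := mul_nonneg (Real.sqrt_nonneg (rk r₀ k ^ 2 / T₁)) (MC.psd_qf (c.G_psd (hk k) x) v)
    calc C₂ * ((rk r₀ k ^ 2 - rk r₀ (k + 1) ^ 2) / c.T) * (v ⬝ᵥ v)
        ≤ C₂ * (rk r₀ k ^ 2 / c.T * (v ⬝ᵥ v)) := by
          rw [mul_assoc]
          exact mul_le_mul_of_nonneg_left (mul_le_mul_of_nonneg_right b2 (hξ v)) hC₂.le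
      _ ≤ C₂ * e ^ 2 * (Real.sqrt (rk r₀ k ^ 2 / T₁) * qf (c.G (rk r₀ k ^ 2) x) v) := by
          rw [mul_assoc C₂, ← mul_assoc (e ^ 2)]
          exact mul_le_mul_of_nonneg_left b1 hC₂.le
      _ ≤ η * (Real.sqrt (rk r₀ k ^ 2 / T₁) * qf (c.G (rk r₀ k ^ 2) x) v) :=
          mul_le_mul_of_nonneg_right a2.le p0
      _ = _ := by ring
  refine ⟨fun N => ?_, fun v => ?_, fun k v => ?_, fun v => ?_, fun k v => ?_⟩
  · refine (H₁ X x hr hT₁ (sq_nonneg e) h.ent N).trans ?_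
    have := Hθ θ hθ (hθ'.trans (min_le_left _ _))
    rw [show r₀ ^ 2 / T₁ = θ by rw [hrθ]; field_simp]
    linarith
  · exact (H₅ X c x l3 h _ ⟨le_rfl, by linarith⟩ hrθ.ge v).trans
      (mul_le_mul_of_nonneg_right (by linarith) (hξ v))
  · rw [MC.qf_msub, MC.qf_msub]
    refine (gt k v).trans (mul_le_mul_of_nonneg_right ?_ (MC.psd_qf (c.G_psd (hk k) x) v))
    obtain ⟨b1, b2, -⟩ := h.κ_bounds (by linarith) hγ hγ' (hk k) (by linarith [hk' k])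
    exact (mul_le_of_le_one_left (Real.sqrt_nonneg _) (by linarith)).trans (b1.trans b2)
  · have b1 := abs_le.1 (H₅ X c x l3 h _ ⟨le_rfl, by linarith⟩ hrθ.ge v)
    have b2 := abs_le.1 (H₅ X c x l3 h (10 ^ 4 * r₀ ^ 2) ⟨by linarith, hrT⟩ (by linarith) v)
    have b3 := abs_le.1 (H₂ X c (a := r₀ ^ 2) (b := 10 ^ 4 * r₀ ^ 2) hr2 (by linarith) (by linarith) x v)
    have b4 : (10 ^ 4 * r₀ ^ 2 - r₀ ^ 2) / c.T ≤ e ^ 2 := by
      rw [div_le_iff₀ hT0]; linarith [h.T₁_le]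
    have b5 : C₂ * ((10 ^ 4 * r₀ ^ 2 - r₀ ^ 2) / c.T) * (v ⬝ᵥ v) ≤ η * (v ⬝ᵥ v) :=
      mul_le_mul_of_nonneg_right ((mul_le_mul_of_nonneg_left b4 hC₂.le).trans a2.le) (hξ v)
    have b6 := mul_le_mul_of_nonneg_right hη1 (hξ v)
    have b7 := mul_le_mul_of_nonneg_right hη2 (hξ v)
    have b8 : ε * (1 / 2 * (v ⬝ᵥ v)) ≤ ε * qf (c.G (r₀ ^ 2) x) v :=
      mul_le_mul_of_nonneg_left (by linarith) hε.le
    have b9 := mul_nonneg hε.le (hξ v)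
    have b10 : qf (c.IQ (r₀ ^ 2) (10 ^ 4 * r₀ ^ 2) x) v ≤ ε * qf (c.G (r₀ ^ 2) x) v := by
      have b11 := (neg_le_neg b5).trans b3.1
      clear b3 b4 b5
      linarith [b1.1, b2.2]
    exact b10
  · have b1 := (abs_le.1 (gt k v)).1
    have b2 := (H₃ X c x l1 (hx _ (hk (k + 1))).toHyp v).1 _ _ le_rfl (s8_rk_anti (Nat.le_succ k))
      (by linarith [hk' k])
    rw [show rk r₀ k ^ 2 / rk r₀ (k + 1) ^ 2 = 16 by
      rw [(rk_sq r₀ k).2]; exact mul_div_cancel_right₀ _ (hk _).ne'] at b2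
    have p0 := MC.psd_qf (c.G_psd (hk k) x) v
    have p1 := MC.psd_qf (c.G_psd (hk (k + 1)) x) v
    have b3 := b2.trans (mul_le_mul_of_nonneg_right a3.le p1)
    have b4 : η * Real.sqrt (rk r₀ k ^ 2 / T₁) * qf (c.G (rk r₀ k ^ 2) x) v ≤
        η * qf (c.G (rk r₀ k ^ 2) x) v :=
      mul_le_mul_of_nonneg_right (mul_le_of_le_one_right hη.le
        (Real.sqrt_le_one.2 ((div_le_one hT₁).2 (by linarith [hk' k])))) p0
    have b5 := mul_le_mul_of_nonneg_right hη1 p0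
    have b6 := mul_nonneg hε.le p0
    rcases le_total (qf (c.G (rk r₀ (k + 1) ^ 2) x) v) (qf (c.G (rk r₀ k ^ 2) x) v) with hc | hc
    · have := mul_le_mul_of_nonneg_left hc hη.le
      linarith
    · linarith

/-- Recipe: `G_lip` with `t = t_k`, `t₀ = r₀²`, `int_le_Ak`; `|G t₀ x' - G t₀ x| ≤ min (C 4^{-k}) (2η₀) ≤ (C4^{-k})^{3/4} (2η₀)^{1/4}` (`G_near_one` with `2η₀ = θ`, so `(2η₀)^{1/4} ≤ θ^{γ/16} θ^{2e}`);
`acc ≥ κ t₀/2^k ≥ θ^{γ/16}/2^k`, `|v|² ≤ 2 (16^k/θ)^{2e} G t_k` (`hyp_growth`), `16^{2e} ≤ √2`. -/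
theorem cd_var (n : ℕ) (γ R : ℝ) (hγ : 0 < γ) (hγ' : γ ≤ 1 / 2) : ∃ C : ℝ, 0 < C ∧
    ∀ θ : ℝ, 0 < θ → θ ≤ 1 → ∃ e₀ : ℝ, 0 < e₀ ∧ ∀ (X : Sp.{u} n) (c : Crd X) (x x' : X.M)
      {T₁ e r₀ : ℝ}, e ≤ e₀ → 0 < r₀ → r₀ ^ 2 = θ * T₁ → c.All x T₁ e γ → c.All x' T₁ e γ → ∀ k,
      dist x x' ≤ R * rk r₀ k → ∀ v, |qf (c.G (rk r₀ k ^ 2) x' - c.G (rk r₀ k ^ 2) x) v| ≤
        C * (qf (c.Ak r₀ k x) v +
          acc (fun j => X.h.κ x T₁ γ (rk r₀ j ^ 2)) k * qf (c.G (rk r₀ k ^ 2) x) v) := by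

  obtain ⟨C, hC, H⟩ := G_lip.{u} n R
  obtain ⟨e₁, he₁, he₁', H₁⟩ := hyp_growth.{u} n
  refine ⟨4 * (2 * C + 1), by positivity, fun θ hθ hθ1 => ?_⟩
  obtain ⟨e₂, he₂, H₂⟩ := G_near_one.{u} n θ (θ / 2) hθ (by positivity)
  obtain ⟨e₃, he₃, H₃⟩ := s8_ev ((s8_rp_cont (a := 1 / θ) (by positivity)).continuousAt.eventually_lt
    (g := fun _ => 2) continuousAt_const (by simp))
  refine ⟨min e₁ (min e₂ e₃), by positivity, fun X c x x' T₁ e r₀ he hr hrθ hx hx' k hd v => ?_⟩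
  have l1 : e ≤ e₁ := he.trans (min_le_left _ _)
  have l2 : e ≤ e₂ := he.trans ((min_le_right _ _).trans (min_le_left _ _))
  have l3 : e ≤ e₃ := he.trans ((min_le_right _ _).trans (min_le_right _ _))
  have hk : 0 < rk r₀ k ^ 2 := pow_pos (s8_rk_pos hr k) 2
  have hk' := s8_rk_le r₀ k
  have hr2 : 0 < r₀ ^ 2 := by positivity
  have h := (hx _ hk).toHyp
  have h' := (hx' _ hk).toHyp
  have he0 := h.e_pos
  have hT₁ := h.T₁_pos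
  have hT0 := c.T_pos
  have hrT : r₀ ^ 2 ≤ T₁ := by rw [hrθ]; exact mul_le_of_le_one_left hT₁.le hθ1
  have hT : 10 ^ 6 * T₁ ≤ c.T := h.T₁_le.trans (mul_le_of_le_one_left hT0.le (by nlinarith))
  have hξ : 0 ≤ v ⬝ᵥ v := dotProduct_self_star_nonneg v
  obtain ⟨a1, a2⟩ := H X c hk hk' (by linarith) x x' (by rwa [s8_sqrt_rk hr]) v
  have a3 := int_le_Ak c hr (by linarith) k x v
  have a4 := abs_le.1 (H₂ X c x l2 h (r₀ ^ 2) ⟨hk', hrT⟩ hrθ.ge v)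
  have a5 := abs_le.1 (H₂ X c x' l2 h' (r₀ ^ 2) ⟨hk', hrT⟩ hrθ.ge v)
  have a6 : |qf (c.G (r₀ ^ 2) x') v - qf (c.G (r₀ ^ 2) x) v| ≤ θ * (v ⬝ᵥ v) :=
    abs_le.2 ⟨by linarith, by linarith⟩
  set w : ℝ := Real.sqrt 2 ^ k with hw
  have w1 : 1 ≤ w := one_le_pow₀ (Real.one_le_sqrt.2 (by norm_num))
  have w0 : 0 < w := by linarith
  have w2 : w ^ 2 = 2 ^ k := by rw [hw, ← pow_mul, mul_comm, pow_mul, Real.sq_sqrt (by norm_num)]
  have w4 : w ^ 4 = 4 ^ k := by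
    rw [show w ^ 4 = (w ^ 2) ^ 2 by ring, w2, ← pow_mul, mul_comm, pow_mul]; norm_num
  have w8 : w ^ 8 = 16 ^ k := by
    rw [show w ^ 8 = (w ^ 4) ^ 2 by ring, w4, ← pow_mul, mul_comm, pow_mul]; norm_num
  have s1 : Real.sqrt (rk r₀ k ^ 2 / r₀ ^ 2) = 1 / w ^ 4 := by
    rw [← div_pow, Real.sqrt_sq (div_nonneg (s8_rk_pos hr k).le hr.le), w4, rk]
    field_simp
  set ϑ : ℝ := θ ^ (1 / 4 : ℝ) with hϑ
  have ϑ0 : 0 < ϑ := by positivity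
  have ϑ4 : ϑ ^ 4 = θ := by
    rw [hϑ, show (1 / 4 : ℝ) = ((4 : ℕ) : ℝ)⁻¹ by norm_num]
    exact Real.rpow_inv_natCast_pow hθ.le (by norm_num)
  have ϑ1 : ϑ ≤ 1 := Real.rpow_le_one hθ.le hθ1 (by norm_num)
  have θϑ : θ ≤ ϑ := by rw [← ϑ4]; exact pow_le_of_le_one ϑ0.le ϑ1 (by norm_num)
  have kp : ∀ j, 0 < X.h.κ x T₁ γ (rk r₀ j ^ 2) := fun j =>
    (h.κ_bounds (by linarith) hγ hγ' (pow_pos (s8_rk_pos hr j) 2) ((s8_rk_le r₀ j).trans hrT)).2.2.2.1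
  have b1 : ϑ / w ^ 2 ≤ acc (fun j => X.h.κ x T₁ γ (rk r₀ j ^ 2)) k := by
    have b := (h.κ_bounds (by linarith) hγ hγ' hr2 hrT).2.1
    rw [show r₀ ^ 2 / T₁ = θ by rw [hrθ]; field_simp] at b
    refine le_trans ?_ (Finset.single_le_sum (f := fun j => X.h.κ x T₁ γ (rk r₀ j ^ 2) / 2 ^ (k - j))
      (fun j _ => (div_pos (kp j) (by positivity)).le) (Finset.mem_range.2 (Nat.succ_pos k)))
    simp only [s8_rk_zero, Nat.sub_zero, w2]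
    exact div_le_div_of_nonneg_right b (by positivity)
  have p0 := MC.psd_qf (c.G_psd hk x) v
  have b2 : v ⬝ᵥ v ≤ 4 * w * qf (c.G (rk r₀ k ^ 2) x) v := by
    refine ((H₁ X c x l1 h v).2.2 _ ⟨le_rfl, by linarith⟩).trans (mul_le_mul_of_nonneg_right ?_ p0)
    have : T₁ / rk r₀ k ^ 2 = 16 ^ k * (1 / θ) := by
      rw [(rk_sq r₀ k).1, hrθ]; field_simp
    rw [this, Real.mul_rpow (by positivity) (by positivity)]
    have b3 : ((16 : ℝ) ^ k) ^ (2 * e) ≤ w :=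
      (Real.rpow_le_rpow_of_exponent_le (one_le_pow₀ (by norm_num)) (by linarith)).trans
        (s8_rp8 (by positivity) w0.le w8.ge)
    have b4 := (H₃ e he0 l3).le
    nlinarith [mul_le_mul b3 b4 (by positivity) w0.le]
  have b3 : |qf (c.G (r₀ ^ 2) x') v - qf (c.G (r₀ ^ 2) x) v| ≤ (C + 1) * (ϑ / w ^ 3) * (v ⬝ᵥ v) := by
    rcases le_total (1 / w) ϑ with hc | hc
    · refine a2.trans (mul_le_mul_of_nonneg_right ?_ hξ)
      rw [s1]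
      refine mul_le_mul (by linarith) ?_ (by positivity) (by positivity)
      calc 1 / w ^ 4 = 1 / w / w ^ 3 := by field_simp
        _ ≤ ϑ / w ^ 3 := div_le_div_of_nonneg_right hc (by positivity)
    · refine a6.trans (mul_le_mul_of_nonneg_right ?_ hξ)
      calc θ = 1 * (ϑ * ϑ ^ 3) := by rw [← ϑ4]; ring
        _ ≤ (C + 1) * (ϑ * (1 / w) ^ 3) := by gcongr; linarith
        _ = _ := by field_simp
  have b4 : Real.sqrt (rk r₀ k ^ 2 / r₀ ^ 2) * (r₀ ^ 2 / c.T) ≤ ϑ / w ^ 3 := by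
    have : r₀ ^ 2 / c.T ≤ ϑ := by
      rw [div_le_iff₀ hT0, hrθ]
      exact mul_le_mul θϑ (by linarith) hT₁.le ϑ0.le
    rw [s1]
    calc 1 / w ^ 4 * (r₀ ^ 2 / c.T) ≤ 1 / w ^ 3 * ϑ :=
        mul_le_mul (one_div_le_one_div_of_le (by positivity) (pow_le_pow_right₀ w1 (by norm_num))) this
          (by positivity) (by positivity)
      _ = _ := by ring
  have b5 : ϑ / w ^ 3 * (v ⬝ᵥ v) ≤
      4 * (acc (fun j => X.h.κ x T₁ γ (rk r₀ j ^ 2)) k * qf (c.G (rk r₀ k ^ 2) x) v) :=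
    calc ϑ / w ^ 3 * (v ⬝ᵥ v) ≤ ϑ / w ^ 3 * (4 * w * qf (c.G (rk r₀ k ^ 2) x) v) :=
        mul_le_mul_of_nonneg_left b2 (by positivity)
      _ = 4 * (ϑ / w ^ 2 * qf (c.G (rk r₀ k ^ 2) x) v) := by field_simp
      _ ≤ _ := by gcongr
  have b6 := mul_le_mul_of_nonneg_right (mul_le_mul_of_nonneg_left b4 hC.le) hξ
  have b7 := mul_le_mul_of_nonneg_left a3 hC.le
  have b8 := mul_le_mul_of_nonneg_left b5 (by positivity : 0 ≤ 2 * C + 1)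
  have p1 := MC.psd_qf (Ak_psd c hr (by linarith) k x).1 v
  have b9 := mul_nonneg hC.le p1
  rw [MC.qf_msub, abs_le]
  constructor <;> linarith [abs_le.1 a1, abs_le.1 b3]

/-- `IQ_harnack`, `IQ_mono`, `Ak_psd`. -/
theorem cd_DY (n : ℕ) (R : ℝ) : ∃ C : ℝ, 0 < C ∧ ∀ (X : Sp.{u} n) (c : Crd X) (x x' : X.M) {r₀ : ℝ},
    0 < r₀ → 10 ^ 4 * r₀ ^ 2 ≤ c.T → ∀ k, dist x x' ≤ R * rk r₀ k → ∀ v,
      qf (c.IQ (rk r₀ (k + 1) ^ 2) (rk r₀ k ^ 2) x) v ≤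
        C * qf (c.IQ (rk r₀ k ^ 2 / 4) (4 * rk r₀ k ^ 2) x') v ∧
      qf (c.IQ (rk r₀ k ^ 2 / 4) (4 * rk r₀ k ^ 2) x') v ≤ C * qf (c.Ak r₀ k x) v := by

  obtain ⟨C₁, hC₁, H₁⟩ := IQ_harnack.{u} n (4 * R)
  obtain ⟨C₂, hC₂, H₂⟩ := IQ_harnack.{u} n (2 * R)
  refine ⟨C₁ + C₂, by positivity, fun X c x x' r₀ hr hT k hd v => ?_⟩
  have hk : 0 < rk r₀ k ^ 2 := pow_pos (s8_rk_pos hr k) 2
  have hk' := s8_rk_le r₀ k
  have hr2 : 0 < r₀ ^ 2 := by positivity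
  have hT0 := c.T_pos
  have e := (rk_sq r₀ k).2
  have p1 := MC.psd_qf (c.IQ_psd (a := rk r₀ k ^ 2 / 4) (b := 4 * rk r₀ k ^ 2) (by positivity)
    (by linarith) (by linarith) x') v
  have p2 := MC.psd_qf (Ak_psd c hr hT k x).1 v
  constructor
  · have h1 := H₁ X c (a := rk r₀ (k + 1) ^ 2) (b := rk r₀ k ^ 2) (by linarith) (by linarith)
      (by linarith) x x' (by
        rw [s8_sqrt_rk hr]
        refine hd.trans_eq ?_
        unfold rk; rw [pow_succ]; field_simp) v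
    rw [show 4 * rk r₀ (k + 1) ^ 2 = rk r₀ k ^ 2 / 4 by rw [e]; ring] at h1
    nlinarith
  · have h1 := H₂ X c (a := rk r₀ k ^ 2 / 4) (b := 4 * rk r₀ k ^ 2) (by linarith) (by linarith)
      (by linarith) x' x (by
        rw [dist_comm, show rk r₀ k ^ 2 / 4 = (rk r₀ k / 2) ^ 2 by ring,
          Real.sqrt_sq (by linarith [s8_rk_pos hr k])]
        exact hd.trans_eq (by ring)) v
    have h2 : qf (c.IQ (4 * (rk r₀ k ^ 2 / 4)) (4 * (4 * rk r₀ k ^ 2)) x) v ≤ qf (c.Ak r₀ k x) v := by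
      cases k with
      | zero =>
        rw [s8_rk_zero]
        exact c.IQ_mono (a' := r₀ ^ 2) (b' := 10 ^ 4 * r₀ ^ 2) hr2 (by linarith) (by linarith)
          (by linarith) (by linarith) x v
      | succ k =>
        rw [s8_Ak_succ, show 4 * (rk r₀ (k + 1) ^ 2 / 4) = rk r₀ (k + 1) ^ 2 by ring,
          show 4 * (4 * rk r₀ (k + 1) ^ 2) = rk r₀ k ^ 2 by rw [(rk_sq r₀ k).2]; ring]
        linarith [MC.psd_qf (Ak_psd c hr hT k x).1 v]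
    nlinarith

/-- `pair_up`, `Ak_le`, `Ak_psd`. -/
theorem cd_split (n : ℕ) (hn : 1 ≤ n) (γ R : ℝ) (hγ : 0 < γ) (hγ' : γ ≤ 1 / 2) (hR : 0 ≤ R) :
    ∃ C e₀ : ℝ, 0 < C ∧ 0 < e₀ ∧ ∀ (X : Sp.{u} n) (c : Crd X) (x p : X.M) {T₁ e r₀ : ℝ}, e ≤ e₀ →
      0 < r₀ → 16 ^ 4 * r₀ ^ 2 ≤ T₁ → c.All x T₁ e γ → c.All p T₁ e γ → ∀ i j, i ≤ j →
      dist x p ≤ R * rk r₀ j →
      qf (c.Ak r₀ i x) ((c.G (rk r₀ j ^ 2) x)⁻¹ *ᵥ (c.uv p - c.uv x)) ≤ C * rk r₀ j ^ 2 * 2 ^ (j - i) *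
        (X.h.κ x T₁ γ (rk r₀ j ^ 2) + X.h.κ p T₁ γ (rk r₀ j ^ 2)) := by

  obtain ⟨C, δ, e₀, hC, hδ, he₀, H⟩ := pair_up.{u} n hn γ R hγ hγ' hR
  refine ⟨16 * C, min e₀ 1, by positivity, by positivity,
    fun X c x p T₁ e r₀ he hr h₁ hx hp i j hij hd => ?_⟩
  have hj : 0 < rk r₀ j ^ 2 := pow_pos (s8_rk_pos hr j) 2
  have hj' := s8_rk_le r₀ j
  have hr2 : 0 < r₀ ^ 2 := by positivity
  have hx' := hx (δ * rk r₀ j ^ 2) (by positivity)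
  have hp' := hp (δ * rk r₀ j ^ 2) (by positivity)
  have hT : T₁ ≤ c.T := by
    have h1 := hx'.T₁_le
    have h2 := hx'.e_pos
    have h3 : e ≤ 1 := he.trans (min_le_right _ _)
    have h4 := hx'.T₁_pos
    have h5 : e ^ 2 * c.T ≤ c.T := mul_le_of_le_one_left c.T_pos.le (by nlinarith)
    linarith
  have h1 := H X c x p (he.trans (min_le_left _ _)) hx' hp' le_rfl (by linarith)
    (by rwa [s8_sqrt_rk hr])
  have h2 := Ak_le c hr h₁ hT j x ((c.G (rk r₀ j ^ 2) x)⁻¹ *ᵥ (c.uv p - c.uv x))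
    (Φ := C * rk r₀ j ^ 2 * (X.h.κ x T₁ γ (rk r₀ j ^ 2) + X.h.κ p T₁ γ (rk r₀ j ^ 2)))
    fun s hs => (h1 s hs).trans_eq (by ring)
  have h3 := (Ak_psd c hr (by linarith) j x).2 i hij ((c.G (rk r₀ j ^ 2) x)⁻¹ *ᵥ (c.uv p - c.uv x))
  refine h3.trans ((mul_le_mul_of_nonneg_left h2 (by positivity)).trans_eq (by ring))

/-- Assembly: `u = uv`, `G k = G t_k`, `Dp k = IQ t_{k+1} t_k`, `A = Ak`, `Y k = IQ (t_k/4) (4 t_k)`, `κ k x = κ x T₁ γ t_k`; `Ca² = max (5 C_{g_up}) C_{low_pair}`; `up₁`, `up₂` from `g_up`, `low` from `low_pair`,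
`κ_pos` from `κ_bounds`. -/
theorem cdata (n : ℕ) (hn : 1 ≤ n) (γ : ℝ) (hγ : 0 < γ) (hγ' : γ ≤ 1 / 2) : ∃ Ca : ℝ, 1 ≤ Ca ∧
    ∀ R : ℝ, 1 ≤ R → ∃ C : ℝ, 1 ≤ C ∧ ∀ ε : ℝ, 0 < ε → ∃ θ e₀ : ℝ, 0 < θ ∧ θ ≤ 1 ∧ 0 < e₀ ∧
      ∀ (X : Sp.{u} n) (c : Crd X) (q : X.M) {T₁ e r₀ : ℝ}, e ≤ e₀ → 0 < r₀ → r₀ ^ 2 = θ * T₁ →
        (∀ x ∈ ball q (r₀ / 2), c.All x T₁ e γ) → Nonempty (CData n (ball q (r₀ / 2)) Ca R C ε) := by

  obtain ⟨Cg, eg, hCg, heg, Hg⟩ := g_up.{u} n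
  obtain ⟨Cl, δl, θl, el, hCl, hδl, hθl, hel, Hl⟩ := low_pair.{u} n hn γ hγ hγ'
  obtain ⟨es, hes, Hs⟩ := hyp_small.{u} n
  refine ⟨5 * Cg + Cl, by linarith, fun R hR => ?_⟩
  obtain ⟨Cv, hCv, Hv⟩ := cd_var.{u} n γ R hγ hγ'
  obtain ⟨Cd, hCd, Hd⟩ := cd_DY.{u} n R
  obtain ⟨Cp, ep, hCp, hep, Hp⟩ := cd_split.{u} n hn γ R hγ hγ' (by linarith)
  have hCR : 0 < Cg * (1 + R) := by positivity
  refine ⟨1 + Cv + Cd + Cp + Cg * (1 + R), by linarith, fun ε hε => ?_⟩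
  obtain ⟨θ₀, hθ₀, H₀⟩ := cd_small.{u} n γ ε hγ hγ' hε
  obtain ⟨θ, hθ, t1, t2, t3⟩ : ∃ θ : ℝ, 0 < θ ∧ θ ≤ θ₀ ∧ θ ≤ θl ∧ θ ≤ 1 / 16 ^ 4 :=
    ⟨min θ₀ (min θl (1 / 16 ^ 4)), by positivity, min_le_left _ _,
      (min_le_right _ _).trans (min_le_left _ _), (min_le_right _ _).trans (min_le_right _ _)⟩
  have t4 : θ ≤ 1 := t3.trans (by norm_num)
  obtain ⟨e₁, he₁, H₁⟩ := H₀ θ hθ t1
  obtain ⟨e₂, he₂, H₂⟩ := Hv θ hθ t4
  refine ⟨θ, min (min (min eg el) (min es ep)) (min (min e₁ e₂) 1), hθ, t4, by positivity,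
    fun X c q T₁ e r₀ he hr hrθ hU => ?_⟩
  simp only [le_min_iff] at he
  obtain ⟨⟨⟨l1, l2⟩, l3, l4⟩, ⟨l5, l6⟩, l7⟩ := he
  have hk : ∀ k, 0 < rk r₀ k ^ 2 := fun k => pow_pos (s8_rk_pos hr k) 2
  have hk' := s8_rk_le r₀
  have hr2 : 0 < r₀ ^ 2 := by positivity
  have h := (hU q (mem_ball_self (by positivity)) _ hr2).toHyp
  have he0 := h.e_pos
  have hT₁ := h.T₁_pos
  have hT0 := c.T_pos
  have hrT : 16 ^ 4 * r₀ ^ 2 ≤ T₁ := by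
    have := mul_le_mul_of_nonneg_right t3 hT₁.le
    linarith
  have hT : 10 ^ 6 * T₁ ≤ c.T := h.T₁_le.trans (mul_le_of_le_one_left hT0.le (by nlinarith))
  have hT' : 10 ^ 4 * r₀ ^ 2 ≤ c.T := by linarith
  have hkT : ∀ k, rk r₀ k ^ 2 ≤ T₁ := fun k => by linarith [hk' k]
  have mono : ∀ {a C S : ℝ}, 0 ≤ a → 0 < C → C ≤ 1 + Cv + Cd + Cp + Cg * (1 + R) → a ≤ C * S →
      a ≤ (1 + Cv + Cd + Cp + Cg * (1 + R)) * S := fun h0 h1 h2 h3 =>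
    h3.trans (mul_le_mul_of_nonneg_right h2 (nonneg_of_mul_nonneg_right (h0.trans h3) h1))
  have yp : ∀ k x, (c.IQ (rk r₀ k ^ 2 / 4) (4 * rk r₀ k ^ 2) x).PosSemidef := fun k x =>
    c.IQ_psd (by linarith [hk k]) (by linarith [hk k]) (by linarith [hkT k]) x
  have up : ∀ k, ∀ x ∈ ball q (r₀ / 2), ∀ z, ∀ A : ℝ, dist x z ≤ A * rk r₀ k →
      qf (c.G (rk r₀ k ^ 2) x)⁻¹ (c.uv z - c.uv x) ≤ Cg * (1 + A) * dist x z ^ 2 := fun k x hx z A hd => by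
    refine (Hg X c x l1 (hU x hx _ (hk k)).toHyp _ ⟨le_rfl, by linarith [hkT k]⟩ z).trans ?_
    rw [s8_sqrt_rk hr, mul_right_comm]
    have : dist x z / rk r₀ k ≤ A := (div_le_iff₀ (s8_rk_pos hr k)).2 hd
    gcongr
  have ca : 5 * Cg + Cl ≤ (5 * Cg + Cl) ^ 2 := by nlinarith
  exact ⟨{
    r₀ := r₀
    u := c.uv
    G := fun k => c.G (rk r₀ k ^ 2)
    Dp := fun k => c.IQ (rk r₀ (k + 1) ^ 2) (rk r₀ k ^ 2)
    A := c.Ak r₀
    Y := fun k => c.IQ (rk r₀ k ^ 2 / 4) (4 * rk r₀ k ^ 2)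
    κ := fun k x => X.h.κ x T₁ γ (rk r₀ k ^ 2)
    r₀_pos := hr
    tb := (isCompact_closedBall q (r₀ / 2)).totallyBounded.subset ball_subset_closedBall
    diam := fun x hx z hz => by
      linarith [dist_triangle_right x z q, mem_ball.1 hx, mem_ball.1 hz]
    G_pd := fun k x hx =>
      (Hs X c x l3 (hU x hx _ (hk k)).toHyp _ ⟨le_rfl, by linarith [hkT k]⟩).1
    Dp_psd := fun k x _ => s8_Dp_psd c hr hT' k x
    A_psd := fun x _ => (Ak_psd c hr hT' 0 x).1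
    Y_psd := fun k x _ => yp k x
    A_succ := fun k x _ => rfl
    κ_pos := fun k => ⟨(rk r₀ k ^ 2 / T₁) ^ (1 / 4 : ℝ), Real.rpow_pos_of_pos (div_pos (hk k) hT₁) _,
      fun x hx => ((hU x hx _ hr2).toHyp.κ_bounds l7 hγ hγ' (hk k) (hkT k)).2.1⟩
    κ_sum := fun x hx => (H₁ X c x l5 hr hrθ (hU x hx)).1
    G_zero := fun x hx => by
      simp only [s8_rk_zero]; exact (H₁ X c x l5 hr hrθ (hU x hx)).2.1
    G_succ := fun k x hx => (H₁ X c x l5 hr hrθ (hU x hx)).2.2.1 k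
    A_zero := fun x hx => by
      simp only [s8_rk_zero]; exact (H₁ X c x l5 hr hrθ (hU x hx)).2.2.2.1
    Dp_le := fun k x hx => (H₁ X c x l5 hr hrθ (hU x hx)).2.2.2.2 k
    Dp_Y := fun k x _ x' _ hd v => mono (MC.psd_qf (s8_Dp_psd c hr hT' k x) v) hCd (by linarith)
      (Hd X c x x' hr hT' k hd v).1
    Y_A := fun k x _ x' _ hd v => mono (MC.psd_qf (yp k x') v) hCd (by linarith)
      (Hd X c x x' hr hT' k hd v).2
    G_var := fun k x hx x' hx' hd v => mono (abs_nonneg _) hCv (by linarith)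
      (H₂ X c x x' l6 hr hrθ (hU x hx) (hU x' hx') k hd v)
    split := fun i j hij x hx p hp hd => by
      rw [mul_assoc, mul_assoc]
      refine mono (MC.psd_qf (Ak_psd c hr hT' i x).1 _) hCp (by linarith) ?_
      exact (Hp X c x p l4 hr hrT (hU x hx) (hU p hp) i j hij hd).trans_eq (by ring)
    up₁ := fun k x hx z _ hd => (up k x hx z 4 hd).trans
      (mul_le_mul_of_nonneg_right (by linarith) (sq_nonneg _))
    up₂ := fun k x hx z _ hd => (up k x hx z R hd).trans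
      (mul_le_mul_of_nonneg_right (by linarith) (sq_nonneg _))
    low := fun k x hx z hz h1 h2 => by
      have hs : 0 < δl * rk r₀ k ^ 2 := mul_pos hδl (hk k)
      have b := Hl X c x z l2 (hU x hx _ hs) (hU z hz _ hs) le_rfl
        ((hk' k).trans (hrθ.trans_le (mul_le_mul_of_nonneg_right t2 hT₁.le)))
        (by rw [(rk_sq r₀ k).2]; have := pow_le_pow_left₀ (s8_rk_pos hr _).le h1 2; linarith)
        (pow_le_pow_left₀ dist_nonneg h2 2)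
      exact b.trans (mul_le_mul_of_nonneg_right (by linarith)
        (nonneg_of_mul_nonneg_right ((sq_nonneg _).trans b) (by linarith))) }⟩

end Crest.Agent.R247
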