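import Crest.Agent.R247.Defs3

/-! # Row 247, T0: the coordinate functions and the matrices `G`, `Q`, `J` -/

set_option autoImplicit false
set_option linter.unusedSectionVars false
set_option linter.unusedVariables false
open MeasureTheory Filter Set Metric Matrix
open scoped ENNReal NNReal Topology ContDiff
open Crest.GeometryTopology.CoordMetric

noncomputable section
namespace Crest.Agent.R247
universe u

variable {n : ℕ} {X : Sp.{u} n} (c : Crd X)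

section a

theorem Crd.b_bd (ξ : V n) : X.h.Bd (fun z => ∑ i, ξ i * c.b i z) ∧
    Continuous (fun z => ∑ i, ξ i * c.b i z) ∧ ∀ i, X.h.Bd (c.b i) := by
  have h1 : ∀ i, X.h.Bd (c.b i) := fun i => by
    rcases isEmpty_or_nonempty X.M with h | ⟨⟨x⟩⟩
    · exact ⟨by rw [Measure.eq_zero_of_isEmpty X.h.m]; exact memLp_measure_zero, 0, fun y => h.elim y⟩
    · exact (X.h.lip_P (c.lip i) (c.cpt i) one_pos x).1
  choose B hB using fun i => (h1 i).2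
  refine ⟨⟨memLp_finsetSum _ fun i _ => (h1 i).1.const_mul _, ∑ i, |ξ i| * B i, fun y =>
    (Finset.abs_sum_le_sum_abs _ _).trans (Finset.sum_le_sum fun i _ => ?_)⟩,
    continuous_finsetSum _ fun i _ => continuous_const.mul (LipschitzWith.of_dist_le_mul (K := 1)
      fun x y => by simpa [Real.dist_eq] using c.lip i x y).continuous, h1⟩
  rw [abs_mul]
  exact mul_le_mul_of_nonneg_left (hB i y) (abs_nonneg _)

theorem Crd.U_eq {τ : ℝ} (hτ : 0 < τ) (ξ : V n) :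
    c.U τ ξ = fun y => ∑ i, ξ i * X.h.P τ (c.b i) y := by
  funext y
  rw [Crd.U, X.h.P_sum _ fun i _ => X.h.int_L2 hτ y ((((c.b_bd ξ).2.2 i).1).const_mul _)]
  simp only [X.h.P_cmul]

theorem Crd.u_eq (ξ : V n) : c.u ξ = fun y => ∑ i, ξ i * c.ui i y := by
  exact c.U_eq c.T_pos ξ

theorem Crd.u_dot (ξ : V n) (y : X.M) : c.u ξ y = ξ ⬝ᵥ c.uv y := by
  rw [c.u_eq]; rfl

theorem Crd.u_add (ξ η : V n) : c.u (ξ + η) = fun y => c.u ξ y + c.u η y := by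
  funext y; simp only [c.u_dot, add_dotProduct]

theorem Crd.u_sub (ξ η : V n) : c.u (ξ - η) = fun y => c.u ξ y - c.u η y := by
  funext y; simp only [c.u_dot, sub_dotProduct]

theorem Crd.u_smul (a : ℝ) (ξ : V n) : c.u (a • ξ) = fun y => a * c.u ξ y := by
  funext y; simp only [c.u_dot, smul_dotProduct, smul_eq_mul]

theorem Crd.u_single (i : Fin n) : c.u (Pi.single i 1) = c.ui i := by
  funext y; simp [c.u_dot, Crd.uv]

theorem Crd.t0a_key {τ : ℝ} (hτ : 0 < τ) (ξ : V n) (y : X.M) :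
    X.h.Γ (c.U τ ξ) (c.U τ ξ) y ≤ n * Real.exp (2 * X.h.k * τ) * (ξ ⬝ᵥ ξ) ∧
      2 * τ * X.h.Δ (c.U τ ξ) y ^ 2 ≤ n ^ 2 * Real.exp (2 * X.h.k * τ) * (ξ ⬝ᵥ ξ) := by
  have h1 : ∀ i, X.h.S (X.h.P τ (c.b i)) := fun i => X.h.P_S hτ ((c.b_bd ξ).2.2 i).1
  have h2 := fun i => (X.h.lip_P (c.lip i) (c.cpt i) hτ y).2
  have h3 : ξ ⬝ᵥ ξ = ∑ i, ξ i ^ 2 := by simp only [dotProduct, sq]
  have h4 : 0 ≤ ∑ i, ξ i ^ 2 := by positivity
  rw [c.U_eq hτ, X.h.Δ_sum _ fun i _ => X.h.S_cmul _ (h1 i), Raw.Γ,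
    X.h.grad_sum _ fun i _ => X.h.S_cmul _ (h1 i), h3]
  simp only [X.h.Δ_cmul _ (h1 _), X.h.grad_cmul _ (h1 _), dotProduct, Finset.sum_apply, Pi.smul_apply,
    smul_eq_mul, ← sq]
  constructor
  · refine (Finset.sum_le_sum fun j _ => Finset.sum_mul_sq_le_sq_mul_sq _ _ _).trans ?_
    rw [← Finset.mul_sum, Finset.sum_comm, mul_comm]
    refine mul_le_mul_of_nonneg_right ((Finset.sum_le_card_nsmul _ _ (Real.exp (2 * X.h.k * τ))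
      fun i _ => ?_).trans_eq (by simp)) h4
    simpa only [Raw.Γ, dotProduct, ← sq] using (h2 i).1
  · refine (mul_le_mul_of_nonneg_left (Finset.sum_mul_sq_le_sq_mul_sq _ _ _) (by positivity)).trans ?_
    rw [mul_left_comm, mul_comm, Finset.mul_sum _ _ (2 * τ)]
    refine mul_le_mul_of_nonneg_right ((Finset.sum_le_card_nsmul _ _ _ fun i _ => (h2 i).2.1).trans_eq ?_) h4
    simp only [Finset.card_univ, Fintype.card_fin, nsmul_eq_mul]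
    ring

theorem Crd.t0a_bd {τ : ℝ} (hτ : 0 < τ) (ξ : V n) : X.h.Bd (X.h.Δ (c.U τ ξ)) :=
  ⟨X.h.P_lap_L2 (c.b_bd ξ).1.1 hτ, _, fun y =>
    Real.abs_le_sqrt ((le_div_iff₀' (by positivity)).2 (c.t0a_key hτ ξ y).2)⟩

theorem Crd.t0a_lap {τ : ℝ} (hτ : 0 < τ) (ξ : V n) :
    X.h.Δ (c.U τ ξ) = X.h.P (τ / 2) (X.h.Δ (c.U (τ / 2) ξ)) := by
  have := X.h.P_lap (c.b_bd ξ).1.1 (half_pos hτ) (half_pos hτ)
  rwa [add_halves] at this

/-- `Δ U τ = P (τ/2) (Δ U (τ/2))` (`P_lap`), `lip_P`, `P_nice_bd`. -/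
theorem Crd.U_nice {τ : ℝ} (hτ : 0 < τ) (ξ : V n) :
    X.h.Nice (c.U τ ξ) ∧ X.h.Nice (X.h.Δ (c.U τ ξ)) := by
  refine ⟨X.h.P_nice_bd (c.b_bd ξ).1 hτ, ?_⟩
  rw [c.t0a_lap hτ]
  exact X.h.P_nice_bd (c.t0a_bd (half_pos hτ) ξ) (half_pos hτ)

theorem Crd.u_nice (ξ : V n) : X.h.Nice (c.u ξ) ∧ X.h.Nice (X.h.Δ (c.u ξ)) := by
  exact c.U_nice c.T_pos ξ

theorem Crd.u_S (ξ : V n) : X.h.S (c.u ξ) := by
  exact (c.u_nice ξ).1.1.1

theorem Crd.ui_S (i : Fin n) : X.h.S (c.ui i) := by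
  exact c.u_single i ▸ c.u_S _

theorem Crd.U_Sm (ξ : V n) : X.h.Sm (Ioi 0) (fun τ => c.U τ ξ) ∧
    ∀ τ, 0 < τ → ∀ y, dt (fun τ => c.U τ ξ) τ y = X.h.Δ (c.U τ ξ) y := by
  exact ⟨X.h.P_Sm (c.b_bd ξ).1.1, fun τ hτ => X.h.P_heat (c.b_bd ξ).1.1 hτ⟩

/-- The backward solution `s ↦ U (a - s) ξ`. -/
theorem Crd.U_back (a : ℝ) (ξ : V n) : X.h.Sm (Iio a) (fun s => c.U (a - s) ξ) ∧
    ∀ s < a, ∀ y, dt (fun s => c.U (a - s) ξ) s y + X.h.Δ (c.U (a - s) ξ) y = 0 := by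
  refine ⟨X.h.Sm_reparam (c.U_Sm ξ).1 (by fun_prop) fun s hs => mem_Ioi.2 (sub_pos.2 hs), fun s hs y => ?_⟩
  have h1 := (X.h.Sm_deriv isOpen_Ioi (c.U_Sm ξ).1 (mem_Ioi.2 (sub_pos.2 hs)) y).comp_const_sub a s
  rw [dt, h1.deriv, (c.U_Sm ξ).2 _ (sub_pos.2 hs), neg_add_cancel]

theorem Crd.P_U {σ τ : ℝ} (hσ : 0 < σ) (hτ : 0 < τ) (ξ : V n) :
    X.h.P σ (c.U τ ξ) = c.U (σ + τ) ξ ∧ X.h.P σ (X.h.Δ (c.U τ ξ)) = X.h.Δ (c.U (σ + τ) ξ) := by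
  exact ⟨funext fun x => (X.h.P_P hσ hτ (c.b_bd ξ).1.1.1
    (X.h.int_L2 (add_pos hσ hτ) x (c.b_bd ξ).1.1)).2, (X.h.P_lap (c.b_bd ξ).1.1 hσ hτ).symm⟩

theorem Crd.ui_Γ (i : Fin n) (y : X.M) :
    X.h.Γ (c.ui i) (c.ui i) y ≤ Real.exp (2 * X.h.k * c.T) := by
  exact (X.h.lip_P (c.lip i) (c.cpt i) c.T_pos y).2.1

omit c in
/-- `lip_P` for each `b i`; `rev_poincare` for `Δ U τ = P (τ/2) (Δ U (τ/2))`. -/
theorem U_bounds (n : ℕ) : ∃ C : ℝ, 0 < C ∧ ∀ (X : Sp.{u} n) (c : Crd X), ∀ τ ∈ Icc (c.T / 4) (4 * c.T),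
    ∀ ξ y, X.h.Γ (c.U τ ξ) (c.U τ ξ) y ≤ C * (ξ ⬝ᵥ ξ) ∧ c.T * X.h.Δ (c.U τ ξ) y ^ 2 ≤ C * (ξ ⬝ᵥ ξ) ∧
      c.T ^ 2 * X.h.Γ (X.h.Δ (c.U τ ξ)) (X.h.Δ (c.U τ ξ)) y ≤ C * (ξ ⬝ᵥ ξ) := by
  refine ⟨(16 * n ^ 2 + n + 1) * Real.exp 1, by positivity, fun X c τ hτ ξ y => ?_⟩
  have T0 := c.T_pos
  have τ0 : 0 < τ := by linarith [hτ.1]
  have h0 : 0 ≤ ξ ⬝ᵥ ξ := Finset.sum_nonneg fun i _ => mul_self_nonneg _
  have h1 : Real.exp (2 * X.h.k * τ) * (ξ ⬝ᵥ ξ) ≤ Real.exp 1 * (ξ ⬝ᵥ ξ) := by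
    gcongr
    linarith [c.kT, mul_le_mul_of_nonneg_left hτ.2 X.h.k_nonneg]
  have h2 := mul_le_mul_of_nonneg_left h1 (Nat.cast_nonneg n)
  have h3 := mul_le_mul_of_nonneg_left h1 (sq_nonneg (n : ℝ))
  have h4 : 0 ≤ Real.exp 1 * (ξ ⬝ᵥ ξ) := by positivity
  have h5 := mul_nonneg (Nat.cast_nonneg n) h4
  have h6 := mul_nonneg (sq_nonneg (n : ℝ)) h4
  obtain ⟨k1, k2⟩ := c.t0a_key τ0 ξ y
  refine ⟨by linarith, by linarith [mul_le_mul_of_nonneg_right hτ.1 (sq_nonneg (X.h.Δ (c.U τ ξ) y))], ?_⟩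
  have k3 := X.h.rev_poincare (c.t0a_bd (half_pos τ0) ξ) (half_pos τ0) y
  have k4 := (le_abs_self _).trans (X.h.abs_P_le (half_pos τ0) y (f := fun z => X.h.Δ (c.U (τ / 2) ξ) z ^ 2)
    fun z => (abs_of_nonneg (sq_nonneg _)).trans_le
      ((le_div_iff₀' (by positivity)).2 (c.t0a_key (half_pos τ0) ξ z).2))
  have k5 := k3.trans (mul_le_mul_of_nonneg_left k4 (Real.exp_pos _).le)
  rw [← c.t0a_lap τ0, ← mul_div_assoc (Real.exp _), le_div_iff₀ (by positivity), mul_assoc ((n : ℝ) ^ 2),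
    mul_left_comm (Real.exp _), ← mul_assoc (Real.exp _), ← Real.exp_add, ← mul_add, add_halves] at k5
  have k6 := mul_le_mul_of_nonneg_right (pow_le_pow_left₀ (by positivity) hτ.1 2)
    (X.h.Γ_nonneg (X.h.Δ (c.U τ ξ)) y)
  linarith

omit c in
theorem t0a_mvt {f f' : ℝ → ℝ} {a b K B x y : ℝ} (hK : 0 < K)
    (h : ∀ s ∈ Icc a b, HasDerivAt f (f' s) s ∧ K * f' s ^ 2 ≤ B) (hx : x ∈ Icc a b) (hy : y ∈ Icc a b) :
    K * (f x - f y) ^ 2 ≤ B * (x - y) ^ 2 := by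
  have h1 := pow_le_pow_left₀ (norm_nonneg _) ((convex_Icc a b).norm_image_sub_le_of_norm_hasDerivWithin_le
    (fun s hs => (h s hs).1.hasDerivWithinAt)
    (fun s hs => Real.abs_le_sqrt ((le_div_iff₀' hK).2 (h s hs).2)) hy hx) 2
  rwa [mul_pow, Real.sq_sqrt (div_nonneg (le_trans (by positivity) (h x hx).2) hK.le), Real.norm_eq_abs,
    Real.norm_eq_abs, sq_abs, sq_abs, div_mul_eq_mul_div, le_div_iff₀' hK] at h1

omit c in
/-- Mean value theorem in `τ` (`Sm_deriv`, `grad_dt`; for the gradient test against a fixed vector). -/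
theorem U_shift (n : ℕ) : ∃ C : ℝ, 0 < C ∧ ∀ (X : Sp.{u} n) (c : Crd X),
    ∀ τ ∈ Icc (c.T / 4) (4 * c.T), ∀ τ' ∈ Icc (c.T / 4) (4 * c.T), ∀ ξ y,
      c.T * (c.U τ ξ y - c.U τ' ξ y) ^ 2 ≤ C * (τ - τ') ^ 2 * (ξ ⬝ᵥ ξ) ∧
      c.T ^ 2 * X.h.Γ (fun z => c.U τ ξ z - c.U τ' ξ z) (fun z => c.U τ ξ z - c.U τ' ξ z) y ≤
        C * (τ - τ') ^ 2 * (ξ ⬝ᵥ ξ) := by
  obtain ⟨C, C0, hC⟩ := U_bounds.{u} n
  refine ⟨(n + 1) * C, by positivity, fun X c τ hτ τ' hτ' ξ y => ?_⟩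
  have T0 := c.T_pos
  have h0 : ∀ s ∈ Icc (c.T / 4) (4 * c.T), 0 < s := fun s hs => by linarith [hs.1]
  have h1 : ∀ s ∈ Icc (c.T / 4) (4 * c.T), dt (fun τ => c.U τ ξ) s = X.h.Δ (c.U s ξ) := fun s hs =>
    funext ((c.U_Sm ξ).2 s (h0 s hs))
  have h2 := t0a_mvt T0 (fun s hs => ⟨X.h.Sm_deriv isOpen_Ioi (c.U_Sm ξ).1 (h0 s hs) y, by
    rw [h1 s hs]; exact (hC X c s hs ξ y).2.1⟩) hτ hτ'
  have h3 := fun i => t0a_mvt (pow_pos T0 2) (fun s hs => ⟨X.h.grad_dt isOpen_Ioi (c.U_Sm ξ).1 (h0 s hs) y i, by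
    rw [h1 s hs]
    refine le_trans (mul_le_mul_of_nonneg_left ?_ (by positivity)) (hC X c s hs ξ y).2.2
    rw [sq]
    exact Finset.single_le_sum (f := fun j => X.h.grad (X.h.Δ (c.U s ξ)) y j * X.h.grad (X.h.Δ (c.U s ξ)) y j)
      (fun j _ => mul_self_nonneg _) (Finset.mem_univ i)⟩) hτ hτ'
  have h4 : 0 ≤ C * (ξ ⬝ᵥ ξ) * (τ - τ') ^ 2 :=
    mul_nonneg (mul_nonneg C0.le (Finset.sum_nonneg fun i _ => mul_self_nonneg _)) (sq_nonneg _)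
  refine ⟨by linarith [mul_nonneg (Nat.cast_nonneg n) h4], ?_⟩
  rw [Raw.Γ, X.h.grad_sub (c.U_nice (h0 _ hτ) ξ).1.1.1 (c.U_nice (h0 _ hτ') ξ).1.1.1, dotProduct, Finset.mul_sum]
  refine (Finset.sum_le_card_nsmul _ _ _ fun i _ => (by rw [← sq]; rfl : _ = _).trans_le (h3 i)).trans ?_
  simp only [Finset.card_univ, Fintype.card_fin, nsmul_eq_mul]
  linarith

end a

section b

theorem Crd.ok {s : ℝ} (hs : 0 < s) (hT : s ≤ 10 ^ 6 * c.T) : X.h.ok s := by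
  refine ⟨hs, ?_⟩
  have h1 := c.kT
  have h2 := mul_le_mul_of_nonneg_left hT X.h.k_nonneg
  nlinarith

omit c in
lemma t0b_bf (A : Mat n) (ξ η : V n) : bf A ξ η = ∑ i, ∑ j, ξ i * η j * A i j := by
  simp only [bf, dotProduct, mulVec, Finset.mul_sum]
  exact Finset.sum_congr rfl fun i _ => Finset.sum_congr rfl fun j _ => by ring

omit c in
lemma t0b_P {s : ℝ} {x : X.M} {F : Fin n → Fin n → X.M → ℝ}
    (hF : ∀ i j, Integrable (fun y => X.h.H s x y * F i j y) X.h.m) (ξ η : V n) :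
    X.h.P s (fun y => ∑ i, ∑ j, ξ i * η j * F i j y) x =
      ∑ i, ∑ j, ξ i * η j * X.h.P s (F i j) x := by
  have h1 : ∀ i j, Integrable (fun y => X.h.H s x y * (ξ i * η j * F i j y)) X.h.m := fun i j =>
    ((hF i j).const_mul (ξ i * η j)).congr (ae_of_all _ fun y => by simp only; ring)
  rw [X.h.P_sum Finset.univ (f := fun i y => ∑ j, ξ i * η j * F i j y)]
  · refine Finset.sum_congr rfl fun i _ => ?_
    rw [X.h.P_sum Finset.univ (f := fun j y => ξ i * η j * F i j y) fun j _ => h1 i j]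
    exact Finset.sum_congr rfl fun j _ => X.h.P_cmul s _ x _
  · intro i _
    simp only [Finset.mul_sum]
    exact integrable_finsetSum _ fun j _ => h1 i j

omit c in
lemma t0b_psd {A : Mat n} (hs : ∀ i j, A i j = A j i) (h : ∀ v, 0 ≤ qf A v) : A.PosSemidef := by
  refine Matrix.PosSemidef.of_dotProduct_mulVec_nonneg ?_ fun v => by simpa [qf] using h v
  ext i j
  simp [conjTranspose_apply, hs j i]

lemma Crd.t0b_ui (i : Fin n) : X.h.Nice (c.ui i) := by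
  rw [← c.u_single]
  exact (c.u_nice _).1

omit c in
lemma t0b_int {s : ℝ} (hs : 0 < s) (x : X.M) {f : X.M → ℝ} (hf : X.h.Bd f) :
    Integrable (fun y => X.h.H s x y * f y) X.h.m :=
  X.h.int_L2 hs x hf.1

omit c in
lemma t0b_int2 {s : ℝ} (hs : 0 < s) (x : X.M) {f f' : X.M → ℝ} (hf : X.h.Nice f) (hf' : X.h.Nice f') :
    Integrable (fun y => X.h.H s x y * (f y * f' y)) X.h.m := by
  obtain ⟨B, hB⟩ := hf.2
  obtain ⟨B', hB'⟩ := hf'.2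
  refine X.h.int_bdd hs x (f := fun y => f y * f' y)
    ((X.h.S_cont hf.1.1).mul (X.h.S_cont hf'.1.1)).aestronglyMeasurable (B := B * B') fun y => ?_
  rw [abs_mul]
  exact mul_le_mul (hB y).1 (hB' y).1 (abs_nonneg _) ((abs_nonneg _).trans (hB y).1)

theorem Crd.bf_G {s : ℝ} (hs : 0 < s) (x : X.M) (ξ η : V n) :
    bf (c.G s x) ξ η = X.h.P s (X.h.Γ (c.u ξ) (c.u η)) x := by
  have h1 : X.h.Γ (c.u ξ) (c.u η) = fun y => ∑ i, ∑ j, ξ i * η j * X.h.Γ (c.ui i) (c.ui j) y := by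
    funext y
    rw [c.u_eq ξ, X.h.Γ_sum_left _ (fun i _ => X.h.S_cmul _ (c.ui_S i))]
    refine Finset.sum_congr rfl fun i _ => ?_
    rw [X.h.Γ_cmul_left _ (c.ui_S i), X.h.Γ_comm, c.u_eq η,
      X.h.Γ_sum_left _ (fun i _ => X.h.S_cmul _ (c.ui_S i)), Finset.mul_sum]
    refine Finset.sum_congr rfl fun j _ => ?_
    rw [X.h.Γ_cmul_left _ (c.ui_S j), X.h.Γ_comm]
    ring
  rw [h1, t0b_P (fun i j => t0b_int hs x ((c.t0b_ui i).Γ_bd (c.t0b_ui j))), t0b_bf]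
  rfl

theorem Crd.qf_G {s : ℝ} (hs : 0 < s) (x : X.M) (ξ : V n) :
    qf (c.G s x) ξ = X.h.P s (X.h.Γ (c.u ξ) (c.u ξ)) x := by
  exact c.bf_G hs x ξ ξ

theorem Crd.G_psd {s : ℝ} (hs : 0 < s) (x : X.M) : (c.G s x).PosSemidef := by
  refine t0b_psd (fun i j => ?_) fun v => ?_
  · simp only [Crd.G, of_apply]
    congr 1
    funext y
    exact X.h.Γ_comm _ _ y
  · rw [c.qf_G hs]
    exact X.h.P_nonneg hs x fun y => X.h.Γ_nonneg _ y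

theorem Crd.bf_J {s : ℝ} (hs : 0 < s) (x : X.M) (ξ η : V n) :
    bf (c.J s x) ξ η = X.h.Cov s x (c.u ξ) (c.u η) := by
  have h1 : (fun y => c.u ξ y * c.u η y) = fun y => ∑ i, ∑ j, ξ i * η j * (c.ui i y * c.ui j y) := by
    funext y
    rw [c.u_eq ξ, c.u_eq η, Finset.sum_mul_sum]
    exact Finset.sum_congr rfl fun i _ => Finset.sum_congr rfl fun j _ => by ring
  have h2 : ∀ ζ : V n, X.h.P s (c.u ζ) x = ∑ i, ζ i * X.h.P s (c.ui i) x := by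
    intro ζ
    rw [c.u_eq ζ, X.h.P_sum Finset.univ (f := fun i y => ζ i * c.ui i y)]
    · exact Finset.sum_congr rfl fun j _ => X.h.P_cmul s _ x _
    · intro i _
      exact ((t0b_int hs x (c.t0b_ui i).bd).const_mul (ζ i)).congr
        (ae_of_all _ fun y => by simp only; ring)
  rw [HS.Cov, h1, t0b_P (F := fun i j y => c.ui i y * c.ui j y)
    (fun i j => t0b_int2 hs x (c.t0b_ui i) (c.t0b_ui j)), t0b_bf, h2, h2, Finset.sum_mul_sum,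
    ← Finset.sum_sub_distrib]
  refine Finset.sum_congr rfl fun i _ => ?_
  rw [← Finset.sum_sub_distrib]
  refine Finset.sum_congr rfl fun j _ => ?_
  simp only [Crd.J, of_apply]
  ring

lemma Crd.t0b_sq {s : ℝ} (hs : 0 < s) (x : X.M) (ξ : V n) :
    Integrable (fun y => X.h.H s x y * c.u ξ y ^ 2) X.h.m ∧
      qf (c.J s x) ξ = X.h.P s (fun y => c.u ξ y ^ 2) x - X.h.P s (c.u ξ) x ^ 2 := by
  refine ⟨?_, ?_⟩
  · simpa only [sq] using t0b_int2 hs x (c.u_nice ξ).1 (c.u_nice ξ).1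
  · rw [← MC.bf_self, c.bf_J hs, HS.Cov]
    simp only [sq]

theorem Crd.J_psd {s : ℝ} (hs : 0 < s) (x : X.M) : (c.J s x).PosSemidef := by
  refine t0b_psd (fun i j => ?_) fun v => ?_
  · simp only [Crd.J, of_apply, mul_comm]
  · rw [(c.t0b_sq hs x v).2, sub_nonneg]
    exact (X.h.P_sq_le hs (X.h.S_cont (c.u_S v)).aestronglyMeasurable (c.t0b_sq hs x v).1).2

/-- `poincare`. -/
theorem Crd.J_le {s : ℝ} (hs : 0 < s) (x : X.M) (ξ : V n) :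
    qf (c.J s x) ξ ≤ 2 * s * Real.exp (2 * X.h.k * s) * qf (c.G s x) ξ := by
  rw [(c.t0b_sq hs x ξ).2, c.qf_G hs]
  exact X.h.poincare (c.u_S ξ) hs x (c.t0b_sq hs x ξ).1
    (t0b_int hs x ((c.u_nice ξ).1.Γ_bd (c.u_nice ξ).1))

/-- `Γ2_int`, polarisation. -/
theorem Crd.Γ2_int (ξ η : V n) : Integrable (X.h.Γ2 (c.u ξ) (c.u η)) X.h.m := by
  have h1 : ∀ ζ, Integrable (X.h.Γ2 (c.u ζ) (c.u ζ)) X.h.m := fun ζ =>
    (X.h.Γ2_int (c.u_S ζ) (c.u_nice ζ).1.1.2.2 (c.u_nice ζ).2.1.2.1).1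
  refine Integrable.mono' ((h1 ξ).add (h1 η))
    (X.h.S_cont (X.h.S_Γ2 (c.u_S ξ) (c.u_S η))).aestronglyMeasurable (ae_of_all _ fun y => ?_)
  have h2 := X.h.abs_Γ2_sub_le (c.u_S ξ) (c.u_S η) 0 y
  rw [zero_mul, sub_zero, X.h.D_zero] at h2
  have h3 := Real.sq_sqrt (X.h.Γ2_nonneg (c.u_S ξ) y)
  have h4 := Real.sq_sqrt (X.h.Γ2_nonneg (c.u_S η) y)
  simp only [Real.norm_eq_abs, Pi.add_apply]
  nlinarith [sq_nonneg (Real.sqrt (X.h.Γ2 (c.u ξ) (c.u ξ) y) - Real.sqrt (X.h.Γ2 (c.u η) (c.u η) y)),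
    mul_nonneg (Real.sqrt_nonneg (X.h.Γ2 (c.u ξ) (c.u ξ) y)) (Real.sqrt_nonneg (X.h.Γ2 (c.u η) (c.u η) y))]

lemma Crd.t0b_H (R : ℝ) : ∃ C : ℝ, 0 < C ∧ ∀ s ∈ Ioc 0 (2 * c.T), ∀ x y,
    X.h.H s x y * Real.exp (R * dist x y / Real.sqrt s) ≤ C * X.h.th s x := by
  obtain ⟨C, hC, h⟩ := gauss_up.{u} n
  refine ⟨C * Real.exp (25 * R ^ 2), by positivity, fun s hs x y => ?_⟩
  have hk : X.h.k * s ≤ 1 / 200 := by
    have h1 := c.kT
    have h2 := mul_le_mul_of_nonneg_left hs.2 X.h.k_nonneg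
    nlinarith
  have h1 := h X hs.1 hk x y
  have h2 := (X.h.th_pos hs.1 x).le
  have h3 : -dist x y ^ 2 / (100 * s) + R * dist x y / Real.sqrt s ≤ 25 * R ^ 2 := by
    have h4 : 0 < Real.sqrt s := Real.sqrt_pos.2 hs.1
    have h5 : -dist x y ^ 2 / (100 * s) = -(dist x y / Real.sqrt s) ^ 2 / 100 := by
      rw [div_pow, Real.sq_sqrt hs.1.le]
      field_simp
    rw [h5, mul_div_assoc]
    nlinarith [sq_nonneg (dist x y / Real.sqrt s - 50 * R)]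
  calc X.h.H s x y * Real.exp (R * dist x y / Real.sqrt s)
      ≤ C * X.h.th s x * Real.exp (-dist x y ^ 2 / (100 * s)) * Real.exp (R * dist x y / Real.sqrt s) :=
        mul_le_mul_of_nonneg_right h1 (Real.exp_pos _).le
    _ = C * X.h.th s x * Real.exp (-dist x y ^ 2 / (100 * s) + R * dist x y / Real.sqrt s) := by
        rw [Real.exp_add]; ring
    _ ≤ C * X.h.th s x * Real.exp (25 * R ^ 2) :=
        mul_le_mul_of_nonneg_left (Real.exp_le_exp.2 h3) (by positivity)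
    _ = _ := by ring

/-- `H s x` is bounded (`gauss_up`), also against exponential weights. -/
theorem Crd.HΓ2_int {s : ℝ} (hs : s ∈ Ioc 0 (2 * c.T)) (x : X.M) (ξ η : V n) (R : ℝ) :
    Integrable (fun y => X.h.H s x y * X.h.Γ2 (c.u ξ) (c.u η) y) X.h.m ∧
    Integrable (fun y => X.h.H s x y *
      (X.h.Γ2 (c.u ξ) (c.u η) y * Real.exp (R * dist x y / Real.sqrt s))) X.h.m := by
  have key : ∀ R : ℝ, Integrable (fun y => X.h.H s x y *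
      (X.h.Γ2 (c.u ξ) (c.u η) y * Real.exp (R * dist x y / Real.sqrt s))) X.h.m := by
    intro R
    obtain ⟨C, hC, h⟩ := c.t0b_H R
    have hc : Continuous fun y => X.h.H s x y * Real.exp (R * dist x y / Real.sqrt s) :=
      (X.h.H_cont hs.1 x).mul (by fun_prop)
    refine ((c.Γ2_int ξ η).bdd_mul (c := C * X.h.th s x) hc.aestronglyMeasurable
      (ae_of_all _ fun y => ?_)).congr (ae_of_all _ fun y => by simp only; ring)
    rw [Real.norm_eq_abs, abs_of_nonneg (mul_nonneg (X.h.H_nonneg hs.1 x y) (Real.exp_pos _).le)]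
    exact h s hs x y
  refine ⟨?_, key R⟩
  simpa using key 0

lemma Crd.t0b_Q (s : ℝ) (x : X.M) (i j : Fin n) :
    c.Q s x i j = X.h.P s (X.h.Γ2 (c.u (Pi.single i 1)) (c.u (Pi.single j 1))) x := by
  rw [c.u_single, c.u_single]
  rfl

theorem Crd.qf_Q {s : ℝ} (hs : s ∈ Ioc 0 (2 * c.T)) (x : X.M) (ξ : V n) :
    qf (c.Q s x) ξ = X.h.P s (X.h.Γ2 (c.u ξ) (c.u ξ)) x := by
  have h1 : X.h.Γ2 (c.u ξ) (c.u ξ) = fun y => ∑ i, ∑ j, ξ i * ξ j * X.h.Γ2 (c.ui i) (c.ui j) y := by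
    funext y
    rw [c.u_eq ξ]
    exact X.h.Γ2_sum _ (fun i _ => c.ui_S i) ξ ξ y
  have h2 : ∀ i j, Integrable (fun y => X.h.H s x y * X.h.Γ2 (c.ui i) (c.ui j) y) X.h.m := by
    intro i j
    have := (c.HΓ2_int hs x (Pi.single i 1) (Pi.single j 1) 0).1
    rwa [c.u_single, c.u_single] at this
  rw [h1, t0b_P h2, ← MC.bf_self, t0b_bf]
  rfl

theorem Crd.Q_psd {s : ℝ} (hs : s ∈ Ioc 0 (2 * c.T)) (x : X.M) : (c.Q s x).PosSemidef := by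
  refine t0b_psd (fun i j => ?_) fun v => ?_
  · simp only [Crd.Q, of_apply]
    congr 1
    funext y
    exact X.h.Γ2_comm _ _ y
  · rw [c.qf_Q hs]
    exact X.h.P_nonneg hs.1 x fun y => X.h.Γ2_nonneg (c.u_S v) y

lemma Crd.t0b_cont (x : X.M) {f : X.M → ℝ} (hf : Integrable f X.h.m) :
    ContinuousOn (fun s => X.h.P s f x) (Ioc 0 (2 * c.T)) := by
  obtain ⟨C, hC, h⟩ := c.t0b_H 0
  intro s₀ hs₀
  have hev : ∀ᶠ s in 𝓝[Ioc 0 (2 * c.T)] s₀, s ∈ Ioc 0 (2 * c.T) ∧ s₀ / 2 < s :=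
    eventually_mem_nhdsWithin.and
      (nhdsWithin_le_nhds (lt_mem_nhds (by linarith [hs₀.1] : s₀ / 2 < s₀)))
  refine continuousWithinAt_of_dominated (bound := fun y => C * X.h.th (s₀ / 2) x * ‖f y‖) ?_ ?_
    (hf.norm.const_mul _) (ae_of_all _ fun y => ?_)
  · filter_upwards [hev] with s hs
    exact (X.h.H_cont hs.1.1 x).aestronglyMeasurable.mul hf.1
  · filter_upwards [hev] with s hs
    refine ae_of_all _ fun y => ?_
    rw [norm_mul, Real.norm_eq_abs, abs_of_nonneg (X.h.H_nonneg hs.1.1 x y)]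
    refine mul_le_mul_of_nonneg_right ?_ (norm_nonneg _)
    have h1 := h s hs.1 x y
    simp only [zero_mul, zero_div, Real.exp_zero, mul_one] at h1
    exact h1.trans (mul_le_mul_of_nonneg_left (X.h.th_anti (by linarith [hs₀.1]) hs.2.le x) hC.le)
  · exact ((X.h.Sm_deriv isOpen_Ioi (X.h.H_Sm x) hs₀.1 y).continuousAt.mul
      continuousAt_const).continuousWithinAt

/-- Dominated convergence (`H σ x ≤ C θ a x` for `σ ≥ a`). -/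
theorem Crd.Q_cont (x : X.M) : (∀ i j, ContinuousOn (fun s => c.Q s x i j) (Ioc 0 (2 * c.T))) ∧
    ∀ ξ, ContinuousOn (fun s => qf (c.Q s x) ξ) (Ioc 0 (2 * c.T)) := by
  refine ⟨fun i j => ?_, fun ξ => ?_⟩
  · simp only [c.t0b_Q]
    exact c.t0b_cont x (c.Γ2_int _ _)
  · exact (c.t0b_cont x (c.Γ2_int ξ ξ)).congr fun s hs => c.qf_Q hs x ξ

lemma Crd.t0b_ii {a b : ℝ} (ha : a ∈ Ioc 0 (2 * c.T)) (hb : b ∈ Ioc 0 (2 * c.T)) {f : ℝ → ℝ}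
    (hf : ContinuousOn f (Ioc 0 (2 * c.T))) : IntervalIntegrable f volume a b :=
  (hf.mono (ordConnected_Ioc.uIcc_subset ha hb)).intervalIntegrable

theorem Crd.qf_IQ {a b : ℝ} (ha : a ∈ Ioc 0 (2 * c.T)) (hb : b ∈ Ioc 0 (2 * c.T)) (x : X.M) (ξ : V n) :
    IntervalIntegrable (fun s => qf (c.Q s x) ξ) volume a b ∧
      qf (c.IQ a b x) ξ = ∫ s in a..b, 2 * qf (c.Q s x) ξ := by
  refine ⟨c.t0b_ii ha hb ((c.Q_cont x).2 ξ), ?_⟩
  have h1 : ∀ i j, IntervalIntegrable (fun s => ξ i * ξ j * (2 * c.Q s x i j)) volume a b := fun i j =>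
    ((c.t0b_ii ha hb ((c.Q_cont x).1 i j)).const_mul 2).const_mul _
  have h2 : (fun s => 2 * qf (c.Q s x) ξ) = fun s => ∑ i, ∑ j, ξ i * ξ j * (2 * c.Q s x i j) := by
    funext s
    rw [← MC.bf_self, t0b_bf, Finset.mul_sum]
    refine Finset.sum_congr rfl fun i _ => ?_
    rw [Finset.mul_sum]
    exact Finset.sum_congr rfl fun j _ => by ring
  rw [h2, intervalIntegral.integral_finsetSum, ← MC.bf_self, t0b_bf]
  · refine Finset.sum_congr rfl fun i _ => ?_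
    rw [intervalIntegral.integral_finsetSum fun j _ => h1 i j]
    refine Finset.sum_congr rfl fun j _ => ?_
    rw [intervalIntegral.integral_const_mul]
    rfl
  · intro i _
    have := IntervalIntegrable.sum Finset.univ fun j _ => h1 i j
    refine this.congr fun s _ => ?_
    simp only [Finset.sum_apply]

theorem Crd.IQ_psd {a b : ℝ} (ha : 0 < a) (hab : a ≤ b) (hb : b ≤ 2 * c.T) (x : X.M) :
    (c.IQ a b x).PosSemidef := by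
  refine t0b_psd (fun i j => ?_) fun v => ?_
  · simp only [Crd.IQ, Crd.Q, of_apply]
    congr 1
    funext s
    congr 2
    funext y
    exact X.h.Γ2_comm _ _ y
  · rw [(c.qf_IQ ⟨ha, hab.trans hb⟩ ⟨ha.trans_le hab, hb⟩ x v).2]
    refine intervalIntegral.integral_nonneg hab fun s hs => ?_
    have := MC.psd_qf (c.Q_psd ⟨ha.trans_le hs.1, hs.2.trans hb⟩ x) v
    positivity

theorem Crd.IQ_add {a b d : ℝ} (ha : a ∈ Ioc 0 (2 * c.T)) (hb : b ∈ Ioc 0 (2 * c.T))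
    (hd : d ∈ Ioc 0 (2 * c.T)) (x : X.M) : c.IQ a b x + c.IQ b d x = c.IQ a d x := by
  ext i j
  simp only [Crd.IQ, Matrix.add_apply, of_apply]
  exact intervalIntegral.integral_add_adjacent_intervals
    ((c.t0b_ii ha hb ((c.Q_cont x).1 i j)).const_mul 2)
    ((c.t0b_ii hb hd ((c.Q_cont x).1 i j)).const_mul 2)

theorem Crd.IQ_mono {a b a' b' : ℝ} (ha' : 0 < a') (h₁ : a' ≤ a) (hab : a ≤ b) (h₂ : b ≤ b')
    (hb' : b' ≤ 2 * c.T) (x : X.M) (ξ : V n) : qf (c.IQ a b x) ξ ≤ qf (c.IQ a' b' x) ξ := by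
  have ha : 0 < a := ha'.trans_le h₁
  have hb : b ≤ 2 * c.T := h₂.trans hb'
  have m1 : a' ∈ Ioc 0 (2 * c.T) := ⟨ha', h₁.trans (hab.trans hb)⟩
  have m2 : a ∈ Ioc 0 (2 * c.T) := ⟨ha, hab.trans hb⟩
  have m3 : b ∈ Ioc 0 (2 * c.T) := ⟨ha.trans_le hab, hb⟩
  have m4 : b' ∈ Ioc 0 (2 * c.T) := ⟨m3.1.trans_le h₂, hb'⟩
  rw [← c.IQ_add m1 m2 m4, ← c.IQ_add m2 m3 m4, MC.qf_madd, MC.qf_madd]
  have e1 := MC.psd_qf (c.IQ_psd ha' h₁ m2.2 x) ξ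
  have e2 := MC.psd_qf (c.IQ_psd m3.1 h₂ hb' x) ξ
  linarith

end b

section d

omit c in
theorem t0d_cont {f : X.M → ℝ} (hf : MemLp f 2 X.h.m) (x : X.M) :
    ContinuousOn (fun s => X.h.P s f x) (Ioi 0) :=
  (X.h.Sm_cont (X.h.P_Sm hf)).comp (f := fun s : ℝ => (s, x)) (by fun_prop) fun s hs => ⟨hs, mem_univ _⟩

omit c in
theorem t0d_duh {F Q G : X.M → ℝ} (hF : X.h.S F) (hFb : X.h.Bd F) (hG : Continuous G) (hGb : X.h.Bd G)
    (hQ : ∀ y, X.h.Δ F y = Q y + G y) (hQ0 : ∀ y, 0 ≤ Q y) {a b : ℝ} (ha : 0 < a) (hab : a ≤ b) (x : X.M) :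
    X.h.P b F x - X.h.P a F x = (∫ s in a..b, X.h.P s Q x) + ∫ s in a..b, X.h.P s G x := by
  have hs : Icc a b ⊆ Ioi 0 := fun s hs => lt_of_lt_of_le ha hs.1
  have he := X.h.H_Sm x
  have hec := X.h.Sm_cont he
  obtain ⟨B, hB⟩ := X.h.unif_H ha x
  obtain ⟨BG, hBG⟩ := hGb.2
  have hGc : ContinuousOn (fun p : ℝ × X.M => X.h.H p.1 x p.2 * G p.2) (Ioi 0 ×ˢ univ) :=
    hec.mul (hG.comp continuous_snd).continuousOn
  refine (X.h.duh3 (e := fun t => X.h.H t x) (F := fun _ => F) (Q := fun s y => X.h.H s x y * Q y)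
    (G := fun s y => X.h.H s x y * G y) isOpen_Ioi he (Geo.S.Sm hF _) hab hs (X.h.int_L2 ha x hFb.1)
    (X.h.int_L2 (ha.trans_le hab) x hFb.1) ?_ hGc ?_ ?_ ?_).2
  · have hΓ := X.h.Sm_cont (X.h.Sm_Γ isOpen_Ioi he he)
    refine X.h.STI_of_bound (I := Ioi 0) (B := ∫ y, F y ^ 2 ∂X.h.m + B) hs
      (((X.h.S_cont hF).comp continuous_snd).continuousOn.abs.mul (hec.abs.add hΓ.sqrt)) fun s hs' => ?_
    obtain ⟨h1, h2, h3⟩ := hB s hs'.1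
    have iF : Integrable (fun y => F y ^ 2) X.h.m := hFb.1.integrable_sq
    have iH : Integrable (fun y => X.h.H s x y ^ 2) X.h.m := h1.2.1.integrable_sq
    have iΓ := h1.2.2
    have iR : Integrable (fun y => F y ^ 2 + (X.h.H s x y ^ 2 + X.h.Γ (X.h.H s x) (X.h.H s x) y) / 2) X.h.m :=
      iF.add ((iH.add iΓ).div_const 2)
    have hle : ∀ y, |(|F y| * (|X.h.H s x y| + Real.sqrt (X.h.Γ (X.h.H s x) (X.h.H s x) y)))| ≤
        F y ^ 2 + (X.h.H s x y ^ 2 + X.h.Γ (X.h.H s x) (X.h.H s x) y) / 2 := by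
      intro y
      rw [abs_of_nonneg (by positivity)]
      have e1 := Real.sq_sqrt (X.h.Γ_nonneg (X.h.H s x) y)
      nlinarith [sq_nonneg (|F y| - |X.h.H s x y|), sq_abs (F y), sq_abs (X.h.H s x y),
        sq_nonneg (|F y| - Real.sqrt (X.h.Γ (X.h.H s x) (X.h.H s x) y))]
    have hc : Continuous fun y => |F y| * (|X.h.H s x y| + Real.sqrt (X.h.Γ (X.h.H s x) (X.h.H s x) y)) :=
      (X.h.S_cont hF).abs.mul ((X.h.S_cont h1.1).abs.add (X.h.S_cont (X.h.S_Γ h1.1 h1.1)).sqrt)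
    have hi := iR.mono' hc.aestronglyMeasurable (Eventually.of_forall hle)
    refine ⟨hi, (integral_mono hi.abs iR hle).trans ?_⟩
    have iS : Integrable (fun y => (X.h.H s x y ^ 2 + X.h.Γ (X.h.H s x) (X.h.H s x) y) / 2) X.h.m :=
      (iH.add iΓ).div_const 2
    rw [integral_add iF iS, integral_div, integral_add iH iΓ]
    linarith
  · refine X.h.STI_of_bound (I := Ioi 0) (B := BG) hs hGc fun s hs' => ?_
    have hs0 : 0 < s := hs hs'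
    refine ⟨X.h.int_L2 hs0 x hGb.1, ?_⟩
    have h1 := X.h.abs_P_le hs0 x (f := fun y => |G y|) (B := BG) fun y => by rw [abs_abs]; exact hBG y
    refine le_trans (le_of_eq ?_) ((le_abs_self _).trans h1)
    refine integral_congr_ae (Eventually.of_forall fun y => ?_)
    simp only [abs_mul, abs_of_nonneg (X.h.H_nonneg hs0 x y)]
  · intro s hs' y
    have h1 := X.h.H_heat hs' x y
    have h2 : dt (fun _ : ℝ => F) s y = 0 := by simp [dt]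
    rw [h1, h2, hQ y]
    ring
  · intro s hs' y
    exact mul_nonneg (X.h.H_nonneg (hs hs') x y) (hQ0 y)

omit c in
theorem t0d_deriv {F Q G : X.M → ℝ} (hF : X.h.S F) (hFb : X.h.Bd F) (hG : Continuous G) (hGb : X.h.Bd G)
    (hQ : ∀ y, X.h.Δ F y = Q y + G y) (hQ0 : ∀ y, 0 ≤ Q y) {d s : ℝ} (hs : s ∈ Ioo 0 d) (x : X.M)
    (hQc : ContinuousOn (fun σ => X.h.P σ Q x) (Ioo 0 d)) :
    HasDerivAt (fun σ => X.h.P σ F x) (X.h.P s Q x + X.h.P s G x) s := by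
  have hGc : ContinuousOn (fun σ => X.h.P σ G x) (Ioo 0 d) := (t0d_cont hGb.1 x).mono Ioo_subset_Ioi_self
  have ha : 0 < s / 2 := half_pos hs.1
  have hsub : uIcc (s / 2) s ⊆ Ioo 0 d := by
    rw [uIcc_of_le (half_le_self hs.1.le)]
    exact fun σ hσ => ⟨ha.trans_le hσ.1, hσ.2.trans_lt hs.2⟩
  have key : ∀ {f : ℝ → ℝ}, ContinuousOn f (Ioo 0 d) → HasDerivAt (fun σ => ∫ r in (s / 2)..σ, f r) (f s) s :=
    fun hf => intervalIntegral.integral_hasDerivAt_right (hf.mono hsub).intervalIntegrable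
      (hf.stronglyMeasurableAtFilter isOpen_Ioo s hs) (hf.continuousAt (isOpen_Ioo.mem_nhds hs))
  refine (((key hQc).add (key hGc)).const_add (X.h.P (s / 2) F x)).congr_of_eventuallyEq ?_
  filter_upwards [Ioi_mem_nhds (half_lt_self hs.1)] with σ hσ
  have := t0d_duh hF hFb hG hGb hQ hQ0 ha (le_of_lt hσ) x
  simp only [Pi.add_apply]
  linarith

omit c in
theorem t0d_bd_mul {f f' : X.M → ℝ} (hf : X.h.Nice f) (hf' : X.h.Nice f') : X.h.Bd fun y => f y * f' y := by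
  obtain ⟨B, hB⟩ := hf.2
  obtain ⟨B', hB'⟩ := hf'.2
  refine ⟨?_, B * B', fun y => ?_⟩
  · refine (hf'.1.2.1.const_mul B).of_le
      ((X.h.S_cont hf.1.1).mul (X.h.S_cont hf'.1.1)).aestronglyMeasurable (Eventually.of_forall fun y => ?_)
    rw [norm_mul, norm_mul]
    exact mul_le_mul_of_nonneg_right ((hB y).1.trans (le_abs_self B)) (norm_nonneg _)
  · rw [abs_mul]
    exact mul_le_mul (hB y).1 (hB' y).1 (abs_nonneg _) ((abs_nonneg _).trans (hB y).1)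

omit c in
theorem t0d_bd_cmul {f : X.M → ℝ} (hf : X.h.Bd f) (a : ℝ) : X.h.Bd fun y => a * f y := by
  obtain ⟨B, hB⟩ := hf.2
  exact ⟨hf.1.const_mul a, |a| * B, fun y => by rw [abs_mul]; exact mul_le_mul_of_nonneg_left (hB y) (abs_nonneg _)⟩

/-- The error term in `G' = 2Q + er`. -/
def Crd.er (ξ : V n) (y : X.M) : ℝ :=
  2 * X.h.Γ (c.u ξ) (X.h.Δ (c.u ξ)) y - 2 * X.h.k * X.h.Γ (c.u ξ) (c.u ξ) y

omit c in
theorem er_le (n : ℕ) : ∃ C : ℝ, 0 < C ∧ ∀ (X : Sp.{u} n) (c : Crd X) (ξ : V n),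
    Continuous (c.er ξ) ∧ X.h.Bd (c.er ξ) ∧ ∀ y, c.T * |c.er ξ y| ≤ C * (ξ ⬝ᵥ ξ) := by
  obtain ⟨C, hC, hU⟩ := U_bounds.{u} n
  refine ⟨4 * C, by positivity, fun X c ξ => ?_⟩
  have hT := c.T_pos
  obtain ⟨h1, h2⟩ := c.u_nice ξ
  have hb : ∀ y, c.T * |c.er ξ y| ≤ 4 * C * (ξ ⬝ᵥ ξ) := by
    intro y
    obtain ⟨a1, -, a3⟩ := hU X c c.T ⟨by linarith, by linarith⟩ ξ y
    change X.h.Γ (c.u ξ) (c.u ξ) y ≤ _ at a1
    change c.T ^ 2 * X.h.Γ (X.h.Δ (c.u ξ)) (X.h.Δ (c.u ξ)) y ≤ _ at a3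
    have b1 := X.h.abs_Γ_le (c.u ξ) (X.h.Δ (c.u ξ)) y
    have b2 := X.h.Γ_nonneg (c.u ξ) y
    have b3 := X.h.Γ_nonneg (X.h.Δ (c.u ξ)) y
    have b4 := Real.sq_sqrt b2
    have b5 := Real.sq_sqrt b3
    have b6 : 2 * (c.T * |X.h.Γ (c.u ξ) (X.h.Δ (c.u ξ)) y|) ≤ 2 * (C * (ξ ⬝ᵥ ξ)) := by
      have := mul_le_mul_of_nonneg_left b1 hT.le
      nlinarith [sq_nonneg (Real.sqrt (X.h.Γ (c.u ξ) (c.u ξ) y) -
        c.T * Real.sqrt (X.h.Γ (X.h.Δ (c.u ξ)) (X.h.Δ (c.u ξ)) y))]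
    have b7 : |c.er ξ y| ≤ 2 * |X.h.Γ (c.u ξ) (X.h.Δ (c.u ξ)) y| + 2 * X.h.k * X.h.Γ (c.u ξ) (c.u ξ) y := by
      have hk := X.h.k_nonneg
      refine (abs_sub _ _).trans (le_of_eq ?_)
      rw [abs_mul, abs_two, abs_of_nonneg (mul_nonneg (mul_nonneg zero_le_two hk) b2)]
    have b8 : X.h.k * c.T * X.h.Γ (c.u ξ) (c.u ξ) y ≤ 1 * X.h.Γ (c.u ξ) (c.u ξ) y :=
      mul_le_mul_of_nonneg_right (c.kT.trans (by norm_num)) b2
    have := mul_le_mul_of_nonneg_left b7 hT.le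
    nlinarith
  refine ⟨?_, ⟨?_, 4 * C * (ξ ⬝ᵥ ξ) / c.T, fun y => ?_⟩, hb⟩
  · exact (continuous_const.mul (X.h.S_cont (X.h.S_Γ h1.1.1 h2.1.1))).sub
      (continuous_const.mul (X.h.S_cont (X.h.S_Γ h1.1.1 h1.1.1)))
  · exact ((h1.Γ_bd h2).1.const_mul 2).sub ((h1.Γ_bd h1).1.const_mul (2 * X.h.k))
  · rw [le_div_iff₀ hT, mul_comm]
    exact hb y

theorem Crd.t0d_lap (ξ : V n) (y : X.M) :
    X.h.Δ (X.h.Γ (c.u ξ) (c.u ξ)) y = 2 * X.h.Γ2 (c.u ξ) (c.u ξ) y + c.er ξ y := by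
  simp only [Raw.Γ2, Crd.er]
  ring

theorem Crd.t0d_PQ {s : ℝ} (hs : s ∈ Ioc 0 (2 * c.T)) (x : X.M) (ξ : V n) :
    X.h.P s (fun y => 2 * X.h.Γ2 (c.u ξ) (c.u ξ) y) x = 2 * qf (c.Q s x) ξ := by
  rw [X.h.P_cmul, c.qf_Q hs]

/-- Recipe: `duh3` (or `duh1`) with `e = H · x`, `F = Γ(u,u)` independent of time (`Δ Γ(u,u) = 2Γ2 + er` by definition of `Γ2`); continuity in `s` from `P_Sm`, `Q_cont`; FTC. -/
theorem Crd.G_deriv {s : ℝ} (hs : s ∈ Ioo 0 (2 * c.T)) (x : X.M) (ξ : V n) :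
    HasDerivAt (fun s => qf (c.G s x) ξ) (2 * qf (c.Q s x) ξ + X.h.P s (c.er ξ) x) s := by
  obtain ⟨C, -, hC⟩ := er_le.{u} n
  obtain ⟨e1, e2, -⟩ := hC X c ξ
  have h1 := (c.u_nice ξ).1
  have hQc : ContinuousOn (fun σ => X.h.P σ (fun y => 2 * X.h.Γ2 (c.u ξ) (c.u ξ) y) x) (Ioo 0 (2 * c.T)) :=
    ((continuousOn_const.mul ((c.Q_cont x).2 ξ)).mono Ioo_subset_Ioc_self).congr fun σ hσ =>
      c.t0d_PQ (Ioo_subset_Ioc_self hσ) x ξ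
  have := t0d_deriv (X.h.S_Γ h1.1.1 h1.1.1) (h1.Γ_bd h1) e1 e2 (c.t0d_lap ξ)
    (fun y => mul_nonneg zero_le_two (X.h.Γ2_nonneg h1.1.1 y)) hs x hQc
  rw [c.t0d_PQ (Ioo_subset_Ioc_self hs)] at this
  refine this.congr_of_eventuallyEq ?_
  filter_upwards [Ioi_mem_nhds hs.1] with σ hσ
  exact c.qf_G hσ x ξ

theorem Crd.er_cont (x : X.M) (ξ : V n) : ContinuousOn (fun s => X.h.P s (c.er ξ) x) (Ioi 0) := by
  obtain ⟨C, -, hC⟩ := er_le.{u} n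
  exact t0d_cont (hC X c ξ).2.1.1 x

theorem Crd.G_int {a b : ℝ} (ha : 0 < a) (hab : a ≤ b) (hb : b ≤ c.T) (x : X.M) (ξ : V n) :
    qf (c.G b x) ξ - qf (c.G a x) ξ = qf (c.IQ a b x) ξ + ∫ s in a..b, X.h.P s (c.er ξ) x := by
  obtain ⟨C, -, hC⟩ := er_le.{u} n
  obtain ⟨e1, e2, -⟩ := hC X c ξ
  have h1 := (c.u_nice ξ).1
  have hT := c.T_pos
  have := t0d_duh (X.h.S_Γ h1.1.1 h1.1.1) (h1.Γ_bd h1) e1 e2 (c.t0d_lap ξ)
    (fun y => mul_nonneg zero_le_two (X.h.Γ2_nonneg h1.1.1 y)) ha hab x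
  rw [c.qf_G (ha.trans_le hab), c.qf_G ha, this,
    (c.qf_IQ ⟨ha, by linarith⟩ ⟨ha.trans_le hab, by linarith⟩ x ξ).2]
  congr 1
  refine intervalIntegral.integral_congr fun s hs => ?_
  rw [uIcc_of_le hab] at hs
  exact c.t0d_PQ ⟨ha.trans_le hs.1, by linarith [hs.2]⟩ x ξ

/-- `Δ(u²) = 2Γ(u,u) + 2uΔu` is bounded and in `L²`; same recipe, and `P s u = U (s+T)`. -/
theorem Crd.J_deriv {s : ℝ} (hs : 0 < s) (x : X.M) (ξ : V n) :
    HasDerivAt (fun s => qf (c.J s x) ξ)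
      (2 * qf (c.G s x) ξ + 2 * X.h.Cov s x (c.u ξ) (X.h.Δ (c.u ξ))) s ∧
    ContinuousAt (fun s => X.h.Cov s x (c.u ξ) (X.h.Δ (c.u ξ))) s := by
  obtain ⟨h1, h2⟩ := c.u_nice ξ
  have hs' : s ∈ Ioo 0 (s + 1) := ⟨hs, by linarith⟩
  have hb := t0d_bd_mul h1 h2
  constructor
  · have d1 := t0d_deriv (Q := fun y => 2 * X.h.Γ (c.u ξ) (c.u ξ) y)
      (G := fun y => 2 * (c.u ξ y * X.h.Δ (c.u ξ) y)) (X.h.S_mul h1.1.1 h1.1.1) (t0d_bd_mul h1 h1)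
      (continuous_const.mul ((X.h.S_cont h1.1.1).mul (X.h.S_cont h2.1.1))) (t0d_bd_cmul hb 2)
      (fun y => by rw [X.h.Δ_mul h1.1.1 h1.1.1]; ring)
      (fun y => mul_nonneg zero_le_two (X.h.Γ_nonneg _ y)) hs' x
      ((t0d_cont ((h1.Γ_bd h1).1.const_mul 2) x).mono Ioo_subset_Ioi_self)
    have d2 := t0d_deriv (Q := fun y => 0 * c.u ξ y) (G := X.h.Δ (c.u ξ)) h1.1.1 h1.bd (X.h.S_cont h2.1.1) h2.bd
      (fun y => by ring) (fun y => by simp) hs' x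
      ((t0d_cont (h1.1.2.1.const_mul 0) x).mono Ioo_subset_Ioi_self)
    rw [X.h.P_cmul, X.h.P_cmul] at d1
    rw [X.h.P_cmul, zero_mul, zero_add] at d2
    refine ((d1.fun_sub (d2.fun_mul d2)).congr_deriv ?_).congr_of_eventuallyEq ?_
    · rw [c.qf_G hs, HS.Cov]
      ring
    · filter_upwards [Ioi_mem_nhds hs] with σ hσ
      exact c.bf_J hσ x ξ ξ
  · exact ((t0d_cont hb.1 x).sub ((t0d_cont h1.1.2.1 x).mul (t0d_cont h2.1.2.1 x))).continuousAt (Ioi_mem_nhds hs)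

omit c in
theorem G_time (n : ℕ) : ∃ C : ℝ, 0 < C ∧ ∀ (X : Sp.{u} n) (c : Crd X) {a b : ℝ}, 0 < a → a ≤ b →
    b ≤ c.T → ∀ x ξ, |qf (c.G b x) ξ - qf (c.G a x) ξ - qf (c.IQ a b x) ξ| ≤
      C * ((b - a) / c.T) * (ξ ⬝ᵥ ξ) := by
  obtain ⟨C, hC0, hC⟩ := er_le.{u} n
  refine ⟨C, hC0, fun X c a b ha hab hb x ξ => ?_⟩
  have hT := c.T_pos
  rw [c.G_int ha hab hb, add_sub_cancel_left]
  have := intervalIntegral.norm_integral_le_of_norm_le_const (a := a) (b := b) (C := C * (ξ ⬝ᵥ ξ) / c.T)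
    (f := fun s => X.h.P s (c.er ξ) x) fun s hs => by
      rw [uIoc_of_le hab] at hs
      refine X.h.abs_P_le (ha.trans hs.1) x fun y => ?_
      rw [le_div_iff₀ hT, mul_comm]
      exact (hC X c ξ).2.2 y
  rw [Real.norm_eq_abs, abs_of_nonneg (sub_nonneg.2 hab)] at this
  refine this.trans (le_of_eq ?_)
  ring

omit c in
/-- `H_dom` (`δ = 1/2000`, `R = 0`): `Q σ ≤ C Q t` for `t ∈ [1000σ, 2000σ]`; average; `G_time`. -/
theorem Q_le (n : ℕ) : ∃ C : ℝ, 0 < C ∧ ∀ (X : Sp.{u} n) (c : Crd X) {σ : ℝ}, 0 < σ →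
    2000 * σ ≤ c.T → ∀ x ξ, σ * qf (c.Q σ x) ξ ≤
      C * (qf (c.G (2000 * σ) x) ξ - qf (c.G (1000 * σ) x) ξ + C * (σ / c.T) * (ξ ⬝ᵥ ξ)) := by
  obtain ⟨C₁, hC₁, h₁⟩ := H_dom.{u} n 0 (1 / 2000) (by norm_num)
  obtain ⟨C₂, hC₂, h₂⟩ := G_time.{u} n
  refine ⟨C₁ + 1000 * C₂, by positivity, fun X c σ hσ hσT x ξ => ?_⟩
  have hT := c.T_pos
  have hu := c.u_S ξ
  have hξ : 0 ≤ ξ ⬝ᵥ ξ := Finset.sum_nonneg fun i _ => mul_self_nonneg _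
  have hσ' : σ ∈ Ioc 0 (2 * c.T) := ⟨hσ, by linarith⟩
  have ha : 1000 * σ ∈ Ioc 0 (2 * c.T) := ⟨by linarith, by linarith⟩
  have hb : 2000 * σ ∈ Ioc 0 (2 * c.T) := ⟨by linarith, by linarith⟩
  have hab : 1000 * σ ≤ 2000 * σ := by linarith
  have hQ : ∀ t ∈ Icc (1000 * σ) (2000 * σ), 2 * qf (c.Q σ x) ξ ≤ C₁ * (2 * qf (c.Q t x) ξ) := by
    intro t ht
    have ht' : t ∈ Ioc 0 (2 * c.T) := ⟨by linarith [ht.1], by linarith [ht.2]⟩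
    have hok : X.h.ok t := c.ok ht'.1 (by nlinarith [ht'.2])
    have : qf (c.Q σ x) ξ ≤ C₁ * qf (c.Q t x) ξ := by
      rw [c.qf_Q hσ', c.qf_Q ht']
      simp only [HS.P, kerP]
      rw [← integral_const_mul]
      refine integral_mono (c.HΓ2_int hσ' x ξ ξ 0).1 ((c.HΓ2_int ht' x ξ ξ 0).1.const_mul C₁) fun y => ?_
      have := h₁ X hok (s := σ) (by linarith [ht.2]) ht.1 x y
      rw [zero_mul, zero_div, Real.exp_zero, mul_one] at this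
      simp only
      rw [← mul_assoc]
      exact mul_le_mul_of_nonneg_right this (X.h.Γ2_nonneg hu y)
    linarith
  obtain ⟨i1, i2⟩ := c.qf_IQ ha hb x ξ
  have h3 := intervalIntegral.integral_mono_on hab intervalIntegrable_const ((i1.const_mul 2).const_mul C₁) hQ
  rw [intervalIntegral.integral_const, intervalIntegral.integral_const_mul, ← i2, smul_eq_mul] at h3
  have h4 := (abs_le.1 (h₂ X c ha.1 hab hσT x ξ)).1
  have h5 : 0 ≤ qf (c.IQ (1000 * σ) (2000 * σ) x) ξ := MC.psd_qf (c.IQ_psd ha.1 hab hb.2 x) ξ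
  have h6 : 0 ≤ σ / c.T * (ξ ⬝ᵥ ξ) := by positivity
  have h7 : C₂ * ((2000 * σ - 1000 * σ) / c.T) * (ξ ⬝ᵥ ξ) = 1000 * C₂ * (σ / c.T * (ξ ⬝ᵥ ξ)) := by ring
  have h8 : qf (c.IQ (1000 * σ) (2000 * σ) x) ξ ≤ qf (c.G (2000 * σ) x) ξ - qf (c.G (1000 * σ) x) ξ +
      (C₁ + 1000 * C₂) * (σ / c.T) * (ξ ⬝ᵥ ξ) := by
    have := mul_nonneg hC₁.le h6
    nlinarith
  calc σ * qf (c.Q σ x) ξ ≤ (C₁ + 1000 * C₂) * qf (c.IQ (1000 * σ) (2000 * σ) x) ξ := by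
        have := mul_nonneg hC₁.le h5
        have := mul_nonneg hC₂.le h5
        nlinarith
    _ ≤ _ := mul_le_mul_of_nonneg_left h8 (by positivity)

omit c in
/-- `harnack_P` from `(σ, x)` to `(4σ, x')`, substitution `σ ↦ 4σ`. -/
theorem IQ_harnack (n : ℕ) (R : ℝ) : ∃ C : ℝ, 0 < C ∧ ∀ (X : Sp.{u} n) (c : Crd X) {a b : ℝ}, 0 < a →
    a ≤ b → 4 * b ≤ c.T → ∀ x x', dist x x' ≤ R * Real.sqrt a → ∀ ξ,
      qf (c.IQ a b x) ξ ≤ C * qf (c.IQ (4 * a) (4 * b) x') ξ := by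
  refine ⟨4 ^ (2 * n) * Real.exp (R ^ 2) / 4, by positivity, fun X c a b ha hab hb x x' hd ξ => ?_⟩
  have hT := c.T_pos
  have hu := c.u_S ξ
  have ha1 : a ∈ Ioc 0 (2 * c.T) := ⟨ha, by linarith⟩
  have hb1 : b ∈ Ioc 0 (2 * c.T) := ⟨by linarith, by linarith⟩
  have ha4 : 4 * a ∈ Ioc 0 (2 * c.T) := ⟨by linarith, by linarith⟩
  have hb4 : 4 * b ∈ Ioc 0 (2 * c.T) := ⟨by linarith, by linarith⟩
  have hd2 : dist x x' ^ 2 ≤ R ^ 2 * a := by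
    have := pow_le_pow_left₀ dist_nonneg hd 2
    rwa [mul_pow, Real.sq_sqrt ha.le] at this
  have hQ : ∀ s ∈ Icc a b, 2 * qf (c.Q s x) ξ ≤ 4 ^ (2 * n) * Real.exp (R ^ 2) * (2 * qf (c.Q (4 * s) x') ξ) := by
    intro s hs
    have hs0 : 0 < s := ha.trans_le hs.1
    have hs1 : s ∈ Ioc 0 (2 * c.T) := ⟨hs0, by linarith [hs.2]⟩
    have hs4 : 4 * s ∈ Ioc 0 (2 * c.T) := ⟨by linarith, by linarith [hs.2]⟩
    have hk : X.h.k * (4 * s) ≤ 1 := by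
      have h1 : X.h.k * (4 * s) ≤ X.h.k * c.T := mul_le_mul_of_nonneg_left (by linarith [hs.2]) X.h.k_nonneg
      exact h1.trans (c.kT.trans (by norm_num))
    have h1 := (X.h.harnack_P hs0 (by linarith : s < 4 * s) hk x x'
      (X.h.S_cont (X.h.S_Γ2 hu hu)).aestronglyMeasurable (X.h.Γ2_nonneg hu) (c.HΓ2_int hs4 x' ξ ξ 0).1).2
    rw [← c.qf_Q hs1, ← c.qf_Q hs4, mul_div_cancel_right₀ _ hs0.ne'] at h1
    have h2 : 0 ≤ qf (c.Q (4 * s) x') ξ := MC.psd_qf (c.Q_psd hs4 x') ξ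
    have h3 : Real.exp (dist x x' ^ 2 / (2 * (4 * s - s))) ≤ Real.exp (R ^ 2) := by
      refine Real.exp_le_exp.2 ?_
      rw [div_le_iff₀ (by linarith)]
      nlinarith [sq_nonneg R, hs.1]
    have h4 : (4 : ℝ) ^ (2 * n) * Real.exp (dist x x' ^ 2 / (2 * (4 * s - s))) * qf (c.Q (4 * s) x') ξ ≤
        4 ^ (2 * n) * Real.exp (R ^ 2) * qf (c.Q (4 * s) x') ξ :=
      mul_le_mul_of_nonneg_right (mul_le_mul_of_nonneg_left h3 (by positivity)) h2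
    linarith
  obtain ⟨i1, i2⟩ := c.qf_IQ ha1 hb1 x ξ
  obtain ⟨-, i4⟩ := c.qf_IQ ha4 hb4 x' ξ
  have hc : ContinuousOn (fun s => 2 * qf (c.Q (4 * s) x') ξ) (uIcc a b) := by
    rw [uIcc_of_le hab]
    refine continuousOn_const.mul (((c.Q_cont x').2 ξ).comp (f := fun s : ℝ => 4 * s) (by fun_prop) fun s hs => ?_)
    exact ⟨by linarith [hs.1], by linarith [hs.2]⟩
  have h5 := intervalIntegral.integral_mono_on hab (i1.const_mul 2) (hc.intervalIntegrable.const_mul _) hQ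
  rw [intervalIntegral.integral_const_mul (4 ^ (2 * n) * Real.exp (R ^ 2)),
    intervalIntegral.integral_comp_mul_left (fun s => 2 * qf (c.Q s x') ξ) (by norm_num : (4 : ℝ) ≠ 0),
    ← i2, ← i4, smul_eq_mul] at h5
  linarith

end d

end Crest.Agent.R247
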